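import Crest.Agent.R296.CatF_365
import Crest.Prelude.Def_SetTheory

/-!
Row 296 (S0448), helper365.  **Block B, part 2: the forcing relation of `V^(C)`.**

`Fc φ v` : the stage `d` forces the formula `φ` of the language of set theory under the assignment
`v : Fin n → Val C d`.  Recursion on Mathlib's bounded formulas; `falsum` is never forced, atomic formulas
are the regular relations `Eq'`, `Mem'`, implication and universal quantifier range over all the
extensions.  `Fc.mono`, `Fc.dense` (regularity = classical logic), `Fc.congr`, and the usual truth lemmas.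
-/

set_option autoImplicit false

namespace Crest.Agent.R296.CatFrcx365

open CategoryTheory FirstOrder FirstOrder.Language Crest.LogicCS.SetTheory
open Crest.Agent.R296.CatFx365

universe u

variable {C : Type u} [Category.{u} C]

/-- restriction of an assignment -/
def vr {n : ℕ} {d d' : C} (h : d' ⟶ d) (v : Fin n → Val C d) : Fin n → Val C d' :=
  fun i => (v i).res h

@[simp] lemma vr_apply {n : ℕ} {d d' : C} (h : d' ⟶ d) (v : Fin n → Val C d) (i : Fin n) :
    vr h v i = (v i).res h := rfl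

@[simp] lemma vr_id {n : ℕ} {d : C} (v : Fin n → Val C d) : vr (𝟙 d) v = v := by
  funext i; simp

@[simp] lemma vr_vr {n : ℕ} {d d' d'' : C} (h : d' ⟶ d) (g : d'' ⟶ d') (v : Fin n → Val C d) :
    vr g (vr h v) = vr (g ≫ h) v := by
  funext i; simp

/-- extension of an assignment by one value -/
def sn {n : ℕ} {d : C} (v : Fin n → Val C d) (x : Val C d) : Fin (n + 1) → Val C d :=
  Fin.snoc (α := fun _ => Val C d) v x

@[simp] lemma sn_last {n : ℕ} {d : C} (v : Fin n → Val C d) (x : Val C d) :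
    sn v x (Fin.last n) = x := by simp [sn]

@[simp] lemma sn_castSucc {n : ℕ} {d : C} (v : Fin n → Val C d) (x : Val C d) (i : Fin n) :
    sn v x i.castSucc = v i := by simp [sn]

@[simp] lemma vr_sn {n : ℕ} {d d' : C} (h : d' ⟶ d) (v : Fin n → Val C d) (x : Val C d) :
    vr h (sn v x) = sn (vr h v) (x.res h) := by
  funext i
  refine Fin.lastCases ?_ (fun j => ?_) i <;> simp

/-- value of a term (the language has no function symbols) -/
def tv {n : ℕ} {d : C} (v : Fin n → Val C d) : setL.Term (Empty ⊕ Fin n) → Val C d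
  | .var (.inl a) => a.elim
  | .var (.inr i) => v i
  | .func f _ => Empty.elim f

@[simp] lemma tv_vr {n : ℕ} {d d' : C} (h : d' ⟶ d) (v : Fin n → Val C d)
    (t : setL.Term (Empty ⊕ Fin n)) : tv (vr h v) t = (tv v t).res h := by
  cases t with
  | var a =>
    cases a with
    | inl a => exact a.elim
    | inr i => rfl
  | func f ts => exact Empty.elim f

/-- interpretation of the relation symbols -/
def rl {d : C} : ∀ {l : ℕ}, SetRel l → (Fin l → Val C d) → Prop
  | _, .mem, w => Mem' (w 0) (w 1)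

/-- **the forcing relation** -/
def Fc : ∀ {n : ℕ}, setL.BoundedFormula Empty n → ∀ {d : C}, (Fin n → Val C d) → Prop
  | _, .falsum, _, _ => False
  | _, .equal t1 t2, _, v => Eq' (tv v t1) (tv v t2)
  | _, .rel R ts, _, v => rl R (fun i => tv v (ts i))
  | _, .imp p q, d, v => ∀ (d' : C) (h : d' ⟶ d), Fc p (vr h v) → Fc q (vr h v)
  | _, .all p, d, v => ∀ (d' : C) (h : d' ⟶ d) (x : Val C d'), Fc p (sn (vr h v) x)

/-- the empty assignment -/
def e0 (d : C) : Fin 0 → Val C d := Fin.elim0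

@[simp] lemma vr_e0 {d d' : C} (h : d' ⟶ d) : vr h (e0 d) = e0 d' := by
  funext i; exact i.elim0

/-- a stage forces a sentence -/
def Fs (d : C) (φ : setL.Sentence) : Prop := Fc (C := C) (n := 0) φ (e0 d)

lemma rl_mono {d d' : C} (h : d' ⟶ d) {l : ℕ} (R : SetRel l) (w : Fin l → Val C d)
    (H : rl R w) : rl R (fun i => (w i).res h) := by
  cases R with
  | mem => exact Mem'.res H h

lemma rl_dense {d : C} {l : ℕ} (R : SetRel l) (w : Fin l → Val C d)
    (H : ∀ (d1 : C) (g : d1 ⟶ d), ∃ (d2 : C) (m : d2 ⟶ d1), rl R (fun i => (w i).res (m ≫ g))) :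
    rl R w := by
  cases R with
  | mem => exact Mem'.of_dense H

lemma rl_congr {d : C} {l : ℕ} (R : SetRel l) (w w' : Fin l → Val C d)
    (h : ∀ i, Eq' (w i) (w' i)) (H : rl R w) : rl R w' := by
  cases R with
  | mem => exact Mem'.congr (h 0) (h 1) H

lemma Fc.mono {n : ℕ} (φ : setL.BoundedFormula Empty n) : ∀ {d d' : C} (h : d' ⟶ d)
    (v : Fin n → Val C d), Fc φ v → Fc φ (vr h v) := by
  induction φ with
  | falsum => intro d d' h v H; exact H
  | equal t1 t2 =>
    intro d d' h v H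
    simp only [Fc, tv_vr] at H ⊢
    exact H.res h
  | rel R ts =>
    intro d d' h v H
    simp only [Fc, tv_vr] at H ⊢
    exact rl_mono h R _ H
  | imp p q _ _ =>
    intro d d' h v H d1 g hp
    rw [vr_vr] at hp ⊢
    exact H d1 _ hp
  | all p _ =>
    intro d d' h v H d1 g x
    rw [vr_vr]
    exact H d1 _ x

/-- **regularity**: what is forced on a dense set of extensions is forced -/
lemma Fc.dense {n : ℕ} (φ : setL.BoundedFormula Empty n) : ∀ {d : C} (v : Fin n → Val C d),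
    (∀ (d1 : C) (g : d1 ⟶ d), ∃ (d2 : C) (m : d2 ⟶ d1), Fc φ (vr (m ≫ g) v)) → Fc φ v := by
  induction φ with
  | falsum =>
    intro d v H
    obtain ⟨_, _, h⟩ := H d (𝟙 d)
    exact h
  | equal t1 t2 =>
    intro d v H
    simp only [Fc, tv_vr] at H ⊢
    exact Eq'.of_dense H
  | rel R ts =>
    intro d v H
    simp only [Fc, tv_vr] at H ⊢
    exact rl_dense R _ H
  | imp p q _ ihq =>
    intro d v H d1 g hp
    refine ihq _ fun d2 k => ?_
    obtain ⟨d3, m, h3⟩ := H d2 (k ≫ g)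
    refine ⟨d3, m, ?_⟩
    have h4 := h3 d3 (𝟙 d3)
    simp only [vr_vr, Category.id_comp, Category.assoc] at h4 ⊢
    have h5 := Fc.mono p (m ≫ k) (vr g v) hp
    simp only [vr_vr, Category.assoc] at h5
    exact h4 h5
  | all p ihp =>
    intro d v H d1 g x
    refine ihp _ fun d2 k => ?_
    obtain ⟨d3, m, h3⟩ := H d2 (k ≫ g)
    refine ⟨d3, m, ?_⟩
    have h4 := h3 d3 (𝟙 d3) (x.res (m ≫ k))
    simpa using h4

lemma tv_congr {n : ℕ} {d : C} (v w : Fin n → Val C d) (h : ∀ i, Eq' (v i) (w i))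
    (t : setL.Term (Empty ⊕ Fin n)) : Eq' (tv v t) (tv w t) := by
  cases t with
  | var a =>
    cases a with
    | inl a => exact a.elim
    | inr i => exact h i
  | func f ts => exact Empty.elim f

lemma sn_congr {n : ℕ} {d : C} {v w : Fin n → Val C d} (h : ∀ i, Eq' (v i) (w i))
    {x y : Val C d} (hx : Eq' x y) (i : Fin (n + 1)) : Eq' (sn v x i) (sn w y i) := by
  refine Fin.lastCases ?_ (fun j => ?_) i
  · simpa using hx
  · simpa using h j

lemma Fc.congr {n : ℕ} (φ : setL.BoundedFormula Empty n) : ∀ {d : C} (v w : Fin n → Val C d),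
    (∀ i, Eq' (v i) (w i)) → Fc φ v → Fc φ w := by
  induction φ with
  | falsum => intro d v w _ H; exact H
  | equal t1 t2 =>
    intro d v w h H
    simp only [Fc] at H ⊢
    exact ((tv_congr v w h t1).symm.trans H).trans (tv_congr v w h t2)
  | rel R ts =>
    intro d v w h H
    simp only [Fc] at H ⊢
    exact rl_congr R _ _ (fun i => tv_congr v w h (ts i)) H
  | imp p q ihp ihq =>
    intro d v w h H d1 g hp
    have h1 : ∀ i, Eq' (vr g v i) (vr g w i) := fun i => (h i).res g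
    exact ihq _ _ h1 (H d1 g (ihp _ _ (fun i => (h1 i).symm) hp))
  | all p ihp =>
    intro d v w h H d1 g x
    exact ihp _ _ (fun i => sn_congr (fun j => (h j).res g) (Eq'.refl x) i) (H d1 g x)

lemma Fc.congr_iff {n : ℕ} (φ : setL.BoundedFormula Empty n) {d : C} (v w : Fin n → Val C d)
    (h : ∀ i, Eq' (v i) (w i)) : Fc φ v ↔ Fc φ w :=
  ⟨Fc.congr φ v w h, Fc.congr φ w v fun i => (h i).symm⟩

/-! ### truth lemmas -/

section truth

variable {n : ℕ} {d : C}

lemma fc_falsum (v : Fin n → Val C d) : Fc (⊥ : setL.BoundedFormula Empty n) v ↔ False := Iff.rfl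

lemma fc_imp (p q : setL.BoundedFormula Empty n) (v : Fin n → Val C d) : Fc (p ⟹ q) v ↔
    ∀ (d' : C) (h : d' ⟶ d), Fc p (vr h v) → Fc q (vr h v) := Iff.rfl

lemma fc_all (p : setL.BoundedFormula Empty (n + 1)) (v : Fin n → Val C d) : Fc (∀' p) v ↔
    ∀ (d' : C) (h : d' ⟶ d) (x : Val C d'), Fc p (sn (vr h v) x) := Iff.rfl

lemma fc_not (p : setL.BoundedFormula Empty n) (v : Fin n → Val C d) : Fc (∼p) v ↔
    ∀ (d' : C) (h : d' ⟶ d), ¬ Fc p (vr h v) := Iff.rfl

lemma fc_and (p q : setL.BoundedFormula Empty n) (v : Fin n → Val C d) : Fc (p ⊓ q) v ↔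
    Fc p v ∧ Fc q v := by
  have h0 : Fc (p ⊓ q) v ↔ ∀ (d' : C) (h : d' ⟶ d), ¬ (∀ (d'' : C) (g : d'' ⟶ d'),
      Fc p (vr g (vr h v)) → ∀ (d3 : C) (k : d3 ⟶ d''), ¬ Fc q (vr k (vr g (vr h v)))) := Iff.rfl
  rw [h0]
  constructor
  · intro H
    constructor
    · refine Fc.dense p v fun d1 g => ?_
      have h1 := H d1 g
      push Not at h1
      obtain ⟨d2, m, h2, -⟩ := h1
      exact ⟨d2, m, by simpa using h2⟩
    · refine Fc.dense q v fun d1 g => ?_
      have h1 := H d1 g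
      push Not at h1
      obtain ⟨d2, m, -, d3, k, h3⟩ := h1
      exact ⟨d3, k ≫ m, by simpa using h3⟩
  · rintro ⟨hp, hq⟩ d' h H
    refine H d' (𝟙 d') ?_ d' (𝟙 d') ?_
    · simpa using Fc.mono p h v hp
    · simpa using Fc.mono q h v hq

lemma fc_or (p q : setL.BoundedFormula Empty n) (v : Fin n → Val C d) : Fc (p ⊔ q) v ↔
    ∀ (d1 : C) (g : d1 ⟶ d), ∃ (d2 : C) (m : d2 ⟶ d1),
      Fc p (vr (m ≫ g) v) ∨ Fc q (vr (m ≫ g) v) := by
  have h0 : Fc (p ⊔ q) v ↔ ∀ (d' : C) (h : d' ⟶ d), (∀ (d'' : C) (g : d'' ⟶ d'),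
      ¬ Fc p (vr g (vr h v))) → Fc q (vr h v) := Iff.rfl
  rw [h0]
  constructor
  · intro H d1 g
    by_cases h1 : ∀ (d'' : C) (k : d'' ⟶ d1), ¬ Fc p (vr k (vr g v))
    · exact ⟨d1, 𝟙 d1, Or.inr (by simpa using H d1 g h1)⟩
    · push Not at h1
      obtain ⟨d2, m, h2⟩ := h1
      exact ⟨d2, m, Or.inl (by simpa using h2)⟩
  · intro H d1 g h1
    refine Fc.dense q _ fun d2 k => ?_
    obtain ⟨d3, m, h3⟩ := H d2 (k ≫ g)
    rcases h3 with h3 | h3
    · exact absurd (by simpa using h3) (h1 d3 (m ≫ k))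
    · exact ⟨d3, m, by simpa using h3⟩

lemma fc_ex (p : setL.BoundedFormula Empty (n + 1)) (v : Fin n → Val C d) : Fc (∃' p) v ↔
    ∀ (d1 : C) (g : d1 ⟶ d), ∃ (d2 : C) (m : d2 ⟶ d1) (x : Val C d2), Fc p (sn (vr (m ≫ g) v) x) := by
  have h0 : Fc (∃' p) v ↔ ∀ (d' : C) (h : d' ⟶ d), ¬ (∀ (d'' : C) (g : d'' ⟶ d') (x : Val C d''),
      ∀ (d3 : C) (k : d3 ⟶ d''), ¬ Fc p (vr k (sn (vr g (vr h v)) x))) := Iff.rfl
  rw [h0]
  constructor
  · intro H d1 g
    have h1 := H d1 g
    push Not at h1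
    obtain ⟨d2, m, x, d3, k, h3⟩ := h1
    exact ⟨d3, k ≫ m, x.res k, by simpa using h3⟩
  · intro H d1 g h1
    obtain ⟨d2, m, x, h2⟩ := H d1 g
    exact h1 d2 m x d2 (𝟙 d2) (by simpa using h2)

lemma fc_iff (p q : setL.BoundedFormula Empty n) (v : Fin n → Val C d) : Fc (p ⇔ q) v ↔
    ∀ (d' : C) (h : d' ⟶ d), Fc p (vr h v) ↔ Fc q (vr h v) := by
  have h0 : Fc (p ⇔ q) v ↔ Fc ((p ⟹ q) ⊓ (q ⟹ p)) v := Iff.rfl
  rw [h0, fc_and, fc_imp, fc_imp]
  exact ⟨fun H d' h => ⟨H.1 d' h, H.2 d' h⟩, fun H => ⟨fun d' h => (H d' h).1, fun d' h => (H d' h).2⟩⟩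

lemma fc_veq (i j : Fin n) (v : Fin n → Val C d) : Fc (veq i j) v ↔ Eq' (v i) (v j) := Iff.rfl

lemma fc_vmem (i j : Fin n) (v : Fin n → Val C d) : Fc (vmem i j) v ↔ Mem' (v i) (v j) := Iff.rfl

end truth

end Crest.Agent.R296.CatFrcx365
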