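import Crest.Agent.R296.CondC_153
import Crest.Agent.R296.CatFrc_365

/-!
Row 296 (S0448), helper929.  **Block C: free amalgamation and locality over the label category `Cond P`.**

* `GenS` (Gen for small sets), `LetS` (new letter for small sets);
* `Compat`, `Cond.union`, `push`, `pushArr : f·c ⟶ c`, `pull`, `pullArr : c ⟶ k⁻¹c`, `pullInc`, `Full`;
* `fa` free amalgamation, `am` amalgamation of an arrow with a full arrow;
* locality: `fc_full`, `eq_full`, `mem_full` (a full arrow reflects forcing).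
-/

set_option autoImplicit false

namespace Crest.Agent.R296.Locx929

open CategoryTheory
open Crest.Agent.R296.CatFx365 Crest.Agent.R296.CatFrcx365 Crest.Agent.R296.IfAx378
open Crest.Agent.R296.CondCx153

variable {P : Type 1} [Monoid P]

/-! ### conditions -/

/-- compatible sets of labels -/
def Compat (c d : Set (P × Lab)) : Prop := ∀ s l, (s, l) ∈ c → (s, Lab.neg l) ∉ d

omit [Monoid P] in
lemma Compat.symm {c d : Set (P × Lab)} (h : Compat c d) : Compat d c :=
  fun s l h1 h2 => h s _ h2 (by simpa using h1)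

omit [Monoid P] in
lemma Compat.mono {c d c' d' : Set (P × Lab)} (h : Compat c d) (hc : c' ⊆ c) (hd : d' ⊆ d) :
    Compat c' d' := fun s l h1 h2 => h s l (hc h1) (hd h2)

/-- the arrow at the same position -/
def inc {w c : Cond P} (h : c.q ⊆ w.q) : w ⟶ c := mkHom 1 (by rwa [psh_one])

@[simp] lemma inc_val {w c : Cond P} (h : c.q ⊆ w.q) : (inc h).1 = 1 := rfl

lemma arr_mem {w c : Cond P} (f : w ⟶ c) {s : P} {l : Lab} (h : (s, l) ∈ c.q) :
    (f.1 * s, l) ∈ w.q := psh_subset.1 f.2 s l h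

/-- arrow -/
def arr {w c : Cond P} (f : P) (h : ∀ s l, (s, l) ∈ c.q → (f * s, l) ∈ w.q) : w ⟶ c :=
  mkHom f (psh_subset.2 h)

@[simp] lemma arr_val {w c : Cond P} (f : P) (h : ∀ s l, (s, l) ∈ c.q → (f * s, l) ∈ w.q) :
    (arr f h).1 = f := rfl

/-- union of compatible conditions -/
def un (c d : Cond P) (h : Compat c.q d.q) : Cond P := ⟨c.q ∪ d.q, c.h.union d.h h⟩

lemma left_le_un {c d : Cond P} (h : Compat c.q d.q) : c.q ⊆ (un c d h).q := Set.subset_union_left
lemma right_le_un {c d : Cond P} (h : Compat c.q d.q) : d.q ⊆ (un c d h).q := Set.subset_union_right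

/-- the support -/
def supp (c : Cond P) : Set P := {s | ∃ l, (s, l) ∈ c.q}

instance small_supp (c : Cond P) : Small.{0} (supp c) := by
  have := c.h.small
  refine small_of_surjective (α := c.q) (β := supp c) (f := fun x => ⟨x.1.1, x.1.2, x.2⟩) ?_
  rintro ⟨s, l, h⟩
  exact ⟨⟨(s, l), h⟩, rfl⟩

omit [Monoid P] in
lemma small_one (x : P) : Small.{0} ({x} : Set P) := inferInstance

/-- full arrow: all the labels of `d` on `kP` come from `d'` -/
def Full {d d' : Cond P} (k : d ⟶ d') : Prop := ∀ s l, (k.1 * s, l) ∈ d.q → (s, l) ∈ d'.q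

section good
variable [IsGood P]

/-- `f · c` -/
def push (f : P) (c : Cond P) : Cond P := ⟨psh f c.q, c.h.psh f⟩

/-- the arrow `f·c ⟶ c` -/
def pushArr (f : P) (c : Cond P) : push f c ⟶ c := mkHom f subset_rfl

@[simp] lemma pushArr_val (f : P) (c : Cond P) : (pushArr f c).1 = f := rfl

/-- `k⁻¹ · c` -/
def pull (k : P) (c : Cond P) : Cond P := ⟨pul k c.q, c.h.pul k⟩

/-- the arrow `c ⟶ k⁻¹·c` -/
def pullArr (k : P) (c : Cond P) : c ⟶ pull k c := arr k fun _ _ h => h

@[simp] lemma pullArr_val (k : P) (c : Cond P) : (pullArr k c).1 = k := rfl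

/-- an arrow `k : d ⟶ c` factors through `k⁻¹ d` -/
def pullInc {d c : Cond P} (k : d ⟶ c) : pull k.1 d ⟶ c :=
  inc (psh_subset_iff_pul.1 k.2)

lemma pull_fac {d c : Cond P} (k : d ⟶ c) : pullArr k.1 d ≫ pullInc k = k := by
  ext; simp [pullInc]

lemma full_pullArr (k : P) (c : Cond P) : Full (pullArr k c) := fun _ _ h => h

lemma full_pushArr (k : P) (c : Cond P) : Full (pushArr k c) := fun _ _ h => mul_mem_psh.1 h

end good

/-! ### Gen for small sets -/

/-- (Gen) for small sets -/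
def GenS (P : Type 1) [Monoid P] : Prop := ∀ (a b : P) (S : Set P), Small.{0} S → a ≠ 1 → b ≠ 1 →
  (1 : P) ∉ S → ∃ y, y * a = b ∧ ∀ s ∈ S, ∀ x, s ∣ y * x → b ∣ y * x

/-- a new letter for small sets -/
def LetS (P : Type 1) [Monoid P] : Prop := ∀ S : Set P, Small.{0} S → (1 : P) ∉ S →
  ∃ k : P, k ≠ 1 ∧ ∀ s ∈ S, Disj k s

lemma exists_ne_one (hl : LetS P) : ∃ k : P, k ≠ 1 := by
  obtain ⟨k, hk, -⟩ := hl ∅ inferInstance (by simp)
  exact ⟨k, hk⟩

section good
variable [IsGood P]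

lemma mul_ne_one_left {k : P} (hk : k ≠ 1) (x : P) : k * x ≠ 1 :=
  fun h => hk (IsGood.unit _ _ h)

lemma mul_ne_one_right {k : P} (hk : k ≠ 1) (x : P) : x * k ≠ 1 := by
  intro h
  have h1 := IsGood.unit _ _ h
  rw [h1, one_mul] at h
  exact hk h

/-- free amalgamation -/
theorem fa (hG : GenS P) (hl : LetS P) (h k : P) :
    ∃ h' k', h' * h = k' * k ∧ ∀ x y, h' * x = k' * y → ∃ t, x = h * t ∧ y = k * t := by
  by_cases h1 : h = 1
  · subst h1
    refine ⟨k, 1, by simp, fun x y hxy => ⟨x, by simp, ?_⟩⟩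
    rw [one_mul] at hxy
    exact hxy.symm
  · obtain ⟨k', hk'⟩ := exists_ne_one hl
    obtain ⟨y, hy, hS⟩ := hG h (k' * k) {k'} (small_one k') h1 (mul_ne_one_left hk' k)
      (by simpa using hk'.symm)
    refine ⟨y, k', hy, fun u v huv => ?_⟩
    obtain ⟨t, ht⟩ := hS k' rfl u ⟨v, huv⟩
    refine ⟨t, IsGood.lc y _ _ ?_, IsGood.lc k' _ _ ?_⟩
    · rw [ht, ← mul_assoc, hy]
    · rw [← huv, ht, mul_assoc]

/-- amalgamation of an arrow with a full arrow -/
theorem am (hG : GenS P) (hl : LetS P) {d d' e : Cond P} (k : d ⟶ d') (hk : Full k)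
    (h : e ⟶ d') : ∃ (e' : Cond P) (m : e' ⟶ e) (m' : e' ⟶ d), m ≫ h = m' ≫ k := by
  obtain ⟨h', k', h1, h2⟩ := fa hG hl h.1 k.1
  have hc : Compat (push h' e).q (push k' d).q := by
    intro z l h3 h4
    obtain ⟨s, h5, rfl⟩ := mem_psh.1 h3
    obtain ⟨t, h6, h7⟩ := mem_psh.1 h4
    obtain ⟨u, rfl, rfl⟩ := h2 s t h7
    exact e.h.con _ _ h5 (arr_mem h (hk _ _ h6))
  refine ⟨un _ _ hc, arr h' fun s l hs => Or.inl (mem_psh.2 ⟨s, hs, rfl⟩),
    arr k' fun s l hs => Or.inr (mem_psh.2 ⟨s, hs, rfl⟩), ?_⟩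
  ext
  simpa using h1

/-! ### locality -/

section loc
variable (hG : GenS P) (hl : LetS P)
include hG hl

/-- locality for formulas: a full arrow reflects forcing -/
theorem fc_full {n : ℕ} (φ : Crest.LogicCS.SetTheory.setL.BoundedFormula Empty n) {d d' : Cond P}
    (k : d ⟶ d') (hk : Full k) (v : Fin n → Val (Cond P) d') (H : Fc φ (vr k v)) : Fc φ v := by
  refine Fc.dense φ v fun e h => ?_
  obtain ⟨e', m, m', h1⟩ := am hG hl k hk h
  refine ⟨e', m, ?_⟩
  rw [h1, ← vr_vr]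
  exact Fc.mono φ m' _ H

theorem eq_full {d d' : Cond P} (k : d ⟶ d') (hk : Full k) (x y : Val (Cond P) d')
    (H : Eq' (x.res k) (y.res k)) : Eq' x y := by
  refine Eq'.of_dense fun e h => ?_
  obtain ⟨e', m, m', h1⟩ := am hG hl k hk h
  refine ⟨e', m, ?_⟩
  rw [h1, ← Val.res_res, ← Val.res_res]
  exact H.res m'

theorem mem_full {d d' : Cond P} (k : d ⟶ d') (hk : Full k) (x y : Val (Cond P) d')
    (H : Mem' (x.res k) (y.res k)) : Mem' x y := by
  refine Mem'.of_dense fun e h => ?_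
  obtain ⟨e', m, m', h1⟩ := am hG hl k hk h
  refine ⟨e', m, ?_⟩
  rw [h1, ← Val.res_res, ← Val.res_res]
  exact H.res m'

end loc

end good

end Crest.Agent.R296.Locx929
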