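import Crest.Agent.R296.CatAcwo_622
import Crest.Agent.R296.Loc_929

/-!
Row 296 (S0448), helper622.  **Block C.1: the label category `Cond P` has the projection property, hence
forces `acwoAx`.**  Uses only `IsGood P`, `GenS P` and a non-unit `f0`.
-/

set_option autoImplicit false

namespace Crest.Agent.R296.ACWOx622

open CategoryTheory FirstOrder FirstOrder.Language Crest.LogicCS.SetTheory
open Crest.Agent.R296.CatFx365 Crest.Agent.R296.CatFrcx365 Crest.Agent.R296.IfAx378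
open Crest.Agent.R296.CondCx153 Crest.Agent.R296.Locx929 Crest.Agent.R296.CatAcwox622

variable {P : Type 1} [Monoid P] [IsGood P]

/-- **the projection property of the label category** -/
theorem proj_cond (hG : GenS P) (f0 : P) (hf0 : f0 ≠ 1) : Proj (Cond P) := by
  intro c0
  refine ⟨push f0 c0, pushArr f0 c0, fun D hD1 hD2 m h => ?_⟩
  -- the condition `t = (h f0)⁻¹ m`
  have ht : c0.q ⊆ (pull (h.1 * f0) m).q := by
    rintro ⟨s, l⟩ hs
    have h1 : (f0 * s, l) ∈ (push f0 c0).q := mem_psh.2 ⟨s, hs, rfl⟩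
    have h2 := arr_mem h h1
    rw [← mul_assoc] at h2
    exact h2
  obtain ⟨n0, a0, hn0⟩ := hD2 (pull (h.1 * f0) m) (inc ht)
  -- an arrow different from `1` and `f0`
  obtain ⟨n, a, hn, ha1, ha2⟩ : ∃ (n : Cond P) (a : n ⟶ pull (h.1 * f0) m), D n (a ≫ inc ht) ∧
      a.1 ≠ 1 ∧ a.1 ≠ f0 := by
    refine ⟨push f0 (push f0 n0), pushArr f0 _ ≫ pushArr f0 n0 ≫ a0, ?_, ?_, ?_⟩
    · have h1 := hD1 _ _ (pushArr f0 (push f0 n0) ≫ pushArr f0 n0) _ hn0
      simpa using h1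
    · change f0 * (f0 * a0.1) ≠ 1
      exact mul_ne_one_left hf0 _
    · change f0 * (f0 * a0.1) ≠ f0
      intro h1
      have h2 : f0 * a0.1 = 1 := IsGood.lc f0 _ _ (by rw [h1, mul_one])
      exact mul_ne_one_left hf0 _ h2
  -- the generic `q`
  have hS : Small.{0} {s : P | s ≠ 1 ∧ ∃ l, (h.1 * s, l) ∈ m.q} := by
    have h1 : Small.{0} (supp (pull h.1 m)) := small_supp _
    exact small_subset (t := {s : P | s ≠ 1 ∧ ∃ l, (h.1 * s, l) ∈ m.q}) (s := supp (pull h.1 m))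
      (fun s hs => hs.2)
  obtain ⟨q, hq, hgen⟩ := hG a.1 f0 {s : P | s ≠ 1 ∧ ∃ l, (h.1 * s, l) ∈ m.q} hS ha1 hf0
    (fun hx => hx.1 rfl)
  have hq1 : q ≠ 1 := by
    rintro rfl
    rw [one_mul] at hq
    exact ha2 hq
  -- the monomorphism `1 : q n ⟶ f0 c0`
  have hi : (push f0 c0).q ⊆ (push q n).q := by
    rintro ⟨p, l⟩ hp
    obtain ⟨s, hs, rfl⟩ := mem_psh.1 hp
    refine mem_psh.2 ⟨a.1 * s, arr_mem a (ht hs), ?_⟩
    have h5 : f0 * s = (q * a.1) * s := congrArg (· * s) hq.symm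
    rw [h5, mul_assoc]
  -- the union
  have hc : Compat m.q (push (h.1 * q) n).q := by
    intro z l hz hz'
    obtain ⟨s', hs', rfl⟩ := mem_psh.1 hz'
    have h1 : q * s' ≠ 1 := mul_ne_one_left hq1 _
    rw [mul_assoc] at hz
    obtain ⟨r, hr⟩ := hgen (q * s') ⟨h1, l, hz⟩ s' ⟨1, by rw [mul_one]⟩
    have h2 : s' = a.1 * r := by
      refine IsGood.lc q _ _ ?_
      rw [hr, ← mul_assoc, hq]
    have h3 : (r, l) ∈ (pull (h.1 * f0) m).q := by
      change ((h.1 * f0) * r, l) ∈ m.q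
      rw [mul_assoc, ← hr]
      exact hz
    have h4 := arr_mem a h3
    rw [← h2] at h4
    exact n.h.con _ _ h4 hs'
  refine ⟨un _ _ hc, inc (left_le_un hc), push q n, inc hi, arr h.1 fun s l hs => ?_, ?_, ?_, ?_⟩
  · refine Or.inr ?_
    obtain ⟨t, ht', rfl⟩ := mem_psh.1 hs
    exact mem_psh.2 ⟨t, ht', by rw [mul_assoc]⟩
  · refine ⟨fun g g' hgg => ?_⟩
    ext
    have h1 := congrArg Subtype.val hgg
    simpa using h1
  · have h1 := hD1 _ _ (pushArr q n) _ hn
    have h2 : pushArr q n ≫ a ≫ inc ht = inc hi ≫ pushArr f0 c0 := by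
      ext
      simp [hq]
    rwa [h2] at h1
  · ext
    simp

/-- **`acwoAx` is forced over the label category** -/
theorem acwo_cond (hG : GenS P) (f0 : P) (hf0 : f0 ≠ 1) (c : Cond P) : Fs c acwoAx :=
  acwo_forced (proj_cond hG f0 hf0) c

end Crest.Agent.R296.ACWOx622
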