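import Crest.Agent.R296.IfA_378

/-!
# Row 296, block A: the capturing lemma A.6 (leaf A-CAP), helper565
-/

set_option autoImplicit false

universe u v w

namespace Crest.Agent.R296.ACapx565

open Crest.Agent.R296.IfAx378

/-! ### one step of type (S2), abstract form -/

section s2
variable {P : Type u} {P' : Type v} [Monoid P] [Monoid P'] {ι : P →* P'} {y : Ltr P → P'}
  {len : P' → ℕ}

/-- `s` divides an element with first letter `l`: then `l ∈ s H`, or the element is reducible -/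
theorem first_letter (H : S2All ι y len) {s : P} {l : Ltr P} {u x : P'}
    (h : ι s * u = y l * x) (hx : ¬ ι l.d.a ∣ x) : ∃ l2, l.Eqv (Ltr.smul s l2) := by
  rcases H.nf u with ⟨p, rfl⟩ | ⟨l2, x2, rfl, hx2⟩
  · exact absurd (by rw [map_mul]; exact h.symm) (H.new l x (s * p) hx)
  · rw [← mul_assoc, H.act] at h
    exact ⟨l2, (H.uniq l x (Ltr.smul s l2) x2 hx hx2 h.symm).1⟩

/-- the value of a letter at `b` -/
theorem exists_val (l : Ltr P) {z : P} (hz : l.d.C.Mem z) : ∃ x, z = l.r * x := hz.1 _ l.hr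

/-- values of the letter are divisible by `s` if `l ∈ s H` -/
theorem dvd_val (hP : IsGood P) {s : P} {l l2 : Ltr P} (h : l.Eqv (Ltr.smul s l2)) {z x : P}
    (hz : l.d.C.Mem z) (hx : z = l.r * x) : s ∣ l.s * x := by
  obtain ⟨hd, t, t', h1, h2⟩ := h
  have h3 : l2.r * t' ∈ l.d.C.S := l.d.C.dom _ _ (l.d.C.symm _ _ h2)
  obtain ⟨q, hq⟩ := hz.1 _ h3
  have h4 : z = l.r * t * q := hz.2 _ _ q h2 hq
  have h5 : x = t * q := by
    apply hP.lc l.r
    rw [← hx, h4, mul_assoc]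
  rw [h5, ← mul_assoc, h1]
  show s ∣ s * l2.s * t' * q
  exact ⟨l2.s * t' * q, by simp only [mul_assoc]⟩

/-- common multiples of an old element and `x` factor through one of length `≤ len x` -/
theorem lcm_len (H : S2All ι y len) : ∀ (n : ℕ) (x : P'), len x ≤ n → ∀ (a : P) (z v : P'),
    ι a * z = x * v → ∃ z0 v0 t, ι a * z0 = x * v0 ∧ v = v0 * t ∧ len (x * v0) ≤ len x := by
  intro n
  induction n with
  | zero =>
    intro x hx a z v h
    rcases H.nf x with ⟨p, rfl⟩ | ⟨l, x1, rfl, hx1⟩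
    · obtain ⟨x1, y1, t, h1, h2, h3⟩ := H.cons.amal _ _ _ _ h
      refine ⟨ι x1, ι y1, t, ?_, h3, ?_⟩
      · rw [← map_mul, ← map_mul, h1]
      · rw [← map_mul, H.len_ι, H.len_ι]
    · rw [H.len_y l x1 hx1] at hx
      omega
  | succ n ih =>
    intro x hx a z v h
    rcases H.nf x with ⟨p, rfl⟩ | ⟨l, x1, rfl, hx1⟩
    · obtain ⟨x1, y1, t, h1, h2, h3⟩ := H.cons.amal _ _ _ _ h
      refine ⟨ι x1, ι y1, t, ?_, h3, ?_⟩
      · rw [← map_mul, ← map_mul, h1]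
      · rw [← map_mul, H.len_ι, H.len_ι]
    · rw [H.len_y l x1 hx1] at hx
      by_cases hd : ι l.d.a ∣ x1 * v
      · obtain ⟨z1, hz1⟩ := hd
        obtain ⟨z1', v1, t1, g1, g2, g3⟩ := ih x1 (by omega) l.d.a z1 v hz1.symm
        obtain ⟨xb, hxb⟩ := exists_val l l.d.b_mem
        have hrel := H.rel l xb hxb
        -- `x v1 = e z1'`
        have k1 : y l * x1 * v1 = ι (l.s * xb) * z1' := by
          rw [mul_assoc, ← g1, ← mul_assoc, hrel]
        have k2 : len z1' ≤ len x1 := by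
          rw [← H.len_mul l.d.a z1', g1]
          exact g3
        have k3 : ι a * z = ι (l.s * xb) * (z1' * t1) := by
          rw [h, g2, ← mul_assoc, k1, mul_assoc]
        obtain ⟨p1, q1, t2, m1, m2, m3⟩ := H.cons.amal _ _ _ _ k3
        obtain ⟨t2', t1', t3, r1, r2, r3⟩ := ih z1' (by omega) q1 t2 t1 m3.symm
        refine ⟨ι p1 * t2', v1 * t1', t3, ?_, ?_, ?_⟩
        · rw [← mul_assoc (y l * x1), k1, mul_assoc, ← r1, ← mul_assoc, ← mul_assoc, ← map_mul,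
            ← map_mul, m1]
        · rw [g2, r2, mul_assoc]
        · rw [← mul_assoc (y l * x1), k1, mul_assoc, H.len_mul, H.len_y l x1 hx1]
          omega
      · rw [mul_assoc] at h
        obtain ⟨l2, hl2⟩ := first_letter H h hd
        have e : y l = ι a * y l2 := by
          rw [H.act]
          exact (H.eqv _ _).mp hl2
        refine ⟨y l2 * x1, 1, v, ?_, by rw [one_mul], ?_⟩
        · rw [mul_one, ← mul_assoc, ← e]
        · rw [mul_one]

end s2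

/-! ### the tower -/

section tower
variable {P : Type 1} [Monoid P] (T : Tower P)

/-- divisibility descends -/
theorem dvd_down {β : Ordinal.{0}} {f g : P} (hf : f ∈ T.A β) (hg : g ∈ T.A β) (h : f ∣ g) :
    ∃ x ∈ T.A β, g = f * x := by
  obtain ⟨c, hc⟩ := h
  have h1 : (T.A β).subtype ⟨f, hf⟩ * c = (T.A β).subtype ⟨g, hg⟩ * 1 := by
    show f * c = g * 1
    rw [mul_one, hc]
  obtain ⟨x, z, t, h2, h3, h4⟩ := (T.cons β).amal _ _ _ _ h1
  have h5 : (z : P) = 1 := T.good.unit _ _ h4.symm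
  refine ⟨x, x.2, ?_⟩
  have h6 := congrArg Subtype.val h2
  have h7 : f * (x : P) = g * (z : P) := h6
  rw [h5, mul_one] at h7
  exact h7.symm

/-- common multiples descend -/
theorem common_down {β : Ordinal.{0}} {f g : P} (hf : f ∈ T.A β) (hg : g ∈ T.A β) {x z : P}
    (h : f * x = g * z) : ∃ x1 ∈ T.A β, ∃ z1 ∈ T.A β, ∃ t, f * x1 = g * z1 ∧ x = x1 * t ∧ z = z1 * t := by
  obtain ⟨x1, z1, t, h2, h3, h4⟩ := (T.cons β).amal ⟨f, hf⟩ ⟨g, hg⟩ x z h
  exact ⟨x1, x1.2, z1, z1.2, t, congrArg Subtype.val h2, h3, h4⟩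

theorem isGood (β : Ordinal.{0}) : IsGood (T.A β) where
  lc f g h hh := Subtype.ext (T.good.lc f g h (congrArg Subtype.val hh))
  unit f g hh := Subtype.ext (T.good.unit f g (congrArg Subtype.val hh))
  lcm f g x z h := by
    obtain ⟨u, v, h1, h2⟩ := T.good.lcm (f : P) g x z (congrArg Subtype.val h)
    obtain ⟨u1, hu1, v1, hv1, t, h3, h4, h5⟩ := common_down T f.2 g.2 h1
    refine ⟨⟨u1, hu1⟩, ⟨v1, hv1⟩, Subtype.ext h3, ?_⟩
    intro x' y' hxy
    -- `t = 1`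
    obtain ⟨t', ht1, ht2⟩ := h2 u1 v1 h3
    have ht : t' * t = 1 := by
      apply T.good.lc u
      rw [← mul_assoc, ← ht1, ← h4, mul_one]
    have ht' : t' = 1 := T.good.unit _ _ ht
    rw [ht', mul_one] at ht1 ht2
    obtain ⟨q, hq1, hq2⟩ := h2 x' y' (congrArg Subtype.val hxy)
    rw [← ht1] at hq1
    rw [← ht2] at hq2
    obtain ⟨q1, hq1', hq3⟩ := dvd_down T hu1 x'.2 ⟨q, hq1⟩
    have hqq : q = q1 := T.good.lc u1 _ _ (hq1.symm.trans hq3)
    exact ⟨⟨q1, hq1'⟩, Subtype.ext hq3, Subtype.ext (by rw [hq2, hqq]; rfl)⟩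

/-- one step of type (S1) -/
theorem step1 {β : Ordinal.{0}} (hβ : β % 2 = 0) {w : P} (hw : w ∈ T.A (Order.succ β))
    (hw' : w ∉ T.A β) :
    ∃ s0 ∈ T.A β, s0 ∣ w ∧ (∀ x, w * x ∉ T.A β) ∧ ∀ s ∈ T.A β, ∀ x, s ∣ w * x → s ∣ s0 := by
  have H := T.s1 β hβ
  set ι := Submonoid.inclusion (T.mono (Order.le_succ β)) with hι
  rcases H.nf ⟨w, hw⟩ with ⟨p, hp⟩ | ⟨s0, i, j, w', hw1⟩
  · refine absurd ?_ hw'
    have : w = (p : P) := congrArg Subtype.val hp
    rw [this]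
    exact p.2
  have hwv : w = (s0 : P) * ((T.κ β i j : P) * (w' : P)) := by
    have := congrArg Subtype.val hw1
    rw [mul_assoc] at this
    exact this
  refine ⟨s0, s0.2, ⟨_, hwv⟩, ?_, ?_⟩
  · intro x hx
    obtain ⟨x1, hx1, hx2⟩ := dvd_down T hw (T.mono (Order.le_succ β) hx) ⟨x, rfl⟩
    have h1 : ι s0 * T.κ β i j * (w' * ⟨x1, hx1⟩) = ι ⟨w * x, hx⟩ := by
      rw [← mul_assoc, ← hw1]
      exact Subtype.ext hx2.symm
    exact H.new _ _ _ _ _ h1
  · rintro s hs x ⟨z, hz⟩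
    obtain ⟨x1, hx1, z1, hz1, t, h1, h2, h3⟩ := common_down T hw
      (T.mono (Order.le_succ β) hs) hz
    have h4 : ι ⟨s, hs⟩ ∣ ι s0 * T.κ β i j * (w' * ⟨x1, hx1⟩) := by
      refine ⟨⟨z1, hz1⟩, ?_⟩
      rw [← mul_assoc, ← hw1]
      exact Subtype.ext h1
    obtain ⟨q, hq⟩ := (H.dvd _ _ _ _ _).mp h4
    exact ⟨q, congrArg Subtype.val hq⟩

/-- data of a new element at a step of type (S2): `e = h(b)`, `p = h(p)`; `hC` = the letter is in `sH` -/
theorem step2_core {β : Ordinal.{0}} (hβ : β % 2 = 1) (l : Ltr (T.A β))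
    (x : T.A (Order.succ β)) :
    ∃ e ∈ T.A β, ∃ p ∈ T.A β, p ∣ e ∧ ¬ e ∣ p ∧
      (∀ s (hs : s ∈ T.A β), (∃ l2, l.Eqv (Ltr.smul ⟨s, hs⟩ l2)) → s ∣ p) ∧
      (∀ x', (T.y β l : P) * x * x' ∈ T.A β → e ∣ (T.y β l : P) * x * x') := by
  have H := T.s2 β hβ
  set ι := Submonoid.inclusion (T.mono (Order.le_succ β)) with hι
  obtain ⟨p, hp1, hp2, hp3⟩ := l.d.ex_p
  obtain ⟨xb, hxb⟩ := exists_val l l.d.b_mem
  obtain ⟨xp, hxp⟩ := exists_val l hp1
  have hG := isGood T β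
  refine ⟨((l.s * xb : T.A β) : P), (l.s * xb).2, ((l.s * xp : T.A β) : P), (l.s * xp).2,
    ?_, ?_, ?_, ?_⟩
  · obtain ⟨q, hq⟩ := hp2
    have h1 : xb = xp * q := by
      apply hG.lc l.r
      rw [← hxb, hq, hxp, mul_assoc]
    refine ⟨(q : P), ?_⟩
    rw [h1, ← mul_assoc]
    rfl
  · rintro ⟨q, hq⟩
    obtain ⟨q1, hq1, hq2⟩ := dvd_down T (l.s * xb).2 (l.s * xp).2 ⟨q, hq⟩
    apply hp3
    refine ⟨⟨q1, hq1⟩, ?_⟩
    have h1 : l.s * xp = l.s * (xb * ⟨q1, hq1⟩) := by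
      rw [← mul_assoc]
      exact Subtype.ext hq2
    have h2 := hG.lc _ _ _ h1
    rw [hxp, hxb, h2, mul_assoc]
  · rintro s hs ⟨l2, hl2⟩
    obtain ⟨q, hq⟩ := dvd_val hG hl2 hp1 hxp
    exact ⟨(q : P), congrArg Subtype.val hq⟩
  · intro x' hx'
    obtain ⟨x1, hx1, hx2⟩ := dvd_down T (T.y β l * x).2 (T.mono (Order.le_succ β) hx')
      ⟨x', rfl⟩
    have h1 : T.y β l * (x * ⟨x1, hx1⟩) = ι ⟨_, hx'⟩ := by
      rw [← mul_assoc]
      exact Subtype.ext hx2.symm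
    by_cases hd : ι l.d.a ∣ x * ⟨x1, hx1⟩
    · obtain ⟨z, hz⟩ := hd
      have h2 : ι ⟨_, hx'⟩ = ι (l.s * xb) * z := by
        rw [← h1, hz, ← mul_assoc, H.rel l xb hxb]
      exact ⟨(z : P), congrArg Subtype.val h2⟩
    · exact absurd h1 (H.new _ _ _ hd)

/-- the parity of an ordinal -/
theorem parity (β : Ordinal.{0}) : β % 2 = 0 ∨ β % 2 = 1 := by
  have h : β % 2 < 2 := Ordinal.mod_lt β (by norm_num)
  have h2 : (2 : Ordinal.{0}) = Order.succ 1 := by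
    rw [← one_add_one_eq_two]; rfl
  have h3 : β % 2 < Order.succ 1 := h.trans_eq h2
  rw [Order.lt_succ_iff] at h3
  rcases h3.lt_or_eq with h | h
  · left
    exact Order.lt_one_iff.mp h
  · right; exact h

/-- **STEP** -/
theorem step {β : Ordinal.{0}} {w : P} (hw : w ∈ T.A (Order.succ β)) (hw' : w ∉ T.A β) :
    ∃ e ∈ T.A β, ∃ p ∈ T.A β, p ∣ e ∧ ¬ e ∣ p ∧ (∀ s ∈ T.A β, s ∣ w → s ∣ p) ∧
      (∀ x, w * x ∈ T.A β → e ∣ w * x) := by
  rcases parity β with hβ | hβ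
  · obtain ⟨s0, h0, h1, h2, h3⟩ := step1 T hβ hw hw'
    refine ⟨s0 * T.f0, mul_mem h0 (T.mono zero_le T.f0_mem), s0, h0, ⟨_, rfl⟩, ?_, ?_, ?_⟩
    · rintro ⟨q, hq⟩
      have h4 : T.f0 * q = 1 := by
        apply T.good.lc s0
        rw [← mul_assoc, ← hq, mul_one]
      exact T.f0_ne (T.good.unit _ _ h4)
    · intro s hs hsw
      exact h3 s hs 1 (by rw [mul_one]; exact hsw)
    · intro x hx
      exact absurd hx (h2 x)
  · have H := T.s2 β hβ
    rcases H.nf ⟨w, hw⟩ with ⟨p, hp⟩ | ⟨l, x, hwx, hx⟩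
    · refine absurd ?_ hw'
      have : w = (p : P) := congrArg Subtype.val hp
      rw [this]
      exact p.2
    have hwv : w = (T.y β l : P) * (x : P) := congrArg Subtype.val hwx
    obtain ⟨e, he, p, hp, h1, h2, h3, h4⟩ := step2_core T hβ l x
    refine ⟨e, he, p, hp, h1, h2, ?_, ?_⟩
    · rintro s hs hsw
      obtain ⟨z, hz, hz2⟩ := dvd_down T (T.mono (Order.le_succ β) hs) hw hsw
      refine h3 s hs ?_
      apply first_letter H (u := ⟨z, hz⟩) (x := x) _ hx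
      rw [← hwx]
      exact Subtype.ext hz2.symm
    · intro x' hx'
      rw [hwv] at hx' ⊢
      exact h4 x' hx'

/-- the CLAIM of A.6 -/
theorem claim (F : Filt P) (α : Ordinal.{0}) : ∀ γ : Ordinal.{0}, α ≤ γ → ∀ d ∈ T.A γ,
    (∀ s ∈ T.A α, s ∈ F.S → s ∣ d) →
    (∀ w ∈ T.A α, (∀ s ∈ T.A α, s ∈ F.S → s ∣ w) → d ∣ w) → d ∈ T.A α := by
  intro γ
  induction γ using WellFoundedLT.induction with
  | ind γ ih =>
  intro hαγ d hd h1 h2
  by_cases hdα : d ∈ T.A α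
  · exact hdα
  rcases eq_or_lt_of_le hαγ with rfl | hlt
  · exact hd
  rcases Ordinal.zero_or_succ_or_isSuccLimit γ with rfl | ⟨γ', rfl⟩ | hlim
  · exact absurd hlt (not_lt.mpr zero_le)
  · have hαγ' : α ≤ γ' := Order.lt_succ_iff.mp hlt
    by_cases hdγ : d ∈ T.A γ'
    · exact ih γ' (Order.lt_succ γ') hαγ' d hdγ h1 h2
    exfalso
    obtain ⟨e, he, p, hp, k1, k2, k3, k4⟩ := step T hd hdγ
    have hsp : ∀ s ∈ T.A α, s ∈ F.S → s ∣ p := fun s hs hsF =>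
      k3 s (T.mono hαγ' hs) (h1 s hs hsF)
    have hwe : ∀ w ∈ T.A α, (∀ s ∈ T.A α, s ∈ F.S → s ∣ w) → e ∣ w := by
      intro w hw hws
      obtain ⟨x, hx⟩ := h2 w hw hws
      rw [hx]
      apply k4
      rw [← hx]
      exact T.mono hαγ' hw
    have hpα : p ∈ T.A α := ih γ' (Order.lt_succ γ') hαγ' p hp hsp
      (fun w hw hws => k1.trans (hwe w hw hws))
    exact k2 (hwe p hpα hsp)
  · obtain ⟨δ, hδ, hdδ⟩ := T.lim γ hlim d hd
    rcases le_total α δ with h | h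
    · exact ih δ hδ h d hdδ h1 h2
    · exact T.mono h hdδ

/-- **STEPF**: a bad element of the filter of minimal length -/
theorem stepF (F : Filt P) {β : Ordinal.{0}} {V : P} (hV : V ∈ T.A (Order.succ β)) (hVF : V ∈ F.S)
    (hbad : ∀ m ∈ T.A β, m ∈ F.S → ¬ V ∣ m) :
    ∃ V' ∈ F.S, ∃ e ∈ T.A β, ∃ p ∈ T.A β, p ∣ e ∧ ¬ e ∣ p ∧
      (∀ s ∈ T.A β, s ∈ F.S → s ∣ p) ∧ (∀ x, V' * x ∈ T.A β → e ∣ V' * x) := by
  have hVβ : V ∉ T.A β := fun h => hbad V h hVF (dvd_refl V)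
  rcases parity β with hβ | hβ
  · obtain ⟨s0, h0, h1, h2, h3⟩ := step1 T hβ hV hVβ
    refine ⟨V, hVF, s0 * T.f0, mul_mem h0 (T.mono zero_le T.f0_mem), s0, h0, ⟨_, rfl⟩,
      ?_, ?_, ?_⟩
    · rintro ⟨q, hq⟩
      have h4 : T.f0 * q = 1 := by
        apply T.good.lc s0
        rw [← mul_assoc, ← hq, mul_one]
      exact T.f0_ne (T.good.unit _ _ h4)
    · intro s hs hsF
      obtain ⟨m, hm, hsm, x, hx⟩ := F.dir s V hsF hVF
      exact h3 s hs x (by rw [← hx]; exact hsm)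
    · intro x hx
      exact absurd hx (h2 x)
  · have H := T.s2 β hβ
    set ι := Submonoid.inclusion (T.mono (Order.le_succ β)) with hι
    -- induction on the length
    have key : ∀ n : ℕ, ∀ V : T.A (Order.succ β), T.len β V ≤ n → (V : P) ∈ F.S →
        (∀ m ∈ T.A β, m ∈ F.S → ¬ (V : P) ∣ m) →
        ∃ V' ∈ F.S, ∃ e ∈ T.A β, ∃ p ∈ T.A β, p ∣ e ∧ ¬ e ∣ p ∧
          (∀ s ∈ T.A β, s ∈ F.S → s ∣ p) ∧ (∀ x, V' * x ∈ T.A β → e ∣ V' * x) := by
      intro n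
      induction n with
      | zero =>
        intro V hn hVF hbad
        rcases H.nf V with ⟨p, hp⟩ | ⟨l, x, hwx, hx⟩
        · exact absurd (dvd_refl (V : P)) (hbad (V : P) (by rw [hp]; exact p.2) hVF)
        · rw [hwx, H.len_y l x hx] at hn
          omega
      | succ n ih =>
        intro V hn hVF hbad
        rcases H.nf V with ⟨p, hp⟩ | ⟨l, x, hwx, hx⟩
        · exact absurd (dvd_refl (V : P)) (hbad (V : P) (by rw [hp]; exact p.2) hVF)
        have hVx : (V : P) = (T.y β l : P) * (x : P) := congrArg Subtype.val hwx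
        by_cases hall : ∀ s (hs : s ∈ T.A β), s ∈ F.S → ∃ l2, l.Eqv (Ltr.smul ⟨s, hs⟩ l2)
        · obtain ⟨e, he, p, hp, h1, h2, h3, h4⟩ := step2_core T hβ l x
          refine ⟨V, hVF, e, he, p, hp, h1, h2, fun s hs hsF => h3 s hs (hall s hs hsF), ?_⟩
          intro x' hx'
          rw [hVx] at hx' ⊢
          exact h4 x' hx'
        · push Not at hall
          obtain ⟨s, hs, hsF, hno⟩ := hall
          obtain ⟨m, hm, ⟨z, hz⟩, ⟨v', hv'⟩⟩ := F.dir s V hsF hVF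
          obtain ⟨z1, hz1, v1, hv1, t, g1, g2, g3⟩ := common_down T
            (T.mono (Order.le_succ β) hs) V.2 (hz.symm.trans hv')
          have g4 : ι ⟨s, hs⟩ * ⟨z1, hz1⟩ = T.y β l * (x * ⟨v1, hv1⟩) := by
            rw [← mul_assoc, ← hwx]
            exact Subtype.ext g1
          have hd : ι l.d.a ∣ x * ⟨v1, hv1⟩ := by
            by_contra hd
            obtain ⟨l2, hl2⟩ := first_letter H g4 hd
            exact hno l2 hl2
          obtain ⟨q, hq⟩ := hd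
          obtain ⟨z0, v0, t', r1, r2, r3⟩ := lcm_len H (T.len β x) x le_rfl l.d.a q ⟨v1, hv1⟩
            hq.symm
          obtain ⟨xb, hxb⟩ := exists_val l l.d.b_mem
          have e1 : V * v0 = ι (l.s * xb) * z0 := by
            rw [hwx, mul_assoc, ← r1, ← mul_assoc, H.rel l xb hxb]
          have e2 : T.len β (V * v0) ≤ n := by
            rw [e1, H.len_mul, ← H.len_mul l.d.a z0, r1]
            rw [hwx, H.len_y l x hx] at hn
            omega
          have e3 : ((V * v0 : T.A (Order.succ β)) : P) ∣ m := by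
            refine ⟨(t' : P) * t, ?_⟩
            rw [hv', g3]
            have : v1 = (v0 : P) * (t' : P) := congrArg Subtype.val r2
            rw [this]
            simp only [Submonoid.coe_mul, mul_assoc]
          refine ih (V * v0) e2 (F.up _ _ e3 hm) ?_
          intro m' hm' hm'F hdv
          exact hbad m' hm' hm'F ((Dvd.intro _ rfl).trans hdv)
    exact key _ ⟨V, hV⟩ le_rfl hVF hbad

/-- **A-CAP = A.6** -/
theorem cap : StCap T := by
  intro F α hyp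
  by_contra hcon
  -- the least stage at which `F` is not generated
  have hex : ∃ β : Ordinal.{0}, ∃ s ∈ T.A β, s ∈ F.S ∧ ∀ m ∈ T.A α, m ∈ F.S → ¬ s ∣ m := by
    unfold GenBy at hcon
    push Not at hcon
    obtain ⟨s, hs, hs2⟩ := hcon
    obtain ⟨β, hβ⟩ := T.exh s
    exact ⟨β, s, hβ, hs, fun m hm hmF => hs2 m hm hmF⟩
  obtain ⟨β0, hβ0, hmin⟩ : ∃ β0 : Ordinal.{0},
      (∃ s ∈ T.A β0, s ∈ F.S ∧ ∀ m ∈ T.A α, m ∈ F.S → ¬ s ∣ m) ∧
      ∀ γ < β0, ¬ ∃ s ∈ T.A γ, s ∈ F.S ∧ ∀ m ∈ T.A α, m ∈ F.S → ¬ s ∣ m := by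
    obtain ⟨β0, h1, h2⟩ := (wellFounded_lt (α := Ordinal.{0})).has_min
      {β | ∃ s ∈ T.A β, s ∈ F.S ∧ ∀ m ∈ T.A α, m ∈ F.S → ¬ s ∣ m} hex
    exact ⟨β0, h1, fun γ hγ h => h2 γ h hγ⟩
  obtain ⟨V, hV, hVF, hbad⟩ := hβ0
  have hαβ : α < β0 := by
    by_contra h
    push Not at h
    exact hbad V (T.mono h hV) hVF (dvd_refl V)
  rcases Ordinal.zero_or_succ_or_isSuccLimit β0 with rfl | ⟨β, rfl⟩ | hlim
  · exact absurd hαβ (not_lt.mpr zero_le)
  · have hαβ' : α ≤ β := Order.lt_succ_iff.mp hαβ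
    have hG : ∀ s ∈ T.A β, s ∈ F.S → ∃ m ∈ T.A α, m ∈ F.S ∧ s ∣ m := by
      intro s hs hsF
      by_contra h
      push Not at h
      exact hmin β (Order.lt_succ β) ⟨s, hs, hsF, fun m hm hmF => h m hm hmF⟩
    have hbad' : ∀ m ∈ T.A β, m ∈ F.S → ¬ V ∣ m := by
      intro m hm hmF hVm
      obtain ⟨m', hm', hm'F, h⟩ := hG m hm hmF
      exact hbad m' hm' hm'F (hVm.trans h)
    obtain ⟨V', hV'F, e, he, p, hp, k1, k2, k3, k4⟩ := stepF T F hV hVF hbad'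
    have hsp : ∀ s ∈ T.A α, s ∈ F.S → s ∣ p := fun s hs hsF => k3 s (T.mono hαβ' hs) hsF
    have hwe : ∀ w ∈ T.A α, (∀ s ∈ T.A α, s ∈ F.S → s ∣ w) → e ∣ w := by
      intro w hw hws
      obtain ⟨x, hx⟩ := hyp w hw hws V' hV'F
      rw [hx]
      apply k4
      rw [← hx]
      exact T.mono hαβ' hw
    have hpα : p ∈ T.A α := claim T F α β hαβ' p hp hsp
      (fun w hw hws => k1.trans (hwe w hw hws))
    exact k2 (hwe p hpα hsp)
  · obtain ⟨δ, hδ, hVδ⟩ := T.lim β0 hlim V hV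
    exact hmin δ hδ ⟨V, hVδ, hVF, hbad⟩

end tower

end Crest.Agent.R296.ACapx565

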