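import Mathlib

/-!
# Row 296 (S0448), block A, leaf A-H (helper667): closed sets over a good monoid

`Good P` : left cancellative, `1` is the only unit, right LCM.
`Clo P` : closed sets `(S, R)` (378's LEANPLAN 2126 (S)): `S` = the filter (all `s` with `sP ∈ F`),
`R s r` = "the germ `[s,r]` lies in `Q`".
`Clo.H C` = germs of partial maps defined near `F`, modulo `Q`: pairs `(s, r)`, `r ∈ S`, modulo
`(s,r) ≈ (s',r') ↔ ∃ t t', s t = s' t' ∧ R (r t) (r' t')`.
`e b : H → P`, `[s,r] ↦ s (r⁻¹ b)` for `b ∈ C`.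
(H1) `smul_cancel`, (H2) `smul_lcm`, (H3) `e_smul_ne`.
-/

set_option autoImplicit false

namespace Crest.Agent.R296.AHx667

/-- good monoids -/
structure Good (P : Type*) [Monoid P] : Prop where
  lc : ∀ f g h : P, f * g = f * h → g = h
  unit : ∀ f g : P, f * g = 1 → f = 1
  lcm : ∀ f g x y : P, f * x = g * y →
    ∃ u v, f * u = g * v ∧ ∀ x y, f * x = g * y → ∃ t, x = u * t ∧ y = v * t

section

variable {P : Type*} [Monoid P]

variable (P) in
/-- closed sets -/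
structure Clo where
  S : P → Prop
  R : P → P → Prop
  one : S 1
  dvd : ∀ u v, S (u * v) → S u
  dir : ∀ s t, S s → S t → ∃ x y, s * x = t * y ∧ S (s * x)
  refl : ∀ s, S s → R s s
  symm : ∀ s r, R s r → R r s
  trans : ∀ s r t, R s r → R r t → R s t
  memr : ∀ s r, R s r → S r
  ext : ∀ s r t, R s r → S (r * t) → R (s * t) (r * t)
  res : ∀ s r t, R (s * t) (r * t) → R s r

namespace Clo

variable (C : Clo P)

theorem meml {s r : P} (h : C.R s r) : C.S s := C.memr _ _ (C.symm _ _ h)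

/-- `b ∈ C` -/
def Mem (b : P) : Prop := ∀ s r, C.R s r → ∃ x, b = s * x ∧ b = r * x

theorem Mem.dvd {C : Clo P} {b : P} (h : C.Mem b) {s : P} (hs : C.S s) : ∃ x, b = s * x := by
  obtain ⟨x, hx, -⟩ := h s s (C.refl s hs)
  exact ⟨x, hx⟩

/-- pairs `(s, r)` with `r ∈ S` -/
def Pre : Type _ := {q : P × P // C.S q.2}

variable {C} in
/-- equality of germs modulo `Q` -/
def Rel (x y : C.Pre) : Prop := ∃ t t', x.1.1 * t = y.1.1 * t' ∧ C.R (x.1.2 * t) (y.1.2 * t')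

theorem rel_refl (x : C.Pre) : Rel x x := ⟨1, 1, rfl, by rw [mul_one]; exact C.refl _ x.2⟩

theorem rel_symm {x y : C.Pre} : Rel x y → Rel y x := fun ⟨t, t', h, h'⟩ =>
  ⟨t', t, h.symm, C.symm _ _ h'⟩

theorem rel_trans (hP : Good P) {x y z : C.Pre} : Rel x y → Rel y z → Rel x z := by
  rintro ⟨t, t', h1, h2⟩ ⟨v, v', h3, h4⟩
  obtain ⟨c, d, hcd, hS⟩ := C.dir _ _ (C.memr _ _ h2) (C.meml h4)
  have e : t' * c = v * d := hP.lc y.1.2 _ _ (by rw [← mul_assoc, ← mul_assoc]; exact hcd)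
  refine ⟨t * c, v' * d, ?_, ?_⟩
  · rw [← mul_assoc, h1, mul_assoc, e, ← mul_assoc, h3, mul_assoc]
  · have a1 : C.R (x.1.2 * (t * c)) (y.1.2 * (t' * c)) := by
      have := C.ext _ _ c h2 hS
      rwa [mul_assoc, mul_assoc] at this
    have a2 : C.R (z.1.2 * (v' * d)) (y.1.2 * (v * d)) := by
      have := C.ext _ _ d (C.symm _ _ h4) (by rw [← hcd]; exact hS)
      rwa [mul_assoc, mul_assoc] at this
    rw [e] at a1
    exact C.trans _ _ _ a1 (C.symm _ _ a2)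

/-- the setoid of germs modulo `Q` -/
def stp (hP : Good P) : Setoid C.Pre where
  r := Rel
  iseqv := ⟨C.rel_refl, C.rel_symm, C.rel_trans hP⟩

/-- **the left `P`-set `H` of a closed set** -/
def H (hP : Good P) : Type _ := Quotient (C.stp hP)

variable {hP : Good P}

/-- the germ `[s, r]` -/
def gm (hP : Good P) (s r : P) (h : C.S r) : C.H hP := Quotient.mk (C.stp hP) ⟨(s, r), h⟩

theorem gm_eq_iff {s r s' r' : P} {h : C.S r} {h' : C.S r'} :
    C.gm hP s r h = C.gm hP s' r' h' ↔ ∃ t t', s * t = s' * t' ∧ C.R (r * t) (r' * t') :=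
  ⟨fun e => Quotient.exact (s := C.stp hP) e, fun e => Quotient.sound (s := C.stp hP) e⟩

theorem exists_gm (h : C.H hP) : ∃ s r hr, h = C.gm hP s r hr := by
  induction h using Quotient.inductionOn with
  | _ x => exact ⟨x.1.1, x.1.2, x.2, rfl⟩

theorem gm_ext {s r t : P} (h : C.S r) (h' : C.S (r * t)) :
    C.gm hP (s * t) (r * t) h' = C.gm hP s r h :=
  C.gm_eq_iff.2 ⟨1, t, by rw [mul_one], by rw [mul_one]; exact C.refl _ h'⟩

/-- the action of `P` -/
instance actH : MulAction P (C.H hP) where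
  smul p := Quotient.map' (s₁ := C.stp hP) (s₂ := C.stp hP)
    (fun x : C.Pre => (⟨(p * x.1.1, x.1.2), x.2⟩ : C.Pre)) (by
      rintro x y ⟨t, t', h, h'⟩
      exact ⟨t, t', by simp only [mul_assoc, h], h'⟩)
  one_smul h := by
    obtain ⟨s, r, hr, rfl⟩ := C.exists_gm h
    change C.gm hP (1 * s) r hr = _
    simp only [one_mul]
  mul_smul p q h := by
    obtain ⟨s, r, hr, rfl⟩ := C.exists_gm h
    change C.gm hP (p * q * s) r hr = C.gm hP (p * (q * s)) r hr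
    simp only [mul_assoc]

@[simp] theorem smul_gm (p s r : P) (h : C.S r) : p • C.gm hP s r h = C.gm hP (p * s) r h := rfl

/-- (H1) -/
theorem smul_cancel {p : P} {h h' : C.H hP} (e : p • h = p • h') : h = h' := by
  obtain ⟨s, r, hr, rfl⟩ := C.exists_gm h
  obtain ⟨s', r', hr', rfl⟩ := C.exists_gm h'
  rw [smul_gm, smul_gm, gm_eq_iff] at e
  obtain ⟨t, t', h1, h2⟩ := e
  exact C.gm_eq_iff.2 ⟨t, t', hP.lc p _ _ (by rw [← mul_assoc, ← mul_assoc]; exact h1), h2⟩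

/-- (H2) : `s h = s' h'` implies that `sP ∩ s'P` is not empty and `h ∈ u H` for the LCM `s u = s' v` -/
theorem smul_lcm {s s' : P} {h h' : C.H hP} (e : s • h = s' • h') :
    ∃ u v, s * u = s' * v ∧ (∀ x y, s * x = s' * y → ∃ t, x = u * t ∧ y = v * t) ∧
      ∃ k : C.H hP, h = u • k ∧ h' = v • k := by
  obtain ⟨x, r, hr, rfl⟩ := C.exists_gm h
  obtain ⟨x', r', hr', rfl⟩ := C.exists_gm h'
  rw [smul_gm, smul_gm, gm_eq_iff] at e
  obtain ⟨t, t', h1, h2⟩ := e
  have h1' : s * (x * t) = s' * (x' * t') := by rw [← mul_assoc, ← mul_assoc]; exact h1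
  obtain ⟨u, v, huv, hl⟩ := hP.lcm _ _ _ _ h1'
  obtain ⟨z, hz, hz'⟩ := hl _ _ h1'
  refine ⟨u, v, huv, hl, C.gm hP z (r * t) (C.meml h2), ?_, ?_⟩
  · rw [smul_gm, ← hz, gm_ext]
  · rw [smul_gm, gm_eq_iff]
    refine ⟨t', 1, by rw [mul_one, hz'], ?_⟩
    rw [mul_one]
    exact C.symm _ _ h2

/-- evaluation of germs at `b ∈ C` -/
noncomputable def e {b : P} (hb : C.Mem b) : C.H hP → P :=
  Quotient.lift (s := C.stp hP) (fun x : C.Pre => x.1.1 * (hb.dvd x.2).choose) (by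
    rintro x y ⟨t, t', h, h'⟩
    obtain ⟨z, hz, hz'⟩ := hb _ _ h'
    have e1 : (hb.dvd x.2).choose = t * z :=
      hP.lc x.1.2 _ _ (by rw [← (hb.dvd x.2).choose_spec, hz, mul_assoc])
    have e2 : (hb.dvd y.2).choose = t' * z :=
      hP.lc y.1.2 _ _ (by rw [← (hb.dvd y.2).choose_spec, hz', mul_assoc])
    change x.1.1 * (hb.dvd x.2).choose = y.1.1 * (hb.dvd y.2).choose
    rw [e1, e2, ← mul_assoc, h, mul_assoc])

theorem e_gm {b : P} (hb : C.Mem b) {s r x : P} (h : C.S r) (hx : b = r * x) :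
    C.e hb (C.gm hP s r h) = s * x := by
  have e1 : (hb.dvd h).choose = x := hP.lc r _ _ (by rw [← (hb.dvd h).choose_spec, hx])
  change s * (hb.dvd h).choose = s * x
  rw [e1]

theorem e_smul {b : P} (hb : C.Mem b) (p : P) (h : C.H hP) : C.e hb (p • h) = p * C.e hb h := by
  obtain ⟨s, r, hr, rfl⟩ := C.exists_gm h
  obtain ⟨x, hx⟩ := hb.dvd hr
  rw [smul_gm, C.e_gm hb hr hx, C.e_gm hb hr hx, mul_assoc]

/-- (H3) -/
theorem e_smul_ne {b : P} (hb : C.Mem b) (hS : ¬ C.S b) (h k : C.H hP) : C.e hb h • k ≠ h := by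
  obtain ⟨s, r, hr, rfl⟩ := C.exists_gm h
  obtain ⟨s1, r1, hr1, rfl⟩ := C.exists_gm k
  obtain ⟨x, hx⟩ := hb.dvd hr
  rw [C.e_gm hb hr hx, smul_gm]
  intro e
  obtain ⟨t, t', h1, h2⟩ := C.gm_eq_iff.1 e
  have h3 : x * (s1 * t) = t' := hP.lc s _ _ (by rw [← h1]; simp only [mul_assoc])
  have h4 := C.memr _ _ h2
  rw [← h3, ← mul_assoc, ← hx] at h4
  exact hS (C.dvd _ _ h4)

/-- the germ of the identity -/
def io (hP : Good P) : C.H hP := C.gm hP 1 1 C.one

theorem e_io {b : P} (hb : C.Mem b) : C.e hb (C.io hP) = b := by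
  rw [io, C.e_gm hb C.one (one_mul b).symm, one_mul]

/-- `f y = g y ↔ f ~_C g` -/
theorem smul_io_eq_iff {f g : P} :
    f • C.io hP = g • C.io hP ↔ ∃ u v, f * u = g * v ∧ C.R u v := by
  rw [io, smul_gm, smul_gm, gm_eq_iff]
  simp only [mul_one, one_mul]

/-- `ι ∈ u H ↔ u ∈ S` -/
theorem io_mem_smul {u : P} : (∃ k : C.H hP, C.io hP = u • k) ↔ C.S u := by
  constructor
  · rintro ⟨k, hk⟩
    obtain ⟨s, r, hr, rfl⟩ := C.exists_gm k
    rw [smul_gm, io, gm_eq_iff] at hk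
    obtain ⟨t, t', h1, h2⟩ := hk
    rw [one_mul] at h1 h2
    have := C.meml h2
    rw [h1, mul_assoc] at this
    exact C.dvd _ _ this
  · intro hu
    refine ⟨C.gm hP 1 u hu, ?_⟩
    rw [smul_gm, io, gm_eq_iff]
    exact ⟨u, 1, by rw [one_mul, mul_one, mul_one], by rw [one_mul, mul_one]; exact C.refl u hu⟩

end Clo

end

end Crest.Agent.R296.AHx667
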