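import Crest.Agent.R296.AH_667

/-!
# Row 296 (S0448), block A, leaf A-H (helper667), part 2: closed sets along a conservative extension

`Cons ι` : `ι : P →* P'` injective and conservative.
`C.gen ι` : the closed set of `P'` generated by a closed set `C` of `P`.
`Clo.comap ι D` : restriction of a closed set of `P'`.
`mapH` : `H(C) → H(gen C)`.
-/

set_option autoImplicit false

namespace Crest.Agent.R296.AHx667

variable {P P' : Type*} [Monoid P] [Monoid P']

/-- conservative extensions -/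
structure Cons (ι : P →* P') : Prop where
  inj : Function.Injective ι
  con : ∀ (f g : P) (x y : P'), ι f * x = ι g * y → ∃ u v : P, ∃ t : P',
    f * u = g * v ∧ (∀ x y, f * x = g * y → ∃ t, x = u * t ∧ y = v * t) ∧ x = ι u * t ∧ y = ι v * t

variable {ι : P →* P'}

theorem Cons.of_dvd (hι : Cons ι) (hP' : Good P') {f g : P} {x : P'} (h : ι f * x = ι g) :
    ∃ u : P, f * u = g ∧ x = ι u := by
  obtain ⟨u, v, t, h1, h2, h3, h4⟩ := hι.con f g x 1 (by rw [mul_one]; exact h)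
  have h5 : ι v = 1 := hP'.unit _ _ h4.symm
  have h6 : v = 1 := hι.inj (by rw [h5, map_one])
  rw [h5, one_mul] at h4
  refine ⟨u, by rw [h1, h6, mul_one], by rw [h3, ← h4, mul_one]⟩

namespace Clo

variable (C : Clo P)

/-- the closed set generated in an extension -/
def gen (hP' : Good P') (ι : P →* P') : Clo P' where
  S w := ∃ x s, C.S s ∧ w * x = ι s
  R w v := ∃ t s r, C.R s r ∧ w * t = ι s ∧ v * t = ι r
  one := ⟨1, 1, C.one, by simp⟩
  dvd := by
    rintro u v ⟨x, s, hs, h⟩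
    exact ⟨v * x, s, hs, by rw [← mul_assoc]; exact h⟩
  dir := by
    rintro w v ⟨x, s, hs, hx⟩ ⟨y, r, hr, hy⟩
    obtain ⟨c, d, h1, h2⟩ := C.dir s r hs hr
    refine ⟨x * ι c, y * ι d, ?_, 1, s * c, h2, ?_⟩
    · rw [← mul_assoc, ← mul_assoc, hx, hy, ← map_mul, ← map_mul, h1]
    · rw [mul_one, ← mul_assoc, hx, ← map_mul]
  refl := by
    rintro w ⟨x, s, hs, hx⟩
    exact ⟨x, s, s, C.refl s hs, hx, hx⟩
  symm := by
    rintro w v ⟨t, s, r, h, h1, h2⟩
    exact ⟨t, r, s, C.symm _ _ h, h2, h1⟩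
  trans := by
    rintro w v z ⟨t, s, r, h, h1, h2⟩ ⟨t', s', r', h', h1', h2'⟩
    obtain ⟨c, d, hcd, hS⟩ := C.dir _ _ (C.memr _ _ h) (C.meml h')
    have e : t * ι c = t' * ι d := hP'.lc v _ _ (by
      rw [← mul_assoc, ← mul_assoc, h2, h1', ← map_mul, ← map_mul, hcd])
    refine ⟨t * ι c, s * c, r' * d, ?_, ?_, ?_⟩
    · have a1 : C.R (s * c) (r * c) := C.ext _ _ c h hS
      have a2 : C.R (r' * d) (s' * d) := C.ext _ _ d (C.symm _ _ h') (by rw [← hcd]; exact hS)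
      rw [hcd] at a1
      exact C.trans _ _ _ a1 (C.symm _ _ a2)
    · rw [← mul_assoc, h1, map_mul]
    · rw [e, ← mul_assoc, h2', map_mul]
  memr := by
    rintro w v ⟨t, s, r, h, h1, h2⟩
    exact ⟨t, r, C.memr _ _ h, h2⟩
  ext := by
    rintro w v z ⟨t, s, r, h, h1, h2⟩ ⟨z', s0, hs0, hz⟩
    obtain ⟨c, d, hcd, hS⟩ := C.dir _ _ (C.memr _ _ h) hs0
    have e : t * ι c = z * (z' * ι d) := hP'.lc v _ _ (by
      rw [← mul_assoc, h2, ← map_mul, hcd, map_mul, ← hz]; simp only [mul_assoc])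
    refine ⟨z' * ι d, s * c, r * c, C.ext _ _ c h hS, ?_, ?_⟩
    · rw [mul_assoc, ← e, ← mul_assoc, h1, map_mul]
    · rw [mul_assoc, ← e, ← mul_assoc, h2, map_mul]
  res := by
    rintro w v z ⟨t, s, r, h, h1, h2⟩
    exact ⟨z * t, s, r, h, by rw [← mul_assoc]; exact h1, by rw [← mul_assoc]; exact h2⟩

variable {C}

theorem gen_S_iff (hP' : Good P') (hι : Cons ι) {s : P} : (C.gen hP' ι).S (ι s) ↔ C.S s := by
  constructor
  · rintro ⟨x, r, hr, h⟩
    obtain ⟨u, h1, -⟩ := hι.of_dvd hP' h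
    exact C.dvd s u (by rw [h1]; exact hr)
  · intro h
    exact ⟨1, s, h, mul_one _⟩

theorem gen_S (hP' : Good P') {s : P} (h : C.S s) : (C.gen hP' ι).S (ι s) :=
  ⟨1, s, h, mul_one _⟩

theorem gen_S_of (hP' : Good P') {w x : P'} {s : P} (h : C.S s) (e : w * x = ι s) :
    (C.gen hP' ι).S w := ⟨x, s, h, e⟩

theorem gen_R_of (hP' : Good P') {w v t : P'} {s r : P} (h : C.R s r) (e : w * t = ι s)
    (e' : v * t = ι r) : (C.gen hP' ι).R w v := ⟨t, s, r, h, e, e'⟩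

theorem gen_R_iff (hP' : Good P') (hι : Cons ι) {s r : P} : (C.gen hP' ι).R (ι s) (ι r) ↔ C.R s r := by
  constructor
  · rintro ⟨t, s1, r1, h, h1, h2⟩
    obtain ⟨u, h3, rfl⟩ := hι.of_dvd hP' h1
    have h4 : r1 = r * u := hι.inj (by rw [← h2, map_mul])
    rw [← h3, h4] at h
    exact C.res _ _ _ h
  · intro h
    exact ⟨1, s, r, h, mul_one _, mul_one _⟩

theorem gen_mem_iff (hP' : Good P') (hι : Cons ι) {b : P} : (C.gen hP' ι).Mem (ι b) ↔ C.Mem b := by
  constructor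
  · intro h s r hsr
    obtain ⟨x, h1, h2⟩ := h _ _ ((gen_R_iff hP' hι).2 hsr)
    obtain ⟨u, h3, rfl⟩ := hι.of_dvd hP' h1.symm
    refine ⟨u, h3.symm, hι.inj (by rw [h2, map_mul])⟩
  · rintro h w v ⟨t, s, r, hsr, h1, h2⟩
    obtain ⟨x, h3, h4⟩ := h s r hsr
    refine ⟨t * ι x, ?_, ?_⟩
    · rw [← mul_assoc, h1, ← map_mul, h3]
    · rw [← mul_assoc, h2, ← map_mul, h4]

/-- `w ∈ gen C` for elements `w` of the extension -/
theorem gen_mem_iff' {hP' : Good P'} {w : P'} : (C.gen hP' ι).Mem w ↔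
    ∀ s r, C.R s r → ∃ x, w = ι s * x ∧ w = ι r * x := by
  constructor
  · intro h s r hsr
    exact h _ _ ⟨1, s, r, hsr, mul_one _, mul_one _⟩
  · rintro h u v ⟨t, s, r, hsr, h1, h2⟩
    obtain ⟨x, h3, h4⟩ := h s r hsr
    refine ⟨t * x, ?_, ?_⟩
    · rw [← mul_assoc, h1, h3]
    · rw [← mul_assoc, h2, h4]

/-- restriction of a closed set of an extension -/
def comap (hι : Cons ι) (D : Clo P') : Clo P where
  S s := D.S (ι s)
  R s r := D.R (ι s) (ι r)
  one := by rw [map_one]; exact D.one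
  dvd u v h := D.dvd _ _ (by rw [← map_mul]; exact h)
  dir := by
    intro s t hs ht
    obtain ⟨x, y, h1, h2⟩ := D.dir _ _ hs ht
    obtain ⟨u, v, z, h3, -, h4, h5⟩ := hι.con s t x y h1
    refine ⟨u, v, h3, D.dvd _ z ?_⟩
    rw [map_mul, mul_assoc, ← h4]
    exact h2
  refl s h := D.refl _ h
  symm s r h := D.symm _ _ h
  trans s r t h h' := D.trans _ _ _ h h'
  memr s r h := D.memr _ _ h
  ext s r t h h' := by
    rw [map_mul, map_mul]
    exact D.ext _ _ _ h (by rw [← map_mul]; exact h')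
  res s r t h := D.res _ _ (ι t) (by rw [← map_mul, ← map_mul]; exact h)

theorem comap_gen (hP' : Good P') (hι : Cons ι) : comap hι (C.gen hP' ι) = C := by
  rcases C with ⟨S, R, h1, h2, h3, h4, h5, h6, h7, h8, h9⟩
  have e1 : ∀ s, (comap hι ((⟨S, R, h1, h2, h3, h4, h5, h6, h7, h8, h9⟩ : Clo P).gen hP' ι)).S s ↔ S s :=
    fun s => gen_S_iff (C := ⟨S, R, h1, h2, h3, h4, h5, h6, h7, h8, h9⟩) hP' hι
  have e2 : ∀ s r, (comap hι ((⟨S, R, h1, h2, h3, h4, h5, h6, h7, h8, h9⟩ : Clo P).gen hP' ι)).R s r ↔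
      R s r := fun s r => gen_R_iff (C := ⟨S, R, h1, h2, h3, h4, h5, h6, h7, h8, h9⟩) hP' hι
  unfold comap
  congr 1
  · funext s; exact propext (e1 s)
  · funext s r; exact propext (e2 s r)

@[ext] theorem ext' {C D : Clo P} (h : ∀ s, C.S s ↔ D.S s) (h' : ∀ s r, C.R s r ↔ D.R s r) :
    C = D := by
  rcases C with ⟨S, R, h1, h2, h3, h4, h5, h6, h7, h8, h9⟩
  rcases D with ⟨S', R', h1', h2', h3', h4', h5', h6', h7', h8', h9'⟩
  have e1 : S = S' := funext fun s => propext (h s)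
  have e2 : R = R' := funext fun s => funext fun r => propext (h' s r)
  subst e1
  subst e2
  rfl

/-- a closed set `D` of the extension is generated by its restriction iff its filter and its germs are -/
theorem gen_comap (hP' : Good P') (hι : Cons ι) (D : Clo P')
    (h : ∀ w v, D.R w v → ∃ t s r, w * t = ι s ∧ v * t = ι r ∧ D.S (ι r)) :
    (comap hι D).gen hP' ι = D := by
  have hR : ∀ w v, ((comap hι D).gen hP' ι).R w v ↔ D.R w v := by
    intro w v
    constructor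
    · rintro ⟨t, s, r, h1, h2, h3⟩
      have h4 : D.R (ι s) (ι r) := h1
      rw [← h2, ← h3] at h4
      exact D.res _ _ _ h4
    · intro hwv
      obtain ⟨t, s, r, h1, h2, h3⟩ := h w v hwv
      refine ⟨t, s, r, ?_, h1, h2⟩
      have h4 := D.ext _ _ t hwv (by rw [h2]; exact h3)
      rw [h1, h2] at h4
      exact h4
  refine ext' (fun s => ?_) hR
  constructor
  · intro hs
    exact D.memr _ _ ((hR _ _).1 (Clo.refl _ s hs))
  · intro hs
    exact Clo.memr _ _ _ ((hR _ _).2 (D.refl s hs))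

/-! ### the map `H(C) → H(gen C)` -/

/-- the map of germs -/
def mapH (hP : Good P) (hP' : Good P') (C : Clo P) (ι : P →* P') : C.H hP → (C.gen hP' ι).H hP' :=
  Quotient.lift (s := C.stp hP)
    (fun x : C.Pre => (C.gen hP' ι).gm hP' (ι x.1.1) (ι x.1.2) (gen_S hP' x.2)) (by
      rintro x y ⟨t, t', h, h'⟩
      refine (Clo.gm_eq_iff _).2 ⟨ι t, ι t', ?_, gen_R_of hP' (t := 1) h' ?_ ?_⟩
      · rw [← map_mul, h, map_mul]
      · rw [mul_one, map_mul]
      · rw [mul_one, map_mul])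

theorem mapH_gm (hP : Good P) (hP' : Good P') {s r : P} (h : C.S r) :
    mapH hP hP' C ι (C.gm hP s r h) =
      (C.gen hP' ι).gm hP' (ι s) (ι r) (gen_S hP' h) := rfl

theorem mapH_smul (hP : Good P) (hP' : Good P') (p : P) (h : C.H hP) :
    mapH hP hP' C ι (p • h) = ι p • mapH hP hP' C ι h := by
  obtain ⟨s, r, hr, rfl⟩ := C.exists_gm h
  rw [smul_gm, mapH_gm, mapH_gm, smul_gm]
  congr 1
  exact map_mul ι p s

theorem mapH_io (hP : Good P) (hP' : Good P') :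
    mapH hP hP' C ι (C.io hP) = (C.gen hP' ι).io hP' := by
  unfold io
  rw [mapH_gm]
  congr 1
  · exact map_one ι
  · exact map_one ι

theorem mapH_inj (hP : Good P) (hP' : Good P') (hι : Cons ι) {h k : C.H hP}
    (e : mapH hP hP' C ι h = mapH hP hP' C ι k) : h = k := by
  obtain ⟨s, r, hr, rfl⟩ := C.exists_gm h
  obtain ⟨s', r', hr', rfl⟩ := C.exists_gm k
  rw [mapH_gm, mapH_gm, gm_eq_iff] at e
  obtain ⟨t, t', h1, z, a, b, h2, h3, h4⟩ := e
  rw [mul_assoc] at h3 h4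
  obtain ⟨c, h5, h6⟩ := hι.of_dvd hP' h3
  obtain ⟨d, h7, h8⟩ := hι.of_dvd hP' h4
  refine C.gm_eq_iff.2 ⟨c, d, hι.inj ?_, ?_⟩
  · rw [map_mul, map_mul, ← h6, ← h8, ← mul_assoc, ← mul_assoc, h1]
  · rw [h5, h7]; exact h2

theorem mapH_e (hP : Good P) (hP' : Good P') {b : P} (hb : C.Mem b)
    (hb' : (C.gen hP' ι).Mem (ι b)) (h : C.H hP) :
    (C.gen hP' ι).e hb' (mapH hP hP' C ι h) = ι (C.e hb h) := by
  obtain ⟨s, r, hr, rfl⟩ := C.exists_gm h
  obtain ⟨x, hx⟩ := hb.dvd hr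
  rw [mapH_gm, e_gm (hP := hP) C hb hr hx, e_gm (hP := hP') _ hb' _ (x := ι x) (by rw [hx, map_mul]),
    map_mul]

/-- every germ of the extension is `w [1, r]` -/
theorem exists_smul_mapH (hP : Good P) (hP' : Good P') (k : (C.gen hP' ι).H hP') :
    ∃ (w : P') (r : P) (hr : C.S r), k = w • mapH hP hP' C ι (C.gm hP 1 r hr) := by
  obtain ⟨s, v, hv, rfl⟩ := Clo.exists_gm _ k
  have hv' := hv
  obtain ⟨x, r, hr, hx⟩ := hv
  refine ⟨s * x, r, hr, ?_⟩
  rw [mapH_gm, smul_gm, map_one, mul_one]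
  have h1 : (C.gen hP' ι).S (v * x) := by rw [hx]; exact gen_S hP' hr
  rw [← gm_ext _ hv' h1]
  congr 1

end Clo

theorem Cons.id' (hP : Good P) : Cons (MonoidHom.id P) where
  inj := Function.injective_id
  con f g x y h := by
    obtain ⟨u, v, h1, h2⟩ := hP.lcm f g x y h
    obtain ⟨t, h3, h4⟩ := h2 x y h
    exact ⟨u, v, t, h1, h2, h3, h4⟩

theorem Cons.comp {P'' : Type*} [Monoid P''] {κ : P' →* P''} (hκ : Cons κ) (hι : Cons ι) :
    Cons (κ.comp ι) where
  inj := hκ.inj.comp hι.inj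
  con f g x y h := by
    obtain ⟨u, v, t, h1, h2, h3, h4⟩ := hκ.con (ι f) (ι g) x y h
    obtain ⟨u', v', t', h1', h2', h3', h4'⟩ := hι.con f g u v h1
    refine ⟨u', v', κ t' * t, h1', h2', ?_, ?_⟩
    · rw [h3, h3', map_mul, mul_assoc]; rfl
    · rw [h4, h4', map_mul, mul_assoc]; rfl

end Crest.Agent.R296.AHx667
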