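import Mathlib

/-!
Row 296 (S0448), helper365.  **Block B, part 1: the names of `V^(C)` over a small category `C`.**

An arrow `d ⟶ c` means "`d` is an extension (refinement) of the stage `c`".  A name at stage `c` is a small
family of elements; the `i`-th element exists over the stage `D i ⟶ c` and its value there is the name
`b i` (a name at the stage `T i`) restricted along `D i ⟶ T i`.  A VALUE at stage `d` is a name together
with an arrow (`Val d`); values are restricted by composing arrows, so no restriction operation on names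
is needed.

* `Eq' x y`, `Mem' x y` : forced equality / membership of values at the same stage;
* `Eq'.refl, symm, trans, res, dense`, `Mem'.res, dense, congr`;
* `mkv` : the value with a given small family of elements, `mem_mkv`.
-/

set_option autoImplicit false

namespace Crest.Agent.R296.CatFx365

open CategoryTheory

universe u

/-- names over the small category `C` -/
inductive Nm (C : Type u) [Category.{u} C] : C → Type (u + 1)
  | mk {c : C} (I : Type u) (D : I → C) (e : ∀ i, D i ⟶ c) (T : I → C) (f : ∀ i, D i ⟶ T i)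
      (b : ∀ i, Nm C (T i)) : Nm C c

variable {C : Type u} [Category.{u} C]

namespace Nm

/-- index type of a name -/
def I : ∀ {c : C}, Nm C c → Type u
  | _, mk I _ _ _ _ _ => I
/-- stage of the `i`-th element -/
def D : ∀ {c : C} (a : Nm C c), a.I → C
  | _, mk _ D _ _ _ _ => D
/-- arrow of the stage of the `i`-th element -/
def e : ∀ {c : C} (a : Nm C c) (i : a.I), a.D i ⟶ c
  | _, mk _ _ e _ _ _ => e
/-- stage of the name of the `i`-th element -/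
def T : ∀ {c : C} (a : Nm C c), a.I → C
  | _, mk _ _ _ T _ _ => T
/-- restriction arrow of the `i`-th element -/
def f : ∀ {c : C} (a : Nm C c) (i : a.I), a.D i ⟶ a.T i
  | _, mk _ _ _ _ f _ => f
/-- name of the `i`-th element -/
def b : ∀ {c : C} (a : Nm C c) (i : a.I), Nm C (a.T i)
  | _, mk _ _ _ _ _ b => b

end Nm

/-- a value at the stage `d`: a name restricted along an arrow -/
structure Val (C : Type u) [Category.{u} C] (d : C) where
  /-- stage of the name -/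
  c : C
  /-- the name -/
  nm : Nm C c
  /-- the arrow -/
  ar : d ⟶ c

namespace Val

/-- restriction of a value -/
def res {d d' : C} (h : d' ⟶ d) (x : Val C d) : Val C d' := ⟨x.c, x.nm, h ≫ x.ar⟩

@[simp] lemma res_id {d : C} (x : Val C d) : x.res (𝟙 d) = x := by
  cases x; simp [res]

@[simp] lemma res_res {d d' d'' : C} (h : d' ⟶ d) (h' : d'' ⟶ d') (x : Val C d) :
    (x.res h).res h' = x.res (h' ≫ h) := by
  cases x; simp [res]

@[simp] lemma res_c {d d' : C} (h : d' ⟶ d) (x : Val C d) : (x.res h).c = x.c := rfl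

@[simp] lemma res_nm {d d' : C} (h : d' ⟶ d) (x : Val C d) : (x.res h).nm = x.nm := rfl

@[simp] lemma res_ar {d d' : C} (h : d' ⟶ d) (x : Val C d) : (x.res h).ar = h ≫ x.ar := rfl

/-- the `i`-th element of the value `x` over a stage `d1` mapping to the stage of the element -/
def el {d : C} (x : Val C d) (i : x.nm.I) {d1 : C} (k : d1 ⟶ x.nm.D i) : Val C d1 :=
  ⟨x.nm.T i, x.nm.b i, k ≫ x.nm.f i⟩

@[simp] lemma el_res {d d' : C} (h : d' ⟶ d) (x : Val C d) (i : x.nm.I) {d1 : C}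
    (k : d1 ⟶ x.nm.D i) : (x.res h).el i k = x.el i k := rfl

@[simp] lemma res_el {d : C} (x : Val C d) (i : x.nm.I) {d1 d2 : C} (k : d1 ⟶ x.nm.D i)
    (m : d2 ⟶ d1) : (x.el i k).res m = x.el i (m ≫ k) := by
  simp [el, res]

end Val

/-- forced equality of two names restricted along arrows -/
def E : ∀ {c c' : C}, Nm C c → Nm C c' → ∀ {d : C}, (d ⟶ c) → (d ⟶ c') → Prop
  | _, _, .mk I D e _ f b, .mk I' D' e' _ f' b', d, p, q =>
    (∀ (i : I) (d1 : C) (l : d1 ⟶ d) (k : d1 ⟶ D i), l ≫ p = k ≫ e i →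
      ∃ (d2 : C) (m : d2 ⟶ d1) (j : I') (k' : d2 ⟶ D' j), (m ≫ l) ≫ q = k' ≫ e' j ∧
        E (b i) (b' j) ((m ≫ k) ≫ f i) (k' ≫ f' j)) ∧
    (∀ (j : I') (d1 : C) (l : d1 ⟶ d) (k : d1 ⟶ D' j), l ≫ q = k ≫ e' j →
      ∃ (d2 : C) (m : d2 ⟶ d1) (i : I) (k' : d2 ⟶ D i), (m ≫ l) ≫ p = k' ≫ e i ∧
        E (b i) (b' j) (k' ≫ f i) ((m ≫ k) ≫ f' j))

/-- forced equality of values -/
def Eq' {d : C} (x y : Val C d) : Prop := E x.nm y.nm x.ar y.ar

lemma eq'_iff {d : C} (x y : Val C d) : Eq' x y ↔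
    (∀ (i : x.nm.I) (d1 : C) (l : d1 ⟶ d) (k : d1 ⟶ x.nm.D i), l ≫ x.ar = k ≫ x.nm.e i →
      ∃ (d2 : C) (m : d2 ⟶ d1) (j : y.nm.I) (k' : d2 ⟶ y.nm.D j),
        (m ≫ l) ≫ y.ar = k' ≫ y.nm.e j ∧ Eq' ((x.el i k).res m) (y.el j k')) ∧
    (∀ (j : y.nm.I) (d1 : C) (l : d1 ⟶ d) (k : d1 ⟶ y.nm.D j), l ≫ y.ar = k ≫ y.nm.e j →
      ∃ (d2 : C) (m : d2 ⟶ d1) (i : x.nm.I) (k' : d2 ⟶ x.nm.D i),
        (m ≫ l) ≫ x.ar = k' ≫ x.nm.e i ∧ Eq' (x.el i k') ((y.el j k).res m)) := by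
  obtain ⟨c, a, p⟩ := x
  obtain ⟨c', a', q⟩ := y
  cases a with
  | mk I D e T f b =>
    cases a' with
    | mk I' D' e' T' f' b' =>
      unfold Eq'
      rw [E]
      simp only [Val.res, Val.el, Nm.I, Nm.D, Nm.e, Nm.T, Nm.f, Nm.b, Category.assoc]


/-- forced membership of values -/
def Mem' {d : C} (x y : Val C d) : Prop :=
  ∀ (d1 : C) (l : d1 ⟶ d), ∃ (d2 : C) (m : d2 ⟶ d1) (j : y.nm.I) (k : d2 ⟶ y.nm.D j),
    (m ≫ l) ≫ y.ar = k ≫ y.nm.e j ∧ Eq' (x.res (m ≫ l)) (y.el j k)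

namespace Eq'

lemma res {d d' : C} {x y : Val C d} (H : Eq' x y) (h : d' ⟶ d) : Eq' (x.res h) (y.res h) := by
  rw [eq'_iff] at H ⊢
  refine ⟨fun i d1 l k hk => ?_, fun j d1 l k hk => ?_⟩
  · obtain ⟨d2, m, j, k', h1, h2⟩ := H.1 i d1 (l ≫ h) k (by simpa using hk)
    exact ⟨d2, m, j, k', by simpa using h1, h2⟩
  · obtain ⟨d2, m, i, k', h1, h2⟩ := H.2 j d1 (l ≫ h) k (by simpa using hk)
    exact ⟨d2, m, i, k', by simpa using h1, h2⟩

lemma of_dense {d : C} {x y : Val C d}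
    (H : ∀ (d1 : C) (l : d1 ⟶ d), ∃ (d2 : C) (m : d2 ⟶ d1), Eq' (x.res (m ≫ l)) (y.res (m ≫ l))) :
    Eq' x y := by
  rw [eq'_iff]
  refine ⟨fun i d1 l k hk => ?_, fun j d1 l k hk => ?_⟩
  · obtain ⟨d2, m, h2⟩ := H d1 l
    rw [eq'_iff] at h2
    obtain ⟨d3, m', j, k', h1, h3⟩ := h2.1 i d2 (𝟙 d2) (m ≫ k) (by simp [hk])
    refine ⟨d3, m' ≫ m, j, k', by simpa using h1, ?_⟩
    have h4 : Eq' ((x.el i (m ≫ k)).res m') (y.el j k') := h3
    simpa using h4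
  · obtain ⟨d2, m, h2⟩ := H d1 l
    rw [eq'_iff] at h2
    obtain ⟨d3, m', i, k', h1, h3⟩ := h2.2 j d2 (𝟙 d2) (m ≫ k) (by simp [hk])
    refine ⟨d3, m' ≫ m, i, k', by simpa using h1, ?_⟩
    have h4 : Eq' (x.el i k') ((y.el j (m ≫ k)).res m') := h3
    simpa using h4

lemma refl_aux {c : C} (a : Nm C c) : ∀ {d : C} (p : d ⟶ c), Eq' (⟨c, a, p⟩ : Val C d) ⟨c, a, p⟩ := by
  induction a with
  | mk I D e T f b ih =>
    intro d p
    rw [eq'_iff]
    refine ⟨fun i d1 l k hk => ⟨d1, 𝟙 d1, i, k, by simpa using hk, ?_⟩,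
      fun i d1 l k hk => ⟨d1, 𝟙 d1, i, k, by simpa using hk, ?_⟩⟩
    · rw [Val.res_id]; exact ih i _
    · rw [Val.res_id]; exact ih i _

lemma refl {d : C} (x : Val C d) : Eq' x x := refl_aux x.nm x.ar

lemma symm_aux {c : C} (a : Nm C c) : ∀ {d : C} (p : d ⟶ c) (y : Val C d),
    Eq' (⟨c, a, p⟩ : Val C d) y → Eq' y ⟨c, a, p⟩ := by
  induction a with
  | mk I D e T f b ih =>
    intro d p y H
    rw [eq'_iff] at H ⊢
    refine ⟨fun i d1 l k hk => ?_, fun j d1 l k hk => ?_⟩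
    · obtain ⟨d2, m, j, k', h1, h2⟩ := H.2 i d1 l k hk
      exact ⟨d2, m, j, k', h1, ih j _ _ h2⟩
    · obtain ⟨d2, m, i, k', h1, h2⟩ := H.1 j d1 l k hk
      exact ⟨d2, m, i, k', h1, ih j _ _ h2⟩

lemma symm {d : C} {x y : Val C d} (H : Eq' x y) : Eq' y x := symm_aux x.nm x.ar y H

lemma trans_aux {c : C} (a : Nm C c) : ∀ {d : C} (p : d ⟶ c) (y z : Val C d),
    Eq' (⟨c, a, p⟩ : Val C d) y → Eq' y z → Eq' ⟨c, a, p⟩ z := by
  induction a with
  | mk I D e T f b ih =>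
    intro d p y z H G
    rw [eq'_iff] at H G ⊢
    refine ⟨fun i d1 l k hk => ?_, fun j d1 l k hk => ?_⟩
    · obtain ⟨d2, m, j, k', h1, h2⟩ := H.1 i d1 l k hk
      obtain ⟨d3, m', j', k'', h3, h4⟩ := G.1 j d2 (m ≫ l) k' h1
      refine ⟨d3, m' ≫ m, j', k'', by simpa using h3, ?_⟩
      have h5 := h2.res m'
      rw [Val.res_res] at h5
      exact ih i _ _ _ h5 h4
    · obtain ⟨d2, m, i, k', h1, h2⟩ := G.2 j d1 l k hk
      obtain ⟨d3, m', i', k'', h3, h4⟩ := H.2 i d2 (m ≫ l) k' h1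
      refine ⟨d3, m' ≫ m, i', k'', by simpa using h3, ?_⟩
      have h5 := h2.res m'
      rw [Val.res_res] at h5
      exact ih i' _ _ _ h4 h5

lemma trans {d : C} {x y z : Val C d} (H : Eq' x y) (G : Eq' y z) : Eq' x z :=
  trans_aux x.nm x.ar y z H G

end Eq'

namespace Mem'

lemma res {d d' : C} {x y : Val C d} (H : Mem' x y) (h : d' ⟶ d) : Mem' (x.res h) (y.res h) := by
  intro d1 l
  obtain ⟨d2, m, j, k, h1, h2⟩ := H d1 (l ≫ h)
  exact ⟨d2, m, j, k, by simpa using h1, by simpa using h2⟩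

lemma of_dense {d : C} {x y : Val C d}
    (H : ∀ (d1 : C) (l : d1 ⟶ d), ∃ (d2 : C) (m : d2 ⟶ d1), Mem' (x.res (m ≫ l)) (y.res (m ≫ l))) :
    Mem' x y := by
  intro d1 l
  obtain ⟨d2, m, h2⟩ := H d1 l
  obtain ⟨d3, m', j, k, h1, h3⟩ := h2 d2 (𝟙 d2)
  have h4 : Eq' ((x.res (m ≫ l)).res (m' ≫ 𝟙 d2)) (y.el j k) := h3
  exact ⟨d3, m' ≫ m, j, k, by simpa using h1, by simpa using h4⟩

lemma congr_left {d : C} {x x' y : Val C d} (H : Eq' x x') (G : Mem' x y) : Mem' x' y := by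
  intro d1 l
  obtain ⟨d2, m, j, k, h1, h2⟩ := G d1 l
  exact ⟨d2, m, j, k, h1, (H.res (m ≫ l)).symm.trans h2⟩

lemma congr_right {d : C} {x y y' : Val C d} (H : Eq' y y') (G : Mem' x y) : Mem' x y' := by
  intro d1 l
  obtain ⟨d2, m, j, k, h1, h2⟩ := G d1 l
  obtain ⟨d3, m', j', k', h3, h4⟩ := ((eq'_iff y y').1 H).1 j d2 (m ≫ l) k h1
  refine ⟨d3, m' ≫ m, j', k', by simpa using h3, ?_⟩
  have h5 := h2.res m'
  rw [Val.res_res] at h5
  simpa using h5.trans h4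

lemma congr {d : C} {x x' y y' : Val C d} (H : Eq' x x') (H' : Eq' y y') (G : Mem' x y) :
    Mem' x' y' := congr_right H' (congr_left H G)

end Mem'

/-- the elements of a value are members -/
lemma mem_el {d : C} (x : Val C d) {d1 : C} (l : d1 ⟶ d) (i : x.nm.I) (k : d1 ⟶ x.nm.D i)
    (hk : l ≫ x.ar = k ≫ x.nm.e i) : Mem' (x.el i k) (x.res l) := by
  intro d2 m
  refine ⟨d2, 𝟙 d2, i, m ≫ k, by simp [hk], ?_⟩
  simpa using Eq'.refl _

/-- **extensionality** -/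
lemma ext' {d : C} {x y : Val C d}
    (H : ∀ (d1 : C) (l : d1 ⟶ d) (z : Val C d1), Mem' z (x.res l) ↔ Mem' z (y.res l)) : Eq' x y := by
  rw [eq'_iff]
  refine ⟨fun i d1 l k hk => ?_, fun j d1 l k hk => ?_⟩
  · have h1 := (H d1 l _).1 (mem_el x l i k hk)
    obtain ⟨d2, m, j, k', h2, h3⟩ := h1 d1 (𝟙 d1)
    have h4 : Eq' ((x.el i k).res (m ≫ 𝟙 d1)) (y.el j k') := h3
    exact ⟨d2, m, j, k', by simpa using h2, by simpa using h4⟩
  · have h1 := (H d1 l _).2 (mem_el y l j k hk)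
    obtain ⟨d2, m, i, k', h2, h3⟩ := h1 d1 (𝟙 d1)
    have h4 : Eq' (x.el i k') ((y.el j k).res (m ≫ 𝟙 d1)) := h3.symm
    exact ⟨d2, m, i, k', by simpa using h2, by simpa using h4⟩

/-- one-sided extensionality: inclusion is decided by the elements -/
lemma sub_of_el {d : C} {x y : Val C d}
    (H : ∀ (d1 : C) (l : d1 ⟶ d) (i : x.nm.I) (k : d1 ⟶ x.nm.D i), l ≫ x.ar = k ≫ x.nm.e i →
      Mem' (x.el i k) (y.res l)) {d1 : C} (l : d1 ⟶ d) (z : Val C d1) (hz : Mem' z (x.res l)) :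
    Mem' z (y.res l) := by
  refine Mem'.of_dense fun d2 m => ?_
  obtain ⟨d3, m', i, k, h1, h2⟩ := hz d2 m
  refine ⟨d3, m', ?_⟩
  have h3 := H d3 ((m' ≫ m) ≫ l) i k (by simpa using h1)
  have h4 : Mem' (z.res (m' ≫ m)) (y.res ((m' ≫ m) ≫ l)) := Mem'.congr_left h2.symm h3
  simpa using h4

/-- the value with a given small family of elements -/
def mkv {d : C} (I : Type u) (D : I → C) (e : ∀ i, D i ⟶ d) (v : ∀ i, Val C (D i)) : Val C d :=
  ⟨d, Nm.mk I D e (fun i => (v i).c) (fun i => (v i).ar) (fun i => (v i).nm), 𝟙 d⟩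

lemma mem_mkv {d d' : C} (I : Type u) (D : I → C) (e : ∀ i, D i ⟶ d) (v : ∀ i, Val C (D i))
    (h : d' ⟶ d) (x : Val C d') : Mem' x ((mkv I D e v).res h) ↔
      ∀ (d1 : C) (l : d1 ⟶ d'), ∃ (d2 : C) (m : d2 ⟶ d1) (i : I) (k : d2 ⟶ D i),
        (m ≫ l) ≫ h = k ≫ e i ∧ Eq' (x.res (m ≫ l)) ((v i).res k) := by
  constructor
  · intro H d1 l
    obtain ⟨d2, m, i, k, h1, h2⟩ := H d1 l
    refine ⟨d2, m, i, k, ?_, h2⟩
    have h3 : (m ≫ l) ≫ h ≫ 𝟙 d = k ≫ e i := h1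
    rwa [Category.comp_id] at h3
  · intro H d1 l
    obtain ⟨d2, m, i, k, h1, h2⟩ := H d1 l
    refine ⟨d2, m, i, k, ?_, h2⟩
    change (m ≫ l) ≫ h ≫ 𝟙 d = k ≫ e i
    rw [Category.comp_id]
    exact h1

lemma mem_mkv' {d : C} (I : Type u) (D : I → C) (e : ∀ i, D i ⟶ d) (v : ∀ i, Val C (D i))
    (x : Val C d) : Mem' x (mkv I D e v) ↔
      ∀ (d1 : C) (l : d1 ⟶ d), ∃ (d2 : C) (m : d2 ⟶ d1) (i : I) (k : d2 ⟶ D i),
        m ≫ l = k ≫ e i ∧ Eq' (x.res (m ≫ l)) ((v i).res k) := by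
  have := mem_mkv I D e v (𝟙 d) x
  simpa using this

end Crest.Agent.R296.CatFx365
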