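import Crest.Agent.R296.CondC_153
import Crest.Agent.R296.CatF_365

/-!
# Row 296 (S0448), block C (helper153): STATEMENT of the labelled classification theorem (rigid form)

`Kit P A` = the facts of block A which are used (A-PROP / A-CAP / A-RES of 378's list);
`LocRel q1` = local relation on the arrows to `q1` (name-free);
`LCT P` : every local relation on `q1` has an extension `q2 ⊇ q1` of the labels on which it is total or given by
a filter `F` of `L(P)`: `E w f g ↔ ∃ t ∈ F.S, f * t = g * t` (no group, `Q = 1`: helper764's form).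
-/

set_option autoImplicit false
set_option linter.unusedSectionVars false
set_option linter.unusedVariables false

open CategoryTheory

namespace Crest.Agent.R296.LctStx153

open Crest.Agent.R296.IfAx378 Crest.Agent.R296.CondCx153 Crest.Agent.R296.CatFx365

variable (P : Type 1) [Monoid P]

/-- (Gen) for small sets: `y a = b` and `yP ∩ sP ⊆ bP` for `s ∈ S` -/
def GenS : Prop := ∀ (a b : P) (S : Set P), a ≠ 1 → b ≠ 1 → Small.{0} S → (1 : P) ∉ S →
  ∃ y, y * a = b ∧ ∀ s ∈ S, ∀ x, s ∣ y * x → b ∣ y * x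

/-- new letter, for small sets -/
def LetS : Prop := ∀ S : Set P, Small.{0} S → (1 : P) ∉ S → ∃ k : P, k ≠ 1 ∧ ∀ s ∈ S, Disj k s

/-- triangle with exact pairwise intersections -/
def TriX : Prop := ∀ c c' x x' g g' : P, IsLcm c c' x x' → IsLcm g g' x x →
  ∃ k h1 h2, h1 * c = k * g ∧ h2 * c = k * g' ∧ h1 * c' = h2 * c' ∧
    (∀ s t, k * s = h1 * t → ∃ r, s = g * r ∧ t = c * r) ∧
    (∀ s t, k * s = h2 * t → ∃ r, s = g' * r ∧ t = c * r) ∧
    (∀ s t, h1 * s = h2 * t → ∃ r, s = c' * r ∧ t = c' * r)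

/-- degenerate triangle with exact pairwise intersections -/
def TriXD : Prop := ∀ c c' g g' : P, Disj c c' → Disj g g' →
  ∃ k h1 h2, h1 * c = k * g ∧ h2 * c = k * g' ∧ h1 * c' = h2 * c' ∧
    (∀ s t, k * s = h1 * t → ∃ r, s = g * r ∧ t = c * r) ∧
    (∀ s t, k * s = h2 * t → ∃ r, s = g' * r ∧ t = c * r) ∧
    (∀ s t, h1 * s = h2 * t → ∃ r, s = c' * r ∧ t = c' * r)

/-- `F` is generated by its members in `A α` -/
def GenByA (A : Ordinal.{0} → Submonoid P) (F : Filt P) (α : Ordinal.{0}) : Prop :=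
  ∀ s ∈ F.S, ∃ m ∈ A α, m ∈ F.S ∧ s ∣ m

/-- the facts of block A used by the labelled classification -/
structure Kit (A : Ordinal.{0} → Submonoid P) : Prop where
  good : IsGood P
  mono : Monotone A
  small : ∀ β, Small.{0} (A β)
  exh : ∀ p : P, ∃ β, p ∈ A β
  lim : ∀ β, Order.IsSuccLimit β → ∀ p ∈ A β, ∃ γ < β, p ∈ A γ
  gen : GenS P
  letr : LetS P
  tri : TriX P
  triD : TriXD P
  /-- A.6 -/
  cap : ∀ (F : Filt P) (α : Ordinal.{0}),
    (∀ w ∈ A α, (∀ s ∈ A α, s ∈ F.S → s ∣ w) → ∀ s ∈ F.S, s ∣ w) → GenByA P A F α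
  /-- A.2 (iv): germs at `F` preserving `F` have representatives in `A α` -/
  germ : ∀ (F : Filt P) (α : Ordinal.{0}), GenByA P A F α → ∀ u v : P, u ∈ F.S →
    (∀ t, u * t ∈ F.S ↔ v * t ∈ F.S) → ∃ t, u * t ∈ A α ∧ v * t ∈ A α ∧ u * t ∈ F.S

variable {P} [IsGood P]

/-- local relation on the arrows to `q1` -/
structure LocRel (q1 : Cond P) where
  E : ∀ w : Cond P, (w ⟶ q1) → (w ⟶ q1) → Prop
  refl : ∀ w f, E w f f
  symm : ∀ w f g, E w f g → E w g f
  trans : ∀ w f g h, E w f g → E w g h → E w f h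
  res : ∀ {w w' : Cond P} (h : w' ⟶ w) (f g : w ⟶ q1), E w f g → E w' (h ≫ f) (h ≫ g)
  loc : ∀ (w : Cond P) (f g : w ⟶ q1),
    (∀ (w' : Cond P) (h : w' ⟶ w), ∃ (w'' : Cond P) (h' : w'' ⟶ w'), E w'' ((h' ≫ h) ≫ f) ((h' ≫ h) ≫ g)) →
    E w f g

/-- the arrow `q2 ⟶ q1` given by an inclusion of labels -/
def incl {q1 q2 : Cond P} (h : q1.q ⊆ q2.q) : q2 ⟶ q1 := ⟨1, by rwa [psh_one]⟩

@[simp] theorem incl_val {q1 q2 : Cond P} (h : q1.q ⊆ q2.q) : (incl h).1 = 1 := rfl

/-- total, or given by a filter -/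
inductive RForm (q2 : Cond P) (R : ∀ w : Cond P, (w ⟶ q2) → (w ⟶ q2) → Prop) : Prop
  | total (h : ∀ w f g, R w f g)
  | filt (F : Filt P) (h : ∀ w f g, R w f g ↔ ∃ t ∈ F.S, f.1 * t = g.1 * t)

variable (P) in
/-- **labelled classification theorem, rigid form** -/
def LCT : Prop := ∀ (q1 : Cond P) (E : LocRel q1), ∃ (q2 : Cond P) (h : q1.q ⊆ q2.q),
  RForm q2 (fun w f g => E.E w (f ≫ incl h) (g ≫ incl h))

/-- the local relation of a value: `w ⊩ f x = g x` -/
def valRel {q1 : Cond P} (x : Val (Cond P) q1) : LocRel q1 where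
  E w f g := Eq' (x.res f) (x.res g)
  refl w f := Eq'.refl _
  symm w f g h := h.symm
  trans w f g k h h' := h.trans h'
  res h f g H := by
    have := H.res h
    simpa using this
  loc w f g H := by
    refine Eq'.of_dense fun w' h => ?_
    obtain ⟨w'', h', H'⟩ := H w' h
    exact ⟨w'', h', by simpa using H'⟩

/-- the local relation of a value together with a point `p`: `f p = g p` and `w ⊩ f x = g x` -/
def ptRel {q1 : Cond P} (p : P) (x : Val (Cond P) q1) : LocRel q1 where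
  E w f g := f.1 * p = g.1 * p ∧ Eq' (x.res f) (x.res g)
  refl w f := ⟨rfl, Eq'.refl _⟩
  symm w f g h := ⟨h.1.symm, h.2.symm⟩
  trans w f g k h h' := ⟨h.1.trans h'.1, h.2.trans h'.2⟩
  res h f g H := by
    refine ⟨?_, (valRel x).res h f g H.2⟩
    simp only [comp_val, mul_assoc]
    rw [H.1]
  loc w f g H := by
    refine ⟨?_, (valRel x).loc w f g fun w' h => ?_⟩
    · obtain ⟨w'', h', H', _⟩ := H w (𝟙 w)
      simp only [comp_val, id_val, mul_one, mul_assoc] at H'
      exact IsGood.lc _ _ _ H'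
    · obtain ⟨w'', h', H'⟩ := H w' h
      exact ⟨w'', h', H'.2⟩

end Crest.Agent.R296.LctStx153
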