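import Crest.Agent.R296.AProp_779
import Crest.Agent.R296.LctSt_153

/-!
# Row 296 (helper779): the `Kit` of helper153 from a `Tower` (fields gen, letr, tri, triD)
-/

set_option autoImplicit false

namespace Crest.Agent.R296.AKitx779

open Crest.Agent.R296.IfAx378 Crest.Agent.R296.APropx779 Crest.Agent.R296.LctStx153

variable {P : Type 1} [Monoid P] (T : Tower P)

include T

theorem kit_gen : GenS P := by
  intro a b S ha hb hS h1
  obtain ⟨y, hy, h⟩ := genS T a b S ha hb
  exact ⟨y, hy, fun s hs => h s hs (fun e => h1 (e ▸ hs))⟩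

theorem kit_let : LetS P := fun S _ h1 => letS T S h1

theorem kit_tri : TriX P := by
  intro c c' x x' g g' h h'
  obtain ⟨k, h1, h2, e1, e2, e3, -⟩ := triS T 0 h h'
  exact ⟨k, h1, h2, e1.1.symm, e2.1.symm, e3.1, e1.2, e2.2, e3.2⟩

theorem kit_triD : TriXD P := by
  intro c c' g g' h h'
  obtain ⟨k, h1, h2, e1, e2, e3, -⟩ := triS0 T 0 h h'
  exact ⟨k, h1, h2, e1.1.symm, e2.1.symm, e3.1, e1.2, e2.2, e3.2⟩

end Crest.Agent.R296.AKitx779
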