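import Mathlib

/-!
# Row 296 (S0448), block A: LITERAL INTERFACE (helper378, after helper763's CORE-A, note 2054)

Mathlib's `f ∣ g` in a monoid is `∃ c, g = f * c`, i.e. `g ∈ fP`.
The lattice `L(P)` of principal right ideals is represented by the elements of `P` (`1` is the only unit).
-/

set_option autoImplicit false

universe u v w

namespace Crest.Agent.R296.IfAx378

/-! ## good monoids -/

/-- left cancellative, `1` the only unit, right LCM -/
class IsGood (P : Type u) [Monoid P] : Prop where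
  lc : ∀ f g h : P, f * g = f * h → g = h
  unit : ∀ f g : P, f * g = 1 → f = 1
  lcm : ∀ f g x y : P, f * x = g * y →
    ∃ u v, f * u = g * v ∧ ∀ x' y', f * x' = g * y' → ∃ t, x' = u * t ∧ y' = v * t

/-- `fP ∩ gP = fuP = gvP` -/
def IsLcm {P : Type u} [Monoid P] (f g u v : P) : Prop :=
  f * u = g * v ∧ ∀ x y, f * x = g * y → ∃ t, x = u * t ∧ y = v * t

/-- `fP ∩ gP = ∅` -/
def Disj {P : Type u} [Monoid P] (f g : P) : Prop := ∀ x y, f * x ≠ g * y

/-- conservative embedding of monoids (`fP' ∩ gP' = (fP ∩ gP)P'`; `fP' ∩ P = fP` follows) -/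
structure Cons {P : Type u} {P' : Type v} [Monoid P] [Monoid P'] (ι : P →* P') : Prop where
  inj : Function.Injective ι
  amal : ∀ f g x' y', ι f * x' = ι g * y' → ∃ x y t, f * x = g * y ∧ x' = ι x * t ∧ y' = ι y * t

/-! ## filters and closed sets -/

/-- filter on `L(P)`: `s ∈ S` iff `sP ∈ F` -/
structure Filt (P : Type u) [Monoid P] where
  S : Set P
  one : (1 : P) ∈ S
  up : ∀ x s, x ∣ s → s ∈ S → x ∈ S
  dir : ∀ s t, s ∈ S → t ∈ S → ∃ m ∈ S, s ∣ m ∧ t ∣ m

/-- closed set `(F, Q)`: `R s r` iff the germ of the partial map `r t ↦ s t` belongs to `Q` -/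
@[ext] structure Closed (P : Type u) [Monoid P] extends Filt P where
  R : P → P → Prop
  dom : ∀ s r, R s r → s ∈ S
  refl : ∀ s, s ∈ S → R s s
  symm : ∀ s r, R s r → R r s
  trans : ∀ s r q, R s r → R r q → R s q
  act : ∀ s r t, R s r → r * t ∈ S → R (s * t) (r * t)
  shrink : ∀ s r t, R (s * t) (r * t) → R s r

namespace Closed
variable {P : Type u} [Monoid P]

/-- `z ∈ C` -/
def Mem (C : Closed P) (z : P) : Prop :=
  (∀ s ∈ C.S, s ∣ z) ∧ ∀ s r x, C.R s r → z = r * x → z = s * x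

/-- `f ~_C g` -/
def Sim (C : Closed P) (f g : P) : Prop := ∃ x y, f * x = g * y ∧ C.R x y

/-- the largest closed set (`F = {P}`, `Q = 1`): `z ∈ C` for all `z` -/
def univ (P : Type u) [Monoid P] [IsGood P] : Closed P where
  S := {1}
  one := rfl
  up x s h hs := by
    obtain ⟨c, rfl⟩ := h
    exact IsGood.unit _ _ hs
  dir s t hs ht := ⟨1, rfl, by rw [hs], by rw [ht]⟩
  R s r := s = 1 ∧ r = 1
  dom _ _ h := h.1
  refl _ h := ⟨h, h⟩
  symm _ _ h := ⟨h.2, h.1⟩
  trans _ _ _ h h' := ⟨h.1, h'.2⟩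
  act s r t h ht := by
    obtain ⟨rfl, rfl⟩ := h
    exact ⟨ht, ht⟩
  shrink s r t h := ⟨IsGood.unit _ _ h.1, IsGood.unit _ _ h.2⟩

/-- the closed set generated by `C` in a bigger monoid -/
def MapS (C : Closed P) {P' : Type v} [Monoid P'] (ι : P →* P') : Set P' :=
  {s' | ∃ s ∈ C.S, s' ∣ ι s}

/-- see `MapS` -/
def MapR (C : Closed P) {P' : Type v} [Monoid P'] (ι : P →* P') (s' r' : P') : Prop :=
  ∃ s r t, C.R s r ∧ s' * t = ι s ∧ r' * t = ι r

/-- `C'` is the closed set of `P'` generated by `C` -/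
structure IsMap (C : Closed P) {P' : Type v} [Monoid P'] (ι : P →* P') (C' : Closed P') : Prop where
  S : C'.S = C.MapS ι
  R : ∀ s r, C'.R s r ↔ C.MapR ι s r

end Closed

/-- left invariant equivalence relation -/
structure IsLI {P : Type u} [Monoid P] (r : P → P → Prop) : Prop where
  refl : ∀ f, r f f
  symm : ∀ f g, r f g → r g f
  trans : ∀ f g h, r f g → r g h → r f h
  li : ∀ h f g, r (h * f) (h * g) ↔ r f g

/-! ## extension (S1): right acts -/

/-- LCM act generated by letters `κ j`, `j : J`; `r j x j' x'` means `κ j x = κ j' x'` -/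
@[ext] structure LAct (P : Type u) [Monoid P] (J : Type v) where
  r : J → P → J → P → Prop
  refl : ∀ j x, r j x j x
  symm : ∀ j x j' x', r j x j' x' → r j' x' j x
  trans : ∀ j x j' x' j'' x'', r j x j' x' → r j' x' j'' x'' → r j x j'' x''
  act : ∀ j x j' x' p, r j x j' x' → r j (x * p) j' (x' * p)
  free : ∀ j x x', r j x j x' → x = x'
  lcm : ∀ j x j' x', r j x j' x' →
    ∃ y y', r j y j' y' ∧ ∀ z z', r j z j' z' → ∃ t, z = y * t ∧ z' = y' * t

/-- `P'` is the (S1) extension of `P` by the letters `κ i j` of a family of LCM acts `A i`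
(different `i`: disjoint) -/
structure S1Ext {P : Type u} {P' : Type v} [Monoid P] [Monoid P'] {I : Type w} {J : Type*}
    (A : I → LAct P J) (ι : P →* P') (κ : I → J → P') : Prop where
  good : IsGood P'
  cons : Cons ι
  /-- relations and nothing else -/
  rel : ∀ i j x j' x', (A i).r j x j' x' ↔ κ i j * ι x = κ i j' * ι x'
  lcm : ∀ i j i' j' w w', κ i j * w = κ i' j' * w' →
    i = i' ∧ ∃ x x' t, (A i).r j x j' x' ∧ w = ι x * t ∧ w' = ι x' * t
  /-- every new element is `s0 κ w`, `s0 ∈ P` -/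
  nf : ∀ w, (∃ p, w = ι p) ∨ ∃ s i j w', w = ι s * κ i j * w'
  /-- `s0 κ w` is new, and its divisors in `P` are the divisors of `s0` -/
  new : ∀ s i j w' p, ι s * κ i j * w' ≠ ι p
  dvd : ∀ s i j w' p, ι p ∣ ι s * κ i j * w' ↔ p ∣ s

/-! ## extension (S2): letters `y` with `y a = b`, `y ∈ C`

### abstract form -/

/-- data of an abstract (S2) extension -/
structure S2Data (P : Type u) [Monoid P] (H : Type v) [MulAction P H] where
  /-- `e h = h(b)` -/
  e : H → P
  a : H → P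
  e_smul : ∀ (p : P) (h : H), e (p • h) = p * e h
  a_smul : ∀ (p : P) (h : H), a (p • h) = a h
  a_ne : ∀ h, a h ≠ 1
  lc : ∀ (p : P) (h h' : H), p • h = p • h' → h = h'
  lcm : ∀ (s s' : P) (h h' : H), s • h = s' • h' →
    ∃ x x' h0, s * x = s' * x' ∧ h = x • h0 ∧ h' = x' • h0
  irr : ∀ h h' : H, e h • h' ≠ h

/-- `P'` is the (S2) extension: `y h` stands for `h(y)`; `y h * a h = e h`; `len` = number of letters -/
structure S2Ext {P : Type u} {P' : Type v} {H : Type w} [Monoid P] [Monoid P'] [MulAction P H]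
    (D : S2Data P H) (ι : P →* P') (y : H → P') (len : P' → ℕ) : Prop where
  good : IsGood P'
  cons : Cons ι
  act : ∀ (p : P) (h : H), ι p * y h = y (p • h)
  rel : ∀ h, y h * ι (D.a h) = ι (D.e h)
  len_ι : ∀ p, len (ι p) = 0
  len_mul : ∀ p w, len (ι p * w) = len w
  len_y : ∀ h x, ¬ ι (D.a h) ∣ x → len (y h * x) = len x + 1
  /-- normal form -/
  nf : ∀ w, (∃ p, w = ι p) ∨ ∃ h x, w = y h * x ∧ ¬ ι (D.a h) ∣ x
  new : ∀ h x p, ¬ ι (D.a h) ∣ x → y h * x ≠ ι p
  uniq : ∀ h x h' x', ¬ ι (D.a h) ∣ x → ¬ ι (D.a h') ∣ x' → y h * x = y h' * x' → h = h' ∧ x = x'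

/-! ### all data over `P` at once -/

/-- a datum `(C, a, b)` over `P` -/
@[ext] structure Datum (P : Type u) [Monoid P] where
  C : Closed P
  a : P
  b : P
  a_ne : a ≠ 1
  b_mem : C.Mem b
  ex_p : ∃ p, C.Mem p ∧ p ∣ b ∧ ¬ b ∣ p

/-- letter `φ(y)` where `y` is the letter of the datum `d` and `φ : r t ↦ s t` -/
structure Ltr (P : Type u) [Monoid P] where
  d : Datum P
  s : P
  r : P
  hr : r ∈ d.C.S

namespace Ltr
variable {P : Type u} [Monoid P]

/-- the two letters are equal: equality of germs modulo `Q` -/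
def Eqv (l l' : Ltr P) : Prop :=
  l.d = l'.d ∧ ∃ t t', l.s * t = l'.s * t' ∧ l.d.C.R (l.r * t) (l'.r * t')

/-- left multiplication -/
def smul (p : P) (l : Ltr P) : Ltr P := { l with s := p * l.s }

/-- the letter `y` itself -/
def base (d : Datum P) : Ltr P := ⟨d, 1, 1, d.C.one⟩

end Ltr

/-- `P'` is the (S2) extension of `P` by the letters of ALL data over `P` -/
structure S2All {P : Type u} {P' : Type v} [Monoid P] [Monoid P']
    (ι : P →* P') (y : Ltr P → P') (len : P' → ℕ) : Prop where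
  good : IsGood P'
  cons : Cons ι
  eqv : ∀ l l', l.Eqv l' ↔ y l = y l'
  act : ∀ (p : P) (l : Ltr P), ι p * y l = y (l.smul p)
  rel : ∀ (l : Ltr P) (x : P), l.d.b = l.r * x → y l * ι l.d.a = ι (l.s * x)
  len_ι : ∀ p, len (ι p) = 0
  len_mul : ∀ p w, len (ι p * w) = len w
  len_y : ∀ l x, ¬ ι l.d.a ∣ x → len (y l * x) = len x + 1
  nf : ∀ w, (∃ p, w = ι p) ∨ ∃ l x, w = y l * x ∧ ¬ ι l.d.a ∣ x
  new : ∀ l x p, ¬ ι l.d.a ∣ x → y l * x ≠ ι p
  uniq : ∀ l x l' x', ¬ ι l.d.a ∣ x → ¬ ι l'.d.a ∣ x' → y l * x = y l' * x' → l.Eqv l' ∧ x = x'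

/-! ## the tower -/

/-- literal output of the tower construction.  `A β` = `P_β`; `β` even: (S1) step with ALL LCM acts
with letters indexed by `β.ToType`; `β` odd: (S2) step with ALL data over `A β`. -/
structure Tower (P : Type 1) [Monoid P] where
  good : IsGood P
  A : Ordinal.{0} → Submonoid P
  mono : Monotone A
  small : ∀ β, Small.{0} (A β)
  cons : ∀ β, Cons (A β).subtype
  exh : ∀ p : P, ∃ β, p ∈ A β
  lim : ∀ β, Order.IsSuccLimit β → ∀ p ∈ A β, ∃ γ < β, p ∈ A γ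
  /-- a non-unit of the bottom monoid -/
  f0 : P
  f0_mem : f0 ∈ A 0
  f0_ne : f0 ≠ 1
  /-- `β` even: all acts -/
  κ : ∀ β : Ordinal.{0}, LAct (A β) β.ToType → β.ToType → A (Order.succ β)
  s1 : ∀ β : Ordinal.{0}, β % 2 = 0 →
    S1Ext (I := LAct (A β) β.ToType) (J := β.ToType) (fun i => i)
      (Submonoid.inclusion (mono (Order.le_succ β))) (κ β)
  /-- `β` odd: all data -/
  y : ∀ β : Ordinal.{0}, Ltr (A β) → A (Order.succ β)
  len : ∀ β : Ordinal.{0}, A (Order.succ β) → ℕ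
  s2 : ∀ β : Ordinal.{0}, β % 2 = 1 →
    S2All (Submonoid.inclusion (mono (Order.le_succ β))) (y β) (len β)

/-! ## statements of the leaves of block A -/

/-- A-S1 -/
def StS1 : Prop := ∀ (P : Type) [Monoid P], IsGood P → ∀ (I J : Type) (A : I → LAct P J),
  ∃ (P' : Type) (_ : Monoid P') (ι : P →* P') (κ : I → J → P'), S1Ext A ι κ

/-- A-S2 (abstract) -/
def StS2 : Prop := ∀ (P : Type) [Monoid P], IsGood P → ∀ (H : Type) [MulAction P H] (D : S2Data P H),
  ∃ (P' : Type) (_ : Monoid P') (ι : P →* P') (y : H → P') (len : P' → ℕ), S2Ext D ι y len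

/-- A-H: all closed data at once -/
def StH : Prop := ∀ (P : Type) [Monoid P], IsGood P →
  ∃ (P' : Type) (_ : Monoid P') (ι : P →* P') (y : Ltr P → P') (len : P' → ℕ), S2All ι y len

/-- A-TOW -/
def StTow : Prop := ∃ (P : Type 1) (_ : Monoid P), Nonempty (Tower P)

section props
variable (P : Type u) [Monoid P]

/-- (Gen) for finite sets -/
def GenF : Prop := ∀ (a b : P) (S : Finset P), a ≠ 1 → b ≠ 1 → (1 : P) ∉ S →
  ∃ y, y * a = b ∧ ∀ s ∈ S, ∀ x, s ∣ y * x → b ∣ y * x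

/-- new letter -/
def LetF : Prop := ∀ S : Finset P, (1 : P) ∉ S → ∃ k : P, k ≠ 1 ∧ ∀ s ∈ S, Disj k s

/-- (Tri) -/
def TriP : Prop := ∀ c c' x x' g g' : P, IsLcm c c' x x' → IsLcm g g' x x →
  ∃ k h1 h2, h1 * c = k * g ∧ h2 * c = k * g' ∧ h1 * c' = h2 * c'

/-- (Tri), degenerate case -/
def TriD : Prop := ∀ c c' g g' : P, Disj c c' → Disj g g' →
  ∃ k h1 h2, h1 * c = k * g ∧ h2 * c = k * g' ∧ h1 * c' = h2 * c'

/-- A-CLS = A.5 -/
def StCls : Prop := IsGood P → GenF P → LetF P → TriP P → TriD P →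
  ∀ r : P → P → Prop, IsLI r → (∀ f g, r f g) ∨ ∃ C : Closed P, ∀ f g, r f g ↔ C.Sim f g

end props

section tower
variable {P : Type 1} [Monoid P] (T : Tower P)

/-- `F` is generated by its members in `A α` -/
def GenBy (F : Filt P) (α : Ordinal.{0}) : Prop := ∀ s ∈ F.S, ∃ m ∈ T.A α, m ∈ F.S ∧ s ∣ m

/-- A-CAP = A.6 -/
def StCap : Prop := ∀ (F : Filt P) (α : Ordinal.{0}),
  (∀ w ∈ T.A α, (∀ s ∈ T.A α, s ∈ F.S → s ∣ w) → ∀ s ∈ F.S, s ∣ w) → GenBy T F α

end tower

end Crest.Agent.R296.IfAx378
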