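import Mathlib
import Crest.Agent.R296.IfA_378

/-!
# Row 296 (S0448), block A, LITERAL INTERFACE v2 (helper378)

Closed sets are FILTERS (no germ groups), letters of (S1) have index set `Fin 3`.
`IsGood, IsLcm, Disj, Cons, Filt, LAct, S1Ext, S2Data, S2Ext, StS1, StS2` are those of `IfA_378`.
-/

set_option autoImplicit false

universe u v w

namespace Crest.Agent.R296.IfA2x378

open Crest.Agent.R296.IfAx378 (IsGood IsLcm Disj Cons Filt LAct S1Ext S2Data S2Ext)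

/-! ## (S2), all data over `P` at once -/

/-- a datum `(F, a, b)` over `P`: `F` filter, `b` in all members of `F`, and some `p ∣ b` in all
members of `F` is not a multiple of `b` (so `b ∉ F`) -/
@[ext] structure Datum (P : Type u) [Monoid P] where
  F : Filt P
  a : P
  b : P
  a_ne : a ≠ 1
  b_mem : ∀ s ∈ F.S, s ∣ b
  ex_p : ∃ p, (∀ s ∈ F.S, s ∣ p) ∧ p ∣ b ∧ ¬ b ∣ p

/-- letter `φ(y)` where `y` is the letter of the datum `d` and `φ` is the germ of `r t ↦ s t` -/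
structure Ltr (P : Type u) [Monoid P] where
  d : Datum P
  s : P
  r : P
  hr : r ∈ d.F.S

namespace Ltr
variable {P : Type u} [Monoid P]

/-- the two letters are equal: same datum, and the germs agree on a member of `F` -/
def Eqv (l l' : Ltr P) : Prop :=
  l.d = l'.d ∧ ∃ t t', l.s * t = l'.s * t' ∧ l.r * t = l'.r * t' ∧ l.r * t ∈ l.d.F.S

/-- left multiplication -/
def smul (p : P) (l : Ltr P) : Ltr P := { l with s := p * l.s }

/-- the letter `y` itself -/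
def base (d : Datum P) : Ltr P := ⟨d, 1, 1, d.F.one⟩

end Ltr

/-- `P'` is the (S2) extension of `P` by the letters of ALL data over `P` -/
structure S2All {P : Type u} {P' : Type v} [Monoid P] [Monoid P']
    (ι : P →* P') (y : Ltr P → P') (len : P' → ℕ) : Prop where
  good : IsGood P'
  cons : Cons ι
  eqv : ∀ l l', l.Eqv l' ↔ y l = y l'
  act : ∀ (p : P) (l : Ltr P), ι p * y l = y (l.smul p)
  rel : ∀ (l : Ltr P) (x : P), l.d.b = l.r * x → y l * ι l.d.a = ι (l.s * x)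
  len_ι : ∀ p, len (ι p) = 0
  len_mul : ∀ p w, len (ι p * w) = len w
  len_y : ∀ l x, ¬ ι l.d.a ∣ x → len (y l * x) = len x + 1
  nf : ∀ w, (∃ p, w = ι p) ∨ ∃ l x, w = y l * x ∧ ¬ ι l.d.a ∣ x
  new : ∀ l x p, ¬ ι l.d.a ∣ x → y l * x ≠ ι p
  uniq : ∀ l x l' x', ¬ ι l.d.a ∣ x → ¬ ι l'.d.a ∣ x' → y l * x = y l' * x' → l.Eqv l' ∧ x = x'

/-! ## the tower -/

/-- literal output of the tower construction.  `A β` = `P_β`; `β` even: (S1) step with ALL LCM acts
with three letters; `β` odd: (S2) step with ALL data over `A β`. -/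
structure Tower (P : Type 1) [Monoid P] where
  good : IsGood P
  A : Ordinal.{0} → Submonoid P
  mono : Monotone A
  small : ∀ β, Small.{0} (A β)
  cons : ∀ β, Cons (A β).subtype
  exh : ∀ p : P, ∃ β, p ∈ A β
  lim : ∀ β, Order.IsSuccLimit β → ∀ p ∈ A β, ∃ γ < β, p ∈ A γ
  /-- a non-unit of the bottom monoid -/
  f0 : P
  f0_mem : f0 ∈ A 0
  f0_ne : f0 ≠ 1
  /-- `β` even: all acts -/
  κ : ∀ β : Ordinal.{0}, LAct (A β) (Fin 3) → Fin 3 → A (Order.succ β)
  s1 : ∀ β : Ordinal.{0}, β % 2 = 0 →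
    S1Ext (I := LAct (A β) (Fin 3)) (J := Fin 3) (fun i => i)
      (Submonoid.inclusion (mono (Order.le_succ β))) (κ β)
  /-- `β` odd: all data -/
  y : ∀ β : Ordinal.{0}, Ltr (A β) → A (Order.succ β)
  len : ∀ β : Ordinal.{0}, A (Order.succ β) → ℕ
  s2 : ∀ β : Ordinal.{0}, β % 2 = 1 →
    S2All (Submonoid.inclusion (mono (Order.le_succ β))) (y β) (len β)

/-- A-H (owner 478): all data at once, from `StS2` -/
def StH : Prop := ∀ (P : Type) [Monoid P], IsGood P →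
  ∃ (P' : Type) (_ : Monoid P') (ι : P →* P') (y : Ltr P → P') (len : P' → ℕ), S2All ι y len

/-- A-TOW (owner 281, hedge 539): from `StS1`, `StH` -/
def StTow : Prop := ∃ (P : Type 1) (_ : Monoid P), Nonempty (Tower P)

/-! ## properties of the limit monoid used by block C -/

section props
variable (P : Type u) [Monoid P]

/-- (Gen) for small sets; `y ≠ 1` -/
def GenS : Prop := ∀ (a b : P) (S : Set P), Small.{0} S → a ≠ 1 → b ≠ 1 → (1 : P) ∉ S →
  ∃ y, y ≠ 1 ∧ y * a = b ∧ ∀ s ∈ S, ∀ x, s ∣ y * x → b ∣ y * x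

/-- new letter -/
def LetS : Prop := ∀ S : Set P, Small.{0} S → (1 : P) ∉ S → ∃ k : P, k ≠ 1 ∧ ∀ s ∈ S, Disj k s

/-- (Tri), with different sides, exact intersections -/
def TriG : Prop := ∀ c c₁ d d₁ g h u v : P, IsLcm c c₁ u v → IsLcm d d₁ u v → IsLcm g h u u →
  ∃ k x y, IsLcm x k c g ∧ IsLcm y k d h ∧ IsLcm x y c₁ d₁

/-- (Tri), degenerate case -/
def TriGD : Prop := ∀ c c₁ d d₁ g h : P, Disj c c₁ → Disj d d₁ → Disj g h →
  ∃ k x y, IsLcm x k c g ∧ IsLcm y k d h ∧ IsLcm x y c₁ d₁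

end props

section tower
variable {P : Type 1} [Monoid P] (T : Tower P)

/-- `F` is generated by its members in `A α` -/
def GenBy (F : Filt P) (α : Ordinal.{0}) : Prop := ∀ s ∈ F.S, ∃ m ∈ T.A α, m ∈ F.S ∧ s ∣ m

/-- A-SM (owner 779): small sets are bounded -/
def StSm : Prop := ∀ S : Set P, Small.{0} S → ∃ α, ∀ s ∈ S, s ∈ T.A α

/-- A-CAP = A.6 (owner 565) -/
def StCap : Prop := ∀ (F : Filt P) (α : Ordinal.{0}),
  (∀ w ∈ T.A α, (∀ s ∈ T.A α, s ∈ F.S → s ∣ w) → ∀ s ∈ F.S, s ∣ w) → GenBy T F α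

/-- A-DESC (owner 70): a germ `[v,u] : u t ↦ v t` mapping the filter `F` to the filter `F'` has a
representative in `A α` (use `F' = F` in block C) -/
def StDesc : Prop := ∀ (F F' : Filt P) (α : Ordinal.{0}) (u v : P), GenBy T F α → GenBy T F' α →
  u ∈ F.S → v ∈ F'.S → (∀ t, u * t ∈ F.S ↔ v * t ∈ F'.S) →
  ∃ t, u * t ∈ F.S ∧ v * t ∈ F'.S ∧ u * t ∈ T.A α ∧ v * t ∈ T.A α

/-- data of a T-letter -/
structure TDat where
  β : Ordinal.{0}
  odd : β % 2 = 1
  F : Filt P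
  a : P
  b : P
  p : P
  gen : GenBy T F β
  ha : a ∈ T.A β
  hb : b ∈ T.A β
  hp : p ∈ T.A β
  a_ne : a ≠ 1
  mem : ∀ s ∈ F.S, s ∣ p
  dvd : p ∣ b
  ndvd : ¬ b ∣ p

/-- A-T = T-lemma A.7 (owner 774) -/
structure TLem (η : TDat T → P) : Prop where
  succ : ∀ D, η D ∈ T.A (Order.succ D.β)
  new : ∀ D, η D ∉ T.A D.β
  rel : ∀ D, η D * D.a = D.b
  /-- (T3): `η` is in all members of `F`; so `s u = s' u`, `u ∈ F`, imply `s η = s' η` -/
  t3 : ∀ D, ∀ u ∈ D.F.S, u ∣ η D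
  /-- (T0) -/
  t0 : ∀ D s z, s ∈ T.A D.β → s * η D * z ∈ T.A D.β → D.a ∣ z
  /-- (T1) -/
  t1 : ∀ D u z, u ∣ D.p → u ∣ η D * z → ¬ D.a ∣ z → u ∈ D.F.S
  /-- (T1') -/
  t1' : ∀ D u z, u ∈ T.A D.β → u ∣ η D * z → ¬ D.a ∣ z → u ∈ D.F.S
  /-- (T2) -/
  t2 : ∀ D D' s s' z z', s * D.p = s' * D'.p → s * η D * z = s' * η D' * z' →
    ¬ D.a ∣ z → ¬ D'.a ∣ z' →
    D = D' ∧ z = z' ∧ ∃ u ∈ D.F.S, s * u = s' * u

/-- A-T -/
def StT : Prop := ∃ η : TDat T → P, TLem T η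

end tower

/-- everything block C needs (owner of the proof `StA`: 779) -/
structure OutA (P : Type 1) [Monoid P] : Type 1 where
  T : Tower P
  genS : GenS P
  letS : LetS P
  tri : TriG P
  triD : TriGD P
  sm : StSm T
  cap : StCap T
  desc : StDesc T
  η : TDat T → P
  t : TLem T η

/-- end product of block A -/
def StA : Prop := ∃ (P : Type 1) (_ : Monoid P), Nonempty (OutA P)

end Crest.Agent.R296.IfA2x378
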