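import Crest.Agent.R296.AProp_779
import Crest.Agent.R296.IfA2_378

/-!
# Row 296, leaf A-PROP, interface v2 (helper779): properties of the monoid `P` of a `Tower`
-/

set_option autoImplicit false

universe u v w

namespace Crest.Agent.R296.AProp2x779

open Crest.Agent.R296.IfAx378 (IsGood IsLcm Disj Cons Filt LAct S1Ext S2Data S2Ext)
open Crest.Agent.R296.IfA2x378
open Crest.Agent.R296.APropx779 (unit_left unit_right dvd_one mul_ne_one_left mul_ne_one_right
  cons_dvd cons_good baseChange baseChange_r MatOK matAct exists_even exists_odd)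

/-- the filter `{P}` -/
def filtOne (P : Type u) [Monoid P] [IsGood P] : Filt P where
  S := {1}
  one := rfl
  up x s h hs := by
    rw [show s = 1 from hs] at h
    exact dvd_one h
  dir s t hs ht := ⟨1, rfl, by rw [show s = 1 from hs], by rw [show t = 1 from ht]⟩

section tower
variable {P : Type 1} [Monoid P]

/-- a small set is contained in some `A β` -/
theorem exists_level (T : Tower P) (S : Set P) [Small.{0} S] : ∃ β, ∀ s ∈ S, s ∈ T.A β := by
  choose g hg using T.exh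
  obtain ⟨B, hB⟩ := Ordinal.bddAbove_of_small (s := Set.range
    (fun x : Shrink.{0} S => g ((equivShrink S).symm x).1))
  refine ⟨B, fun s hs => T.mono (hB ⟨equivShrink S ⟨s, hs⟩, rfl⟩) ?_⟩
  simpa using hg s

theorem stSm (T : Tower P) : StSm T := fun S _ => exists_level T S

theorem cons_incl (T : Tower P) {β γ : Ordinal.{0}} (h : β ≤ γ) :
    Cons (Submonoid.inclusion (T.mono h)) where
  inj := Submonoid.inclusion_injective _
  amal f g x' y' hxy := by
    have := T.good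
    obtain ⟨x, y, t, h1, h2, h3⟩ := (T.cons β).amal f g x'.1 y'.1 (congrArg Subtype.val hxy)
    obtain ⟨t0, -, rfl⟩ := cons_dvd (T.cons γ) (f := ⟨x.1, T.mono h x.2⟩) (g := x') h2.symm
    exact ⟨x, y, t0, h1, Subtype.ext h2, Subtype.ext h3⟩

theorem good_level (T : Tower P) (β : Ordinal.{0}) : IsGood (T.A β) := by
  have := T.good
  exact cons_good (T.cons β)

/-- `A β` is stable under right division in `P` -/
theorem mem_of_mul_mem (T : Tower P) {β : Ordinal.{0}} {f x : P} (hf : f ∈ T.A β)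
    (hfx : f * x ∈ T.A β) : x ∈ T.A β := by
  have := T.good
  obtain ⟨y, -, rfl⟩ := cons_dvd (T.cons β) (f := ⟨f, hf⟩) (g := ⟨f * x, hfx⟩) (x := x) rfl
  exact y.2

/-- **LetP**: letters of an LCM act over `A γ`, generic over a bigger stage `A γ'` -/
theorem letP (T : Tower P) (γ γ' : Ordinal.{0}) (B : LAct (T.A γ) (Fin 3)) :
    ∃ κ : Fin 3 → P,
      (∀ j x j' x', B.r j x j' x' ↔ κ j * (x : P) = κ j' * (x' : P)) ∧
      (∀ j j' (w w' : P), κ j * w = κ j' * w' →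
        ∃ (x x' : T.A γ) (t : P), B.r j x j' x' ∧ w = x * t ∧ w' = x' * t) ∧
      (∀ s ∈ T.A γ', ∀ j (w p : P), p ∈ T.A γ' → (p ∣ s * κ j * w ↔ p ∣ s)) := by
  have hP := T.good
  obtain ⟨β, hβ, hβ2⟩ := exists_even (max γ γ')
  have hγ : γ ≤ β := (le_max_left _ _).trans hβ
  have hγ' : γ' ≤ β := (le_max_right _ _).trans hβ
  have := good_level T β
  let B1 := baseChange B _ (cons_incl T hγ)
  have E := T.s1 β hβ2
  let e := Submonoid.inclusion (T.mono (Order.le_succ β))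
  refine ⟨fun j => (T.κ β B1 j : P), fun j x j' x' => ?_, fun j j' w w' h => ?_,
    fun s hs j w p hp => ⟨?_, ?_⟩⟩
  · rw [← baseChange_r B _ (cons_incl T hγ), E.rel B1 _ _ _ _, Subtype.ext_iff]
    rfl
  · obtain ⟨a, b, t, h1, h2, h3⟩ := (T.cons (Order.succ β)).amal _ _ w w' h
    obtain ⟨-, x, x', t', h4, h5, h6⟩ := E.lcm _ _ _ _ _ _ h1
    obtain ⟨y, y', u, h7, h8, h9⟩ := h4
    refine ⟨y, y', u * t' * t, h7, ?_, ?_⟩
    · rw [h2, h5, h8]
      simp [mul_assoc]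
    · rw [h3, h6, h9]
      simp [mul_assoc]
  · rintro ⟨q, hq⟩
    obtain ⟨a, b, t, h1, -, -⟩ := (T.cons (Order.succ β)).amal
      (e ⟨p, T.mono hγ' hp⟩) (e ⟨s, T.mono hγ' hs⟩ * T.κ β B1 j) q w hq.symm
    obtain ⟨c, hc⟩ := (E.dvd ⟨s, T.mono hγ' hs⟩ B1 j b ⟨p, T.mono hγ' hp⟩).1 ⟨a, h1.symm⟩
    exact ⟨c, congrArg Subtype.val hc⟩
  · rintro ⟨q, rfl⟩
    exact ⟨q * (T.κ β B1 j : P) * w, by simp [mul_assoc]⟩

/-- `k` is generic over the stage `A γ` -/
def New (T : Tower P) (γ : Ordinal.{0}) (k : P) : Prop :=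
  ∀ s ∈ T.A γ, ∀ p ∈ T.A γ, ∀ w, p ∣ s * k * w → p ∣ s

theorem New.mono {T : Tower P} {γ γ' : Ordinal.{0}} {k : P} (h : New T γ' k) (hγ : γ ≤ γ') :
    New T γ k := fun s hs p hp w hw => h s (T.mono hγ hs) p (T.mono hγ hp) w hw

theorem New.disj {T : Tower P} {γ : Ordinal.{0}} {k : P} (h : New T γ k) {s : P}
    (hs : s ∈ T.A γ) (hs1 : s ≠ 1) : Disj k s := by
  have := T.good
  intro x y hxy
  exact hs1 (dvd_one (h 1 (one_mem _) s hs x (by rw [one_mul, hxy]; exact dvd_mul_right _ _)))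

theorem New.ne_one {T : Tower P} {γ : Ordinal.{0}} {k : P} (h : New T γ k) : k ≠ 1 := by
  have := T.good
  rintro rfl
  refine T.f0_ne (dvd_one (h 1 (one_mem _) T.f0 (T.mono (zero_le (a := γ)) T.f0_mem) T.f0 ?_))
  simp

/-- **matrix letters**: letters with prescribed pairwise intersections, generic over `A γ` -/
theorem matLet (T : Tower P) (γ : Ordinal.{0}) (E : Fin 3 → Fin 3 → Prop) (a : Fin 3 → Fin 3 → P)
    (H : MatOK E a) : ∃ κ : Fin 3 → P,
      (∀ j j', E j j' → IsLcm (κ j) (κ j') (a j j') (a j' j)) ∧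
      (∀ j j', ¬ E j j' → Disj (κ j) (κ j')) ∧ ∀ j, New T γ (κ j) := by
  obtain ⟨β, hβ⟩ := exists_level T (Set.range fun q : Fin 3 × Fin 3 => a q.1 q.2)
  have hβ' : ∀ j j', a j j' ∈ T.A β := fun j j' => hβ _ ⟨(j, j'), rfl⟩
  have := good_level T β
  let a' : Fin 3 → Fin 3 → T.A β := fun j j' => ⟨a j j', hβ' j j'⟩
  have H' : MatOK E a' :=
    { er := H.er
      es := H.es
      d := fun j => Subtype.ext (H.d j)
      c := fun i j k e1 e2 e3 h1 h2 t s hts => by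
        obtain ⟨h3, t', h4, h5⟩ := H.c i j k e1 e2 e3 h1 h2 t s (congrArg Subtype.val hts)
        have ht' : t' ∈ T.A β := mem_of_mul_mem T (hβ' i k) (by
          rw [← h4]
          exact mul_mem (hβ' i j) t.2)
        exact ⟨h3, ⟨t', ht'⟩, Subtype.ext h4, Subtype.ext h5⟩ }
  obtain ⟨κ, h1, h2, h3⟩ := letP T β γ (matAct E a' H')
  refine ⟨κ, fun j j' hE => ⟨?_, ?_⟩, fun j j' hE w w' hw => ?_, fun j s hs p hp w hw =>
    (h3 s hs j w p hp).1 hw⟩
  · exact (h1 j (a' j j') j' (a' j' j)).1 ⟨hE, 1, by rw [mul_one], by rw [mul_one]⟩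
  · intro w w' hw
    obtain ⟨x, x', t, ⟨-, r, rfl, rfl⟩, rfl, rfl⟩ := h2 j j' w w' hw
    exact ⟨r * t, by simp [a', mul_assoc], by simp [a', mul_assoc]⟩
  · obtain ⟨x, x', t, ⟨h, -⟩, -, -⟩ := h2 j j' w w' hw
    exact hE h

/-! ### triangles -/

/-- entries of the general triangle matrix: `0 = x`, `1 = y`, `2 = k`;
`x c = k g`, `y d = k h`, `x c₁ = y d₁` -/
def tMat (c c₁ d d₁ g h : P) : Fin 3 → Fin 3 → P
  | 0, 2 => c
  | 2, 0 => g
  | 1, 2 => d
  | 2, 1 => h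
  | 0, 1 => c₁
  | 1, 0 => d₁
  | _, _ => 1

theorem tMat_ok {c c₁ d d₁ g h u v : P} (H1 : IsLcm c c₁ u v) (H2 : IsLcm d d₁ u v)
    (H3 : IsLcm g h u u) : MatOK (fun _ _ => True) (tMat c c₁ d d₁ g h) where
  er _ := trivial
  es _ _ _ := trivial
  d := by
    intro j
    fin_cases j <;> rfl
  c := by
    intro i j l e1 e2 e3 _ _ t s hts
    refine ⟨trivial, ?_⟩
    fin_cases i <;> fin_cases j <;> fin_cases l <;>
      first
      | exact absurd rfl e1
      | exact absurd rfl e2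
      | exact absurd rfl e3
      | skip
    · -- (x, y, k)
      change d₁ * t = d * s at hts
      change ∃ t', c₁ * t = c * t' ∧ h * s = g * t'
      obtain ⟨r, rfl, rfl⟩ := H2.2 _ _ hts.symm
      exact ⟨u * r, by rw [← mul_assoc, ← mul_assoc, H1.1], by rw [← mul_assoc, ← mul_assoc, H3.1]⟩
    · -- (x, k, y)
      change g * t = h * s at hts
      change ∃ t', c * t = c₁ * t' ∧ d * s = d₁ * t'
      obtain ⟨r, rfl, rfl⟩ := H3.2 _ _ hts
      exact ⟨v * r, by rw [← mul_assoc, ← mul_assoc, H1.1], by rw [← mul_assoc, ← mul_assoc, H2.1]⟩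
    · -- (y, x, k)
      change c₁ * t = c * s at hts
      change ∃ t', d₁ * t = d * t' ∧ g * s = h * t'
      obtain ⟨r, rfl, rfl⟩ := H1.2 _ _ hts.symm
      exact ⟨u * r, by rw [← mul_assoc, ← mul_assoc, H2.1], by rw [← mul_assoc, ← mul_assoc, H3.1]⟩
    · -- (y, k, x)
      change h * t = g * s at hts
      change ∃ t', d * t = d₁ * t' ∧ c * s = c₁ * t'
      obtain ⟨r, rfl, rfl⟩ := H3.2 _ _ hts.symm
      exact ⟨v * r, by rw [← mul_assoc, ← mul_assoc, H2.1], by rw [← mul_assoc, ← mul_assoc, H1.1]⟩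
    · -- (k, x, y)
      change c * t = c₁ * s at hts
      change ∃ t', g * t = h * t' ∧ d₁ * s = d * t'
      obtain ⟨r, rfl, rfl⟩ := H1.2 _ _ hts
      exact ⟨u * r, by rw [← mul_assoc, ← mul_assoc, H3.1], by rw [← mul_assoc, ← mul_assoc, H2.1]⟩
    · -- (k, y, x)
      change d * t = d₁ * s at hts
      change ∃ t', h * t = g * t' ∧ c₁ * s = c * t'
      obtain ⟨r, rfl, rfl⟩ := H2.2 _ _ hts
      exact ⟨u * r, by rw [← mul_assoc, ← mul_assoc, H3.1], by rw [← mul_assoc, ← mul_assoc, H1.1]⟩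

theorem tMat_ok0 {c c₁ d d₁ g h : P} (H1 : Disj c c₁) (H2 : Disj d d₁)
    (H3 : Disj g h) : MatOK (fun _ _ => True) (tMat c c₁ d d₁ g h) where
  er _ := trivial
  es _ _ _ := trivial
  d := by
    intro j
    fin_cases j <;> rfl
  c := by
    intro i j l e1 e2 e3 _ _ t s hts
    refine ⟨trivial, ?_⟩
    fin_cases i <;> fin_cases j <;> fin_cases l <;>
      first
      | exact absurd rfl e1
      | exact absurd rfl e2
      | exact absurd rfl e3
      | exact absurd hts (H1 _ _)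
      | exact absurd hts.symm (H1 _ _)
      | exact absurd hts (H2 _ _)
      | exact absurd hts.symm (H2 _ _)
      | exact absurd hts (H3 _ _)
      | exact absurd hts.symm (H3 _ _)

/-- general triangle, generic over `A γ` -/
theorem triS (T : Tower P) (γ : Ordinal.{0}) {c c₁ d d₁ g h u v : P} (H1 : IsLcm c c₁ u v)
    (H2 : IsLcm d d₁ u v) (H3 : IsLcm g h u u) :
    ∃ k x y : P, IsLcm x k c g ∧ IsLcm y k d h ∧ IsLcm x y c₁ d₁ ∧
      New T γ k ∧ New T γ x ∧ New T γ y := by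
  obtain ⟨κ, h1, -, h3⟩ := matLet T γ _ _ (tMat_ok H1 H2 H3)
  exact ⟨κ 2, κ 0, κ 1, h1 0 2 trivial, h1 1 2 trivial, h1 0 1 trivial, h3 _, h3 _, h3 _⟩

/-- degenerate triangle, generic over `A γ` -/
theorem triS0 (T : Tower P) (γ : Ordinal.{0}) {c c₁ d d₁ g h : P} (H1 : Disj c c₁)
    (H2 : Disj d d₁) (H3 : Disj g h) :
    ∃ k x y : P, IsLcm x k c g ∧ IsLcm y k d h ∧ IsLcm x y c₁ d₁ ∧
      New T γ k ∧ New T γ x ∧ New T γ y := by
  obtain ⟨κ, h1, -, h3⟩ := matLet T γ _ _ (tMat_ok0 H1 H2 H3)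
  exact ⟨κ 2, κ 0, κ 1, h1 0 2 trivial, h1 1 2 trivial, h1 0 1 trivial, h3 _, h3 _, h3 _⟩

theorem triG (T : Tower P) : TriG P := by
  intro c c₁ d d₁ g h u v H1 H2 H3
  obtain ⟨k, x, y, e1, e2, e3, -⟩ := triS T 0 H1 H2 H3
  exact ⟨k, x, y, e1, e2, e3⟩

theorem triGD (T : Tower P) : TriGD P := by
  intro c c₁ d d₁ g h H1 H2 H3
  obtain ⟨k, x, y, e1, e2, e3, -⟩ := triS0 T 0 H1 H2 H3
  exact ⟨k, x, y, e1, e2, e3⟩

/-! ### free letters -/

/-- new free letter, level form -/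
theorem letL (T : Tower P) (γ : Ordinal.{0}) : ∃ k : P, New T γ k := by
  have H : MatOK (P := P) (J := Fin 3) (fun i j => i = j) (fun _ _ => 1) :=
    ⟨fun _ => rfl, fun _ _ h => h.symm, fun _ => rfl, fun i j _ h _ _ h' => absurd h' h⟩
  obtain ⟨κ, -, -, h⟩ := matLet T γ _ _ H
  exact ⟨κ 0, h 0⟩

/-- two disjoint free letters, level form -/
theorem letL2 (T : Tower P) (γ : Ordinal.{0}) : ∃ k k' : P, New T γ k ∧ New T γ k' ∧ Disj k k' := by
  have H : MatOK (P := P) (J := Fin 3) (fun i j => i = j) (fun _ _ => 1) :=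
    ⟨fun _ => rfl, fun _ _ h => h.symm, fun _ => rfl, fun i j _ h _ _ h' => absurd h' h⟩
  obtain ⟨κ, -, h', h⟩ := matLet T γ _ _ H
  exact ⟨κ 0, κ 1, h 0, h 1, h' 0 1 (by decide)⟩

/-- new free letter, small sets -/
theorem letS (T : Tower P) : LetS P := by
  intro S hS h1
  obtain ⟨γ, hγ⟩ := exists_level T S
  obtain ⟨k, hk⟩ := letL T γ
  exact ⟨k, hk.ne_one, fun s hs => hk.disj (hγ s hs) (fun h => h1 (h ▸ hs))⟩

/-! ### generic letters `y a = b` -/

/-- datum of a generic letter `y a = b` -/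
def genDatum {Q : Type u} [Monoid Q] [IsGood Q] (a b : Q) (ha : a ≠ 1) (hb : b ≠ 1) : Datum Q where
  F := filtOne Q
  a := a
  b := b
  a_ne := ha
  b_mem s hs := by
    rw [show s = 1 from hs]
    exact one_dvd _
  ex_p := ⟨1, fun s hs => by rw [show s = 1 from hs], one_dvd _, fun h => hb (dvd_one h)⟩

/-- **Gen**, level form: `y a = b` and `y` is generic over `A γ` -/
theorem genL (T : Tower P) (γ : Ordinal.{0}) (a b : P) (ha : a ≠ 1) (hb : b ≠ 1) :
    ∃ y, y * a = b ∧ (∀ s ∈ T.A γ, ∀ p ∈ T.A γ, ∀ x, p ∣ s * y * x → p ∣ s ∨ a ∣ x) ∧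
      ∀ s ∈ T.A γ, ∀ x, s * y * x ∈ T.A γ → a ∣ x := by
  have hP := T.good
  obtain ⟨β1, hβ1⟩ := exists_level T {a, b}
  obtain ⟨β, hβ, hβ2⟩ := exists_odd (max γ β1)
  have hγ : γ ≤ β := (le_max_left _ _).trans hβ
  have ha' : a ∈ T.A β := T.mono ((le_max_right _ _).trans hβ) (hβ1 a (by simp))
  have hb' : b ∈ T.A β := T.mono ((le_max_right _ _).trans hβ) (hβ1 b (by simp))
  have := good_level T β
  have E := T.s2 β hβ2
  let d : Datum (T.A β) := genDatum ⟨a, ha'⟩ ⟨b, hb'⟩ (fun h => ha (congrArg Subtype.val h))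
    (fun h => hb (congrArg Subtype.val h))
  let e := Submonoid.inclusion (T.mono (Order.le_succ β))
  refine ⟨(T.y β (Ltr.base d) : P), ?_, fun s hs p hp x hx => ?_, fun s hs x hx => ?_⟩
  · have := E.rel (Ltr.base d) ⟨b, hb'⟩ (by simp [Ltr.base, d, genDatum])
    have := congrArg Subtype.val this
    simpa [Ltr.base, d, genDatum] using this
  · by_contra hcon
    push Not at hcon
    obtain ⟨h1, h2⟩ := hcon
    obtain ⟨q, hq⟩ := hx
    let s' : T.A β := ⟨s, T.mono hγ hs⟩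
    let p' : T.A β := ⟨p, T.mono hγ hp⟩
    obtain ⟨c, z, t, h3, h4, h5⟩ := (T.cons (Order.succ β)).amal
      (e p') (e s' * T.y β (Ltr.base d)) q x hq.symm
    have h6 : ¬ e ⟨a, ha'⟩ ∣ z := by
      rintro ⟨r, rfl⟩
      exact h2 ⟨r * t, by rw [h5]; simp [e, mul_assoc]⟩
    have h7 := E.act s' (Ltr.base d)
    have h8 : T.y β ((Ltr.base d).smul s') * z = e p' * c := by
      rw [← h7, h3]
    rcases E.nf c with ⟨c0, rfl⟩ | ⟨l, w, rfl, hw⟩
    · exact E.new _ z (p' * c0) h6 (by rw [h8, map_mul])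
    · rw [← mul_assoc, E.act] at h8
      obtain ⟨⟨h9, r, r', h10, h11, h12⟩, -⟩ :=
        E.uniq ((Ltr.base d).smul s') z (l.smul p') w h6 hw h8
      have h13 : r = 1 := by
        have : r ∈ d.F.S := by simpa [Ltr.smul, Ltr.base] using h12
        exact this
      subst h13
      apply h1
      refine ⟨(l.s * r' : T.A β), ?_⟩
      have := congrArg Subtype.val h10
      simpa [Ltr.smul, Ltr.base, mul_assoc, s', p'] using this
  · by_contra hcon
    rw [mul_assoc] at hx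
    have hx2 := T.mono hγ (mem_of_mul_mem T hs hx)
    obtain ⟨z, hz, rfl⟩ := cons_dvd (T.cons (Order.succ β)) (f := T.y β (Ltr.base d))
      (g := e ⟨_, hx2⟩) (x := x) rfl
    refine E.new (Ltr.base d) z ⟨_, hx2⟩ ?_ hz
    rintro ⟨r, rfl⟩
    exact hcon ⟨r, rfl⟩

/-- **(Gen)** for small sets `S` -/
theorem genS' (T : Tower P) (a b : P) (S : Set P) [Small.{0} S] (ha : a ≠ 1) (hb : b ≠ 1) :
    ∃ y, y ≠ 1 ∧ y * a = b ∧ ∀ s ∈ S, s ≠ 1 → ∀ x, s ∣ y * x → b ∣ y * x := by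
  have := T.good
  obtain ⟨γ, hγ⟩ := exists_level T S
  obtain ⟨y, h1, h2, h3⟩ := genL T γ a b ha hb
  refine ⟨y, ?_, h1, fun s hs hs1 x hx => ?_⟩
  · rintro rfl
    have := h3 1 (one_mem _) 1 (by simp)
    exact ha (dvd_one this)
  · rcases h2 1 (one_mem _) s (hγ s hs) x (by rwa [one_mul]) with h | ⟨c, rfl⟩
    · exact absurd (dvd_one h) hs1
    · exact ⟨c, by rw [← mul_assoc, h1]⟩

theorem genS (T : Tower P) : GenS P := by
  intro a b S hS ha hb h1
  obtain ⟨y, hy1, hy, h⟩ := genS' T a b S ha hb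
  exact ⟨y, hy1, hy, fun s hs => h s hs (fun e => h1 (e ▸ hs))⟩

/-- `P ∖ {1}` is left simple -/
theorem left_simple (T : Tower P) (f g : P) (hf : f ≠ 1) (hg : g ≠ 1) : ∃ h, h * f = g := by
  obtain ⟨y, hy, -⟩ := genL T 0 f g hf hg
  exact ⟨y, hy⟩

/-- left Ore condition -/
theorem ore (T : Tower P) (f g : P) : ∃ h k, h * f = k * g := by
  by_cases hf : f = 1
  · exact ⟨g, 1, by rw [hf, mul_one, one_mul]⟩
  by_cases hg : g = 1
  · exact ⟨1, f, by rw [hg, mul_one, one_mul]⟩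
  obtain ⟨h, hh⟩ := left_simple T f g hf hg
  exact ⟨h, 1, by rw [hh, one_mul]⟩

/-- **free amalgamation**: `h' h = k' k`, `h'P ∩ k'P = h'hP`, `k'` new over `A γ`, and `h'` generic
over `A γ` -/
theorem amalg (T : Tower P) (γ : Ordinal.{0}) (h k : P) :
    ∃ h' k', IsLcm h' k' h k ∧ New T γ k' ∧ New T γ h' := by
  have := T.good
  obtain ⟨δ, hδ⟩ := exists_level T {k}
  obtain ⟨k', hk'⟩ := letL T (max γ δ)
  have hk1 := hk'.mono (le_max_left _ _)
  by_cases h1 : h = 1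
  · subst h1
    refine ⟨k' * k, k', ⟨by rw [mul_one], fun x y hxy => ⟨x, by rw [one_mul], ?_⟩⟩, hk1, ?_⟩
    · rw [mul_assoc] at hxy
      exact (IsGood.lc _ _ _ hxy).symm
    · intro s hs p hp x hx
      exact hk1 s hs p hp (k * x) (by simpa [mul_assoc] using hx)
  · obtain ⟨ε, hε⟩ := exists_level T {k', k' * k}
    obtain ⟨y, h2, h3, -⟩ := genL T (max γ ε) h (k' * k) h1 (mul_ne_one_left hk1.ne_one)
    refine ⟨y, k', ⟨h2, fun x z hxz => ?_⟩, hk1, ?_⟩
    · rcases h3 1 (one_mem _) k' (T.mono (le_max_right _ _) (hε k' (by simp))) x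
        (by rw [one_mul, hxz]; exact dvd_mul_right _ _) with H | ⟨c, rfl⟩
      · exact absurd (dvd_one H) hk1.ne_one
      · refine ⟨c, rfl, ?_⟩
        rw [← mul_assoc, h2, mul_assoc] at hxz
        exact (IsGood.lc _ _ _ hxz).symm
    · intro s hs p hp x hx
      rcases h3 s (T.mono (le_max_left _ _) hs) p (T.mono (le_max_left _ _) hp) x hx with H | ⟨c, rfl⟩
      · exact H
      · refine hk1 s hs p hp (k * c) ?_
        have : s * y * (h * c) = s * k' * (k * c) := by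
          calc s * y * (h * c) = s * (y * h) * c := by simp [mul_assoc]
            _ = s * k' * (k * c) := by rw [h2]; simp [mul_assoc]
        rwa [this] at hx

/-- **generic partner** of `g` over `u` -/
theorem partner (T : Tower P) (g u : P) (S : Set P) [Small.{0} S] :
    ∃ z, z * u = g * u ∧ ∀ s ∈ S, s ≠ 1 → ∀ x, s ∣ z * x → g * u ∣ z * x := by
  have := T.good
  by_cases hu : u = 1
  · subst hu
    exact ⟨g, rfl, fun s _ _ x _ => ⟨x, by rw [mul_one]⟩⟩
  · obtain ⟨z, -, h1, h2⟩ := genS' T u (g * u) S hu (mul_ne_one_right hu)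
    exact ⟨z, h1, h2⟩

theorem f0_back (T : Tower P) (p : P) : ∃ q, q * (p * T.f0) = T.f0 :=
  have := T.good
  left_simple T _ _ (mul_ne_one_right T.f0_ne) T.f0_ne

end tower

/-! ### wiring of block A -/

/-- **StA** from the other leaves -/
theorem stA_of (hTow : StTow) (hCap : ∀ {P : Type 1} [Monoid P] (T : Tower P), StCap T)
    (hDesc : ∀ {P : Type 1} [Monoid P] (T : Tower P), StDesc T)
    (hT : ∀ {P : Type 1} [Monoid P] (T : Tower P), StT T) : StA := by
  obtain ⟨P, _, ⟨T⟩⟩ := hTow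
  obtain ⟨η, hη⟩ := hT T
  exact ⟨P, inferInstance, ⟨⟨T, genS T, letS T, triG T, triGD T, stSm T, hCap T, hDesc T, η, hη⟩⟩⟩

end Crest.Agent.R296.AProp2x779
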