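import Crest.Agent.R296.IfA_378

/-!
# Row 296, leaf A-PROP (helper779): properties of the monoid `P` of a `Tower`
-/

set_option autoImplicit false

universe u v w

namespace Crest.Agent.R296.APropx779

open Crest.Agent.R296.IfAx378

/-! ## generalities -/

section gen
variable {P : Type u} [Monoid P]

theorem unit_left [IsGood P] {f g : P} (h : f * g = 1) : f = 1 := IsGood.unit f g h

theorem unit_right [IsGood P] {f g : P} (h : f * g = 1) : g = 1 := by
  have := unit_left h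
  subst this
  simpa using h

theorem dvd_one [IsGood P] {f : P} (h : f ∣ 1) : f = 1 := by
  obtain ⟨g, hg⟩ := h
  exact unit_left hg.symm

theorem mul_ne_one_left [IsGood P] {f g : P} (h : f ≠ 1) : f * g ≠ 1 := fun H => h (unit_left H)

theorem mul_ne_one_right [IsGood P] {f g : P} (h : g ≠ 1) : f * g ≠ 1 := fun H => h (unit_right H)

theorem IsLcm.symm' {f g u v : P} (h : IsLcm f g u v) : IsLcm g f v u :=
  ⟨h.1.symm, fun x y hxy => by
    obtain ⟨t, h1, h2⟩ := h.2 y x hxy.symm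
    exact ⟨t, h2, h1⟩⟩

end gen

section cons
variable {P : Type u} {P' : Type v} [Monoid P] [Monoid P'] {ι : P →* P'}

/-- `fP' ∩ P = fP` -/
theorem cons_dvd [IsGood P'] (h : Cons ι) {f g : P} {x : P'} (hx : ι f * x = ι g) :
    ∃ y, f * y = g ∧ x = ι y := by
  obtain ⟨a, b, t, h1, h2, h3⟩ := h.amal f g x 1 (by rw [hx, mul_one])
  have hb : ι b = 1 := unit_left h3.symm
  have ht : t = 1 := unit_right h3.symm
  have hb' : b = 1 := h.inj (by rw [hb, map_one])
  subst hb'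
  exact ⟨a, by rw [h1, mul_one], by rw [h2, ht, mul_one]⟩

theorem cons_dvd_iff [IsGood P'] (h : Cons ι) {f g : P} : ι f ∣ ι g ↔ f ∣ g := by
  constructor
  · rintro ⟨x, hx⟩
    obtain ⟨y, hy, -⟩ := cons_dvd h hx.symm
    exact ⟨y, hy.symm⟩
  · rintro ⟨x, rfl⟩
    exact ⟨ι x, map_mul _ _ _⟩

theorem cons_isLcm_down [IsGood P'] (h : Cons ι) {f g x y : P}
    (H : IsLcm (ι f) (ι g) (ι x) (ι y)) : IsLcm f g x y := by
  refine ⟨h.inj (by rw [map_mul, map_mul, H.1]), fun a b hab => ?_⟩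
  obtain ⟨t, ht1, ht2⟩ := H.2 (ι a) (ι b) (by rw [← map_mul, ← map_mul, hab])
  obtain ⟨t', ht', rfl⟩ := cons_dvd h ht1.symm
  exact ⟨t', ht'.symm, h.inj (by rw [ht2, map_mul])⟩

theorem cons_isLcm_up (h : Cons ι) {f g x y : P} (H : IsLcm f g x y) :
    IsLcm (ι f) (ι g) (ι x) (ι y) := by
  refine ⟨by rw [← map_mul, ← map_mul, H.1], fun a b hab => ?_⟩
  obtain ⟨a', b', t, h1, h2, h3⟩ := h.amal f g a b hab
  obtain ⟨s, rfl, rfl⟩ := H.2 a' b' h1
  exact ⟨ι s * t, by rw [h2, map_mul, mul_assoc], by rw [h3, map_mul, mul_assoc]⟩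

theorem cons_disj_down {f g : P} (H : Disj (ι f) (ι g)) : Disj f g := by
  intro a b hab
  exact H (ι a) (ι b) (by rw [← map_mul, ← map_mul, hab])

theorem cons_disj_up (h : Cons ι) {f g : P} (H : Disj f g) : Disj (ι f) (ι g) := by
  intro a b hab
  obtain ⟨a', b', t, h1, -, -⟩ := h.amal f g a b hab
  exact H a' b' h1

/-- `P` good if `P'` is -/
theorem cons_good [IsGood P'] (h : Cons ι) : IsGood P where
  lc f g k hfg := h.inj (IsGood.lc (ι f) _ _ (by rw [← map_mul, ← map_mul, hfg]))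
  unit f g hfg := h.inj (by
    rw [map_one]
    exact IsGood.unit (ι f) (ι g) (by rw [← map_mul, hfg, map_one]))
  lcm f g x y hxy := by
    obtain ⟨u, v, huv, H⟩ := IsGood.lcm (ι f) (ι g) (ι x) (ι y) (by rw [← map_mul, ← map_mul, hxy])
    obtain ⟨a, b, t, h1, h2, h3⟩ := h.amal f g u v huv
    obtain ⟨s, hs1, hs2⟩ := H (ι a) (ι b) (by rw [← map_mul, ← map_mul, h1])
    have hst : t * s = 1 := IsGood.lc (ι a) _ _ (by rw [← mul_assoc, ← h2, ← hs1, mul_one])
    have ht := unit_left hst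
    subst ht
    rw [mul_one] at h2 h3
    subst h2 h3
    refine ⟨a, b, h1, fun x' y' hxy' => ?_⟩
    obtain ⟨s', hs1', hs2'⟩ := H (ι x') (ι y') (by rw [← map_mul, ← map_mul, hxy'])
    obtain ⟨r, hr, rfl⟩ := cons_dvd h hs1'.symm
    exact ⟨r, hr.symm, h.inj (by rw [hs2', map_mul])⟩

end cons

/-! ## acts: base change, transport of letters, free act -/

section act
variable {P : Type u} {P' : Type v} [Monoid P] [Monoid P'] {J : Type w}

/-- base change of an LCM act along a conservative embedding -/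
def baseChange [IsGood P'] (B : LAct P J) (ι : P →* P') (h : Cons ι) : LAct P' J where
  r j x j' x' := ∃ y y' t, B.r j y j' y' ∧ x = ι y * t ∧ x' = ι y' * t
  refl j x := ⟨1, 1, x, B.refl j 1, by rw [map_one, one_mul], by rw [map_one, one_mul]⟩
  symm j x j' x' := by
    rintro ⟨y, y', t, h1, h2, h3⟩
    exact ⟨y', y, t, B.symm _ _ _ _ h1, h3, h2⟩
  trans j x j' x' j'' x'' := by
    rintro ⟨y, y', t, h1, h2, h3⟩ ⟨z, z', u, h4, h5, h6⟩
    obtain ⟨a, b, v, h7, h8, h9⟩ := h.amal y' z t u (by rw [← h3, ← h5])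
    refine ⟨y * a, z' * b, v, ?_, ?_, ?_⟩
    · refine B.trans _ _ _ _ _ _ (B.act _ _ _ _ a h1) ?_
      rw [h7]
      exact B.act _ _ _ _ b h4
    · rw [h2, h8, map_mul, mul_assoc]
    · rw [h6, h9, map_mul, mul_assoc]
  act j x j' x' p := by
    rintro ⟨y, y', t, h1, h2, h3⟩
    exact ⟨y, y', t * p, h1, by rw [h2, mul_assoc], by rw [h3, mul_assoc]⟩
  free j x x' := by
    rintro ⟨y, y', t, h1, h2, h3⟩
    rw [h2, h3, B.free _ _ _ h1]
  lcm j x j' x' := by
    rintro ⟨y, y', t, h1, h2, h3⟩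
    obtain ⟨z, z', h4, h5⟩ := B.lcm _ _ _ _ h1
    refine ⟨ι z, ι z', ⟨z, z', 1, h4, by rw [mul_one], by rw [mul_one]⟩, ?_⟩
    rintro a a' ⟨b, b', s, h6, h7, h8⟩
    obtain ⟨q, h9, h10⟩ := h5 b b' h6
    exact ⟨ι q * s, by rw [h7, h9, map_mul, mul_assoc], by rw [h8, h10, map_mul, mul_assoc]⟩

theorem baseChange_r [IsGood P'] (B : LAct P J) (ι : P →* P') (h : Cons ι) (j j' : J) (x x' : P) :
    (baseChange B ι h).r j (ι x) j' (ι x') ↔ B.r j x j' x' := by
  constructor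
  · rintro ⟨y, y', t, h1, h2, h3⟩
    obtain ⟨t', h4, rfl⟩ := cons_dvd h h2.symm
    rw [← map_mul] at h3
    rw [← h4, h.inj h3]
    exact B.act _ _ _ _ _ h1
  · intro h1
    exact ⟨x, x', 1, h1, by rw [mul_one], by rw [mul_one]⟩

/-- more letters, the new ones are free -/
def addLetters {J' : Type*} (B : LAct P J) (φ : J → J') (hφ : Function.Injective φ) : LAct P J' where
  r k x k' x' := (k = k' ∧ x = x') ∨ ∃ j j', φ j = k ∧ φ j' = k' ∧ B.r j x j' x'
  refl k x := Or.inl ⟨rfl, rfl⟩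
  symm k x k' x' := by
    rintro (⟨rfl, rfl⟩ | ⟨j, j', h1, h2, h3⟩)
    · exact Or.inl ⟨rfl, rfl⟩
    · exact Or.inr ⟨j', j, h2, h1, B.symm _ _ _ _ h3⟩
  trans k x k' x' k'' x'' := by
    rintro (⟨rfl, rfl⟩ | ⟨j, j', h1, h2, h3⟩) H
    · exact H
    · rcases H with (⟨rfl, rfl⟩ | ⟨i, i', h4, h5, h6⟩)
      · exact Or.inr ⟨j, j', h1, h2, h3⟩
      · have : j' = i := hφ (by rw [h2, h4])
        subst this
        exact Or.inr ⟨j, i', h1, h5, B.trans _ _ _ _ _ _ h3 h6⟩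
  act k x k' x' p := by
    rintro (⟨rfl, rfl⟩ | ⟨j, j', h1, h2, h3⟩)
    · exact Or.inl ⟨rfl, rfl⟩
    · exact Or.inr ⟨j, j', h1, h2, B.act _ _ _ _ _ h3⟩
  free k x x' := by
    rintro (⟨-, rfl⟩ | ⟨j, j', h1, h2, h3⟩)
    · rfl
    · have : j = j' := hφ (by rw [h1, h2])
      subst this
      exact B.free _ _ _ h3
  lcm k x k' x' := by
    intro H
    by_cases hk : k = k'
    · subst hk
      refine ⟨1, 1, Or.inl ⟨rfl, rfl⟩, ?_⟩
      intro z z' Hz
      have : z = z' := by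
        rcases Hz with (⟨-, rfl⟩ | ⟨j, j', h1, h2, h3⟩)
        · rfl
        · have : j = j' := hφ (by rw [h1, h2])
          subst this
          exact B.free _ _ _ h3
      exact ⟨z, by rw [one_mul], by rw [one_mul, this]⟩
    · rcases H with (⟨h, -⟩ | ⟨j, j', h1, h2, h3⟩)
      · exact absurd h hk
      · obtain ⟨y, y', h4, h5⟩ := B.lcm _ _ _ _ h3
        refine ⟨y, y', Or.inr ⟨j, j', h1, h2, h4⟩, ?_⟩
        rintro z z' (⟨h, -⟩ | ⟨i, i', h6, h7, h8⟩)
        · exact absurd h hk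
        · have e1 : j = i := hφ (by rw [h1, h6])
          have e2 : j' = i' := hφ (by rw [h2, h7])
          subst e1 e2
          exact h5 z z' h8

theorem addLetters_r {J' : Type*} (B : LAct P J) (φ : J → J') (hφ : Function.Injective φ)
    (j j' : J) (x x' : P) : (addLetters B φ hφ).r (φ j) x (φ j') x' ↔ B.r j x j' x' := by
  constructor
  · rintro (⟨h1, rfl⟩ | ⟨i, i', h1, h2, h3⟩)
    · have := hφ h1
      subst this
      exact B.refl _ _
    · have e1 := hφ h1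
      have e2 := hφ h2
      subst e1 e2
      exact h3
  · intro h
    exact Or.inr ⟨j, j', rfl, rfl, h⟩

/-- independent free letters -/
def freeAct (P : Type u) [Monoid P] (J : Type w) : LAct P J where
  r j x j' x' := j = j' ∧ x = x'
  refl _ _ := ⟨rfl, rfl⟩
  symm _ _ _ _ h := ⟨h.1.symm, h.2.symm⟩
  trans _ _ _ _ _ _ h h' := ⟨h.1.trans h'.1, h.2.trans h'.2⟩
  act _ _ _ _ _ h := ⟨h.1, by rw [h.2]⟩
  free _ _ _ h := h.2
  lcm _ _ _ _ h := ⟨1, 1, ⟨h.1, rfl⟩, fun z z' hz => ⟨z, by rw [one_mul], by rw [one_mul, hz.2]⟩⟩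

/-- consistency of pairwise data `κ j * a j j' = κ j' * a j' j` (if `E j j'`) -/
structure MatOK {P : Type u} [Monoid P] {J : Type w} (E : J → J → Prop) (a : J → J → P) : Prop where
  er : ∀ j, E j j
  es : ∀ i j, E i j → E j i
  d : ∀ j, a j j = 1
  c : ∀ i j k, i ≠ j → j ≠ k → i ≠ k → E i j → E j k → ∀ t s, a j i * t = a j k * s →
      E i k ∧ ∃ t', a i j * t = a i k * t' ∧ a k j * s = a k i * t'

/-- LCM act from pairwise data: `κ j` and `κ j'` meet (if `E j j'`) exactly in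
`κ j * a j j' = κ j' * a j' j` -/
def matAct {P : Type u} [Monoid P] [IsGood P] {J : Type w} (E : J → J → Prop) (a : J → J → P)
    (H : MatOK E a) : LAct P J where
  r j x j' x' := E j j' ∧ ∃ t, x = a j j' * t ∧ x' = a j' j * t
  refl j x := ⟨H.er j, x, by rw [H.d, one_mul], by rw [H.d, one_mul]⟩
  symm j x j' x' := by
    rintro ⟨h, t, h1, h2⟩
    exact ⟨H.es _ _ h, t, h2, h1⟩
  trans j x j' x' j'' x'' := by
    rintro ⟨h, t, h1, h2⟩ ⟨h', s, h3, h4⟩
    by_cases e1 : j = j'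
    · subst e1
      rw [H.d, one_mul] at h1 h2
      exact ⟨h', s, by rw [h1, ← h2, h3], h4⟩
    by_cases e2 : j' = j''
    · subst e2
      rw [H.d, one_mul] at h3 h4
      exact ⟨h, t, h1, by rw [h4, ← h3, h2]⟩
    by_cases e3 : j = j''
    · subst e3
      have : t = s := IsGood.lc (a j' j) _ _ (by rw [← h2, h3])
      subst this
      exact ⟨H.er _, a j j' * t, by rw [H.d, one_mul, h1], by rw [H.d, one_mul, h4]⟩
    obtain ⟨h5, t', h6, h7⟩ := H.c j j' j'' e1 e2 e3 h h' t s (by rw [← h2, h3])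
    exact ⟨h5, t', by rw [h1, h6], by rw [h4, h7]⟩
  act j x j' x' p := by
    rintro ⟨h, t, h1, h2⟩
    exact ⟨h, t * p, by rw [h1, mul_assoc], by rw [h2, mul_assoc]⟩
  free j x x' := by
    rintro ⟨h, t, h1, h2⟩
    rw [h1, h2]
  lcm j x j' x' := by
    rintro ⟨h, -⟩
    exact ⟨a j j', a j' j, ⟨h, 1, by rw [mul_one], by rw [mul_one]⟩, fun z z' hz => hz.2⟩

theorem matAct_r {P : Type u} [Monoid P] [IsGood P] {J : Type w} {E : J → J → Prop}
    {a : J → J → P} {H : MatOK E a} (j j' : J) (x x' : P) :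
    (matAct E a H).r j x j' x' ↔ E j j' ∧ ∃ t, x = a j j' * t ∧ x' = a j' j * t :=
  Iff.rfl

/-- letters of a triangle -/
inductive T3 : Type
  | k | h1 | h2

/-- entries of the triangle matrix -/
def triMat {P : Type u} [Monoid P] (c c' g g' : P) : T3 → T3 → P
  | .k, .h1 => g
  | .h1, .k => c
  | .k, .h2 => g'
  | .h2, .k => c
  | .h1, .h2 => c'
  | .h2, .h1 => c'
  | _, _ => 1

/-- `h1 c = k g`, `h2 c = k g'`, `h1 c' = h2 c'` -/
theorem triMat_ok {P : Type u} [Monoid P] {c c' x x' g g' : P} (h : IsLcm c c' x x')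
    (h' : IsLcm g g' x x) : MatOK (fun _ _ => True) (triMat c c' g g') where
  er _ := trivial
  es _ _ _ := trivial
  d := by rintro (_ | _ | _) <;> rfl
  c := by
    intro i j l e1 e2 e3 _ _ t s hts
    refine ⟨trivial, ?_⟩
    rcases i with (_ | _ | _) <;> rcases j with (_ | _ | _) <;> rcases l with (_ | _ | _) <;>
      first
      | exact absurd rfl e1
      | exact absurd rfl e2
      | exact absurd rfl e3
      | skip
    all_goals simp only [triMat] at hts ⊢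
    · obtain ⟨r, rfl, rfl⟩ := h.2 _ _ hts
      exact ⟨x * r, by rw [← mul_assoc, ← mul_assoc, h'.1], by rw [← mul_assoc, ← mul_assoc, h.1]⟩
    · obtain ⟨r, rfl, rfl⟩ := h.2 _ _ hts
      exact ⟨x * r, by rw [← mul_assoc, ← mul_assoc, h'.1], by rw [← mul_assoc, ← mul_assoc, h.1]⟩
    · obtain ⟨r, rfl, rfl⟩ := h'.2 _ _ hts
      exact ⟨x' * r, by rw [← mul_assoc, ← mul_assoc, h.1], by rw [← mul_assoc, ← mul_assoc, h.1]⟩
    · obtain ⟨r, rfl, rfl⟩ := h.2 _ _ hts.symm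
      exact ⟨x * r, by rw [← mul_assoc, ← mul_assoc, h.1], by rw [← mul_assoc, ← mul_assoc, h'.1]⟩
    · obtain ⟨r, rfl, rfl⟩ := h'.2 _ _ hts.symm
      exact ⟨x' * r, by rw [← mul_assoc, ← mul_assoc, h.1], by rw [← mul_assoc, ← mul_assoc, h.1]⟩
    · obtain ⟨r, rfl, rfl⟩ := h.2 _ _ hts.symm
      exact ⟨x * r, by rw [← mul_assoc, ← mul_assoc, h.1], by rw [← mul_assoc, ← mul_assoc, h'.1]⟩

/-- degenerate triangle: `cP ∩ c'P = ∅`, `gP ∩ g'P = ∅` -/
theorem triMat_ok0 {P : Type u} [Monoid P] {c c' g g' : P} (h : Disj c c')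
    (h' : Disj g g') : MatOK (fun _ _ => True) (triMat c c' g g') where
  er _ := trivial
  es _ _ _ := trivial
  d := by rintro (_ | _ | _) <;> rfl
  c := by
    intro i j l e1 e2 e3 _ _ t s hts
    refine ⟨trivial, ?_⟩
    rcases i with (_ | _ | _) <;> rcases j with (_ | _ | _) <;> rcases l with (_ | _ | _) <;>
      first
      | exact absurd rfl e1
      | exact absurd rfl e2
      | exact absurd rfl e3
      | exact absurd hts (h _ _)
      | exact absurd hts.symm (h _ _)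
      | exact absurd hts (h' _ _)
      | exact absurd hts.symm (h' _ _)

end act

/-! ## the tower -/

section tower
variable {P : Type 1} [Monoid P]

theorem exists_even (γ : Ordinal.{0}) : ∃ β, γ ≤ β ∧ β % 2 = 0 :=
  ⟨2 * γ, Ordinal.le_mul_right γ (by norm_num), Ordinal.mul_mod _ _⟩

theorem exists_odd (γ : Ordinal.{0}) : ∃ β, γ ≤ β ∧ β % 2 = 1 := by
  refine ⟨2 * γ + 1, (Ordinal.le_mul_right γ (by norm_num)).trans le_self_add, ?_⟩
  rw [Ordinal.mul_add_mod_self]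
  exact Ordinal.mod_eq_of_lt (by norm_num)

/-- a small set is contained in some `A β` -/
theorem exists_level (T : Tower P) (S : Set P) [Small.{0} S] : ∃ β, ∀ s ∈ S, s ∈ T.A β := by
  choose g hg using T.exh
  obtain ⟨B, hB⟩ := Ordinal.bddAbove_of_small (s := Set.range
    (fun x : Shrink.{0} S => g ((equivShrink S).symm x).1))
  refine ⟨B, fun s hs => T.mono (hB ⟨equivShrink S ⟨s, hs⟩, rfl⟩) ?_⟩
  simpa using hg s

theorem cons_incl (T : Tower P) {β γ : Ordinal.{0}} (h : β ≤ γ) :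
    Cons (Submonoid.inclusion (T.mono h)) where
  inj := Submonoid.inclusion_injective _
  amal f g x' y' hxy := by
    have := T.good
    obtain ⟨x, y, t, h1, h2, h3⟩ := (T.cons β).amal f g x'.1 y'.1 (congrArg Subtype.val hxy)
    obtain ⟨t0, -, rfl⟩ := cons_dvd (T.cons γ) (f := ⟨x.1, T.mono h x.2⟩) (g := x') h2.symm
    exact ⟨x, y, t0, h1, Subtype.ext h2, Subtype.ext h3⟩

theorem good_level (T : Tower P) (β : Ordinal.{0}) : IsGood (T.A β) := by
  have := T.good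
  exact cons_good (T.cons β)

/-- `A β` is stable under right division in `P` -/
theorem mem_of_mul_mem (T : Tower P) {β : Ordinal.{0}} {f x : P} (hf : f ∈ T.A β)
    (hfx : f * x ∈ T.A β) : x ∈ T.A β := by
  have := T.good
  obtain ⟨y, -, rfl⟩ := cons_dvd (T.cons β) (f := ⟨f, hf⟩) (g := ⟨f * x, hfx⟩) (x := x) rfl
  exact y.2

/-- **LetP**: letters of an LCM act over `A γ`, generic over a bigger stage `A γ'` -/
theorem letP (T : Tower P) (γ γ' : Ordinal.{0}) {J : Type} (B : LAct (T.A γ) J) :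
    ∃ κ : J → P,
      (∀ j x j' x', B.r j x j' x' ↔ κ j * (x : P) = κ j' * (x' : P)) ∧
      (∀ j j' (w w' : P), κ j * w = κ j' * w' →
        ∃ (x x' : T.A γ) (t : P), B.r j x j' x' ∧ w = x * t ∧ w' = x' * t) ∧
      (∀ s ∈ T.A γ', ∀ j (w p : P), p ∈ T.A γ' → (p ∣ s * κ j * w ↔ p ∣ s)) := by
  have hP := T.good
  obtain ⟨β, hβ, hβ2⟩ := exists_even (max (max γ γ') (Cardinal.mk J).ord)
  have hγ : γ ≤ β := (le_max_left _ _).trans ((le_max_left _ _).trans hβ)
  have hγ' : γ' ≤ β := (le_max_right _ _).trans ((le_max_left _ _).trans hβ)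
  have hJ : Cardinal.mk J ≤ Cardinal.mk β.ToType := by
    rw [Cardinal.mk_toType]
    exact Cardinal.ord_le.1 ((le_max_right _ _).trans hβ)
  obtain ⟨φ⟩ := hJ
  have := good_level T β
  let B1 := baseChange B _ (cons_incl T hγ)
  let B2 := addLetters B1 φ φ.injective
  have E := T.s1 β hβ2
  let e := Submonoid.inclusion (T.mono (Order.le_succ β))
  refine ⟨fun j => (T.κ β B2 (φ j) : P), fun j x j' x' => ?_, fun j j' w w' h => ?_,
    fun s hs j w p hp => ⟨?_, ?_⟩⟩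
  · rw [← baseChange_r B _ (cons_incl T hγ), ← addLetters_r B1 φ φ.injective, E.rel B2 _ _ _ _,
      Subtype.ext_iff]
    rfl
  · obtain ⟨a, b, t, h1, h2, h3⟩ := (T.cons (Order.succ β)).amal _ _ w w' h
    obtain ⟨-, x, x', t', h4, h5, h6⟩ := E.lcm _ _ _ _ _ _ h1
    rw [addLetters_r B1 φ φ.injective] at h4
    obtain ⟨y, y', u, h7, h8, h9⟩ := h4
    refine ⟨y, y', u * t' * t, h7, ?_, ?_⟩
    · rw [h2, h5, h8]
      simp [mul_assoc]
    · rw [h3, h6, h9]
      simp [mul_assoc]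
  · rintro ⟨q, hq⟩
    obtain ⟨a, b, t, h1, -, -⟩ := (T.cons (Order.succ β)).amal
      (e ⟨p, T.mono hγ' hp⟩) (e ⟨s, T.mono hγ' hs⟩ * T.κ β B2 (φ j)) q w hq.symm
    obtain ⟨c, hc⟩ := (E.dvd ⟨s, T.mono hγ' hs⟩ B2 (φ j) b ⟨p, T.mono hγ' hp⟩).1 ⟨a, h1.symm⟩
    exact ⟨c, congrArg Subtype.val hc⟩
  · rintro ⟨q, rfl⟩
    exact ⟨q * (T.κ β B2 (φ j) : P) * w, by simp [mul_assoc]⟩

/-- `k` is generic over the stage `A γ` -/
def New (T : Tower P) (γ : Ordinal.{0}) (k : P) : Prop :=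
  ∀ s ∈ T.A γ, ∀ p ∈ T.A γ, ∀ w, p ∣ s * k * w → p ∣ s

theorem New.mono {T : Tower P} {γ γ' : Ordinal.{0}} {k : P} (h : New T γ' k) (hγ : γ ≤ γ') :
    New T γ k := fun s hs p hp w hw => h s (T.mono hγ hs) p (T.mono hγ hp) w hw

theorem New.disj {T : Tower P} {γ : Ordinal.{0}} {k : P} (h : New T γ k) {s : P}
    (hs : s ∈ T.A γ) (hs1 : s ≠ 1) : Disj k s := by
  have := T.good
  intro x y hxy
  exact hs1 (dvd_one (h 1 (one_mem _) s hs x (by rw [one_mul, hxy]; exact dvd_mul_right _ _)))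

theorem New.ne_one {T : Tower P} {γ : Ordinal.{0}} {k : P} (h : New T γ k) : k ≠ 1 := by
  have := T.good
  rintro rfl
  refine T.f0_ne (dvd_one (h 1 (one_mem _) T.f0 (T.mono (zero_le (a := γ)) T.f0_mem) T.f0 ?_))
  simp

/-- **matrix letters**: letters with prescribed pairwise intersections, generic over `A γ` -/
theorem matLet (T : Tower P) (γ : Ordinal.{0}) {J : Type} (E : J → J → Prop) (a : J → J → P)
    (H : MatOK E a) : ∃ κ : J → P,
      (∀ j j', E j j' → IsLcm (κ j) (κ j') (a j j') (a j' j)) ∧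
      (∀ j j', ¬ E j j' → Disj (κ j) (κ j')) ∧ ∀ j, New T γ (κ j) := by
  obtain ⟨β, hβ⟩ := exists_level T (Set.range fun q : J × J => a q.1 q.2)
  have hβ' : ∀ j j', a j j' ∈ T.A β := fun j j' => hβ _ ⟨(j, j'), rfl⟩
  have := good_level T β
  let a' : J → J → T.A β := fun j j' => ⟨a j j', hβ' j j'⟩
  have H' : MatOK E a' :=
    { er := H.er
      es := H.es
      d := fun j => Subtype.ext (H.d j)
      c := fun i j k e1 e2 e3 h1 h2 t s hts => by
        obtain ⟨h3, t', h4, h5⟩ := H.c i j k e1 e2 e3 h1 h2 t s (congrArg Subtype.val hts)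
        have ht' : t' ∈ T.A β := mem_of_mul_mem T (hβ' i k) (by
          rw [← h4]
          exact mul_mem (hβ' i j) t.2)
        exact ⟨h3, ⟨t', ht'⟩, Subtype.ext h4, Subtype.ext h5⟩ }
  obtain ⟨κ, h1, h2, h3⟩ := letP T β γ (matAct E a' H')
  refine ⟨κ, fun j j' hE => ⟨?_, ?_⟩, fun j j' hE w w' hw => ?_, fun j s hs p hp w hw =>
    (h3 s hs j w p hp).1 hw⟩
  · exact (h1 j (a' j j') j' (a' j' j)).1 ⟨hE, 1, by rw [mul_one], by rw [mul_one]⟩
  · intro w w' hw
    obtain ⟨x, x', t, ⟨-, r, rfl, rfl⟩, rfl, rfl⟩ := h2 j j' w w' hw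
    exact ⟨r * t, by simp [a', mul_assoc], by simp [a', mul_assoc]⟩
  · obtain ⟨x, x', t, ⟨h, -⟩, -, -⟩ := h2 j j' w w' hw
    exact hE h

/-- **(Tri)**, strong form -/
theorem triS (T : Tower P) (γ : Ordinal.{0}) {c c' x x' g g' : P} (h : IsLcm c c' x x')
    (h' : IsLcm g g' x x) : ∃ k h1 h2 : P, IsLcm k h1 g c ∧ IsLcm k h2 g' c ∧ IsLcm h1 h2 c' c' ∧
      New T γ k ∧ New T γ h1 ∧ New T γ h2 := by
  obtain ⟨κ, h1, -, h3⟩ := matLet T γ _ _ (triMat_ok h h')
  exact ⟨κ .k, κ .h1, κ .h2, h1 .k .h1 trivial, h1 .k .h2 trivial, h1 .h1 .h2 trivial,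
    h3 _, h3 _, h3 _⟩

/-- **(Tri)**, degenerate case, strong form -/
theorem triS0 (T : Tower P) (γ : Ordinal.{0}) {c c' g g' : P} (h : Disj c c') (h' : Disj g g') :
    ∃ k h1 h2 : P, IsLcm k h1 g c ∧ IsLcm k h2 g' c ∧ IsLcm h1 h2 c' c' ∧
      New T γ k ∧ New T γ h1 ∧ New T γ h2 := by
  obtain ⟨κ, h1, -, h3⟩ := matLet T γ _ _ (triMat_ok0 h h')
  exact ⟨κ .k, κ .h1, κ .h2, h1 .k .h1 trivial, h1 .k .h2 trivial, h1 .h1 .h2 trivial,
    h3 _, h3 _, h3 _⟩

theorem triP (T : Tower P) : TriP P := by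
  intro c c' x x' g g' h h'
  obtain ⟨k, h1, h2, e1, e2, e3, -⟩ := triS T 0 h h'
  exact ⟨k, h1, h2, e1.1.symm, e2.1.symm, e3.1⟩

theorem triD (T : Tower P) : TriD P := by
  intro c c' g g' h h'
  obtain ⟨k, h1, h2, e1, e2, e3, -⟩ := triS0 T 0 h h'
  exact ⟨k, h1, h2, e1.1.symm, e2.1.symm, e3.1⟩

/-- new free letter, level form -/
theorem letL (T : Tower P) (γ : Ordinal.{0}) : ∃ k : P, New T γ k := by
  have H : MatOK (P := P) (J := Unit) (fun _ _ => True) (fun _ _ => 1) :=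
    ⟨fun _ => trivial, fun _ _ _ => trivial, fun _ => rfl,
      fun i j _ h => absurd (Subsingleton.elim i j) h⟩
  obtain ⟨κ, -, -, h⟩ := matLet T γ _ _ H
  exact ⟨κ (), h ()⟩

/-- `J` many pairwise disjoint free letters -/
theorem letsL (T : Tower P) (γ : Ordinal.{0}) (J : Type) :
    ∃ κ : J → P, (∀ j j', j ≠ j' → Disj (κ j) (κ j')) ∧ ∀ j, New T γ (κ j) := by
  have H : MatOK (P := P) (J := J) (fun i j => i = j) (fun _ _ => 1) :=
    ⟨fun _ => rfl, fun _ _ h => h.symm, fun _ => rfl, fun i j _ h _ _ h' => absurd h' h⟩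
  obtain ⟨κ, -, h, h'⟩ := matLet T γ _ _ H
  exact ⟨κ, h, h'⟩

/-- new free letter, small sets -/
theorem letS (T : Tower P) (S : Set P) [Small.{0} S] (h1 : (1 : P) ∉ S) :
    ∃ k : P, k ≠ 1 ∧ ∀ s ∈ S, Disj k s := by
  obtain ⟨γ, hγ⟩ := exists_level T S
  obtain ⟨k, hk⟩ := letL T γ
  exact ⟨k, hk.ne_one, fun s hs => hk.disj (hγ s hs) (fun h => h1 (h ▸ hs))⟩

theorem letF (T : Tower P) : LetF P := fun S h1 =>
  letS T (S : Set P) (by simpa using h1)

/-- datum of a generic letter `y a = b` -/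
def genDatum {Q : Type u} [Monoid Q] [IsGood Q] (a b : Q) (ha : a ≠ 1) (hb : b ≠ 1) : Datum Q where
  C := Closed.univ Q
  a := a
  b := b
  a_ne := ha
  b_mem := ⟨fun s hs => by rw [show s = 1 from hs]; exact one_dvd _,
    fun s r x h hx => by rw [hx, h.1, h.2]⟩
  ex_p := ⟨1, ⟨fun s hs => by rw [show s = 1 from hs], fun s r x h hx => by rw [hx, h.1, h.2]⟩,
    one_dvd _, fun h => hb (dvd_one h)⟩

/-- **Gen**, level form: `y a = b` and `y` is generic over `A γ` -/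
theorem genL (T : Tower P) (γ : Ordinal.{0}) (a b : P) (ha : a ≠ 1) (hb : b ≠ 1) :
    ∃ y, y * a = b ∧ (∀ s ∈ T.A γ, ∀ p ∈ T.A γ, ∀ x, p ∣ s * y * x → p ∣ s ∨ a ∣ x) ∧
      ∀ s ∈ T.A γ, ∀ x, s * y * x ∈ T.A γ → a ∣ x := by
  have hP := T.good
  obtain ⟨β1, hβ1⟩ := exists_level T {a, b}
  obtain ⟨β, hβ, hβ2⟩ := exists_odd (max γ β1)
  have hγ : γ ≤ β := (le_max_left _ _).trans hβ
  have ha' : a ∈ T.A β := T.mono ((le_max_right _ _).trans hβ) (hβ1 a (by simp))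
  have hb' : b ∈ T.A β := T.mono ((le_max_right _ _).trans hβ) (hβ1 b (by simp))
  have := good_level T β
  have E := T.s2 β hβ2
  let d : Datum (T.A β) := genDatum ⟨a, ha'⟩ ⟨b, hb'⟩ (fun h => ha (congrArg Subtype.val h))
    (fun h => hb (congrArg Subtype.val h))
  let e := Submonoid.inclusion (T.mono (Order.le_succ β))
  refine ⟨(T.y β (Ltr.base d) : P), ?_, fun s hs p hp x hx => ?_, fun s hs x hx => ?_⟩
  · have := E.rel (Ltr.base d) ⟨b, hb'⟩ (by simp [Ltr.base, d, genDatum])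
    have := congrArg Subtype.val this
    simpa [Ltr.base, d, genDatum] using this
  · by_contra hcon
    push Not at hcon
    obtain ⟨h1, h2⟩ := hcon
    obtain ⟨q, hq⟩ := hx
    let s' : T.A β := ⟨s, T.mono hγ hs⟩
    let p' : T.A β := ⟨p, T.mono hγ hp⟩
    obtain ⟨c, z, t, h3, h4, h5⟩ := (T.cons (Order.succ β)).amal
      (e p') (e s' * T.y β (Ltr.base d)) q x hq.symm
    have h6 : ¬ e ⟨a, ha'⟩ ∣ z := by
      rintro ⟨r, rfl⟩
      exact h2 ⟨r * t, by rw [h5]; simp [e, mul_assoc]⟩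
    have h7 := E.act s' (Ltr.base d)
    have h8 : T.y β ((Ltr.base d).smul s') * z = e p' * c := by
      rw [← h7, h3]
    rcases E.nf c with ⟨c0, rfl⟩ | ⟨l, w, rfl, hw⟩
    · exact E.new _ z (p' * c0) h6 (by rw [h8, map_mul])
    · rw [← mul_assoc, E.act] at h8
      obtain ⟨⟨h9, r, r', h10, h11⟩, -⟩ := E.uniq ((Ltr.base d).smul s') z (l.smul p') w h6 hw h8
      have h12 : r = 1 := by simpa [Ltr.smul, Ltr.base] using h11.1
      subst h12
      apply h1
      refine ⟨(l.s * r' : T.A β), ?_⟩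
      have := congrArg Subtype.val h10
      simpa [Ltr.smul, Ltr.base, mul_assoc, s', p'] using this
  · by_contra hcon
    rw [mul_assoc] at hx
    have hx2 := T.mono hγ (mem_of_mul_mem T hs hx)
    obtain ⟨z, hz, rfl⟩ := cons_dvd (T.cons (Order.succ β)) (f := T.y β (Ltr.base d))
      (g := e ⟨_, hx2⟩) (x := x) rfl
    refine E.new (Ltr.base d) z ⟨_, hx2⟩ ?_ hz
    rintro ⟨r, rfl⟩
    exact hcon ⟨r, rfl⟩

/-- **(Gen)** for small sets `S` -/
theorem genS (T : Tower P) (a b : P) (S : Set P) [Small.{0} S] (ha : a ≠ 1) (hb : b ≠ 1) :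
    ∃ y, y * a = b ∧ ∀ s ∈ S, s ≠ 1 → ∀ x, s ∣ y * x → b ∣ y * x := by
  have := T.good
  obtain ⟨γ, hγ⟩ := exists_level T S
  obtain ⟨y, h1, h2, -⟩ := genL T γ a b ha hb
  refine ⟨y, h1, fun s hs hs1 x hx => ?_⟩
  rcases h2 1 (one_mem _) s (hγ s hs) x (by rwa [one_mul]) with h | ⟨c, rfl⟩
  · exact absurd (dvd_one h) hs1
  · exact ⟨c, by rw [← mul_assoc, h1]⟩

theorem genF (T : Tower P) : GenF P := fun a b S ha hb h1 => by
  obtain ⟨y, hy, h⟩ := genS T a b (S : Set P) ha hb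
  exact ⟨y, hy, fun s hs => h s hs (fun e => h1 (e ▸ hs))⟩

/-- `P ∖ {1}` is left simple -/
theorem left_simple (T : Tower P) (f g : P) (hf : f ≠ 1) (hg : g ≠ 1) : ∃ h, h * f = g := by
  obtain ⟨y, hy, -⟩ := genL T 0 f g hf hg
  exact ⟨y, hy⟩

/-- left Ore condition -/
theorem ore (T : Tower P) (f g : P) : ∃ h k, h * f = k * g := by
  by_cases hf : f = 1
  · exact ⟨g, 1, by rw [hf, mul_one, one_mul]⟩
  by_cases hg : g = 1
  · exact ⟨1, f, by rw [hg, mul_one, one_mul]⟩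
  obtain ⟨h, hh⟩ := left_simple T f g hf hg
  exact ⟨h, 1, by rw [hh, one_mul]⟩

/-- **free amalgamation**: `h' h = k' k`, `h'P ∩ k'P = h'hP`, `k'` new over `A γ`, and `h'` generic
over `A γ` up to `h` -/
theorem amalg (T : Tower P) (γ : Ordinal.{0}) (h k : P) : ∃ h' k', IsLcm h' k' h k ∧ New T γ k' ∧
    (∀ s ∈ T.A γ, ∀ p ∈ T.A γ, ∀ x, p ∣ s * h' * x → p ∣ s) := by
  have := T.good
  obtain ⟨δ, hδ⟩ := exists_level T {k}
  obtain ⟨k', hk'⟩ := letL T (max γ δ)
  have hk1 := hk'.mono (le_max_left _ _)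
  by_cases h1 : h = 1
  · subst h1
    refine ⟨k' * k, k', ⟨by rw [mul_one], fun x y hxy => ⟨x, by rw [one_mul], ?_⟩⟩, hk1, ?_⟩
    · rw [mul_assoc] at hxy
      exact (IsGood.lc _ _ _ hxy).symm
    · intro s hs p hp x hx
      exact hk1 s hs p hp (k * x) (by simpa [mul_assoc] using hx)
  · obtain ⟨ε, hε⟩ := exists_level T {k', k' * k}
    obtain ⟨y, h2, h3, -⟩ := genL T (max γ ε) h (k' * k) h1 (mul_ne_one_left hk1.ne_one)
    refine ⟨y, k', ⟨h2, fun x z hxz => ?_⟩, hk1, ?_⟩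
    · rcases h3 1 (one_mem _) k' (T.mono (le_max_right _ _) (hε k' (by simp))) x
        (by rw [one_mul, hxz]; exact dvd_mul_right _ _) with H | ⟨c, rfl⟩
      · exact absurd (dvd_one H) hk1.ne_one
      · refine ⟨c, rfl, ?_⟩
        rw [← mul_assoc, h2, mul_assoc] at hxz
        exact (IsGood.lc _ _ _ hxz).symm
    · intro s hs p hp x hx
      rcases h3 s (T.mono (le_max_left _ _) hs) p (T.mono (le_max_left _ _) hp) x hx with H | ⟨c, rfl⟩
      · exact H
      · refine hk1 s hs p hp (k * c) ?_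
        have : s * y * (h * c) = s * k' * (k * c) := by
          calc s * y * (h * c) = s * (y * h) * c := by simp [mul_assoc]
            _ = s * k' * (k * c) := by rw [h2]; simp [mul_assoc]
        rwa [this] at hx

/-- **generic partner** of `g` over `u` -/
theorem partner (T : Tower P) (g u : P) (S : Set P) [Small.{0} S] :
    ∃ z, z * u = g * u ∧ ∀ s ∈ S, s ≠ 1 → ∀ x, s ∣ z * x → g * u ∣ z * x := by
  have := T.good
  by_cases hu : u = 1
  · subst hu
    exact ⟨g, rfl, fun s _ _ x _ => ⟨x, by rw [mul_one]⟩⟩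
  · exact genS T u (g * u) S hu (mul_ne_one_right hu)

theorem f0_back (T : Tower P) (p : P) : ∃ q, q * (p * T.f0) = T.f0 :=
  have := T.good
  left_simple T _ _ (mul_ne_one_right T.f0_ne) T.f0_ne

end tower

end Crest.Agent.R296.APropx779
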