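import Crest.Agent.R296.IfA_378

/-!
# Row 296 (S0448), leaf A-S2 (helper537): the abstract S2 extension of a good monoid

`W P H` : words; `D.Irr` : irreducible words; `D.Ext` : the monoid of irreducible words.

* `lcm_base` : for `s : P` and `w ∉ s P'` the ideal `s P' ∩ w P'` is empty or generated by an element of `P`
* `lcm_W` : right LCM
* `stS2 : StS2`
-/

set_option autoImplicit false
set_option linter.unusedSectionVars false

namespace Crest.Agent.R296.IfAx378

universe u v

/-- words: `c h1 (c h2 (… (p x)))` -/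
inductive W (P : Type u) (H : Type v) : Type (max u v)
  | p : P → W P H
  | c : H → W P H → W P H

namespace W

variable {P : Type u} {H : Type v} [Monoid P] [MulAction P H]

/-- left action of `P` on words -/
def sm (s : P) : W P H → W P H
  | p x => p (s * x)
  | c h w => c (s • h) w

instance : MulAction P (W P H) where
  smul := sm
  one_smul w := by
    cases w with
    | p x => exact congrArg W.p (one_mul x)
    | c h w => exact congrArg (fun k => W.c k w) (one_smul P h)
  mul_smul s t w := by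
    cases w with
    | p x => exact congrArg W.p (mul_assoc s t x)
    | c h w => exact congrArg (fun k => W.c k w) (mul_smul s t h)

theorem nc {x : P} {h : H} {w : W P H} {q : Prop} (k : p x = c h w) : q := by cases k

theorem nc' {x : P} {h : H} {w : W P H} {q : Prop} (k : c h w = p x) : q := by cases k

@[simp] theorem smul_p (s x : P) : s • (p x : W P H) = p (s * x) := rfl

@[simp] theorem smul_c (s : P) (h : H) (w : W P H) : s • c h w = c (s • h) w := rfl

end W

namespace S2Data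

open W

variable {P : Type u} {H : Type v} [Monoid P] [IsGood P] [MulAction P H] (D : S2Data P H)

theorem smul_inj {s : P} {w w' : W P H} (D : S2Data P H) (h : s • w = s • w') : w = w' := by
  cases w with
  | p x =>
    cases w' with
    | p y =>
      rw [smul_p, smul_p, W.p.injEq] at h
      rw [IsGood.lc s x y h]
    | c k y => rw [smul_p, smul_c] at h; exact W.nc h
  | c k x =>
    cases w' with
    | p y => rw [smul_p, smul_c] at h; exact W.nc' h
    | c l y =>
      rw [smul_c, smul_c, W.c.injEq] at h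
      rw [D.lc s k l h.1, h.2]

/-- irreducible words -/
def Irr : W P H → Prop
  | p _ => True
  | c h w => Irr w ∧ ∀ w', w ≠ D.a h • w'

@[simp] theorem irr_p (x : P) : D.Irr (p x) := trivial

@[simp] theorem irr_c {h : H} {w : W P H} : D.Irr (c h w) ↔ D.Irr w ∧ ∀ w', w ≠ D.a h • w' :=
  Iff.rfl

@[simp] theorem irr_smul {s : P} {w : W P H} : D.Irr (s • w) ↔ D.Irr w := by
  cases w with
  | p x => exact Iff.rfl
  | c h w => rw [smul_c, irr_c, irr_c, D.a_smul]

open Classical in
/-- letter times word -/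
noncomputable def star (h : H) (w : W P H) : W P H :=
  if k : ∃ w', w = D.a h • w' then D.e h • k.choose else c h w

theorem star_smul (h : H) (w : W P H) : D.star h (D.a h • w) = D.e h • w := by
  have k : ∃ w', D.a h • w = D.a h • w' := ⟨w, rfl⟩
  rw [star, dif_pos k, ← smul_inj D k.choose_spec]

theorem star_neg {h : H} {w : W P H} (k : ∀ w', w ≠ D.a h • w') : D.star h w = c h w := by
  rw [star, dif_neg]
  rintro ⟨w', e⟩
  exact k w' e

theorem star_cases (h : H) (w : W P H) :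
    (∃ v, w = D.a h • v ∧ D.star h w = D.e h • v) ∨
      ((∀ w', w ≠ D.a h • w') ∧ D.star h w = c h w) := by
  by_cases k : ∃ w', w = D.a h • w'
  · obtain ⟨v, rfl⟩ := k
    exact Or.inl ⟨v, rfl, D.star_smul h v⟩
  · rw [not_exists] at k
    exact Or.inr ⟨k, D.star_neg k⟩

theorem irr_star {h : H} {w : W P H} (hw : D.Irr w) : D.Irr (D.star h w) := by
  rcases D.star_cases h w with ⟨v, rfl, e⟩ | ⟨k, e⟩
  · rw [e, irr_smul]; exact D.irr_smul.1 hw
  · rw [e]; exact ⟨hw, k⟩

theorem smul_star (s : P) (h : H) (w : W P H) : s • D.star h w = D.star (s • h) w := by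
  rcases D.star_cases h w with ⟨v, rfl, e⟩ | ⟨k, e⟩
  · rw [e, ← D.a_smul s h, star_smul, D.e_smul, mul_smul]
  · rw [e, smul_c, star_neg]
    rw [D.a_smul]; exact k

theorem c_ne_e {h : H} {w v : W P H} : c h w ≠ D.e h • v := by
  intro k
  cases v with
  | p x => exact W.nc' k
  | c h' x =>
    rw [smul_c, W.c.injEq] at k
    exact D.irr h h' k.1.symm

theorem star_inj {h : H} {w w' : W P H} (k : D.star h w = D.star h w') : w = w' := by
  rcases D.star_cases h w with ⟨v, rfl, e⟩ | ⟨k1, e⟩ <;>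
    rcases D.star_cases h w' with ⟨v', rfl, e'⟩ | ⟨k2, e'⟩ <;> rw [e, e'] at k
  · rw [smul_inj D k]
  · exact (D.c_ne_e k.symm).elim
  · exact (D.c_ne_e k).elim
  · rw [W.c.injEq] at k; exact k.2

/-- product of words -/
noncomputable def mul : W P H → W P H → W P H
  | p s, x => s • x
  | c h w, x => D.star h (mul w x)

@[simp] theorem p_mul (s : P) (x : W P H) : D.mul (p s) x = s • x := rfl

@[simp] theorem c_mul (h : H) (w x : W P H) : D.mul (c h w) x = D.star h (D.mul w x) := rfl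

theorem smul_mul (s : P) (w x : W P H) : D.mul (s • w) x = s • D.mul w x := by
  cases w with
  | p t => rw [smul_p, p_mul, p_mul, mul_smul]
  | c h w => rw [smul_c, c_mul, c_mul, smul_star]

theorem star_mul (h : H) (w x : W P H) : D.mul (D.star h w) x = D.star h (D.mul w x) := by
  rcases D.star_cases h w with ⟨v, rfl, e⟩ | ⟨k, e⟩
  · rw [e, smul_mul, smul_mul, star_smul]
  · rw [e, c_mul]

theorem mul_assoc' (w x y : W P H) : D.mul (D.mul w x) y = D.mul w (D.mul x y) := by
  induction w with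
  | p s => rw [p_mul, p_mul, smul_mul]
  | c h w ih => rw [c_mul, c_mul, star_mul, ih]

theorem one_mul' (x : W P H) : D.mul (p 1) x = x := by rw [p_mul, one_smul]

theorem mul_one' {w : W P H} (hw : D.Irr w) : D.mul w (p 1) = w := by
  induction w with
  | p s => rw [p_mul, smul_p, mul_one]
  | c h w ih => rw [c_mul, ih hw.1, star_neg]; exact hw.2

theorem irr_mul (w : W P H) {x : W P H} (hx : D.Irr x) : D.Irr (D.mul w x) := by
  induction w with
  | p s => rw [p_mul, irr_smul]; exact hx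
  | c h w ih => rw [c_mul]; exact D.irr_star ih

theorem mul_inj {w x y : W P H} (h : D.mul w x = D.mul w y) : x = y := by
  induction w with
  | p s => exact smul_inj D h
  | c k w ih => rw [c_mul, c_mul] at h; exact ih (D.star_inj h)

theorem e_ne_one (h : H) : D.e h ≠ 1 := by
  intro k
  have := D.irr h h
  rw [k, one_smul] at this
  exact this rfl

theorem mul_eq_one {w x : W P H} (h : D.mul w x = p 1) : w = p 1 := by
  cases w with
  | p s =>
    cases x with
    | p t =>
      rw [p_mul, smul_p, W.p.injEq] at h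
      rw [IsGood.unit s t h]
    | c k t => rw [p_mul, smul_c] at h; exact W.nc' h
  | c k w =>
    rw [c_mul] at h
    rcases D.star_cases k (D.mul w x) with ⟨v, _, e⟩ | ⟨_, e⟩
    · rw [e] at h
      cases v with
      | p t =>
        rw [smul_p, W.p.injEq] at h
        exact (D.e_ne_one k (IsGood.unit _ _ h)).elim
      | c l t => rw [smul_c] at h; exact W.nc' h
    · rw [e] at h; exact W.nc' h

/-! ### ideals -/

/-- the right ideal generated by a word -/
def R (w : W P H) : Set (W P H) := {z | ∃ x, D.Irr x ∧ z = D.mul w x}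

theorem mem_R_self {w : W P H} (hw : D.Irr w) : w ∈ D.R w := ⟨p 1, trivial, (D.mul_one' hw).symm⟩

theorem irr_of_mem {w z : W P H} (h : z ∈ D.R w) : D.Irr z := by
  obtain ⟨x, hx, rfl⟩ := h
  exact D.irr_mul w hx

theorem R_subset {w z : W P H} (h : z ∈ D.R w) : D.R z ⊆ D.R w := by
  obtain ⟨x, hx, rfl⟩ := h
  rintro _ ⟨y, hy, rfl⟩
  exact ⟨D.mul x y, D.irr_mul x hy, D.mul_assoc' w x y⟩

theorem mem_R_p {s : P} {z : W P H} : z ∈ D.R (p s) ↔ D.Irr z ∧ ∃ x, z = s • x := by
  constructor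
  · rintro ⟨x, hx, rfl⟩
    exact ⟨D.irr_mul _ hx, x, rfl⟩
  · rintro ⟨hz, x, rfl⟩
    exact ⟨x, D.irr_smul.1 hz, rfl⟩

theorem mem_R_c {h : H} {w z : W P H} : z ∈ D.R (c h w) ↔ ∃ y ∈ D.R w, z = D.star h y := by
  constructor
  · rintro ⟨x, hx, rfl⟩
    exact ⟨_, ⟨x, hx, rfl⟩, rfl⟩
  · rintro ⟨_, ⟨x, hx, rfl⟩, rfl⟩
    exact ⟨x, hx, rfl⟩

/-- amalgamation of the action on words -/
theorem amal_W (D : S2Data P H) {s s' : P} {x y : W P H} (h : s • x = s' • y) :
    ∃ u v z, s * u = s' * v ∧ x = u • z ∧ y = v • z := by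
  cases x with
  | p a =>
    cases y with
    | p b =>
      rw [smul_p, smul_p, W.p.injEq] at h
      exact ⟨a, b, p 1, h, by rw [smul_p, mul_one], by rw [smul_p, mul_one]⟩
    | c k b => rw [smul_p, smul_c] at h; exact W.nc h
  | c k a =>
    cases y with
    | p b => rw [smul_p, smul_c] at h; exact W.nc' h
    | c l b =>
      rw [smul_c, smul_c, W.c.injEq] at h
      obtain ⟨u, v, h0, e1, e2, e3⟩ := D.lcm s s' k l h.1
      exact ⟨u, v, c h0 a, e1, by rw [smul_c, e2], by rw [smul_c, e3, h.2]⟩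

/-- `P`-level ideals: empty or principal, generated by an element of `P` -/
theorem lcm_pp (s t : P) : D.R (p s) ∩ D.R (p t) = ∅ ∨
    ∃ m : P, s ∣ m ∧ t ∣ m ∧ D.R (p s) ∩ D.R (p t) = D.R (p m) := by
  by_cases hne : (D.R (p s) ∩ D.R (p t)).Nonempty
  · right
    obtain ⟨z, hz1, hz2⟩ := hne
    obtain ⟨_, x, rfl⟩ := D.mem_R_p.1 hz1
    obtain ⟨_, y, hy⟩ := D.mem_R_p.1 hz2
    obtain ⟨u, v, _, e1, _, _⟩ := D.amal_W hy
    obtain ⟨u, v, e1, huv⟩ := IsGood.lcm _ _ _ _ e1
    refine ⟨s * u, ⟨u, rfl⟩, ⟨v, e1⟩, ?_⟩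
    ext z
    constructor
    · rintro ⟨h1, h2⟩
      obtain ⟨hz, x, rfl⟩ := D.mem_R_p.1 h1
      obtain ⟨_, y, hy⟩ := D.mem_R_p.1 h2
      obtain ⟨u', v', z', e2, rfl, rfl⟩ := D.amal_W hy
      obtain ⟨t', rfl, rfl⟩ := huv _ _ e2
      exact D.mem_R_p.2 ⟨hz, t' • z', by rw [mul_smul, mul_smul]⟩
    · intro h
      obtain ⟨hz, x, rfl⟩ := D.mem_R_p.1 h
      exact ⟨D.mem_R_p.2 ⟨hz, u • x, by rw [mul_smul]⟩,
        D.mem_R_p.2 ⟨hz, v • x, by rw [e1, mul_smul]⟩⟩
  · left
    exact Set.not_nonempty_iff_eq_empty.1 hne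

theorem p_mem_R_p {s t : P} : (p t : W P H) ∈ D.R (p s) ↔ s ∣ t := by
  rw [mem_R_p]
  constructor
  · rintro ⟨_, x, hx⟩
    cases x with
    | p y => rw [smul_p, W.p.injEq] at hx; exact ⟨y, hx⟩
    | c k y => rw [smul_c] at hx; exact W.nc hx
  · rintro ⟨x, rfl⟩
    exact ⟨trivial, p x, by rw [smul_p]⟩

theorem c_mem_R_p {s : P} {h : H} {w : W P H} :
    c h w ∈ D.R (p s) ↔ D.Irr (c h w) ∧ ∃ h', h = s • h' := by
  rw [mem_R_p]
  constructor
  · rintro ⟨hi, x, hx⟩
    cases x with
    | p y => rw [smul_p] at hx; exact W.nc' hx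
    | c k y => rw [smul_c, W.c.injEq] at hx; exact ⟨hi, k, hx.1⟩
  · rintro ⟨hi, k, hk⟩
    exact ⟨hi, c k w, by rw [smul_c, hk]⟩

/-- quotient of an ideal by an element of `P` -/
theorem div_R {s : P} {w : W P H} (h : D.R (p s) ∩ D.R w = ∅ ∨ ∃ m : P, D.R (p s) ∩ D.R w = D.R (p m)) :
    {v | s • v ∈ D.R w} = ∅ ∨ ∃ m : P, {v | s • v ∈ D.R w} = D.R (p m) := by
  have key : ∀ v, s • v ∈ D.R w ↔ s • v ∈ D.R (p s) ∩ D.R w := fun v =>
    ⟨fun h => ⟨D.mem_R_p.2 ⟨D.irr_of_mem h, v, rfl⟩, h⟩, fun h => h.2⟩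
  rcases h with h | ⟨m, h⟩
  · left
    ext v
    rw [Set.mem_ofPred_eq, key, h]
    exact Iff.rfl
  · right
    have h1 : (p m : W P H) ∈ D.R (p s) := by
      have : (p m : W P H) ∈ D.R (p s) ∩ D.R w := by rw [h]; exact D.mem_R_self trivial
      exact this.1
    obtain ⟨t, rfl⟩ := D.p_mem_R_p.1 h1
    refine ⟨t, ?_⟩
    ext v
    rw [Set.mem_ofPred_eq, key, h, mem_R_p, mem_R_p, irr_smul]
    refine and_congr_right fun _ => ?_
    constructor
    · rintro ⟨x, hx⟩
      rw [mul_smul] at hx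
      exact ⟨x, smul_inj D hx⟩
    · rintro ⟨x, rfl⟩
      exact ⟨x, by rw [mul_smul]⟩

/-- **P-generated intersections** : `w ∉ s P'` -/
theorem lcm_base {w : W P H} : ∀ {s : P}, D.Irr w → w ∉ D.R (p s) →
    D.R (p s) ∩ D.R w = ∅ ∨ ∃ m : P, D.R (p s) ∩ D.R w = D.R (p m) := by
  induction w with
  | p t =>
    intro s _ _
    rcases D.lcm_pp s t with h | ⟨m, _, _, h⟩
    · exact Or.inl h
    · exact Or.inr ⟨m, h⟩
  | c h w ih =>
    intro s hw hns
    have hw1 : w ∉ D.R (p (D.a h)) := by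
      intro k
      obtain ⟨_, x, hx⟩ := D.mem_R_p.1 k
      exact hw.2 x hx
    have key : D.R (p s) ∩ D.R (c h w) = {z | ∃ v, D.a h • v ∈ D.R w ∧ z = D.e h • v ∧ z ∈ D.R (p s)} := by
      ext z
      constructor
      · rintro ⟨h1, h2⟩
        obtain ⟨y, hy, rfl⟩ := D.mem_R_c.1 h2
        rcases D.star_cases h y with ⟨v, rfl, e⟩ | ⟨k, e⟩
        · exact ⟨v, hy, e, h1⟩
        · rw [e] at h1
          obtain ⟨_, h', hh⟩ := D.c_mem_R_p.1 h1
          exact (hns (D.c_mem_R_p.2 ⟨hw, h', hh⟩)).elim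
      · rintro ⟨v, hv, rfl, h1⟩
        exact ⟨h1, D.mem_R_c.2 ⟨_, hv, (D.star_smul h v).symm⟩⟩
    rw [key]
    rcases D.div_R (ih hw.1 hw1) with h1 | ⟨m, h1⟩
    · left
      ext z
      constructor
      · rintro ⟨v, hv, _, _⟩
        have : v ∈ {v | D.a h • v ∈ D.R w} := hv
        rw [h1] at this
        exact this
      · exact fun h => h.elim
    · have e2 : {z | ∃ v, D.a h • v ∈ D.R w ∧ z = D.e h • v ∧ z ∈ D.R (p s)} =
          D.R (p s) ∩ D.R (p (D.e h * m)) := by
        ext z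
        constructor
        · rintro ⟨v, hv, rfl, h3⟩
          refine ⟨h3, ?_⟩
          have : v ∈ {v | D.a h • v ∈ D.R w} := hv
          rw [h1] at this
          obtain ⟨hv', x, rfl⟩ := D.mem_R_p.1 this
          exact D.mem_R_p.2 ⟨D.irr_of_mem h3, x, by rw [mul_smul]⟩
        · rintro ⟨h3, h4⟩
          obtain ⟨hz, x, rfl⟩ := D.mem_R_p.1 h4
          refine ⟨m • x, ?_, by rw [mul_smul], h3⟩
          have : m • x ∈ {v | D.a h • v ∈ D.R w} := by
            rw [h1]
            exact D.mem_R_p.2 ⟨by rw [mul_smul, irr_smul] at hz; exact hz, x, rfl⟩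
          exact this
      rw [e2]
      rcases D.lcm_pp s (D.e h * m) with h5 | ⟨m', _, _, h5⟩
      · exact Or.inl h5
      · exact Or.inr ⟨m', h5⟩

theorem lcm_p (s : P) {w : W P H} (hw : D.Irr w) :
    D.R (p s) ∩ D.R w = ∅ ∨ ∃ m, D.Irr m ∧ D.R (p s) ∩ D.R w = D.R m := by
  by_cases h : w ∈ D.R (p s)
  · exact Or.inr ⟨w, hw, Set.inter_eq_right.2 (D.R_subset h)⟩
  · rcases D.lcm_base hw h with h | ⟨m, h⟩
    · exact Or.inl h
    · exact Or.inr ⟨p m, trivial, h⟩

/-- `{v | a • v ∈ R w}` for `w ∉ a P'` -/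
theorem div_of_irr {h : H} {w : W P H} (hw : D.Irr (c h w)) :
    {v | D.a h • v ∈ D.R w} = ∅ ∨ ∃ m : P, {v | D.a h • v ∈ D.R w} = D.R (p m) := by
  refine D.div_R (D.lcm_base hw.1 fun k => ?_)
  obtain ⟨_, x, hx⟩ := D.mem_R_p.1 k
  exact hw.2 x hx

theorem smul_image_R (s : P) (w : W P H) : (fun v => s • v) '' D.R w = D.R (s • w) := by
  ext z
  constructor
  · rintro ⟨_, ⟨x, hx, rfl⟩, rfl⟩
    exact ⟨x, hx, (D.smul_mul s w x).symm⟩
  · rintro ⟨x, hx, rfl⟩
    exact ⟨D.mul w x, ⟨x, hx, rfl⟩, (D.smul_mul s w x).symm⟩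

theorem star_image_R (h : H) (w : W P H) : D.star h '' D.R w = D.R (D.star h w) := by
  ext z
  constructor
  · rintro ⟨_, ⟨x, hx, rfl⟩, rfl⟩
    exact ⟨x, hx, (D.star_mul h w x).symm⟩
  · rintro ⟨x, hx, rfl⟩
    exact ⟨D.mul w x, ⟨x, hx, rfl⟩, (D.star_mul h w x).symm⟩

/-- case `h = e h' • h''` of the LCM -/
theorem lcm_sub {h h' h'' : H} {w w' : W P H} (e : h = D.e h' • h'') (hw : D.Irr (c h w))
    (hw' : D.Irr (c h' w')) : D.R (c h w) ∩ D.R (c h' w') = ∅ ∨
      ∃ m, D.Irr m ∧ D.R (c h w) ∩ D.R (c h' w') = D.R m := by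
  have hw'' : D.Irr (c h'' w) := by
    rw [e, ← smul_c, irr_smul] at hw
    exact hw
  have key : D.R (c h w) ∩ D.R (c h' w') =
      (fun v => D.e h' • v) '' (D.R (c h'' w) ∩ {v | D.a h' • v ∈ D.R w'}) := by
    ext z
    constructor
    · rintro ⟨h1, h2⟩
      rw [e, ← smul_c, ← smul_image_R] at h1
      obtain ⟨x, hx, rfl⟩ := h1
      obtain ⟨y, hy, hz⟩ := D.mem_R_c.1 h2
      rcases D.star_cases h' y with ⟨v, rfl, e'⟩ | ⟨_, e'⟩
      · rw [e'] at hz
        rw [smul_inj D hz] at hx ⊢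
        exact ⟨v, ⟨hx, hy⟩, rfl⟩
      · rw [e'] at hz
        exact (D.c_ne_e hz.symm).elim
    · rintro ⟨x, ⟨hx, hx'⟩, rfl⟩
      refine ⟨?_, D.mem_R_c.2 ⟨_, hx', (D.star_smul h' x).symm⟩⟩
      rw [e, ← smul_c, ← smul_image_R]
      exact ⟨x, hx, rfl⟩
  rw [key]
  rcases D.div_of_irr hw' with h1 | ⟨m, h1⟩
  · left
    rw [h1, Set.inter_empty, Set.image_empty]
  · rw [h1, Set.inter_comm]
    rcases D.lcm_p m hw'' with h2 | ⟨n, hn, h2⟩
    · left; rw [h2, Set.image_empty]
    · right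
      refine ⟨D.e h' • n, D.irr_smul.2 hn, ?_⟩
      rw [h2]
      exact D.smul_image_R _ _

/-- **LCM of irreducible words** -/
theorem lcm_W {w : W P H} : ∀ {w' : W P H}, D.Irr w → D.Irr w' → D.R w ∩ D.R w' = ∅ ∨
    ∃ m, D.Irr m ∧ D.R w ∩ D.R w' = D.R m := by
  induction w with
  | p s => intro w' _ hw'; exact D.lcm_p s hw'
  | c h w ih =>
    intro w' hw hw'
    cases w' with
    | p s => rw [Set.inter_comm]; exact D.lcm_p s hw
    | c h' w' =>
      by_cases hh : h = h'
      · subst hh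
        have key : D.R (c h w) ∩ D.R (c h w') = D.star h '' (D.R w ∩ D.R w') := by
          ext z
          constructor
          · rintro ⟨h1, h2⟩
            obtain ⟨y, hy, rfl⟩ := D.mem_R_c.1 h1
            obtain ⟨y', hy', e⟩ := D.mem_R_c.1 h2
            rw [← D.star_inj e] at hy'
            exact ⟨y, ⟨hy, hy'⟩, rfl⟩
          · rintro ⟨y, ⟨hy, hy'⟩, rfl⟩
            exact ⟨D.mem_R_c.2 ⟨y, hy, rfl⟩, D.mem_R_c.2 ⟨y, hy', rfl⟩⟩
        rw [key]
        rcases ih hw.1 hw'.1 with h1 | ⟨m, hm, h1⟩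
        · left; rw [h1, Set.image_empty]
        · right
          exact ⟨D.star h m, D.irr_star hm, by rw [h1, star_image_R]⟩
      · by_cases ha : ∃ h'', h = D.e h' • h''
        · obtain ⟨h'', e⟩ := ha
          exact D.lcm_sub e hw hw'
        · by_cases hb : ∃ h'', h' = D.e h • h''
          · obtain ⟨h'', e⟩ := hb
            rw [Set.inter_comm]
            exact D.lcm_sub e hw' hw
          · have key : D.R (c h w) ∩ D.R (c h' w') =
                ((fun v => D.e h • v) '' {v | D.a h • v ∈ D.R w}) ∩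
                ((fun v => D.e h' • v) '' {v | D.a h' • v ∈ D.R w'}) := by
              ext z
              constructor
              · rintro ⟨h1, h2⟩
                obtain ⟨y, hy, rfl⟩ := D.mem_R_c.1 h1
                obtain ⟨y', hy', e⟩ := D.mem_R_c.1 h2
                rcases D.star_cases h y with ⟨v, rfl, e1⟩ | ⟨_, e1⟩ <;>
                  rcases D.star_cases h' y' with ⟨v', rfl, e2⟩ | ⟨_, e2⟩ <;>
                  rw [e1, e2] at e
                · exact ⟨⟨v, hy, e1.symm⟩, ⟨v', hy', by rw [e1]; exact e.symm⟩⟩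
                · exfalso
                  cases v with
                  | p x => rw [smul_p] at e; exact W.nc e
                  | c k x =>
                    rw [smul_c, W.c.injEq] at e
                    exact hb ⟨k, e.1.symm⟩
                · exfalso
                  cases v' with
                  | p x => rw [smul_p] at e; exact W.nc' e
                  | c k x =>
                    rw [smul_c, W.c.injEq] at e
                    exact ha ⟨k, e.1⟩
                · rw [W.c.injEq] at e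
                  exact (hh e.1).elim
              · rintro ⟨⟨v, hv, rfl⟩, ⟨v', hv', e⟩⟩
                refine ⟨D.mem_R_c.2 ⟨_, hv, (D.star_smul h v).symm⟩,
                  D.mem_R_c.2 ⟨_, hv', ?_⟩⟩
                rw [star_smul]; exact e.symm
            rw [key]
            rcases D.div_of_irr hw with h1 | ⟨m, h1⟩
            · left; rw [h1, Set.image_empty, Set.empty_inter]
            · rcases D.div_of_irr hw' with h2 | ⟨m', h2⟩
              · left; rw [h2, Set.image_empty, Set.inter_empty]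
              · rw [h1, h2, smul_image_R, smul_image_R, smul_p, smul_p]
                rcases D.lcm_pp (D.e h * m) (D.e h' * m') with h3 | ⟨n, _, _, h3⟩
                · exact Or.inl h3
                · exact Or.inr ⟨p n, trivial, h3⟩

/-! ### the monoid -/

/-- the monoid of irreducible words -/
def Ext (D : S2Data P H) : Type (max u v) := {w : W P H // D.Irr w}

namespace Ext

noncomputable instance : Monoid D.Ext where
  mul x y := ⟨D.mul x.1 y.1, D.irr_mul x.1 y.2⟩
  mul_assoc x y z := Subtype.ext (D.mul_assoc' x.1 y.1 z.1)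
  one := ⟨p 1, trivial⟩
  one_mul x := Subtype.ext (D.one_mul' x.1)
  mul_one x := Subtype.ext (D.mul_one' x.2)

theorem mul_val (x y : D.Ext) : (x * y).1 = D.mul x.1 y.1 := rfl

theorem one_val : (1 : D.Ext).1 = p 1 := rfl

theorem dvd_iff {x z : D.Ext} : x ∣ z ↔ z.1 ∈ D.R x.1 := by
  constructor
  · rintro ⟨t, rfl⟩
    exact ⟨t.1, t.2, rfl⟩
  · rintro ⟨y, hy, e⟩
    exact ⟨⟨y, hy⟩, Subtype.ext e⟩

instance good : IsGood D.Ext where
  lc f g h k := by
    have := congrArg Subtype.val k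
    exact Subtype.ext (D.mul_inj this)
  unit f g k := by
    have := congrArg Subtype.val k
    exact Subtype.ext (D.mul_eq_one this)
  lcm f g x y h := by
    have hne : ((f * x).1) ∈ D.R f.1 ∩ D.R g.1 :=
      ⟨(dvd_iff D).1 ⟨x, rfl⟩, (dvd_iff D).1 ⟨y, h⟩⟩
    rcases D.lcm_W f.2 g.2 with k | ⟨m, hm, k⟩
    · rw [k] at hne; exact hne.elim
    · have h1 : m ∈ D.R f.1 ∩ D.R g.1 := by rw [k]; exact D.mem_R_self hm
      obtain ⟨u, hu⟩ := (dvd_iff D (x := f) (z := ⟨m, hm⟩)).2 h1.1
      obtain ⟨v, hv⟩ := (dvd_iff D (x := g) (z := ⟨m, hm⟩)).2 h1.2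
      refine ⟨u, v, hu.symm.trans hv, fun x' y' e => ?_⟩
      have h2 : (f * x').1 ∈ D.R f.1 ∩ D.R g.1 :=
        ⟨(dvd_iff D).1 ⟨x', rfl⟩, (dvd_iff D).1 ⟨y', e⟩⟩
      rw [k] at h2
      obtain ⟨t, ht⟩ := (dvd_iff D (x := ⟨m, hm⟩) (z := f * x')).2 h2
      have lc : ∀ f g h : D.Ext, f * g = f * h → g = h := fun f g h k =>
        Subtype.ext (D.mul_inj (congrArg Subtype.val k))
      refine ⟨t, lc f _ _ ?_, lc g _ _ ?_⟩
      · rw [ht, hu, mul_assoc]
      · rw [← e, ht, hv, mul_assoc]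

/-- the embedding -/
noncomputable def of : P →* D.Ext where
  toFun x := ⟨p x, trivial⟩
  map_one' := rfl
  map_mul' x y := Subtype.ext rfl

theorem of_val (x : P) : (of D x).1 = p x := rfl

theorem of_mul_val (s : P) (x : D.Ext) : (of D s * x).1 = s • x.1 := rfl

theorem a_not_dvd_one (h : H) : ∀ w', (p 1 : W P H) ≠ D.a h • w' := by
  intro w' k
  cases w' with
  | p x =>
    rw [smul_p, W.p.injEq] at k
    exact D.a_ne h (IsGood.unit _ _ k.symm)
  | c l x => rw [smul_c] at k; exact W.nc k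

/-- the letters -/
def y (h : H) : D.Ext := ⟨c h (p 1), trivial, a_not_dvd_one D h⟩

theorem y_mul_val (h : H) (x : D.Ext) : (y D h * x).1 = D.star h x.1 := by
  show D.star h ((1 : P) • x.1) = _
  rw [one_smul]

theorem of_dvd_iff {s : P} {x : D.Ext} : of D s ∣ x ↔ ∃ w, x.1 = s • w := by
  rw [dvd_iff, of_val, mem_R_p]
  exact ⟨fun h => h.2, fun h => ⟨x.2, h⟩⟩

theorem y_mul_of_not_dvd {h : H} {x : D.Ext} (hx : ¬ of D (D.a h) ∣ x) :
    (y D h * x).1 = c h x.1 := by
  rw [y_mul_val, star_neg]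
  intro w' k
  exact hx ((of_dvd_iff D).2 ⟨w', k⟩)

/-- number of letters -/
def lenW : W P H → ℕ
  | p _ => 0
  | c _ w => lenW w + 1

theorem lenW_smul (s : P) (w : W P H) : lenW (s • w) = lenW w := by
  cases w with
  | p x => rfl
  | c h w => rfl

theorem s2Ext : S2Ext D (of D) (y D) (fun x => lenW x.1) where
  good := good D
  cons :=
    { inj := fun x x' h => by
        have := congrArg Subtype.val h
        rw [of_val, of_val, W.p.injEq] at this
        exact this
      amal := fun f g x y h => by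
        have h1 : f • x.1 = g • y.1 := congrArg Subtype.val h
        obtain ⟨u, v, z, e1, e2, e3⟩ := amal_W D h1
        have hz : D.Irr z := by
          have := x.2
          rw [e2, irr_smul] at this
          exact this
        exact ⟨u, v, ⟨z, hz⟩, e1, Subtype.ext e2, Subtype.ext e3⟩ }
  act s h := Subtype.ext (by
    show s • c h (p 1) = c (s • h) (p 1)
    rfl)
  rel h := Subtype.ext (by
    rw [y_mul_val, of_val, of_val]
    have : (p (D.a h) : W P H) = D.a h • p 1 := by rw [smul_p, mul_one]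
    rw [this, star_smul, smul_p, mul_one])
  len_ι _ := rfl
  len_mul s x := by
    show lenW ((of D s * x).1) = _
    rw [of_mul_val, lenW_smul]
  len_y h x hx := by
    show lenW ((y D h * x).1) = _
    rw [y_mul_of_not_dvd D hx]
    rfl
  nf := by
    rintro ⟨w, hw⟩
    cases w with
    | p x => exact Or.inl ⟨x, rfl⟩
    | c h w =>
      obtain ⟨hw1, hw2⟩ := D.irr_c.1 hw
      refine Or.inr ⟨h, ⟨w, hw1⟩, ?_, ?_⟩
      · refine Subtype.ext ?_
        exact (D.star_neg hw2).symm.trans (y_mul_val D h ⟨w, hw1⟩).symm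
      · intro k
        obtain ⟨w', e⟩ := (of_dvd_iff D).1 k
        exact hw2 w' e
  new h x s hx k := by
    have := congrArg Subtype.val k
    rw [y_mul_of_not_dvd D hx, of_val] at this
    exact W.nc' this
  uniq h x h' x' hx hx' k := by
    have := congrArg Subtype.val k
    rw [y_mul_of_not_dvd D hx, y_mul_of_not_dvd D hx', W.c.injEq] at this
    exact ⟨this.1, Subtype.ext this.2⟩

/-- `s P' ∩ w P'` for `w ∉ s P'` is empty or generated by an element of `P` -/
theorem lcm_of (s : P) (w : D.Ext) (h : ¬ of D s ∣ w) (hne : ∃ z, of D s ∣ z ∧ w ∣ z) :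
    ∃ m : P, of D s ∣ of D m ∧ w ∣ of D m ∧ ∀ z, of D s ∣ z → w ∣ z → of D m ∣ z := by
  obtain ⟨z, hz1, hz2⟩ := hne
  rw [dvd_iff] at hz1 hz2
  rw [dvd_iff, of_val] at h
  rcases D.lcm_base w.2 h with k | ⟨m, k⟩
  · have : z.1 ∈ D.R (p s) ∩ D.R w.1 := ⟨hz1, hz2⟩
    rw [k] at this
    exact this.elim
  · have h1 : (p m : W P H) ∈ D.R (p s) ∩ D.R w.1 := by rw [k]; exact D.mem_R_self trivial
    refine ⟨m, (dvd_iff D).2 h1.1, (dvd_iff D).2 h1.2, fun z h2 h3 => ?_⟩
    rw [dvd_iff] at h2 h3 ⊢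
    have : z.1 ∈ D.R (p s) ∩ D.R w.1 := ⟨h2, h3⟩
    rw [k] at this
    exact this

/-- right unitarity of `P` in `P'` -/
theorem of_of_mul {w x : D.Ext} {m : P} (h : w * x = of D m) : ∃ t, x = of D t := by
  have key : ∀ (w x : W P H) (m : P), D.mul w x = p m → ∃ t, x = p t := by
    intro w
    induction w with
    | p s =>
      intro x m h
      cases x with
      | p t => exact ⟨t, rfl⟩
      | c k t => rw [p_mul, smul_c] at h; exact W.nc' h
    | c k w ih =>
      intro x m h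
      rw [c_mul] at h
      rcases D.star_cases k (D.mul w x) with ⟨v, e1, e⟩ | ⟨_, e⟩
      · rw [e] at h
        cases v with
        | p t => exact ih x _ (by rw [e1, smul_p])
        | c l t => rw [smul_c] at h; exact W.nc' h
      · rw [e] at h; exact W.nc' h
  obtain ⟨t, ht⟩ := key w.1 x.1 m (congrArg Subtype.val h)
  exact ⟨t, Subtype.ext ht⟩

end Ext

end S2Data

/-- **leaf A-S2** -/
theorem stS2 : StS2 := fun _ _ _ _ _ D =>
  ⟨D.Ext, inferInstance, S2Data.Ext.of D, S2Data.Ext.y D, _, S2Data.Ext.s2Ext D⟩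

end Crest.Agent.R296.IfAx378
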