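import Mathlib

/-!
Row 296 (S0448), helper365.  **Injective stage functions**: codes with small initial parts can be
assigned different odd stages above any bound.
-/

set_option autoImplicit false

namespace Crest.Agent.R296.Betax365

open Ordinal

universe v

/-- an injective pairing of ordinals above the first coordinate -/
noncomputable def pr (γ δ : Ordinal.{v}) : Ordinal.{v} := ω ^ (γ + δ) * 2 + ω ^ γ

lemma le_pr (γ δ : Ordinal.{v}) : γ ≤ pr γ δ :=
  (right_le_opow γ one_lt_omega0).trans le_add_self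

lemma pr_lt (γ δ : Ordinal.{v}) : pr γ δ < ω ^ Order.succ (γ + δ) := by
  have h1 : pr γ δ ≤ ω ^ (γ + δ) * 3 := by
    have : (3 : Ordinal.{v}) = 2 + 1 := by norm_num
    rw [pr, this, mul_add, mul_one]
    exact add_le_add_right (opow_le_opow_right omega0_pos le_self_add) _
  refine h1.trans_lt ?_
  rw [opow_succ]
  exact mul_lt_mul_of_pos_left (by exact_mod_cast natCast_lt_omega0 3) (opow_pos _ omega0_pos)

lemma pow_le_pr (γ δ : Ordinal.{v}) : ω ^ (γ + δ) ≤ pr γ δ := by
  rw [pr]
  refine le_trans ?_ le_self_add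
  exact le_mul_left _ (by norm_num : (0 : Ordinal.{v}) < 2)

lemma pr_inj {γ δ γ' δ' : Ordinal.{v}} (h : pr γ δ = pr γ' δ') : γ = γ' ∧ δ = δ' := by
  have key : ∀ γ δ γ' δ' : Ordinal.{v}, pr γ δ = pr γ' δ' → ¬ γ + δ < γ' + δ' := by
    intro γ δ γ' δ' h hlt
    have h1 := pr_lt γ δ
    have h2 : (ω : Ordinal.{v}) ^ Order.succ (γ + δ) ≤ ω ^ (γ' + δ') :=
      opow_le_opow_right omega0_pos (Order.succ_le_of_lt hlt)
    have h3 := pow_le_pr γ' δ'
    rw [h] at h1
    exact absurd (h1.trans_le (h2.trans h3)) (lt_irrefl _)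
  have h1 : γ + δ = γ' + δ' :=
    le_antisymm (not_lt.1 (key _ _ _ _ h.symm)) (not_lt.1 (key _ _ _ _ h))
  unfold pr at h
  rw [h1] at h
  have h2 : (ω : Ordinal.{v}) ^ γ = ω ^ γ' := add_left_cancel h
  have h3 : γ = γ' := (opow_right_inj one_lt_omega0).1 h2
  subst h3
  exact ⟨rfl, add_left_cancel h1⟩

/-- a small type injects into the ordinals -/
lemma exists_inj_small (K : Type*) [Small.{v} K] : ∃ j : K → Ordinal.{v}, Function.Injective j := by
  obtain ⟨e⟩ := (nonempty_embedding_to_cardinal (α := Shrink.{v} K))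
  refine ⟨fun k => (e (equivShrink K k)).ord, fun a b h => ?_⟩
  exact (equivShrink K).injective (e.injective (Cardinal.ord_injective h))

/-- **injective odd stage function above `need`** -/
theorem exists_beta {K : Type*} (need : K → Ordinal.{v})
    (hs : ∀ γ, Small.{v} {k | need k = γ}) :
    ∃ β : K → Ordinal.{v}, Function.Injective β ∧ ∀ k, need k ≤ β k ∧ β k % 2 = 1 := by
  have h1 : ∀ γ, ∃ j : {k | need k = γ} → Ordinal.{v}, Function.Injective j := fun γ => by
    have := hs γ
    exact exists_inj_small _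
  choose j hj using h1
  let g : K → Ordinal.{v} := fun k => pr (need k) (j (need k) ⟨k, rfl⟩)
  have hg : Function.Injective g := by
    intro a b h
    obtain ⟨h2, h3⟩ := pr_inj h
    have h4 : ∀ (γ : Ordinal.{v}) (hb : need b = γ), j (need b) ⟨b, rfl⟩ = j γ ⟨b, hb⟩ := by
      intro γ hb
      subst hb
      rfl
    rw [h4 (need a) h2.symm] at h3
    exact congrArg Subtype.val (hj (need a) h3)
  refine ⟨fun k => 2 * g k + 1, fun a b h => hg ?_, fun k => ⟨?_, ?_⟩⟩
  · have h2 : 2 * g a = 2 * g b := by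
      have h3 : Order.succ (2 * g a) = Order.succ (2 * g b) := by simpa using h
      exact Order.succ_injective h3
    rcases lt_trichotomy (g a) (g b) with h4 | h4 | h4
    · exact absurd h2 (mul_lt_mul_of_pos_left h4 (by norm_num : (0 : Ordinal.{v}) < 2)).ne
    · exact h4
    · exact absurd h2 (mul_lt_mul_of_pos_left h4 (by norm_num : (0 : Ordinal.{v}) < 2)).ne'
  · have h2 : need k ≤ g k := le_pr _ _
    refine h2.trans ?_
    change g k ≤ 2 * g k + 1
    exact (le_mul_right (g k) (by norm_num : (0 : Ordinal.{v}) < 2)).trans le_self_add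
  · rw [mul_add_mod_self]
    exact mod_eq_of_lt (by norm_num)

end Crest.Agent.R296.Betax365
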