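/-
helper914: LEAF A-CAP (A.6 of note 2054), abstract form on a ranked monoid.
-/
import Mathlib.SetTheory.Ordinal.Family
import Mathlib.SetTheory.Ordinal.FixedPoint
import Mathlib.Algebra.Group.Basic
import Mathlib.Algebra.Group.Basic

set_option autoImplicit false

namespace Crest.Agent.R296.Capx914

universe u

/-- The step property of a new element `x` of rank `rho x` (S1: `d = s0`, S2: `d = h(p)`). -/
structure StepProp {P : Type (u+1)} [Monoid P] (rho : P → Ordinal.{u}) (x d : P) : Prop where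
  lt : rho d < rho x
  below : ∀ s : P, rho s < rho x → s ∣ x → s ∣ d
  not_dvd : ¬ x ∣ d
  above : ∀ z : P, rho z < rho x → x ∣ z → d ∣ z
  meet : ∀ s : P, rho s < rho x → ¬ s ∣ x → ∀ w : P, s ∣ w → x ∣ w →
    ∃ z : P, rho z < rho x ∧ s ∣ z ∧ x ∣ z ∧ z ∣ w

/-- A filter on the principal right ideals, as the set of generators of its members. -/
structure IsFil {P : Type (u+1)} [Monoid P] (F : Set P) : Prop where
  one : (1 : P) ∈ F
  up : ∀ {s t : P}, s ∣ t → t ∈ F → s ∈ F
  dir : ∀ {s t : P}, s ∈ F → t ∈ F → ∃ m ∈ F, s ∣ m ∧ t ∣ m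

section

variable {P : Type (u+1)} [Monoid P] {rho : P → Ordinal.{u}}

/-- The CLAIM of A.6. -/
theorem claim (hstep : ∀ x : P, 0 < rho x → ∃ d, StepProp rho x d)
    {al : Ordinal.{u}} (hal : 0 < al) (F : Set P) :
    ∀ y : P, (∀ w : P, rho w < al → (∀ s ∈ F, rho s < al → s ∣ w) → y ∣ w) →
      (∀ s ∈ F, rho s < al → s ∣ y) → rho y < al := by
  have key : ∀ o : Ordinal.{u}, ∀ y : P, rho y = o →
      (∀ w : P, rho w < al → (∀ s ∈ F, rho s < al → s ∣ w) → y ∣ w) →
      (∀ s ∈ F, rho s < al → s ∣ y) → rho y < al := by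
    intro o
    induction o using WellFoundedLT.induction with
    | ind o ih =>
      intro y hy hI hF
      by_contra hcon
      have hge : al ≤ rho y := not_lt.mp hcon
      obtain ⟨d, hd⟩ := hstep y (lt_of_lt_of_le hal hge)
      have h2 : ∀ w : P, rho w < al → (∀ s ∈ F, rho s < al → s ∣ w) → d ∣ w := fun w hw hw' =>
        hd.above w (lt_of_lt_of_le hw hge) (hI w hw hw')
      have h3 : ∀ s ∈ F, rho s < al → s ∣ d := fun s hs hs' =>
        hd.below s (lt_of_lt_of_le hs' hge) (hF s hs hs')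
      have h1 : rho d < al := ih (rho d) (hy ▸ hd.lt) d rfl h2 h3
      exact hd.not_dvd (hI d h1 h3)
  intro y
  exact key (rho y) y rfl

/-- A.6, first half: if every `w` in `I_alpha` lies in all members of `F`, then `F` is generated
by `F_alpha`. -/
theorem cap (hstep : ∀ x : P, 0 < rho x → ∃ d, StepProp rho x d)
    {al : Ordinal.{u}} (hal : 0 < al) {F : Set P} (hF : IsFil F)
    (hcl : ∀ w : P, rho w < al → (∀ s ∈ F, rho s < al → s ∣ w) → ∀ s ∈ F, s ∣ w) :
    ∀ x ∈ F, ∃ s ∈ F, rho s < al ∧ x ∣ s := by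
  have key : ∀ o : Ordinal.{u}, ∀ x ∈ F, rho x = o → ∃ s ∈ F, rho s < al ∧ x ∣ s := by
    intro o
    induction o using WellFoundedLT.induction with
    | ind o ih =>
      intro x hx hxo
      by_contra hcon
      have hge : al ≤ rho x := by
        by_contra h
        exact hcon ⟨x, hx, not_le.mp h, dvd_refl x⟩
      obtain ⟨d, hd⟩ := hstep x (lt_of_lt_of_le hal hge)
      have hA : ∀ s ∈ F, rho s < al → s ∣ x := by
        intro s hs hs'
        by_contra hns
        obtain ⟨w, hw, hsw, hxw⟩ := hF.dir hs hx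
        obtain ⟨z, hz, _, hxz, hzw⟩ := hd.meet s (lt_of_lt_of_le hs' hge) hns w hsw hxw
        obtain ⟨t, ht, ht', hzt⟩ := ih (rho z) (hxo ▸ hz) z (hF.up hzw hw) rfl
        exact hcon ⟨t, ht, ht', dvd_trans hxz hzt⟩
      have hB : rho x < al := claim hstep hal F x (fun w hw hw' => hcl w hw hw' x hx) hA
      exact absurd hB (not_lt.mpr hge)
  intro x hx
  exact key (rho x) x hx rfl

/-- A.6, second half: closed ordinals exist above any given ordinal. -/
theorem exists_closed (hsmall : ∀ al : Ordinal.{u}, Small.{u} {w : P // rho w < al})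
    (F : Set P) (be : Ordinal.{u}) :
    ∃ al : Ordinal.{u}, be < al ∧
      ∀ w : P, rho w < al → (∀ s ∈ F, rho s < al → s ∣ w) → ∀ s ∈ F, s ∣ w := by
  classical
  -- for each w not in some member choose a witness
  let f : P → Ordinal.{u} := fun w =>
    if h : ∃ s ∈ F, ¬ s ∣ w then rho h.choose + 1 else 0
  have hf : ∀ w : P, (∃ s ∈ F, ¬ s ∣ w) → ∃ s ∈ F, rho s < f w ∧ ¬ s ∣ w := by
    intro w h
    refine ⟨h.choose, h.choose_spec.1, ?_, h.choose_spec.2⟩
    have : f w = rho h.choose + 1 := dif_pos h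
    rw [this]
    exact Order.lt_succ (rho h.choose)
  let g : Ordinal.{u} → Ordinal.{u} := fun al =>
    max (al + 1) (⨆ w : {w : P // rho w < al}, f w.1)
  have hg1 : ∀ al, al < g al := fun al =>
    lt_of_lt_of_le (Order.lt_succ al) (le_max_left _ _)
  have hg2 : ∀ al (w : P), rho w < al → f w ≤ g al := by
    intro al w hw
    have := hsmall al
    refine le_trans ?_ (le_max_right _ _)
    exact Ordinal.le_iSup (fun w : {w : P // rho w < al} => f w.1) ⟨w, hw⟩
  let a : ℕ → Ordinal.{u} := fun n => g^[n] (be + 1)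
  have ha : ∀ n, a (n+1) = g (a n) := fun n => Function.iterate_succ_apply' g n (be+1)
  refine ⟨⨆ n, a n, ?_, ?_⟩
  · refine lt_of_lt_of_le (Order.lt_succ be) ?_
    exact Ordinal.le_iSup a 0
  · intro w hw hI
    by_contra hcon
    push Not at hcon
    obtain ⟨n, hn⟩ : ∃ n, rho w < a n := (Ordinal.lt_iSup_iff).1 hw
    obtain ⟨s, hs, hsf, hns⟩ := hf w hcon
    refine hns (hI s hs ?_)
    calc rho s < f w := hsf
      _ ≤ g (a n) := hg2 _ w hn
      _ = a (n+1) := (ha n).symm
      _ ≤ ⨆ n, a n := Ordinal.le_iSup a (n+1)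

/-- A.6, complete: every filter is generated by its elements of rank `< al`, for some
`al` above any given `be`. -/
theorem captured (hstep : ∀ x : P, 0 < rho x → ∃ d, StepProp rho x d)
    (hsmall : ∀ al : Ordinal.{u}, Small.{u} {w : P // rho w < al})
    {F : Set P} (hF : IsFil F) (be : Ordinal.{u}) :
    ∃ al : Ordinal.{u}, be < al ∧ ∀ x ∈ F, ∃ s ∈ F, rho s < al ∧ x ∣ s := by
  obtain ⟨al, hal, hcl⟩ := exists_closed hsmall F be
  exact ⟨al, hal, cap hstep (lt_of_le_of_lt zero_le hal) hF hcl⟩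

end

end Crest.Agent.R296.Capx914
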