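import Crest.Agent.R296.CatInst_566

/-!
# Row 296, block B (helper566): dictionary, semantic half

* `up x y`, `op x y` : unordered and ordered pairs; `op_inj`
* `fc_isSing`, `fc_isUPair`, `fc_isOPair`, `fc_pairMem`
-/

set_option autoImplicit false

universe u

open CategoryTheory FirstOrder FirstOrder.Language Crest.LogicCS.SetTheory
open Crest.Agent.R296.CatFx365 Crest.Agent.R296.CatFrcx365

namespace Crest.Agent.R296.CatDicx566

variable {C : Type u} [Category.{u} C]

/-! ### dense families -/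

/-- `P` holds densely over the extensions of `d` -/
def Dn {d : C} (P : ∀ {d' : C}, (d' ⟶ d) → Prop) : Prop :=
  ∀ (d1 : C) (l : d1 ⟶ d), ∃ (d2 : C) (m : d2 ⟶ d1), P (m ≫ l)

/-- monotone families -/
def Mn {d : C} (P : ∀ {d' : C}, (d' ⟶ d) → Prop) : Prop :=
  ∀ {d' d'' : C} (h : d' ⟶ d) (g : d'' ⟶ d'), P h → P (g ≫ h)

theorem Dn.and {d : C} {P Q : ∀ {d' : C}, (d' ⟶ d) → Prop} (hP : Dn (d := d) P) (hQ : Dn (d := d) Q)
    (mP : Mn (d := d) P) : Dn (d := d) fun h => P h ∧ Q h := by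
  intro d1 l
  obtain ⟨d2, m, h1⟩ := hP d1 l
  obtain ⟨d3, m', h2⟩ := hQ d2 (m ≫ l)
  exact ⟨d3, m' ≫ m, by simpa using mP _ m' h1, by simpa using h2⟩

theorem Dn.imp {d : C} {P Q : ∀ {d' : C}, (d' ⟶ d) → Prop} (hP : Dn (d := d) P)
    (h : ∀ {d' : C} (k : d' ⟶ d), P k → Q k) : Dn (d := d) Q := by
  intro d1 l
  obtain ⟨d2, m, h1⟩ := hP d1 l
  exact ⟨d2, m, h _ h1⟩

theorem Dn.bind {d : C} {P Q : ∀ {d' : C}, (d' ⟶ d) → Prop} (hP : Dn (d := d) P)
    (h : ∀ {d' : C} (k : d' ⟶ d), P k → ∃ (d'' : C) (g : d'' ⟶ d'), Q (g ≫ k)) : Dn (d := d) Q := by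
  intro d1 l
  obtain ⟨d2, m, h1⟩ := hP d1 l
  obtain ⟨d3, g, h2⟩ := h _ h1
  exact ⟨d3, g ≫ m, by simpa using h2⟩

theorem eq_of_dn {d : C} {x y : Val C d}
    (H : Dn (d := d) fun h => Eq' (x.res h) (y.res h)) : Eq' x y := Eq'.of_dense H

theorem mem_of_dn {d : C} {x y : Val C d}
    (H : Dn (d := d) fun h => Mem' (x.res h) (y.res h)) : Mem' x y := Mem'.of_dense H

theorem mn_eq {d : C} (x y : Val C d) : Mn (d := d) fun h => Eq' (x.res h) (y.res h) := by
  intro d' d'' h g H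
  simpa using H.res g

/-! ### pairs -/

/-- unordered pair -/
def up {d : C} (x y : Val C d) : Val C d :=
  mkv (ULift.{u} Bool) (fun _ => d) (fun _ => 𝟙 d) (fun b => if b.down then x else y)

/-- ordered pair -/
def op {d : C} (x y : Val C d) : Val C d := up (up x x) (up x y)

theorem mem_up_res {d d' : C} (x y : Val C d) (h : d' ⟶ d) (z : Val C d') :
    Mem' z ((up x y).res h) ↔ Dn (d := d') fun k => Eq' (z.res k) (x.res (k ≫ h)) ∨
      Eq' (z.res k) (y.res (k ≫ h)) := by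
  unfold up
  rw [mem_mkv]
  refine forall_congr' fun d1 => forall_congr' fun l => exists_congr fun d2 => exists_congr fun m => ?_
  constructor
  · rintro ⟨b, k, h1, h2⟩
    obtain rfl : (m ≫ l) ≫ h = k := by simpa using h1
    rcases b with ⟨_ | _⟩
    · exact Or.inr h2
    · exact Or.inl h2
  · rintro (h1 | h1)
    · exact ⟨⟨true⟩, (m ≫ l) ≫ h, by simp, h1⟩
    · exact ⟨⟨false⟩, (m ≫ l) ≫ h, by simp, h1⟩

theorem mem_up {d : C} (x y z : Val C d) :
    Mem' z (up x y) ↔ Dn (d := d) fun k => Eq' (z.res k) (x.res k) ∨ Eq' (z.res k) (y.res k) := by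
  have := mem_up_res x y (𝟙 d) z
  simpa using this

theorem mem_up_left {d : C} (x y : Val C d) : Mem' x (up x y) := by
  rw [mem_up]
  exact fun d1 l => ⟨d1, 𝟙 d1, Or.inl (Eq'.refl _)⟩

theorem mem_up_right {d : C} (x y : Val C d) : Mem' y (up x y) := by
  rw [mem_up]
  exact fun d1 l => ⟨d1, 𝟙 d1, Or.inr (Eq'.refl _)⟩

theorem up_res {d d' : C} (x y : Val C d) (h : d' ⟶ d) :
    Eq' ((up x y).res h) (up (x.res h) (y.res h)) := by
  refine ext' fun d1 l z => ?_
  rw [Val.res_res, mem_up_res, mem_up_res]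
  refine forall_congr' fun d2 => forall_congr' fun m => exists_congr fun d3 => exists_congr fun k => ?_
  simp

theorem up_congr {d : C} {x x' y y' : Val C d} (hx : Eq' x x') (hy : Eq' y y') :
    Eq' (up x y) (up x' y') := by
  refine ext' fun d1 l z => ?_
  rw [mem_up_res, mem_up_res]
  refine forall_congr' fun d2 => forall_congr' fun m => exists_congr fun d3 => exists_congr fun k => ?_
  refine or_congr ⟨fun h => h.trans (hx.res _), fun h => h.trans (hx.res _).symm⟩
    ⟨fun h => h.trans (hy.res _), fun h => h.trans (hy.res _).symm⟩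

theorem up_inj {d : C} {x y x' y' : Val C d} (h : Eq' (up x y) (up x' y')) :
    Dn (d := d) fun k => (Eq' (x.res k) (x'.res k) ∧ Eq' (y.res k) (y'.res k)) ∨
      (Eq' (x.res k) (y'.res k) ∧ Eq' (y.res k) (x'.res k)) := by
  have m1 := (mem_up _ _ _).1 (Mem'.congr_right h (mem_up_left x y))
  have m2 := (mem_up _ _ _).1 (Mem'.congr_right h (mem_up_right x y))
  have m3 := (mem_up _ _ _).1 (Mem'.congr_right h.symm (mem_up_left x' y'))
  have m4 := (mem_up _ _ _).1 (Mem'.congr_right h.symm (mem_up_right x' y'))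
  have mono : ∀ a b c e : Val C d, Mn (d := d) fun k => Eq' (a.res k) (b.res k) ∨
      Eq' (c.res k) (e.res k) := fun a b c e {d' d''} k g H =>
    H.imp (fun H => by simpa using H.res g) (fun H => by simpa using H.res g)
  refine (((m1.and m2 (mono _ _ _ _)).and (m3.and m4 (mono _ _ _ _)) ?_)).imp ?_
  · intro d' d'' k g H
    exact ⟨mono _ _ _ _ k g H.1, mono _ _ _ _ k g H.2⟩
  · rintro d' k ⟨⟨h1, h2⟩, h3, h4⟩
    rcases h1 with h1 | h1
    · rcases h2 with h2 | h2
      · rcases h4 with h4 | h4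
        · exact Or.inl ⟨h1, h2.trans (h1.symm.trans h4.symm)⟩
        · exact Or.inl ⟨h1, h4.symm⟩
      · exact Or.inl ⟨h1, h2⟩
    · rcases h2 with h2 | h2
      · exact Or.inr ⟨h1, h2⟩
      · rcases h3 with h3 | h3
        · exact Or.inr ⟨h1, (h2.trans (h1.symm.trans h3.symm))⟩
        · exact Or.inr ⟨h1, h3.symm⟩

theorem op_res {d d' : C} (x y : Val C d) (h : d' ⟶ d) :
    Eq' ((op x y).res h) (op (x.res h) (y.res h)) :=
  (up_res _ _ h).trans (up_congr (up_res _ _ h) (up_res _ _ h))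

theorem op_congr {d : C} {x x' y y' : Val C d} (hx : Eq' x x') (hy : Eq' y y') :
    Eq' (op x y) (op x' y') := up_congr (up_congr hx hx) (up_congr hx hy)

/-- `{x} = {a, b}` forces `x = a` and `x = b` -/
theorem sing_eq {d : C} {x a b : Val C d} (h : Eq' (up x x) (up a b)) : Eq' x a ∧ Eq' x b := by
  have h1 := up_inj h
  constructor
  · refine eq_of_dn (h1.imp fun k H => ?_)
    rcases H with H | H
    · exact H.1
    · exact H.2
  · refine eq_of_dn (h1.imp fun k H => ?_)
    rcases H with H | H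
    · exact H.2
    · exact H.1

/-- **ordered pairs** -/
theorem op_inj {d : C} {x y x' y' : Val C d} :
    Eq' (op x y) (op x' y') ↔ Eq' x x' ∧ Eq' y y' := by
  constructor
  swap
  · exact fun h => op_congr h.1 h.2
  intro h
  have h1 := up_inj h
  have key : Dn (d := d) fun k => Eq' (x.res k) (x'.res k) ∧ Eq' (y.res k) (y'.res k) := by
    refine h1.bind ?_
    rintro d' k (⟨h2, h3⟩ | ⟨h2, h3⟩)
    · have h4 := ((up_res x x k).symm.trans (h2.trans (up_res x' x' k)))
      have h5 := ((up_res x y k).symm.trans (h3.trans (up_res x' y' k)))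
      have h6 := (sing_eq h4).1
      obtain ⟨d'', g, h7⟩ := up_inj h5 d' (𝟙 d')
      refine ⟨d'', g, ?_⟩
      have h6' : Eq' (x.res (g ≫ k)) (x'.res (g ≫ k)) := by simpa using h6.res g
      refine ⟨h6', ?_⟩
      rcases h7 with ⟨-, h7⟩ | ⟨h7, h8⟩
      · simpa using h7
      · have h7' : Eq' (x.res (g ≫ k)) (y'.res (g ≫ k)) := by simpa using h7
        have h8' : Eq' (y.res (g ≫ k)) (x'.res (g ≫ k)) := by simpa using h8
        exact h8'.trans (h6'.symm.trans h7')
    · have h4 := ((up_res x x k).symm.trans (h2.trans (up_res x' y' k)))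
      have h5 := ((up_res x y k).symm.trans (h3.trans (up_res x' x' k)))
      have h6 := sing_eq h4
      have h7 := sing_eq h5.symm
      refine ⟨d', 𝟙 d', ?_, ?_⟩
      · simpa using h6.1
      · simpa using h7.2.symm.trans (h6.1.symm.trans h6.2)
  exact ⟨eq_of_dn (key.imp fun k H => H.1), eq_of_dn (key.imp fun k H => H.2)⟩

/-! ### formulas -/

section formulas

variable {n : ℕ} {d : C} (v : Fin n → Val C d)

theorem ext_iff {x y : Val C d} :
    Eq' x y ↔ ∀ (d1 : C) (l : d1 ⟶ d) (z : Val C d1), Mem' z (x.res l) ↔ Mem' z (y.res l) :=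
  ⟨fun h _ l _ => ⟨Mem'.congr_right (h.res l), Mem'.congr_right (h.res l).symm⟩, ext'⟩

/-- a formula `∀ z, P z ↔ Q z` -/
theorem fc_all_iff (p q : setL.BoundedFormula Empty (n + 1)) : Fc (∀' (p ⇔ q)) v ↔
    ∀ (d1 : C) (l : d1 ⟶ d) (z : Val C d1), Fc p (sn (vr l v) z) ↔ Fc q (sn (vr l v) z) := by
  constructor
  · intro H d1 l z
    have h1 := (fc_iff _ _ _).1 (H d1 l z) d1 (𝟙 d1)
    simpa using h1
  · intro H d1 l z
    rw [fc_iff]
    intro d2 h
    have h1 := H d2 (h ≫ l) (z.res h)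
    simpa using h1

/-- a formula `∀ z, P z → Q z` -/
theorem fc_all_imp (p q : setL.BoundedFormula Empty (n + 1)) : Fc (∀' (p ⟹ q)) v ↔
    ∀ (d1 : C) (l : d1 ⟶ d) (z : Val C d1), Fc p (sn (vr l v) z) → Fc q (sn (vr l v) z) := by
  constructor
  · intro H d1 l z
    have h1 := (H d1 l z) d1 (𝟙 d1)
    simpa using h1
  · intro H d1 l z d2 h
    have h1 := H d2 (h ≫ l) (z.res h)
    simpa using h1

theorem fc_isUPair (w a b : Fin n) : Fc (isUPair w a b) v ↔ Eq' (v w) (up (v a) (v b)) := by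
  rw [ext_iff]
  unfold isUPair
  rw [fc_all_iff]
  refine forall_congr' fun d1 => forall_congr' fun l => forall_congr' fun z => ?_
  rw [mem_up_res, fc_vmem, fc_or]
  refine iff_congr (by simp) ?_
  refine forall_congr' fun d3 => forall_congr' fun g => exists_congr fun d4 =>
      exists_congr fun m => ?_
  rw [fc_veq, fc_veq]
  simp

theorem fc_isSing (w a : Fin n) : Fc (isSing w a) v ↔ Eq' (v w) (up (v a) (v a)) := by
  rw [ext_iff]
  unfold isSing
  rw [fc_all_iff]
  refine forall_congr' fun d1 => forall_congr' fun l => forall_congr' fun z => ?_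
  rw [mem_up_res, fc_vmem, fc_veq]
  refine iff_congr (by simp) ?_
  simp only [sn_last, sn_castSucc, vr_apply, or_self]
  constructor
  · intro h d2 m
    exact ⟨d2, 𝟙 d2, by simpa using h.res m⟩
  · intro h
    refine eq_of_dn (h.imp fun k h => ?_)
    simpa using h

theorem fc_isOPair (p a b : Fin n) : Fc (isOPair p a b) v ↔ Eq' (v p) (op (v a) (v b)) := by
  rw [ext_iff]
  unfold isOPair
  rw [fc_all_iff]
  refine forall_congr' fun d1 => forall_congr' fun l => forall_congr' fun z => ?_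
  unfold op
  rw [mem_up_res, fc_vmem, fc_or]
  refine iff_congr (by simp) ?_
  refine forall_congr' fun d3 => forall_congr' fun g => exists_congr fun d4 =>
      exists_congr fun m => ?_
  rw [fc_isSing, fc_isUPair]
  simp only [sn_last, sn_castSucc, vr_apply, Val.res_res]
  exact or_congr ⟨fun h => h.trans (up_res _ _ _).symm, fun h => h.trans (up_res _ _ _)⟩
    ⟨fun h => h.trans (up_res _ _ _).symm, fun h => h.trans (up_res _ _ _)⟩

/-- **pairs in a relation** -/
theorem fc_pairMem (f a b : Fin n) : Fc (pairMem f a b) v ↔ Mem' (op (v a) (v b)) (v f) := by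
  unfold pairMem
  rw [fc_ex]
  constructor
  · intro H
    refine mem_of_dn fun d1 l => ?_
    obtain ⟨d2, m, x, h⟩ := H d1 l
    rw [fc_and, fc_vmem, fc_isOPair] at h
    refine ⟨d2, m, ?_⟩
    have h1 : Eq' x (op ((v a).res (m ≫ l)) ((v b).res (m ≫ l))) := by simpa using h.2
    have h2 : Mem' x ((v f).res (m ≫ l)) := by simpa using h.1
    exact Mem'.congr_left (h1.trans (op_res _ _ _).symm) h2
  · intro H d1 l
    refine ⟨d1, 𝟙 d1, (op (v a) (v b)).res l, ?_⟩
    rw [fc_and, fc_vmem, fc_isOPair]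
    refine ⟨?_, ?_⟩
    · simpa using H.res l
    · simpa using op_res _ _ _

/-- two quantifiers and an implication -/
theorem fc_all2_imp (p q : setL.BoundedFormula Empty (n + 2)) : Fc (∀' ∀' (p ⟹ q)) v ↔
    ∀ (d1 : C) (l : d1 ⟶ d) (x y : Val C d1), Fc p (sn (sn (vr l v) x) y) →
      Fc q (sn (sn (vr l v) x) y) := by
  constructor
  · intro H d1 l x y
    have h1 := (fc_all_imp _ p q).1 (H d1 l x) d1 (𝟙 d1) y
    simpa using h1
  · intro H d1 l x
    rw [fc_all_imp]
    intro d2 l2 y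
    have h1 := H d2 (l2 ≫ l) (x.res l2) y
    simpa using h1

/-- three quantifiers and an implication -/
theorem fc_all3_imp (p q : setL.BoundedFormula Empty (n + 3)) : Fc (∀' ∀' ∀' (p ⟹ q)) v ↔
    ∀ (d1 : C) (l : d1 ⟶ d) (x y z : Val C d1), Fc p (sn (sn (sn (vr l v) x) y) z) →
      Fc q (sn (sn (sn (vr l v) x) y) z) := by
  constructor
  · intro H d1 l x y z
    have h1 := (fc_all2_imp _ p q).1 (H d1 l x) d1 (𝟙 d1) y z
    simpa using h1
  · intro H d1 l x
    rw [fc_all2_imp]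
    intro d2 l2 y z
    have h1 := H d2 (l2 ≫ l) (x.res l2) y z
    simpa using h1

/-- existential formulas -/
theorem fc_ex' (p : setL.BoundedFormula Empty (n + 1)) : Fc (∃' p) v ↔
    Dn (d := d) fun {d'} k => ∃ x : Val C d', Fc p (sn (vr k v) x) := by
  rw [fc_ex]
  rfl

end formulas

/-! ### semantic notions -/

section sem

variable {d : C}

/-- `f` is the graph of a map from `X` onto `Y` -/
def SurjV (f X Y : Val C d) : Prop :=
  (∀ (d1 : C) (l : d1 ⟶ d) (a : Val C d1), Mem' a (X.res l) → Dn (d := d1) fun {d2} k =>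
    ∃ b : Val C d2, Mem' b (Y.res (k ≫ l)) ∧ Mem' (op (a.res k) b) (f.res (k ≫ l))) ∧
  (∀ (d1 : C) (l : d1 ⟶ d) (a b b' : Val C d1), Mem' a (X.res l) → Mem' (op a b) (f.res l) →
    Mem' (op a b') (f.res l) → Eq' b b') ∧
  (∀ (d1 : C) (l : d1 ⟶ d) (b : Val C d1), Mem' b (Y.res l) → Dn (d := d1) fun {d2} k =>
    ∃ a : Val C d2, Mem' a (X.res (k ≫ l)) ∧ Mem' (op a (b.res k)) (f.res (k ≫ l)))

/-- `g` is the graph of an injective map from `Y` into `X` -/
def InjV (g Y X : Val C d) : Prop :=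
  (∀ (d1 : C) (l : d1 ⟶ d) (b : Val C d1), Mem' b (Y.res l) → Dn (d := d1) fun {d2} k =>
    ∃ a : Val C d2, Mem' a (X.res (k ≫ l)) ∧ Mem' (op (b.res k) a) (g.res (k ≫ l))) ∧
  (∀ (d1 : C) (l : d1 ⟶ d) (b a a' : Val C d1), Mem' b (Y.res l) → Mem' (op b a) (g.res l) →
    Mem' (op b a') (g.res l) → Eq' a a') ∧
  (∀ (d1 : C) (l : d1 ⟶ d) (b b' a : Val C d1), Mem' b (Y.res l) → Mem' b' (Y.res l) →
    Mem' (op b a) (g.res l) → Mem' (op b' a) (g.res l) → Eq' b b')

/-- transitive -/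
def TransV (a : Val C d) : Prop :=
  ∀ (d1 : C) (l : d1 ⟶ d) (y z : Val C d1), Mem' z y → Mem' y (a.res l) → Mem' z (a.res l)

/-- ordinal -/
def OrdV (a : Val C d) : Prop :=
  TransV a ∧ ∀ (d1 : C) (l : d1 ⟶ d) (y : Val C d1), Mem' y (a.res l) → TransV y

variable {n : ℕ} (v : Fin n → Val C d)

theorem fc_surjGraph (f X Y : Fin n) : Fc (surjGraph f X Y) v ↔ SurjV (v f) (v X) (v Y) := by
  unfold surjGraph SurjV
  rw [fc_and, fc_and, fc_all_imp, fc_all3_imp, fc_all_imp, and_assoc]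
  refine and_congr ?_ (and_congr ?_ ?_)
  · refine forall_congr' fun d1 => forall_congr' fun l => forall_congr' fun a => ?_
    rw [fc_vmem, fc_ex']
    refine imp_congr (by simp) ?_
    refine forall_congr' fun d2 => forall_congr' fun l2 => exists_congr fun d3 =>
      exists_congr fun m => exists_congr fun b => ?_
    rw [fc_and, fc_vmem, fc_pairMem]
    simp
  · refine forall_congr' fun d1 => forall_congr' fun l => forall_congr' fun a =>
      forall_congr' fun b => forall_congr' fun b' => ?_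
    rw [fc_and, fc_and, fc_vmem, fc_pairMem, fc_pairMem, fc_veq]
    simp
  · refine forall_congr' fun d1 => forall_congr' fun l => forall_congr' fun a => ?_
    rw [fc_vmem, fc_ex']
    refine imp_congr (by simp) ?_
    refine forall_congr' fun d2 => forall_congr' fun l2 => exists_congr fun d3 =>
      exists_congr fun m => exists_congr fun b => ?_
    rw [fc_and, fc_vmem, fc_pairMem]
    simp

theorem fc_injGraph (g Y X : Fin n) : Fc (injGraph g Y X) v ↔ InjV (v g) (v Y) (v X) := by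
  unfold injGraph InjV
  rw [fc_and, fc_and, fc_all_imp, fc_all3_imp, fc_all3_imp, and_assoc]
  refine and_congr ?_ (and_congr ?_ ?_)
  · refine forall_congr' fun d1 => forall_congr' fun l => forall_congr' fun a => ?_
    rw [fc_vmem, fc_ex']
    refine imp_congr (by simp) ?_
    refine forall_congr' fun d2 => forall_congr' fun l2 => exists_congr fun d3 =>
      exists_congr fun m => exists_congr fun b => ?_
    rw [fc_and, fc_vmem, fc_pairMem]
    simp
  · refine forall_congr' fun d1 => forall_congr' fun l => forall_congr' fun a =>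
      forall_congr' fun b => forall_congr' fun b' => ?_
    rw [fc_and, fc_and, fc_vmem, fc_pairMem, fc_pairMem, fc_veq]
    simp
  · refine forall_congr' fun d1 => forall_congr' fun l => forall_congr' fun a =>
      forall_congr' fun b => forall_congr' fun b' => ?_
    rw [fc_and, fc_and, fc_and, fc_vmem, fc_vmem, fc_pairMem, fc_pairMem, fc_veq]
    simp

theorem fc_isTrans (a : Fin n) : Fc (isTrans a) v ↔ TransV (v a) := by
  unfold isTrans TransV
  rw [fc_all2_imp]
  refine forall_congr' fun d1 => forall_congr' fun l => forall_congr' fun y =>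
    forall_congr' fun z => ?_
  rw [fc_and, fc_vmem, fc_vmem, fc_vmem]
  simp

theorem fc_isOrd (a : Fin n) : Fc (isOrd a) v ↔ OrdV (v a) := by
  unfold isOrd OrdV
  rw [fc_and, fc_isTrans, fc_all_imp]
  refine and_congr Iff.rfl ?_
  refine forall_congr' fun d1 => forall_congr' fun l => forall_congr' fun y => ?_
  rw [fc_vmem, fc_isTrans]
  simp

end sem

/-! ### the principles -/

theorem InjV.res {d d' : C} (h : d' ⟶ d) {g Y X : Val C d} (H : InjV g Y X) :
    InjV (g.res h) (Y.res h) (X.res h) := by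
  refine ⟨fun d1 l b hb => ?_, fun d1 l b a a' => ?_, fun d1 l b b' a => ?_⟩
  · have := H.1 d1 (l ≫ h) b (by simpa using hb)
    refine this.imp fun k hk => ?_
    simpa using hk
  · have := H.2.1 d1 (l ≫ h) b a a'
    simpa using this
  · have := H.2.2 d1 (l ≫ h) b b' a
    simpa using this

/-- **the partition principle** -/
theorem ppAx_of (H : ∀ (d : C) (X Y f : Val C d), SurjV f X Y →
    ∃ (d' : C) (h : d' ⟶ d) (g : Val C d'), InjV g (Y.res h) (X.res h)) (c : C) : Fs c ppAx := by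
  unfold Fs ppAx
  rw [fc_all2_imp]
  intro d l X Y h1
  rw [fc_ex'] at h1 ⊢
  refine h1.bind ?_
  rintro d' k ⟨f, hf⟩
  rw [fc_surjGraph] at hf
  obtain ⟨d'', h, g, hg⟩ := H d' (X.res k) (Y.res k) f hf
  refine ⟨d'', h, g, ?_⟩
  rw [fc_injGraph]
  have hg' : InjV g (Y.res (h ≫ k)) (X.res (h ≫ k)) := by simpa using hg
  exact hg'

/-- **choice for families indexed by an ordinal** -/
theorem acwoAx_of (H : ∀ (d : C) (α f : Val C d), OrdV α →
    (∀ (d1 : C) (l : d1 ⟶ d) (x : Val C d1), Mem' x (α.res l) → Dn (d := d1) fun {d2} k =>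
      ∃ y : Val C d2, Mem' (op (x.res k) y) (f.res (k ≫ l))) →
    ∃ (d' : C) (h : d' ⟶ d) (g : Val C d'), ∀ (d1 : C) (l : d1 ⟶ d') (x : Val C d1),
      Mem' x (α.res (l ≫ h)) → Dn (d := d1) fun {d2} k => ∃ y : Val C d2,
        Mem' (op (x.res k) y) (g.res (k ≫ l)) ∧ Mem' (op (x.res k) y) (f.res (k ≫ l ≫ h)) ∧
        ∀ (d3 : C) (m : d3 ⟶ d2) (y' : Val C d3), Mem' (op (x.res (m ≫ k)) y') (g.res (m ≫ k ≫ l)) →
          Eq' y' (y.res m)) (c : C) : Fs c acwoAx := by
  unfold Fs acwoAx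
  rw [fc_all2_imp]
  intro d l α f h1
  rw [fc_and, fc_isOrd, fc_all_imp] at h1
  rw [fc_ex']
  intro d1 l1
  have hA : OrdV (α.res l1) := by
    have h2 : OrdV α := h1.1
    refine ⟨fun d2 l2 y z hz hy => ?_, fun d2 l2 y hy => ?_⟩
    · have := h2.1 d2 (l2 ≫ l1) y z hz (by simpa using hy)
      simpa using this
    · exact h2.2 d2 (l2 ≫ l1) y (by simpa using hy)
  have hB : ∀ (d2 : C) (l2 : d2 ⟶ d1) (x : Val C d2), Mem' x ((α.res l1).res l2) →
      Dn (d := d2) fun {d3} k => ∃ y : Val C d3, Mem' (op (x.res k) y) ((f.res l1).res (k ≫ l2)) := by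
    intro d2 l2 x hx
    have h2 := h1.2 d2 (l2 ≫ l1) x
    rw [fc_vmem, fc_ex'] at h2
    have hx' : Mem' x (α.res (l2 ≫ l1)) := by simpa using hx
    refine (h2 hx').imp ?_
    rintro d3 k ⟨y, hy⟩
    rw [fc_pairMem] at hy
    refine ⟨y, ?_⟩
    have h4 : Mem' (op (x.res k) y) ((f.res (l2 ≫ l1)).res k) := hy
    simpa using h4
  obtain ⟨d', h, g, hg⟩ := H d1 (α.res l1) (f.res l1) hA hB
  refine ⟨d', h, g, ?_⟩
  rw [fc_all_imp]
  intro d2 l2 x hx
  rw [fc_ex']
  have hx' : Mem' x ((α.res l1).res (l2 ≫ h)) := by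
    have h3 : Mem' x ((α.res (h ≫ l1)).res l2) := hx
    simpa using h3
  refine (hg d2 l2 x hx').imp ?_
  rintro d3 k ⟨y, hy1, hy2, hy3⟩
  refine ⟨y, ?_⟩
  rw [fc_and, fc_and, fc_pairMem, fc_pairMem, fc_all_imp]
  refine ⟨⟨?_, ?_⟩, ?_⟩
  · show Mem' (op (x.res k) y) ((g.res l2).res k)
    simpa using hy1
  · show Mem' (op (x.res k) y) ((((f.res (h ≫ l1))).res l2).res k)
    simpa using hy2
  · intro d4 m y' hy'
    rw [fc_pairMem] at hy'
    rw [fc_veq]
    have h4 : Mem' (op ((x.res k).res m) y') (((g.res l2).res k).res m) := hy'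
    show Eq' y' (y.res m)
    exact hy3 d4 m y' (by simpa using h4)

/-- **failure of choice** -/
theorem not_acAx_of {c : C} (X : Val C c)
    (h1 : ∀ (d : C) (l : d ⟶ c) (x : Val C d), Mem' x (X.res l) → Dn (d := d) fun {d2} k =>
      ∃ y : Val C d2, Mem' y (x.res k))
    (h2 : ∀ (d : C) (l : d ⟶ c) (x y z : Val C d), Mem' x (X.res l) → Mem' y (X.res l) →
      Mem' z x → Mem' z y → Eq' x y)
    (h3 : ∀ (d : C) (l : d ⟶ c) (s : Val C d), ¬ ∀ (d1 : C) (m : d1 ⟶ d) (x : Val C d1),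
      Mem' x (X.res (m ≫ l)) → Dn (d := d1) fun {d2} k => ∃ y : Val C d2,
        Mem' y (x.res k) ∧ Mem' y (s.res (k ≫ m)) ∧ ∀ (d3 : C) (r : d3 ⟶ d2) (z : Val C d3),
          Mem' z (x.res (r ≫ k)) → Mem' z (s.res (r ≫ k ≫ m)) → Eq' z (y.res r)) :
    Fs c (∼acAx) := by
  unfold Fs acAx
  rw [fc_not]
  intro c' l0 H
  rw [fc_all_imp] at H
  have H' := H c' (𝟙 c') (X.res l0) ?_
  · rw [fc_ex'] at H'
    obtain ⟨d, l, s, hs⟩ := H' c' (𝟙 c')
    refine h3 d ((l ≫ 𝟙 c') ≫ l0) s fun d1 m x hx => ?_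
    rw [fc_all_imp] at hs
    have h4 := hs d1 m x
    rw [fc_vmem, fc_ex'] at h4
    have h5 : Mem' x (((X.res l0).res (l ≫ 𝟙 c')).res m) := by simpa using hx
    refine (h4 h5).imp ?_
    rintro d2 k ⟨y, hy⟩
    rw [fc_and, fc_and, fc_vmem, fc_vmem, fc_all_imp] at hy
    refine ⟨y, ?_, ?_, ?_⟩
    · exact hy.1.1
    · have h6 : Mem' y ((s.res m).res k) := hy.1.2
      simpa using h6
    · intro d3 r z hz hz'
      have h7 := hy.2 d3 r z
      rw [fc_and, fc_vmem, fc_vmem, fc_veq] at h7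
      refine h7 ⟨?_, ?_⟩
      · show Mem' z ((x.res k).res r)
        simpa using hz
      · show Mem' z (((s.res m).res k).res r)
        simpa using hz'
  · rw [fc_and, fc_all_imp, fc_all2_imp]
    refine ⟨?_, ?_⟩
    · intro d l x hx
      rw [fc_ex']
      have h4 : Mem' x ((X.res l0).res l) := hx
      refine (h1 d (l ≫ l0) x (by simpa using h4)).imp ?_
      rintro d2 k ⟨y, hy⟩
      exact ⟨y, hy⟩
    · intro d l x y h
      rw [fc_and, fc_and, fc_vmem, fc_vmem, fc_ex'] at h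
      obtain ⟨⟨hx, hy⟩, hz⟩ := h
      rw [fc_veq]
      show Eq' x y
      refine eq_of_dn (hz.imp ?_)
      rintro d2 k ⟨z, hz⟩
      rw [fc_and, fc_vmem, fc_vmem] at hz
      have hx' : Mem' x ((X.res l0).res l) := hx
      have hy' : Mem' y ((X.res l0).res l) := hy
      refine h2 d2 (k ≫ l ≫ l0) (x.res k) (y.res k) z ?_ ?_ hz.1 hz.2
      · simpa using hx'.res k
      · simpa using hy'.res k

end Crest.Agent.R296.CatDicx566
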