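import Crest.Agent.R296.CatOrd_622
import Crest.Agent.R296.CatDic_566

/-!
Row 296 (S0448), helper622.  **Block C.1 in abstract form: `acwoAx` is forced over every small category
with the projection property `Proj`.**

`Proj C` : every `c₀` has an arrow `F : d₀ ⟶ c₀` such that for every dense sieve `D` on `c₀`, every arrow
`h : m ⟶ d₀` has an extension `k : m' ⟶ m` for which `k ≫ h` factors through a monomorphism `i : e ⟶ d₀`
with `i ≫ F ∈ D`.
-/

set_option autoImplicit false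
set_option linter.unusedSimpArgs false

namespace Crest.Agent.R296.CatAcwox622

open CategoryTheory FirstOrder FirstOrder.Language Crest.LogicCS.SetTheory
open Crest.Agent.R296.CatFx365 Crest.Agent.R296.CatFrcx365
open Crest.Agent.R296.CatOrdx622 Crest.Agent.R296.CatDicx566

universe u

/-- the projection property -/
def Proj (C : Type u) [Category.{u} C] : Prop :=
  ∀ c0 : C, ∃ (d0 : C) (F : d0 ⟶ c0), ∀ D : ∀ n : C, (n ⟶ c0) → Prop,
    (∀ (n n' : C) (g : n' ⟶ n) (a : n ⟶ c0), D n a → D n' (g ≫ a)) →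
    (∀ (n : C) (a : n ⟶ c0), ∃ (n' : C) (g : n' ⟶ n), D n' (g ≫ a)) →
    ∀ (m : C) (h : m ⟶ d0), ∃ (m' : C) (k : m' ⟶ m) (e : C) (i : e ⟶ d0) (j : m' ⟶ e),
      Mono i ∧ D e (i ≫ F) ∧ k ≫ h = j ≫ i

variable {C : Type u} [Category.{u} C]

section choice

variable {c0 d0 : C} (F : d0 ⟶ c0) (f : Val C c0)

/-- the sieve of stages where the fibre over `β` has an element -/
def DS (β : Ordinal.{u}) (n : C) (a : n ⟶ c0) : Prop :=
  ∃ y : Val C n, Mem' (op (ov β n) y) (f.res a)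

lemma DS.comp {β : Ordinal.{u}} {n n' : C} (g : n' ⟶ n) {a : n ⟶ c0} (H : DS f β n a) :
    DS f β n' (g ≫ a) := by
  obtain ⟨y, hy⟩ := H
  refine ⟨y.res g, ?_⟩
  have h1 := hy.res g
  rw [Val.res_res] at h1
  exact Mem'.congr_left ((op_res _ _ _).trans (op_congr (ov_res _ _) (Eq'.refl _))) h1

/-- arrows into `d0` -/
abbrev TT (d0 : C) : Type u := Σ e : C, (e ⟶ d0)

/-- good keys for `β` -/
def Good (β : Ordinal.{u}) (t : TT d0) : Prop := Mono t.2 ∧ DS f β t.1 (t.2 ≫ F)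

/-- `h` factors through the key -/
def Fac {m : C} (t : TT d0) (h : m ⟶ d0) : Prop := ∃ j : m ⟶ t.1, j ≫ t.2 = h

lemma Fac.comp {m m' : C} {t : TT d0} {h : m ⟶ d0} (w : m' ⟶ m) (H : Fac t h) : Fac t (w ≫ h) := by
  obtain ⟨j, rfl⟩ := H
  exact ⟨w ≫ j, by simp⟩

/-- `t` is decided to be the least good key through which `h` factors -/
def Dec (β : Ordinal.{u}) (t : TT d0) {m : C} (h : m ⟶ d0) : Prop :=
  Good F f β t ∧ Fac t h ∧
    ∀ t' : TT d0, WellOrderingRel t' t → Good F f β t' → ∀ (m' : C) (w : m' ⟶ m), ¬ Fac t' (w ≫ h)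

variable {F f}

lemma Dec.comp {β : Ordinal.{u}} {t : TT d0} {m m' : C} {h : m ⟶ d0} (w : m' ⟶ m)
    (H : Dec F f β t h) : Dec F f β t (w ≫ h) := by
  refine ⟨H.1, H.2.1.comp w, fun t' ht' hg m'' w' hf => H.2.2 t' ht' hg m'' (w' ≫ w) ?_⟩
  simpa using hf

lemma Dec.uniq {β : Ordinal.{u}} {t t' : TT d0} {m : C} {h : m ⟶ d0}
    (H : Dec F f β t h) (H' : Dec F f β t' h) : t = t' := by
  rcases trichotomous_of (WellOrderingRel (α := TT d0)) t t' with h1 | h1 | h1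
  · exact absurd (by simpa using H.2.1) (H'.2.2 t h1 H.1 m (𝟙 m))
  · exact h1
  · exact absurd (by simpa using H'.2.1) (H.2.2 t' h1 H'.1 m (𝟙 m))

/-- keys are decided densely -/
lemma Dec.dense {β : Ordinal.{u}}
    (hP : ∀ (m : C) (h : m ⟶ d0), ∃ (m' : C) (k : m' ⟶ m) (e : C) (i : e ⟶ d0) (j : m' ⟶ e),
      Mono i ∧ DS f β e (i ≫ F) ∧ k ≫ h = j ≫ i) {m : C} (h : m ⟶ d0) :
    ∃ (m' : C) (w : m' ⟶ m) (t : TT d0), Dec F f β t (w ≫ h) := by
  obtain ⟨m1, k, e, i, j, hi, hD, hk⟩ := hP m h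
  have hne : {t : TT d0 | Good F f β t ∧ ∃ (m' : C) (w : m' ⟶ m), Fac t (w ≫ h)}.Nonempty :=
    ⟨⟨e, i⟩, ⟨hi, hD⟩, m1, k, j, hk.symm⟩
  have hwf : WellFounded (WellOrderingRel (α := TT d0)) := WellOrderingRel.isWellOrder.wf
  obtain ⟨hg, m2, w, hf⟩ := hwf.min_mem _ hne
  refine ⟨m2, w, _, hg, hf, fun t' ht' hg' m3 w' hf' => ?_⟩
  exact hwf.not_lt_min {t : TT d0 | Good F f β t ∧ ∃ (m' : C) (w : m' ⟶ m), Fac t (w ≫ h)}
    (x := t') ⟨hg', m3, w' ≫ w, by simpa using hf'⟩ ht'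

/-- the chosen element -/
noncomputable def Yv {β : Ordinal.{u}} {t : TT d0} (H : Good F f β t) : Val C t.1 :=
  Classical.choose H.2

lemma Yv_spec {β : Ordinal.{u}} {t : TT d0} (H : Good F f β t) :
    Mem' (op (ov β t.1) (Yv H)) (f.res (t.2 ≫ F)) := Classical.choose_spec H.2

/-- index type of the graph of the choice function -/
def IX (F : d0 ⟶ c0) (f : Val C c0) (α : Ordinal.{u}) : Type u :=
  {s : α.ToType × TT d0 × TT d0 //
    Dec F f ((Ordinal.ToType.mk.symm s.1 : Set.Iio α) : Ordinal.{u}) s.2.2 s.2.1.2}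

/-- ordinal of an index -/
noncomputable def IX.o {α : Ordinal.{u}} (s : IX F f α) : Ordinal.{u} :=
  ((Ordinal.ToType.mk.symm s.1.1 : Set.Iio α) : Ordinal.{u})

/-- lift through the key -/
noncomputable def IX.lift {α : Ordinal.{u}} (s : IX F f α) : s.1.2.1.1 ⟶ s.1.2.2.1 :=
  Classical.choose s.2.2.1

lemma IX.lift_spec {α : Ordinal.{u}} (s : IX F f α) : s.lift ≫ s.1.2.2.2 = s.1.2.1.2 :=
  Classical.choose_spec s.2.2.1

/-- value of an index -/
noncomputable def IX.val {α : Ordinal.{u}} (s : IX F f α) : Val C s.1.2.1.1 :=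
  (Yv s.2.1).res s.lift

variable (F f)

/-- the graph of the choice function -/
noncomputable def gv (α : Ordinal.{u}) : Val C d0 :=
  mkv (IX F f α) (fun s => s.1.2.1.1) (fun s => s.1.2.1.2) (fun s => op (ov s.o _) s.val)

variable {F f}

/-- pairs of the graph at a decided stage -/
lemma mem_gv_of {α β : Ordinal.{u}} (hβ : β < α) {t : TT d0} {m : C} {h : m ⟶ d0}
    (H : Dec F f β t h) (j : m ⟶ t.1) (hj : j ≫ t.2 = h) :
    Mem' (op (ov β m) ((Yv H.1).res j)) ((gv F f α).res h) := by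
  have hs : Dec F f ((Ordinal.ToType.mk.symm (Ordinal.ToType.mk ⟨β, hβ⟩) : Set.Iio α) : Ordinal.{u})
      t h := by simpa using H
  let s : IX F f α := ⟨(Ordinal.ToType.mk ⟨β, hβ⟩, ⟨m, h⟩, t), hs⟩
  have hso : s.o = β := by simp [s, IX.o]
  rw [gv, mem_mkv]
  intro d1 l
  refine ⟨d1, 𝟙 d1, s, l, by simp [s], ?_⟩
  have hmono : Mono t.2 := H.1.1
  have hlift : s.lift = j := by
    have h1 : s.lift ≫ t.2 = j ≫ t.2 := by
      rw [hj]; exact s.lift_spec
    exact (cancel_mono t.2).1 h1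
  have hval : s.val = (Yv H.1).res j := by
    have h2 : s.val = (Yv s.2.1).res s.lift := rfl
    rw [h2, hlift]
    congr 1
    simp only [Yv]
    congr 1
    ext y
    have h3 : ((Ordinal.ToType.mk.symm s.1.1 : Set.Iio α) : Ordinal.{u}) = β := hso
    rw [h3]
  have e1 : Eq' (op (ov β m) ((Yv H.1).res j)) (op (ov s.o m) s.val) := by
    rw [hso, hval]
    exact Eq'.refl _
  simpa using e1.res l

/-- elimination of pairs of the graph -/
lemma mem_gv_elim {α β : Ordinal.{u}} {m : C} {h : m ⟶ d0} {y : Val C m}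
    (H : Mem' (op (ov β m) y) ((gv F f α).res h)) (d1 : C) (l : d1 ⟶ m) :
    ∃ (d2 : C) (k : d2 ⟶ d1) (t : TT d0) (hd : Dec F f β t ((k ≫ l) ≫ h)) (j : d2 ⟶ t.1),
      j ≫ t.2 = (k ≫ l) ≫ h ∧ Eq' (y.res (k ≫ l)) ((Yv hd.1).res j) := by
  rw [gv, mem_mkv] at H
  obtain ⟨d2, k, s, k', h1, h2⟩ := H d1 l
  have h3 : Eq' (op (ov β d2) (y.res (k ≫ l))) (op (ov s.o d2) (s.val.res k')) :=
    ((op_congr (ov_res β _).symm (Eq'.refl _)).trans (op_res _ _ _).symm).trans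
      ((h2.trans (op_res _ _ _)).trans (op_congr (ov_res _ _) (Eq'.refl _)))
  have h4 : β = s.o := ov_eq_iff.1 ((op_inj.1 h3).1)
  have h5 := (op_inj.1 h3).2
  have h6 : Dec F f β s.1.2.2 s.1.2.1.2 := by
    rw [h4]; exact s.2
  have h7 : Dec F f β s.1.2.2 ((k ≫ l) ≫ h) := by
    rw [h1]; exact h6.comp k'
  refine ⟨d2, k, s.1.2.2, h7, k' ≫ s.lift, ?_, ?_⟩
  · rw [Category.assoc, s.lift_spec, h1]
  · refine h5.trans ?_
    have h8 : s.val = (Yv s.2.1).res s.lift := rfl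
    rw [h8, Val.res_res]
    have h9 : Yv s.2.1 = Yv h7.1 := by
      simp only [Yv]
      congr 1
      ext y
      change Mem' (op (ov s.o s.1.2.2.1) y) _ ↔ _
      rw [h4]
    rw [h9]
    exact Eq'.refl _

/-- the graph is single valued -/
lemma gv_unique {α β : Ordinal.{u}} {m : C} {h : m ⟶ d0} {y y' : Val C m}
    (H : Mem' (op (ov β m) y) ((gv F f α).res h))
    (H' : Mem' (op (ov β m) y') ((gv F f α).res h)) : Eq' y y' := by
  refine Eq'.of_dense fun d1 l => ?_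
  obtain ⟨d2, k, t, hd, j, hj, hy⟩ := mem_gv_elim H d1 l
  obtain ⟨d3, k', t', hd', j', hj', hy'⟩ := mem_gv_elim H' d2 (k ≫ l)
  refine ⟨d3, k' ≫ k, ?_⟩
  have e1 : (k' ≫ k ≫ l) ≫ h = k' ≫ (k ≫ l) ≫ h := by simp
  have hd2 : Dec F f β t ((k' ≫ k ≫ l) ≫ h) := by
    rw [e1]; exact hd.comp k'
  obtain rfl : t = t' := hd2.uniq hd'
  have hmono : Mono t.2 := hd.1.1
  have hjj : k' ≫ j = j' := by
    rw [← cancel_mono t.2, hj', Category.assoc, hj, e1]
  have h1 := hy.res k'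
  rw [Val.res_res, Val.res_res, hjj] at h1
  have h2 := h1.trans hy'.symm
  simpa using h2

/-- the graph is total and contained in `f` -/
lemma gv_total
    (hP : ∀ D : ∀ n : C, (n ⟶ c0) → Prop,
      (∀ (n n' : C) (g : n' ⟶ n) (a : n ⟶ c0), D n a → D n' (g ≫ a)) →
      (∀ (n : C) (a : n ⟶ c0), ∃ (n' : C) (g : n' ⟶ n), D n' (g ≫ a)) →
      ∀ (m : C) (h : m ⟶ d0), ∃ (m' : C) (k : m' ⟶ m) (e : C) (i : e ⟶ d0) (j : m' ⟶ e),
        Mono i ∧ D e (i ≫ F) ∧ k ≫ h = j ≫ i) {α β : Ordinal.{u}} (hβ : β < α)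
    (hf : ∀ (d1 : C) (l : d1 ⟶ c0), ∃ (d2 : C) (m : d2 ⟶ d1) (y : Val C d2),
      Mem' (op (ov β d2) y) (f.res (m ≫ l))) {m : C} (h : m ⟶ d0) :
    ∃ (m' : C) (k : m' ⟶ m) (y : Val C m'), Mem' (op (ov β m') y) ((gv F f α).res (k ≫ h)) ∧
      Mem' (op (ov β m') y) (f.res ((k ≫ h) ≫ F)) := by
  have h1 := hP (DS f β) (fun n n' g a H => H.comp f g) (fun n a => by
    obtain ⟨d2, m, y, hy⟩ := hf n a
    exact ⟨d2, m, y, hy⟩)
  obtain ⟨m', w, t, hd⟩ := Dec.dense h1 h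
  obtain ⟨j, hj⟩ := hd.2.1
  refine ⟨m', w, (Yv hd.1).res j, mem_gv_of hβ hd j hj, ?_⟩
  have h2 := (Yv_spec hd.1).res j
  rw [Val.res_res] at h2
  have h3 : j ≫ t.2 ≫ F = (w ≫ h) ≫ F := by
    rw [← hj, Category.assoc]
  rw [h3] at h2
  exact Mem'.congr_left ((op_res _ _ _).trans (op_congr (ov_res _ _) (Eq'.refl _))) h2

end choice

/-- **the choice principle for ordinal-indexed families is forced** -/
theorem acwo_forced (hP : Proj C) (c : C) : Fs c acwoAx := by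
  refine acwoAx_of (fun d α f hα hf => ?_) c
  -- `α` is a canonical ordinal over some extension
  obtain ⟨c0, l0, κ, hκ⟩ := ord_dense (x := α) hα d (𝟙 d)
  rw [Category.comp_id] at hκ
  obtain ⟨d0, F, hF⟩ := hP c0
  have hfib : ∀ β < κ, ∀ (d1 : C) (l : d1 ⟶ c0), ∃ (d2 : C) (m : d2 ⟶ d1) (y : Val C d2),
      Mem' (op (ov β d2) y) ((f.res l0).res (m ≫ l)) := by
    intro β hβ d1 l
    have h1 : Mem' (ov β d1) (α.res (l ≫ l0)) := by
      have h2 : Mem' (ov β d1) ((ov κ c0).res l) := by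
        rw [mem_ov_res]; exact ov_mem_iff.2 hβ
      have h3 := Mem'.congr_right (hκ.res l).symm h2
      simpa using h3
    obtain ⟨d2, m, y, hy⟩ := hf d1 (l ≫ l0) (ov β d1) h1 d1 (𝟙 d1)
    rw [Category.comp_id] at hy
    refine ⟨d2, m, y, ?_⟩
    have h2 := Mem'.congr_left (op_congr (ov_res β m) (Eq'.refl y)) hy
    simpa using h2
  refine ⟨d0, F ≫ l0, gv F (f.res l0) κ, fun d1 l x hx => ?_⟩
  -- `x` is densely some `ov β`
  have hx' : Mem' x (ov κ d1) := by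
    have h1 := hκ.res (l ≫ F)
    rw [Val.res_res] at h1
    have h2 : Mem' x ((ov κ c0).res (l ≫ F)) := Mem'.congr_right h1 (by simpa using hx)
    rwa [mem_ov_res] at h2
  rw [mem_ov] at hx'
  intro d2 l2
  obtain ⟨d3, m3, β, hβ, h3⟩ := hx' d2 l2
  obtain ⟨d4, k, y, hy1, hy2⟩ := gv_total hF hβ (hfib β hβ) ((m3 ≫ l2) ≫ l)
  have h4 : Eq' (x.res ((k ≫ m3) ≫ l2)) (ov β d4) := by
    have h5 := (h3.res k).trans (ov_res β k)
    simpa using h5
  refine ⟨d4, k ≫ m3, y, ?_, ?_, fun d5 m5 y' hy' => ?_⟩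
  · have h5 := Mem'.congr_left (op_congr h4.symm (Eq'.refl y)) hy1
    simpa using h5
  · have h5 := Mem'.congr_left (op_congr h4.symm (Eq'.refl y)) hy2
    simpa using h5
  · -- uniqueness
    have h5 : Eq' (x.res (m5 ≫ (k ≫ m3) ≫ l2)) (ov β d5) := by
      have h6 := (h4.res m5).trans (ov_res β m5)
      simpa using h6
    have h6 : Mem' (op (ov β d5) y') ((gv F (f.res l0) κ).res (m5 ≫ (k ≫ m3) ≫ l2 ≫ l)) := by
      have h7 := Mem'.congr_left (op_congr h5 (Eq'.refl y')) hy'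
      simpa using h7
    have h7 : Mem' (op (ov β d5) (y.res m5)) ((gv F (f.res l0) κ).res (m5 ≫ (k ≫ m3) ≫ l2 ≫ l)) := by
      have h8 := Mem'.congr_left ((op_res _ _ _).trans (op_congr (ov_res β m5) (Eq'.refl _)))
        (hy1.res m5)
      simpa using h8
    exact gv_unique h6 h7

end Crest.Agent.R296.CatAcwox622
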