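import Crest.Agent.R296.CatDic_566

/-!
# Row 296, block B (helper566): relations and functions from small families

* `rel I D e x y` : the set of the pairs `(x i, y i)`, `mem_rel`
* `injV_rel` : when it is (the graph of) an injection of `Y` into `X`
* `El x` : the elements of a value as a small family; `mem_el_iff`
-/

set_option autoImplicit false

universe u

open CategoryTheory FirstOrder FirstOrder.Language Crest.LogicCS.SetTheory
open Crest.Agent.R296.CatFx365 Crest.Agent.R296.CatFrcx365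

namespace Crest.Agent.R296.CatDicx566

variable {C : Type u} [Category.{u} C]

/-- the relation given by a small family of pairs -/
def rel {d : C} (I : Type u) (D : I → C) (e : ∀ i, D i ⟶ d) (x y : ∀ i, Val C (D i)) : Val C d :=
  mkv I D e fun i => op (x i) (y i)

theorem mem_rel {d d' : C} (I : Type u) (D : I → C) (e : ∀ i, D i ⟶ d) (x y : ∀ i, Val C (D i))
    (h : d' ⟶ d) (a b : Val C d') : Mem' (op a b) ((rel I D e x y).res h) ↔
      Dn (d := d') fun {d2} k => ∃ (i : I) (r : d2 ⟶ D i), k ≫ h = r ≫ e i ∧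
        Eq' (a.res k) ((x i).res r) ∧ Eq' (b.res k) ((y i).res r) := by
  unfold rel
  rw [mem_mkv]
  refine forall_congr' fun d1 => forall_congr' fun l => exists_congr fun d2 => exists_congr fun m =>
    exists_congr fun i => exists_congr fun r => and_congr_right fun _ => ?_
  rw [← op_inj]
  exact ⟨fun H => (op_res _ _ _).symm.trans (H.trans (op_res _ _ _)),
    fun H => (op_res _ _ _).trans (H.trans (op_res _ _ _).symm)⟩

theorem mem_rel_of {d : C} (I : Type u) (D : I → C) (e : ∀ i, D i ⟶ d) (x y : ∀ i, Val C (D i))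
    {d' : C} (h : d' ⟶ d) (a b : Val C d') (i : I) (r : d' ⟶ D i) (hr : h = r ≫ e i)
    (ha : Eq' a ((x i).res r)) (hb : Eq' b ((y i).res r)) :
    Mem' (op a b) ((rel I D e x y).res h) := by
  rw [mem_rel]
  intro d1 l
  refine ⟨d1, 𝟙 d1, i, l ≫ r, by simp [hr], ?_, ?_⟩
  · simpa using ha.res l
  · simpa using hb.res l

/-- **a family of pairs which is the graph of an injection** -/
theorem injV_rel {d : C} {Y X : Val C d} (I : Type u) (D : I → C) (e : ∀ i, D i ⟶ d)
    (y x : ∀ i, Val C (D i))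
    (hY : ∀ (d1 : C) (l : d1 ⟶ d) (b : Val C d1), Mem' b (Y.res l) → Dn (d := d1) fun {d2} k =>
      ∃ (i : I) (r : d2 ⟶ D i), k ≫ l = r ≫ e i ∧ Eq' (b.res k) ((y i).res r))
    (hX : ∀ i, Mem' (x i) (X.res (e i)))
    (hf : ∀ (i j : I) (d' : C) (r : d' ⟶ D i) (r' : d' ⟶ D j), r ≫ e i = r' ≫ e j →
      Eq' ((y i).res r) ((y j).res r') → Eq' ((x i).res r) ((x j).res r'))
    (hi : ∀ (i j : I) (d' : C) (r : d' ⟶ D i) (r' : d' ⟶ D j), r ≫ e i = r' ≫ e j →
      Eq' ((x i).res r) ((x j).res r') → Eq' ((y i).res r) ((y j).res r')) :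
    InjV (rel I D e y x) Y X := by
  refine ⟨fun d1 l b hb => ?_, fun d1 l b a a' hb h1 h2 => ?_, fun d1 l b b' a hb hb' h1 h2 => ?_⟩
  · refine (hY d1 l b hb).imp ?_
    rintro d2 k ⟨i, r, h1, h2⟩
    refine ⟨(x i).res r, ?_, mem_rel_of _ _ _ _ _ _ _ _ i r h1 h2 (Eq'.refl _)⟩
    rw [h1]
    simpa using (hX i).res r
  · rw [mem_rel] at h1 h2
    refine eq_of_dn (h1.bind ?_)
    rintro d2 k ⟨i, r, h3, h4, h5⟩
    obtain ⟨d3, m, j, r', h6, h7, h8⟩ := h2 d2 k
    refine ⟨d3, m, ?_⟩
    have e1 : (m ≫ r) ≫ e i = r' ≫ e j := by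
      rw [Category.assoc, ← h3, ← h6, Category.assoc]
    have e2 : Eq' ((y i).res (m ≫ r)) ((y j).res r') := by
      have h4' := h4.res m
      simp only [Val.res_res] at h4'
      exact h4'.symm.trans h7
    have e3 := hf i j d3 (m ≫ r) r' e1 e2
    have h5' := h5.res m
    simp only [Val.res_res] at h5'
    exact h5'.trans (e3.trans h8.symm)
  · rw [mem_rel] at h1 h2
    refine eq_of_dn (h1.bind ?_)
    rintro d2 k ⟨i, r, h3, h4, h5⟩
    obtain ⟨d3, m, j, r', h6, h7, h8⟩ := h2 d2 k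
    refine ⟨d3, m, ?_⟩
    have e1 : (m ≫ r) ≫ e i = r' ≫ e j := by
      rw [Category.assoc, ← h3, ← h6, Category.assoc]
    have e2 : Eq' ((x i).res (m ≫ r)) ((x j).res r') := by
      have h5' := h5.res m
      simp only [Val.res_res] at h5'
      exact h5'.symm.trans h8
    have e3 := hi i j d3 (m ≫ r) r' e1 e2
    have h4' := h4.res m
    simp only [Val.res_res] at h4'
    exact h4'.trans (e3.trans h7.symm)

/-! ### the elements of a value -/

/-- all elements of a value over all extensions -/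
structure El {d : C} (x : Val C d) : Type u where
  /-- stage -/
  D : C
  /-- arrow -/
  e : D ⟶ d
  /-- index -/
  i : x.nm.I
  /-- arrow to the stage of the element -/
  k : D ⟶ x.nm.D i
  /-- compatibility -/
  eq : e ≫ x.ar = k ≫ x.nm.e i

/-- the value of an element -/
def El.v {d : C} {x : Val C d} (t : El x) : Val C t.D := x.el t.i t.k

theorem El.mem {d : C} {x : Val C d} (t : El x) : Mem' t.v (x.res t.e) := mem_el x t.e t.i t.k t.eq

/-- restriction of an element -/
def El.rs {d : C} {x : Val C d} (t : El x) {D' : C} (h : D' ⟶ t.D) : El x :=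
  ⟨D', h ≫ t.e, t.i, h ≫ t.k, by rw [Category.assoc, t.eq, Category.assoc]⟩

theorem El.rs_v {d : C} {x : Val C d} (t : El x) {D' : C} (h : D' ⟶ t.D) :
    (t.rs h).v = t.v.res h := by
  show x.el t.i (h ≫ t.k) = (x.el t.i t.k).res h
  rw [Val.res_el]

/-- members are densely elements -/
theorem mem_el_iff {d : C} (x : Val C d) {d1 : C} (l : d1 ⟶ d) (z : Val C d1) :
    Mem' z (x.res l) ↔ Dn (d := d1) fun {d2} k => ∃ (t : El x) (r : d2 ⟶ t.D), k ≫ l = r ≫ t.e ∧
      Eq' (z.res k) (t.v.res r) := by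
  constructor
  · intro H d2 m
    obtain ⟨d3, m', j, k, h1, h2⟩ := H d2 m
    have h1' : ((m' ≫ m) ≫ l) ≫ x.ar = k ≫ x.nm.e j := by simpa using h1
    refine ⟨d3, m', ⟨d3, (m' ≫ m) ≫ l, j, k, h1'⟩, 𝟙 d3, by simp, ?_⟩
    have h3 : Eq' (z.res (m' ≫ m)) (x.el j k) := h2
    simpa [El.v] using h3
  · intro H
    refine mem_of_dn (H.imp ?_)
    rintro d2 k ⟨t, r, h1, h2⟩
    refine Mem'.congr_left h2.symm ?_
    have := t.mem.res r
    rw [Val.res_res, ← h1] at this
    simpa using this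

/-- a monotone, dense, invariant property holds for the members if it holds for the elements -/
theorem forall_mem_of_el {d : C} (x : Val C d) (P : ∀ {d1 : C}, (d1 ⟶ d) → Val C d1 → Prop)
    (mono : ∀ {d1 d2 : C} (l : d1 ⟶ d) (z : Val C d1) (h : d2 ⟶ d1), P l z → P (h ≫ l) (z.res h))
    (dense : ∀ {d1 : C} (l : d1 ⟶ d) (z : Val C d1),
      (Dn (d := d1) fun k => P (k ≫ l) (z.res k)) → P l z)
    (congr : ∀ {d1 : C} (l : d1 ⟶ d) (z z' : Val C d1), Eq' z z' → P l z → P l z')
    (H : ∀ t : El x, P t.e t.v) : ∀ {d1 : C} (l : d1 ⟶ d) (z : Val C d1), Mem' z (x.res l) → P l z := by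
  intro d1 l z hz
  rw [mem_el_iff] at hz
  refine dense l z (hz.imp ?_)
  rintro d2 k ⟨t, r, h1, h2⟩
  refine congr _ _ _ h2.symm ?_
  rw [h1]
  exact mono _ _ r (H t)

end Crest.Agent.R296.CatDicx566
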