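import Crest.Agent.R296.SatF_566
import Crest.Agent.R296.CatFrc_365

/-!
# Row 296, block B (helper566): `V^(C)` as a forcing system

* `VS C : FSys C` : the values of 365 with `Eq'`, `Mem'`
* `frc_VS : (VS C).Frc φ c v ↔ Fc φ v`
* `sat_of_Fs` : a theory forced by one stage is satisfiable
-/

set_option autoImplicit false

universe u

open CategoryTheory FirstOrder FirstOrder.Language Crest.LogicCS.SetTheory
open Crest.Agent.R296.CatFx365 Crest.Agent.R296.CatFrcx365

namespace Crest.Agent.R296.CatInstx566

variable (C : Type u) [Category.{u} C]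

/-- the empty set -/
def emp (d : C) : Val C d := mkv (ULift Empty) (fun i => i.down.elim) (fun i => i.down.elim)
  (fun i => i.down.elim)

/-- `V^(C)` as a forcing system -/
def VS : FSys.{u, u, u + 1} C where
  Nm := Val C
  nm0 := emp C
  res h x := x.res h
  M _ x y := Mem' x y
  E _ x y := Eq' x y
  res_id a := by rw [Val.res_id]; exact Eq'.refl a
  res_comp k h a := by rw [Val.res_res]; exact Eq'.refl _
  E_refl := Eq'.refl
  E_symm h := h.symm
  E_trans h h' := h.trans h'
  E_mono h _ _ H := H.res h
  M_mono h _ _ H := H.res h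
  E_reg H := Eq'.of_dense H
  M_reg H := Mem'.of_dense H
  M_congr h h' H := Mem'.congr h h' H

variable {C}

theorem tv_eq {n : ℕ} {d : C} (v : Fin n → Val C d) (t : setL.Term (Empty ⊕ Fin n)) :
    tv v t = v (FSys.tix t) := by
  cases t with
  | var x =>
    rcases x with x | i
    · exact x.elim
    · rfl
  | func f _ => exact Empty.elim f

theorem frc_VS {n : ℕ} (φ : setL.BoundedFormula Empty n) : ∀ (d : C) (v : Fin n → Val C d),
    (VS C).Frc φ d v ↔ Fc φ v := by
  induction φ with
  | falsum => exact fun _ _ => Iff.rfl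
  | equal t₁ t₂ =>
    intro d v
    show Eq' (v (FSys.tix t₁)) (v (FSys.tix t₂)) ↔ Eq' (tv v t₁) (tv v t₂)
    rw [tv_eq, tv_eq]
  | rel R ts =>
    intro d v
    cases R with
    | mem =>
      show Mem' (v (FSys.tix (ts 0))) (v (FSys.tix (ts 1))) ↔ Mem' (tv v (ts 0)) (tv v (ts 1))
      rw [tv_eq, tv_eq]
  | imp φ ψ h1 h2 =>
    intro d v
    exact forall_congr' fun d' => forall_congr' fun h => imp_congr (h1 _ _) (h2 _ _)
  | all φ h1 =>
    intro d v
    exact forall_congr' fun d' => forall_congr' fun h => forall_congr' fun x => h1 _ _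

/-- **a theory forced by one stage is satisfiable** -/
theorem sat_of_Fs {T : setL.Theory} (c : C) (h : ∀ φ ∈ T, Fs c φ) : T.IsSatisfiable :=
  (VS C).sat_of_forces c fun φ hφ => (frc_VS φ c _).2 (h φ hφ)

end Crest.Agent.R296.CatInstx566
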