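import Crest.Agent.R296.CatFrc_365

/-!
Row 296 (S0448), helper365.  **Block B: forcing of lifted formulas and of universal closures.**
-/

set_option autoImplicit false

namespace Crest.Agent.R296.CatLiftx365

open CategoryTheory FirstOrder FirstOrder.Language Crest.LogicCS.SetTheory
open Crest.Agent.R296.CatFx365 Crest.Agent.R296.CatFrcx365
open BoundedFormula

universe u

variable {C : Type u} [Category.{u} C]

lemma fc_castLE_of_eq {m n : ℕ} (h : m = n) {h' : m ≤ n} {φ : setL.BoundedFormula Empty m} {d : C}
    {v : Fin n → Val C d} : Fc (φ.castLE h') v ↔ Fc φ (v ∘ Fin.cast h) := by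
  subst h
  simp only [castLE_rfl, Fin.cast_refl, Function.comp_id]

lemma tv_liftAt {n n' m : ℕ} (t : setL.Term (Empty ⊕ Fin n)) {d : C} (v : Fin (n + n') → Val C d) :
    tv v (t.liftAt n' m) =
      tv (v ∘ fun i : Fin n => if (i : ℕ) < m then Fin.castAdd n' i else Fin.addNat i n') t := by
  cases t with
  | var a =>
    cases a with
    | inl a => exact a.elim
    | inr i => rfl
  | func f ts => exact Empty.elim f

lemma vr_comp {n n' : ℕ} {d d' : C} (h : d' ⟶ d) (v : Fin n → Val C d) (s : Fin n' → Fin n) :
    vr h v ∘ s = vr h (v ∘ s) := rfl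

theorem fc_liftAt {n n' m : ℕ} (φ : setL.BoundedFormula Empty n) (hmn : m ≤ n) {d : C}
    (v : Fin (n + n') → Val C d) :
    Fc (φ.liftAt n' m) v ↔
      Fc φ (v ∘ fun i => if (i : ℕ) < m then Fin.castAdd n' i else Fin.addNat i n') := by
  rw [liftAt]
  induction φ generalizing d with
  | falsum => simp [mapTermRel, Fc]
  | equal => simp only [mapTermRel, Fc, tv_liftAt]
  | rel => simp only [mapTermRel, Fc, tv_liftAt]; rfl
  | imp _ _ ih1 ih2 =>
    simp only [mapTermRel, Fc, ih1 hmn, ih2 hmn]
    rfl
  | @all k _ ih3 =>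
    have h : k + 1 + n' = k + n' + 1 := by rw [add_assoc, add_comm 1 n', ← add_assoc]
    simp only [mapTermRel, Fc, fc_castLE_of_eq h, ih3 (hmn.trans k.le_succ)]
    refine forall_congr' fun d1 => forall_congr' fun g => forall_congr' fun x => ?_
    have e : ((sn (vr g v) x ∘ Fin.cast h) ∘ fun i : Fin (k + 1) =>
        if (i : ℕ) < m then Fin.castAdd n' i else Fin.addNat i n') =
        sn (vr g (v ∘ fun i : Fin k => if (i : ℕ) < m then Fin.castAdd n' i else Fin.addNat i n')) x := by
      funext i
      refine Fin.lastCases ?_ (fun i => ?_) i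
      · simp only [Function.comp_apply, Fin.val_last, sn_last]
        refine (congrArg _ (Fin.ext ?_)).trans (sn_last _ _)
        split_ifs <;> dsimp; omega
      · simp only [Function.comp_apply, sn_castSucc, vr_apply]
        refine (congrArg _ (Fin.ext ?_)).trans (sn_castSucc _ _ _)
        simp only [Fin.val_castSucc, Fin.val_cast]
        split_ifs <;> simp
    rw [e]

/-- universal closure -/
theorem fc_alls {k : ℕ} (φ : setL.BoundedFormula Empty k) {d : C}
    (H : ∀ (d' : C) (_ : d' ⟶ d) (w : Fin k → Val C d'), Fc φ w) : Fs d φ.alls := by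
  induction k generalizing d with
  | zero =>
    have h0 := H d (𝟙 d) (e0 d)
    exact h0
  | succ k ih =>
    refine ih φ.all fun d1 h1 w d2 h2 x => ?_
    exact H d2 (h2 ≫ h1) _

/-- lifting by two under the binders `a b x` -/
lemma lift2 {k : ℕ} {d : C} (w : Fin k → Val C d) (a b x : Val C d) :
    (sn (sn (sn w a) b) x ∘ fun i : Fin (k + 1) =>
      if (i : ℕ) < k then Fin.castAdd 2 i else Fin.addNat i 2) = sn w x := by
  funext i
  refine Fin.lastCases ?_ (fun i => ?_) i
  · simp only [Function.comp_apply, Fin.val_last, lt_self_iff_false, if_false, sn_last]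
    exact (congrArg (sn (sn (sn w a) b) x) (Fin.ext (by simp) : Fin.addNat (Fin.last k) 2 =
      Fin.last (k + 2))).trans (sn_last _ _)
  · simp only [Function.comp_apply, Fin.val_castSucc, i.is_lt, if_true, sn_castSucc]
    have : (Fin.castAdd 2 i.castSucc : Fin (k + 1 + 2)) = i.castSucc.castSucc.castSucc :=
      Fin.ext (by simp)
    rw [this]
    simp

end Crest.Agent.R296.CatLiftx365
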