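import Crest.Agent.R296.CatF_365

/-!
Row 296 (S0448), helper365.  **Block B: set operations on the values of `V^(C)`.**

`pv x y` (pair), `uv x` (union), `sepv x Φ` (separation for a regular predicate), `powv x` (power set),
`insv y x` (`x ∪ {y}`), `zv` (empty set), `nv n` (natural numbers), `ωv`, `collv` (collection), foundation.
-/

set_option autoImplicit false

namespace Crest.Agent.R296.CatOpsx365

open CategoryTheory
open Crest.Agent.R296.CatFx365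

universe u

variable {C : Type u} [Category.{u} C]

/-! ### predicates on values -/

/-- a predicate on the values over the stages above `d` which is monotone, regular and extensional -/
structure Reg {d : C} (Φ : ∀ (d' : C), (d' ⟶ d) → Val C d' → Prop) : Prop where
  mono : ∀ {d' d'' : C} (h : d' ⟶ d) (g : d'' ⟶ d') (x : Val C d'), Φ d' h x → Φ d'' (g ≫ h) (x.res g)
  dense : ∀ {d' : C} (h : d' ⟶ d) (x : Val C d'), (∀ (d1 : C) (g : d1 ⟶ d'),
    ∃ (d2 : C) (m : d2 ⟶ d1), Φ d2 ((m ≫ g) ≫ h) (x.res (m ≫ g))) → Φ d' h x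
  congr : ∀ {d' : C} (h : d' ⟶ d) (x y : Val C d'), Eq' x y → Φ d' h x → Φ d' h y

/-! ### pair -/

/-- unordered pair -/
def pv {d : C} (x y : Val C d) : Val C d :=
  mkv (ULift Bool) (fun _ => d) (fun _ => 𝟙 d) (fun i => bif i.down then x else y)

lemma mem_pv {d d' : C} (x y : Val C d) (h : d' ⟶ d) (z : Val C d') : Mem' z ((pv x y).res h) ↔
    ∀ (d1 : C) (l : d1 ⟶ d'), ∃ (d2 : C) (m : d2 ⟶ d1),
      Eq' (z.res (m ≫ l)) (x.res ((m ≫ l) ≫ h)) ∨ Eq' (z.res (m ≫ l)) (y.res ((m ≫ l) ≫ h)) := by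
  rw [pv, mem_mkv]
  refine forall_congr' fun d1 => forall_congr' fun l => exists_congr fun d2 => exists_congr fun m => ?_
  constructor
  · rintro ⟨⟨i⟩, k, h1, h2⟩
    rw [Category.comp_id] at h1
    subst h1
    cases i
    · exact Or.inr h2
    · exact Or.inl h2
  · rintro (h2 | h2)
    · exact ⟨⟨true⟩, (m ≫ l) ≫ h, by simp, h2⟩
    · exact ⟨⟨false⟩, (m ≫ l) ≫ h, by simp, h2⟩

/-! ### all the elements of a value over the stages above -/

/-- the elements of `x` over all the stages above `d` -/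
def Els {d : C} (x : Val C d) : Type u :=
  Σ (i : x.nm.I) (d' : C), {t : (d' ⟶ d) × (d' ⟶ x.nm.D i) // t.1 ≫ x.ar = t.2 ≫ x.nm.e i}

namespace Els
variable {d : C} {x : Val C d}
/-- stage of the element -/
def st (t : Els x) : C := t.2.1
/-- arrow of the stage -/
def ar (t : Els x) : t.st ⟶ d := t.2.2.1.1
/-- the element -/
def val (t : Els x) : Val C t.st := x.el t.1 t.2.2.1.2

/-- constructor -/
def of {d : C} (x : Val C d) {d2 : C} (g : d2 ⟶ d) (j : x.nm.I) (k : d2 ⟶ x.nm.D j)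
    (h : g ≫ x.ar = k ≫ x.nm.e j) : Els x := ⟨j, d2, ⟨(g, k), h⟩⟩

end Els

/-- unfolding of membership in a restricted value -/
lemma mem_elim {d d' : C} {x : Val C d} {h : d' ⟶ d} {z : Val C d'} (H : Mem' z (x.res h))
    (d1 : C) (l : d1 ⟶ d') : ∃ (d2 : C) (m : d2 ⟶ d1) (j : x.nm.I) (k : d2 ⟶ x.nm.D j),
      ((m ≫ l) ≫ h) ≫ x.ar = k ≫ x.nm.e j ∧ Eq' (z.res (m ≫ l)) (x.el j k) := by
  obtain ⟨d2, m, j, k, h1, h2⟩ := H d1 l
  refine ⟨d2, m, j, k, ?_, h2⟩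
  rw [Category.assoc]
  exact h1

lemma Els.mem {d : C} {x : Val C d} (t : Els x) : Mem' t.val (x.res t.ar) :=
  mem_el x t.ar t.1 t.2.2.1.2 t.2.2.2

/-- every member is densely one of the elements -/
lemma mem_iff_els {d d' : C} (x : Val C d) (h : d' ⟶ d) (z : Val C d') : Mem' z (x.res h) ↔
    ∀ (d1 : C) (l : d1 ⟶ d'), ∃ (d2 : C) (m : d2 ⟶ d1) (t : Els x) (k : d2 ⟶ t.st),
      (m ≫ l) ≫ h = k ≫ t.ar ∧ Eq' (z.res (m ≫ l)) (t.val.res k) := by
  constructor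
  · intro H d1 l
    obtain ⟨d2, m, j, k, h1, h2⟩ := mem_elim H d1 l
    refine ⟨d2, m, Els.of x ((m ≫ l) ≫ h) j k h1, 𝟙 d2, ?_, ?_⟩
    · exact (Category.id_comp _).symm
    · change Eq' (z.res (m ≫ l)) ((x.el j k).res (𝟙 d2))
      rw [Val.res_id]
      exact h2
  · intro H
    refine Mem'.of_dense fun d1 l => ?_
    obtain ⟨d2, m, t, k, h1, h2⟩ := H d1 l
    refine ⟨d2, m, Mem'.congr_left h2.symm ?_⟩
    have h3 := (Els.mem t).res k
    rw [Val.res_res, ← h1] at h3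
    simpa using h3

/-! ### separation -/

/-- separation -/
def sepv {d : C} (x : Val C d) (Φ : ∀ (d' : C), (d' ⟶ d) → Val C d' → Prop) : Val C d :=
  mkv {t : Els x // Φ t.st t.ar t.val} (fun t => t.1.st) (fun t => t.1.ar) (fun t => t.1.val)

lemma mem_sepv {d d' : C} (x : Val C d) {Φ : ∀ (d' : C), (d' ⟶ d) → Val C d' → Prop} (hΦ : Reg Φ)
    (h : d' ⟶ d) (z : Val C d') : Mem' z ((sepv x Φ).res h) ↔ Mem' z (x.res h) ∧ Φ d' h z := by
  rw [sepv, mem_mkv]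
  constructor
  · intro H
    constructor
    · rw [mem_iff_els]
      intro d1 l
      obtain ⟨d2, m, ⟨t, ht⟩, k, h1, h2⟩ := H d1 l
      exact ⟨d2, m, t, k, h1, h2⟩
    · refine hΦ.dense h z fun d1 l => ?_
      obtain ⟨d2, m, ⟨t, ht⟩, k, h1, h2⟩ := H d1 l
      refine ⟨d2, m, hΦ.congr _ _ _ h2.symm ?_⟩
      have h3 := hΦ.mono _ k _ ht
      change (m ≫ l) ≫ h = k ≫ t.ar at h1
      rwa [h1]
  · rintro ⟨H, hz⟩ d1 l
    obtain ⟨d2, m, j, k, h1, h2⟩ := mem_elim H d1 l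
    refine ⟨d2, m, ⟨Els.of x ((m ≫ l) ≫ h) j k h1, ?_⟩, 𝟙 d2, ?_, ?_⟩
    · exact hΦ.congr _ _ _ h2 (hΦ.mono h (m ≫ l) z hz)
    · exact (Category.id_comp _).symm
    · change Eq' (z.res (m ≫ l)) ((x.el j k).res (𝟙 d2))
      rw [Val.res_id]
      exact h2

/-! ### union -/

/-- union -/
def uv {d : C} (x : Val C d) : Val C d :=
  mkv (Σ t : Els x, Els t.val) (fun t => t.2.st) (fun t => t.2.ar ≫ t.1.ar) (fun t => t.2.val)

lemma mem_uv {d d' : C} (x : Val C d) (h : d' ⟶ d) (z : Val C d') : Mem' z ((uv x).res h) ↔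
    ∀ (d1 : C) (l : d1 ⟶ d'), ∃ (d2 : C) (m : d2 ⟶ d1) (y : Val C d2),
      Mem' (z.res (m ≫ l)) y ∧ Mem' y (x.res ((m ≫ l) ≫ h)) := by
  rw [uv, mem_mkv]
  constructor
  · intro H d1 l
    obtain ⟨d2, m, ⟨t, s⟩, k, h1, h2⟩ := H d1 l
    refine ⟨d2, m, t.val.res (k ≫ s.ar), Mem'.congr_left h2.symm ?_, ?_⟩
    · have := (Els.mem s).res k
      rwa [Val.res_res] at this
    · have := (Els.mem t).res (k ≫ s.ar)
      change (m ≫ l) ≫ h = k ≫ s.ar ≫ t.ar at h1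
      rw [h1]
      rw [Val.res_res, Category.assoc] at this
      exact this
  · intro H d1 l
    obtain ⟨d2, m, y, h1, h2⟩ := H d1 l
    obtain ⟨d3, m3, t, k3, h3, h4⟩ := (mem_iff_els x _ y).1 h2 d2 (𝟙 d2)
    rw [Category.comp_id] at h3 h4
    have h5 := Mem'.congr_right h4 (h1.res m3)
    obtain ⟨d4, m4, s, k4, h6, h7⟩ := (mem_iff_els t.val k3 _).1 h5 d3 (𝟙 d3)
    rw [Category.comp_id] at h6 h7
    refine ⟨d4, m4 ≫ m3 ≫ m, ⟨t, s⟩, k4, ?_, ?_⟩
    · change _ = k4 ≫ s.ar ≫ t.ar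
      have h8 : k4 ≫ s.ar ≫ t.ar = m4 ≫ k3 ≫ t.ar := by
        rw [← Category.assoc k4, ← h6, Category.assoc]
      rw [h8, ← h3]
      simp
    · simpa using h7

/-! ### power set -/

/-- the value given by a set of elements of `x` over the stage `d' ⟶ d` -/
def subv {d : C} (x : Val C d) {d' : C} (l : d' ⟶ d) (S : Set (Els (x.res l))) : Val C d' :=
  mkv S (fun t => t.1.st) (fun t => t.1.ar) (fun t => t.1.val)

/-- power set -/
def powv {d : C} (x : Val C d) : Val C d :=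
  mkv (Σ (d' : C) (l : d' ⟶ d), Set (Els (x.res l))) (fun t => t.1) (fun t => t.2.1)
    (fun t => subv x t.2.1 t.2.2)

lemma subv_sub {d : C} (x : Val C d) {d' : C} (l : d' ⟶ d) (S : Set (Els (x.res l))) {d1 : C}
    (h : d1 ⟶ d') (z : Val C d1) (hz : Mem' z ((subv x l S).res h)) : Mem' z (x.res (h ≫ l)) := by
  rw [← Val.res_res, mem_iff_els]
  rw [subv, mem_mkv] at hz
  intro d2 m
  obtain ⟨d3, m', ⟨t, ht⟩, k, h1, h2⟩ := hz d2 m
  exact ⟨d3, m', t, k, h1, h2⟩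

/-- every forced subset of `x` is one of the `subv` -/
lemma exists_subv {d : C} (x : Val C d) {d' : C} (l : d' ⟶ d) (y : Val C d')
    (H : ∀ (d1 : C) (h : d1 ⟶ d') (z : Val C d1), Mem' z (y.res h) → Mem' z (x.res (h ≫ l))) :
    ∃ S : Set (Els (x.res l)), Eq' y (subv x l S) := by
  refine ⟨{t | Mem' t.val (y.res t.ar)}, ext' fun d1 h z => ⟨fun hz => ?_, fun hz => ?_⟩⟩
  · rw [subv, mem_mkv]
    intro d2 m
    have h1 := H d1 h z hz
    rw [← Val.res_res] at h1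
    obtain ⟨d3, m3, j, k, h2, h3⟩ := mem_elim h1 d2 m
    refine ⟨d3, m3, ⟨Els.of (x.res l) ((m3 ≫ m) ≫ h) j k h2, ?_⟩, 𝟙 d3, ?_, ?_⟩
    · have h5 := hz.res (m3 ≫ m)
      rw [Val.res_res] at h5
      exact Mem'.congr_left h3 h5
    · exact (Category.id_comp _).symm
    · change Eq' (z.res (m3 ≫ m)) (((x.res l).el j k).res (𝟙 d3))
      rw [Val.res_id]
      exact h3
  · rw [subv, mem_mkv] at hz
    refine Mem'.of_dense fun d2 m => ?_
    obtain ⟨d3, m3, ⟨t, ht⟩, k, h1, h2⟩ := hz d2 m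
    refine ⟨d3, m3, Mem'.congr_left h2.symm ?_⟩
    have h3 := Mem'.res (show Mem' t.val (y.res t.ar) from ht) k
    rw [Val.res_res] at h3 ⊢
    change (m3 ≫ m) ≫ h = k ≫ t.ar at h1
    rw [h1]
    exact h3

lemma mem_powv {d d' : C} (x : Val C d) (h : d' ⟶ d) (y : Val C d') : Mem' y ((powv x).res h) ↔
    ∀ (d1 : C) (g : d1 ⟶ d') (z : Val C d1), Mem' z (y.res g) → Mem' z (x.res (g ≫ h)) := by
  rw [powv, mem_mkv]
  constructor
  · intro H d1 g z hz
    refine Mem'.of_dense fun d2 l => ?_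
    obtain ⟨d3, m, ⟨a, l', S⟩, k, h1, h2⟩ := H d2 (l ≫ g)
    refine ⟨d3, m, ?_⟩
    have h3 := hz.res (m ≫ l)
    rw [Val.res_res] at h3
    have h4 : Eq' (y.res ((m ≫ l) ≫ g)) ((subv x l' S).res k) := by simpa using h2
    have h5 := subv_sub x l' S k _ (Mem'.congr_right h4 h3)
    have h6 : (m ≫ l ≫ g) ≫ h = k ≫ l' := h1
    rw [← h6] at h5
    simpa using h5
  · intro H d1 l
    obtain ⟨S, hS⟩ := exists_subv x (l ≫ h) (y.res l) (fun d2 g z hz => by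
      rw [Val.res_res] at hz
      simpa using H d2 (g ≫ l) z hz)
    exact ⟨d1, 𝟙 d1, ⟨d1, l ≫ h, S⟩, 𝟙 d1, by simp, by simpa using hS⟩

/-! ### adding an element, natural numbers -/

/-- stages of the elements of `x ∪ {y}` -/
def insD {d : C} (x : Val C d) : Els x ⊕ PUnit.{u + 1} → C
  | .inl t => t.st
  | .inr _ => d

/-- arrows of the elements of `x ∪ {y}` -/
def insE {d : C} (x : Val C d) : ∀ t : Els x ⊕ PUnit.{u + 1}, insD x t ⟶ d
  | .inl t => t.ar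
  | .inr _ => 𝟙 d

/-- the elements of `x ∪ {y}` -/
def insV {d : C} (y x : Val C d) : ∀ t : Els x ⊕ PUnit.{u + 1}, Val C (insD x t)
  | .inl t => t.val
  | .inr _ => y

/-- `x ∪ {y}` -/
def insv {d : C} (y x : Val C d) : Val C d :=
  mkv (Els x ⊕ PUnit.{u + 1}) (insD x) (insE x) (insV y x)

lemma mem_insv {d d' : C} (y x : Val C d) (h : d' ⟶ d) (z : Val C d') :
    Mem' z ((insv y x).res h) ↔ ∀ (d1 : C) (l : d1 ⟶ d'), ∃ (d2 : C) (m : d2 ⟶ d1),
      Mem' (z.res (m ≫ l)) (x.res ((m ≫ l) ≫ h)) ∨ Eq' (z.res (m ≫ l)) (y.res ((m ≫ l) ≫ h)) := by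
  rw [insv, mem_mkv]
  constructor
  · intro H d1 l
    obtain ⟨d2, m, t, k, h1, h2⟩ := H d1 l
    refine ⟨d2, m, ?_⟩
    rcases t with t | t
    · refine Or.inl (Mem'.congr_left h2.symm ?_)
      have h3 := (Els.mem t).res (show d2 ⟶ t.st from k)
      change (m ≫ l) ≫ h = (show d2 ⟶ t.st from k) ≫ t.ar at h1
      rw [Val.res_res] at h3
      rw [h1]
      exact h3
    · right
      have h3 : (m ≫ l) ≫ h = k := h1.trans (Category.comp_id (X := d2) (Y := d) k)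
      rw [h3]
      exact h2
  · intro H d1 l
    obtain ⟨d2, m, h1 | h1⟩ := H d1 l
    · obtain ⟨d3, m3, t, k, h2, h3⟩ := (mem_iff_els x _ _).1 h1 d2 (𝟙 d2)
      refine ⟨d3, m3 ≫ m, .inl t, k, ?_, ?_⟩
      · change _ = k ≫ t.ar
        rw [← h2]; simp
      · change Eq' (z.res ((m3 ≫ m) ≫ l)) (t.val.res k)
        simpa using h3
    · exact ⟨d2, m, .inr PUnit.unit, (m ≫ l) ≫ h, (Category.comp_id (Y := d) _).symm, h1⟩

/-- the empty set -/
def zv (d : C) : Val C d := mkv PEmpty (fun i => i.elim) (fun i => i.elim) (fun i => i.elim)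

lemma not_mem_zv {d d' : C} (h : d' ⟶ d) (z : Val C d') : ¬ Mem' z ((zv d).res h) := by
  rw [zv, mem_mkv]
  intro H
  obtain ⟨_, _, i, _⟩ := H d' (𝟙 d')
  exact i.elim

/-- the natural numbers -/
def nv (d : C) : ℕ → Val C d
  | 0 => zv d
  | n + 1 => insv (nv d n) (nv d n)

/-- the set of natural numbers -/
def omv (d : C) : Val C d := mkv (ULift ℕ) (fun _ => d) (fun _ => 𝟙 d) (fun n => nv d n.down)

lemma mem_omv {d d' : C} (h : d' ⟶ d) (z : Val C d') : Mem' z ((omv d).res h) ↔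
    ∀ (d1 : C) (l : d1 ⟶ d'), ∃ (d2 : C) (m : d2 ⟶ d1) (n : ℕ),
      Eq' (z.res (m ≫ l)) ((nv d n).res ((m ≫ l) ≫ h)) := by
  rw [omv, mem_mkv]
  refine forall_congr' fun d1 => forall_congr' fun l => exists_congr fun d2 => exists_congr fun m => ?_
  constructor
  · rintro ⟨⟨n⟩, k, h1, h2⟩
    rw [Category.comp_id] at h1
    subst h1
    exact ⟨n, h2⟩
  · rintro ⟨n, h2⟩
    exact ⟨⟨n⟩, (m ≫ l) ≫ h, by simp, h2⟩

/-! ### foundation -/

lemma found_aux {c : C} (a : Nm C c) : ∀ {d : C} (p : d ⟶ c) (x : Val C d),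
    Mem' (⟨c, a, p⟩ : Val C d) x → ∃ (d' : C) (h : d' ⟶ d) (y : Val C d'), Mem' y (x.res h) ∧
      ∀ (d'' : C) (g : d'' ⟶ d') (z : Val C d''), Mem' z (y.res g) → ¬ Mem' z (x.res (g ≫ h)) := by
  induction a with
  | mk I D e T f b ih =>
    intro d p x H
    by_cases h0 : ∀ (d'' : C) (g : d'' ⟶ d) (z : Val C d''),
        Mem' z ((⟨_, Nm.mk I D e T f b, p⟩ : Val C d).res g) → ¬ Mem' z (x.res g)
    · exact ⟨d, 𝟙 d, _, by simpa using H, fun d'' g z hz => by simpa using h0 d'' g z hz⟩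
    · push Not at h0
      obtain ⟨d1, g, z, hz, hzx⟩ := h0
      obtain ⟨d2, m, i, k, h1, h2⟩ := hz d1 (𝟙 d1)
      rw [Category.comp_id] at h1 h2
      have h3 := Mem'.congr_left h2 (hzx.res m)
      obtain ⟨d3, h4, y, h5, h6⟩ := ih i _ _ h3
      refine ⟨d3, h4 ≫ m ≫ g, y, by simpa using h5, fun d4 g4 w hw => ?_⟩
      have := h6 d4 g4 w hw
      simpa using this

/-- **foundation**: a value with a member has, over some extension, a member disjoint from it -/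
lemma found {d : C} (x a : Val C d) (H : Mem' a x) :
    ∃ (d' : C) (h : d' ⟶ d) (y : Val C d'), Mem' y (x.res h) ∧
      ∀ (d'' : C) (g : d'' ⟶ d') (z : Val C d''), Mem' z (y.res g) → ¬ Mem' z (x.res (g ≫ h)) :=
  found_aux a.nm a.ar x H

/-! ### collection -/

open Classical in
/-- collection: for every element `x` of `a` (over any stage) a chosen value with `Ψ x y`, if any -/
noncomputable def collv {d : C} (a : Val C d) (Ψ : ∀ (d' : C), (d' ⟶ d) → Val C d' → Val C d' → Prop) :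
    Val C d :=
  mkv {t : Els a // ∃ y, Ψ t.st t.ar t.val y} (fun t => t.1.st) (fun t => t.1.ar)
    (fun t => Classical.choose t.2)

/-- every member of `a` which densely has a partner has densely a partner in `collv` -/
lemma collv_spec {d : C} (a : Val C d) {Ψ : ∀ (d' : C), (d' ⟶ d) → Val C d' → Val C d' → Prop}
    (mono : ∀ {d' d'' : C} (h : d' ⟶ d) (g : d'' ⟶ d') (x y : Val C d'), Ψ d' h x y →
      Ψ d'' (g ≫ h) (x.res g) (y.res g))
    (congr : ∀ {d' : C} (h : d' ⟶ d) (x x' y : Val C d'), Eq' x x' → Ψ d' h x y → Ψ d' h x' y)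
    {d' : C} (h : d' ⟶ d) (x : Val C d') (hx : Mem' x (a.res h))
    (H : ∀ (d1 : C) (l : d1 ⟶ d'), ∃ (d2 : C) (m : d2 ⟶ d1) (y : Val C d2),
      Ψ d2 ((m ≫ l) ≫ h) (x.res (m ≫ l)) y) (d1 : C) (l : d1 ⟶ d') :
    ∃ (d2 : C) (m : d2 ⟶ d1) (y : Val C d2), Mem' y ((collv a Ψ).res ((m ≫ l) ≫ h)) ∧
      Ψ d2 ((m ≫ l) ≫ h) (x.res (m ≫ l)) y := by
  obtain ⟨d2, m, y, hy⟩ := H d1 l
  obtain ⟨d3, m3, j, k, h1, h2⟩ := mem_elim hx d2 (m ≫ l)
  let t : Els a := Els.of a ((m3 ≫ m ≫ l) ≫ h) j k h1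
  have h4 : ∃ y, Ψ t.st t.ar t.val y := by
    refine ⟨y.res m3, ?_⟩
    have h5 := mono _ m3 _ _ hy
    have h6 : Ψ d3 (m3 ≫ (m ≫ l) ≫ h) (a.el j k) (y.res m3) :=
      congr _ _ _ _ (by simpa using h2) (by simpa using h5)
    have h7 : m3 ≫ (m ≫ l) ≫ h = (m3 ≫ m ≫ l) ≫ h := by simp
    rw [h7] at h6
    exact h6
  refine ⟨d3, m3 ≫ m, Classical.choose h4, ?_, ?_⟩
  · rw [collv, mem_mkv]
    intro d4 l4
    refine ⟨d4, 𝟙 d4, ⟨t, h4⟩, l4, ?_, ?_⟩
    · change _ = l4 ≫ (m3 ≫ m ≫ l) ≫ h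
      simp
    · rw [Category.id_comp]
      exact Eq'.refl _
  · have h5 := Classical.choose_spec h4
    have h6 := congr _ _ (x.res (m3 ≫ m ≫ l)) _ h2.symm h5
    change Ψ d3 ((m3 ≫ m ≫ l) ≫ h) (x.res (m3 ≫ m ≫ l)) (Classical.choose h4) at h6
    simpa using h6

end Crest.Agent.R296.CatOpsx365
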