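import Crest.Agent.R296.CatFrc_365

/-!
Row 296 (S0448), helper622.  **Block B4: check names and ordinals of `V^(C)`.**

* `chk x d` : the check value of the pure set `x : PSet.{u}` at the stage `d`;
  `chk_res`, `mem_chk`, `eq_chk_iff`, `chk_mem_chk_iff`;
* `ov α d = chk α.toPSet d` for `α : Ordinal.{u}`; `mem_ov`, `ov_mem_iff`, `ov_eq_iff`;
* `IsTr'`, `IsOrd'` : the semantic forms of the frozen formulas, `fc_isTrans`, `fc_isOrd`;
* `ord_dense` : a value forced to be an ordinal is densely equal to some `ov α`.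
-/

set_option autoImplicit false

namespace Crest.Agent.R296.CatOrdx622

open CategoryTheory FirstOrder FirstOrder.Language Crest.LogicCS.SetTheory
open Crest.Agent.R296.CatFx365 Crest.Agent.R296.CatFrcx365

universe u

variable {C : Type u} [Category.{u} C]

/-! ### auxiliary facts on `Eq'` and `Mem'` -/

lemma eq'_of_eq {d : C} {x y : Val C d} (h : x = y) : Eq' x y := h ▸ Eq'.refl x

/-- membership is decided densely: if not forced then somewhere it is nowhere forced -/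
lemma not_mem_dense {d : C} {x y : Val C d} (h : ¬ Mem' x y) :
    ∃ (d1 : C) (l : d1 ⟶ d), ∀ (d2 : C) (m : d2 ⟶ d1), ¬ Mem' (x.res (m ≫ l)) (y.res (m ≫ l)) := by
  by_contra H
  push Not at H
  exact h (Mem'.of_dense fun d1 l => H d1 l)

lemma not_eq_dense {d : C} {x y : Val C d} (h : ¬ Eq' x y) :
    ∃ (d1 : C) (l : d1 ⟶ d), ∀ (d2 : C) (m : d2 ⟶ d1), ¬ Eq' (x.res (m ≫ l)) (y.res (m ≫ l)) := by
  by_contra H
  push Not at H
  exact h (Eq'.of_dense fun d1 l => H d1 l)

/-- members are densely elements of the name -/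
lemma mem_el_dense {d : C} {x y : Val C d} (h : Mem' x y) {d1 : C} (l : d1 ⟶ d) :
    ∃ (d2 : C) (m : d2 ⟶ d1) (j : y.nm.I) (k : d2 ⟶ y.nm.D j),
      (m ≫ l) ≫ y.ar = k ≫ y.nm.e j ∧ Eq' (x.res (m ≫ l)) (y.el j k) := h d1 l

/-- extensionality, by inclusion both ways -/
lemma eq_of_sub {d : C} {x y : Val C d}
    (H : ∀ (d1 : C) (l : d1 ⟶ d) (z : Val C d1), Mem' z (x.res l) → Mem' z (y.res l))
    (G : ∀ (d1 : C) (l : d1 ⟶ d) (z : Val C d1), Mem' z (y.res l) → Mem' z (x.res l)) :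
    Eq' x y := ext' fun d1 l z => ⟨H d1 l z, G d1 l z⟩

/-- induction on the names of the members: if `P` is a property of values such that `P z` holds
whenever `P` holds for every element of the name of `z` (at every stage), then `P` holds -/
lemma el_induction {P : ∀ {d : C}, Val C d → Prop}
    (H : ∀ {d : C} (z : Val C d),
      (∀ (d1 : C) (i : z.nm.I) (k : d1 ⟶ z.nm.D i), P (z.el i k)) → P z) {d : C} (z : Val C d) :
    P z := by
  obtain ⟨c, a, p⟩ := z
  induction a generalizing d with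
  | mk I D e T f b ih => exact H _ fun d1 i k => ih i _

/-! ### check values -/

/-- the check name of a pure set -/
def chkN : PSet.{u} → ∀ c : C, Nm C c
  | ⟨A, F⟩, c => Nm.mk A (fun _ => c) (fun _ => 𝟙 c) (fun _ => c) (fun _ => 𝟙 c)
      (fun a => chkN (F a) c)

/-- the check value of a pure set -/
def chk (x : PSet.{u}) (d : C) : Val C d := ⟨d, chkN x d, 𝟙 d⟩

/-- restriction of a check value -/
lemma chk_res (x : PSet.{u}) : ∀ {d d' : C} (h : d' ⟶ d), Eq' ((chk x d).res h) (chk x d') := by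
  induction x with
  | mk A F ih =>
    intro d d' h
    rw [eq'_iff]
    constructor
    · intro i d1 l k hk
      refine ⟨d1, 𝟙 d1, i, l, ?_, ?_⟩
      · change (𝟙 d1 ≫ l) ≫ 𝟙 d' = l ≫ 𝟙 d'
        simp
      · have h1 := ih i (d := d) k
        have h2 := ih i (d := d') l
        have h3 : Eq' (((chk (PSet.mk A F) d).res h).el i k) ((chk (F i) d).res k) :=
          eq'_of_eq (by
            simp only [Val.res, Val.el, chk]
            change (⟨d, chkN (F i) d, k ≫ 𝟙 d⟩ : Val C d1) = _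
            rfl)
        have h4 : Eq' ((chk (F i) d').res l) ((chk (PSet.mk A F) d').el i l) :=
          eq'_of_eq rfl
        have h5 := ((h3.trans h1).trans h2.symm).trans h4
        rw [Val.res_id]
        exact h5
    · intro j d1 l k hk
      refine ⟨d1, 𝟙 d1, j, l ≫ h, ?_, ?_⟩
      · change (𝟙 d1 ≫ l) ≫ h ≫ 𝟙 d = (l ≫ h) ≫ 𝟙 d
        simp
      · have h1 := ih j (d := d) (l ≫ h)
        have h2 := ih j (d := d') k
        have h3 : Eq' (((chk (PSet.mk A F) d).res h).el j (l ≫ h)) ((chk (F j) d).res (l ≫ h)) :=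
          eq'_of_eq rfl
        have h4 : Eq' ((chk (F j) d').res k) ((chk (PSet.mk A F) d').el j k) :=
          eq'_of_eq rfl
        have h5 := ((h3.trans h1).trans h2.symm).trans h4
        rw [Val.res_id]
        exact h5

/-- members of a check value -/
lemma mem_chk (x : PSet.{u}) {d : C} (z : Val C d) : Mem' z (chk x d) ↔
    ∀ (d1 : C) (l : d1 ⟶ d), ∃ (d2 : C) (m : d2 ⟶ d1) (a : x.Type),
      Eq' (z.res (m ≫ l)) (chk (x.Func a) d2) := by
  cases x with
  | mk A F =>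
    constructor
    · intro H d1 l
      obtain ⟨d2, m, j, k, -, h2⟩ := H d1 l
      have h3 : Eq' ((chk (PSet.mk A F) d).el j k) ((chk (F j) d).res k) := eq'_of_eq rfl
      exact ⟨d2, m, j, (h2.trans h3).trans (chk_res _ k)⟩
    · intro H d1 l
      obtain ⟨d2, m, a, h2⟩ := H d1 l
      have h3 : Eq' ((chk (PSet.mk A F) d).el a (m ≫ l)) ((chk (F a) d).res (m ≫ l)) := eq'_of_eq rfl
      refine ⟨d2, m, a, m ≫ l, ?_, (h2.trans (chk_res _ _).symm).trans h3.symm⟩
      change (m ≫ l) ≫ 𝟙 d = (m ≫ l) ≫ 𝟙 d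
      rfl

/-- members of a restricted check value -/
lemma mem_chk_res (x : PSet.{u}) {d d' : C} (h : d' ⟶ d) (z : Val C d') :
    Mem' z ((chk x d).res h) ↔ Mem' z (chk x d') :=
  ⟨Mem'.congr_right (chk_res x h), Mem'.congr_right (chk_res x h).symm⟩

lemma chk_eq_of_equiv (x : PSet.{u}) : ∀ {y : PSet.{u}}, PSet.Equiv x y → ∀ d : C,
    Eq' (chk x d) (chk y d) := by
  induction x with
  | mk A F ih =>
    intro y hxy d
    refine eq_of_sub (fun d1 l z hz => ?_) (fun d1 l z hz => ?_)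
    · rw [mem_chk_res] at hz ⊢
      rw [mem_chk] at hz ⊢
      intro d2 m
      obtain ⟨d3, m', a, h3⟩ := hz d2 m
      obtain ⟨b, hb⟩ := hxy.exists_left a
      exact ⟨d3, m', b, h3.trans (ih a hb d3)⟩
    · rw [mem_chk_res] at hz ⊢
      rw [mem_chk] at hz ⊢
      intro d2 m
      obtain ⟨d3, m', b, h3⟩ := hz d2 m
      obtain ⟨a, ha⟩ := hxy.exists_right b
      exact ⟨d3, m', a, h3.trans (ih a ha d3).symm⟩

lemma equiv_of_chk_eq (x : PSet.{u}) : ∀ {y : PSet.{u}} {d : C}, Eq' (chk x d) (chk y d) →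
    PSet.Equiv x y := by
  induction x with
  | mk A F ih =>
    intro y d h
    rw [PSet.equiv_iff]
    constructor
    · intro a
      have h1 : Mem' (chk (F a) d) (chk (PSet.mk A F) d) := by
        rw [mem_chk]
        intro d1 l
        exact ⟨d1, 𝟙 d1, a, chk_res _ _⟩
      have h2 := Mem'.congr_right h h1
      rw [mem_chk] at h2
      obtain ⟨d2, m, b, h3⟩ := h2 d (𝟙 d)
      exact ⟨b, ih a ((chk_res _ _).symm.trans h3)⟩
    · intro b
      have h1 : Mem' (chk (y.Func b) d) (chk y d) := by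
        rw [mem_chk]
        intro d1 l
        exact ⟨d1, 𝟙 d1, b, chk_res _ _⟩
      have h2 := Mem'.congr_right h.symm h1
      rw [mem_chk] at h2
      obtain ⟨d2, m, a, h3⟩ := h2 d (𝟙 d)
      exact ⟨a, ih a (h3.symm.trans (chk_res _ _))⟩

lemma eq_chk_iff {x y : PSet.{u}} {d : C} : Eq' (chk x d) (chk y d) ↔ PSet.Equiv x y :=
  ⟨equiv_of_chk_eq x, fun h => chk_eq_of_equiv x h d⟩

lemma chk_mem_chk_iff {x y : PSet.{u}} {d : C} : Mem' (chk x d) (chk y d) ↔ x ∈ y := by
  rw [mem_chk, PSet.mem_def]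
  constructor
  · intro H
    obtain ⟨d2, m, b, h3⟩ := H d (𝟙 d)
    exact ⟨b, eq_chk_iff.1 ((chk_res _ _).symm.trans h3)⟩
  · rintro ⟨b, hb⟩ d1 l
    exact ⟨d1, 𝟙 d1, b, (chk_res _ _).trans (chk_eq_of_equiv _ hb _)⟩

/-- members of a check value, through membership of pure sets -/
lemma mem_chk' (x : PSet.{u}) {d : C} (z : Val C d) : Mem' z (chk x d) ↔
    ∀ (d1 : C) (l : d1 ⟶ d), ∃ (d2 : C) (m : d2 ⟶ d1) (y : PSet.{u}), y ∈ x ∧
      Eq' (z.res (m ≫ l)) (chk y d2) := by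
  rw [mem_chk]
  constructor
  · intro H d1 l
    obtain ⟨d2, m, a, h⟩ := H d1 l
    exact ⟨d2, m, _, PSet.func_mem x a, h⟩
  · intro H d1 l
    obtain ⟨d2, m, y, hy, h⟩ := H d1 l
    obtain ⟨a, ha⟩ := PSet.mem_def.1 hy
    exact ⟨d2, m, a, h.trans (chk_eq_of_equiv _ ha _)⟩

/-! ### ordinals -/

/-- the canonical value of an ordinal -/
noncomputable def ov (α : Ordinal.{u}) (d : C) : Val C d := chk α.toPSet d

lemma ov_res (α : Ordinal.{u}) {d d' : C} (h : d' ⟶ d) : Eq' ((ov α d).res h) (ov α d') :=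
  chk_res _ h

lemma toPSet_equiv_iff {α β : Ordinal.{u}} : PSet.Equiv α.toPSet β.toPSet ↔ α = β := by
  constructor
  · intro h
    have h1 : α.toZFSet = β.toZFSet := ZFSet.sound h
    exact Ordinal.toZFSet_injective h1
  · rintro rfl
    exact PSet.Equiv.refl _

lemma toPSet_mem_iff {α β : Ordinal.{u}} : α.toPSet ∈ β.toPSet ↔ α < β := by
  rw [Ordinal.mem_toPSet_iff]
  constructor
  · rintro ⟨a, ha, h⟩
    rwa [toPSet_equiv_iff.1 h]
  · intro h
    exact ⟨α, h, PSet.Equiv.refl _⟩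

lemma ov_eq_iff {α β : Ordinal.{u}} {d : C} : Eq' (ov α d) (ov β d) ↔ α = β := by
  rw [ov, ov, eq_chk_iff, toPSet_equiv_iff]

lemma ov_mem_iff {α β : Ordinal.{u}} {d : C} : Mem' (ov α d) (ov β d) ↔ α < β := by
  rw [ov, ov, chk_mem_chk_iff, toPSet_mem_iff]

/-- the members of a canonical ordinal are densely the smaller canonical ordinals -/
lemma mem_ov (α : Ordinal.{u}) {d : C} (z : Val C d) : Mem' z (ov α d) ↔
    ∀ (d1 : C) (l : d1 ⟶ d), ∃ (d2 : C) (m : d2 ⟶ d1) (β : Ordinal.{u}), β < α ∧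
      Eq' (z.res (m ≫ l)) (ov β d2) := by
  rw [ov, mem_chk']
  constructor
  · intro H d1 l
    obtain ⟨d2, m, y, hy, h⟩ := H d1 l
    obtain ⟨β, hβ, hy'⟩ := Ordinal.mem_toPSet_iff.1 hy
    exact ⟨d2, m, β, hβ, h.trans (chk_eq_of_equiv _ hy' _)⟩
  · intro H d1 l
    obtain ⟨d2, m, β, hβ, h⟩ := H d1 l
    exact ⟨d2, m, β.toPSet, toPSet_mem_iff.2 hβ, h⟩

lemma mem_ov_res (α : Ordinal.{u}) {d d' : C} (h : d' ⟶ d) (z : Val C d') :
    Mem' z ((ov α d).res h) ↔ Mem' z (ov α d') := mem_chk_res _ h z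

/-! ### transitive values and ordinals -/

/-- forced transitivity -/
def IsTr' {d : C} (x : Val C d) : Prop :=
  ∀ (d1 : C) (l : d1 ⟶ d) (y z : Val C d1), Mem' z y → Mem' y (x.res l) → Mem' z (x.res l)

/-- forced ordinality -/
def IsOrd' {d : C} (x : Val C d) : Prop :=
  IsTr' x ∧ ∀ (d1 : C) (l : d1 ⟶ d) (y : Val C d1), Mem' y (x.res l) → IsTr' y

lemma IsTr'.res {d d' : C} {x : Val C d} (H : IsTr' x) (h : d' ⟶ d) : IsTr' (x.res h) := by
  intro d1 l y z hz hy
  rw [Val.res_res] at hy ⊢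
  exact H d1 _ y z hz hy

lemma IsTr'.congr {d : C} {x y : Val C d} (h : Eq' x y) (H : IsTr' x) : IsTr' y := by
  intro d1 l w z hz hw
  exact Mem'.congr_right (h.res l) (H d1 l w z hz (Mem'.congr_right (h.res l).symm hw))

lemma IsTr'.of_dense {d : C} {x : Val C d}
    (H : ∀ (d1 : C) (l : d1 ⟶ d), ∃ (d2 : C) (m : d2 ⟶ d1), IsTr' (x.res (m ≫ l))) : IsTr' x := by
  intro d1 l y z hz hy
  refine Mem'.of_dense fun d2 k => ?_
  obtain ⟨d3, m, h3⟩ := H d2 (k ≫ l)
  refine ⟨d3, m, ?_⟩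
  have h4 := h3 d3 (𝟙 d3) (y.res (m ≫ k)) (z.res (m ≫ k)) (hz.res _)
    (by simpa using hy.res (m ≫ k))
  simpa using h4

lemma IsOrd'.res {d d' : C} {x : Val C d} (H : IsOrd' x) (h : d' ⟶ d) : IsOrd' (x.res h) := by
  refine ⟨H.1.res h, fun d1 l y hy => ?_⟩
  rw [Val.res_res] at hy
  exact H.2 d1 _ y hy

lemma IsOrd'.congr {d : C} {x y : Val C d} (h : Eq' x y) (H : IsOrd' x) : IsOrd' y :=
  ⟨H.1.congr h, fun d1 l z hz => H.2 d1 l z (Mem'.congr_right (h.res l).symm hz)⟩

/-- members of ordinals are ordinals -/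
lemma IsOrd'.mem {d : C} {x y : Val C d} (H : IsOrd' x) (hy : Mem' y x) : IsOrd' y := by
  refine ⟨H.2 d (𝟙 d) y (by simpa using hy), fun d1 l z hz => ?_⟩
  exact H.2 d1 l z (H.1 d1 l (y.res l) z hz (hy.res l))

/-- the semantic form of the frozen formula `isTrans` -/
lemma fc_isTrans {n : ℕ} {d : C} (i : Fin n) (v : Fin n → Val C d) :
    Fc (isTrans i) v ↔ IsTr' (v i) := by
  rw [isTrans, fc_all]
  constructor
  · intro H d1 l y z hz hy
    have h1 := H d1 l y
    rw [fc_all] at h1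
    have h2 := h1 d1 (𝟙 d1) z
    rw [fc_imp] at h2
    have h3 := h2 d1 (𝟙 d1)
    simp only [vr_id, fc_and, fc_vmem, sn_last, sn_castSucc, vr_apply] at h3
    exact h3 ⟨hz, hy⟩
  · intro H d1 l y
    rw [fc_all]
    intro d2 m z
    rw [fc_imp]
    intro d3 k
    simp only [fc_and, fc_vmem, vr_apply, sn_last, sn_castSucc, Val.res_res]
    rintro ⟨h1, h2⟩
    have h4 := H d3 (k ≫ m ≫ l) (y.res (k ≫ m)) (z.res k) h1 h2
    simpa using h4

/-- the semantic form of the frozen formula `isOrd` -/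
lemma fc_isOrd {n : ℕ} {d : C} (i : Fin n) (v : Fin n → Val C d) :
    Fc (isOrd i) v ↔ IsOrd' (v i) := by
  rw [isOrd, fc_and, fc_isTrans]
  refine and_congr_right fun _ => ?_
  rw [fc_all]
  constructor
  · intro H d1 l y hy
    have h1 := H d1 l y
    rw [fc_imp] at h1
    have h2 := h1 d1 (𝟙 d1)
    simp only [vr_id, fc_vmem, fc_isTrans, sn_last, sn_castSucc, vr_apply] at h2
    exact h2 hy
  · intro H d1 l y
    rw [fc_imp]
    intro d2 k
    simp only [fc_vmem, fc_isTrans, vr_apply, sn_last, sn_castSucc, Val.res_res]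
    intro h
    exact H d2 (k ≫ l) (y.res k) h

/-- canonical ordinals are transitive -/
lemma isTr_ov (α : Ordinal.{u}) (d : C) : IsTr' (ov α d) := by
  intro d1 l y z hz hy
  rw [mem_ov_res] at hy ⊢
  rw [mem_ov] at hy ⊢
  intro d2 m
  obtain ⟨d3, m', β, hβ, h3⟩ := hy d2 m
  have h4 : Mem' (z.res (m' ≫ m)) (ov β d3) := Mem'.congr_right h3 (hz.res (m' ≫ m))
  rw [mem_ov] at h4
  obtain ⟨d4, k, γ, hγ, h5⟩ := h4 d3 (𝟙 d3)
  exact ⟨d4, k ≫ m', γ, hγ.trans hβ, by simpa using h5⟩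

/-- canonical ordinals are ordinals -/
lemma isOrd_ov (α : Ordinal.{u}) (d : C) : IsOrd' (ov α d) := by
  refine ⟨isTr_ov α d, fun d1 l y hy => ?_⟩
  rw [mem_ov_res, mem_ov] at hy
  refine IsTr'.of_dense fun d2 m => ?_
  obtain ⟨d3, m', β, -, h3⟩ := hy d2 m
  exact ⟨d3, m', (isTr_ov β d3).congr h3.symm⟩

/-- `z` is nowhere below its stage a member of `ov α` -/
def NoMem (α : Ordinal.{u}) {d : C} (z : Val C d) : Prop :=
  ∀ (d1 : C) (l : d1 ⟶ d), ¬ Mem' (z.res l) (ov α d1)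

lemma NoMem.res {α : Ordinal.{u}} {d d' : C} {z : Val C d} (H : NoMem α z) (h : d' ⟶ d) :
    NoMem α (z.res h) := by
  intro d1 l
  rw [Val.res_res]
  exact H d1 _

lemma NoMem.congr {α : Ordinal.{u}} {d : C} {z w : Val C d} (h : Eq' z w) (H : NoMem α z) :
    NoMem α w := fun d1 l hm => H d1 l (Mem'.congr_left (h.res l).symm hm)

/-- **comparison**: densely, either `α` is a member of the ordinal `x`, or `x` is some `β ≤ α` -/
theorem ord_compare (α : Ordinal.{u}) : ∀ {d : C} (x : Val C d), IsOrd' x →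
    ∃ (d1 : C) (l : d1 ⟶ d), Mem' (ov α d1) (x.res l) ∨
      ∃ β : Ordinal.{u}, β ≤ α ∧ Eq' (x.res l) (ov β d1) := by
  induction α using WellFoundedLT.induction with
  | ind α ih =>
    -- for ordinals with `z` nowhere in `ov α`, all `β < α` are members
    have key : ∀ {d : C} (z : Val C d), IsOrd' z →
        (¬ ∃ (d1 : C) (l : d1 ⟶ d) (β : Ordinal.{u}), β < α ∧ Eq' (z.res l) (ov β d1)) →
        ∀ β < α, Mem' (ov β d) z := by
      intro d z hz hno β hβ
      refine Mem'.of_dense fun d1 l => ?_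
      obtain ⟨d2, m, h2⟩ := ih β hβ (z.res l) (hz.res l)
      rcases h2 with h2 | ⟨γ, hγ, h2⟩
      · refine ⟨d2, m, ?_⟩
        rw [Val.res_res] at h2
        exact Mem'.congr_left (ov_res β _).symm h2
      · rw [Val.res_res] at h2
        exact absurd ⟨d2, m ≫ l, γ, lt_of_le_of_lt hγ hβ, h2⟩ hno
    intro d x hx
    by_cases hno : ∃ (d1 : C) (l : d1 ⟶ d) (β : Ordinal.{u}), β < α ∧ Eq' (x.res l) (ov β d1)
    · obtain ⟨d1, l, β, hβ, h⟩ := hno
      exact ⟨d1, l, Or.inr ⟨β, hβ.le, h⟩⟩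
    have hsub := key x hx hno
    by_cases heq : Eq' x (ov α d)
    · exact ⟨d, 𝟙 d, Or.inr ⟨α, le_refl _, by simpa using heq⟩⟩
    -- there is a member of `x` which is nowhere in `ov α`
    have hex : ∃ (d1 : C) (l : d1 ⟶ d) (z : Val C d1), Mem' z (x.res l) ∧ NoMem α z := by
      by_contra hcon
      refine heq (eq_of_sub (fun d1 l z hz => ?_) (fun d1 l z hz => ?_))
      · rw [mem_ov_res]
        by_contra hnm
        obtain ⟨d2, m, h2⟩ := not_mem_dense hnm
        refine hcon ⟨d2, m ≫ l, z.res m, by simpa using hz.res m, fun d3 k h3 => ?_⟩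
        refine h2 d3 k (Mem'.congr_right (ov_res α _).symm ?_)
        simpa using h3
      · rw [mem_ov_res, mem_ov] at hz
        refine Mem'.of_dense fun d2 m => ?_
        obtain ⟨d3, m', β, hβ, h3⟩ := hz d2 m
        refine ⟨d3, m', Mem'.congr_left h3.symm ?_⟩
        have h4 := (hsub β hβ).res ((m' ≫ m) ≫ l)
        have h5 := Mem'.congr_left (ov_res β _) h4
        simpa using h5
    obtain ⟨d1, l, z, hz, hnz⟩ := hex
    -- a minimal such member is `ov α`
    have main : ∀ {d1 : C} (z : Val C d1), ∀ (l : d1 ⟶ d), Mem' z (x.res l) → NoMem α z →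
        ∃ (d2 : C) (m : d2 ⟶ d), Mem' (ov α d2) (x.res m) := by
      intro d1 z
      refine el_induction (C := C) (P := fun {d1} z => ∀ (l : d1 ⟶ d), Mem' z (x.res l) →
        NoMem α z → ∃ (d2 : C) (m : d2 ⟶ d), Mem' (ov α d2) (x.res m)) ?_ z
      intro d1 z hind l hz hnz
      have hzo : IsOrd' z := (hx.res l).mem hz
      by_cases hall : ∃ (d2 : C) (m : d2 ⟶ d1) (i : z.nm.I) (k : d2 ⟶ z.nm.D i),
          m ≫ z.ar = k ≫ z.nm.e i ∧ NoMem α (z.el i k)
      · obtain ⟨d2, m, i, k, h1, h2⟩ := hall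
        refine hind d2 i k (m ≫ l) ?_ h2
        have h3 := mem_el z m i k h1
        have h4 := hx.1 d2 (m ≫ l) (z.res m) (z.el i k) h3 (by simpa using hz.res m)
        exact h4
      · -- all the elements of `z` are in `ov α`
        push Not at hall
        have hsubz : ∀ (d2 : C) (m : d2 ⟶ d1) (w : Val C d2), Mem' w (z.res m) →
            Mem' w ((ov α d1).res m) := by
          intro d2 m w hw
          refine sub_of_el (x := z) (y := ov α d1) (fun d3 l3 i k hk => ?_) m w hw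
          rw [mem_ov_res]
          by_contra hnm
          obtain ⟨d4, m4, h4⟩ := not_mem_dense hnm
          refine hall d4 (m4 ≫ l3) i (m4 ≫ k) (by simp [hk]) fun d5 m5 h5 => ?_
          refine h4 d5 m5 (Mem'.congr_right (ov_res α _).symm ?_)
          simpa using h5
        have hno' : ¬ ∃ (d2 : C) (m : d2 ⟶ d1) (β : Ordinal.{u}), β < α ∧
            Eq' (z.res m) (ov β d2) := by
          rintro ⟨d2, m, β, hβ, h⟩
          exact hnz d2 m (Mem'.congr_left h.symm (ov_mem_iff.2 hβ))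
        have h6 := key z hzo hno'
        have heqz : Eq' z (ov α d1) := by
          refine eq_of_sub hsubz (fun d2 m w hw => ?_)
          rw [mem_ov_res, mem_ov] at hw
          refine Mem'.of_dense fun d3 k => ?_
          obtain ⟨d4, m', β, hβ, h4⟩ := hw d3 k
          refine ⟨d4, m', Mem'.congr_left h4.symm ?_⟩
          have h7 := (h6 β hβ).res ((m' ≫ k) ≫ m)
          have h8 := Mem'.congr_left (ov_res β _) h7
          simpa using h8
        exact ⟨d1, l, Mem'.congr_left heqz hz⟩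
    obtain ⟨d2, m, h2⟩ := main z l hz hnz
    exact ⟨d2, m, Or.inl h2⟩

/-- every value misses some canonical ordinal, at all the stages below -/
lemma exists_not_mem {d : C} (x : Val C d) : ∃ α : Ordinal.{u}, ∀ (d1 : C) (l : d1 ⟶ d),
    ¬ Mem' (ov α d1) (x.res l) := by
  by_contra H
  push Not at H
  -- for each `α` a stage and an element
  have h1 : ∀ α : Ordinal.{u}, ∃ (s : Σ (d2 : C) (j : x.nm.I), (d2 ⟶ x.nm.D j)),
      Eq' (ov α s.1) (x.el s.2.1 s.2.2) := by
    intro α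
    obtain ⟨d1, l, h⟩ := H α
    obtain ⟨d2, m, j, k, -, h3⟩ := h d1 (𝟙 d1)
    refine ⟨⟨d2, j, k⟩, ?_⟩
    exact (ov_res α _).symm.trans h3
  choose s hs using h1
  have hinj : Function.Injective s := by
    intro α β hab
    have h2 := hs α
    have h3 := hs β
    rw [hab] at h2
    exact ov_eq_iff.1 (h2.trans h3.symm)
  have : Small.{u} Ordinal.{u} := small_of_injective hinj
  exact not_small_ordinal.{u} this

/-- **a value which is forced to be an ordinal is densely a canonical ordinal** -/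
theorem ord_dense {d : C} {x : Val C d} (hx : IsOrd' x) (d1 : C) (l : d1 ⟶ d) :
    ∃ (d2 : C) (m : d2 ⟶ d1) (α : Ordinal.{u}), Eq' (x.res (m ≫ l)) (ov α d2) := by
  obtain ⟨α, hα⟩ := exists_not_mem x
  obtain ⟨d2, m, h⟩ := ord_compare α (x.res l) (hx.res l)
  rw [Val.res_res] at h
  rcases h with h | ⟨β, -, h⟩
  · exact absurd h (hα d2 _)
  · exact ⟨d2, m, β, h⟩

/-- forced ordinals have a bound: one ordinal works for all the stages below -/
theorem ord_bound {d : C} {x : Val C d} (hx : IsOrd' x) : ∃ θ : Ordinal.{u},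
    ∀ (d1 : C) (l : d1 ⟶ d), ∃ (d2 : C) (m : d2 ⟶ d1) (α : Ordinal.{u}), α ≤ θ ∧
      Eq' (x.res (m ≫ l)) (ov α d2) := by
  obtain ⟨θ, hθ⟩ := exists_not_mem x
  refine ⟨θ, fun d1 l => ?_⟩
  obtain ⟨d2, m, h⟩ := ord_compare θ (x.res l) (hx.res l)
  rw [Val.res_res] at h
  rcases h with h | ⟨β, hβ, h⟩
  · exact absurd h (hθ d2 _)
  · exact ⟨d2, m, β, hβ, h⟩

end Crest.Agent.R296.CatOrdx622
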