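import Crest.Agent.R296.CatFrc_365

/-!
Row 296 (S0448), block B2 (helper879): **a forced theory is satisfiable**.

`sat_of_forces (c) (h : ∀ φ ∈ T, Fs c φ) : T.IsSatisfiable` : if one stage of `V^(C)` forces every sentence
of the theory `T` of the language of set theory, then `T` has a model (a countable one).

Proof: countable Henkin tower (Rasiowa-Sikorski).  A state is a stage `c`, a number `k` of frozen
names and an assignment `v : ℕ → Val C c`.
-/

set_option autoImplicit false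

namespace Crest.Agent.R296.CatSatx879

open CategoryTheory FirstOrder FirstOrder.Language Crest.LogicCS.SetTheory
open Crest.Agent.R296.CatFx365 Crest.Agent.R296.CatFrcx365

universe u

/-! ### countability of the set of requirements -/

/-- a requirement: a formula and a tuple of indices of names -/
abbrev Req := Σ n : ℕ, setL.BoundedFormula Empty n × (Fin n → ℕ)

instance countable_form (n : ℕ) : Countable (setL.BoundedFormula Empty n) := by
  have h1 : Cardinal.mk (Σ n, setL.BoundedFormula Empty n) ≤ Cardinal.aleph0 := by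
    refine BoundedFormula.card_le.trans ?_
    have h2 : Countable setL.Symbols := by
      have hF : Countable (Σ l, setL.Functions l) := by
        haveI : ∀ l, IsEmpty (setL.Functions l) := fun l => (inferInstance : IsEmpty Empty)
        infer_instance
      have hR : Countable (Σ l, setL.Relations l) := by
        haveI : ∀ l, Countable (setL.Relations l) := fun l => by
          have : Subsingleton (SetRel l) := ⟨by intro a b; cases a; cases b; rfl⟩
          exact (inferInstance : Countable (SetRel l))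
        infer_instance
      exact (inferInstance : Countable ((Σ l, setL.Functions l) ⊕ (Σ l, setL.Relations l)))
    have h3 : setL.card ≤ Cardinal.aleph0 := Cardinal.mk_le_aleph0_iff.2 h2
    simp only [Cardinal.mk_eq_zero, zero_add, Cardinal.lift_id]
    exact max_le le_rfl (by simpa using h3)
  have h4 : Countable (Σ n, setL.BoundedFormula Empty n) := Cardinal.mk_le_aleph0_iff.1 h1
  exact (sigma_mk_injective (i := n) : Function.Injective
    (Sigma.mk n : setL.BoundedFormula Empty n → Σ n, setL.BoundedFormula Empty n)).countable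

instance countable_req : Countable Req := by
  haveI : ∀ n, Countable (setL.BoundedFormula Empty n × (Fin n → ℕ)) := fun n => inferInstance
  infer_instance

lemma exists_enum : ∃ e : ℕ → Req, Function.Surjective e := by
  haveI : Nonempty Req := ⟨⟨0, ⊥, Fin.elim0⟩⟩
  exact exists_surjective_nat Req

variable {C : Type u} [Category.{u} C]

/-- a state of the tower -/
structure St (C : Type u) [Category.{u} C] where
  /-- stage -/
  c : C
  /-- number of frozen names -/
  k : ℕ
  /-- the names -/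
  v : ℕ → Val C c

namespace St

/-- the formula `φ` is forced for the names with indices `xs` -/
def F (s : St C) {n : ℕ} (φ : setL.BoundedFormula Empty n) (xs : Fin n → ℕ) : Prop :=
  Fc φ (fun i => s.v (xs i))

/-- `t` is an extension of `s` -/
def Ext (s t : St C) : Prop :=
  s.k ≤ t.k ∧ ∃ h : t.c ⟶ s.c, ∀ i, i < s.k → t.v i = (s.v i).res h

lemma Ext.refl (s : St C) : s.Ext s := ⟨le_rfl, 𝟙 _, fun i _ => by simp⟩

lemma Ext.trans {s t r : St C} (h1 : s.Ext t) (h2 : t.Ext r) : s.Ext r := by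
  obtain ⟨a1, g1, b1⟩ := h1
  obtain ⟨a2, g2, b2⟩ := h2
  refine ⟨a1.trans a2, g2 ≫ g1, fun i hi => ?_⟩
  rw [b2 i (hi.trans_le a1), b1 i hi, Val.res_res]

lemma F.ext {s t : St C} (h : s.Ext t) {n : ℕ} {φ : setL.BoundedFormula Empty n} {xs : Fin n → ℕ}
    (hx : ∀ i, xs i < s.k) (H : s.F φ xs) : t.F φ xs := by
  obtain ⟨a, g, b⟩ := h
  have h1 := Fc.mono φ g _ H
  have h2 : (fun i => t.v (xs i)) = vr g (fun i => s.v (xs i)) := by
    funext i
    exact b _ (hx i)
  unfold F
  rw [h2]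
  exact h1

lemma not_both (s : St C) {n : ℕ} {φ : setL.BoundedFormula Empty n} {xs : Fin n → ℕ}
    (H : s.F φ xs) (H' : s.F (∼φ) xs) : False := by
  refine H' s.c (𝟙 _) ?_
  rw [vr_id]
  exact H

end St

/-- what is not forced is refuted by some extension -/
lemma exists_not {n : ℕ} {d : C} {φ : setL.BoundedFormula Empty n} {v : Fin n → Val C d}
    (H : ¬ Fc φ v) : ∃ (d' : C) (h : d' ⟶ d), Fc (∼φ) (vr h v) := by
  by_contra hn
  apply H
  refine Fc.dense φ v fun d1 g => ?_
  by_contra hd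
  apply hn
  refine ⟨d1, g, ?_⟩
  rw [fc_not]
  intro d' h hf
  exact hd ⟨d', h, by simpa using hf⟩

/-- one step of the tower -/
lemma exists_step (s : St C) (r : Req) : ∃ t : St C, s.Ext t ∧ (∀ i, r.2.2 i < t.k) ∧
    (t.F r.2.1 r.2.2 ∨ t.F (∼r.2.1) r.2.2) ∧
    ∀ (ψ : setL.BoundedFormula Empty (r.1 + 1)), r.2.1 = ψ.all → t.F (∼r.2.1) r.2.2 →
      ∃ j, j < t.k ∧ t.F (∼ψ) (Fin.snoc (α := fun _ => ℕ) r.2.2 j) := by
  obtain ⟨n, φ, xs⟩ := r
  obtain ⟨K, hK⟩ : ∃ K, ∀ i, xs i < K := by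
    refine ⟨(Finset.univ.sup xs) + 1, fun i => Nat.lt_succ_of_le ?_⟩
    exact Finset.le_sup (f := xs) (Finset.mem_univ i)
  let s1 : St C := ⟨s.c, max s.k K, s.v⟩
  have h1 : s.Ext s1 := ⟨le_max_left _ _, 𝟙 _, fun i _ => by simp [s1]⟩
  have hx1 : ∀ i, xs i < s1.k := fun i => (hK i).trans_le (le_max_right _ _)
  by_cases hF : s1.F φ xs
  · exact ⟨s1, h1, hx1, Or.inl hF, fun ψ _ H => (s1.not_both hF H).elim⟩
  · obtain ⟨d, h, hd⟩ := exists_not hF
    let s2 : St C := ⟨d, s1.k, fun i => (s.v i).res h⟩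
    have h2 : s1.Ext s2 := ⟨le_rfl, h, fun i _ => rfl⟩
    have hx2 : ∀ i, xs i < s2.k := hx1
    have hN : s2.F (∼φ) xs := hd
    by_cases hall : ∃ ψ : setL.BoundedFormula Empty (n + 1), φ = ψ.all
    · obtain ⟨ψ, rfl⟩ := hall
      have h3 : ¬ Fc (∀' ψ) (fun i => s2.v (xs i)) := by
        intro h4
        exact s2.not_both (φ := ψ.all) h4 hN
      rw [fc_all] at h3
      push Not at h3
      obtain ⟨d', g, x, hx⟩ := h3
      obtain ⟨e, m, hm⟩ := exists_not hx
      let s3 : St C := ⟨e, s2.k + 1, fun i => if i = s2.k then x.res m else (s2.v i).res (m ≫ g)⟩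
      have h4 : s2.Ext s3 := by
        refine ⟨Nat.le_succ _, m ≫ g, fun i hi => ?_⟩
        change (if i = s2.k then _ else _) = _
        rw [if_neg hi.ne]
      refine ⟨s3, (h1.trans h2).trans h4, fun i => (hx2 i).trans (Nat.lt_succ_self _),
        Or.inr (St.F.ext h4 hx2 hN), ?_⟩
      intro ψ' hψ' _
      have hψ : ψ = ψ' := by
        injection hψ'
      subst hψ
      refine ⟨s2.k, Nat.lt_succ_self _, ?_⟩
      have h5 : (fun i => s3.v ((Fin.snoc (α := fun _ => ℕ) xs s2.k : Fin (n + 1) → ℕ) i)) =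
          vr m (sn (vr g (fun i => s2.v (xs i))) x) := by
        funext i
        refine Fin.lastCases ?_ (fun j => ?_) i
        · simp [s3]
        · have : xs j ≠ s2.k := (hx2 j).ne
          simp [s3, this]
      unfold St.F
      rw [h5]
      exact hm
    · exact ⟨s2, h1.trans h2, hx2, Or.inr hN, fun ψ hψ _ => (hall ⟨ψ, hψ⟩).elim⟩

section tower

variable (e : ℕ → Req) (c : C)

/-- the empty value -/
def emp (c : C) : Val C c := mkv PEmpty (fun i => i.elim) (fun i => i.elim) (fun i => i.elim)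

/-- the tower -/
noncomputable def tow : ℕ → St C
  | 0 => ⟨c, 0, fun _ => emp c⟩
  | n + 1 => Classical.choose (exists_step (tow n) (e n))

lemma tow_spec (n : ℕ) : (tow e c n).Ext (tow e c (n + 1)) ∧
    (∀ i, (e n).2.2 i < (tow e c (n + 1)).k) ∧
    ((tow e c (n + 1)).F (e n).2.1 (e n).2.2 ∨ (tow e c (n + 1)).F (∼(e n).2.1) (e n).2.2) ∧
    ∀ (ψ : setL.BoundedFormula Empty ((e n).1 + 1)), (e n).2.1 = ψ.all →
      (tow e c (n + 1)).F (∼(e n).2.1) (e n).2.2 →
      ∃ j, j < (tow e c (n + 1)).k ∧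
        (tow e c (n + 1)).F (∼ψ) (Fin.snoc (α := fun _ => ℕ) (e n).2.2 j) :=
  Classical.choose_spec (exists_step (tow e c n) (e n))

lemma tow_ext {n m : ℕ} (h : n ≤ m) : (tow e c n).Ext (tow e c m) := by
  induction m, h using Nat.le_induction with
  | base => exact St.Ext.refl _
  | succ m _ ih => exact ih.trans (tow_spec e c m).1

/-- truth in the generic model -/
def Tr {n : ℕ} (φ : setL.BoundedFormula Empty n) (xs : Fin n → ℕ) : Prop :=
  ∃ m, (∀ i, xs i < (tow e c m).k) ∧ (tow e c m).F φ xs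

variable {e c}

lemma Tr.at {n : ℕ} {φ : setL.BoundedFormula Empty n} {xs : Fin n → ℕ} (H : Tr e c φ xs) :
    ∃ m, ∀ m', m ≤ m' → (∀ i, xs i < (tow e c m').k) ∧ (tow e c m').F φ xs := by
  obtain ⟨m, h1, h2⟩ := H
  refine ⟨m, fun m' hm => ⟨fun i => (h1 i).trans_le (tow_ext e c hm).1, ?_⟩⟩
  exact St.F.ext (tow_ext e c hm) h1 h2

variable (he : Function.Surjective e)

include he in
lemma decide {n : ℕ} (φ : setL.BoundedFormula Empty n) (xs : Fin n → ℕ) :
    Tr e c φ xs ∨ Tr e c (∼φ) xs := by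
  obtain ⟨m, hm⟩ := he ⟨n, φ, xs⟩
  have h := tow_spec e c m
  rw [hm] at h
  rcases h.2.2.1 with h1 | h1
  · exact Or.inl ⟨m + 1, h.2.1, h1⟩
  · exact Or.inr ⟨m + 1, h.2.1, h1⟩

lemma Tr.not_both {n : ℕ} {φ : setL.BoundedFormula Empty n} {xs : Fin n → ℕ}
    (H : Tr e c φ xs) (H' : Tr e c (∼φ) xs) : False := by
  obtain ⟨m, h1⟩ := H.at
  obtain ⟨m', h2⟩ := H'.at
  exact St.not_both _ (h1 (max m m') (le_max_left _ _)).2 (h2 (max m m') (le_max_right _ _)).2

include he in
lemma tr_not {n : ℕ} {φ : setL.BoundedFormula Empty n} {xs : Fin n → ℕ} :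
    Tr e c (∼φ) xs ↔ ¬ Tr e c φ xs :=
  ⟨fun H H' => H'.not_both H, fun H => (decide he φ xs).resolve_left H⟩

include he in
lemma frozen (j : ℕ) : ∃ m, ∀ m', m ≤ m' → j < (tow e c m').k := by
  obtain ⟨m, h⟩ : ∃ m, j < (tow e c m).k := by
    rcases decide (e := e) (c := c) he (⊥ : setL.BoundedFormula Empty 1) (fun _ => j) with h | h
    · obtain ⟨m, h, -⟩ := h
      exact ⟨m, h 0⟩
    · obtain ⟨m, h, -⟩ := h
      exact ⟨m, h 0⟩
  exact ⟨m, fun m' hm => h.trans_le (tow_ext e c hm).1⟩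

include he in
lemma tr_imp {n : ℕ} {φ ψ : setL.BoundedFormula Empty n} {xs : Fin n → ℕ} :
    Tr e c (φ.imp ψ) xs ↔ (Tr e c φ xs → Tr e c ψ xs) := by
  constructor
  · intro H H'
    obtain ⟨m, h1⟩ := H.at
    obtain ⟨m', h2⟩ := H'.at
    obtain ⟨h3, h4⟩ := h1 (max m m') (le_max_left _ _)
    obtain ⟨-, h5⟩ := h2 (max m m') (le_max_right _ _)
    refine ⟨_, h3, ?_⟩
    have h6 := h4 _ (𝟙 _)
    rw [vr_id] at h6
    exact h6 h5
  · intro H
    rcases decide (e := e) (c := c) he φ xs with h | h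
    · obtain ⟨m, h3, h4⟩ := H h
      exact ⟨m, h3, fun d g _ => Fc.mono ψ g _ h4⟩
    · obtain ⟨m, h3, h4⟩ := h
      exact ⟨m, h3, fun d g hg => (h4 d g hg).elim⟩

include he in
lemma tr_all {n : ℕ} {ψ : setL.BoundedFormula Empty (n + 1)} {xs : Fin n → ℕ} :
    Tr e c ψ.all xs ↔ ∀ j, Tr e c ψ (Fin.snoc (α := fun _ => ℕ) xs j) := by
  constructor
  · intro H j
    obtain ⟨m, h1⟩ := H.at
    obtain ⟨m', h2⟩ := frozen (e := e) (c := c) he j
    obtain ⟨h3, h4⟩ := h1 (max m m') (le_max_left _ _)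
    have h5 := h2 (max m m') (le_max_right _ _)
    refine ⟨max m m', fun i => ?_, ?_⟩
    · refine Fin.lastCases ?_ (fun i' => ?_) i
      · simpa using h5
      · simpa using h3 i'
    · have h6 := h4 _ (𝟙 _) ((tow e c (max m m')).v j)
      rw [vr_id] at h6
      unfold St.F
      convert h6 using 1
      funext i
      refine Fin.lastCases ?_ (fun i' => ?_) i
      · simp [sn]
      · simp [sn]
  · intro H
    by_contra hn
    obtain ⟨m, hm⟩ := he ⟨n, ψ.all, xs⟩
    have h := tow_spec e c m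
    rw [hm] at h
    rcases h.2.2.1 with h1 | h1
    · exact hn ⟨m + 1, h.2.1, h1⟩
    · obtain ⟨j, hj, h2⟩ := h.2.2.2 ψ rfl h1
      refine (H j).not_both ⟨m + 1, fun i => ?_, h2⟩
      refine Fin.lastCases ?_ (fun i' => ?_) i
      · simpa using hj
      · simpa using h.2.1 i'

lemma tr_falsum {n : ℕ} {xs : Fin n → ℕ} :
    Tr e c (BoundedFormula.falsum : setL.BoundedFormula Empty n) xs ↔ False :=
  ⟨fun ⟨_, _, h⟩ => h, False.elim⟩

/-- true equality of indices -/
def TE (e : ℕ → Req) (c : C) (i j : ℕ) : Prop :=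
  ∃ m, ∀ m', m ≤ m' → i < (tow e c m').k ∧ j < (tow e c m').k ∧
    Eq' ((tow e c m').v i) ((tow e c m').v j)

/-- true membership of indices -/
def TM (e : ℕ → Req) (c : C) (i j : ℕ) : Prop :=
  ∃ m, ∀ m', m ≤ m' → i < (tow e c m').k ∧ j < (tow e c m').k ∧
    Mem' ((tow e c m').v i) ((tow e c m').v j)

lemma tr_veq {n : ℕ} (i j : Fin n) (xs : Fin n → ℕ) (n₀ : ∀ l, ∃ m, ∀ m', m ≤ m' → xs l < (tow e c m').k) :
    Tr e c (veq i j) xs ↔ TE e c (xs i) (xs j) := by
  constructor
  · intro H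
    obtain ⟨m, h⟩ := H.at
    exact ⟨m, fun m' hm => ⟨(h m' hm).1 i, (h m' hm).1 j, (h m' hm).2⟩⟩
  · rintro ⟨m, h⟩
    choose f hf using n₀
    refine ⟨max m (Finset.univ.sup f), fun l => ?_, (h _ (le_max_left _ _)).2.2⟩
    exact hf l _ ((Finset.le_sup (f := f) (Finset.mem_univ l)).trans (le_max_right _ _))

lemma tr_vmem {n : ℕ} (i j : Fin n) (xs : Fin n → ℕ) (n₀ : ∀ l, ∃ m, ∀ m', m ≤ m' → xs l < (tow e c m').k) :
    Tr e c (vmem i j) xs ↔ TM e c (xs i) (xs j) := by
  constructor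
  · intro H
    obtain ⟨m, h⟩ := H.at
    exact ⟨m, fun m' hm => ⟨(h m' hm).1 i, (h m' hm).1 j, (h m' hm).2⟩⟩
  · rintro ⟨m, h⟩
    choose f hf using n₀
    refine ⟨max m (Finset.univ.sup f), fun l => ?_, (h _ (le_max_left _ _)).2.2⟩
    exact hf l _ ((Finset.le_sup (f := f) (Finset.mem_univ l)).trans (le_max_right _ _))

lemma TE.symm {i j : ℕ} (H : TE e c i j) : TE e c j i := by
  obtain ⟨m, h⟩ := H
  exact ⟨m, fun m' hm => ⟨(h m' hm).2.1, (h m' hm).1, (h m' hm).2.2.symm⟩⟩

lemma TE.trans {i j l : ℕ} (H : TE e c i j) (H' : TE e c j l) : TE e c i l := by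
  obtain ⟨m, h⟩ := H
  obtain ⟨m1, h1⟩ := H'
  refine ⟨max m m1, fun m' hm => ?_⟩
  obtain ⟨a1, -, a3⟩ := h m' ((le_max_left _ _).trans hm)
  obtain ⟨-, b2, b3⟩ := h1 m' ((le_max_right _ _).trans hm)
  exact ⟨a1, b2, a3.trans b3⟩

lemma TM.congr {i j i' j' : ℕ} (H : TE e c i i') (H' : TE e c j j') (G : TM e c i j) :
    TM e c i' j' := by
  obtain ⟨m, h⟩ := H
  obtain ⟨m1, h1⟩ := H'
  obtain ⟨m2, h2⟩ := G
  refine ⟨max (max m m1) m2, fun m' hm => ?_⟩
  obtain ⟨-, a2, a3⟩ := h m' (((le_max_left _ _).trans (le_max_left _ _)).trans hm)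
  obtain ⟨-, b2, b3⟩ := h1 m' (((le_max_right _ _).trans (le_max_left _ _)).trans hm)
  obtain ⟨-, -, c3⟩ := h2 m' ((le_max_right _ _).trans hm)
  exact ⟨a2, b2, Mem'.congr a3 b3 c3⟩

include he in
lemma TE.refl (i : ℕ) : TE e c i i := by
  obtain ⟨m, h⟩ := frozen (e := e) (c := c) he i
  exact ⟨m, fun m' hm => ⟨h m' hm, h m' hm, Eq'.refl _⟩⟩

/-- equality of the generic model -/
def sd (c : C) (he : Function.Surjective e) : Setoid ℕ where
  r := TE e c
  iseqv := ⟨TE.refl he, TE.symm, TE.trans⟩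

/-- the generic model -/
def Mod (c : C) (he : Function.Surjective e) : Type := Quotient (sd c he)

/-- element with a given index -/
def mk' (c : C) (he : Function.Surjective e) (i : ℕ) : Mod c he := Quotient.mk (sd c he) i

lemma mk'_eq {i j : ℕ} : mk' c he i = mk' c he j ↔ TE e c i j :=
  ⟨fun h => Quotient.exact h, fun h => Quotient.sound h⟩

lemma mk'_surj (a : Mod c he) : ∃ i, mk' c he i = a := Quotient.exists_rep a

/-- membership of the generic model -/
def mm (a b : Mod c he) : Prop := ∃ i j, mk' c he i = a ∧ mk' c he j = b ∧ TM e c i j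

lemma mm_mk {i j : ℕ} : mm he (mk' c he i) (mk' c he j) ↔ TM e c i j := by
  constructor
  · rintro ⟨i', j', h1, h2, h3⟩
    exact TM.congr ((mk'_eq he).1 h1) ((mk'_eq he).1 h2) h3
  · exact fun h => ⟨i, j, rfl, rfl, h⟩

/-- the structure of the generic model -/
@[instance_reducible] def str (c : C) (he : Function.Surjective e) : setL.Structure (Mod c he) where
  funMap := fun f _ => Empty.elim f
  RelMap := fun {n} R =>
    match n, R with
    | _, SetRel.mem => fun xs => mm he (xs 0) (xs 1)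

lemma relMap_mem (xs : Fin 2 → Mod c he) :
    (str c he).RelMap SetRel.mem xs = mm he (xs 0) (xs 1) := rfl

/-- **truth lemma** -/
lemma truth {n : ℕ} (φ : setL.BoundedFormula Empty n) : ∀ (xs : Fin n → ℕ),
    @BoundedFormula.Realize setL (Mod c he) (str c he) Empty n φ Empty.elim
      (fun i => mk' c he (xs i)) ↔ Tr e c φ xs := by
  letI := str c he
  have hterm : ∀ {n : ℕ} (t : setL.Term (Empty ⊕ Fin n)), ∃ i : Fin n, t = &i := by
    intro n t
    cases t with
    | var a =>
      cases a with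
      | inl a => exact a.elim
      | inr i => exact ⟨i, rfl⟩
    | func f ts => exact Empty.elim f
  induction φ with
  | falsum => intro xs; exact tr_falsum.symm
  | equal t₁ t₂ =>
    intro xs
    obtain ⟨i, rfl⟩ := hterm t₁
    obtain ⟨j, rfl⟩ := hterm t₂
    refine Iff.trans ?_ (tr_veq i j xs fun l => frozen he (xs l)).symm
    rw [← mk'_eq he]
    rfl
  | rel R ts =>
    intro xs
    cases R
    obtain ⟨i, hi⟩ := hterm (ts 0)
    obtain ⟨j, hj⟩ := hterm (ts 1)
    have hts : ts = ![&i, &j] := by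
      funext l
      fin_cases l
      · exact hi
      · exact hj
    subst hts
    refine Iff.trans ?_ (tr_vmem i j xs fun l => frozen he (xs l)).symm
    rw [← mm_mk he]
    rfl
  | imp φ ψ ih₁ ih₂ =>
    intro xs
    rw [tr_imp he, ← ih₁, ← ih₂]
    rfl
  | all φ ih =>
    intro xs
    rw [tr_all he]
    have h1 : ∀ j : ℕ, (fun i => mk' c he ((Fin.snoc (α := fun _ => ℕ) xs j : _ → ℕ) i)) =
        Fin.snoc (α := fun _ => Mod c he) (fun i => mk' c he (xs i)) (mk' c he j) := by
      intro j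
      funext i
      refine Fin.lastCases ?_ (fun i' => ?_) i <;> simp
    constructor
    · intro H j
      rw [← ih, h1]
      exact H (mk' c he j)
    · intro H a
      obtain ⟨j, rfl⟩ := mk'_surj he a
      have h2 := H j
      rw [← ih, h1] at h2
      exact h2

end tower

/-- **B2**: if a stage of `V^(C)` forces every sentence of `T`, then `T` is satisfiable -/
theorem sat_of_forces {T : setL.Theory} (c : C) (h : ∀ φ ∈ T, Fs c φ) : T.IsSatisfiable := by
  obtain ⟨e, he⟩ := exists_enum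
  letI := str c he
  haveI : Nonempty (Mod c he) := ⟨mk' c he 0⟩
  haveI : Mod c he ⊨ T := by
    refine ⟨fun φ hφ => ?_⟩
    have h1 : Tr e c φ (Fin.elim0 : Fin 0 → ℕ) := by
      refine ⟨0, fun i => i.elim0, ?_⟩
      have h2 : Fc φ (e0 c) := h φ hφ
      have h3 : (fun i => (tow e c 0).v ((Fin.elim0 : Fin 0 → ℕ) i)) = e0 c := by
        funext i
        exact i.elim0
      exact (congrArg (Fc (C := C) (n := 0) φ) h3).mpr h2
    have h3 := (truth he φ Fin.elim0).2 h1
    unfold Sentence.Realize Formula.Realize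
    convert h3 using 1
  exact ⟨Theory.ModelType.of T (Mod c he)⟩

end Crest.Agent.R296.CatSatx879
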