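import Crest.Agent.R296.CatOps_365
import Crest.Agent.R296.CatLift_365

/-!
Row 296 (S0448), helper365.  **Block B: `V^(C)` forces every sentence of ZF** (`C` any small category).
-/

set_option autoImplicit false
set_option linter.unusedSimpArgs false

namespace Crest.Agent.R296.CatZFx365

open CategoryTheory FirstOrder FirstOrder.Language Crest.LogicCS.SetTheory
open Crest.Agent.R296.CatFx365 Crest.Agent.R296.CatFrcx365 Crest.Agent.R296.CatOpsx365
open Crest.Agent.R296.CatLiftx365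

universe u

variable {C : Type u} [Category.{u} C]

section lits
variable {d : C} (a b c x y : Val C d)
lemma s1_0 : sn (e0 d) a 0 = a := rfl
lemma s2_0 : sn (sn (e0 d) a) b 0 = a := rfl
lemma s2_1 : sn (sn (e0 d) a) b 1 = b := rfl
lemma s3_0 : sn (sn (sn (e0 d) a) b) c 0 = a := rfl
lemma s3_1 : sn (sn (sn (e0 d) a) b) c 1 = b := rfl
lemma s3_2 : sn (sn (sn (e0 d) a) b) c 2 = c := rfl
lemma s4_0 : sn (sn (sn (sn (e0 d) a) b) c) x 0 = a := rfl
lemma s4_1 : sn (sn (sn (sn (e0 d) a) b) c) x 1 = b := rfl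
lemma s4_2 : sn (sn (sn (sn (e0 d) a) b) c) x 2 = c := rfl
lemma s4_3 : sn (sn (sn (sn (e0 d) a) b) c) x 3 = x := rfl
end lits

theorem ext_forced (d : C) : Fs d extAx := by
  unfold Fs extAx
  simp only [fc_all, fc_imp, fc_iff, fc_vmem, fc_veq, vr_sn, vr_e0, Val.res_res, s2_0, s2_1, s3_0,
    s3_1, s3_2]
  intro d1 h1 x d2 h2 y d3 h3 H
  refine ext' fun d4 l z => ?_
  have := H d4 l z d4 (𝟙 d4)
  simpa using this

theorem pair_forced (d : C) : Fs d pairAx := by
  unfold Fs pairAx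
  simp only [fc_all, fc_iff, fc_ex, fc_or, fc_vmem, fc_veq, vr_sn, vr_e0, Val.res_res, s4_0, s4_1,
    s4_2, s4_3]
  intro d1 h1 x d2 h2 y d3 h3
  refine ⟨d3, 𝟙 d3, pv (x.res (h3 ≫ h2)) (y.res h3), fun d4 h z d5 g => ?_⟩
  rw [mem_pv]
  simp

theorem union_forced (d : C) : Fs d unionAx := by
  unfold Fs unionAx
  simp only [fc_all, fc_iff, fc_ex, fc_and, fc_vmem, fc_veq, vr_sn, vr_e0, Val.res_res, s4_0, s4_1,
    s4_2, s4_3, s3_0, s3_1, s3_2]
  intro d1 h1 x d2 h2
  refine ⟨d2, 𝟙 d2, uv (x.res h2), fun d4 h z d5 g => ?_⟩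
  rw [mem_uv]
  simp only [Val.res_res, Category.assoc, Category.id_comp]
  refine forall_congr' fun d6 => forall_congr' fun k => ?_
  constructor
  · rintro ⟨d7, m, y, h3, h4⟩
    exact ⟨d7, m, y, h4, h3⟩
  · rintro ⟨d7, m, y, h3, h4⟩
    exact ⟨d7, m, y, h4, h3⟩

theorem power_forced (d : C) : Fs d powerAx := by
  unfold Fs powerAx
  simp only [fc_all, fc_iff, fc_ex, fc_imp, fc_vmem, fc_veq, vr_sn, vr_e0, Val.res_res, s4_0, s4_1,
    s4_2, s4_3, s3_0, s3_1, s3_2]
  intro d1 h1 x d2 h2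
  refine ⟨d2, 𝟙 d2, powv (x.res h2), fun d4 h z d5 g => ?_⟩
  rw [mem_powv]
  constructor
  · intro H d6 k w d7 l hw
    have := H d7 (l ≫ k) (w.res l) (by simpa using hw)
    simpa using this
  · intro H d6 k w hw
    have := H d6 k w d6 (𝟙 d6) (by simpa using hw)
    simpa using this

theorem inf_forced (d : C) : Fs d infAx := by
  unfold Fs infAx
  simp only [fc_all, fc_iff, fc_ex, fc_imp, fc_and, fc_or, fc_not, fc_vmem, fc_veq, vr_sn, vr_e0,
    Val.res_res, s4_0, s4_1, s4_2, s4_3, s3_0, s3_1, s3_2, s2_0, s2_1]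
  intro d1 h1
  refine ⟨d1, 𝟙 d1, omv d1, ?_, ?_⟩
  · intro d2 g
    refine ⟨d2, 𝟙 d2, (zv d1).res g, fun d3 h z d4 k => ?_, ?_⟩
    · rw [Val.res_res]
      exact not_mem_zv _ _
    · rw [Category.id_comp, mem_omv]
      intro d3 l
      exact ⟨d3, 𝟙 d3, 0, by simpa [nv] using Eq'.refl _⟩
  · intro d2 h x d3 g hx d4 k
    rw [mem_omv] at hx
    obtain ⟨d5, m, n, hn⟩ := hx d4 k
    refine ⟨d5, m, (nv d1 (n + 1)).res ((m ≫ k) ≫ g ≫ h), ?_, ?_⟩
    · rw [mem_omv]
      intro d6 l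
      exact ⟨d6, 𝟙 d6, n + 1, by simpa using Eq'.refl _⟩
    · intro d6 l z d7 p
      rw [nv, Val.res_res, mem_insv]
      refine forall_congr' fun d8 => forall_congr' fun q => exists_congr fun d9 =>
        exists_congr fun r => ?_
      have e1 : Eq' (x.res ((r ≫ q) ≫ p ≫ l ≫ (m ≫ k) ≫ g))
          ((nv d1 n).res ((r ≫ q) ≫ (p ≫ l) ≫ (m ≫ k) ≫ g ≫ h)) := by
        have := hn.res ((r ≫ q) ≫ p ≫ l)
        simpa using this
      rw [Val.res_res]
      constructor
      · rintro (h3 | h3)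
        · exact Or.inl (Mem'.congr_right e1.symm (by simpa using h3))
        · exact Or.inr (Eq'.trans (by simpa using h3) e1.symm)
      · rintro (h3 | h3)
        · exact Or.inl (by simpa using Mem'.congr_right e1 h3)
        · exact Or.inr (by simpa using h3.trans e1)

theorem found_forced (d : C) : Fs d foundAx := by
  unfold Fs foundAx
  simp only [fc_all, fc_iff, fc_ex, fc_imp, fc_and, fc_or, fc_not, fc_vmem, fc_veq, vr_sn, vr_e0,
    Val.res_res, s4_0, s4_1, s4_2, s4_3, s3_0, s3_1, s3_2, s2_0, s2_1]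
  intro d1 h1 x d2 h2 H d3 h3
  obtain ⟨d4, m, a, ha⟩ := H d3 h3
  obtain ⟨d5, h, y, hy, hd⟩ := found _ a ha
  refine ⟨d5, h ≫ m, y, by simpa using hy, fun d6 g H6 => ?_⟩
  obtain ⟨d7, q, z, hz, hz'⟩ := H6 d6 (𝟙 d6)
  refine hd d7 (q ≫ g) z (by simpa using hz) ?_
  simpa using hz'

/-- the predicate of a formula with parameters -/
lemma reg_formula {k : ℕ} (φ : setL.BoundedFormula Empty (k + 1)) {d : C} (w : Fin k → Val C d) :
    Reg (fun (d' : C) (h : d' ⟶ d) (x : Val C d') => Fc φ (sn (vr h w) x)) where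
  mono h g x H := by
    have := Fc.mono φ g _ H
    simpa using this
  dense h x H := by
    refine Fc.dense φ _ fun d1 g => ?_
    obtain ⟨d2, m, h2⟩ := H d1 g
    exact ⟨d2, m, by simpa using h2⟩
  congr h x y hxy H := Fc.congr φ _ _ (sn_congr (fun _ => Eq'.refl _) hxy) H

theorem sep_forced (d : C) (k : ℕ) (φ : setL.BoundedFormula Empty (k + 1)) : Fs d (sepAx k φ) := by
  unfold sepAx
  refine fc_alls _ fun d0 _ w => ?_
  have e1 : (⟨k + 2, by omega⟩ : Fin (k + 3)) = Fin.last (k + 2) := rfl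
  have e2 : (⟨k + 1, by omega⟩ : Fin (k + 3)) = (Fin.last (k + 1)).castSucc := rfl
  have e3 : (⟨k, by omega⟩ : Fin (k + 3)) = (Fin.last k).castSucc.castSucc := rfl
  rw [e1, e2, e3]
  simp only [fc_all, fc_iff, fc_ex, fc_and, fc_vmem, vr_sn, vr_vr, Val.res_res, sn_last,
    sn_castSucc]
  intro d1 h1 a d2 h2
  refine ⟨d2, 𝟙 d2, sepv (a.res h2) (fun (d' : C) (h : d' ⟶ d2) (x : Val C d') =>
    Fc φ (sn (vr h (vr (h2 ≫ h1) w)) x)), fun d3 h3 x d4 h4 => ?_⟩
  rw [mem_sepv (a.res h2) (reg_formula φ (vr (h2 ≫ h1) w)), fc_liftAt φ (Nat.le_succ k), lift2]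
  simp only [vr_vr, Val.res_res, Category.assoc, Category.id_comp]

/-- lifting by one under the binders `a x y` -/
lemma lift1 {k : ℕ} {d : C} (w : Fin k → Val C d) (a x y : Val C d) :
    (sn (sn (sn w a) x) y ∘ fun i : Fin (k + 2) =>
      if (i : ℕ) < k then Fin.castAdd 1 i else Fin.addNat i 1) = sn (sn w x) y := by
  funext i
  refine Fin.lastCases ?_ (fun i => Fin.lastCases ?_ (fun i => ?_) i) i
  · have e : (Fin.addNat (Fin.last (k + 1)) 1 : Fin (k + 2 + 1)) = Fin.last (k + 2) :=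
      Fin.ext (by simp)
    simp only [Function.comp_apply, Fin.val_last, sn_last]
    rw [if_neg (by omega), e, sn_last]
  · have e : (Fin.addNat (Fin.last k).castSucc 1 : Fin (k + 2 + 1)) = (Fin.last (k + 1)).castSucc :=
      Fin.ext (by simp)
    simp only [Function.comp_apply, Fin.val_castSucc, Fin.val_last, sn_last, sn_castSucc]
    rw [if_neg (by omega), e, sn_castSucc, sn_last]
  · have e : (Fin.castAdd 1 i.castSucc.castSucc : Fin (k + 2 + 1)) = i.castSucc.castSucc.castSucc :=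
      Fin.ext (by simp)
    simp only [Function.comp_apply, Fin.val_castSucc, i.is_lt, if_true, sn_castSucc]
    rw [e]
    simp only [sn_castSucc]

/-- the second lifting of the replacement scheme -/
lemma lift1' {k : ℕ} {d : C} (w : Fin k → Val C d) (a x y z : Val C d) :
    (sn (sn (sn (sn w a) x) y) z ∘ fun i : Fin (k + 2 + 1) =>
      if (i : ℕ) < k + 2 then Fin.castAdd 1 i else Fin.addNat i 1) = sn (sn (sn w a) x) z := by
  funext i
  refine Fin.lastCases ?_ (fun i => ?_) i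
  · have e : (Fin.addNat (Fin.last (k + 2)) 1 : Fin (k + 2 + 1 + 1)) = Fin.last (k + 3) :=
      Fin.ext (by simp)
    simp only [Function.comp_apply, Fin.val_last, sn_last]
    rw [if_neg (by omega), e, sn_last]
  · have e : (Fin.castAdd 1 i.castSucc : Fin (k + 2 + 1 + 1)) = i.castSucc.castSucc :=
      Fin.ext (by simp)
    simp only [Function.comp_apply, Fin.val_castSucc, i.is_lt, if_true, sn_castSucc]
    rw [e]
    simp only [sn_castSucc]

/-- lifting by two under the binders `a b x y` -/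
lemma lift2' {k : ℕ} {d : C} (w : Fin k → Val C d) (a b x y : Val C d) :
    (sn (sn (sn (sn w a) b) x) y ∘ fun i : Fin (k + 2) =>
      if (i : ℕ) < k then Fin.castAdd 2 i else Fin.addNat i 2) = sn (sn w x) y := by
  funext i
  refine Fin.lastCases ?_ (fun i => Fin.lastCases ?_ (fun i => ?_) i) i
  · have e : (Fin.addNat (Fin.last (k + 1)) 2 : Fin (k + 2 + 2)) = Fin.last (k + 3) :=
      Fin.ext (by simp)
    simp only [Function.comp_apply, Fin.val_last, sn_last]
    rw [if_neg (by omega), e, sn_last]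
  · have e : (Fin.addNat (Fin.last k).castSucc 2 : Fin (k + 2 + 2)) = (Fin.last (k + 2)).castSucc :=
      Fin.ext (by simp)
    simp only [Function.comp_apply, Fin.val_castSucc, Fin.val_last, sn_last, sn_castSucc]
    rw [if_neg (by omega), e, sn_castSucc, sn_last]
  · have e : (Fin.castAdd 2 i.castSucc.castSucc : Fin (k + 2 + 2)) =
        i.castSucc.castSucc.castSucc.castSucc := Fin.ext (by simp)
    simp only [Function.comp_apply, Fin.val_castSucc, i.is_lt, if_true, sn_castSucc]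
    rw [e]
    simp only [sn_castSucc]

theorem repl_forced (d : C) (k : ℕ) (φ : setL.BoundedFormula Empty (k + 2)) : Fs d (replAx k φ) := by
  unfold replAx
  refine fc_alls _ fun d0 _ w => ?_
  have e1 : (⟨k + 1, by omega⟩ : Fin (k + 2)) = Fin.last (k + 1) := rfl
  have e2 : (⟨k, by omega⟩ : Fin (k + 2)) = (Fin.last k).castSucc := rfl
  have e3 : (⟨k + 3, by omega⟩ : Fin (k + 4)) = Fin.last (k + 3) := rfl
  have e4 : (⟨k + 2, by omega⟩ : Fin (k + 4)) = (Fin.last (k + 2)).castSucc := rfl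
  have e5 : (⟨k + 2, by omega⟩ : Fin (k + 3)) = Fin.last (k + 2) := rfl
  have e6 : (⟨k, by omega⟩ : Fin (k + 3)) = (Fin.last k).castSucc.castSucc := rfl
  have e7 : (⟨k + 1, by omega⟩ : Fin (k + 4)) = (Fin.last (k + 1)).castSucc.castSucc := rfl
  rw [e1, e2, e3, e4, e5, e6, e7]
  simp only [fc_all, fc_imp, fc_iff, fc_ex, fc_and, fc_vmem, fc_veq, vr_sn, vr_vr, Val.res_res,
    sn_last, sn_castSucc]
  intro d1 h1 a d2 h2 H d3 h3
  -- the hypothesis: every member of `a` has densely a partner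
  have H' : ∀ (d' : C) (h : d' ⟶ d2) (x : Val C d'), Mem' x (a.res (h ≫ h2)) →
      ∀ (e : C) (g : e ⟶ d'), ∃ (e' : C) (m : e' ⟶ e) (y : Val C e'),
        Fc φ (sn (sn (vr (((m ≫ g) ≫ h) ≫ h2 ≫ h1) w) (x.res (m ≫ g))) y) := by
    intro d' h x hx e g
    obtain ⟨e', m, y, hy, -⟩ := H d' h x d' (𝟙 d') (by simpa using hx) e g
    refine ⟨e', m, y, ?_⟩
    rw [fc_liftAt φ (by omega), lift1] at hy
    simpa using hy
  let Ψ : ∀ (d' : C), (d' ⟶ d3) → Val C d' → Val C d' → Prop := fun d' h x y =>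
    Fc φ (sn (sn (vr (h ≫ h3 ≫ h2 ≫ h1) w) x) y)
  refine ⟨d3, 𝟙 d3, collv (a.res (h3 ≫ h2)) Ψ, fun d4 h4 x d5 h5 hx d6 h6 => ?_⟩
  have hmono : ∀ {d' d'' : C} (h : d' ⟶ d3) (g : d'' ⟶ d') (x y : Val C d'), Ψ d' h x y →
      Ψ d'' (g ≫ h) (x.res g) (y.res g) := by
    intro d' d'' h g x y hxy
    have := Fc.mono φ g _ hxy
    simpa [Ψ] using this
  have hcongr : ∀ {d' : C} (h : d' ⟶ d3) (x x' y : Val C d'), Eq' x x' → Ψ d' h x y →
      Ψ d' h x' y := by
    intro d' h x x' y hxx H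
    exact Fc.congr φ _ _ (sn_congr (sn_congr (fun _ => Eq'.refl _) hxx) (Eq'.refl _)) H
  obtain ⟨d7, m, y, hy, hΨ⟩ := collv_spec (a.res (h3 ≫ h2)) hmono hcongr (h5 ≫ h4) (x.res h5)
    (by simpa using hx) (fun e g => by
      obtain ⟨e', m, y, hy⟩ := H' d5 (h5 ≫ h4 ≫ h3) (x.res h5) (by simpa using hx) e g
      exact ⟨e', m, y, by simpa [Ψ] using hy⟩) d6 h6
  refine ⟨d7, m, y, by simpa using hy, ?_⟩
  rw [fc_liftAt φ (by omega), lift2']
  simpa [Ψ] using hΨ

/-- **every stage forces every sentence of ZF** -/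
theorem zf_forced (d : C) : ∀ φ ∈ ZF, Fs d φ := by
  intro φ hφ
  unfold ZF at hφ
  rcases hφ with (hφ | hφ) | hφ
  · simp only [Set.mem_insert_iff, Set.mem_singleton_iff] at hφ
    rcases hφ with h | h | h | h | h | h <;> subst h
    · exact ext_forced d
    · exact pair_forced d
    · exact union_forced d
    · exact power_forced d
    · exact inf_forced d
    · exact found_forced d
  · simp only [Set.mem_iUnion, Set.mem_range] at hφ
    obtain ⟨k, ψ, rfl⟩ := hφ
    exact sep_forced d k ψ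
  · simp only [Set.mem_iUnion, Set.mem_range] at hφ
    obtain ⟨k, ψ, rfl⟩ := hφ
    exact repl_forced d k ψ

end Crest.Agent.R296.CatZFx365
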