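import Mathlib.Algebra.Group.Basic
import Mathlib.Algebra.Divisibility.Basic
import Mathlib.Algebra.Group.Action.Defs
import Mathlib.Data.Quot
import Mathlib.Tactic

/-!
Row 296, leaf A-H (helper478): closed sets without germs (architect's form S of note 2126) and the
left `P`-set `H` of germs modulo `Q`.  It satisfies H1, H2, H3.

Everything here is about a left cancellative monoid `P` in which two elements having a common right
multiple have a least one.
-/

namespace Crest.Agent.R296.ClHx478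

universe u

/-- A closed set `C = (F, Q)` of the monoid `P`, germ free: `S` is the set of all `s` with `s P` in `F`,
`R s r` says that the germ of the partial map `r x ↦ s x` is in `Q`. -/
structure Closed (P : Type u) [Monoid P] where
  S : P → Prop
  R : P → P → Prop
  one_mem : S 1
  of_dvd : ∀ {u s : P}, u ∣ s → S s → S u
  directed : ∀ {s t : P}, S s → S t → ∃ m, S m ∧ s ∣ m ∧ t ∣ m
  rel_left : ∀ {s r : P}, R s r → S s
  rel_right : ∀ {s r : P}, R s r → S r
  refl : ∀ {s : P}, S s → R s s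
  symm : ∀ {s r : P}, R s r → R r s
  trans : ∀ {s r t : P}, R s r → R r t → R s t
  /-- a germ in `Q` preserves the filter -/
  mul_right : ∀ {s r : P} (t : P), R s r → S (r * t) → R (s * t) (r * t)
  /-- the germ of `r x ↦ s x` only depends on its restriction -/
  of_mul_right : ∀ {s r : P} (t : P), S s → S r → R (s * t) (r * t) → R s r

variable {P : Type u} [Monoid P]

namespace Closed

variable (C : Closed P)

/-- `b ∈ C` : `b` lies in every member of `F` and is fixed by all germs of `Q`. -/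
def Mem (b : P) : Prop := (∀ r, C.S r → r ∣ b) ∧ ∀ s r t, C.R s r → b = r * t → s * t = b

/-- `f ~_C g`. -/
def Sim (f g : P) : Prop := ∃ u v, f * u = g * v ∧ C.R u v

/-- representatives of the elements of `H`: the germ of the partial map `r x ↦ s x`, `r ∈ S` -/
structure Pre where
  s : P
  r : P
  hr : C.S r

variable {C}

/-- two partial maps define the same element of `H` -/
def Rel (x y : C.Pre) : Prop :=
  ∃ z w, x.s * z = y.s * w ∧ C.R (x.r * z) (y.r * w)

theorem Rel.refl (x : C.Pre) : Rel x x :=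
  ⟨1, 1, rfl, by rw [mul_one]; exact C.refl x.hr⟩

theorem Rel.symm {x y : C.Pre} (h : Rel x y) : Rel y x := by
  obtain ⟨z, w, h1, h2⟩ := h
  exact ⟨w, z, h1.symm, C.symm h2⟩

theorem Rel.trans [IsLeftCancelMul P] {x y v : C.Pre} (h : Rel x y) (h' : Rel y v) : Rel x v := by
  obtain ⟨z, w, h1, h2⟩ := h
  obtain ⟨z', w', h1', h2'⟩ := h'
  obtain ⟨m, hm, ⟨t, ht⟩, ⟨t', ht'⟩⟩ := C.directed (C.rel_right h2) (C.rel_left h2')
  have e : w * t = z' * t' := by
    apply mul_left_cancel (a := y.r)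
    rw [← mul_assoc, ← mul_assoc, ← ht, ← ht']
  refine ⟨z * t, w' * t', ?_, ?_⟩
  · rw [← mul_assoc, ← mul_assoc, h1, ← h1', mul_assoc, mul_assoc, e]
  · have k1 := C.mul_right t h2 (by rw [← ht]; exact hm)
    have k2 := C.mul_right t' (C.symm h2') (by rw [← ht']; exact hm)
    rw [← ht] at k1
    rw [← ht'] at k2
    rw [← mul_assoc, ← mul_assoc]
    exact C.trans k1 (C.symm k2)

variable (C) in
/-- the setoid of `H` -/
def setoid [IsLeftCancelMul P] : Setoid C.Pre where
  r := Rel
  iseqv := ⟨Rel.refl, Rel.symm, Rel.trans⟩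

variable (C) in
/-- the left `P`-set `H` -/
def H [IsLeftCancelMul P] : Type u := Quotient C.setoid

variable [IsLeftCancelMul P]

/-- the class of the partial map `r x ↦ s x` -/
def germ (s r : P) (hr : C.S r) : C.H := Quotient.mk C.setoid ⟨s, r, hr⟩

theorem germ_eq_iff {s r s' r' : P} {hr : C.S r} {hr' : C.S r'} :
    (germ s r hr : C.H) = germ s' r' hr' ↔ ∃ z w, s * z = s' * w ∧ C.R (r * z) (r' * w) :=
  ⟨fun h => Quotient.exact h, fun h => Quotient.sound (s := C.setoid) h⟩

theorem germ_surj (h : C.H) : ∃ s r hr, h = germ (C := C) s r hr := by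
  obtain ⟨⟨s, r, hr⟩, rfl⟩ := Quotient.exists_rep (s := C.setoid) h
  exact ⟨s, r, hr, rfl⟩

/-- restriction of a partial map -/
theorem germ_mul (s r t : P) (h : C.S (r * t)) :
    (germ s r (C.of_dvd (Dvd.intro t rfl) h) : C.H) = germ (s * t) (r * t) h :=
  germ_eq_iff.2 ⟨t, 1, by rw [mul_one], by rw [mul_one]; exact C.refl h⟩

/-- the left action -/
instance : MulAction P C.H where
  smul p h := Quotient.map' (s₁ := C.setoid) (s₂ := C.setoid)
    (fun x : C.Pre => (⟨p * x.s, x.r, x.hr⟩ : C.Pre))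
    (fun x y ⟨z, w, h1, h2⟩ => ⟨z, w, by
      show p * x.s * z = p * y.s * w
      rw [mul_assoc, mul_assoc, h1], h2⟩) h
  one_smul h := by
    obtain ⟨s, r, hr, rfl⟩ := germ_surj h
    show germ (1 * s) r hr = germ s r hr
    rw [one_mul]
  mul_smul p q h := by
    obtain ⟨s, r, hr, rfl⟩ := germ_surj h
    show germ (p * q * s) r hr = germ (p * (q * s)) r hr
    rw [mul_assoc]

theorem smul_germ (p s r : P) (hr : C.S r) : p • (germ s r hr : C.H) = germ (p * s) r hr := rfl

/-- (H1) -/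
theorem smul_inj {p : P} {h h' : C.H} (e : p • h = p • h') : h = h' := by
  obtain ⟨s, r, hr, rfl⟩ := germ_surj h
  obtain ⟨s', r', hr', rfl⟩ := germ_surj h'
  rw [smul_germ, smul_germ, germ_eq_iff] at e
  obtain ⟨z, w, h1, h2⟩ := e
  rw [germ_eq_iff]
  exact ⟨z, w, mul_left_cancel (a := p) (by rw [← mul_assoc, ← mul_assoc, h1]), h2⟩

/-- (H2), first half: the ideals of `s` and `s'` meet -/
theorem exists_common {s s' : P} {h h' : C.H} (e : s • h = s' • h') :
    ∃ m, s ∣ m ∧ s' ∣ m := by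
  obtain ⟨f, r, hr, rfl⟩ := germ_surj h
  obtain ⟨f', r', hr', rfl⟩ := germ_surj h'
  rw [smul_germ, smul_germ, germ_eq_iff] at e
  obtain ⟨z, w, h1, h2⟩ := e
  exact ⟨s * f * z, ⟨f * z, by rw [mul_assoc]⟩, ⟨f' * w, by rw [h1, mul_assoc]⟩⟩

/-- (H2): if `s h = s' h'` and `s u` generates the intersection of the ideals of `s` and `s'`, then
`h` lies in `u H`. -/
theorem mem_smul_of_lcm {s s' u : P} {h h' : C.H} (e : s • h = s' • h')
    (hl : ∀ m, s ∣ m → s' ∣ m → s * u ∣ m) : ∃ k : C.H, h = u • k := by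
  obtain ⟨f, r, hr, rfl⟩ := germ_surj h
  obtain ⟨f', r', hr', rfl⟩ := germ_surj h'
  rw [smul_germ, smul_germ, germ_eq_iff] at e
  obtain ⟨z, w, h1, h2⟩ := e
  obtain ⟨x, hx⟩ := hl (s * f * z) ⟨f * z, by rw [mul_assoc]⟩ ⟨f' * w, by rw [h1, mul_assoc]⟩
  have hx' : f * z = u * x := mul_left_cancel (a := s) (by rw [← mul_assoc, hx, mul_assoc])
  refine ⟨germ x (r * z) (C.rel_left h2), ?_⟩
  rw [smul_germ, ← hx']
  exact germ_mul f r z (C.rel_left h2)

/-- the value `h(b)` of a germ at `b ∈ C`: uniqueness -/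
theorem value_unique {b : P} (hb : C.Mem b) {s r s' r' t t' : P} {hr : C.S r} {hr' : C.S r'}
    (e : (germ s r hr : C.H) = germ s' r' hr') (h : b = r * t) (h' : b = r' * t') :
    s * t = s' * t' := by
  obtain ⟨z, w, h1, h2⟩ := germ_eq_iff.1 e
  obtain ⟨x, hx⟩ := hb.1 _ (C.rel_left h2)
  have hx' := hb.2 _ _ x (C.symm h2) hx
  have e1 : t = z * x := mul_left_cancel (a := r) (by rw [← h, hx, mul_assoc])
  have e2 : t' = w * x := mul_left_cancel (a := r') (by rw [← h', ← hx', mul_assoc])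
  rw [e1, e2, ← mul_assoc, h1, mul_assoc]

theorem value_exists {b : P} (hb : C.Mem b) (h : C.H) :
    ∃ p : P, ∀ s r t (hr : C.S r), h = germ (C := C) s r hr → b = r * t → p = s * t := by
  obtain ⟨s, r, hr, rfl⟩ := germ_surj h
  obtain ⟨t, ht⟩ := hb.1 r hr
  exact ⟨s * t, fun s' r' t' hr' e h' => value_unique hb e ht h'⟩

/-- the value `h(b)` of a germ at `b ∈ C` -/
noncomputable def value {b : P} (hb : C.Mem b) (h : C.H) : P := (value_exists hb h).choose

theorem value_germ {b : P} (hb : C.Mem b) {s r t : P} {hr : C.S r} (h : b = r * t) :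
    value hb (germ s r hr : C.H) = s * t :=
  (value_exists hb (germ s r hr : C.H)).choose_spec s r t hr rfl h

/-- equivariance of the value -/
theorem value_smul {b : P} (hb : C.Mem b) (p : P) (h : C.H) :
    value hb (p • h) = p * value hb h := by
  obtain ⟨s, r, hr, rfl⟩ := germ_surj h
  obtain ⟨t, ht⟩ := hb.1 r hr
  rw [smul_germ, value_germ hb ht, value_germ hb ht, mul_assoc]

/-- (H3): if `b P` is not in `F` then never `h(b) h₁ = h`. -/
theorem value_smul_ne {b : P} (hb : C.Mem b) (hbS : ¬ C.S b) (h h₁ : C.H) :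
    value hb h • h₁ ≠ h := by
  obtain ⟨s, r, hr, rfl⟩ := germ_surj h
  obtain ⟨s₁, r₁, hr₁, rfl⟩ := germ_surj h₁
  obtain ⟨t, ht⟩ := hb.1 r hr
  rw [value_germ hb ht, smul_germ]
  intro e
  obtain ⟨z, w, h1, h2⟩ := germ_eq_iff.1 e
  have hw : t * s₁ * z = w := mul_left_cancel (a := s) (by rw [← h1]; simp only [mul_assoc])
  refine hbS (C.of_dvd ⟨s₁ * z, ?_⟩ (C.rel_right h2))
  rw [← hw, ht]
  simp only [mul_assoc]

/-- the identity germ -/
def iota : C.H := germ 1 1 C.one_mem

theorem smul_iota (f : P) : f • (iota : C.H) = germ f 1 C.one_mem := by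
  rw [iota, smul_germ, mul_one]

/-- `f y = f' y` iff `f ~_C f'` -/
theorem smul_iota_eq_iff {f g : P} : f • (iota : C.H) = g • iota ↔ C.Sim f g := by
  rw [smul_iota, smul_iota, germ_eq_iff]
  simp only [one_mul]
  rfl

theorem value_iota {b : P} (hb : C.Mem b) : value hb (iota : C.H) = b := by
  rw [iota, value_germ hb (one_mul b).symm, one_mul]

/-- every element of `H` is a "value" of the identity germ: if `r ∈ S` then `iota = r • k` -/
theorem iota_mem_smul_iff {r : P} : (∃ k : C.H, iota = r • k) ↔ C.S r := by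
  constructor
  · rintro ⟨k, hk⟩
    obtain ⟨s, r', hr', rfl⟩ := germ_surj k
    rw [iota, smul_germ, germ_eq_iff] at hk
    obtain ⟨z, w, h1, h2⟩ := hk
    rw [one_mul] at h1 h2
    refine C.of_dvd ⟨s * w, ?_⟩ (C.rel_left h2)
    rw [h1, mul_assoc]
  · intro hr
    refine ⟨germ 1 r hr, ?_⟩
    rw [iota, smul_germ, germ_eq_iff, mul_one]
    exact ⟨r, 1, by rw [one_mul, mul_one], by rw [one_mul, mul_one]; exact C.refl hr⟩

/-- membership in `u H` in terms of representatives -/
theorem germ_mem_smul_iff {s r u : P} {hr : C.S r} :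
    (∃ k : C.H, germ s r hr = u • k) ↔ ∃ z, C.S (r * z) ∧ u ∣ s * z := by
  constructor
  · rintro ⟨k, hk⟩
    obtain ⟨s', r', hr', rfl⟩ := germ_surj k
    rw [smul_germ, germ_eq_iff] at hk
    obtain ⟨z, w, h1, h2⟩ := hk
    exact ⟨z, C.rel_left h2, ⟨s' * w, by rw [h1, mul_assoc]⟩⟩
  · rintro ⟨z, hz, x, hx⟩
    refine ⟨germ x (r * z) hz, ?_⟩
    rw [smul_germ, ← hx]
    exact germ_mul s r z hz

end Closed

end Crest.Agent.R296.ClHx478
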