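import Crest.Agent.R296.ClH_478
import Mathlib.Algebra.Group.Hom.Defs

/-!
Row 296, leaf A-H, second part (helper478): restriction of closed sets along a conservative
embedding `i : P →* P'`, and the closed set of `P'` generated by a closed set of `P`.
-/

namespace Crest.Agent.R296.ClRx478

open ClHx478

universe u v

/-- `i : P →* P'` is a conservative embedding -/
structure Conservative {P : Type u} {P' : Type v} [Monoid P] [Monoid P'] (i : P →* P') : Prop where
  inj : ∀ {a b : P}, i a = i b → a = b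
  dvd : ∀ {a b : P}, i a ∣ i b → a ∣ b
  lcm : ∀ {a b : P} {x : P'}, i a ∣ x → i b ∣ x → ∃ m, a ∣ m ∧ b ∣ m ∧ i m ∣ x

variable {P : Type u} {P' : Type v} [Monoid P] [Monoid P'] {i : P →* P'}

theorem dvd_map {a b : P} (h : a ∣ b) : i a ∣ i b := by
  obtain ⟨c, rfl⟩ := h
  exact ⟨i c, map_mul i a c⟩

/-- restriction of a closed set to a conservatively embedded monoid -/
def restrict (hi : Conservative i) (C : Closed P') : Closed P where
  S s := C.S (i s)
  R s r := C.R (i s) (i r)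
  one_mem := by rw [map_one]; exact C.one_mem
  of_dvd h hs := C.of_dvd (dvd_map h) hs
  directed := by
    intro s t hs ht
    obtain ⟨m, hm, h1, h2⟩ := C.directed hs ht
    obtain ⟨n, k1, k2, k3⟩ := hi.lcm h1 h2
    exact ⟨n, C.of_dvd k3 hm, k1, k2⟩
  rel_left := C.rel_left
  rel_right := C.rel_right
  refl := C.refl
  symm := C.symm
  trans := C.trans
  mul_right := by
    intro s r t h h1
    rw [map_mul] at h1 ⊢
    rw [map_mul]
    exact C.mul_right _ h h1
  of_mul_right := by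
    intro s r t h h1 h2
    rw [map_mul, map_mul] at h2
    exact C.of_mul_right _ h h1 h2

/-- the closed set of `P'` generated by a closed set of `P` -/
def gen (i : P →* P') [IsLeftCancelMul P'] (C : Closed P) : Closed P' where
  S x := ∃ s, C.S s ∧ x ∣ i s
  R x y := ∃ z s r, x * z = i s ∧ y * z = i r ∧ C.R s r
  one_mem := ⟨1, C.one_mem, one_dvd _⟩
  of_dvd := fun h ⟨s, hs, h'⟩ => ⟨s, hs, h.trans h'⟩
  directed := by
    rintro x y ⟨s, hs, h⟩ ⟨t, ht, h'⟩
    obtain ⟨m, hm, h1, h2⟩ := C.directed hs ht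
    exact ⟨i m, ⟨m, hm, dvd_rfl⟩, h.trans (dvd_map h1), h'.trans (dvd_map h2)⟩
  rel_left := by
    rintro x y ⟨z, s, r, h1, h2, h3⟩
    exact ⟨s, C.rel_left h3, ⟨z, h1.symm⟩⟩
  rel_right := by
    rintro x y ⟨z, s, r, h1, h2, h3⟩
    exact ⟨r, C.rel_right h3, ⟨z, h2.symm⟩⟩
  refl := by
    rintro x ⟨s, hs, z, hz⟩
    exact ⟨z, s, s, hz.symm, hz.symm, C.refl hs⟩
  symm := by
    rintro x y ⟨z, s, r, h1, h2, h3⟩
    exact ⟨z, r, s, h2, h1, C.symm h3⟩
  trans := by
    rintro x y w ⟨z, s, r, h1, h2, h3⟩ ⟨z', s', r', h1', h2', h3'⟩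
    obtain ⟨m, hm, ⟨t, ht⟩, ⟨t', ht'⟩⟩ := C.directed (C.rel_right h3) (C.rel_left h3')
    have e : z * i t = z' * i t' := by
      apply mul_left_cancel (a := y)
      rw [← mul_assoc, ← mul_assoc, h2, h1', ← map_mul, ← map_mul, ← ht, ← ht']
    refine ⟨z * i t, s * t, r' * t', ?_, ?_, ?_⟩
    · rw [← mul_assoc, h1, map_mul]
    · rw [e, ← mul_assoc, h2', map_mul]
    · have k1 := C.mul_right t h3 (by rw [← ht]; exact hm)
      have k2 := C.mul_right t' (C.symm h3') (by rw [← ht']; exact hm)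
      rw [← ht] at k1
      rw [← ht'] at k2
      exact C.trans k1 (C.symm k2)
  mul_right := by
    rintro x y t ⟨z, s, r, h1, h2, h3⟩ ⟨m, hm, q, hq⟩
    obtain ⟨n, hn, ⟨a, ha⟩, ⟨b, hb⟩⟩ := C.directed (C.rel_right h3) hm
    have e : z * i a = t * (q * i b) := by
      apply mul_left_cancel (a := y)
      rw [← mul_assoc, ← mul_assoc, ← mul_assoc, ← hq, h2, ← map_mul, ← map_mul, ← ha, ← hb]
    refine ⟨q * i b, s * a, r * a, ?_, ?_, ?_⟩
    · rw [mul_assoc, ← e, ← mul_assoc, h1, map_mul]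
    · rw [mul_assoc, ← e, ← mul_assoc, h2, map_mul]
    · exact C.mul_right a h3 (by rw [← ha]; exact hn)
  of_mul_right := by
    rintro x y t _ _ ⟨z, s, r, h1, h2, h3⟩
    exact ⟨t * z, s, r, by rw [← mul_assoc, h1], by rw [← mul_assoc, h2], h3⟩

section

variable [IsLeftCancelMul P']

theorem gen_S_map (hi : Conservative i) (C : Closed P) (s : P) : (gen i C).S (i s) ↔ C.S s :=
  ⟨fun ⟨_, ht, h⟩ => C.of_dvd (hi.dvd h) ht, fun h => ⟨s, h, dvd_rfl⟩⟩

theorem gen_R_map (hi : Conservative i) (C : Closed P) (s r : P) :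
    (gen i C).R (i s) (i r) ↔ C.R s r := by
  constructor
  · rintro ⟨z, s', r', h1, h2, h3⟩
    obtain ⟨a, rfl⟩ := hi.dvd ⟨z, h1.symm⟩
    rw [map_mul] at h1
    have hz : z = i a := mul_left_cancel h1
    rw [hz, ← map_mul] at h2
    obtain rfl := hi.inj h2
    exact C.of_mul_right a (C.of_dvd (Dvd.intro _ rfl) (C.rel_left h3))
      (C.of_dvd (Dvd.intro _ rfl) (C.rel_right h3)) h3
  · intro h
    exact ⟨1, s, r, mul_one _, mul_one _, h⟩

@[ext] theorem closed_ext {C D : Closed P} (h1 : ∀ s, C.S s ↔ D.S s)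
    (h2 : ∀ s r, C.R s r ↔ D.R s r) : C = D := by
  obtain ⟨S, R, _⟩ := C
  obtain ⟨S', R', _⟩ := D
  obtain rfl : S = S' := funext fun s => propext (h1 s)
  obtain rfl : R = R' := funext fun s => funext fun r => propext (h2 s r)
  rfl

/-- restricting the generated closed set gives the original one -/
theorem restrict_gen (hi : Conservative i) (C : Closed P) : restrict hi (gen i C) = C :=
  closed_ext (gen_S_map hi C) (gen_R_map hi C)

/-- The one stage descent of germs, fact (iv): if the filter of `C` is generated by elements of `P`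
and a product of `P'` which is in `P` has one of its factors in `P`, then `C` is generated by its
restriction. -/
theorem gen_restrict (hi : Conservative i) (C : Closed P')
    (hfac : ∀ x y : P', (∃ p, x * y = i p) → (∃ p, x = i p) ∨ ∃ p, y = i p)
    (hgen : ∀ x, C.S x → ∃ s, C.S (i s) ∧ x ∣ i s) : gen i (restrict hi C) = C := by
  refine closed_ext (fun x => ⟨fun ⟨s, hs, h⟩ => C.of_dvd h hs, hgen x⟩) (fun x y => ⟨?_, ?_⟩)
  · rintro ⟨z, s, r, h1, h2, h3⟩
    have h3' : C.R (i s) (i r) := h3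
    have hx : C.S x := C.of_dvd ⟨z, h1.symm⟩ (C.rel_left h3')
    have hy : C.S y := C.of_dvd ⟨z, h2.symm⟩ (C.rel_right h3')
    exact C.of_mul_right z hx hy (by rw [h1, h2]; exact h3')
  · intro h
    obtain ⟨r, hr, z, hz⟩ := hgen y (C.rel_right h)
    have k : C.R (x * z) (y * z) := C.mul_right z h (by rw [← hz]; exact hr)
    obtain ⟨s, hs, t, ht⟩ := hgen (x * z) (C.rel_left k)
    rcases hfac (x * z) t ⟨s, ht.symm⟩ with ⟨p, hp⟩ | ⟨p, hp⟩
    · refine ⟨z, p, r, hp, hz.symm, ?_⟩
      show C.R (i p) (i r)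
      rw [← hp, hz]
      exact k
    · subst hp
      have e : x * (z * i p) = i s := by rw [← mul_assoc, ← ht]
      have e' : y * (z * i p) = i (r * p) := by rw [← mul_assoc, ← hz, map_mul]
      refine ⟨z * i p, s, r * p, e, e', ?_⟩
      show C.R (i s) (i (r * p))
      rw [← e, ← e', ← mul_assoc, ← mul_assoc]
      refine C.mul_right _ k ?_
      exact C.rel_left (C.mul_right (i p) (C.symm k) (by rw [← ht]; exact hs))

/-- `b ∈ C` passes to the generated closed set -/
theorem mem_gen (hi : Conservative i) (C : Closed P) (b : P) : (gen i C).Mem (i b) ↔ C.Mem b := by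
  constructor
  · rintro ⟨h1, h2⟩
    refine ⟨fun r hr => hi.dvd (h1 (i r) ((gen_S_map hi C r).2 hr)), fun s r t hsr hb => ?_⟩
    apply hi.inj
    rw [map_mul]
    exact h2 (i s) (i r) (i t) ((gen_R_map hi C s r).2 hsr) (by rw [hb, map_mul])
  · rintro ⟨h1, h2⟩
    refine ⟨fun x ⟨r, hr, h⟩ => h.trans (dvd_map (h1 r hr)), ?_⟩
    rintro x y t ⟨z, s, r, e1, e2, e3⟩ hb
    obtain ⟨c, hc⟩ := h1 r (C.rel_right e3)
    have k := h2 s r c e3 hc
    have : t = z * i c := by
      apply mul_left_cancel (a := y)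
      rw [← hb, ← mul_assoc, e2, hc, map_mul]
    rw [this, ← mul_assoc, e1, ← map_mul, k]

end

end Crest.Agent.R296.ClRx478
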