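import Mathlib
import Crest.Agent.R296.IfA_378

/-!
Row 296, leaf A-CLS (lemma A.5 of CORE-A, germ-free form of helper378):
every left invariant equivalence relation on the monoid is total or `~_C` for a closed set `C`.
-/

set_option autoImplicit false

namespace Crest.Agent.R296.Clsx670

universe u

variable {P : Type u} [Monoid P]

/-- `u, v` is the right lcm cofactor pair of `f, g`: `f u = g v` generates `fP ∩ gP`. -/
def IsLcm (f g u v : P) : Prop :=
  f * u = g * v ∧ ∀ x y, f * x = g * y → ∃ t, x = u * t ∧ y = v * t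

/-- `fP` and `gP` are disjoint. -/
def Disj (f g : P) : Prop := ∀ x y, f * x ≠ g * y

/-- good monoids -/
structure Good (P : Type u) [Monoid P] : Prop where
  lc : ∀ a b c : P, a * b = a * c → b = c
  unit : ∀ a b : P, a * b = 1 → a = 1
  lcm : ∀ a b : P, (∃ x y, a * x = b * y) → ∃ u v, IsLcm a b u v

/-- generic letters (finite version) -/
def Gen (P : Type u) [Monoid P] : Prop :=
  ∀ a b : P, a ≠ 1 → b ≠ 1 → ∀ S : Set P, S.Finite →
    ∃ y : P, y * a = b ∧ ∀ s ∈ S, s ≠ 1 → ∀ x z, y * x = s * z → ∃ t, x = a * t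

/-- free letters (finite version) -/
def Fre (P : Type u) [Monoid P] : Prop :=
  ∀ S : Set P, S.Finite → ∃ k : P, ∀ s ∈ S, s ≠ 1 → Disj k s

/-- triangles -/
def Tri (P : Type u) [Monoid P] : Prop :=
  ∀ c c' u v g g' : P, IsLcm c c' u v → IsLcm g g' u u →
    ∃ k x y : P, x * c = k * g ∧ y * c = k * g' ∧ x * c' = y * c'

/-- degenerate triangles -/
def TriE (P : Type u) [Monoid P] : Prop :=
  ∀ c c' g g' : P, Disj c c' → Disj g g' →
    ∃ k x y : P, x * c = k * g ∧ y * c = k * g' ∧ x * c' = y * c'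

/-- left invariant equivalence relations -/
structure LI (r : P → P → Prop) : Prop where
  refl : ∀ f, r f f
  symm : ∀ f g, r f g → r g f
  trans : ∀ f g h, r f g → r g h → r f h
  li : ∀ h f g, r (h * f) (h * g) ↔ r f g

/-- closed sets, germ free -/
structure Closed (P : Type u) [Monoid P] where
  S : Set P
  R : P → P → Prop
  one_mem : (1 : P) ∈ S
  up : ∀ a b, a * b ∈ S → a ∈ S
  dir : ∀ a ∈ S, ∀ b ∈ S, ∃ m ∈ S, (∃ x, m = a * x) ∧ ∃ y, m = b * y
  Rmem : ∀ a b, R a b → a ∈ S ∧ b ∈ S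
  Rrefl : ∀ a ∈ S, R a a
  Rsymm : ∀ a b, R a b → R b a
  Rtrans : ∀ a b c, R a b → R b c → R a c
  Rmul : ∀ a b t, R a b → b * t ∈ S → R (a * t) (b * t)
  Rdiv : ∀ a b t, a ∈ S → b ∈ S → R (a * t) (b * t) → R a b

/-- the relation `~_C` -/
def Closed.rel (C : Closed P) (f g : P) : Prop := ∃ u v, f * u = g * v ∧ C.R u v

section
variable (hP : Good P)
include hP

theorem one_of_mul_right (a b : P) (h : a * b = 1) : b = 1 := by
  have ha := hP.unit a b h
  rwa [ha, one_mul] at h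

theorem Good.mul_ne_left {a : P} (ha : a ≠ 1) (b : P) : a * b ≠ 1 := fun h => ha (hP.unit a b h)

theorem Good.mul_ne_right {b : P} (hb : b ≠ 1) (a : P) : a * b ≠ 1 :=
  fun h => hb (one_of_mul_right hP a b h)

omit hP in
theorem IsLcm.symm {f g u v : P} (h : IsLcm f g u v) : IsLcm g f v u :=
  ⟨h.1.symm, fun x y e => by
    obtain ⟨t, h1, h2⟩ := h.2 y x e.symm
    exact ⟨t, h2, h1⟩⟩

omit hP in
theorem ore (hG : Gen P) (a b : P) : ∃ h k : P, h * a = k * b := by
  by_cases ha : a = 1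
  · exact ⟨b, 1, by rw [ha]; simp⟩
  by_cases hb : b = 1
  · exact ⟨1, a, by rw [hb]; simp⟩
  obtain ⟨y, hy, -⟩ := hG a b ha hb ∅ Set.finite_empty
  exact ⟨y, 1, by rw [hy]; simp⟩

variable {r : P → P → Prop} (hr : LI r)
include hr

/-- `~_u ⊆ ~` -/
def U (r : P → P → Prop) (u : P) : Prop := ∀ f g, f * u = g * u → r f g

omit hP hr in
theorem U_one (hr : LI r) : U r (1 : P) := fun f g h => by
  simp only [mul_one] at h
  rw [h]; exact hr.refl g

omit hP hr in
theorem U_up {a b : P} (h : U r (a * b)) : U r a := fun f g e => h f g (by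
  rw [← mul_assoc, ← mul_assoc, e])

omit hP in
theorem free_of_lcm (hT : Tri P) {f g u v : P} (hfg : r f g) (hl : IsLcm f g u v)
    {x y : P} (hxy : IsLcm x y u u) : r x y := by
  obtain ⟨k, p, q, h1, h2, h3⟩ := hT f g u v x y hl hxy
  rw [← hr.li k, ← h1, ← h2]
  have e1 : r (p * f) (p * g) := (hr.li p f g).2 hfg
  have e2 : r (q * f) (q * g) := (hr.li q f g).2 hfg
  rw [← h3] at e2
  exact hr.trans _ _ _ e1 (hr.symm _ _ e2)

theorem U_of_free (hG : Gen P) {u : P} (hu : ∀ x y, IsLcm x y u u → r x y) : U r u := by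
  intro a b hab
  by_cases hu1 : u = 1
  · subst hu1; simp only [mul_one] at hab; rw [hab]; exact hr.refl b
  rw [← hr.li u]
  set a' := u * a with ha'
  set b' := u * b with hb'
  have ha1 : a' ≠ 1 := hP.mul_ne_left hu1 a
  have hb1 : b' ≠ 1 := hP.mul_ne_left hu1 b
  have hab' : a' * u = b' * u := by rw [ha', hb', mul_assoc, mul_assoc, hab]
  obtain ⟨y, hy, hyS⟩ := hG u (a' * u) hu1 (hP.mul_ne_right hu1 _) {a', b'} (Set.toFinite _)
  have key : ∀ s : P, s ∈ ({a', b'} : Set P) → s ≠ 1 → s * u = y * u → r s y := by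
    intro s hs hs1 e
    apply hu
    refine ⟨e, fun x z exz => ?_⟩
    obtain ⟨t, ht⟩ := hyS s hs hs1 z x exz.symm
    refine ⟨t, ?_, ht⟩
    apply hP.lc s
    rw [exz, ht, ← mul_assoc, ← mul_assoc, e]
  exact hr.trans _ _ _ (key a' (by simp) ha1 hy.symm)
    (hr.symm _ _ (key b' (by simp) hb1 (by rw [hy, hab'])))

theorem U_of_lcm (hG : Gen P) (hT : Tri P) {f g u v : P} (hfg : r f g) (hl : IsLcm f g u v) :
    U r u :=
  U_of_free hP hr hG fun _ _ h => free_of_lcm hr hT hfg hl h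

theorem total_of_disj (hF : Fre P) (hE : TriE P) {f g : P} (hfg : r f g) (hd : Disj f g) :
    ∀ a b, r a b := by
  have hf : f ≠ 1 := by
    rintro rfl
    exact hd g 1 (by simp)
  have h1 : ∀ x y, Disj x y → r x y := by
    intro x y hxy
    obtain ⟨k, p, q, h1, h2, h3⟩ := hE f g x y hd hxy
    rw [← hr.li k, ← h1, ← h2]
    have e1 : r (p * f) (p * g) := (hr.li p f g).2 hfg
    have e2 : r (q * f) (q * g) := (hr.li q f g).2 hfg
    rw [← h3] at e2
    exact hr.trans _ _ _ e1 (hr.symm _ _ e2)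
  intro a b
  rw [← hr.li f]
  obtain ⟨z, hz⟩ := hF {f * a, f * b} (Set.toFinite _)
  have ha := h1 _ _ (hz (f * a) (by simp) (hP.mul_ne_left hf a))
  have hb := h1 _ _ (hz (f * b) (by simp) (hP.mul_ne_left hf b))
  exact hr.trans _ _ _ (hr.symm _ _ ha) hb

/-- intersection of two members -/
theorem U_inter (hG : Gen P) (hT : Tri P) (hF : Fre P) (hE : TriE P)
    (hnt : ¬ ∀ a b, r a b) {a b : P} (ha : U r a) (hb : U r b) :
    ∃ m, U r m ∧ (∃ x, m = a * x) ∧ ∃ y, m = b * y := by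
  by_cases ha1 : a = 1
  · exact ⟨b, hb, ⟨b, by rw [ha1, one_mul]⟩, ⟨1, by simp⟩⟩
  by_cases hb1 : b = 1
  · exact ⟨a, ha, ⟨1, by simp⟩, ⟨a, by rw [hb1, one_mul]⟩⟩
  -- `g := a`
  obtain ⟨g1, hg1, hS1⟩ := hG a (a * a) ha1 (hP.mul_ne_left ha1 _) {a} (Set.toFinite _)
  obtain ⟨g2, hg2, hS2⟩ := hG b (g1 * b) hb1 (hP.mul_ne_right hb1 _) {a} (Set.toFinite _)
  have r1 : r a g1 := ha _ _ hg1.symm
  have r2 : r g1 g2 := hb _ _ hg2.symm
  have r3 : r a g2 := hr.trans _ _ _ r1 r2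
  -- a common multiple of `a` and `b` exists
  have hcm : ∃ x y, a * x = b * y := by
    by_contra hno
    apply hnt
    apply total_of_disj hP hr hF hE r3
    intro x y hxy
    obtain ⟨t, ht⟩ := hS2 a (by simp) ha1 y x hxy.symm
    have : g1 * (b * t) = a * x := by
      rw [← mul_assoc, ← hg2, mul_assoc, ← ht, hxy]
    obtain ⟨t', ht'⟩ := hS1 a (by simp) ha1 _ _ this
    exact hno ⟨t', t, ht'.symm⟩
  obtain ⟨p, q, hpq⟩ := hP.lcm a b hcm
  refine ⟨a * p, ?_, ⟨p, rfl⟩, ⟨q, hpq.1⟩⟩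
  have hv : a * (a * p) = g2 * (a * p) := by
    have h1 : g2 * (b * q) = g1 * (b * q) := by rw [← mul_assoc, hg2, mul_assoc]
    have h2 : g1 * (a * p) = a * (a * p) := by rw [← mul_assoc, hg1, mul_assoc]
    rw [← h2, hpq.1, h1]
  have hl : IsLcm a g2 (a * p) (a * p) := by
    refine ⟨hv, fun x z hxz => ?_⟩
    obtain ⟨t, ht⟩ := hS2 a (by simp) ha1 z x hxz.symm
    have h3 : g1 * (b * t) = a * x := by
      rw [← mul_assoc, ← hg2, mul_assoc, ← ht, hxz]
    obtain ⟨t', ht'⟩ := hS1 a (by simp) ha1 _ _ h3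
    obtain ⟨w, hw1, hw2⟩ := hpq.2 t' t ht'.symm
    have hz : z = (a * p) * w := by
      rw [ht, ht', hw1, mul_assoc]
    refine ⟨w, ?_, hz⟩
    apply hP.lc a
    rw [hxz, hz, ← mul_assoc g2, ← hv, mul_assoc]
  exact U_of_lcm hP hr hG hT r3 hl

/-- the relation on the filter -/
def RR (r : P → P → Prop) (s t : P) : Prop := U r s ∧ U r t ∧ ∃ f g, r f g ∧ f * s = g * t

omit hP in
theorem RR_rel (hG : Gen P) {s t : P} (h : RR r s t) {f g : P} (e : f * s = g * t) : r f g := by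
  obtain ⟨hs, ht, f', g', hfg, e'⟩ := h
  obtain ⟨h, k, hk⟩ := ore hG (f * s) (f' * s)
  rw [← hr.li h]
  have h1 : r (h * f) (k * f') := hs _ _ (by rw [mul_assoc, mul_assoc, hk])
  have h2 : r (h * g) (k * g') := ht _ _ (by rw [mul_assoc, mul_assoc, ← e, hk, e'])
  have h3 : r (k * f') (k * g') := (hr.li k _ _).2 hfg
  exact hr.trans _ _ _ h1 (hr.trans _ _ _ h3 (hr.symm _ _ h2))

theorem RR_mul (hG : Gen P) (hT : Tri P) {s q t : P} (h : RR r s q) (hq : U r (q * t)) :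
    RR r (s * t) (q * t) := by
  obtain ⟨hs, hq0, f, g, hfg, e⟩ := h
  by_cases hqt : q * t = 1
  · have hq1 := hP.unit _ _ hqt
    have ht1 := one_of_mul_right hP _ _ hqt
    subst hq1 ht1
    simp only [mul_one]
    exact ⟨hs, hq0, f, g, hfg, e⟩
  -- make `f ≠ 1`
  have hf1 : (q * t) * f ≠ 1 := hP.mul_ne_left hqt f
  set k := q * t with hk
  have hfg' : r (k * f) (k * g) := (hr.li k f g).2 hfg
  obtain ⟨g1, hg1, hS⟩ := hG k ((k * g) * k) hqt (hP.mul_ne_right hqt _) {k * f}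
    (Set.toFinite _)
  have r1 : r (k * g) g1 := hq _ _ hg1.symm
  have r2 : r (k * f) g1 := hr.trans _ _ _ hfg' r1
  have e1 : k * f * (s * t) = g1 * k := by
    rw [hg1]
    calc k * f * (s * t) = k * (f * s) * t := by simp only [mul_assoc]
      _ = k * g * k := by rw [e, hk]; simp only [mul_assoc]
  have hl : IsLcm (k * f) g1 (s * t) k := by
    refine ⟨e1, fun x z hxz => ?_⟩
    obtain ⟨w, hw⟩ := hS (k * f) (by simp) hf1 z x hxz.symm
    refine ⟨w, ?_, hw⟩
    apply hP.lc (k * f)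
    rw [hxz, hw, ← mul_assoc g1, ← e1, mul_assoc]
  refine ⟨U_of_lcm hP hr hG hT r2 hl, hq, f, g, hfg, ?_⟩
  rw [hk, ← mul_assoc, ← mul_assoc, e]

theorem RR_div (hG : Gen P) {s q t : P} (hs : U r s) (hq : U r q) (h : RR r (s * t) (q * t)) :
    RR r s q := by
  obtain ⟨hst, hqt, f, g, hfg, e⟩ := h
  refine ⟨hs, hq, ?_⟩
  by_cases hs1 : s = 1
  · subst hs1
    refine ⟨g * q, g, ?_, by simp⟩
    have h1 : r (g * q) f := hst _ _ (by rw [one_mul] at *; rw [e, mul_assoc])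
    exact hr.trans _ _ _ h1 hfg
  · obtain ⟨f', hf', -⟩ := hG s ((s * g) * q) hs1
      (by rw [mul_assoc]; exact hP.mul_ne_left hs1 _) ∅ Set.finite_empty
    refine ⟨f', s * g, ?_, hf'⟩
    have h1 : r f' (s * f) := hst _ _ (by
      rw [← mul_assoc, hf', mul_assoc, mul_assoc, mul_assoc, e])
    exact hr.trans _ _ _ h1 ((hr.li s f g).2 hfg)

theorem RR_trans (hG : Gen P) {a b c : P} (h1 : RR r a b) (h2 : RR r b c) : RR r a c := by
  obtain ⟨ha, hb, f, g, hfg, e⟩ := h1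
  obtain ⟨-, hc, f', g', hfg', e'⟩ := h2
  obtain ⟨h, k, hk⟩ := ore hG (g * b) (f' * b)
  refine ⟨ha, hc, h * f, k * g', ?_, ?_⟩
  · have x1 : r (h * f) (h * g) := (hr.li h _ _).2 hfg
    have x2 : r (h * g) (k * f') := hb _ _ (by rw [mul_assoc, mul_assoc, hk])
    have x3 : r (k * f') (k * g') := (hr.li k _ _).2 hfg'
    exact hr.trans _ _ _ x1 (hr.trans _ _ _ x2 x3)
  · rw [mul_assoc, e, hk, mul_assoc, e']

/-- the closed set of a non-total LI relation -/
def closedOf (hG : Gen P) (hT : Tri P) (hF : Fre P) (hE : TriE P)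
    (hnt : ¬ ∀ a b, r a b) : Closed P where
  S := {u | U r u}
  R := RR r
  one_mem := U_one hr
  up := fun a b h => U_up h
  dir := fun a ha b hb => U_inter hP hr hG hT hF hE hnt ha hb
  Rmem := fun a b h => ⟨h.1, h.2.1⟩
  Rrefl := fun a ha => ⟨ha, ha, 1, 1, hr.refl 1, rfl⟩
  Rsymm := fun a b h => by
    obtain ⟨ha, hb, f, g, hfg, e⟩ := h
    exact ⟨hb, ha, g, f, hr.symm _ _ hfg, e.symm⟩
  Rtrans := fun a b c h1 h2 => RR_trans hP hr hG h1 h2
  Rmul := fun a b t h1 h2 => RR_mul hP hr hG hT h1 h2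
  Rdiv := fun a b t ha hb h => RR_div hP hr hG ha hb h

theorem closedOf_rel (hG : Gen P) (hT : Tri P) (hF : Fre P) (hE : TriE P)
    (hnt : ¬ ∀ a b, r a b) (f g : P) :
    (closedOf hP hr hG hT hF hE hnt).rel f g ↔ r f g := by
  constructor
  · rintro ⟨u, v, e, hR⟩
    exact RR_rel hr hG hR e
  · intro h
    have hnd : ∃ x y, f * x = g * y := by
      by_contra hno
      exact hnt (total_of_disj hP hr hF hE h (fun x y hxy => hno ⟨x, y, hxy⟩))
    obtain ⟨u, v, hl⟩ := hP.lcm f g hnd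
    exact ⟨u, v, hl.1, U_of_lcm hP hr hG hT h hl,
      U_of_lcm hP hr hG hT (hr.symm _ _ h) hl.symm, f, g, h, hl.1⟩

/-- **A.5**: every left invariant equivalence relation is total or `~_C`. -/
theorem classification (hG : Gen P) (hT : Tri P) (hF : Fre P) (hE : TriE P) :
    (∀ a b, r a b) ∨ ∃ C : Closed P, ∀ f g, C.rel f g ↔ r f g := by
  by_cases h : ∀ a b, r a b
  · exact Or.inl h
  · exact Or.inr ⟨closedOf hP hr hG hT hF hE h, closedOf_rel hP hr hG hT hF hE h⟩

end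

/-! ### bridge to the interface `IfA_378` -/

open IfAx378 in
/-- **A-CLS** of the interface. -/
theorem stCls (P : Type u) [Monoid P] : IfAx378.StCls P := by
  intro hgood hGen hLet hTri hTriD r hr
  have hP : Good P := ⟨hgood.lc, hgood.unit, fun a b ⟨x, y, h⟩ => hgood.lcm a b x y h⟩
  have hG : Gen P := by
    classical
    intro a b ha hb S hS
    obtain ⟨y, hy, hy2⟩ := hGen a b (hS.toFinset.erase 1) ha hb (by simp)
    refine ⟨y, hy, fun s hs hs1 x z hxz => ?_⟩
    obtain ⟨t, ht⟩ := hy2 s (by simp [hs1, hs]) x ⟨z, hxz⟩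
    refine ⟨t, hP.lc y _ _ ?_⟩
    rw [ht, ← hy, mul_assoc]
  have hF : Fre P := by
    classical
    intro S hS
    obtain ⟨k, -, hk⟩ := hLet (hS.toFinset.erase 1) (by simp)
    exact ⟨k, fun s hs hs1 => hk s (by simp [hs1, hs])⟩
  have hT : Tri P := fun c c' u v g g' h1 h2 => hTri c c' u v g g' h1 h2
  have hE : TriE P := fun c c' g g' h1 h2 => hTriD c c' g g' h1 h2
  have hr' : LI r := ⟨hr.refl, hr.symm, hr.trans, hr.li⟩
  rcases classification hP hr' hG hT hF hE with h | ⟨C, hC⟩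
  · exact Or.inl h
  · right
    refine ⟨{ S := C.S
              one := C.one_mem
              up := fun x s ⟨c, hc⟩ hs => C.up x c (hc ▸ hs)
              dir := fun s t hs ht => by
                obtain ⟨m, hm, ⟨x, hx⟩, ⟨y, hy⟩⟩ := C.dir s hs t ht
                exact ⟨m, hm, ⟨x, hx⟩, ⟨y, hy⟩⟩
              R := C.R
              dom := fun s r h => (C.Rmem s r h).1
              refl := C.Rrefl
              symm := C.Rsymm
              trans := fun s r q => C.Rtrans s r q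
              act := C.Rmul
              shrink := fun s r t h =>
                C.Rdiv s r t (C.up _ _ (C.Rmem _ _ h).1) (C.up _ _ (C.Rmem _ _ h).2) h }, ?_⟩
    intro f g
    exact (hC f g).symm

end Crest.Agent.R296.Clsx670
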