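import Crest.Agent.R296.LctSt_153

/-!
# Row 296 (S0448): LITERAL OUTPUT of block A = INPUT of block C (helper378)

`Kit P A` is helper153's (LctSt_153).  Added: the T-letters (A.7) in filter form.
-/

set_option autoImplicit false

open Crest.Agent.R296.IfAx378 (IsGood IsLcm Disj Cons Filt Tower)
open Crest.Agent.R296.LctStx153 (GenByA Kit)

namespace Crest.Agent.R296.OutAx378

variable {P : Type 1} [Monoid P]

/-- data of a T-letter: stage `β`, filter `F` generated by its members in `A β`, `a ≠ 1`, `p ∣ b`,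
`¬ b ∣ p`, `p` in all members of `F` -/
@[ext] structure TDat (A : Ordinal.{0} → Submonoid P) where
  β : Ordinal.{0}
  F : Filt P
  a : P
  b : P
  p : P
  odd : β % 2 = 1
  gen : GenByA P A F β
  ha : a ∈ A β
  hb : b ∈ A β
  hp : p ∈ A β
  a_ne : a ≠ 1
  mem : ∀ s ∈ F.S, s ∣ p
  dvd : p ∣ b
  ndvd : ¬ b ∣ p

/-- T-lemma A.7: `η D` is the letter of the datum `D` -/
structure TLem {A : Ordinal.{0} → Submonoid P} (η : TDat A → P) : Prop where
  succ : ∀ D, η D ∈ A (Order.succ D.β)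
  new : ∀ D, η D ∉ A D.β
  rel : ∀ D, η D * D.a = D.b
  /-- (T3): `η` is in all members of `F`; so `s u = s' u`, `u ∈ F`, imply `s η = s' η` -/
  t3 : ∀ D, ∀ u ∈ D.F.S, u ∣ η D
  /-- (T0) -/
  t0 : ∀ D s z, s ∈ A D.β → s * η D * z ∈ A D.β → D.a ∣ z
  /-- (T1) -/
  t1 : ∀ D u z, u ∣ D.p → u ∣ η D * z → ¬ D.a ∣ z → u ∈ D.F.S
  /-- (T1') -/
  t1' : ∀ D u z, u ∈ A D.β → u ∣ η D * z → ¬ D.a ∣ z → u ∈ D.F.S
  /-- (T2) -/
  t2 : ∀ D D' s s' z z', s * D.p = s' * D'.p → s * η D * z = s' * η D' * z' →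
    ¬ D.a ∣ z → ¬ D'.a ∣ z' →
    D = D' ∧ z = z' ∧ ∃ u ∈ D.F.S, s * u = s' * u

/-- everything block C needs -/
structure OutA (P : Type 1) [Monoid P] where
  A : Ordinal.{0} → Submonoid P
  kit : Kit P A
  η : TDat A → P
  t : TLem η

/-- end product of block A -/
def StA : Prop := ∃ (P : Type 1) (_ : Monoid P), Nonempty (OutA P)

/-! ## pieces (over the tower of `IfA_378`, which STAYS as it is) -/

/-- A-PROP (owner 779) -/
def StProp : Prop := ∀ (P : Type 1) [Monoid P] (_ : Tower P),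
  LctStx153.GenS P ∧ LctStx153.LetS P ∧ LctStx153.TriX P ∧ LctStx153.TriXD P

/-- A-KIT (owner 70): from StProp, ACap_565, Res_70 -/
def StKit : Prop := ∀ (P : Type 1) [Monoid P] (T : Tower P), Kit P T.A

/-- A-TOUT (owner 774): from TFin_774 -/
def StTOut : Prop := ∀ (P : Type 1) [Monoid P] (T : Tower P), ∃ η : TDat T.A → P, TLem η

theorem stA_of (h1 : IfAx378.StTow) (h2 : StKit) (h3 : StTOut) : StA := by
  obtain ⟨P, hM, ⟨T⟩⟩ := h1
  obtain ⟨η, hη⟩ := h3 P T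
  exact ⟨P, hM, ⟨⟨T.A, h2 P T, η, hη⟩⟩⟩

end Crest.Agent.R296.OutAx378
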