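import Crest.Agent.R296.Beta_365
import Crest.Agent.R296.OutA_378

/-!
Row 296 (S0448), helper365.  **Code stages** for the PP graph (form of helper564): every entry
`(q, y, r, z, p, γ)` gets its own stage `≥ γ`.
-/

set_option autoImplicit false

namespace Crest.Agent.R296.Codex365

open Crest.Agent.R296.IfAx378 Crest.Agent.R296.CondCx153 Crest.Agent.R296.LctStx153
open Crest.Agent.R296.Betax365

universe v

/-- `K` is an increasing union of small sets -/
def Rk (K : Type*) : Prop := ∃ rk : K → Ordinal.{v}, ∀ γ, Small.{v} {k | rk k ≤ γ}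

theorem rk_ord : Rk.{v} Ordinal.{v} :=
  ⟨fun γ => γ, fun γ => (inferInstance : Small.{v} (Set.Iic γ))⟩

theorem Rk.prod {K L : Type*} (h : Rk.{v} K) (h' : Rk.{v} L) : Rk.{v} (K × L) := by
  obtain ⟨r, hr⟩ := h
  obtain ⟨s, hs⟩ := h'
  refine ⟨fun x => max (r x.1) (s x.2), fun γ => ?_⟩
  have := hr γ
  have := hs γ
  have : Small.{v} ({k | r k ≤ γ} ×ˢ {l | s l ≤ γ} : Set (K × L)) := inferInstance
  have h2 : {x : K × L | max (r x.1) (s x.2) ≤ γ} ⊆ {k | r k ≤ γ} ×ˢ {l | s l ≤ γ} :=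
    fun x (hx : max (r x.1) (s x.2) ≤ γ) =>
      ⟨(le_max_left (r x.1) (s x.2)).trans hx, (le_max_right (r x.1) (s x.2)).trans hx⟩
  exact small_subset h2

/-- injective stage function above `need` -/
theorem Rk.stage {K : Type*} (h : Rk.{v} K) (need : K → Ordinal.{v}) :
    ∃ β : K → Ordinal.{v}, Function.Injective β ∧ ∀ k, need k ≤ β k := by
  obtain ⟨r, hr⟩ := h
  obtain ⟨β, h1, h2⟩ := exists_beta (fun k => max (need k) (r k)) (fun γ => by
    have := hr γ
    have h2 : {k | max (need k) (r k) = γ} ⊆ {k | r k ≤ γ} :=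
      fun k (hk : max (need k) (r k) = γ) => (le_max_right (need k) (r k)).trans hk.le
    exact small_subset h2)
  exact ⟨β, h1, fun k => (le_max_left _ _).trans (h2 k).1⟩

theorem Rk.of_inj {K L : Type*} (h : Rk.{v} L) (f : K → L) (hf : Function.Injective f) :
    Rk.{v} K := by
  obtain ⟨r, hr⟩ := h
  refine ⟨fun k => r (f k), fun γ => ?_⟩
  have := hr γ
  exact small_of_injective (β := {l | r l ≤ γ}) (f := fun x : {k | r (f k) ≤ γ} => ⟨f x.1, x.2⟩)
    (fun x y hxy => Subtype.ext (hf (congrArg Subtype.val hxy)))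

variable {P : Type 1}

/-- small subsets -/
theorem rk_cond [Monoid P] [IsGood P] (h : Rk.{0} P) : Rk.{0} (Cond P) := by
  obtain ⟨r, hr⟩ := (h.prod (rk_ord.prod (⟨fun _ => 0, fun _ => inferInstance⟩ : Rk.{0} Bool)) :
    Rk.{0} (P × Lab))
  have hb : ∀ q : Cond P, ∃ γ, ∀ x ∈ q.q, r x ≤ γ := by
    intro q
    have := q.h.small
    obtain ⟨γ, hγ⟩ := Ordinal.bddAbove_of_small (s := r '' q.q)
    exact ⟨γ, fun x hx => hγ ⟨x, hx, rfl⟩⟩
  choose rk hrk using hb
  refine ⟨rk, fun γ => ?_⟩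
  have := hr γ
  refine small_of_injective (β := Set {x | r x ≤ γ})
    (f := fun q : {q | rk q ≤ γ} => {x | x.1 ∈ q.1.q}) (fun q q' hq => ?_)
  have h1 : ∀ x, x ∈ q.1.q ↔ x ∈ q'.1.q := by
    intro x
    constructor
    · intro hx
      have : (⟨x, (hrk _ _ hx).trans q.2⟩ : {x | r x ≤ γ}) ∈ {x : {x | r x ≤ γ} | x.1 ∈ q.1.q} := hx
      rw [show ({x : {x | r x ≤ γ} | x.1 ∈ q.1.q}) = {x | x.1 ∈ q'.1.q} from hq] at this
      exact this
    · intro hx
      have : (⟨x, (hrk _ _ hx).trans q'.2⟩ : {x | r x ≤ γ}) ∈ {x : {x | r x ≤ γ} | x.1 ∈ q'.1.q} := hx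
      rw [← show ({x : {x | r x ≤ γ} | x.1 ∈ q.1.q}) = {x | x.1 ∈ q'.1.q} from hq] at this
      exact this
  apply Subtype.ext
  obtain ⟨⟨q, hq1⟩, hq2⟩ := q
  obtain ⟨⟨q', hq1'⟩, hq2'⟩ := q'
  have h3 : q = q' := Set.ext h1
  subst h3
  rfl

theorem rk_of_kit [Monoid P] {A : Ordinal.{0} → Submonoid P} (K : Kit P A) : Rk.{0} P := by
  choose rk hrk using K.exh
  refine ⟨rk, fun γ => ?_⟩
  have := K.small γ
  have h2 : {p | rk p ≤ γ} ⊆ (A γ : Set P) := fun p (hp : rk p ≤ γ) => K.mono hp (hrk p)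
  exact small_subset h2

/-- codes of the entries of the PP graph -/
abbrev Code (P : Type 1) : Type 1 := (Cond P × P × Cond P × P × P) × Ordinal.{0}

theorem exists_code [Monoid P] {A : Ordinal.{0} → Submonoid P} (K : Kit P A) :
    ∃ st : Code P → Ordinal.{0}, Function.Injective st ∧ ∀ k, k.2 ≤ st k := by
  have := K.good
  have h := rk_of_kit K
  have h' := rk_cond h
  exact ((h'.prod (h.prod (h'.prod (h.prod h)))).prod rk_ord).stage fun k => k.2

end Crest.Agent.R296.Codex365
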