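import Crest.Agent.R296.CondC_153

/-!
Row 296 (S0448), helper478.  **Codes**: `f : Ordinal.{0} → T` with unbounded odd fibres, for every
`T : Type 1` with a rank function into `Ordinal.{0}` with small fibres; instance `Cond P × P × P`.
-/

set_option autoImplicit false

open Cardinal Ordinal

namespace Crest.Agent.R296.Codex478

open Crest.Agent.R296.IfAx378 Crest.Agent.R296.CondCx153

/-- a small type injects into the ordinals -/
theorem exists_inj_small (X : Type 1) (h : Small.{0} X) :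
    ∃ j : X → Ordinal.{0}, Function.Injective j := by
  classical
  refine ⟨fun x => Ordinal.typein (WellOrderingRel (α := Shrink.{0} X)) (equivShrink X x), ?_⟩
  intro x y hxy
  exact (equivShrink X).injective (Ordinal.typein_injective _ hxy)

/-- a type with a rank function with small fibres injects into pairs of ordinals -/
theorem exists_inj (T : Type 1) (rk : T → Ordinal.{0}) (h : ∀ g, Small.{0} {t // rk t = g}) :
    ∃ j : T → Ordinal.{0} × Ordinal.{0}, Function.Injective j := by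
  choose J hJ using fun g => exists_inj_small {t // rk t = g} (h g)
  refine ⟨fun t => (rk t, J (rk t) ⟨t, rfl⟩), ?_⟩
  intro x y hxy
  rw [Prod.mk.injEq] at hxy
  obtain ⟨h1, h2⟩ := hxy
  have key : ∀ g (hx : rk x = g) (hy : rk y = g), J g ⟨x, hx⟩ = J g ⟨y, hy⟩ → x = y := by
    intro g hx hy h
    exact congrArg Subtype.val (hJ g h)
  have h3 : J (rk y) ⟨x, h1⟩ = J (rk y) ⟨y, rfl⟩ := by
    rw [← h2]
    clear h2
    generalize rk y = g at h1
    subst h1
    rfl
  exact key (rk y) h1 rfl h3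

/-- triples of ordinals are as many as ordinals -/
theorem exists_equiv : Nonempty (Ordinal.{0} ≃ (Ordinal.{0} × Ordinal.{0}) × Ordinal.{0}) := by
  rw [← Cardinal.eq]
  have h : ℵ₀ ≤ #(Ordinal.{0}) := by
    rw [Cardinal.aleph0_le_mk_iff]
    infer_instance
  rw [Cardinal.mk_prod, Cardinal.mk_prod]
  simp only [Cardinal.lift_id]
  rw [Cardinal.mul_eq_self h, Cardinal.mul_eq_self h]

/-- the range of an injection of the ordinals into the ordinals is unbounded -/
theorem unbounded_of_inj (φ : Ordinal.{0} → Ordinal.{0}) (hφ : Function.Injective φ)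
    (g : Ordinal.{0}) : ∃ z, g ≤ φ z := by
  by_contra H
  push Not at H
  have : Function.Injective (fun z => (⟨φ z, H z⟩ : Set.Iio g)) := by
    intro a b hab
    exact hφ (congrArg Subtype.val hab)
  have hs : Small.{0} (Ordinal.{0}) := small_of_injective this
  exact not_small_ordinal.{0, 0} hs

/-- **codes** -/
theorem exists_code (T : Type 1) [Nonempty T] (rk : T → Ordinal.{0})
    (h : ∀ g, Small.{0} {t // rk t = g}) :
    ∃ f : Ordinal.{0} → T, ∀ t g, ∃ b, g ≤ b ∧ b % 2 = 1 ∧ f b = t := by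
  classical
  obtain ⟨j, hj⟩ := exists_inj T rk h
  obtain ⟨E⟩ := exists_equiv
  let inv : Ordinal.{0} × Ordinal.{0} → T := Function.invFun j
  have hinv : ∀ t, inv (j t) = t := Function.leftInverse_invFun hj
  refine ⟨fun b => inv (E (b / 2)).1, fun t g => ?_⟩
  obtain ⟨z, hz⟩ := unbounded_of_inj (fun z => E.symm (j t, z)) (by
    intro a b hab
    have := E.symm.injective hab
    exact (Prod.mk.inj this).2) g
  refine ⟨2 * E.symm (j t, z) + 1, ?_, ?_, ?_⟩
  · refine hz.trans ?_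
    refine le_trans ?_ (le_add_right (le_refl _))
    exact Ordinal.le_mul_right _ (by norm_num)
  · rw [Ordinal.mul_add_mod_self, Ordinal.mod_eq_of_lt (by norm_num)]
  · have h2 : (2 : Ordinal.{0}) ≠ 0 := by norm_num
    show inv (E ((2 * E.symm (j t, z) + 1) / 2)).1 = t
    rw [Ordinal.mul_add_div _ h2, Ordinal.div_eq_zero_of_lt (by norm_num), add_zero,
      Equiv.apply_symm_apply]
    exact hinv t

/-! ### instance: states `(D, p, t)` -/

variable {P : Type 1} [Monoid P] (A : Ordinal.{0} → Submonoid P)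

/-- the level of a point -/
noncomputable def lev (p : P) : Ordinal.{0} := sInf {β | p ∈ A β}

variable {A}

theorem mem_lev (exh : ∀ p : P, ∃ β, p ∈ A β) (p : P) : p ∈ A (lev A p) :=
  csInf_mem (s := {β | p ∈ A β}) (exh p)

variable (A) in
/-- a bound for the labels of a condition -/
def Bd (c : Cond P) (β : Ordinal.{0}) : Prop :=
  ∀ s l, (s, l) ∈ c.q → s ∈ A β ∧ l.1 < β

theorem exists_bd (mono : Monotone A) (exh : ∀ p : P, ∃ β, p ∈ A β) (c : Cond P) :
    ∃ β, Bd A c β := by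
  have := c.h.small
  let φ : c.q → Ordinal.{0} := fun x => max (lev A x.1.1) (Order.succ x.1.2.1)
  have hb : BddAbove (Set.range φ) := Ordinal.bddAbove_of_small
  obtain ⟨β, hβ⟩ := hb
  refine ⟨β, fun s l hs => ?_⟩
  have h1 : φ ⟨(s, l), hs⟩ ≤ β := hβ ⟨_, rfl⟩
  have h2 : max (lev A s) (Order.succ l.1) ≤ β := h1
  exact ⟨mono ((le_max_left _ _).trans h2) (mem_lev exh s),
    Order.succ_le_iff.1 ((le_max_right _ _).trans h2)⟩

variable (A) in
/-- the rank of a condition -/
noncomputable def rkC (c : Cond P) : Ordinal.{0} := sInf {β | Bd A c β}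

theorem bd_rkC (mono : Monotone A) (exh : ∀ p : P, ∃ β, p ∈ A β) (c : Cond P) :
    Bd A c (rkC A c) := csInf_mem (s := {β | Bd A c β}) (exists_bd mono exh c)

theorem Bd.mono (mono : Monotone A) {c : Cond P} {β γ : Ordinal.{0}} (h : Bd A c β) (hβ : β ≤ γ) :
    Bd A c γ := fun s l hs => ⟨mono hβ (h s l hs).1, (h s l hs).2.trans_le hβ⟩

theorem small_cond (small : ∀ β, Small.{0} (A β)) (g : Ordinal.{0}) :
    Small.{0} {c : Cond P // Bd A c g} := by
  have := small g
  have h1 : Small.{0} (Set (A g × Set.Iio g × Bool)) := inferInstance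
  refine small_of_injective (β := Set (A g × Set.Iio g × Bool))
    (f := fun c => {x | ((x.1 : P), ((x.2.1 : Ordinal.{0}), x.2.2)) ∈ c.1.q}) ?_
  rintro ⟨⟨c, hc⟩, hb⟩ ⟨⟨c', hc'⟩, hb'⟩ h
  have hcc : c = c' := by
    ext ⟨s, i, ε⟩
    constructor
    · intro hs
      have h2 := hb s (i, ε) hs
      have h3 : ((⟨s, h2.1⟩, ⟨i, h2.2⟩, ε) : A g × Set.Iio g × Bool) ∈
          {x : A g × Set.Iio g × Bool | ((x.1 : P), ((x.2.1 : Ordinal.{0}), x.2.2)) ∈ c} := hs
      have h4 := (Set.ext_iff.1 h _).1 h3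
      exact h4
    · intro hs
      have h2 := hb' s (i, ε) hs
      have h3 : ((⟨s, h2.1⟩, ⟨i, h2.2⟩, ε) : A g × Set.Iio g × Bool) ∈
          {x : A g × Set.Iio g × Bool | ((x.1 : P), ((x.2.1 : Ordinal.{0}), x.2.2)) ∈ c'} := hs
      have h4 := (Set.ext_iff.1 h _).2 h3
      exact h4
  subst hcc
  rfl

variable (A) in
/-- rank of a state -/
noncomputable def rk3 (t : Cond P × P × P) : Ordinal.{0} :=
  max (rkC A t.1) (max (lev A t.2.1) (lev A t.2.2))

theorem small_rk3 (mono : Monotone A) (small : ∀ β, Small.{0} (A β))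
    (exh : ∀ p : P, ∃ β, p ∈ A β) (g : Ordinal.{0}) :
    Small.{0} {t : Cond P × P × P // rk3 A t = g} := by
  have h1 := small_cond small g
  have h2 := small g
  have key : ∀ t : Cond P × P × P, rk3 A t = g → Bd A t.1 g ∧ t.2.1 ∈ A g ∧ t.2.2 ∈ A g := by
    intro t ht
    have e1 : rkC A t.1 ≤ g := ht ▸ le_max_left _ _
    have e2 : lev A t.2.1 ≤ g := ht ▸ (le_max_left _ _).trans (le_max_right _ _)
    have e3 : lev A t.2.2 ≤ g := ht ▸ (le_max_right _ _).trans (le_max_right _ _)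
    exact ⟨Bd.mono mono (bd_rkC mono exh t.1) e1, mono e2 (mem_lev exh _), mono e3 (mem_lev exh _)⟩
  refine small_of_injective (β := {c : Cond P // Bd A c g} × A g × A g)
    (f := fun t => (⟨t.1.1, (key t.1 t.2).1⟩, ⟨t.1.2.1, (key t.1 t.2).2.1⟩,
      ⟨t.1.2.2, (key t.1 t.2).2.2⟩)) ?_
  rintro ⟨⟨c, p, s⟩, h⟩ ⟨⟨c', p', s'⟩, h'⟩ e
  simp only [Prod.mk.injEq, Subtype.mk.injEq] at e
  obtain ⟨rfl, rfl, rfl⟩ := e
  rfl

/-- **codes of states** `(D, p, t)` -/
theorem exists_code3 (mono : Monotone A) (small : ∀ β, Small.{0} (A β))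
    (exh : ∀ p : P, ∃ β, p ∈ A β) :
    ∃ f : Ordinal.{0} → Cond P × P × P, ∀ t g, ∃ b, g ≤ b ∧ b % 2 = 1 ∧ f b = t := by
  have : Nonempty (Cond P × P × P) := ⟨(Cond.bot P, 1, 1)⟩
  exact exists_code _ (rk3 A) (small_rk3 mono small exh)

/-- general form: any family of states whose components are bounded by a rank with small fibres;
`Cond P × X` for `X` with a small-fibred rank `r` (bounded part small) -/
theorem exists_codeX (mono : Monotone A) (small : ∀ β, Small.{0} (A β))
    (exh : ∀ p : P, ∃ β, p ∈ A β) {X : Type 1} [Nonempty X] (r : X → Ordinal.{0})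
    (hX : ∀ g, Small.{0} {x // r x ≤ g}) :
    ∃ f : Ordinal.{0} → Cond P × X, ∀ t g, ∃ b, g ≤ b ∧ b % 2 = 1 ∧ f b = t := by
  obtain ⟨x0⟩ := ‹Nonempty X›
  have : Nonempty (Cond P × X) := ⟨(Cond.bot P, x0)⟩
  refine exists_code _ (fun t => max (rkC A t.1) (r t.2)) fun g => ?_
  have h1 := small_cond small g
  have h2 := hX g
  have key : ∀ t : {t : Cond P × X // max (rkC A t.1) (r t.2) = g},
      rkC A t.1.1 ≤ g ∧ r t.1.2 ≤ g := fun t =>
    ⟨(le_max_left _ _).trans t.2.le, (le_max_right _ _).trans t.2.le⟩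
  refine small_of_injective (β := {c : Cond P // Bd A c g} × {x // r x ≤ g})
    (f := fun t => (⟨t.1.1, Bd.mono mono (bd_rkC mono exh t.1.1) (key t).1⟩,
      ⟨t.1.2, (key t).2⟩)) ?_
  rintro ⟨⟨c, p⟩, h⟩ ⟨⟨c', p'⟩, h'⟩ e
  simp only [Prod.mk.injEq, Subtype.mk.injEq] at e
  obtain ⟨rfl, rfl⟩ := e
  rfl

end Crest.Agent.R296.Codex478
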