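import Crest.Agent.R296.IfA_378

/-!
# Row 296 (S0448), block C (helper153): the category of label conditions over a monoid `P`

`P : Type 1` left cancellative.  A condition is a small consistent set of labels
`(s, (i, ε)) : P × (Ordinal × Bool)` ("the `i`-th bit of the point `s` is `ε`").

* `psh f q` = labels `q` transported by `f` (`(s, l) ↦ (f * s, l)`);  `pul f w` = pull back;
* `Cond P`, arrow `w ⟶ q` = an `f : P` with `psh f q ⊆ w`, composition = product (`(f ≫ g).1 = f.1 * g.1`);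
* unions, `IsCond.union`, `Cond.iSup` of small directed families.
-/

set_option autoImplicit false
set_option linter.unusedSectionVars false
set_option linter.unusedVariables false

open CategoryTheory

namespace Crest.Agent.R296.CondCx153

open Crest.Agent.R296.IfAx378

universe u

/-- a label: bit number and value -/
abbrev Lab : Type 1 := Ordinal.{0} × Bool

/-- the opposite label -/
def Lab.neg (l : Lab) : Lab := (l.1, !l.2)

@[simp] theorem Lab.neg_neg (l : Lab) : l.neg.neg = l := by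
  simp [Lab.neg]

theorem Lab.neg_ne (l : Lab) : l.neg ≠ l := by
  intro h
  have := congrArg Prod.snd h
  simp [Lab.neg] at this

variable {P : Type 1} [Monoid P]

/-- small consistent set of labels -/
structure IsCond (q : Set (P × Lab)) : Prop where
  small : Small.{0} q
  con : ∀ s l, (s, l) ∈ q → (s, Lab.neg l) ∉ q

/-- transport of labels -/
def psh (f : P) (q : Set (P × Lab)) : Set (P × Lab) := (fun x => (f * x.1, x.2)) '' q

/-- pull back of labels -/
def pul (f : P) (w : Set (P × Lab)) : Set (P × Lab) := {x | (f * x.1, x.2) ∈ w}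

theorem mem_psh {f : P} {q : Set (P × Lab)} {p : P} {l : Lab} :
    (p, l) ∈ psh f q ↔ ∃ s, (s, l) ∈ q ∧ p = f * s := by
  constructor
  · rintro ⟨⟨s, l'⟩, h, h'⟩
    simp only [Prod.mk.injEq] at h'
    obtain ⟨rfl, rfl⟩ := h'
    exact ⟨s, h, rfl⟩
  · rintro ⟨s, h, rfl⟩
    exact ⟨(s, l), h, rfl⟩

@[simp] theorem mem_pul {f : P} {w : Set (P × Lab)} {s : P} {l : Lab} :
    (s, l) ∈ pul f w ↔ (f * s, l) ∈ w := Iff.rfl

theorem psh_subset {f : P} {q w : Set (P × Lab)} :
    psh f q ⊆ w ↔ ∀ s l, (s, l) ∈ q → (f * s, l) ∈ w := by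
  constructor
  · intro h s l hs
    exact h (mem_psh.2 ⟨s, hs, rfl⟩)
  · rintro h ⟨p, l⟩ hp
    obtain ⟨s, hs, rfl⟩ := mem_psh.1 hp
    exact h s l hs

theorem psh_subset_iff_pul {f : P} {q w : Set (P × Lab)} : psh f q ⊆ w ↔ q ⊆ pul f w := by
  rw [psh_subset]
  exact ⟨fun h ⟨s, l⟩ hs => h s l hs, fun h s l hs => h hs⟩

@[simp] theorem psh_one (q : Set (P × Lab)) : psh 1 q = q := by
  ext ⟨p, l⟩
  rw [mem_psh]
  simp

theorem psh_mul (f g : P) (q : Set (P × Lab)) : psh (f * g) q = psh f (psh g q) := by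
  ext ⟨p, l⟩
  simp only [mem_psh]
  constructor
  · rintro ⟨s, hs, rfl⟩
    exact ⟨g * s, ⟨s, hs, rfl⟩, by rw [mul_assoc]⟩
  · rintro ⟨s, ⟨t, ht, rfl⟩, rfl⟩
    exact ⟨t, ht, by rw [mul_assoc]⟩

theorem psh_mono (f : P) {q q' : Set (P × Lab)} (h : q ⊆ q') : psh f q ⊆ psh f q' :=
  Set.image_mono h

theorem psh_comp {f g : P} {q r w : Set (P × Lab)} (h : psh g r ⊆ q) (h' : psh f q ⊆ w) :
    psh (f * g) r ⊆ w := by
  rw [psh_mul]
  exact (psh_mono f h).trans h'

theorem pul_mono (f : P) {w w' : Set (P × Lab)} (h : w ⊆ w') : pul f w ⊆ pul f w' :=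
  fun _ hx => h hx

theorem small_psh {f : P} {q : Set (P × Lab)} (h : Small.{0} q) : Small.{0} (psh f q) := by
  unfold psh
  infer_instance

variable [IsGood P]

theorem small_pul {f : P} {w : Set (P × Lab)} (h : Small.{0} w) : Small.{0} (pul f w) := by
  have : Function.Injective (fun x : pul f w => (⟨(f * x.1.1, x.1.2), x.2⟩ : w)) := by
    rintro ⟨⟨a, b⟩, h1⟩ ⟨⟨c, d⟩, h2⟩ h
    have h3 : (f * a, b) = (f * c, d) := congrArg Subtype.val h
    rw [Prod.mk.injEq] at h3
    apply Subtype.ext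
    change (a, b) = (c, d)
    rw [IsGood.lc _ _ _ h3.1, h3.2]
  exact small_of_injective this

theorem mul_mem_psh {f : P} {q : Set (P × Lab)} {s : P} {l : Lab} :
    (f * s, l) ∈ psh f q ↔ (s, l) ∈ q := by
  rw [mem_psh]
  constructor
  · rintro ⟨t, ht, h⟩
    rwa [IsGood.lc _ _ _ h]
  · intro h
    exact ⟨s, h, rfl⟩

@[simp] theorem pul_psh (f : P) (q : Set (P × Lab)) : pul f (psh f q) = q := by
  ext ⟨s, l⟩
  rw [mem_pul, mul_mem_psh]

omit [IsGood P] in
theorem IsCond.pul [IsGood P] {w : Set (P × Lab)} (h : IsCond w) (f : P) : IsCond (pul f w) :=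
  ⟨small_pul h.small, fun s l h1 h2 => h.con _ l h1 h2⟩

theorem IsCond.psh {q : Set (P × Lab)} (h : IsCond q) (f : P) : IsCond (psh f q) := by
  refine ⟨small_psh h.small, fun p l h1 h2 => ?_⟩
  obtain ⟨s, hs, rfl⟩ := mem_psh.1 h1
  rw [mul_mem_psh] at h2
  exact h.con s l hs h2

omit [IsGood P] in
theorem isCond_empty : IsCond (∅ : Set (P × Lab)) :=
  ⟨inferInstance, fun _ _ h => absurd h (Set.notMem_empty _)⟩

omit [IsGood P] [Monoid P] in
/-- union of two compatible conditions -/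
theorem IsCond.union {q q' : Set (P × Lab)} (h : IsCond q) (h' : IsCond q')
    (H : ∀ s l, (s, l) ∈ q → (s, Lab.neg l) ∉ q') : IsCond (q ∪ q') := by
  have := h.small
  have := h'.small
  refine ⟨small_union _ _, fun s l h1 h2 => ?_⟩
  rcases h1 with h1 | h1 <;> rcases h2 with h2 | h2
  · exact h.con s l h1 h2
  · exact H s l h1 h2
  · exact H s (Lab.neg l) h2 (by simpa using h1)
  · exact h'.con s l h1 h2

omit [IsGood P] [Monoid P] in
theorem IsCond.subset {q q' : Set (P × Lab)} (h : IsCond q') (hq : q ⊆ q') : IsCond q := by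
  have := h.small
  exact ⟨small_subset hq, fun s l h1 h2 => h.con s l (hq h1) (hq h2)⟩

omit [IsGood P] [Monoid P] in
/-- union of a small directed family of conditions -/
theorem isCond_iUnion {ι : Type*} [Small.{0} ι] {q : ι → Set (P × Lab)} (h : ∀ i, IsCond (q i))
    (hd : ∀ i j, ∃ k, q i ⊆ q k ∧ q j ⊆ q k) : IsCond (⋃ i, q i) := by
  have := fun i => (h i).small
  refine ⟨small_iUnion _, fun s l h1 h2 => ?_⟩
  obtain ⟨i, hi⟩ := Set.mem_iUnion.1 h1
  obtain ⟨j, hj⟩ := Set.mem_iUnion.1 h2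
  obtain ⟨k, hik, hjk⟩ := hd i j
  exact (h k).con s l (hik hi) (hjk hj)

variable (P) in
/-- label conditions -/
structure Cond : Type 1 where
  q : Set (P × Lab)
  h : IsCond q

omit [IsGood P] in
variable (P) in
/-- the empty condition -/
def Cond.bot : Cond P := ⟨∅, isCond_empty⟩

instance : Category.{1, 1} (Cond P) where
  Hom w q := {f : P // psh f q.q ⊆ w.q}
  id q := ⟨1, by rw [psh_one]⟩
  comp f g := ⟨f.1 * g.1, psh_comp g.2 f.2⟩
  id_comp f := Subtype.ext (one_mul _)
  comp_id f := Subtype.ext (mul_one _)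
  assoc f g h := Subtype.ext (mul_assoc _ _ _)

@[simp] theorem comp_val {a b c : Cond P} (f : a ⟶ b) (g : b ⟶ c) : (f ≫ g).1 = f.1 * g.1 := rfl

@[simp] theorem id_val (a : Cond P) : (𝟙 a : a ⟶ a).1 = 1 := rfl

@[ext] theorem hom_ext {a b : Cond P} (f g : a ⟶ b) (h : f.1 = g.1) : f = g := Subtype.ext h

/-- arrow -/
def mkHom {a b : Cond P} (f : P) (h : psh f b.q ⊆ a.q) : a ⟶ b := ⟨f, h⟩

@[simp] theorem mkHom_val {a b : Cond P} (f : P) (h : psh f b.q ⊆ a.q) : (mkHom f h).1 = f := rfl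

end Crest.Agent.R296.CondCx153
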