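import Crest.Agent.R296.PPBr_365
import Crest.Agent.R296.CatZF_365
import Crest.Agent.R296.CatSat_879

/-!
Row 296 (S0448), helper365.  **End wiring**: S0448 from a small category `C` with one stage forcing
PP, AC_WO and the negation of AC.
-/

set_option autoImplicit false

namespace Crest.Agent.R296.Endx365

open CategoryTheory FirstOrder FirstOrder.Language Crest.LogicCS.SetTheory
open Crest.Agent.R296.CatFx365 Crest.Agent.R296.CatFrcx365 Crest.Agent.R296.PPBrx365

universe u

variable {C : Type u} [Category.{u} C]

theorem sat_of (c : C) (hPP : Fs c ppAx) (hAC : Fs c acwoAx) (hN : Fs c (∼acAx)) :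
    Theory.IsSatisfiable (ZF ∪ {ppAx, acwoAx, ∼acAx}) := by
  refine CatSatx879.sat_of_forces c fun φ hφ => ?_
  rcases hφ with hφ | hφ
  · exact CatZFx365.zf_forced c φ hφ
  · simp only [Set.mem_insert_iff, Set.mem_singleton_iff] at hφ
    rcases hφ with h | h | h
    · rw [h]; exact hPP
    · rw [h]; exact hAC
    · rw [h]; exact hN

/-- the same with the output of the partition principle part -/
theorem sat_of_out (hPP : PPOut C) (c : C) (hAC : Fs c acwoAx) (hN : Fs c (∼acAx)) :
    Theory.IsSatisfiable (ZF ∪ {ppAx, acwoAx, ∼acAx}) :=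
  sat_of c (pp_forced hPP c) hAC hN

end Crest.Agent.R296.Endx365
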