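import Mathlib
import Crest.Prelude.Def_SetTheory

/-!
Row 296, block B (helper879): abstract forcing systems over a category.

`FSys C` : objects `c : C`, sets of names `Nm c`, restriction `res h : Nm c → Nm d` along `h : d ⟶ c`
(functorial up to forced equality), forced membership `M c a b` and forced equality `E c a b`,
monotone, regular (dense below ⇒ forced), `E` a congruence.

`S.Frc φ c v` : forcing of a bounded formula of `setL`, by recursion.
-/

set_option autoImplicit false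

open FirstOrder FirstOrder.Language Crest.LogicCS.SetTheory CategoryTheory

namespace Crest.Agent.R296

universe w u v

/-- an abstract forcing system over a category -/
structure FSys (C : Type u) [Category.{w} C] where
  Nm : C → Type v
  nm0 : ∀ c, Nm c
  res : ∀ {d c : C}, (d ⟶ c) → Nm c → Nm d
  M : ∀ c : C, Nm c → Nm c → Prop
  E : ∀ c : C, Nm c → Nm c → Prop
  res_id : ∀ {c : C} (a : Nm c), E c (res (𝟙 c) a) a
  res_comp : ∀ {e d c : C} (k : e ⟶ d) (h : d ⟶ c) (a : Nm c), E e (res k (res h a)) (res (k ≫ h) a)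
  E_refl : ∀ {c : C} (a : Nm c), E c a a
  E_symm : ∀ {c : C} {a b : Nm c}, E c a b → E c b a
  E_trans : ∀ {c : C} {a b x : Nm c}, E c a b → E c b x → E c a x
  E_mono : ∀ {d c : C} (h : d ⟶ c) {a b : Nm c}, E c a b → E d (res h a) (res h b)
  M_mono : ∀ {d c : C} (h : d ⟶ c) {a b : Nm c}, M c a b → M d (res h a) (res h b)
  E_reg : ∀ {c : C} {a b : Nm c},
    (∀ (d : C) (h : d ⟶ c), ∃ (e : C) (k : e ⟶ d), E e (res (k ≫ h) a) (res (k ≫ h) b)) → E c a b
  M_reg : ∀ {c : C} {a b : Nm c},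
    (∀ (d : C) (h : d ⟶ c), ∃ (e : C) (k : e ⟶ d), M e (res (k ≫ h) a) (res (k ≫ h) b)) → M c a b
  M_congr : ∀ {c : C} {a a' b b' : Nm c}, E c a a' → E c b b' → M c a b → M c a' b'

namespace FSys

variable {C : Type u} [Category.{w} C] (S : FSys.{w, u, v} C)

/-- the variable of a term of `setL` (no function symbols) -/
def tix {n : ℕ} : setL.Term (Empty ⊕ Fin n) → Fin n
  | .var (Sum.inr i) => i
  | .var (Sum.inl e) => e.elim
  | .func f _ => Empty.elim f

@[simp] theorem tix_inr {n : ℕ} (i : Fin n) :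
    tix (Term.var (Sum.inr i) : setL.Term (Empty ⊕ Fin n)) = i := rfl

/-- forcing of a relation symbol applied to a tuple of names -/
def RelF {l : ℕ} (R : setL.Relations l) (c : C) (xs : Fin l → S.Nm c) : Prop :=
  match l, R, xs with
  | _, SetRel.mem, xs => S.M c (xs 0) (xs 1)

/-- forcing of formulas -/
def Frc {n : ℕ} (φ : setL.BoundedFormula Empty n) : ∀ c : C, (Fin n → S.Nm c) → Prop :=
  match φ with
  | .falsum => fun _ _ => False
  | .equal t₁ t₂ => fun c v => S.E c (v (tix t₁)) (v (tix t₂))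
  | .rel R ts => fun c v => S.RelF R c (fun i => v (tix (ts i)))
  | .imp φ ψ => fun c v => ∀ (d : C) (h : d ⟶ c),
      Frc φ d (fun i => S.res h (v i)) → Frc ψ d (fun i => S.res h (v i))
  | .all φ => fun c v => ∀ (d : C) (h : d ⟶ c) (x : S.Nm d),
      Frc φ d (Fin.snoc (fun i => S.res h (v i)) x)

variable {S}

theorem relF_congr {l : ℕ} (R : setL.Relations l) {c : C} {xs ys : Fin l → S.Nm c}
    (h : ∀ i, S.E c (xs i) (ys i)) (H : S.RelF R c xs) : S.RelF R c ys := by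
  cases R
  exact S.M_congr (h 0) (h 1) H

theorem relF_mono {l : ℕ} (R : setL.Relations l) {d c : C} (k : d ⟶ c) {xs : Fin l → S.Nm c}
    (H : S.RelF R c xs) : S.RelF R d (fun i => S.res k (xs i)) := by
  cases R
  exact S.M_mono k H

theorem relF_reg {l : ℕ} (R : setL.Relations l) {c : C} {xs : Fin l → S.Nm c}
    (H : ∀ (d : C) (h : d ⟶ c), ∃ (e : C) (k : e ⟶ d),
      S.RelF R e (fun i => S.res (k ≫ h) (xs i))) : S.RelF R c xs := by
  cases R
  exact S.M_reg H

theorem snoc_congr {n : ℕ} {c : C} {v v' : Fin n → S.Nm c} {x x' : S.Nm c}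
    (h : ∀ i, S.E c (v i) (v' i)) (hx : S.E c x x') (i : Fin (n + 1)) :
    S.E c (Fin.snoc (α := fun _ => S.Nm c) v x i) (Fin.snoc (α := fun _ => S.Nm c) v' x' i) := by
  refine Fin.lastCases ?_ (fun j => ?_) i
  · simpa using hx
  · simpa using h j

theorem res_snoc {n : ℕ} {d c : C} (h : d ⟶ c) (v : Fin n → S.Nm c) (x : S.Nm c) :
    (fun i => S.res h (Fin.snoc (α := fun _ => S.Nm c) v x i)) =
      Fin.snoc (α := fun _ => S.Nm d) (fun i => S.res h (v i)) (S.res h x) := by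
  funext i
  refine Fin.lastCases ?_ (fun j => ?_) i
  · simp
  · simp

theorem E_comp {e d c : C} (k : e ⟶ d) (h : d ⟶ c) (a : S.Nm c) :
    S.E e (S.res (k ≫ h) a) (S.res k (S.res h a)) := S.E_symm (S.res_comp k h a)

theorem frc_congr {n : ℕ} (φ : setL.BoundedFormula Empty n) : ∀ {c : C} {v v' : Fin n → S.Nm c},
    (∀ i, S.E c (v i) (v' i)) → S.Frc φ c v → S.Frc φ c v' := by
  induction φ with
  | falsum => exact fun _ H => H
  | equal t₁ t₂ =>
      intro c v v' h H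
      exact S.E_trans (S.E_symm (h _)) (S.E_trans H (h _))
  | rel R ts =>
      intro c v v' h H
      exact relF_congr R (fun i => h _) H
  | imp φ ψ ih₁ ih₂ =>
      intro c v v' h H d k H₁
      refine ih₂ (fun i => S.E_mono k (h i)) (H d k (ih₁ (fun i => S.E_mono k (S.E_symm (h i))) H₁))
  | all φ ih =>
      intro c v v' h H d k x
      exact ih (snoc_congr (fun i => S.E_mono k (h i)) (S.E_refl x)) (H d k x)

theorem frc_congr_iff {n : ℕ} (φ : setL.BoundedFormula Empty n) {c : C} {v v' : Fin n → S.Nm c}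
    (h : ∀ i, S.E c (v i) (v' i)) : S.Frc φ c v ↔ S.Frc φ c v' :=
  ⟨frc_congr φ h, frc_congr φ fun i => S.E_symm (h i)⟩

theorem frc_comp {n : ℕ} (φ : setL.BoundedFormula Empty n) {e d c : C} (k : e ⟶ d) (h : d ⟶ c)
    (v : Fin n → S.Nm c) :
    S.Frc φ e (fun i => S.res k (S.res h (v i))) ↔ S.Frc φ e (fun i => S.res (k ≫ h) (v i)) :=
  frc_congr_iff φ fun i => S.res_comp k h (v i)

theorem frc_id {n : ℕ} (φ : setL.BoundedFormula Empty n) {c : C} (v : Fin n → S.Nm c) :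
    S.Frc φ c (fun i => S.res (𝟙 c) (v i)) ↔ S.Frc φ c v :=
  frc_congr_iff φ fun i => S.res_id (v i)

theorem frc_snoc_comp {n : ℕ} (φ : setL.BoundedFormula Empty (n + 1)) {e d c : C} (k : e ⟶ d)
    (h : d ⟶ c) (v : Fin n → S.Nm c) (x : S.Nm e) :
    S.Frc φ e (Fin.snoc (α := fun _ => S.Nm e) (fun i => S.res k (S.res h (v i))) x) ↔
      S.Frc φ e (Fin.snoc (α := fun _ => S.Nm e) (fun i => S.res (k ≫ h) (v i)) x) :=
  frc_congr_iff φ (snoc_congr (fun i => S.res_comp k h (v i)) (S.E_refl x))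

theorem frc_snoc_id {n : ℕ} (φ : setL.BoundedFormula Empty (n + 1)) {c : C}
    (v : Fin n → S.Nm c) (x : S.Nm c) :
    S.Frc φ c (Fin.snoc (α := fun _ => S.Nm c) (fun i => S.res (𝟙 c) (v i)) x) ↔
      S.Frc φ c (Fin.snoc (α := fun _ => S.Nm c) v x) :=
  frc_congr_iff φ (snoc_congr (fun i => S.res_id (v i)) (S.E_refl x))

theorem frc_mono {n : ℕ} (φ : setL.BoundedFormula Empty n) : ∀ {d c : C} (h : d ⟶ c)
    {v : Fin n → S.Nm c}, S.Frc φ c v → S.Frc φ d (fun i => S.res h (v i)) := by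
  cases φ with
  | falsum => exact fun _ _ H => H
  | equal t₁ t₂ => exact fun h v H => S.E_mono h H
  | rel R ts => exact fun h v H => relF_mono R h H
  | imp φ ψ =>
      intro d c h v H e k H₁
      rw [frc_comp] at H₁ ⊢
      exact H e (k ≫ h) H₁
  | all φ =>
      intro d c h v H e k x
      rw [frc_snoc_comp]
      exact H e (k ≫ h) x

/-- a formula forced densely below `c` is forced at `c` -/
theorem frc_reg {n : ℕ} (φ : setL.BoundedFormula Empty n) : ∀ {c : C} {v : Fin n → S.Nm c},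
    (∀ (d : C) (h : d ⟶ c), ∃ (e : C) (k : e ⟶ d), S.Frc φ e (fun i => S.res (k ≫ h) (v i))) →
      S.Frc φ c v := by
  induction φ with
  | falsum =>
      intro c v H
      obtain ⟨e, k, H⟩ := H c (𝟙 c)
      exact H
  | equal t₁ t₂ => exact fun H => S.E_reg H
  | rel R ts => exact fun H => relF_reg R H
  | imp φ ψ ih₁ ih₂ =>
      intro c v H d h H₁
      refine ih₂ fun e k => ?_
      obtain ⟨e', l, H'⟩ := H e (k ≫ h)
      refine ⟨e', l, ?_⟩
      have h1 := frc_mono φ (l ≫ k) H₁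
      rw [frc_comp, Category.assoc] at h1 ⊢
      have h2 := H' e' (𝟙 e')
      rw [frc_id, frc_id] at h2
      exact h2 h1
  | all φ ih =>
      intro c v H d h x
      refine ih fun e k => ?_
      obtain ⟨e', l, H'⟩ := H e (k ≫ h)
      refine ⟨e', l, ?_⟩
      rw [res_snoc]
      have h2 := H' e' (𝟙 e') (S.res (l ≫ k) x)
      rw [frc_snoc_id] at h2
      rw [frc_snoc_comp, Category.assoc]
      exact h2

/-! ### derived connectives -/

theorem frc_bot {n : ℕ} {c : C} {v : Fin n → S.Nm c} :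
    S.Frc (⊥ : setL.BoundedFormula Empty n) c v ↔ False := Iff.rfl

theorem frc_imp {n : ℕ} {φ ψ : setL.BoundedFormula Empty n} {c : C} {v : Fin n → S.Nm c} :
    S.Frc (φ.imp ψ) c v ↔ ∀ (d : C) (h : d ⟶ c),
      S.Frc φ d (fun i => S.res h (v i)) → S.Frc ψ d (fun i => S.res h (v i)) := Iff.rfl

theorem frc_all {n : ℕ} {φ : setL.BoundedFormula Empty (n + 1)} {c : C} {v : Fin n → S.Nm c} :
    S.Frc φ.all c v ↔ ∀ (d : C) (h : d ⟶ c) (x : S.Nm d),
      S.Frc φ d (Fin.snoc (α := fun _ => S.Nm d) (fun i => S.res h (v i)) x) := Iff.rfl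

theorem frc_not {n : ℕ} {φ : setL.BoundedFormula Empty n} {c : C} {v : Fin n → S.Nm c} :
    S.Frc (∼φ) c v ↔ ∀ (d : C) (h : d ⟶ c), ¬ S.Frc φ d (fun i => S.res h (v i)) := Iff.rfl

/-- `c` does not force `φ` iff some extension forces `∼φ` -/
theorem not_frc_iff {n : ℕ} {φ : setL.BoundedFormula Empty n} {c : C} {v : Fin n → S.Nm c} :
    ¬ S.Frc φ c v ↔ ∃ (d : C) (h : d ⟶ c), S.Frc (∼φ) d (fun i => S.res h (v i)) := by
  constructor
  · intro H
    by_contra hn
    apply H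
    refine frc_reg φ fun d h => ?_
    by_contra hd
    apply hn
    refine ⟨d, h, fun e k hk => hd ⟨e, k, ?_⟩⟩
    exact (frc_comp φ k h v).1 hk
  · rintro ⟨d, h, hd⟩ H
    exact hd d (𝟙 d) ((frc_id φ _).2 (frc_mono φ h H))

theorem frc_inf {n : ℕ} {φ ψ : setL.BoundedFormula Empty n} {c : C} {v : Fin n → S.Nm c} :
    S.Frc (φ ⊓ ψ) c v ↔ S.Frc φ c v ∧ S.Frc ψ c v := by
  change (∀ (d : C) (h : d ⟶ c), (∀ (e : C) (k : e ⟶ d), S.Frc φ e (fun i => S.res k (S.res h (v i))) →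
    ∀ (e' : C) (l : e' ⟶ e), ¬ S.Frc ψ e' (fun i => S.res l (S.res k (S.res h (v i))))) → False) ↔ _
  constructor
  · intro H
    constructor
    · refine frc_reg φ fun d h => ?_
      by_contra hn
      refine H d h fun e k hk => absurd ?_ hn
      exact ⟨e, k, (frc_comp φ k h v).1 hk⟩
    · refine frc_reg ψ fun d h => ?_
      by_contra hn
      refine H d h fun e k hk e' l hl => hn ⟨e', l ≫ k, ?_⟩
      rw [Category.assoc]
      exact (frc_congr_iff ψ fun i => S.E_trans (S.res_comp l k _) (by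
        have := S.res_comp (l ≫ k) h (v i)
        rwa [Category.assoc] at this)).1 hl
  · rintro ⟨h1, h2⟩ d h H
    refine H d (𝟙 d) ((frc_id φ _).2 (frc_mono φ h h1)) d (𝟙 d) ?_
    rw [frc_id, frc_id]
    exact frc_mono ψ h h2

theorem frc_sup {n : ℕ} {φ ψ : setL.BoundedFormula Empty n} {c : C} {v : Fin n → S.Nm c} :
    S.Frc (φ ⊔ ψ) c v ↔ ∀ (d : C) (h : d ⟶ c), ∃ (e : C) (k : e ⟶ d),
      S.Frc φ e (fun i => S.res (k ≫ h) (v i)) ∨ S.Frc ψ e (fun i => S.res (k ≫ h) (v i)) := by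
  change (∀ (d : C) (h : d ⟶ c), (∀ (e : C) (k : e ⟶ d), ¬ S.Frc φ e (fun i => S.res k (S.res h (v i)))) →
    S.Frc ψ d (fun i => S.res h (v i))) ↔ _
  constructor
  · intro H d h
    by_cases hφ : ∃ (e : C) (k : e ⟶ d), S.Frc φ e (fun i => S.res k (S.res h (v i)))
    · obtain ⟨e, k, hk⟩ := hφ
      exact ⟨e, k, Or.inl ((frc_comp φ k h v).1 hk)⟩
    · push Not at hφ
      refine ⟨d, 𝟙 d, Or.inr ?_⟩
      rw [Category.id_comp]
      exact H d h hφ
  · intro H d h hφ
    refine frc_reg ψ fun d' h' => ?_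
    obtain ⟨e, k, hk⟩ := H d' (h' ≫ h)
    refine ⟨e, k, ?_⟩
    rcases hk with hk | hk
    · exfalso
      refine hφ e (k ≫ h') ?_
      rw [frc_comp, Category.assoc]
      exact hk
    · rw [frc_comp, Category.assoc]
      exact hk

theorem frc_ex {n : ℕ} {φ : setL.BoundedFormula Empty (n + 1)} {c : C} {v : Fin n → S.Nm c} :
    S.Frc φ.ex c v ↔ ∀ (d : C) (h : d ⟶ c), ∃ (e : C) (k : e ⟶ d) (x : S.Nm e),
      S.Frc φ e (Fin.snoc (α := fun _ => S.Nm e) (fun i => S.res (k ≫ h) (v i)) x) := by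
  change (∀ (d : C) (h : d ⟶ c), (∀ (e : C) (k : e ⟶ d) (x : S.Nm e), ∀ (e' : C) (l : e' ⟶ e),
    ¬ S.Frc φ e' (fun i => S.res l (Fin.snoc (α := fun _ => S.Nm e)
      (fun i => S.res k (S.res h (v i))) x i))) → False) ↔ _
  constructor
  · intro H d h
    by_contra hn
    refine H d h fun e k x e' l hl => hn ⟨e', l ≫ k, S.res l x, ?_⟩
    rw [res_snoc] at hl
    refine (frc_congr_iff φ (snoc_congr (fun i => ?_) (S.E_refl _))).1 hl
    rw [Category.assoc]
    refine S.E_trans (S.res_comp l k _) ?_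
    have := S.res_comp (l ≫ k) h (v i)
    rwa [Category.assoc] at this
  · intro H d h hn
    obtain ⟨e, k, x, hx⟩ := H d h
    refine hn e k x e (𝟙 e) ?_
    rw [frc_id, frc_snoc_comp]
    exact hx

theorem frc_iff {n : ℕ} {φ ψ : setL.BoundedFormula Empty n} {c : C} {v : Fin n → S.Nm c} :
    S.Frc (φ ⇔ ψ) c v ↔ ∀ (d : C) (h : d ⟶ c),
      (S.Frc φ d (fun i => S.res h (v i)) ↔ S.Frc ψ d (fun i => S.res h (v i))) := by
  unfold BoundedFormula.iff
  rw [frc_inf, frc_imp, frc_imp]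
  exact ⟨fun H d h => ⟨H.1 d h, H.2 d h⟩, fun H => ⟨fun d h => (H d h).1, fun d h => (H d h).2⟩⟩

theorem frc_vmem {n : ℕ} {i j : Fin n} {c : C} {v : Fin n → S.Nm c} :
    S.Frc (vmem i j) c v ↔ S.M c (v i) (v j) := Iff.rfl

theorem frc_veq {n : ℕ} {i j : Fin n} {c : C} {v : Fin n → S.Nm c} :
    S.Frc (veq i j) c v ↔ S.E c (v i) (v j) := Iff.rfl

end FSys

end Crest.Agent.R296
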