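import Crest.Agent.R296.TBr_774

/-! Row 296 (S0448), block A, leaf A-T: FINAL THEOREMS `stT3`, `stT1`, `stT1'`, `stT2`
(statements: `TSt_774.lean`). -/

set_option autoImplicit false

namespace Crest.Agent.R296.TFinx774

open Crest.Agent.R296.IfAx378 Crest.Agent.R296.TSx774 Crest.Agent.R296.Tx774
  Crest.Agent.R296.TBrx774

variable {P : Type 1} [Monoid P] (T : Tower P)

theorem par (β : Ordinal.{0}) : β % 2 = 0 ∨ β % 2 = 1 := by
  have h2 : (2 : Ordinal.{0}) ≠ 0 := two_ne_zero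
  have h : β % 2 < 2 := Ordinal.mod_lt β h2
  have h3 : β % 2 < Order.succ 1 := by
    rwa [Order.succ_eq_add_one, one_add_one_eq_two]
  rw [Order.lt_succ_iff] at h3
  rcases h3.lt_or_eq with h4 | h4
  · left
    exact Order.lt_one_iff.1 h4
  · right; exact h4

/-- induction above `α` -/
theorem ordInd {α : Ordinal.{0}} {Q : Ordinal.{0} → Prop} (h0 : Q α)
    (hs : ∀ δ, α ≤ δ → Q δ → Q (Order.succ δ))
    (hl : ∀ γ, α < γ → Order.IsSuccLimit γ → (∀ δ < γ, α ≤ δ → Q δ) → Q γ) :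
    ∀ γ, α ≤ γ → Q γ := by
  intro γ
  induction γ using WellFoundedLT.induction with
  | ind γ ih =>
    intro h
    rcases h.lt_or_eq with h | h
    · rcases Ordinal.zero_or_succ_or_isSuccLimit γ with h1 | ⟨δ, h1⟩ | h1
      · subst h1
        exact absurd h (not_lt_zero)
      · subst h1
        have h2 : α ≤ δ := Order.lt_succ_iff.1 h
        exact hs δ h2 (ih δ (Order.lt_succ δ) h2)
      · exact hl γ h h1 ih
    · subst h; exact h0

theorem tstage (β : Ordinal.{0}) : Stage (T.A β) := stage T.good _ (T.cons β)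

noncomputable def tstep1 (β : Ordinal.{0}) (h : β % 2 = 0) :
    Step1 (T.A β) (T.A (Order.succ β)) :=
  step1 T.good (tstage T β) (T.s1 β h)

noncomputable def tstep2 (β : Ordinal.{0}) (h : β % 2 = 1) :
    Step2 (T.A β) (T.A (Order.succ β)) (Datum (T.A β)) :=
  step2 T.good (tstage T β) (tstage T _) (T.s2 β h)

/-- induction along the tower for statements about two elements -/
theorem tind (α : Ordinal.{0}) (Q : P → P → Prop)
    (h0 : ∀ u ∈ T.A α, ∀ x ∈ T.A α, Q u x)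
    (hs : ∀ δ, α ≤ δ → (∀ u ∈ T.A δ, ∀ x ∈ T.A δ, Q u x) →
      ∀ u ∈ T.A (Order.succ δ), ∀ x ∈ T.A (Order.succ δ), Q u x) (u x : P) : Q u x := by
  have key : ∀ γ, α ≤ γ → ∀ u ∈ T.A γ, ∀ x ∈ T.A γ, Q u x := by
    refine ordInd h0 hs ?_
    intro γ h hγ ih u hu x hx
    obtain ⟨δ1, h1, hu1⟩ := T.lim γ hγ u hu
    obtain ⟨δ2, h2, hx2⟩ := T.lim γ hγ x hx
    exact ih (max α (max δ1 δ2)) (max_lt h (max_lt h1 h2)) (le_max_left _ _) u
      (T.mono ((le_max_left _ _).trans (le_max_right _ _)) hu1) x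
      (T.mono ((le_max_right _ _).trans (le_max_right _ _)) hx2)
  obtain ⟨β1, h1⟩ := T.exh u
  obtain ⟨β2, h2⟩ := T.exh x
  exact key (max α (max β1 β2)) (le_max_left _ _) u
    (T.mono ((le_max_left _ _).trans (le_max_right _ _)) h1) x
    (T.mono ((le_max_right _ _).trans (le_max_right _ _)) h2)

theorem eta_mem (β : Ordinal.{0}) (d : Datum (T.A β)) : eta T β d ∈ T.A (Order.succ β) :=
  (T.y β (Ltr.base d)).2

/-- (T3) -/
theorem stT3 : StT3 T := by
  intro β hβ d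
  have G := goodM T.good
  have hA := tstage T β
  have hB := tstage T (Order.succ β)
  let S := tstep2 T β hβ
  refine ⟨S.ya d, MemP_of_InCl T.good d (S.yin d), eta_mem T β d, ?_⟩
  intro e he
  have ha1 : ¬ (S.a d) ∣ (1 : P) := by
    rintro ⟨c, hc⟩
    exact S.a1 d (G.unit _ _ hc.symm).1
  obtain ⟨g, -, hg⟩ := S.fact_ii G hA hB (i := d) (m := 1) (r := 1) (t := S.y d) (w := 1) (e := e)
    (T.A β).one_mem (S.cl d).one (by rw [one_mul]) (T.A _).one_mem ha1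
    (by rw [one_mul, mul_one]; exact he)
  rw [one_mul, mul_one, one_mul, S.ya] at hg
  exact ⟨g, hg⟩

theorem not_eta_dvd (β : Ordinal.{0}) (hβ : β % 2 = 1) (d : Datum (T.A β)) (p : T.A β)
    (hp : ¬ (d.b : P) ∣ (p : P)) : ¬ eta T β d ∣ (p : P) := by
  rintro ⟨e, he⟩
  apply hp
  rw [he]
  exact (stT3 T β hβ d).2.2.2 e (he ▸ p.2)

theorem T1_all (β : Ordinal.{0}) (hβ : β % 2 = 1) (d : Datum (T.A β)) (p : T.A β)
    (hp : ¬ (d.b : P) ∣ (p : P)) (u x : P) :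
    u ∣ (p : P) → u ∣ eta T β d * x → ¬ (d.a : P) ∣ x → FP (RD d) u := by
  have G := goodM T.good
  refine tind T (Order.succ β)
    (fun u x => u ∣ (p : P) → u ∣ eta T β d * x → ¬ (d.a : P) ∣ x → FP (RD d) u) ?_ ?_ u x
  · exact (tstep2 T β hβ).T1_base G (tstage T β) (tstage T _) d p.2 hp
  · intro δ hδ ih
    have hη : eta T β d ∈ T.A δ := T.mono hδ (eta_mem T β d)
    have hpδ : (p : P) ∈ T.A δ := T.mono ((Order.le_succ β).trans hδ) p.2
    rcases par δ with h | h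
    · exact (tstep1 T δ h).T1_step G (tstage T δ) (tstage T _) hη hpδ ih
    · exact (tstep2 T δ h).T1_step G (tstage T δ) (tstage T _) hη hpδ
        (not_eta_dvd T β hβ d p hp) ih

/-- (T1) -/
theorem stT1 : StT1 T := fun β hβ d p hp u x h1 h2 h3 =>
  (FP_iff d u).1 (T1_all T β hβ d p hp u x h1 h2 h3)

theorem T1o_all (β : Ordinal.{0}) (hβ : β % 2 = 1) (d : Datum (T.A β)) (x : P) :
    ∀ u ∈ T.A β, u ∣ eta T β d * x → ¬ (d.a : P) ∣ x → FP (RD d) u := by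
  have G := goodM T.good
  refine tind T (Order.succ β)
    (fun _ x => ∀ u ∈ T.A β, u ∣ eta T β d * x → ¬ (d.a : P) ∣ x → FP (RD d) u) ?_ ?_ 1 x
  · intro _ _ x hx u hu
    exact (tstep2 T β hβ).T1o_base G (tstage T β) (tstage T _) d u hu x hx
  · intro δ hδ ih _ _ x hx u hu
    have hη : eta T β d ∈ T.A δ := T.mono hδ (eta_mem T β d)
    have ih' : T1oAt (T.A β) (T.A δ) (RD d) (eta T β d) (d.a : P) :=
      fun u hu x hx => ih 1 (T.A δ).one_mem x hx u hu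
    have hle : T.A β ≤ T.A δ := T.mono ((Order.le_succ β).trans hδ)
    rcases par δ with h | h
    · exact (tstep1 T δ h).T1o_step G (tstage T δ) (tstage T _) hle hη ih' u hu x hx
    · exact (tstep2 T δ h).T1o_step G (tstage T δ) (tstage T _) hle hη ih' u hu x hx

/-- (T1') -/
theorem stT1' : StT1' T := fun β hβ d u x h1 h2 =>
  (FP_iff d _).1 (T1o_all T β hβ d x u u.2 h1 h2)

theorem tdesc (δ : Ordinal.{0}) {s t : P} (hs : s ∈ T.A (Order.succ δ)) (ht : s * t ∈ T.A δ) :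
    t ∈ T.A δ := by
  have G := goodM T.good
  by_cases hsA : s ∈ T.A δ
  · exact (tstage T δ).lu s t hsA ht
  have htB : t ∈ T.A (Order.succ δ) :=
    (tstage T _).lu s t hs (T.mono (Order.le_succ δ) ht)
  rcases par δ with h | h
  · exact (tstep1 T δ h).desc s hs hsA t htB ht
  · exact (tstep2 T δ h).desc G (tstage T δ) (tstage T _) s hs hsA t htB ht

/-- common representatives: pushing `(u, u')` down to the stage `β'` -/
theorem rep {β β' : Ordinal.{0}} (hle : β ≤ β') (C : Closed (T.A β)) (C' : Closed (T.A β'))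
    {u u' : P} (hE : ∀ t, DownP C (u * t) ↔ DownP C' (u' * t)) (hu : DownP C u) :
    ∃ c, u * c ∈ T.A β' ∧ u' * c ∈ T.A β' ∧ DownP C (u * c) := by
  have key : ∀ γ, β' ≤ γ → (∃ c, u * c ∈ T.A γ ∧ u' * c ∈ T.A γ ∧ DownP C (u * c)) →
      ∃ c, u * c ∈ T.A β' ∧ u' * c ∈ T.A β' ∧ DownP C (u * c) := by
    refine ordInd id ?_ ?_
    · rintro δ hδ ih ⟨c, h1, h2, h3⟩
      obtain ⟨k', hk', e, he⟩ := (hE c).1 h3
      have heA : e ∈ T.A δ := tdesc T δ h2 (he ▸ T.mono hδ k'.2)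
      have h4 : DownP C' (u' * (c * e)) := ⟨k', hk', by rw [he, mul_assoc]⟩
      obtain ⟨k, hk, e', he'⟩ := (hE (c * e)).2 h4
      have h5 : u * (c * e) ∈ T.A (Order.succ δ) := by
        rw [← mul_assoc]
        exact (T.A _).mul_mem h1 (T.mono (Order.le_succ δ) heA)
      have heA' : e' ∈ T.A δ := tdesc T δ h5 (he' ▸ T.mono (hle.trans hδ) k.2)
      refine ih ⟨c * e * e', ?_, ?_, ?_⟩
      · rw [← mul_assoc, ← he']
        exact T.mono (hle.trans hδ) k.2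
      · rw [← mul_assoc, ← mul_assoc, ← he]
        exact (T.A δ).mul_mem (T.mono hδ k'.2) heA'
      · refine ⟨k, hk, ?_⟩
        rw [← mul_assoc, ← he']
    · rintro γ h hγ ih ⟨c, h1, h2, h3⟩
      obtain ⟨δ1, hd1, h4⟩ := T.lim γ hγ _ h1
      obtain ⟨δ2, hd2, h5⟩ := T.lim γ hγ _ h2
      exact ih (max β' (max δ1 δ2)) (max_lt h (max_lt hd1 hd2)) (le_max_left _ _)
        ⟨c, T.mono ((le_max_left _ _).trans (le_max_right _ _)) h4,
          T.mono ((le_max_right _ _).trans (le_max_right _ _)) h5, h3⟩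
  obtain ⟨γ1, h1⟩ := T.exh u
  obtain ⟨γ2, h2⟩ := T.exh u'
  refine key (max β' (max γ1 γ2)) (le_max_left _ _) ⟨1, ?_, ?_, ?_⟩
  · rw [mul_one]
    exact T.mono ((le_max_left _ _).trans (le_max_right _ _)) h1
  · rw [mul_one]
    exact T.mono ((le_max_right _ _).trans (le_max_right _ _)) h2
  · rwa [mul_one]

/-- `v` above `C` divides every element of `C` -/
theorem memP_dvd {A : Submonoid P} {C : Closed A} {z v : P} (hz : MemP C z) (hv : DownP C v) :
    v ∣ z := by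
  obtain ⟨s, hs, h⟩ := hv
  exact h.trans (hz.1 s hs)

theorem memP_coe (G : IsGood P) {A : Submonoid P} {C : Closed A} {p : A} (hp : C.Mem p) :
    MemP C (p : P) := by
  refine ⟨fun s hs => ?_, fun s r x hR hx => ?_⟩
  · obtain ⟨c, hc⟩ := hp.1 s hs
    exact ⟨c, congrArg Subtype.val hc⟩
  · have hr : r ∈ C.S := C.dom _ _ (C.symm _ _ hR)
    obtain ⟨c, hc⟩ := hp.1 r hr
    have h1 := hp.2 s r c hR hc
    have h2 : (p : P) = r * c := congrArg Subtype.val hc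
    have : x = c := G.lc r _ _ (by rw [← hx, ← h2])
    rw [this]
    exact congrArg Subtype.val h1

/-- half of (B) -/
theorem half {β β' : Ordinal.{0}} (hβ' : β' % 2 = 1)
    (d : Datum (T.A β)) (d' : Datum (T.A β')) (p : T.A β) (p' : T.A β')
    (hp : MemP d.C (p : P)) (hη : MemP d.C (eta T β d)) (hbp' : ¬ (d'.b : P) ∣ (p' : P))
    {u u' p0 q0 z z' : P} (h1 : (p : P) = u * p0) (h2 : (p' : P) = u' * p0)
    (h3 : eta T β d * z = u * q0) (h4 : eta T β' d' * z' = u' * q0) (hz' : ¬ (d'.a : P) ∣ z')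
    (t : P) (ht : DownP d.C (u * t)) : DownP d'.C (u' * t) := by
  obtain ⟨p1, hp1⟩ := memP_dvd hp ht
  have e1 : p0 = t * p1 := T.good.lc u _ _ (by rw [← h1, hp1, mul_assoc])
  obtain ⟨q1, hq1⟩ := memP_dvd hη ht
  have e2 : q0 = t * (q1 * z) := T.good.lc u _ _ (by
    rw [← h3]
    conv_lhs => rw [hq1]
    simp only [mul_assoc])
  refine stT1 T β' hβ' d' p' hbp' (u' * t) z' ⟨p1, ?_⟩ ⟨q1 * z, ?_⟩ hz'
  · rw [h2, e1, mul_assoc]
  · rw [h4, e2]; simp only [mul_assoc]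

/-- different stages are impossible -/
theorem T2_lt {β β' : Ordinal.{0}} (hlt : β < β') (hβ : β % 2 = 1) (hβ' : β' % 2 = 1)
    (d : Datum (T.A β)) (d' : Datum (T.A β')) (p : T.A β) (p' : T.A β')
    (hp : MemP d.C (p : P)) (hbp : ¬ (d.b : P) ∣ (p : P)) (hp' : MemP d'.C (p' : P))
    (hbp' : ¬ (d'.b : P) ∣ (p' : P))
    {u u' p0 q0 z z' : P} (h1 : (p : P) = u * p0) (h2 : (p' : P) = u' * p0)
    (h3 : eta T β d * z = u * q0) (h4 : eta T β' d' * z' = u' * q0) (hz : ¬ (d.a : P) ∣ z)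
    (hz' : ¬ (d'.a : P) ∣ z') : False := by
  have hη : MemP d.C (eta T β d) := (stT3 T β hβ d).2.1
  have hη' : MemP d'.C (eta T β' d') := (stT3 T β' hβ' d').2.1
  have hE : ∀ t, DownP d.C (u * t) ↔ DownP d'.C (u' * t) := fun t =>
    ⟨half T hβ' d d' p p' hp hη hbp' h1 h2 h3 h4 hz' t,
      half T hβ d' d p' p hp' hη' hbp h2 h1 h4 h3 hz t⟩
  have hu : DownP d.C u := stT1 T β hβ d p hbp u z ⟨p0, h1⟩ ⟨q0, h3⟩ hz
  obtain ⟨c, hc1, hc2, hc3⟩ := rep T hlt.le d.C d'.C hE hu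
  obtain ⟨e0, he0⟩ := memP_dvd hη hc3
  have hηA : eta T β d ∈ T.A β' := T.mono (Order.succ_le_of_lt hlt) (eta_mem T β d)
  have he0A : e0 ∈ T.A β' := (tstage T β').lu _ _ hc1 (he0 ▸ hηA)
  have e1 : q0 = c * (e0 * z) := T.good.lc u _ _ (by
    rw [← h3]
    conv_lhs => rw [he0]
    simp only [mul_assoc])
  have h5 : DownP d'.C (u' * c * e0) := by
    refine stT1' T β' hβ' d' ⟨u' * c * e0, (T.A β').mul_mem hc2 he0A⟩ z' ⟨z, ?_⟩ hz'
    rw [h4, e1]; simp only [mul_assoc]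
  have h6 : DownP d.C (eta T β d) := by
    rw [he0, mul_assoc]
    rw [mul_assoc] at h5
    exact (hE (c * e0)).2 h5
  exact not_eta_dvd T β hβ d p hbp (memP_dvd hp h6)

/-- the same stage -/
theorem T2_eq {β : Ordinal.{0}} (hβ : β % 2 = 1)
    (d : Datum (T.A β)) (d' : Datum (T.A β)) (p : T.A β) (p' : T.A β)
    (hp : MemP d.C (p : P)) (hbp : ¬ (d.b : P) ∣ (p : P)) (hp' : MemP d'.C (p' : P))
    (hbp' : ¬ (d'.b : P) ∣ (p' : P))
    {u u' p0 q0 z z' : P} (h1 : (p : P) = u * p0) (h2 : (p' : P) = u' * p0)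
    (h3 : eta T β d * z = u * q0) (h4 : eta T β d' * z' = u' * q0) (hz : ¬ (d.a : P) ∣ z)
    (hz' : ¬ (d'.a : P) ∣ z') : d = d' ∧ z = z' ∧
      ∃ (s r : T.A β) (c : P), (s : P) = u * c ∧ (r : P) = u' * c ∧ d.C.R s r := by
  have G := goodM T.good
  have hη : MemP d.C (eta T β d) := (stT3 T β hβ d).2.1
  have hη' : MemP d'.C (eta T β d') := (stT3 T β hβ d').2.1
  have hE : ∀ t, DownP d.C (u * t) ↔ DownP d'.C (u' * t) := fun t =>
    ⟨half T hβ d d' p p' hp hη hbp' h1 h2 h3 h4 hz' t,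
      half T hβ d' d p' p hp' hη' hbp h2 h1 h4 h3 hz t⟩
  have hu : DownP d.C u := stT1 T β hβ d p hbp u z ⟨p0, h1⟩ ⟨q0, h3⟩ hz
  obtain ⟨c, hc1, hc2, hc3⟩ := rep T le_rfl d.C d'.C hE hu
  obtain ⟨t, ht⟩ := memP_dvd hη hc3
  have e1 : q0 = c * (t * z) := T.good.lc u _ _ (by
    rw [← h3]
    conv_lhs => rw [ht]
    simp only [mul_assoc])
  have htB : t ∈ T.A (Order.succ β) :=
    (tstage T _).lu _ _ (T.mono (Order.le_succ β) hc1) (ht ▸ eta_mem T β d)
  have hr : RD d (u * c) (u * c) := by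
    obtain ⟨k, hk, hck⟩ := hc3
    have : (⟨u * c, hc1⟩ : T.A β) ∣ k := (dvd_sub (tstage T β) _ _).2 hck
    exact (RD_coe d ⟨u * c, hc1⟩ ⟨u * c, hc1⟩).2 (d.C.refl _ (d.C.up _ _ this hk))
  have hζ : u' * c * t ∈ T.A (Order.succ β) :=
    (T.A _).mul_mem (T.mono (Order.le_succ β) hc2) htB
  obtain ⟨hzz, hdd, x, x', hx, hR⟩ := tind T (Order.succ β)
    (fun z z' => ¬ (d.a : P) ∣ z → ¬ (d'.a : P) ∣ z' → u' * c * t * z = eta T β d' * z' → z = z' ∧
      (d = d' ∧ ∃ x x', u' * c * x = x' ∧ RD d (u * c * x) x'))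
    ((tstep2 T β hβ).T2_base G (tstage T β) (tstage T _) d d' hc2 hr ht)
    (by
      intro δ hδ ih
      have hζ' : u' * c * t ∈ T.A δ := T.mono hδ hζ
      have hη'' : eta T β d' ∈ T.A δ := T.mono hδ (eta_mem T β d')
      rcases par δ with h | h
      · exact (tstep1 T δ h).T2_step G (tstage T δ) (tstage T _) hζ' hη'' ih
      · exact (tstep2 T δ h).T2_step G (tstage T δ) (tstage T _) hζ' hη'' ih) z z' hz hz'
    (by rw [h4, e1]; simp only [mul_assoc])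
  refine ⟨hdd, hzz, ?_⟩
  obtain ⟨s, r, hs, hr', hsr⟩ := hR
  exact ⟨s, r, c * x, by rw [hs, mul_assoc], by rw [hr', ← hx, mul_assoc], hsr⟩

/-- (T2) -/
theorem stT2 : StT2 T := by
  intro β β' hβ hβ' d d' p p' hp hbp hp' hbp' s s' z z' h1 h2 hz hz'
  obtain ⟨u, v, huv, hmin⟩ := T.good.lcm s s' p p' h1
  obtain ⟨p0, hp0, hp0'⟩ := hmin _ _ h1
  obtain ⟨q0, hq0, hq0'⟩ := hmin (eta T β d * z) (eta T β' d' * z')
    (by rw [← mul_assoc, ← mul_assoc]; exact h2)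
  have hpM := memP_coe T.good hp
  have hpM' := memP_coe T.good hp'
  rcases lt_trichotomy β β' with h | h | h
  · exact (T2_lt T h hβ hβ' d d' p p' hpM hbp hpM' hbp' hp0 hp0' hq0 hq0' hz hz').elim
  · subst h
    obtain ⟨rfl, rfl, s1, r1, c, e1, e2, hR⟩ :=
      T2_eq T hβ d d' p p' hpM hbp hpM' hbp' hp0 hp0' hq0 hq0' hz hz'
    refine ⟨rfl, rfl, s1, r1, ?_, hR⟩
    rw [e1, e2, ← mul_assoc, ← mul_assoc, huv]
  · exact (T2_lt T h hβ' hβ d' d p' p hpM' hbp' hpM hbp hp0' hp0 hq0' hq0 hz' hz).elim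

end Crest.Agent.R296.TFinx774
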