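import Crest.Agent.R296.Res_70
import Crest.Agent.R296.TFin_774

/-!
Row 296 (S0448), helper70: the T-lemma in the FILTER form of `IfA2_378` (`TDat`, `TLem`), for the
literal tower of `IfA_378` (v1, closed sets).

* `filtC F : Closed P` = the closed set `(F, Q = 1)`: `R s r ↔ ∃ t, s * t = r * t ∧ r * t ∈ F`;
* `TDat T` : `(β, F, a, b, p)`; `TDat.datum : Datum (T.A β)`; `etaF D : P` the letter;
* `tlem T : TLem T (etaF T)` : `rel`, `new`, `t3`, `t0`, `t1`, `t1'`, `t2` literally as in `IfA2_378`.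
-/

set_option autoImplicit false

universe u v w

namespace Crest.Agent.R296.FiltCx70

open Crest.Agent.R296.IfAx378 Crest.Agent.R296.Resx70 Crest.Agent.R296.TSx774
  Crest.Agent.R296.TFinx774

section filt
variable {P : Type u} [Monoid P] [IsGood P]

/-- the closed set `(F, Q = 1)` -/
def filtC (F : Filt P) : Closed P where
  toFilt := F
  R s r := ∃ t, s * t = r * t ∧ r * t ∈ F.S
  dom s r := by
    rintro ⟨t, h1, h2⟩
    exact F.up _ _ ⟨t, h1.symm⟩ h2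
  refl s hs := ⟨1, rfl, by rwa [mul_one]⟩
  symm s r := by
    rintro ⟨t, h1, h2⟩
    exact ⟨t, h1.symm, by rwa [h1]⟩
  trans s r q := by
    rintro ⟨t, h1, h2⟩ ⟨t', h1', h2'⟩
    obtain ⟨m, hm, ⟨x, hx⟩, ⟨x', hx'⟩⟩ := F.dir _ _ h2 h2'
    have e : t * x = t' * x' := by
      apply lcan (f := r)
      rw [← mul_assoc, ← hx, ← mul_assoc, h1', hx']
    refine ⟨t * x, ?_, ?_⟩
    · rw [← mul_assoc, h1, ← hx, e, ← mul_assoc, hx']
    · rw [e, ← mul_assoc, ← hx']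
      exact hm
  act s r t := by
    rintro ⟨t0, h1, h2⟩ ht
    obtain ⟨m, hm, ⟨x, hx⟩, ⟨x', hx'⟩⟩ := F.dir _ _ h2 ht
    have e : t0 * x = t * x' := by
      apply lcan (f := r)
      rw [← mul_assoc, ← hx, ← mul_assoc, hx']
    refine ⟨x', ?_, ?_⟩
    · rw [mul_assoc, ← e, ← mul_assoc, h1, ← hx, ← hx']
    · rw [← hx']
      exact hm
  shrink s r t := by
    rintro ⟨x, h1, h2⟩
    exact ⟨t * x, by rw [← mul_assoc, ← mul_assoc]; exact h1, by rw [← mul_assoc]; exact h2⟩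

theorem filtC_mem {F : Filt P} {z : P} : (filtC F).Mem z ↔ ∀ s ∈ F.S, s ∣ z := by
  constructor
  · intro h s hs
    exact h.1 s hs
  · intro h
    refine ⟨h, ?_⟩
    rintro s r x ⟨t, h1, h2⟩ hx
    obtain ⟨c, hc⟩ := h _ h2
    have e : x = t * c := by
      apply lcan (f := r)
      rw [← hx, hc, mul_assoc]
    rw [e, ← mul_assoc, h1, hc]

theorem filtC_sim {F : Filt P} {f g : P} : (filtC F).Sim f g ↔ ∃ t ∈ F.S, f * t = g * t := by
  constructor
  · rintro ⟨x, y, h, t, h1, h2⟩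
    refine ⟨y * t, h2, ?_⟩
    rw [← h1, ← mul_assoc, h, mul_assoc, ← h1]
  · rintro ⟨t, ht, h⟩
    exact ⟨t, t, h, (filtC F).refl t ht⟩

end filt

section tower
variable {P : Type 1} [Monoid P] (T : Tower P)

/-- a filter generated by `A α` is determined by its members in `A α` -/
theorem filt_ext {F G : Filt P} {α : Ordinal.{0}} (hF : GenBy T F α) (hG : GenBy T G α)
    (h : ∀ s ∈ T.A α, s ∈ F.S ↔ s ∈ G.S) : F = G := by
  have hS : F.S = G.S := by
    ext s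
    constructor
    · intro hs
      obtain ⟨m, hm, h1, h2⟩ := hF s hs
      exact G.up _ _ h2 ((h m hm).1 h1)
    · intro hs
      obtain ⟨m, hm, h1, h2⟩ := hG s hs
      exact F.up _ _ h2 ((h m hm).2 h1)
  cases F
  cases G
  simp only at hS
  subst hS
  rfl

/-- data of a T-letter -/
@[ext] structure TDat where
  β : Ordinal.{0}
  odd : β % 2 = 1
  F : Filt P
  a : P
  b : P
  p : P
  gen : GenBy T F β
  ha : a ∈ T.A β
  hb : b ∈ T.A β
  hp : p ∈ T.A β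
  a_ne : a ≠ 1
  mem : ∀ s ∈ F.S, s ∣ p
  dvd : p ∣ b
  ndvd : ¬ b ∣ p

variable {T}

/-- the closed set of `A β` given by the filter `F` -/
def FC (F : Filt P) (β : Ordinal.{0}) : Closed (T.A β) :=
  have := T.good
  cres T (filtC F) β

theorem FC_S {F : Filt P} {β : Ordinal.{0}} {s : T.A β} :
    s ∈ (FC (T := T) F β).S ↔ (s : P) ∈ F.S := Iff.rfl

theorem FC_R {F : Filt P} {β : Ordinal.{0}} {s r : T.A β} :
    (FC (T := T) F β).R s r ↔ ∃ t : P, (s : P) * t = r * t ∧ (r : P) * t ∈ F.S := Iff.rfl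

theorem FC_mem {F : Filt P} {β : Ordinal.{0}} {z : T.A β} (h : ∀ s ∈ F.S, s ∣ (z : P)) :
    (FC (T := T) F β).Mem z := by
  have := T.good
  refine ⟨fun s hs => (tDvd T).1 (h _ hs), fun s r x hR hx => ?_⟩
  have h2 := (filtC_mem.2 h).2 (s : P) (r : P) (x : P) hR (congrArg Subtype.val hx)
  exact Subtype.ext h2

theorem downP_FC {F : Filt P} {β : Ordinal.{0}} {v : P} (h : DownP (FC (T := T) F β) v) :
    v ∈ F.S := by
  obtain ⟨s, hs, hv⟩ := h
  exact F.up _ _ hv hs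

theorem simP_FC {F : Filt P} {β : Ordinal.{0}} {f g : P} (h : SimP (FC (T := T) F β) f g) :
    ∃ t ∈ F.S, f * t = g * t := by
  obtain ⟨x, y, h, t, h1, h2⟩ := h
  have h1' : (x : P) * t = y * t := h1
  refine ⟨(y : P) * t, h2, ?_⟩
  rw [← h1', ← mul_assoc, h, mul_assoc, ← h1']

/-- the datum of a `TDat` -/
def TDat.datum (D : TDat T) : Datum (T.A D.β) where
  C := FC D.F D.β
  a := ⟨D.a, D.ha⟩
  b := ⟨D.b, D.hb⟩
  a_ne h := D.a_ne (congrArg Subtype.val h)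
  b_mem := FC_mem fun s hs => (D.mem s hs).trans D.dvd
  ex_p := by
    refine ⟨⟨D.p, D.hp⟩, FC_mem D.mem, (tDvd T).1 D.dvd, fun h => D.ndvd ((tDvd T).2 h)⟩

variable (T)

/-- the letter of the datum `D` -/
noncomputable def etaF (D : TDat T) : P := eta T D.β D.datum

/-- A-T = T-lemma A.7, filter form (literally `IfA2_378`) -/
structure TLem (η : TDat T → P) : Prop where
  succ : ∀ D, η D ∈ T.A (Order.succ D.β)
  new : ∀ D, η D ∉ T.A D.β
  rel : ∀ D, η D * D.a = D.b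
  /-- (T3): `η` is in all members of `F`; so `s u = s' u`, `u ∈ F`, imply `s η = s' η` -/
  t3 : ∀ D, ∀ u ∈ D.F.S, u ∣ η D
  /-- (T0) -/
  t0 : ∀ D s z, s ∈ T.A D.β → s * η D * z ∈ T.A D.β → D.a ∣ z
  /-- (T1) -/
  t1 : ∀ D u z, u ∣ D.p → u ∣ η D * z → ¬ D.a ∣ z → u ∈ D.F.S
  /-- (T1') -/
  t1' : ∀ D u z, u ∈ T.A D.β → u ∣ η D * z → ¬ D.a ∣ z → u ∈ D.F.S
  /-- (T2) -/
  t2 : ∀ D D' s s' z z', s * D.p = s' * D'.p → s * η D * z = s' * η D' * z' →
    ¬ D.a ∣ z → ¬ D'.a ∣ z' →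
    D = D' ∧ z = z' ∧ ∃ u ∈ D.F.S, s * u = s' * u

theorem etaF_rel (D : TDat T) : etaF T D * D.a = D.b := (stT3 T D.β D.odd D.datum).1

theorem etaF_t0 (D : TDat T) (s z : P) (hs : s ∈ T.A D.β) (h : s * etaF T D * z ∈ T.A D.β) :
    D.a ∣ z := by
  have := T.good
  rw [mul_assoc] at h
  have h1 : etaF T D * z ∈ T.A D.β := tRight T hs h
  obtain ⟨x, hx⟩ := (stT3 T D.β D.odd D.datum).2.2.2 z h1
  refine ⟨x, ?_⟩
  apply lcan (f := etaF T D)
  rw [← mul_assoc, etaF_rel]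
  exact hx

/-- two data with the same letter data are equal -/
theorem tdat_eq {D D' : TDat T} (hβ : D.β = D'.β) (hd : HEq D.datum D'.datum) (hp : D.p = D'.p) :
    D = D' := by
  obtain ⟨β, odd, F, a, b, p, gen, ha, hb, hp1, a_ne, mem, dvd, ndvd⟩ := D
  obtain ⟨β', odd', F', a', b', p', gen', ha', hb', hp1', a_ne', mem', dvd', ndvd'⟩ := D'
  simp only at hβ hp
  subst hβ
  subst hp
  have hd' := eq_of_heq hd
  have hC := congrArg Datum.C hd'
  have haa := congrArg (fun d : Datum (T.A β) => (d.a : P)) hd'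
  have hbb := congrArg (fun d : Datum (T.A β) => (d.b : P)) hd'
  simp only [TDat.datum] at hC haa hbb
  subst haa
  subst hbb
  have hF : F = F' := by
    apply filt_ext T gen gen'
    intro s hs
    have h1 : (⟨s, hs⟩ : T.A β) ∈ (FC (T := T) F β).S ↔ (⟨s, hs⟩ : T.A β) ∈ (FC (T := T) F' β).S := by
      rw [hC]
    exact h1
  subst hF
  rfl

theorem tlem : TLem T (etaF T) where
  succ D := (stT3 T D.β D.odd D.datum).2.2.1
  new D h := by
    have := T.good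
    have h1 := etaF_t0 T D 1 1 (T.A D.β).one_mem (by rwa [one_mul, mul_one])
    exact D.a_ne (dvd_one h1)
  rel D := etaF_rel T D
  t3 D u hu := by
    obtain ⟨m, hm, h1, h2⟩ := D.gen u hu
    exact h2.trans ((stT3 T D.β D.odd D.datum).2.1.1 ⟨m, hm⟩ h1)
  t0 D s z hs h := etaF_t0 T D s z hs h
  t1 D u z h1 h2 h3 :=
    downP_FC (stT1 T D.β D.odd D.datum ⟨D.p, D.hp⟩ D.ndvd u z h1 h2 h3)
  t1' D u z hu h2 h3 :=
    downP_FC (stT1' T D.β D.odd D.datum ⟨u, hu⟩ z h2 h3)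
  t2 D D' s s' z z' h1 h2 h3 h4 := by
    have := T.good
    obtain ⟨he, hz, hs⟩ := stT2 T D.β D'.β D.odd D'.odd D.datum D'.datum ⟨D.p, D.hp⟩ ⟨D'.p, D'.hp⟩
      (FC_mem D.mem) D.ndvd (FC_mem D'.mem) D'.ndvd s s' z z' h1 h2 h3 h4
    obtain ⟨u, hu, hsu⟩ := simP_FC (T := T) hs
    have hp : D.p = D'.p := by
      obtain ⟨q, hq⟩ := D.mem u hu
      apply lcan (f := s')
      rw [← h1, hq, ← mul_assoc, ← mul_assoc, hsu]
    have h5 := Sigma.mk.inj_iff.1 he
    exact ⟨tdat_eq T h5.1 h5.2 hp, hz, u, hu, hsu⟩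

end tower

end Crest.Agent.R296.FiltCx70
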