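import Crest.Agent.R296.Hyp_365

/-!
Row 296 (S0448), helper365.  **The letters of `PPc_564` from the output of block A** (`OutA_378`).
-/

set_option autoImplicit false

open CategoryTheory

namespace Crest.Agent.R296.LetHx365

open Crest.Agent.R296.IfAx378 Crest.Agent.R296.CondCx153 Crest.Agent.R296.CatFx365
open Crest.Agent.R296.LctStx153 Crest.Agent.R296.PPcx564 Crest.Agent.R296.OutAx378

variable {P : Type 1} [Monoid P] {A : Ordinal.{0} → Submonoid P}

theorem small_bdd (K : Kit P A) (S : Set P) (hS : Small.{0} S) : ∃ β, ∀ x ∈ S, x ∈ A β := by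
  choose st hst using K.exh
  obtain ⟨γ, hγ⟩ := Ordinal.bddAbove_of_small (s := st '' S)
  exact ⟨γ, fun x hx => K.mono (hγ ⟨x, hx, rfl⟩) (hst x)⟩

theorem genByA_mono (K : Kit P A) {F : Filt P} {α β : Ordinal.{0}} (h : α ≤ β)
    (hF : GenByA P A F α) : GenByA P A F β := fun s hs => by
  obtain ⟨m, h1, h2, h3⟩ := hF s hs
  exact ⟨m, K.mono h h1, h2, h3⟩

theorem le_odd (β : Ordinal.{0}) : β ≤ 2 * β + 1 :=
  (Ordinal.le_mul_right β (by norm_num : (0 : Ordinal.{0}) < 2)).trans le_self_add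

theorem odd_inj {β γ : Ordinal.{0}} (h : 2 * β + 1 = 2 * γ + 1) : β = γ := by
  have h2 : 2 * β = 2 * γ := by
    have h3 : Order.succ (2 * β) = Order.succ (2 * γ) := by simpa using h
    exact Order.succ_injective h3
  rcases lt_trichotomy β γ with h4 | h4 | h4
  · exact absurd h2 (mul_lt_mul_of_pos_left h4 (by norm_num : (0 : Ordinal.{0}) < 2)).ne
  · exact h4
  · exact absurd h2 (mul_lt_mul_of_pos_left h4 (by norm_num : (0 : Ordinal.{0}) < 2)).ne'

theorem odd_mod (β : Ordinal.{0}) : (2 * β + 1) % 2 = 1 := by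
  rw [Ordinal.mul_add_mod_self]
  exact Ordinal.mod_eq_of_lt (by norm_num)

/-- the datum of `(β, F, a, p)` -/
structure Dt (A : Ordinal.{0} → Submonoid P) (f0 : P) (β : Ordinal.{0}) (F : Filt P) (a p : P)
    (D : TDat A) : Prop where
  eβ : D.β = 2 * β + 1
  eF : D.F = F
  ea : D.a = a
  ep : D.p = p
  eb : D.b = p * f0

theorem Dt.uniq {f0 : P} {β : Ordinal.{0}} {F : Filt P} {a p : P} {D D' : TDat A}
    (h : Dt A f0 β F a p D) (h' : Dt A f0 β F a p D') : D = D' :=
  TDat.ext (h.eβ.trans h'.eβ.symm) (h.eF.trans h'.eF.symm) (h.ea.trans h'.ea.symm)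
    (h.eb.trans h'.eb.symm) (h.ep.trans h'.ep.symm)

open Classical in
/-- the letter -/
noncomputable def LL (η : TDat A → P) (f0 : P) (β : Ordinal.{0}) (F : Filt P) (a p : P) : P :=
  if h : ∃ D : TDat A, Dt A f0 β F a p D then η h.choose else 1

theorem LL_eq (η : TDat A → P) {f0 : P} {β : Ordinal.{0}} {F : Filt P} {a p : P} {D : TDat A}
    (h : Dt A f0 β F a p D) : LL η f0 β F a p = η D := by
  have h1 : ∃ D : TDat A, Dt A f0 β F a p D := ⟨D, h⟩
  rw [LL, dif_pos h1]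
  rw [h1.choose_spec.uniq h]

theorem letHyp [IsGood P] (K : Kit P A) (η : TDat A → P) (T : TLem η) {f0 : P} (hf0 : f0 ≠ 1) :
    Nonempty (LetHyp P f0) := by
  refine ⟨{ Let := LL η f0, good := fun β F a p => ∃ D : TDat A, Dt A f0 β F a p D, ev := ?_,
            rel := ?_, mem := ?_, T2 := ?_ }⟩
  · intro F a p S hS ha hF
    obtain ⟨α, hα⟩ := Lctx153.gen_some K F
    obtain ⟨γ, hγ⟩ := small_bdd K (S ∪ {a, p, p * f0})
      (by
        have : Small.{0} ({a, p, p * f0} : Set P) := inferInstance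
        exact small_union _ _)
    refine ⟨max α γ, fun β hβ => ?_⟩
    have h1 : max α γ ≤ 2 * β + 1 := hβ.trans (le_odd β)
    have h2 : ∀ x ∈ S ∪ {a, p, p * f0}, x ∈ A (2 * β + 1) :=
      fun x hx => K.mono ((le_max_right _ _).trans h1) (hγ x hx)
    let D : TDat A :=
      { β := 2 * β + 1, F := F, a := a, b := p * f0, p := p, odd := odd_mod β
        gen := genByA_mono K ((le_max_left _ _).trans h1) hα
        ha := h2 a (Or.inr (by simp))
        hb := h2 (p * f0) (Or.inr (by simp))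
        hp := h2 p (Or.inr (by simp))
        a_ne := ha, mem := hF, dvd := ⟨f0, rfl⟩
        ndvd := by
          rintro ⟨c, hc⟩
          have h3 : p * 1 = p * (f0 * c) := by rw [mul_one, ← mul_assoc]; exact hc
          exact hf0 (IsGood.unit _ _ (IsGood.lc _ _ _ h3).symm) }
    have hD : Dt A f0 β F a p D := ⟨rfl, rfl, rfl, rfl, rfl⟩
    refine ⟨⟨D, hD⟩, fun x hx => ?_⟩
    have h3 : LL η f0 β F a p * x ∈ A (2 * β + 1) := h2 _ (Or.inl hx)
    rw [LL_eq η hD] at h3 ⊢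
    obtain ⟨z, rfl⟩ := T.t0 D 1 x (one_mem _) (by rw [one_mul]; exact h3)
    refine ⟨z, ?_⟩
    change η D * (D.a * z) = _
    rw [← mul_assoc, T.rel D]
  · rintro β F a p ⟨D, hD⟩
    rw [LL_eq η hD]
    have := T.rel D
    rw [hD.ea, hD.eb] at this
    exact this
  · rintro β F a p ⟨D, hD⟩ u hu
    rw [LL_eq η hD]
    exact T.t3 D u (by rw [hD.eF]; exact hu)
  · rintro β β' F F' a p p' s s' z ⟨D, hD⟩ ⟨D', hD'⟩ h1 h2 h3
    rw [LL_eq η hD, LL_eq η hD'] at h2 ⊢
    obtain ⟨h4, -, u, hu, h5⟩ := T.t2 D D' s s' z z (by rw [hD.ep, hD'.ep]; exact h1) h2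
      (by rw [hD.ea]; exact h3) (by rw [hD'.ea]; exact h3)
    refine ⟨odd_inj (hD.eβ.symm.trans ((congrArg TDat.β h4).trans hD'.eβ)), congrArg η h4, u, ?_, h5⟩
    rw [← hD.eF]
    exact hu

end Crest.Agent.R296.LetHx365
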