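import Crest.Agent.R296.Res_70
import Crest.Agent.R296.LctSt_153

/-! Row 296 (S0448): `Kit P T.A` (facts of block A used by block C) from a tower (helper70). -/

set_option autoImplicit false

namespace Crest.Agent.R296.KitTx70

open Crest.Agent.R296.IfAx378 Crest.Agent.R296.Resx70 Crest.Agent.R296.LctStx153

variable {P : Type 1} [Monoid P] (T : Tower P)

theorem kit (hcap : StCap T) (hgen : GenS P) (hlet : LetS P) (htri : TriX P) (htriD : TriXD P) :
    Kit P T.A where
  good := T.good
  mono := T.mono
  small := T.small
  exh := T.exh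
  lim := T.lim
  gen := hgen
  letr := hlet
  tri := htri
  triD := htriD
  cap := hcap
  germ F α hF u v hu h := by
    obtain ⟨t, h1, h2, h3, -⟩ := tGerm T (F := F.S) (G := F.S) (α := α) hF hF (s := v) (r := u) hu h
    exact ⟨t, h2, h1, h3⟩

end Crest.Agent.R296.KitTx70
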