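import Crest.Agent.R296.IfA_378

/-!
# Row 296 (S0448), block A, leaf A-S2 (helper667, hedge of 537): the abstract (S2) extension

`Wd P H` : words, `lm` left multiplication by `P`, `star h v` = `h(y) v`, `mulW`, `Irr`;
`PX D` = irreducible words: a good monoid, conservative over `P`.
* `NF.lcm` : right LCM from the normal form (induction on the number of letters)
* `stS2 : StS2`
-/

set_option autoImplicit false

universe u v w

namespace Crest.Agent.R296.S2x667

open IfAx378

/-! ## right LCM from the normal form -/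

section nf

variable {P : Type u} [Monoid P] {H : Type v} [MulAction P H] {P' : Type w} [Monoid P']

/-- everything about the extension except the right LCM -/
structure NF (D : S2Data P H) (ι : P →* P') (y : H → P') (len : P' → ℕ) : Prop where
  lc : ∀ f g h : P', f * g = f * h → g = h
  unit : ∀ f g : P', f * g = 1 → f = 1
  inj : Function.Injective ι
  act : ∀ (p : P) (h : H), ι p * y h = y (p • h)
  rel : ∀ h, y h * ι (D.a h) = ι (D.e h)
  len_ι : ∀ p, len (ι p) = 0
  len_mul : ∀ p w, len (ι p * w) = len w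
  len_y : ∀ h x, ¬ ι (D.a h) ∣ x → len (y h * x) = len x + 1
  nf : ∀ w, (∃ p, w = ι p) ∨ ∃ h x, w = y h * x ∧ ¬ ι (D.a h) ∣ x
  new : ∀ h x p, ¬ ι (D.a h) ∣ x → y h * x ≠ ι p
  uniq : ∀ h x h' x', ¬ ι (D.a h) ∣ x → ¬ ι (D.a h') ∣ x' → y h * x = y h' * x' → h = h' ∧ x = x'

/-- right LCM with a bound for the length -/
def LC (len : P' → ℕ) (x y : P') : Prop :=
  ∃ u v, x * u = y * v ∧ len (x * u) ≤ max (len x) (len y) ∧
    ∀ x' y', x * x' = y * y' → ∃ t, x' = u * t ∧ y' = v * t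

theorem LC.symm {len : P' → ℕ} {x y : P'} (h : LC len x y) : LC len y x := by
  obtain ⟨u, v, h1, h2, h3⟩ := h
  refine ⟨v, u, h1.symm, ?_, fun x' y' e => ?_⟩
  · rw [← h1, max_comm]; exact h2
  · obtain ⟨t, e1, e2⟩ := h3 _ _ e.symm
    exact ⟨t, e2, e1⟩

variable {D : S2Data P H} {ι : P →* P'} {y : H → P'} {len : P' → ℕ}

namespace NF

/-- left multiplication by `ι s` of a normal form -/
theorem mul_y (N : NF D ι y len) (s : P) (h : H) (x : P') : ι s * (y h * x) = y (s • h) * x := by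
  rw [← mul_assoc, N.act]

theorem ndvd_smul {s : P} {h : H} {x : P'} (hx : ¬ ι (D.a h) ∣ x) :
    ¬ ι (D.a (s • h)) ∣ x := by rwa [D.a_smul]

/-- if `ι s z = y h x` is a normal form then `h = s • k`, `z = y k x` -/
theorem of_mul_eq (N : NF D ι y len) {s : P} {h : H} {x z : P'} (hx : ¬ ι (D.a h) ∣ x)
    (e : ι s * z = y h * x) : ∃ k, h = s • k ∧ z = y k * x := by
  rcases N.nf z with ⟨p, rfl⟩ | ⟨k, x', rfl, hk⟩
  · rw [← map_mul] at e
    exact absurd e.symm (N.new h x _ hx)
  · rw [N.mul_y] at e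
    obtain ⟨h1, rfl⟩ := N.uniq _ _ _ _ (ndvd_smul hk) hx e
    exact ⟨k, h1.symm, rfl⟩

/-- case A: two elements of `P` -/
theorem caseA [IsGood P] (N : NF D ι y len) {f g : P} {x' y' : P'} (e : ι f * x' = ι g * y') :
    ∃ u v, f * u = g * v ∧ (∀ a b, f * a = g * b → ∃ t, a = u * t ∧ b = v * t) ∧
      ∃ t, x' = ι u * t ∧ y' = ι v * t := by
  rcases N.nf x' with ⟨p, rfl⟩ | ⟨h, x, rfl, hx⟩
  · rcases N.nf y' with ⟨q, rfl⟩ | ⟨k, z, rfl, hz⟩
    · have e' : f * p = g * q := N.inj (by rw [map_mul, map_mul]; exact e)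
      obtain ⟨u, v, h1, h2⟩ := IsGood.lcm _ _ _ _ e'
      obtain ⟨t, rfl, rfl⟩ := h2 _ _ e'
      exact ⟨u, v, h1, h2, ι t, map_mul _ _ _, map_mul _ _ _⟩
    · rw [N.mul_y, ← map_mul] at e
      exact absurd e.symm (N.new _ _ _ (ndvd_smul hz))
  · have e1 : ι g * y' = y (f • h) * x := by rw [← e, N.mul_y]
    obtain ⟨k, h1, rfl⟩ := N.of_mul_eq (ndvd_smul hx) e1
    obtain ⟨a, b, h0, h2, rfl, rfl⟩ := D.lcm _ _ _ _ h1
    obtain ⟨u, v, h3, h4⟩ := IsGood.lcm _ _ _ _ h2
    obtain ⟨t, rfl, rfl⟩ := h4 _ _ h2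
    refine ⟨u, v, h3, h4, ι t * (y h0 * x), ?_, ?_⟩
    · rw [N.mul_y, N.mul_y, smul_smul]
    · rw [N.mul_y, N.mul_y, smul_smul]

theorem cons [IsGood P] (N : NF D ι y len) : Cons ι where
  inj := N.inj
  amal f g x' y' e := by
    obtain ⟨u, v, h1, -, t, h2, h3⟩ := N.caseA e
    exact ⟨u, v, t, h1, h2, h3⟩

theorem len_rel (N : NF D ι y len) (h : H) (q : P') : y h * (ι (D.a h) * q) = ι (D.e h) * q := by
  rw [← mul_assoc, N.rel]

/-- case B : `ι s` and a normal form -/
theorem caseB (N : NF D ι y len) (n : ℕ)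
    (IH : ∀ x y', len x + len y' < n → ∀ x1 y1, x * x1 = y' * y1 → LC len x y')
    {s : P} {h' : H} {u' : P'} (hu : ¬ ι (D.a h') ∣ u') (hn : len (y h' * u') ≤ n)
    {x1 y1 : P'} (e : ι s * x1 = y h' * u' * y1) : LC len (ι s) (y h' * u') := by
  by_cases hk : ∃ k, h' = s • k
  · obtain ⟨k, rfl⟩ := hk
    refine ⟨y k * u', 1, by rw [mul_one, N.mul_y], ?_, fun x' y' h => ⟨y', ?_, (one_mul _).symm⟩⟩
    · rw [N.mul_y]; exact le_max_right _ _
    · refine N.lc (ι s) _ _ ?_
      rw [h, ← N.mul_y, mul_assoc, mul_assoc]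
  · have key : ∀ m1 m2, ι s * m1 = y h' * u' * m2 → ∃ z, u' * m2 = ι (D.a h') * z := by
      intro m1 m2 hm
      by_contra hcon
      have h1 : ¬ ι (D.a h') ∣ u' * m2 := fun ⟨z, hz⟩ => hcon ⟨z, hz⟩
      rw [mul_assoc] at hm
      obtain ⟨k, h2, -⟩ := N.of_mul_eq h1 hm
      exact hk ⟨k, h2⟩
    have hl : len (y h' * u') = len u' + 1 := N.len_y _ _ hu
    obtain ⟨z, hz⟩ := key _ _ e
    obtain ⟨p, q, h1, h2, h3⟩ := IH u' (ι (D.a h')) (by rw [N.len_ι]; omega) _ _ hz
    have hq : len q ≤ len u' := by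
      rw [h1, N.len_mul, N.len_ι] at h2
      simpa using h2
    have red : ∀ m1 m2, ι s * m1 = y h' * u' * m2 →
        ∃ t, m2 = p * t ∧ ι s * m1 = ι (D.e h') * q * t := by
      intro m1 m2 hm
      obtain ⟨z, hz⟩ := key _ _ hm
      obtain ⟨t, rfl, rfl⟩ := h3 _ _ hz
      refine ⟨t, rfl, ?_⟩
      rw [hm, mul_assoc, hz, N.len_rel, mul_assoc]
    obtain ⟨t, -, ht⟩ := red _ _ e
    obtain ⟨u1, v1, h4, h5, h6⟩ := IH (ι s) (ι (D.e h') * q)
      (by rw [N.len_ι, N.len_mul]; omega) _ _ ht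
    refine ⟨u1, p * v1, ?_, ?_, fun x' y' h => ?_⟩
    · rw [h4, ← mul_assoc, mul_assoc (y h') u' p, h1, N.len_rel]
    · rw [N.len_mul (D.e h') q] at h5
      have h8 := N.len_ι s
      rw [h8] at h5 ⊢
      have h7 : max 0 (len q) = len q := by simp
      have h9 : max 0 (len (y h' * u')) = len (y h' * u') := by simp
      omega
    · obtain ⟨t, rfl, h7⟩ := red _ _ h
      obtain ⟨t', rfl, rfl⟩ := h6 _ _ h7
      exact ⟨t', rfl, (mul_assoc _ _ _).symm⟩

/-- case D (α): `h' = e h • k` -/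
theorem caseDa (N : NF D ι y len) (n : ℕ)
    (IH : ∀ x y', len x + len y' < n → ∀ x1 y1, x * x1 = y' * y1 → LC len x y')
    {h h' : H} {w w' : P'} (hw : ¬ ι (D.a h) ∣ w) (hw' : ¬ ι (D.a h') ∣ w') (hne : h ≠ h')
    (hk : ∃ k, h' = D.e h • k) (hn : len (y h * w) + len (y h' * w') ≤ n)
    {x1 y1 : P'} (e : y h * w * x1 = y h' * w' * y1) : LC len (y h * w) (y h' * w') := by
  obtain ⟨k, hk⟩ := hk
  have hl : len (y h * w) = len w + 1 := N.len_y _ _ hw
  have key : ∀ m1 m2, y h * w * m1 = y h' * w' * m2 → ∃ z, w * m1 = ι (D.a h) * z := by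
    intro m1 m2 hm
    by_contra hcon
    have h1 : ¬ ι (D.a h) ∣ w * m1 := fun ⟨z, hz⟩ => hcon ⟨z, hz⟩
    rw [mul_assoc, mul_assoc] at hm
    by_cases h2 : ι (D.a h') ∣ w' * m2
    · obtain ⟨z, hz⟩ := h2
      rw [hz, N.len_rel] at hm
      obtain ⟨k', h3, -⟩ := N.of_mul_eq h1 hm.symm
      have h4 : D.e h • (D.e k • k') = h := by
        rw [smul_smul, ← D.e_smul, ← hk, ← h3]
      exact D.irr _ _ h4
    · exact hne (N.uniq _ _ _ _ h1 h2 hm).1
  have hy' : y h' * w' = ι (D.e h) * (y k * w') := by rw [N.mul_y, ← hk]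
  have hly : len (y k * w') = len (y h' * w') := by rw [hy', N.len_mul]
  obtain ⟨z, hz⟩ := key _ _ e
  obtain ⟨p, q, h1, h2, h3⟩ := IH w (ι (D.a h)) (by rw [N.len_ι]; omega) _ _ hz
  have hq : len q ≤ len w := by
    rw [h1, N.len_mul, N.len_ι] at h2
    simpa using h2
  have red : ∀ m1 m2, y h * w * m1 = y h' * w' * m2 →
      ∃ t, m1 = p * t ∧ q * t = y k * w' * m2 := by
    intro m1 m2 hm
    obtain ⟨z, hz⟩ := key _ _ hm
    obtain ⟨t, rfl, rfl⟩ := h3 _ _ hz
    refine ⟨t, rfl, N.lc (ι (D.e h)) _ _ ?_⟩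
    rw [← N.len_rel, ← hz, ← mul_assoc, hm, hy']
    simp only [mul_assoc]
  obtain ⟨t, -, ht⟩ := red _ _ e
  obtain ⟨p', q', h4, h5, h6⟩ := IH q (y k * w') (by omega) _ _ ht
  have hxp : y h * w * (p * p') = ι (D.e h) * (q * p') := by
    rw [← mul_assoc, mul_assoc (y h) w p, h1, N.len_rel, mul_assoc]
  refine ⟨p * p', q', ?_, ?_, fun x' y' h => ?_⟩
  · rw [hxp, h4, hy']
    simp only [mul_assoc]
  · rw [hxp, N.len_mul]
    refine h5.trans (max_le_max (by omega) (le_of_eq hly))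
  · obtain ⟨t, rfl, h7⟩ := red _ _ h
    obtain ⟨t', rfl, rfl⟩ := h6 _ _ h7
    exact ⟨t', (mul_assoc _ _ _).symm, rfl⟩

/-- case D (γ): neither -/
theorem caseDc (N : NF D ι y len) (n : ℕ)
    (IH : ∀ x y', len x + len y' < n → ∀ x1 y1, x * x1 = y' * y1 → LC len x y')
    {h h' : H} {w w' : P'} (hw : ¬ ι (D.a h) ∣ w) (hw' : ¬ ι (D.a h') ∣ w') (hne : h ≠ h')
    (hk : ¬ ∃ k, h' = D.e h • k) (hk' : ¬ ∃ k, h = D.e h' • k)
    (hn : len (y h * w) + len (y h' * w') ≤ n)
    {x1 y1 : P'} (e : y h * w * x1 = y h' * w' * y1) : LC len (y h * w) (y h' * w') := by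
  have hl : len (y h * w) = len w + 1 := N.len_y _ _ hw
  have hl' : len (y h' * w') = len w' + 1 := N.len_y _ _ hw'
  have key : ∀ m1 m2, y h * w * m1 = y h' * w' * m2 →
      (∃ z, w * m1 = ι (D.a h) * z) ∧ ∃ z, w' * m2 = ι (D.a h') * z := by
    intro m1 m2 hm
    rw [mul_assoc, mul_assoc] at hm
    by_cases h1 : ι (D.a h) ∣ w * m1
    · by_cases h2 : ι (D.a h') ∣ w' * m2
      · exact ⟨h1, h2⟩
      · obtain ⟨z, hz⟩ := h1
        rw [hz, N.len_rel] at hm
        obtain ⟨k', h3, -⟩ := N.of_mul_eq h2 hm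
        exact absurd ⟨k', h3⟩ hk
    · by_cases h2 : ι (D.a h') ∣ w' * m2
      · obtain ⟨z, hz⟩ := h2
        rw [hz, N.len_rel] at hm
        obtain ⟨k', h3, -⟩ := N.of_mul_eq h1 hm.symm
        exact absurd ⟨k', h3⟩ hk'
      · exact absurd (N.uniq _ _ _ _ h1 h2 hm).1 hne
  obtain ⟨⟨z, hz⟩, ⟨z', hz'⟩⟩ := key _ _ e
  obtain ⟨p, q, h1, h2, h3⟩ := IH w (ι (D.a h)) (by rw [N.len_ι]; omega) _ _ hz
  obtain ⟨p', q', h1', h2', h3'⟩ := IH w' (ι (D.a h')) (by rw [N.len_ι]; omega) _ _ hz'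
  have hq : len q ≤ len w := by
    rw [h1, N.len_mul, N.len_ι] at h2
    simpa using h2
  have hq' : len q' ≤ len w' := by
    rw [h1', N.len_mul, N.len_ι] at h2'
    simpa using h2'
  have red : ∀ m1 m2, y h * w * m1 = y h' * w' * m2 →
      ∃ t t', m1 = p * t ∧ m2 = p' * t' ∧ ι (D.e h) * q * t = ι (D.e h') * q' * t' := by
    intro m1 m2 hm
    obtain ⟨⟨z, hz⟩, ⟨z', hz'⟩⟩ := key _ _ hm
    obtain ⟨t, rfl, rfl⟩ := h3 _ _ hz
    obtain ⟨t', rfl, rfl⟩ := h3' _ _ hz'
    refine ⟨t, t', rfl, rfl, ?_⟩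
    rw [mul_assoc, ← N.len_rel, ← hz, ← mul_assoc, hm, mul_assoc, hz', N.len_rel, mul_assoc]
  obtain ⟨t, t', -, -, ht⟩ := red _ _ e
  obtain ⟨u1, v1, h4, h5, h6⟩ := IH (ι (D.e h) * q) (ι (D.e h') * q')
    (by rw [N.len_mul, N.len_mul]; omega) _ _ ht
  have hxp : ∀ r, y h * w * (p * r) = ι (D.e h) * q * r := fun r => by
    rw [← mul_assoc, mul_assoc (y h) w p, h1, N.len_rel]
  have hxp' : ∀ r, y h' * w' * (p' * r) = ι (D.e h') * q' * r := fun r => by
    rw [← mul_assoc, mul_assoc (y h') w' p', h1', N.len_rel]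
  refine ⟨p * u1, p' * v1, ?_, ?_, fun x' y' h => ?_⟩
  · rw [hxp, hxp', h4]
  · rw [hxp]
    rw [N.len_mul, N.len_mul] at h5
    exact h5.trans (max_le_max (by omega) (by omega))
  · obtain ⟨t, t', rfl, rfl, h7⟩ := red _ _ h
    obtain ⟨s, rfl, rfl⟩ := h6 _ _ h7
    exact ⟨s, (mul_assoc _ _ _).symm, (mul_assoc _ _ _).symm⟩

/-- **right LCM** -/
theorem lcm [IsGood P] (N : NF D ι y len) : ∀ (n : ℕ) (x y' : P'), len x + len y' ≤ n →
    ∀ x1 y1, x * x1 = y' * y1 → LC len x y' := by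
  intro n
  induction n using Nat.strong_induction_on with
  | _ n ih =>
  intro x z hn x1 y1 e
  have IH : ∀ x y', len x + len y' < n → ∀ x1 y1, x * x1 = y' * y1 → LC len x y' :=
    fun x y' h x1 y1 e => ih _ h x y' le_rfl x1 y1 e
  rcases N.nf x with ⟨s, rfl⟩ | ⟨h, w, rfl, hw⟩
  · rcases N.nf z with ⟨s', rfl⟩ | ⟨h', w', rfl, hw'⟩
    · obtain ⟨u, v, h1, h2, -⟩ := N.caseA e
      refine ⟨ι u, ι v, by rw [← map_mul, ← map_mul, h1], ?_, fun x' y' h => ?_⟩
      · rw [← map_mul, N.len_ι]; exact Nat.zero_le _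
      · obtain ⟨u', v', h1', -, t, rfl, rfl⟩ := N.caseA h
        obtain ⟨r, rfl, rfl⟩ := h2 _ _ h1'
        exact ⟨ι r * t, by rw [map_mul, mul_assoc], by rw [map_mul, mul_assoc]⟩
    · rw [N.len_ι, zero_add] at hn
      exact N.caseB n IH hw' hn e
  · rcases N.nf z with ⟨s', rfl⟩ | ⟨h', w', rfl, hw'⟩
    · rw [N.len_ι, add_zero] at hn
      exact (N.caseB n IH hw hn e.symm).symm
    · by_cases hh : h = h'
      · subst hh
        have hl : len (y h * w) = len w + 1 := N.len_y _ _ hw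
        have hl' : len (y h * w') = len w' + 1 := N.len_y _ _ hw'
        rw [mul_assoc, mul_assoc] at e
        obtain ⟨u, v, h1, h2, h3⟩ := IH w w' (by omega) _ _ (N.lc _ _ _ e)
        refine ⟨u, v, by rw [mul_assoc, mul_assoc, h1], ?_, fun x' y' h4 => ?_⟩
        · rw [mul_assoc]
          have h5 : len (y h * (w * u)) ≤ len (w * u) + 1 := by
            by_cases h6 : ι (D.a h) ∣ w * u
            · obtain ⟨z, hz⟩ := h6
              rw [hz, N.len_rel, N.len_mul, N.len_mul]
              exact Nat.le_succ _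
            · exact le_of_eq (N.len_y _ _ h6)
          rw [hl, hl']
          omega
        · rw [mul_assoc, mul_assoc] at h4
          exact h3 _ _ (N.lc _ _ _ h4)
      · by_cases hk : ∃ k, h' = D.e h • k
        · exact N.caseDa n IH hw hw' hh hk hn e
        · by_cases hk' : ∃ k, h = D.e h' • k
          · exact (N.caseDa n IH hw' hw (Ne.symm hh) hk' (by omega) e.symm).symm
          · exact N.caseDc n IH hw hw' hh hk hk' hn e

theorem good [IsGood P] (N : NF D ι y len) : IsGood P' where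
  lc := N.lc
  unit := N.unit
  lcm f g x z e := by
    obtain ⟨u, v, h1, -, h2⟩ := N.lcm _ f g le_rfl x z e
    exact ⟨u, v, h1, h2⟩

theorem toExt [IsGood P] (N : NF D ι y len) : S2Ext D ι y len where
  good := N.good
  cons := N.cons
  act := N.act
  rel := N.rel
  len_ι := N.len_ι
  len_mul := N.len_mul
  len_y := N.len_y
  nf := N.nf
  new := N.new
  uniq := N.uniq

end NF

end nf

/-! ## words -/

section words

variable {P : Type u} [Monoid P] {H : Type v} [MulAction P H]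

variable (P H) in
/-- words `h1 y h2 y … hn y p` -/
inductive Wd : Type (max u v)
  | p : P → Wd
  | c : H → Wd → Wd

namespace Wd

/-- left multiplication by `P` -/
def lm (q : P) : Wd P H → Wd P H
  | p x => p (q * x)
  | c h w => c (q • h) w

@[simp] theorem lm_p (q x : P) : lm q (p x : Wd P H) = p (q * x) := rfl
@[simp] theorem lm_c (q : P) (h : H) (w : Wd P H) : lm q (c h w) = c (q • h) w := rfl

theorem lm_one (w : Wd P H) : lm 1 w = w := by
  cases w with
  | p x => rw [lm_p, one_mul]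
  | c h w => rw [lm_c, one_smul]

theorem lm_lm (q r : P) (w : Wd P H) : lm q (lm r w) = lm (q * r) w := by
  cases w with
  | p x => rw [lm_p, lm_p, lm_p, mul_assoc]
  | c h w => rw [lm_c, lm_c, lm_c, smul_smul]

/-- number of letters -/
def len : Wd P H → ℕ
  | p _ => 0
  | c _ w => len w + 1

@[simp] theorem len_p (x : P) : len (p x : Wd P H) = 0 := rfl
@[simp] theorem len_c (h : H) (w : Wd P H) : len (c h w) = len w + 1 := rfl

theorem len_lm (q : P) (w : Wd P H) : len (lm q w) = len w := by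
  cases w <;> rfl

variable (D : S2Data P H)

/-- irreducible words -/
def Irr : Wd P H → Prop
  | p _ => True
  | c h w => Irr w ∧ ¬ ∃ v, w = lm (D.a h) v

theorem Irr_p (x : P) : Irr D (p x) := trivial
theorem Irr_c {h : H} {w : Wd P H} : Irr D (c h w) ↔ Irr D w ∧ ¬ ∃ v, w = lm (D.a h) v := Iff.rfl

theorem Irr_lm {q : P} {w : Wd P H} : Irr D (lm q w) ↔ Irr D w := by
  cases w with
  | p x => exact Iff.rfl
  | c h w => rw [lm_c, Irr_c, Irr_c, D.a_smul]

include D in
theorem lm_inj [IsGood P] {q : P} {v w : Wd P H} (h : lm q v = lm q w) : v = w := by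
  cases v with
  | p x =>
    cases w with
    | p x' =>
      rw [lm_p, lm_p] at h
      injection h with h
      rw [IsGood.lc _ _ _ h]
    | c k w => rw [lm_p, lm_c] at h; exact nomatch h
  | c k v =>
    cases w with
    | p x' => rw [lm_p, lm_c] at h; exact nomatch h
    | c k' w =>
      rw [lm_c, lm_c] at h
      injection h with h1 h2
      rw [D.lc _ _ _ h1, h2]

open Classical in
/-- `h(y) v` -/
noncomputable def star (h : H) (v : Wd P H) : Wd P H :=
  if hv : ∃ v', v = lm (D.a h) v' then lm (D.e h) hv.choose else c h v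

theorem star_lm [IsGood P] (h : H) (v : Wd P H) : star D h (lm (D.a h) v) = lm (D.e h) v := by
  have hv : ∃ v', lm (D.a h) v = lm (D.a h) v' := ⟨v, rfl⟩
  rw [star, dif_pos hv, ← lm_inj D hv.choose_spec]

theorem star_irr {h : H} {v : Wd P H} (hv : ¬ ∃ v', v = lm (D.a h) v') : star D h v = c h v :=
  dif_neg hv

theorem lm_star [IsGood P] (q : P) (h : H) (v : Wd P H) :
    lm q (star D h v) = star D (q • h) v := by
  by_cases hv : ∃ v', v = lm (D.a h) v'
  · obtain ⟨v', rfl⟩ := hv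
    have h1 := star_lm D (q • h) v'
    rw [D.a_smul] at h1
    rw [star_lm, h1, lm_lm, D.e_smul]
  · rw [star_irr D hv, star_irr D (by rw [D.a_smul]; exact hv)]
    rfl

theorem Irr_star {h : H} {v : Wd P H} (hv : Irr D v) : Irr D (star D h v) := by
  unfold star
  split_ifs with h1
  · rw [Irr_lm]
    have := h1.choose_spec
    rw [this, Irr_lm] at hv
    exact hv
  · exact ⟨hv, h1⟩

theorem star_inj [IsGood P] {h : H} {v w : Wd P H} (e : star D h v = star D h w) : v = w := by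
  by_cases hv : ∃ v', v = lm (D.a h) v'
  · obtain ⟨v', rfl⟩ := hv
    by_cases hw : ∃ w', w = lm (D.a h) w'
    · obtain ⟨w', rfl⟩ := hw
      rw [star_lm, star_lm] at e
      rw [lm_inj D e]
    · rw [star_lm, star_irr D hw] at e
      cases v' with
      | p x => exact nomatch e
      | c k v' =>
        rw [lm_c] at e
        injection e with e1 e2
        exact absurd e1 (D.irr _ _)
  · by_cases hw : ∃ w', w = lm (D.a h) w'
    · obtain ⟨w', rfl⟩ := hw
      rw [star_lm, star_irr D hv] at e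
      cases w' with
      | p x => exact nomatch e
      | c k v' =>
        rw [lm_c] at e
        injection e with e1 e2
        exact absurd e1.symm (D.irr _ _)
    · rw [star_irr D hv, star_irr D hw] at e
      injection e with e1 e2

/-- multiplication of words -/
noncomputable def mulW : Wd P H → Wd P H → Wd P H
  | p x, w' => lm x w'
  | c h w, w' => star D h (mulW w w')

@[simp] theorem mulW_p (x : P) (w : Wd P H) : mulW D (p x) w = lm x w := rfl
@[simp] theorem mulW_c (h : H) (w w' : Wd P H) : mulW D (c h w) w' = star D h (mulW D w w') := rfl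

theorem mulW_lm [IsGood P] (q : P) (x w : Wd P H) :
    mulW D (lm q x) w = lm q (mulW D x w) := by
  cases x with
  | p x => rw [lm_p, mulW_p, mulW_p, lm_lm]
  | c h x => rw [lm_c, mulW_c, mulW_c, lm_star]

theorem mulW_star [IsGood P] (h : H) (v w : Wd P H) :
    mulW D (star D h v) w = star D h (mulW D v w) := by
  by_cases hv : ∃ v', v = lm (D.a h) v'
  · obtain ⟨v', rfl⟩ := hv
    rw [star_lm, mulW_lm, mulW_lm, star_lm]
  · rw [star_irr D hv, mulW_c]

theorem mulW_assoc [IsGood P] (x v w : Wd P H) :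
    mulW D (mulW D x v) w = mulW D x (mulW D v w) := by
  induction x with
  | p x => rw [mulW_p, mulW_p, mulW_lm]
  | c h x ih => rw [mulW_c, mulW_c, mulW_star, ih]

theorem Irr_mulW {x w : Wd P H} (hw : Irr D w) : Irr D (mulW D x w) := by
  induction x with
  | p x => exact (Irr_lm D).2 hw
  | c h x ih => exact Irr_star D ih

theorem mulW_one {x : Wd P H} (hx : Irr D x) : mulW D x (p 1) = x := by
  induction x with
  | p x => rw [mulW_p, lm_p, mul_one]
  | c h x ih => rw [mulW_c, ih hx.1, star_irr D hx.2]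

theorem mulW_inj [IsGood P] {x v w : Wd P H} (e : mulW D x v = mulW D x w) : v = w := by
  induction x with
  | p x => exact lm_inj D e
  | c h x ih => exact ih (star_inj D e)

theorem mulW_unit [IsGood P] {x v : Wd P H} (e : mulW D x v = p 1) : x = p 1 := by
  cases x with
  | p x =>
    cases v with
    | p z =>
      rw [mulW_p, lm_p] at e
      injection e with e
      rw [IsGood.unit _ _ e]
    | c h v => rw [mulW_p, lm_c] at e; exact nomatch e
  | c h x =>
    exfalso
    rw [mulW_c] at e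
    by_cases hv : ∃ v', mulW D x v = lm (D.a h) v'
    · obtain ⟨v', hv'⟩ := hv
      rw [hv', star_lm] at e
      cases v' with
      | p z =>
        rw [lm_p] at e
        injection e with e
        have h1 := IsGood.unit _ _ e
        exact D.irr h h (by rw [h1, one_smul])
      | c h v => rw [lm_c] at e; exact nomatch e
    · rw [star_irr D hv] at e
      exact nomatch e

end Wd

open Wd

/-- irreducible words -/
def PX (D : S2Data P H) : Type (max u v) := {w : Wd P H // Irr D w}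

variable (D : S2Data P H)

noncomputable instance instMonoidPX [IsGood P] : Monoid (PX D) where
  mul x y := ⟨mulW D x.1 y.1, Irr_mulW D y.2⟩
  one := ⟨p 1, trivial⟩
  mul_assoc x y z := Subtype.ext (mulW_assoc D _ _ _)
  one_mul x := Subtype.ext (lm_one _)
  mul_one x := Subtype.ext (mulW_one D x.2)

theorem val_mul [IsGood P] (x y : PX D) : (x * y).1 = mulW D x.1 y.1 := rfl
theorem val_one [IsGood P] : (1 : PX D).1 = p 1 := rfl

/-- the embedding of `P` -/
noncomputable def io [IsGood P] : P →* PX D where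
  toFun x := ⟨p x, trivial⟩
  map_one' := rfl
  map_mul' x y := rfl

theorem val_io [IsGood P] (x : P) : (io D x).1 = p x := rfl

theorem irr_y [IsGood P] (h : H) : Irr D (c h (p 1)) := by
  refine ⟨trivial, ?_⟩
  rintro ⟨v, hv⟩
  cases v with
  | p x =>
    rw [lm_p] at hv
    injection hv with hv
    exact D.a_ne h (IsGood.unit _ _ hv.symm)
  | c k v => rw [lm_c] at hv; exact nomatch hv

/-- the letter `h(y)` -/
def ly [IsGood P] (h : H) : PX D := ⟨c h (p 1), irr_y D h⟩

theorem val_ly_mul [IsGood P] (h : H) (x : PX D) : (ly D h * x).1 = star D h x.1 := by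
  rw [val_mul]
  show star D h (mulW D (p 1) x.1) = _
  rw [mulW_p, lm_one]

theorem dvd_iff [IsGood P] (q : P) (x : PX D) : io D q ∣ x ↔ ∃ v, x.1 = lm q v := by
  constructor
  · rintro ⟨z, rfl⟩
    exact ⟨z.1, rfl⟩
  · rintro ⟨v, hv⟩
    have h1 : Irr D v := by
      have := x.2
      rw [hv, Irr_lm] at this
      exact this
    exact ⟨⟨v, h1⟩, Subtype.ext hv⟩

theorem val_ly_mul_irr [IsGood P] {h : H} {x : PX D} (hx : ¬ io D (D.a h) ∣ x) :
    (ly D h * x).1 = c h x.1 := by
  rw [val_ly_mul, star_irr]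
  rwa [dvd_iff] at hx

theorem nfPX [IsGood P] : NF D (io D) (ly D) (fun x => len x.1) where
  lc x v w e := Subtype.ext (mulW_inj D (congrArg Subtype.val e))
  unit x y e := Subtype.ext (mulW_unit D (congrArg Subtype.val e))
  inj x y e := by
    have := congrArg Subtype.val e
    rw [val_io, val_io] at this
    injection this
  act q h := Subtype.ext rfl
  rel h := by
    refine Subtype.ext ?_
    rw [val_ly_mul, val_io, val_io]
    have := star_lm D h (p 1)
    rwa [lm_p, lm_p, mul_one, mul_one] at this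
  len_ι q := rfl
  len_mul q w := len_lm _ _
  len_y h x hx := by
    show len (ly D h * x).1 = _
    rw [val_ly_mul_irr D hx]
    rfl
  nf w := by
    rcases w with ⟨w, hw⟩
    cases w with
    | p x => exact Or.inl ⟨x, rfl⟩
    | c h w =>
      have h1 : ¬ io D (D.a h) ∣ (⟨w, hw.1⟩ : PX D) := fun hd =>
        hw.2 ((dvd_iff D _ _).1 hd)
      exact Or.inr ⟨h, ⟨w, hw.1⟩, Subtype.ext (val_ly_mul_irr D h1).symm, h1⟩
  new h x q hx e := by
    have := congrArg Subtype.val e
    rw [val_ly_mul_irr D hx, val_io] at this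
    exact nomatch this
  uniq h x h' x' hx hx' e := by
    have := congrArg Subtype.val e
    rw [val_ly_mul_irr D hx, val_ly_mul_irr D hx'] at this
    injection this with h1 h2
    exact ⟨h1, Subtype.ext h2⟩

end words

/-- **A-S2** -/
theorem stS2 : StS2 := fun _ _ _ _ _ D =>
  ⟨PX D, instMonoidPX D, io D, ly D, fun x => Wd.len x.1, (nfPX D).toExt⟩

end Crest.Agent.R296.S2x667
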