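import Crest.Agent.R296.IfA_378

/-!
Row 296, leaf A-H (helper478): `StS2 → StH`.
The left `P`-set `H` is the quotient of `Ltr P` by `Ltr.Eqv`; it satisfies the laws of `S2Data`.
-/

set_option autoImplicit false

namespace Crest.Agent.R296.StHx478

open IfAx378

universe u v

variable {P : Type u} [Monoid P]

theorem R_ran (C : Closed P) {s r : P} (h : C.R s r) : r ∈ C.S := C.dom _ _ (C.symm _ _ h)

theorem eqv_refl (l : Ltr P) : l.Eqv l :=
  ⟨rfl, 1, 1, rfl, by rw [mul_one]; exact l.d.C.refl _ l.hr⟩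

theorem eqv_symm {l l' : Ltr P} (h : l.Eqv l') : l'.Eqv l := by
  obtain ⟨h0, t, t', h1, h2⟩ := h
  refine ⟨h0.symm, t', t, h1.symm, ?_⟩
  rw [← h0]
  exact l.d.C.symm _ _ h2

theorem eqv_trans [IsGood P] {l l' l'' : Ltr P} (h : l.Eqv l') (h' : l'.Eqv l'') : l.Eqv l'' := by
  obtain ⟨d, s, r, hr⟩ := l
  obtain ⟨d', s', r', hr'⟩ := l'
  obtain ⟨d'', s'', r'', hr''⟩ := l''
  obtain ⟨h0, z, w, h1, h2⟩ := h
  obtain ⟨h0', z', w', h1', h2'⟩ := h'
  dsimp only at *
  subst h0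
  subst h0'
  obtain ⟨m, hm, ⟨t, ht⟩, ⟨t', ht'⟩⟩ := d.C.dir _ _ (R_ran _ h2) (d.C.dom _ _ h2')
  have e : w * t = z' * t' := by
    apply IsGood.lc r'
    rw [← mul_assoc, ← mul_assoc, ← ht, ← ht']
  refine ⟨rfl, z * t, w' * t', ?_, ?_⟩
  · dsimp only
    rw [← mul_assoc, ← mul_assoc, h1, ← h1', mul_assoc, mul_assoc, e]
  · have k1 := d.C.act _ _ t h2 (by rw [← ht]; exact hm)
    have k2 := d.C.act _ _ t' (d.C.symm _ _ h2') (by rw [← ht']; exact hm)
    rw [← ht] at k1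
    rw [← ht'] at k2
    dsimp only
    rw [← mul_assoc, ← mul_assoc]
    exact d.C.trans _ _ _ k1 (d.C.symm _ _ k2)

variable (P) in
/-- equality of letters -/
def ltrSetoid [IsGood P] : Setoid (Ltr P) where
  r := Ltr.Eqv
  iseqv := ⟨eqv_refl, eqv_symm, eqv_trans⟩

variable (P) in
/-- the left `P`-set of all letters -/
def HH [IsGood P] : Type u := Quotient (ltrSetoid P)

variable [IsGood P]

/-- class of a letter -/
def cls (l : Ltr P) : HH P := Quotient.mk (ltrSetoid P) l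

theorem cls_eq_iff {l l' : Ltr P} : cls l = cls l' ↔ l.Eqv l' :=
  ⟨fun h => Quotient.exact h, fun h => Quotient.sound (s := ltrSetoid P) h⟩

theorem cls_surj (h : HH P) : ∃ l, h = cls l := by
  obtain ⟨l, rfl⟩ := Quotient.exists_rep h
  exact ⟨l, rfl⟩

omit [IsGood P] in
theorem smul_eqv (p : P) {l l' : Ltr P} (h : l.Eqv l') : (l.smul p).Eqv (l'.smul p) := by
  obtain ⟨h0, t, t', h1, h2⟩ := h
  refine ⟨h0, t, t', ?_, h2⟩
  show p * l.s * t = p * l'.s * t'
  rw [mul_assoc, mul_assoc, h1]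

instance : MulAction P (HH P) where
  smul p h := Quotient.map' (s₁ := ltrSetoid P) (s₂ := ltrSetoid P) (Ltr.smul p)
    (fun _ _ e => smul_eqv p e) h
  one_smul h := by
    obtain ⟨⟨d, s, r, hr⟩, rfl⟩ := cls_surj h
    show cls ⟨d, 1 * s, r, hr⟩ = cls ⟨d, s, r, hr⟩
    simp only [one_mul]
  mul_smul p q h := by
    obtain ⟨⟨d, s, r, hr⟩, rfl⟩ := cls_surj h
    show cls ⟨d, p * q * s, r, hr⟩ = cls ⟨d, p * (q * s), r, hr⟩
    simp only [mul_assoc]

theorem smul_cls (p : P) (l : Ltr P) : p • cls l = cls (l.smul p) := rfl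

/-- restriction of the germ -/
theorem cls_restrict (d : Datum P) (s r t : P) (hr : r ∈ d.C.S) (h : r * t ∈ d.C.S) :
    cls ⟨d, s, r, hr⟩ = cls ⟨d, s * t, r * t, h⟩ :=
  cls_eq_iff.2 ⟨rfl, t, 1, by simp only [mul_one], by
    simp only [mul_one]; exact d.C.refl _ h⟩

theorem value_unique {l l' : Ltr P} {x x' : P} (h : l.Eqv l') (e : l.d.b = l.r * x)
    (e' : l'.d.b = l'.r * x') : l.s * x = l'.s * x' := by
  obtain ⟨d, s, r, hr⟩ := l
  obtain ⟨d', s', r', hr'⟩ := l'
  obtain ⟨h0, z, w, h1, h2⟩ := h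
  dsimp only at *
  subst h0
  obtain ⟨y, hy⟩ := d.b_mem.1 _ (d.C.dom _ _ h2)
  have hy' := d.b_mem.2 _ _ y (d.C.symm _ _ h2) hy
  have e1 : x = z * y := IsGood.lc r _ _ (by rw [← e, hy, mul_assoc])
  have e2 : x' = w * y := IsGood.lc r' _ _ (by rw [← e', ← mul_assoc, ← hy'])
  rw [e1, e2, ← mul_assoc, h1, mul_assoc]

theorem value_exists (h : HH P) :
    ∃ p : P, ∀ (l : Ltr P) x, h = cls l → l.d.b = l.r * x → p = l.s * x := by
  obtain ⟨l, rfl⟩ := cls_surj h
  obtain ⟨t, ht⟩ := l.d.b_mem.1 l.r l.hr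
  exact ⟨l.s * t, fun l' x e h' => value_unique (cls_eq_iff.1 e) ht h'⟩

/-- the value `h(b)` -/
noncomputable def value (h : HH P) : P := (value_exists h).choose

theorem value_cls {l : Ltr P} {x : P} (h : l.d.b = l.r * x) : value (cls l) = l.s * x :=
  (value_exists (cls l)).choose_spec l x rfl h

/-- the invariant `a` -/
def aH (h : HH P) : P := Quotient.lift (s := ltrSetoid P) (fun l => l.d.a)
  (fun _ _ (e : Ltr.Eqv _ _) => by rw [e.1]) h

theorem aH_cls (l : Ltr P) : aH (cls l) = l.d.a := rfl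

omit [IsGood P] in
theorem b_notin (d : Datum P) : d.b ∉ d.C.S := by
  intro h
  obtain ⟨p, hp, _, h2⟩ := d.ex_p
  exact h2 (hp.1 _ h)

variable (P) in
/-- the data of the (S2) extension by all letters -/
noncomputable def data : S2Data P (HH P) where
  e := value
  a := aH
  e_smul := by
    intro p h
    obtain ⟨l, rfl⟩ := cls_surj h
    obtain ⟨t, ht⟩ := l.d.b_mem.1 l.r l.hr
    rw [smul_cls, value_cls ht, value_cls (l := l.smul p) (x := t) ht]
    exact mul_assoc _ _ _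
  a_smul := by
    intro p h
    obtain ⟨l, rfl⟩ := cls_surj h
    rfl
  a_ne := by
    intro h
    obtain ⟨l, rfl⟩ := cls_surj h
    exact l.d.a_ne
  lc := by
    intro p h h' e
    obtain ⟨l, rfl⟩ := cls_surj h
    obtain ⟨l', rfl⟩ := cls_surj h'
    rw [smul_cls, smul_cls, cls_eq_iff] at e
    obtain ⟨h0, z, w, h1, h2⟩ := e
    refine cls_eq_iff.2 ⟨h0, z, w, ?_, h2⟩
    have h1' : p * l.s * z = p * l'.s * w := h1
    rw [mul_assoc, mul_assoc] at h1'
    exact IsGood.lc _ _ _ h1'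
  lcm := by
    intro s s' h h' e
    obtain ⟨⟨d, f, r, hr⟩, rfl⟩ := cls_surj h
    obtain ⟨⟨d', f', r', hr'⟩, rfl⟩ := cls_surj h'
    rw [smul_cls, smul_cls, cls_eq_iff] at e
    obtain ⟨h0, z, w, h1, h2⟩ := e
    dsimp only [Ltr.smul] at h0 h1 h2
    subst h0
    refine ⟨f * z, f' * w, cls ⟨d, 1, r * z, d.C.dom _ _ h2⟩, ?_, ?_, ?_⟩
    · rw [← mul_assoc, h1, mul_assoc]
    · rw [smul_cls]
      simp only [Ltr.smul, mul_one]
      exact cls_restrict _ _ _ _ _ _
    · rw [smul_cls]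
      simp only [Ltr.smul, mul_one]
      exact cls_eq_iff.2 ⟨rfl, w, 1, by simp only [mul_one], by
        simp only [mul_one]; exact d.C.symm _ _ h2⟩
  irr := by
    intro h h'
    obtain ⟨⟨d, s, r, hr⟩, rfl⟩ := cls_surj h
    obtain ⟨⟨d', s', r', hr'⟩, rfl⟩ := cls_surj h'
    obtain ⟨t, ht⟩ := d.b_mem.1 r hr
    rw [value_cls (l := ⟨d, s, r, hr⟩) (x := t) ht, smul_cls, Ne, cls_eq_iff]
    rintro ⟨h0, z, w, h1, h2⟩
    dsimp only [Ltr.smul] at h0 h1 h2
    subst h0
    have hw : t * s' * z = w := IsGood.lc s _ _ (by rw [← h1]; simp only [mul_assoc])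
    refine b_notin d' (d'.C.up _ _ ⟨s' * z, ?_⟩ (R_ran _ h2))
    rw [← hw, ht]
    simp only [mul_assoc]

/-- the (S2) extension by all letters from the abstract one -/
theorem s2All_of_s2Ext {P' : Type v} [Monoid P'] {ι : P →* P'} {y : HH P → P'} {len : P' → ℕ}
    (E : S2Ext (data P) ι y len) : S2All ι (fun l => y (cls l)) len where
  good := E.good
  cons := E.cons
  eqv := by
    intro l l'
    constructor
    · intro h
      show y (cls l) = y (cls l')
      rw [cls_eq_iff.2 h]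
    · intro h
      have hne : ∀ h : HH P, ¬ ι ((data P).a h) ∣ 1 := by
        rintro h ⟨c, hc⟩
        have h1 : ι ((data P).a h) = 1 := E.good.unit _ _ hc.symm
        exact (data P).a_ne h (E.cons.inj (by rw [h1, map_one]))
      have := E.uniq (cls l) 1 (cls l') 1 (hne _) (hne _) (by rw [mul_one, mul_one]; exact h)
      exact cls_eq_iff.1 this.1
  act := fun p l => E.act p (cls l)
  rel := by
    intro l x h
    have := E.rel (cls l)
    rw [show (data P).e (cls l) = l.s * x from value_cls h] at this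
    exact this
  len_ι := E.len_ι
  len_mul := E.len_mul
  len_y := fun l x h => E.len_y (cls l) x h
  nf := by
    intro w
    rcases E.nf w with h | ⟨h, x, h1, h2⟩
    · exact Or.inl h
    · obtain ⟨l, rfl⟩ := cls_surj h
      exact Or.inr ⟨l, x, h1, h2⟩
  new := fun l x p h => E.new (cls l) x p h
  uniq := by
    intro l x l' x' h h' e
    have := E.uniq (cls l) x (cls l') x' h h' e
    exact ⟨cls_eq_iff.1 this.1, this.2⟩

/-- A-H from A-S2 -/
theorem stH_of_stS2 (h : StS2) : StH := by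
  intro P _ hP
  obtain ⟨P', _, ι, y, len, E⟩ := h P hP (HH P) (data P)
  exact ⟨P', _, ι, fun l => y (cls l), len, s2All_of_s2Ext E⟩

end Crest.Agent.R296.StHx478
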