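import Crest.Agent.R296.S1_531

/-!
# Row 296, block A-TRI: glued acts (free letter, triangles, chains), disjoint unions
-/

set_option autoImplicit false

namespace Crest.Agent.R296.S1x531

universe u v w

/-- gluing of copies of `P` (sheets `i : I`) along principal or empty partial maps -/
structure Glue (P : Type u) [Monoid P] where
  I : Type v
  Rel : I → I → P → P → Prop
  refl_iff : ∀ i a b, Rel i i a b ↔ a = b
  symm : ∀ i j a b, Rel i j a b → Rel j i b a
  trans : ∀ i j k a b c, Rel i j a b → Rel j k b c → Rel i k a c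
  right : ∀ i j a b p, Rel i j a b → Rel i j (a * p) (b * p)
  princ : ∀ i j a b, Rel i j a b →
    ∃ a0 b0, Rel i j a0 b0 ∧ ∀ a' b', Rel i j a' b' → ∃ r, a' = a0 * r ∧ b' = b0 * r

namespace Glue

variable {P : Type u} [Monoid P] (G : Glue.{u, v} P)

/-- the gluing equivalence -/
def setoid : Setoid (G.I × P) where
  r x y := G.Rel x.1 y.1 x.2 y.2
  iseqv :=
    { refl := fun _ => (G.refl_iff _ _ _).2 rfl
      symm := fun {_ _} h => G.symm _ _ _ _ h
      trans := fun {_ _ _} h h' => G.trans _ _ _ _ _ _ h h' }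

/-- the glued act -/
def T : Type (max u v) := Quotient G.setoid

/-- class of `(i, a)` : the element `k_i a` -/
def pt (i : G.I) (a : P) : G.T := Quotient.mk G.setoid (i, a)

theorem pt_eq {i j : G.I} {a b : P} : G.pt i a = G.pt j b ↔ G.Rel i j a b := by
  constructor
  · intro h
    exact Quotient.exact (s := G.setoid) h
  · intro h
    exact Quotient.sound (s := G.setoid) h

/-- right action -/
def act (t : G.T) (p : P) : G.T :=
  Quotient.lift (s := G.setoid) (fun x : G.I × P => G.pt x.1 (x.2 * p))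
    (fun _ _ h => G.pt_eq.2 (G.right _ _ _ _ _ h)) t

theorem act_pt (i : G.I) (a p : P) : G.act (G.pt i a) p = G.pt i (a * p) := rfl

theorem exists_pt (t : G.T) : ∃ i a, G.pt i a = t := by
  induction t using Quotient.inductionOn with
  | h x => exact ⟨x.1, x.2, rfl⟩

/-- the glued act as an LCM act -/
def toAct (hP : GoodX P) : RAct.{u, max u v} P where
  T := G.T
  act := G.act
  act_one := by
    intro t
    obtain ⟨i, a, rfl⟩ := G.exists_pt t
    rw [act_pt, mul_one]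
  act_mul := by
    intro t p q
    obtain ⟨i, a, rfl⟩ := G.exists_pt t
    rw [act_pt, act_pt, act_pt, mul_assoc]
  cancel := by
    intro t p q h
    obtain ⟨i, a, rfl⟩ := G.exists_pt t
    rw [act_pt, act_pt, pt_eq, G.refl_iff] at h
    exact hP.cancel _ _ _ h
  lcm := by
    intro t t' p p' h
    obtain ⟨i, a, rfl⟩ := G.exists_pt t
    obtain ⟨j, b, rfl⟩ := G.exists_pt t'
    rw [act_pt, act_pt, pt_eq] at h
    obtain ⟨a0, b0, h0, h1⟩ := G.princ _ _ _ _ h
    obtain ⟨r, e1, e2⟩ := h1 _ _ h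
    obtain ⟨x, x0, e3, l3⟩ := hP.lcm a a0 p r e1
    obtain ⟨y, y0, e4, l4⟩ := hP.lcm b b0 p' r e2
    obtain ⟨s, es1, es2⟩ := l3 _ _ e1
    obtain ⟨s', es3, es4⟩ := l4 _ _ e2
    obtain ⟨m, n, e5, l5⟩ := hP.lcm x0 y0 s s' (by rw [← es2, es4])
    refine ⟨x * m, y * n, ?_, ?_⟩
    · rw [act_pt, act_pt, pt_eq, ← mul_assoc, ← mul_assoc, e3, e4, mul_assoc, mul_assoc, e5]
      exact G.right _ _ _ _ _ h0
    · intro q q' hq
      rw [act_pt, act_pt, pt_eq] at hq
      obtain ⟨r', f1, f2⟩ := h1 _ _ hq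
      obtain ⟨s1, g1, g2⟩ := l3 _ _ f1
      obtain ⟨s2, g3, g4⟩ := l4 _ _ f2
      obtain ⟨z, z1, z2⟩ := l5 s1 s2 (by rw [← g2, ← g4])
      exact ⟨z, by rw [g1, z1, mul_assoc], by rw [g3, z2, mul_assoc]⟩

end Glue

section instances

variable {P : Type u} [Monoid P]

/-- one new free letter -/
def freeGlue (P : Type u) [Monoid P] : Glue.{u, v} P where
  I := PUnit
  Rel := fun _ _ a b => a = b
  refl_iff := fun _ _ _ => Iff.rfl
  symm := fun _ _ _ _ h => h.symm
  trans := fun _ _ _ _ _ _ h h' => h.trans h'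
  right := fun _ _ _ _ _ h => by rw [h]
  princ := fun _ _ _ _ _ => ⟨1, 1, rfl, fun a b h => ⟨a, by rw [one_mul], by rw [one_mul, h]⟩⟩

/-- sheets of a triangle -/
inductive Sh : Type v
  | k | h1 | h2

/-- triangle data: `h1 c = k g`, `h2 c = k g'`, `h1 c' = h2 c'`. The two conditions cover both the
triangle over `u` (`c⁻¹(c'P) = uP`, `g, g'` free over `u`) and the degenerate triangle. -/
structure TriD (P : Type u) [Monoid P] where
  c : P
  c' : P
  g : P
  g' : P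
  C1 : ∀ r s : P, c * r = c' * s → g * r = g' * r
  C2 : ∀ r s : P, g * r = g' * s → r = s ∧ ∃ t, c * r = c' * t

/-- gluing relation of a triangle -/
def TriD.Rel (D : TriD P) : Sh.{v} → Sh.{v} → P → P → Prop
  | .k, .k, a, b => a = b
  | .h1, .h1, a, b => a = b
  | .h2, .h2, a, b => a = b
  | .k, .h1, a, b => ∃ r, a = D.g * r ∧ b = D.c * r
  | .h1, .k, a, b => ∃ r, b = D.g * r ∧ a = D.c * r
  | .k, .h2, a, b => ∃ r, a = D.g' * r ∧ b = D.c * r
  | .h2, .k, a, b => ∃ r, b = D.g' * r ∧ a = D.c * r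
  | .h1, .h2, a, b => ∃ r, a = D.c' * r ∧ b = D.c' * r
  | .h2, .h1, a, b => ∃ r, b = D.c' * r ∧ a = D.c' * r

theorem TriD.rel_trans (D : TriD P) (hP : GoodX P) : ∀ (i j k : Sh.{v}) (a b c : P),
    D.Rel i j a b → D.Rel j k b c → D.Rel i k a c
  | .k, .k, _, _, _, _, h, h' => by
    have h : _ = _ := h
    subst h
    exact h'
  | .h1, .h1, _, _, _, _, h, h' => by
    have h : _ = _ := h
    subst h
    exact h'
  | .h2, .h2, _, _, _, _, h, h' => by
    have h : _ = _ := h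
    subst h
    exact h'
  | .k, .h1, .h1, _, _, _, h, h' => by
    have h' : _ = _ := h'
    subst h'
    exact h
  | .k, .h2, .h2, _, _, _, h, h' => by
    have h' : _ = _ := h'
    subst h'
    exact h
  | .h1, .k, .k, _, _, _, h, h' => by
    have h' : _ = _ := h'
    subst h'
    exact h
  | .h1, .h2, .h2, _, _, _, h, h' => by
    have h' : _ = _ := h'
    subst h'
    exact h
  | .h2, .k, .k, _, _, _, h, h' => by
    have h' : _ = _ := h'
    subst h'
    exact h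
  | .h2, .h1, .h1, _, _, _, h, h' => by
    have h' : _ = _ := h'
    subst h'
    exact h
  | .k, .h1, .k, _, _, _, ⟨r, e1, e2⟩, ⟨s, f1, f2⟩ => by
    have := hP.cancel _ _ _ (e2.symm.trans f2)
    subst this
    exact e1.trans f1.symm
  | .k, .h2, .k, _, _, _, ⟨r, e1, e2⟩, ⟨s, f1, f2⟩ => by
    have := hP.cancel _ _ _ (e2.symm.trans f2)
    subst this
    exact e1.trans f1.symm
  | .h1, .k, .h1, _, _, _, ⟨r, e1, e2⟩, ⟨s, f1, f2⟩ => by
    have := hP.cancel _ _ _ (e1.symm.trans f1)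
    subst this
    exact e2.trans f2.symm
  | .h2, .k, .h2, _, _, _, ⟨r, e1, e2⟩, ⟨s, f1, f2⟩ => by
    have := hP.cancel _ _ _ (e1.symm.trans f1)
    subst this
    exact e2.trans f2.symm
  | .h1, .h2, .h1, _, _, _, ⟨r, e1, e2⟩, ⟨s, f1, f2⟩ => by
    have := hP.cancel _ _ _ (e2.symm.trans f2)
    subst this
    exact e1.trans f1.symm
  | .h2, .h1, .h2, _, _, _, ⟨r, e1, e2⟩, ⟨s, f1, f2⟩ => by
    have := hP.cancel _ _ _ (e1.symm.trans f1)
    subst this
    exact e2.trans f2.symm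
  | .k, .h1, .h2, _, _, _, ⟨r, e1, e2⟩, ⟨s, f1, f2⟩ =>
    ⟨r, e1.trans (D.C1 r s (e2.symm.trans f1)), f2.trans (f1.symm.trans e2)⟩
  | .k, .h2, .h1, _, _, _, ⟨r, e1, e2⟩, ⟨s, f1, f2⟩ =>
    ⟨r, e1.trans (D.C1 r s (e2.symm.trans f2)).symm, f1.trans (f2.symm.trans e2)⟩
  | .h1, .k, .h2, _, _, _, ⟨r, e1, e2⟩, ⟨s, f1, f2⟩ => by
    obtain ⟨h3, t, h4⟩ := D.C2 r s (e1.symm.trans f1)
    subst h3
    exact ⟨t, e2.trans h4, f2.trans h4⟩
  | .h2, .k, .h1, _, _, _, ⟨r, e1, e2⟩, ⟨s, f1, f2⟩ => by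
    obtain ⟨h3, t, h4⟩ := D.C2 s r (f1.symm.trans e1)
    subst h3
    exact ⟨t, f2.trans h4, e2.trans h4⟩
  | .h1, .h2, .k, _, _, _, ⟨r, e1, e2⟩, ⟨s, f1, f2⟩ =>
    ⟨s, f1.trans (D.C1 s r (f2.symm.trans e2)).symm, e1.trans (e2.symm.trans f2)⟩
  | .h2, .h1, .k, _, _, _, ⟨r, e1, e2⟩, ⟨s, f1, f2⟩ =>
    ⟨s, f1.trans (D.C1 s r (f2.symm.trans e1)), e2.trans (e1.symm.trans f2)⟩

/-- the triangle gluing -/
def TriD.glue (D : TriD P) (hP : GoodX P) : Glue.{u, v} P where
  I := Sh.{v}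
  Rel := D.Rel
  refl_iff := by
    intro i a b
    cases i <;> exact Iff.rfl
  symm := by
    intro i j a b h
    cases i <;> cases j <;> first
      | exact Eq.symm h
      | exact h
  trans := D.rel_trans hP
  right := by
    intro i j a b p h
    cases i <;> cases j <;> simp only [TriD.Rel] at h ⊢ <;>
      first
      | rw [h]
      | (obtain ⟨r, e1, e2⟩ := h
         exact ⟨r * p, by rw [e1, mul_assoc], by rw [e2, mul_assoc]⟩)
  princ := by
    intro i j a b h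
    cases i <;> cases j <;> simp only [TriD.Rel] at h ⊢ <;>
      first
      | exact ⟨1, 1, rfl, fun a' b' h' => ⟨a', (one_mul _).symm, by rw [one_mul, h']⟩⟩
      | exact ⟨D.g, D.c, ⟨1, (mul_one _).symm, (mul_one _).symm⟩, fun a' b' h' => h'⟩
      | exact ⟨D.g', D.c, ⟨1, (mul_one _).symm, (mul_one _).symm⟩, fun a' b' h' => h'⟩
      | exact ⟨D.c', D.c', ⟨1, (mul_one _).symm, (mul_one _).symm⟩, fun a' b' h' => h'⟩
      | exact ⟨D.c, D.g, ⟨1, (mul_one _).symm, (mul_one _).symm⟩,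
          fun a' b' ⟨r, h1, h2⟩ => ⟨r, h2, h1⟩⟩
      | exact ⟨D.c, D.g', ⟨1, (mul_one _).symm, (mul_one _).symm⟩,
          fun a' b' ⟨r, h1, h2⟩ => ⟨r, h2, h1⟩⟩
      | exact ⟨D.c', D.c', ⟨1, (mul_one _).symm, (mul_one _).symm⟩,
          fun a' b' ⟨r, h1, h2⟩ => ⟨r, h2, h1⟩⟩

end instances

end Crest.Agent.R296.S1x531
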