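import Crest.Agent.R296.IfA_378
import Crest.Agent.R296.Tri_531

/-!
# Row 296, leaf A-S1: `StS1`

* `toGood`, `GoodX` of `IsGood`
* `famGlue` : family of LCM acts as one gluing on the sheets `I × J`
* `s1ext` : the extension (any universes), `stS1 : StS1`
* `S1Ext.*` : consequences, in particular StepProp (i)-(iv) for the new words
-/

set_option autoImplicit false

universe u v w

namespace Crest.Agent.R296.StS1x531

open IfAx378 S1x531

section conv

variable {P : Type u} [Monoid P]

theorem goodX (h : IsGood P) : GoodX P where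
  cancel := h.lc
  unit := h.unit
  lcm := h.lcm

theorem isGood (h : GoodX P) : IsGood P where
  lc := h.cancel
  unit := h.unit
  lcm := h.lcm

end conv

section fam

variable {P : Type u} [Monoid P] {I : Type w} {J : Type v}

/-- a family of LCM acts as one gluing -/
def famGlue (A : I → LAct P J) : Glue.{u, max v w} P where
  I := I × J
  Rel := fun s s' a b => s.1 = s'.1 ∧ (A s.1).r s.2 a s'.2 b
  refl_iff := fun s a b =>
    ⟨fun h => (A s.1).free _ _ _ h.2, fun h => ⟨rfl, by rw [h]; exact (A s.1).refl _ _⟩⟩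
  symm := by
    rintro ⟨i, j⟩ ⟨i', j'⟩ a b ⟨h, h'⟩
    dsimp only at h h' ⊢
    subst h
    exact ⟨rfl, (A i).symm _ _ _ _ h'⟩
  trans := by
    rintro ⟨i, j⟩ ⟨i', j'⟩ ⟨i'', j''⟩ a b c ⟨h, h'⟩ ⟨g, g'⟩
    dsimp only at h h' g g' ⊢
    subst h
    subst g
    exact ⟨rfl, (A i).trans _ _ _ _ _ _ h' g'⟩
  right := fun s s' a b p h => ⟨h.1, (A s.1).act _ _ _ _ p h.2⟩
  princ := by
    rintro ⟨i, j⟩ ⟨i', j'⟩ a b ⟨h, h'⟩
    dsimp only at h h' ⊢
    subst h
    obtain ⟨y, y', h1, h2⟩ := (A i).lcm _ _ _ _ h'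
    exact ⟨y, y', ⟨rfl, h1⟩, fun a' b' h3 => h2 _ _ h3.2⟩

variable (hP : IsGood P) (A : I → LAct P J)

/-- the (S1) extension -/
abbrev Ext : Type (max u v w) := W ((famGlue A).toAct (goodX hP))

/-- its letters -/
def kap (i : I) (j : J) : Ext hP A :=
  W.letter ((famGlue A).toAct (goodX hP)) ((famGlue A).pt (i, j) (1 : P))

theorem kap_mul (i : I) (j : J) (x : P) :
    kap hP A i j * W.inc _ x = W.letter _ ((famGlue A).pt (i, j) x) := by
  rw [kap, W.letter_mul_inc]
  congr 1
  show (famGlue A).act ((famGlue A).pt (i, j) 1) x = _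
  rw [Glue.act_pt, one_mul]

theorem len_kap (s : P) (i : I) (j : J) (w' : Ext hP A) :
    0 < W.len (W.inc _ s * kap hP A i j * w') := by
  rw [W.len_mul, W.len_mul]
  have : W.len (kap hP A i j) = 1 := rfl
  omega

theorem head_letter_mul {P : Type u} [Monoid P] {B : RAct.{u, v} P} (t : B.T) (x : W B) :
    W.head (W.letter B t * x) = 1 := by
  induction x with
  | base p => rfl
  | snoc x t' ih => rw [W.mul_snoc]; exact ih

theorem head_mul_letter (s : P) (i : I) (j : J) (w' : Ext hP A) :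
    W.head (W.inc _ s * kap hP A i j * w') = s := by
  rw [mul_assoc]
  have h := W.head_base_mul (A := (famGlue A).toAct (goodX hP)) s (kap hP A i j * w')
  have h2 : W.head (kap hP A i j * w') = 1 := head_letter_mul _ _
  rw [h2, mul_one] at h
  exact h

theorem s1ext : S1Ext (P' := Ext hP A) A (W.inc _) (kap hP A) where
  good := isGood (W.good (goodX hP))
  cons :=
    { inj := W.inc_injective
      amal := fun f g x' y' h => by
        obtain ⟨p, q, h1, _, r, h3, h4⟩ := W.cons_inc (goodX hP) h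
        exact ⟨p, q, r, h1, h3, h4⟩ }
  rel := by
    intro i j x j' x'
    rw [kap_mul, kap_mul]
    constructor
    · intro h
      congr 1
      exact (famGlue A).pt_eq.2 ⟨rfl, h⟩
    · intro h
      exact ((famGlue A).pt_eq.1 (W.letter_injective h)).2
  lcm := by
    intro i j i' j' w w' h
    obtain ⟨p, q, h1, r, h2, h3⟩ := W.letter_common h
    have h4 : (famGlue A).act ((famGlue A).pt (i, j) 1) p
        = (famGlue A).act ((famGlue A).pt (i', j') 1) q := h1
    rw [Glue.act_pt, Glue.act_pt, one_mul, one_mul] at h4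
    obtain ⟨h5, h6⟩ := (famGlue A).pt_eq.1 h4
    exact ⟨h5, p, q, r, h6, h2, h3⟩
  nf := by
    intro w
    induction w with
    | base p => exact Or.inl ⟨p, rfl⟩
    | snoc w t ih =>
      right
      rcases ih with ⟨p, hp⟩ | ⟨s, i, j, w', hw⟩
      · obtain ⟨⟨i, j⟩, a, ha⟩ := (famGlue A).exists_pt t
        refine ⟨p, i, j, W.inc _ a, ?_⟩
        rw [W.snoc_eq, mul_assoc, kap_mul, ha, hp]
      · exact ⟨s, i, j, W.snoc w' t, by rw [W.mul_snoc, hw]⟩
  new := by
    intro s i j w' p h
    have h1 := len_kap hP A s i j w'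
    rw [h] at h1
    exact absurd h1 (lt_irrefl 0)
  dvd := by
    intro s i j w' p
    have h := W.inc_dvd_iff (A := (famGlue A).toAct (goodX hP)) (s := p)
      (x := W.inc _ s * kap hP A i j * w')
    rw [head_mul_letter] at h
    constructor
    · rintro ⟨y, hy⟩
      obtain ⟨c, hc⟩ := h.1 ⟨y, hy.symm⟩
      exact ⟨c, hc.symm⟩
    · rintro ⟨c, hc⟩
      obtain ⟨y, hy⟩ := h.2 ⟨c, hc.symm⟩
      exact ⟨y, hy.symm⟩

end fam

/-- leaf A-S1 -/
theorem stS1 : StS1 := fun P _ hP _ _ A => ⟨Ext hP A, inferInstance, W.inc _, kap hP A, s1ext hP A⟩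

end Crest.Agent.R296.StS1x531
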