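import Crest.Agent.R296.Tow_281
import Crest.Agent.R296.StH_478
import Crest.Agent.R296.StS1_531
import Crest.Agent.R296.S2_667
import Crest.Agent.R296.ACap_565
import Crest.Agent.R296.AKit_779
import Crest.Agent.R296.KitT_70
import Crest.Agent.R296.FiltC_70

/-!
Row 296 (S0448), helper70: **block A closed** (v1 interface): `outA : ∃ P T, Kit P T.A ∧ TLem T (etaF T) ∧ …`.
-/

set_option autoImplicit false

namespace Crest.Agent.R296.OutAx70

open Crest.Agent.R296.IfAx378 Crest.Agent.R296.Resx70 Crest.Agent.R296.LctStx153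
  Crest.Agent.R296.FiltCx70

/-- A-TOW -/
theorem stTow : StTow := Towx281.stTow StS1x531.stS1 (StHx478.stH_of_stS2 S2x667.stS2)

/-- everything block C needs -/
structure OutA (P : Type 1) [Monoid P] : Type 1 where
  T : Tower P
  kit : Kit P T.A
  t : TLem T (etaF T)

noncomputable def outA_of {P : Type 1} [Monoid P] (T : Tower P) : OutA P where
  T := T
  kit := KitTx70.kit T (ACapx565.cap T) (AKitx779.kit_gen T) (AKitx779.kit_let T)
    (AKitx779.kit_tri T) (AKitx779.kit_triD T)
  t := tlem T

/-- **end product of block A** -/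
theorem stA : ∃ (P : Type 1) (_ : Monoid P), Nonempty (OutA P) := by
  obtain ⟨P, inst, ⟨T⟩⟩ := stTow
  exact ⟨P, inst, ⟨outA_of T⟩⟩

end Crest.Agent.R296.OutAx70
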