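import Crest.Agent.R296.CatOps_365
import Crest.Agent.R296.CatFrc_365

/-!
Row 296 (S0448), helper365.  **Bridge: the partition principle in `V^(C)` from small families of values.**

`opv x y` (Kuratowski pair), `fc_pairMem`; `SurR`, `InjFam`, `PPOut`; `pp_forced : PPOut C → Fs d ppAx`.
-/

set_option autoImplicit false
set_option linter.unusedSimpArgs false

namespace Crest.Agent.R296.PPBrx365

open CategoryTheory FirstOrder FirstOrder.Language Crest.LogicCS.SetTheory
open Crest.Agent.R296.CatFx365 Crest.Agent.R296.CatFrcx365 Crest.Agent.R296.CatOpsx365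

universe u

variable {C : Type u} [Category.{u} C]

/-! ### ordered pairs -/

/-- Kuratowski pair -/
def opv {d : C} (x y : Val C d) : Val C d := pv (pv x x) (pv x y)

lemma mem_pv' {d : C} (x y z : Val C d) : Mem' z (pv x y) ↔
    ∀ (d1 : C) (l : d1 ⟶ d), ∃ (d2 : C) (m : d2 ⟶ d1),
      Eq' (z.res (m ≫ l)) (x.res (m ≫ l)) ∨ Eq' (z.res (m ≫ l)) (y.res (m ≫ l)) := by
  have := mem_pv x y (𝟙 d) z
  simpa using this

lemma pv_res {d d' : C} (x y : Val C d) (h : d' ⟶ d) :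
    Eq' ((pv x y).res h) (pv (x.res h) (y.res h)) := by
  refine ext' fun d1 l z => ?_
  rw [Val.res_res, mem_pv, mem_pv]
  simp

lemma pv_congr {d : C} {x x' y y' : Val C d} (hx : Eq' x x') (hy : Eq' y y') :
    Eq' (pv x y) (pv x' y') := by
  refine ext' fun d1 l z => ?_
  rw [mem_pv, mem_pv]
  refine forall_congr' fun d2 => forall_congr' fun g => exists_congr fun d3 => exists_congr fun m => ?_
  constructor
  · rintro (h | h)
    · exact Or.inl (h.trans (hx.res _))
    · exact Or.inr (h.trans (hy.res _))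
  · rintro (h | h)
    · exact Or.inl (h.trans (hx.res _).symm)
    · exact Or.inr (h.trans (hy.res _).symm)

lemma opv_res {d d' : C} (x y : Val C d) (h : d' ⟶ d) :
    Eq' ((opv x y).res h) (opv (x.res h) (y.res h)) :=
  (pv_res _ _ h).trans (pv_congr (pv_res _ _ h) (pv_res _ _ h))

lemma opv_congr {d : C} {x x' y y' : Val C d} (hx : Eq' x x') (hy : Eq' y y') :
    Eq' (opv x y) (opv x' y') := pv_congr (pv_congr hx hx) (pv_congr hx hy)

lemma left_mem_pv {d : C} (x y : Val C d) : Mem' x (pv x y) := by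
  rw [mem_pv']
  intro d1 l
  exact ⟨d1, 𝟙 d1, Or.inl (Eq'.refl _)⟩

lemma right_mem_pv {d : C} (x y : Val C d) : Mem' y (pv x y) := by
  rw [mem_pv']
  intro d1 l
  exact ⟨d1, 𝟙 d1, Or.inr (Eq'.refl _)⟩

/-- densely, a member of a pair is one of the two -/
lemma pv_cases {d : C} {x y z : Val C d} (h : Mem' z (pv x y)) : ∃ (d' : C) (m : d' ⟶ d),
    Eq' (z.res m) (x.res m) ∨ Eq' (z.res m) (y.res m) := by
  obtain ⟨d2, m, h2⟩ := (mem_pv' x y z).1 h d (𝟙 d)
  rw [Category.comp_id] at h2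
  exact ⟨d2, m, h2⟩

lemma mem_pv_self {d : C} {x z : Val C d} : Mem' z (pv x x) ↔ Eq' z x := by
  constructor
  · intro h
    refine Eq'.of_dense fun d1 l => ?_
    obtain ⟨d2, m, h2⟩ := (mem_pv' x x z).1 h d1 l
    exact ⟨d2, m, h2.elim id id⟩
  · intro h
    exact Mem'.congr_left h.symm (left_mem_pv x x)

lemma opv_inj_left {d : C} {x x' y y' : Val C d} (h : Eq' (opv x y) (opv x' y')) : Eq' x x' := by
  have h1 : Mem' (pv x x) (opv x' y') := Mem'.congr_right h (left_mem_pv _ _)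
  refine Eq'.of_dense fun d1 l => ?_
  obtain ⟨d2, m, h2⟩ := (mem_pv' _ _ _).1 h1 d1 l
  refine ⟨d2, m, ?_⟩
  have h3 : Eq' (pv (x.res (m ≫ l)) (x.res (m ≫ l))) (pv (x'.res (m ≫ l)) (x'.res (m ≫ l))) ∨
      Eq' (pv (x.res (m ≫ l)) (x.res (m ≫ l))) (pv (x'.res (m ≫ l)) (y'.res (m ≫ l))) :=
    h2.imp (fun h => (pv_res _ _ _).symm.trans (h.trans (pv_res _ _ _)))
      (fun h => (pv_res _ _ _).symm.trans (h.trans (pv_res _ _ _)))
  rcases h3 with h3 | h3
  · exact mem_pv_self.1 (Mem'.congr_right h3 (left_mem_pv _ _))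
  · exact (mem_pv_self.1 (Mem'.congr_right h3.symm (left_mem_pv _ _))).symm

lemma opv_inj_right {d : C} {x x' y y' : Val C d} (h : Eq' (opv x y) (opv x' y')) : Eq' y y' := by
  have hx := opv_inj_left h
  -- replace x' by x
  have h0 : Eq' (opv x y) (opv x y') := h.trans (opv_congr hx.symm (Eq'.refl _))
  have h1 : Mem' (pv x y) (opv x y') := Mem'.congr_right h0 (right_mem_pv _ _)
  have h1' : Mem' (pv x y') (opv x y) := Mem'.congr_right h0.symm (right_mem_pv _ _)
  refine Eq'.of_dense fun d1 l => ?_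
  obtain ⟨d2, m, h2⟩ := (mem_pv' _ _ _).1 h1 d1 l
  obtain ⟨d3, n, h3⟩ := (mem_pv' _ _ _).1 h1' d2 (m ≫ l)
  have key : ∃ (d' : C) (k : d' ⟶ d3), Eq' (y.res (k ≫ n ≫ m ≫ l)) (y'.res (k ≫ n ≫ m ≫ l)) := by
    -- everything at the stage `d3`
    have e1 : ∀ (a b : Val C d), Eq' ((pv a b).res (n ≫ m ≫ l))
        (pv (a.res (n ≫ m ≫ l)) (b.res (n ≫ m ≫ l))) := fun a b => pv_res _ _ _
    have h2' := h2.imp (fun h => h.res n) (fun h => h.res n)
    simp only [Val.res_res] at h2'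
    rcases h2' with h4 | h4
    · -- pair x y = {x}: y = x
      have h5 := ((e1 x y).symm.trans h4).trans (e1 x x)
      have h6 : Eq' (y.res (n ≫ m ≫ l)) (x.res (n ≫ m ≫ l)) :=
        mem_pv_self.1 (Mem'.congr_right h5 (right_mem_pv _ _))
      rcases h3 with h7 | h7
      · have h8 := ((e1 x y').symm.trans h7).trans (e1 x x)
        have h9 : Eq' (y'.res (n ≫ m ≫ l)) (x.res (n ≫ m ≫ l)) :=
          mem_pv_self.1 (Mem'.congr_right h8 (right_mem_pv _ _))
        exact ⟨d3, 𝟙 d3, by simpa using h6.trans h9.symm⟩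
      · have h8 := ((e1 x y').symm.trans h7).trans (e1 x y)
        have h9 := Mem'.congr_right h8 (right_mem_pv _ _)
        obtain ⟨d4, k, h10⟩ := pv_cases h9
        refine ⟨d4, k, ?_⟩
        have h11 := h6.res k
        simp only [Val.res_res] at h10 h11
        rcases h10 with h10 | h10
        · exact h11.trans h10.symm
        · exact h10.symm
    · -- pair x y = pair x y'
      have h5 := ((e1 x y).symm.trans h4).trans (e1 x y')
      have h6 := Mem'.congr_right h5 (right_mem_pv _ _)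
      obtain ⟨d4, k, h10⟩ := pv_cases h6
      rcases h10 with h10 | h10
      · -- y = x at d4
        have h7 := Mem'.congr_right h5.symm (right_mem_pv _ _)
        have h8 := h7.res k
        have h9 : Mem' ((y'.res (n ≫ m ≫ l)).res k)
            (pv ((x.res (n ≫ m ≫ l)).res k) ((y.res (n ≫ m ≫ l)).res k)) :=
          Mem'.congr_right (pv_res _ _ _) h8
        obtain ⟨d5, k2, h11⟩ := pv_cases h9
        refine ⟨d5, k2 ≫ k, ?_⟩
        have h12 := h10.res k2
        simp only [Val.res_res, Category.assoc] at h11 h12 ⊢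
        rcases h11 with h11 | h11
        · exact h12.trans h11.symm
        · exact h11.symm
      · refine ⟨d4, k, ?_⟩
        simpa using h10
  obtain ⟨d4, k, h4⟩ := key
  exact ⟨d4, k ≫ n ≫ m, by simpa using h4⟩

lemma opv_iff {d : C} {x x' y y' : Val C d} : Eq' (opv x y) (opv x' y') ↔ Eq' x x' ∧ Eq' y y' :=
  ⟨fun h => ⟨opv_inj_left h, opv_inj_right h⟩, fun h => opv_congr h.1 h.2⟩

/-! ### the formulas -/

section formulas

variable {n : ℕ} {d : C}

lemma fc_isSing (w a : Fin n) (v : Fin n → Val C d) :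
    Fc (isSing w a) v ↔ Eq' (v w) (pv (v a) (v a)) := by
  unfold isSing
  simp only [fc_all, fc_iff, fc_vmem, fc_veq, vr_sn, sn_last, sn_castSucc, vr_vr, vr_apply]
  constructor
  · intro H
    refine ext' fun d1 l z => ?_
    have h1 := H d1 l z d1 (𝟙 d1)
    simp only [Val.res_id, Category.id_comp] at h1
    rw [h1]
    have h2 : Mem' z ((pv (v a) (v a)).res l) ↔ Mem' z (pv ((v a).res l) ((v a).res l)) :=
      ⟨Mem'.congr_right (pv_res _ _ _), Mem'.congr_right (pv_res _ _ _).symm⟩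
    rw [h2, mem_pv_self]
  · intro H d1 l z d2 g
    have h2 : Mem' (z.res g) ((v w).res (g ≫ l)) ↔
        Mem' (z.res g) (pv ((v a).res (g ≫ l)) ((v a).res (g ≫ l))) :=
      ⟨Mem'.congr_right ((H.res _).trans (pv_res _ _ _)),
        Mem'.congr_right ((H.res _).trans (pv_res _ _ _)).symm⟩
    rw [h2, mem_pv_self]

lemma fc_isUPair (w a b : Fin n) (v : Fin n → Val C d) :
    Fc (isUPair w a b) v ↔ Eq' (v w) (pv (v a) (v b)) := by
  unfold isUPair
  simp only [fc_all, fc_iff, fc_or, fc_vmem, fc_veq, vr_sn, sn_last, sn_castSucc, vr_vr, vr_apply,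
    Val.res_res]
  constructor
  · intro H
    refine ext' fun d1 l z => ?_
    have h1 := H d1 l z d1 (𝟙 d1)
    simp only [Val.res_id, Category.id_comp, Category.comp_id] at h1
    rw [h1, mem_pv]
  · intro H d1 l z d2 g
    have h2 : Mem' (z.res g) ((v w).res (g ≫ l)) ↔
        Mem' (z.res g) ((pv (v a) (v b)).res (g ≫ l)) :=
      ⟨Mem'.congr_right (H.res _), Mem'.congr_right (H.res _).symm⟩
    rw [h2, mem_pv]
    simp only [Val.res_res]

lemma fc_isOPair (p a b : Fin n) (v : Fin n → Val C d) :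
    Fc (isOPair p a b) v ↔ Eq' (v p) (opv (v a) (v b)) := by
  unfold isOPair
  simp only [fc_all, fc_iff, fc_or, fc_vmem, fc_isSing, fc_isUPair, vr_sn, sn_last, sn_castSucc,
    vr_vr, vr_apply, Val.res_res]
  constructor
  · intro H
    refine ext' fun d1 l z => ?_
    have h1 := H d1 l z d1 (𝟙 d1)
    simp only [Val.res_id, Category.id_comp, Category.comp_id] at h1
    rw [h1, opv, mem_pv]
    refine forall_congr' fun d2 => forall_congr' fun g => exists_congr fun d3 =>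
      exists_congr fun m => or_congr ?_ ?_
    · exact ⟨fun h => h.trans (pv_res _ _ _).symm, fun h => h.trans (pv_res _ _ _)⟩
    · exact ⟨fun h => h.trans (pv_res _ _ _).symm, fun h => h.trans (pv_res _ _ _)⟩
  · intro H d1 l z d2 g
    have h2 : Mem' (z.res g) ((v p).res (g ≫ l)) ↔
        Mem' (z.res g) ((opv (v a) (v b)).res (g ≫ l)) :=
      ⟨Mem'.congr_right (H.res _), Mem'.congr_right (H.res _).symm⟩
    rw [h2, opv, mem_pv]
    refine forall_congr' fun d2 => forall_congr' fun g => exists_congr fun d3 =>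
      exists_congr fun m => or_congr ?_ ?_
    · rw [Val.res_res]
      exact ⟨fun h => h.trans (pv_res _ _ _), fun h => h.trans (pv_res _ _ _).symm⟩
    · rw [Val.res_res]
      exact ⟨fun h => h.trans (pv_res _ _ _), fun h => h.trans (pv_res _ _ _).symm⟩

lemma fc_pairMem (f a b : Fin n) (v : Fin n → Val C d) :
    Fc (pairMem f a b) v ↔ Mem' (opv (v a) (v b)) (v f) := by
  unfold pairMem
  simp only [fc_ex, fc_and, fc_vmem, fc_isOPair, vr_sn, sn_last, sn_castSucc, vr_vr, vr_apply]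
  constructor
  · intro H
    refine Mem'.of_dense fun d1 l => ?_
    obtain ⟨d2, m, x, h1, h2⟩ := H d1 l
    exact ⟨d2, m, Mem'.congr_left (h2.trans (opv_res _ _ _).symm) h1⟩
  · intro H d1 l
    exact ⟨d1, 𝟙 d1, (opv (v a) (v b)).res (𝟙 d1 ≫ l), H.res _, opv_res _ _ _⟩

end formulas

/-! ### surjections and families of pairs -/

/-- `R` is (forced to be) a map from `X` onto `Y` -/
structure SurR {q : C} (X Y : Val C q) (R : ∀ d : C, (d ⟶ q) → Val C d → Val C d → Prop) : Prop where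
  mono : ∀ {d d' : C} (h : d ⟶ q) (g : d' ⟶ d) (x y : Val C d), R d h x y →
    R d' (g ≫ h) (x.res g) (y.res g)
  dense : ∀ {d : C} (h : d ⟶ q) (x y : Val C d), (∀ (d1 : C) (l : d1 ⟶ d), ∃ (d2 : C) (m : d2 ⟶ d1),
    R d2 ((m ≫ l) ≫ h) (x.res (m ≫ l)) (y.res (m ≫ l))) → R d h x y
  congr : ∀ {d : C} (h : d ⟶ q) (x x' y y' : Val C d), Eq' x x' → Eq' y y' → R d h x y → R d h x' y'
  tot : ∀ {d : C} (h : d ⟶ q) (x : Val C d), Mem' x (X.res h) → ∀ (d1 : C) (l : d1 ⟶ d),
    ∃ (d2 : C) (m : d2 ⟶ d1) (y : Val C d2), Mem' y (Y.res ((m ≫ l) ≫ h)) ∧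
      R d2 ((m ≫ l) ≫ h) (x.res (m ≫ l)) y
  fn : ∀ {d : C} (h : d ⟶ q) (x y y' : Val C d), Mem' x (X.res h) → R d h x y → R d h x y' → Eq' y y'
  onto : ∀ {d : C} (h : d ⟶ q) (y : Val C d), Mem' y (Y.res h) → ∀ (d1 : C) (l : d1 ⟶ d),
    ∃ (d2 : C) (m : d2 ⟶ d1) (x : Val C d2), Mem' x (X.res ((m ≫ l) ≫ h)) ∧
      R d2 ((m ≫ l) ≫ h) x (y.res (m ≫ l))

/-- a small family of pairs `(y a, x a)` which is the graph of an injection of `Y` into `X` -/
structure InjFam {q : C} (X Y : Val C q) where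
  A : Type u
  D : A → C
  e : ∀ a, D a ⟶ q
  y : ∀ a, Val C (D a)
  x : ∀ a, Val C (D a)
  hx : ∀ a, Mem' (x a) (X.res (e a))
  tot : ∀ {d : C} (h : d ⟶ q) (z : Val C d), Mem' z (Y.res h) → ∀ (d1 : C) (l : d1 ⟶ d),
    ∃ (d2 : C) (m : d2 ⟶ d1) (a : A) (k : d2 ⟶ D a), (m ≫ l) ≫ h = k ≫ e a ∧
      Eq' (z.res (m ≫ l)) ((y a).res k)
  J : ∀ {a a' : A} {d : C} (k : d ⟶ D a) (k' : d ⟶ D a'), k ≫ e a = k' ≫ e a' →
    (Eq' ((y a).res k) ((y a').res k') ↔ Eq' ((x a).res k) ((x a').res k'))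

variable (C) in
/-- output of the partition principle part -/
def PPOut : Prop := ∀ (q : C) (X Y : Val C q) (R : ∀ d : C, (d ⟶ q) → Val C d → Val C d → Prop),
  SurR X Y R → ∃ (q1 : C) (g : q1 ⟶ q), Nonempty (InjFam (X.res g) (Y.res g))

section graph

variable {n : ℕ} {d : C}

lemma sur_of_fc (f X Y : Fin n) (v : Fin n → Val C d) (H : Fc (surjGraph f X Y) v) :
    SurR (v X) (v Y) (fun d' h x y => Mem' (opv x y) ((v f).res h)) := by
  unfold surjGraph at H
  simp only [fc_all, fc_imp, fc_ex, fc_and, fc_vmem, fc_veq, fc_pairMem, vr_sn, sn_last,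
    sn_castSucc, vr_vr, vr_apply, Val.res_res] at H
  obtain ⟨⟨H1, H2⟩, H3⟩ := H
  refine ⟨?_, ?_, ?_, ?_, ?_, ?_⟩
  · intro d d' h g x y hR
    have := hR.res g
    rw [Val.res_res] at this
    exact Mem'.congr_left (opv_res _ _ _) this
  · intro d h x y hR
    refine Mem'.of_dense fun d1 l => ?_
    obtain ⟨d2, m, h2⟩ := hR d1 l
    refine ⟨d2, m, ?_⟩
    rw [Val.res_res]
    exact Mem'.congr_left (opv_res _ _ _).symm h2
  · intro d h x x' y y' hx hy hR
    exact Mem'.congr_left (opv_congr hx hy) hR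
  · intro d' h x hx d1 l
    obtain ⟨d2, m, y, h1, h2⟩ := H1 d' h x d' (𝟙 d') (by simpa using hx) d1 l
    exact ⟨d2, m, y, by simpa using h1, by simpa using h2⟩
  · intro d' h x y y' hx hR hR'
    have := H2 d' h x d' (𝟙 d') y d' (𝟙 d') y' d' (𝟙 d')
    simp only [Val.res_id, Category.id_comp, Category.comp_id] at this
    exact this ⟨⟨hx, hR⟩, hR'⟩
  · intro d' h y hy d1 l
    obtain ⟨d2, m, x, h1, h2⟩ := H3 d' h y d' (𝟙 d') (by simpa using hy) d1 l
    exact ⟨d2, m, x, by simpa using h1, by simpa using h2⟩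

/-- the graph of a family of pairs -/
def InjFam.gr {X Y : Val C d} (F : InjFam X Y) : Val C d :=
  mkv F.A F.D F.e (fun a => opv (F.y a) (F.x a))

lemma InjFam.mem_gr {X Y : Val C d} (F : InjFam X Y) {d' : C} (h : d' ⟶ d) (y x : Val C d') :
    Mem' (opv y x) (F.gr.res h) ↔ ∀ (d1 : C) (l : d1 ⟶ d'), ∃ (d2 : C) (m : d2 ⟶ d1) (a : F.A)
      (k : d2 ⟶ F.D a), (m ≫ l) ≫ h = k ≫ F.e a ∧ Eq' (y.res (m ≫ l)) ((F.y a).res k) ∧
        Eq' (x.res (m ≫ l)) ((F.x a).res k) := by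
  rw [InjFam.gr, mem_mkv]
  refine forall_congr' fun d1 => forall_congr' fun l => exists_congr fun d2 => exists_congr fun m =>
    exists_congr fun a => exists_congr fun k => and_congr_right fun _ => ?_
  rw [← opv_iff]
  exact ⟨fun h => (opv_res _ _ _).symm.trans (h.trans (opv_res _ _ _)),
    fun h => (opv_res _ _ _).trans (h.trans (opv_res _ _ _).symm)⟩

lemma fc_of_injFam (g Y X : Fin n) (v : Fin n → Val C d) (F : InjFam (v X) (v Y))
    (hg : Eq' (v g) F.gr) : Fc (injGraph g Y X) v := by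
  unfold injGraph
  simp only [fc_all, fc_imp, fc_ex, fc_and, fc_vmem, fc_veq, fc_pairMem, vr_sn, sn_last,
    sn_castSucc, vr_vr, vr_apply, Val.res_res]
  have hgr : ∀ {d' : C} (h : d' ⟶ d) (y x : Val C d'), Mem' (opv y x) ((v g).res h) →
      Mem' (opv y x) (F.gr.res h) := fun h y x H => Mem'.congr_right (hg.res h) H
  refine ⟨⟨?_, ?_⟩, ?_⟩
  · intro d1 h1 z d2 h2 hz d3 h3
    obtain ⟨d4, m, a, k, e1, e2⟩ := F.tot (h2 ≫ h1) (z.res h2) (by simpa using hz) d3 h3
    refine ⟨d4, m, (F.x a).res k, ?_, ?_⟩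
    · have := (F.hx a).res k
      rw [Val.res_res, ← e1] at this
      simpa using this
    · refine Mem'.congr_right (hg.res _).symm ?_
      rw [F.mem_gr]
      intro d5 l
      refine ⟨d5, 𝟙 d5, a, l ≫ k, ?_, ?_, ?_⟩
      · have e0 : (l ≫ k) ≫ F.e a = l ≫ (m ≫ h3) ≫ h2 ≫ h1 := by rw [Category.assoc, ← e1]
        rw [e0]; simp
      · have := e2.res l
        simpa using this
      · simpa using Eq'.refl _
  · intro d1 h1 z d2 h2 x d3 h3 x' d4 h4 H
    obtain ⟨⟨hz, hx⟩, hx'⟩ := H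
    have hx := hgr _ _ _ hx
    have hx' := hgr _ _ _ hx'
    rw [F.mem_gr] at hx hx'
    refine Eq'.of_dense fun d5 l => ?_
    obtain ⟨d6, m, a, k, e1, e2, e3⟩ := hx d5 l
    obtain ⟨d7, m', a', k', e1', e2', e3'⟩ := hx' d6 (m ≫ l)
    refine ⟨d7, m' ≫ m, ?_⟩
    have e4 : (m' ≫ k) ≫ F.e a = k' ≫ F.e a' := by
      rw [Category.assoc, ← e1, ← e1']
      simp
    have e5 : Eq' ((F.y a).res (m' ≫ k)) ((F.y a').res k') := by
      have := e2.res m'
      simp only [Val.res_res, Category.assoc] at this e2'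
      exact this.symm.trans e2'
    have e6 := (F.J _ _ e4).1 e5
    have := e3.res m'
    simp only [Val.res_res, Category.assoc] at this e3' e6 ⊢
    exact (this.trans e6).trans e3'.symm
  · intro d1 h1 z d2 h2 z' d3 h3 x d4 h4 H
    obtain ⟨⟨⟨hz, hz'⟩, hx⟩, hx'⟩ := H
    have hx := hgr _ _ _ hx
    have hx' := hgr _ _ _ hx'
    rw [F.mem_gr] at hx hx'
    refine Eq'.of_dense fun d5 l => ?_
    obtain ⟨d6, m, a, k, e1, e2, e3⟩ := hx d5 l
    obtain ⟨d7, m', a', k', e1', e2', e3'⟩ := hx' d6 (m ≫ l)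
    refine ⟨d7, m' ≫ m, ?_⟩
    have e4 : (m' ≫ k) ≫ F.e a = k' ≫ F.e a' := by
      rw [Category.assoc, ← e1, ← e1']
      simp
    have e5 : Eq' ((F.x a).res (m' ≫ k)) ((F.x a').res k') := by
      have := e3.res m'
      simp only [Val.res_res, Category.assoc] at this e3'
      exact this.symm.trans e3'
    have e6 := (F.J _ _ e4).2 e5
    have := e2.res m'
    simp only [Val.res_res, Category.assoc] at this e2' e6 ⊢
    exact (this.trans e6).trans e2'.symm

lemma fc_of_injFam' (g Y X : Fin n) (v : Fin n → Val C d) {X' Y' : Val C d} (hX : v X = X')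
    (hY : v Y = Y') (F : InjFam X' Y') (hg : Eq' (v g) F.gr) : Fc (injGraph g Y X) v := by
  subst hX
  subst hY
  exact fc_of_injFam g Y X v F hg

end graph

/-- **the partition principle is forced** -/
theorem pp_forced (H : PPOut C) (d : C) : Fs d ppAx := by
  unfold Fs ppAx
  simp only [fc_all, fc_imp, fc_ex, vr_sn, vr_e0, Val.res_res]
  intro d1 h1 X d2 h2 Y d3 h3 hF d4 h4
  obtain ⟨d5, m, f, hf⟩ := hF d4 h4
  have h5 := sur_of_fc 2 0 1 _ hf
  obtain ⟨q1, g, ⟨F⟩⟩ := H d5 _ _ _ h5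
  refine ⟨q1, g ≫ m, F.gr, ?_⟩
  refine fc_of_injFam' 2 1 0 _ ?_ ?_ F (Eq'.refl _)
  · change X.res (((g ≫ m) ≫ h4) ≫ h3 ≫ h2) = (X.res ((m ≫ h4) ≫ h3 ≫ h2)).res g
    simp
  · change Y.res (((g ≫ m) ≫ h4) ≫ h3) = (Y.res ((m ≫ h4) ≫ h3)).res g
    simp

end Crest.Agent.R296.PPBrx365
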