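import Crest.Agent.R296.PPc_564
import Crest.Agent.R296.PPBr_365

/-!
# Row 296 (S0448), block C (helper564): `PPOut (Cond P)` from the hypotheses of `PPc_564`
-/

set_option autoImplicit false
set_option linter.unusedSectionVars false
set_option linter.unusedVariables false

open CategoryTheory

namespace Crest.Agent.R296.PPx564

open Crest.Agent.R296.IfAx378 Crest.Agent.R296.CondCx153 Crest.Agent.R296.CatFx365
open Crest.Agent.R296.PPcx564 Crest.Agent.R296.PPBrx365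

variable {P : Type 1} [Monoid P] [IsGood P]

/-- the forced relation of a `SurR` -/
def frelOf {q : Cond P} {X Y : Val (Cond P) q}
    {R : ∀ d : Cond P, (d ⟶ q) → Val (Cond P) d → Val (Cond P) d → Prop} (S : SurR X Y R) : FRel q where
  r h x y := R _ h x y
  mono h g x y H := S.mono h g x y H
  dense h x y H := S.dense h x y H
  congr h x x' y y' hx hy H := S.congr h x x' y y' hx hy H

theorem meet_rs {q : Cond P} {Z : Val (Cond P) q} {s t b : Pt Z} {d' : Cond P} {k : d' ⟶ t.st}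
    (h : s = t.rs k) (H : s.Meet b) : ∃ (e : Cond P) (k3 : e ⟶ d') (k4 : e ⟶ b.st),
      (k3 ≫ k) ≫ t.ar = k4 ≫ b.ar ∧ Eq' (t.val.res (k3 ≫ k)) (b.val.res k4) := by
  subst h
  obtain ⟨e, k3, k4, h1, h2⟩ := H
  refine ⟨e, k3, k4, ?_, ?_⟩
  · rw [Category.assoc]
    exact h1
  · rw [Pt.val_rs, Val.res_res] at h2
    exact h2

/-- **PP** -/
theorem ppOut {f0 : P} (hf0 : f0 ≠ 1) (L : LetHyp P f0) (hG : Gen' P) (hA : Amal P)
    (hN : NormHyp P) (hC : CodeHyp P) : PPOut (Cond P) := by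
  intro q X Y R S
  obtain ⟨st, hst, hst2⟩ := hC
  obtain ⟨A, hA1, hA2, hA3⟩ := exists_normal_family hN X
  let f : FRel q := frelOf S
  have hfn : ∀ {d : Cond P} (h : d ⟶ q) (x y y' : Val (Cond P) d), Mem' x (X.res h) → f.r h x y →
      f.r h x y' → Eq' y y' := fun h x y y' hx h1 h2 => S.fn h x y y' hx h1 h2
  have honto : ∀ {d : Cond P} (h : d ⟶ q) (y : Val (Cond P) d), Mem' y (Y.res h) →
      ∃ (d2 : Cond P) (m : d2 ⟶ d) (x : Val (Cond P) d2), Mem' x (X.res (m ≫ h)) ∧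
        f.r (m ≫ h) x (y.res m) := by
    intro d h y hy
    obtain ⟨d2, m, x, h1, h2⟩ := S.onto h y hy d (𝟙 d)
    rw [Category.comp_id] at h1 h2
    exact ⟨d2, m, x, h1, h2⟩
  obtain ⟨B, hB1, hB2⟩ := exists_max (E := Ent L st f A Y) Ent.Meet
    (fun a => Pt.Meet.refl _) (fun a b h => Pt.Meet.symm h)
  refine ⟨q1 q f0, hf q f0, ⟨⟨B, fun a => a.1.pt.st, fun a => a.1.pt.ar, fun a => a.1.pt.val,
    fun a => a.1.xv, ?_, ?_, ?_⟩⟩⟩
  · intro a
    have := a.1.xv_mem
    rwa [Val.res_res]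
  · intro d h z hz d1 l
    have hz' : Mem' (z.res l) ((Y.res (hf q f0)).res (l ≫ h)) := by
      have := hz.res l
      rwa [Val.res_res h l] at this
    obtain ⟨t, k, h1, h2⟩ := Pt.exists_pt (l ≫ h) (z.res l) hz'
    obtain ⟨a, d', k2, h3⟩ := dense_ent f L (st := st) hst2 hG hA hN hf0 hA1 hA3 honto t
    obtain ⟨b, hb, hab⟩ := hB2 a
    obtain ⟨e, k3, k4, h4, h5⟩ := meet_rs h3 hab
    refine ⟨e, (k3 ≫ k2) ≫ k, ⟨b, hb⟩, k4, ?_, ?_⟩
    · rw [Category.assoc _ l h, Category.assoc _ k (l ≫ h), h1]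
      exact h4
    · have h6 := h2.res (k3 ≫ k2)
      rw [Val.res_res, Val.res_res] at h6
      exact h6.trans h5
  · intro a a' d k k' hk
    constructor
    · intro H
      have h1 : a.1 = a'.1 := hB1 _ a.2 _ a'.2 ⟨d, k, k', hk, H⟩
      have h2 : a = a' := Subtype.ext h1
      subst h2
      exact a.1.J_self k k' hk H
    · intro H
      exact Ent.J_inj hst hA1 hA2 hfn a.1 a'.1 (fun h => hB1 _ a.2 _ a'.2 h) k k' hk H

end Crest.Agent.R296.PPx564
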