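import Crest.Agent.R296.Wire_378
import Crest.Agent.R296.OutA_70
import Crest.Agent.R296.PP_564
import Crest.Agent.R296.LetH_365

/-!
Row 296 (S0448), helper365.  **Assembly**: `PPOut (Cond P)` for the monoid of a tower.
-/

set_option autoImplicit false

open CategoryTheory FirstOrder FirstOrder.Language Crest.LogicCS.SetTheory

namespace Crest.Agent.R296.Finx365

open Crest.Agent.R296 Crest.Agent.R296.IfAx378

variable {P : Type 1} [Monoid P]

/-- translation of the data -/
def tr (T : Tower P) (D : OutAx378.TDat T.A) : FiltCx70.TDat T :=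
  { β := D.β, odd := D.odd, F := D.F, a := D.a, b := D.b, p := D.p, gen := D.gen, ha := D.ha,
    hb := D.hb, hp := D.hp, a_ne := D.a_ne, mem := D.mem, dvd := D.dvd, ndvd := D.ndvd }

theorem tr_inj (T : Tower P) {D D' : OutAx378.TDat T.A} (h : tr T D = tr T D') : D = D' :=
  OutAx378.TDat.ext (congrArg FiltCx70.TDat.β h) (congrArg FiltCx70.TDat.F h)
    (congrArg FiltCx70.TDat.a h) (congrArg FiltCx70.TDat.b h) (congrArg FiltCx70.TDat.p h)

theorem tlem (T : Tower P) : OutAx378.TLem (A := T.A) (fun D => FiltCx70.etaF T (tr T D)) := by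
  have h := FiltCx70.tlem T
  exact
    { succ := fun D => h.succ (tr T D)
      new := fun D => h.new (tr T D)
      rel := fun D => h.rel (tr T D)
      t3 := fun D => h.t3 (tr T D)
      t0 := fun D => h.t0 (tr T D)
      t1 := fun D => h.t1 (tr T D)
      t1' := fun D => h.t1' (tr T D)
      t2 := fun D D' s s' z z' h1 h2 h3 h4 => by
        obtain ⟨h5, h6, h7⟩ := h.t2 (tr T D) (tr T D') s s' z z' h1 h2 h3 h4
        exact ⟨tr_inj T h5, h6, h7⟩ }

theorem pp_out [IsGood P] (T : Tower P) : PPBrx365.PPOut (CondCx153.Cond P) := by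
  have K := Wirex378.kit T
  obtain ⟨L⟩ := LetHx365.letHyp K _ (tlem T) T.f0_ne
  exact PPx564.ppOut T.f0_ne L (Hypx365.gen' K) (Hypx365.amal K) (Hypx365.normHyp K)
    (Hypx365.codeHyp K)

/-- **`Con(ZF + PP + AC_WO + ¬AC)`** -/
theorem main : Theory.IsSatisfiable (ZF ∪ {ppAx, acwoAx, ∼acAx}) :=
  Wirex378.s0448_of_pp fun _ _ _ T => pp_out T

end Crest.Agent.R296.Finx365
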