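import Crest.Agent.R296.CatOps_365
import Crest.Agent.R296.CondC_153

/-!
# Row 296 (S0448), block C (helper564): the partition principle in `V^(C)`, Zorn form (note 2194)

`pp_core`: from a forced surjection `X → Y` over `c0` (an `FRel`) one gets, over the stage `q1 = f0 · c0`,
a family of entries `(D i ⟶ q1; y i, x i)` which is single valued, injective, total and with values in `X`.
The hypotheses on the monoid are collected in `Gen'`, `LetHyp`; the normal forms of names (LCT') in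
`NormHyp`.
-/

set_option autoImplicit false
set_option linter.unusedSectionVars false
set_option linter.unusedVariables false

open CategoryTheory

namespace Crest.Agent.R296.PPcx564

open Crest.Agent.R296.IfAx378 Crest.Agent.R296.CondCx153 Crest.Agent.R296.CatFx365
open Crest.Agent.R296.CatOpsx365

/-! ### maximal disjoint families -/

/-- Zorn: a maximal family for a reflexive symmetric relation "meet" -/
theorem exists_max {E : Type*} (R : E → E → Prop) (hr : ∀ a, R a a) (hs : ∀ a b, R a b → R b a) :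
    ∃ A : Set E, (∀ a ∈ A, ∀ b ∈ A, R a b → a = b) ∧ ∀ e, ∃ a ∈ A, R e a := by
  obtain ⟨A, hA⟩ := zorn_subset {A : Set E | ∀ a ∈ A, ∀ b ∈ A, R a b → a = b} (by
    intro c hc hch
    refine ⟨⋃₀ c, ?_, fun s hs => Set.subset_sUnion_of_mem hs⟩
    rintro a ⟨s, hs, ha⟩ b ⟨t, ht, hb⟩ hab
    rcases hch.total hs ht with h | h
    · exact hc ht a (h ha) b hb hab
    · exact hc hs a ha b (h hb) hab)
  refine ⟨A, hA.prop, fun e => ?_⟩
  by_contra hcon
  push Not at hcon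
  have h1 : (insert e A) ∈ {A : Set E | ∀ a ∈ A, ∀ b ∈ A, R a b → a = b} := by
    rintro a ha b hb hab
    rcases ha with rfl | ha <;> rcases hb with rfl | hb
    · rfl
    · exact absurd hab (hcon b hb)
    · exact absurd (hs _ _ hab) (hcon a ha)
    · exact hA.prop a ha b hb hab
  have h2 := hA.le_of_ge h1 (Set.subset_insert e A)
  exact hcon e (h2 (Set.mem_insert e A)) (hr e)

variable {P : Type 1} [Monoid P] [IsGood P]

/-! ### points of a value -/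

/-- a point of the value `Z`: one of its elements, over some stage above `q` -/
structure Pt {q : Cond P} (Z : Val (Cond P) q) : Type 1 where
  i : Z.nm.I
  st : Cond P
  ar : st ⟶ q
  k : st ⟶ Z.nm.D i
  hk : ar ≫ Z.ar = k ≫ Z.nm.e i

namespace Pt
variable {q : Cond P} {Z : Val (Cond P) q}

/-- value of a point -/
def val (t : Pt Z) : Val (Cond P) t.st := Z.el t.i t.k

/-- restriction of a point -/
abbrev rs (t : Pt Z) {d : Cond P} (g : d ⟶ t.st) : Pt Z :=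
  ⟨t.i, d, g ≫ t.ar, g ≫ t.k, by rw [Category.assoc, t.hk, Category.assoc]⟩

theorem val_rs (t : Pt Z) {d : Cond P} (g : d ⟶ t.st) : (t.rs g).val = t.val.res g :=
  (Val.res_el Z t.i t.k g).symm

theorem mem (t : Pt Z) : Mem' t.val (Z.res t.ar) := mem_el Z t.ar t.i t.k t.hk

/-- two points meet -/
def Meet (s t : Pt Z) : Prop := ∃ (e : Cond P) (k : e ⟶ s.st) (k' : e ⟶ t.st),
  k ≫ s.ar = k' ≫ t.ar ∧ Eq' (s.val.res k) (t.val.res k')

theorem Meet.refl (s : Pt Z) : Meet s s := ⟨s.st, 𝟙 _, 𝟙 _, rfl, Eq'.refl _⟩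

theorem Meet.symm {s t : Pt Z} (h : Meet s t) : Meet t s := by
  obtain ⟨e, k, k', h1, h2⟩ := h
  exact ⟨e, k', k, h1.symm, h2.symm⟩

/-- every member is densely a point -/
theorem exists_pt {d : Cond P} (h : d ⟶ q) (z : Val (Cond P) d) (hz : Mem' z (Z.res h)) :
    ∃ (t : Pt Z) (k : t.st ⟶ d), k ≫ h = t.ar ∧ Eq' (z.res k) t.val := by
  obtain ⟨d2, m, j, k, h1, h2⟩ := hz d (𝟙 d)
  refine ⟨⟨j, d2, m ≫ h, k, ?_⟩, m, rfl, ?_⟩
  · simpa using h1
  · have h3 : Eq' (z.res (m ≫ 𝟙 d)) (Z.el j k) := h2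
    rw [Category.comp_id] at h3
    exact h3

end Pt

/-! ### forced relations -/

/-- a forced binary relation between values over the stages above `q` -/
structure FRel (q : Cond P) where
  r : ∀ {d : Cond P}, (d ⟶ q) → Val (Cond P) d → Val (Cond P) d → Prop
  mono : ∀ {d d' : Cond P} (h : d ⟶ q) (g : d' ⟶ d) (x y : Val (Cond P) d), r h x y →
    r (g ≫ h) (x.res g) (y.res g)
  dense : ∀ {d : Cond P} (h : d ⟶ q) (x y : Val (Cond P) d),
    (∀ (d1 : Cond P) (g : d1 ⟶ d), ∃ (d2 : Cond P) (m : d2 ⟶ d1),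
      r ((m ≫ g) ≫ h) (x.res (m ≫ g)) (y.res (m ≫ g))) → r h x y
  congr : ∀ {d : Cond P} (h : d ⟶ q) (x x' y y' : Val (Cond P) d), Eq' x x' → Eq' y y' →
    r h x y → r h x' y'

/-! ### hypotheses -/

/-- generic solutions of `y a = b` (point version, `a = 1` allowed) -/
def Gen' (P : Type 1) [Monoid P] : Prop := ∀ (a b : P) (S : Set P), Small.{0} S → b ≠ 1 →
  ∃ y, y * a = b ∧ ∀ x, y * x ∈ S → b ∣ y * x

/-- free amalgamation of two arrows over the full restriction -/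
def Amal (P : Type 1) [Monoid P] [IsGood P] : Prop := ∀ (e d e1 : Cond P) (l : e ⟶ d) (j : e1 ⟶ d),
  pul l.1 e.q ⊆ d.q → ∃ (e2 : Cond P) (h : e2 ⟶ e) (h' : e2 ⟶ e1), h ≫ l = h' ≫ j

/-- the letters -/
structure LetHyp (P : Type 1) [Monoid P] (f0 : P) where
  Let : Ordinal.{0} → Filt P → P → P → P
  good : Ordinal.{0} → Filt P → P → P → Prop
  ev : ∀ (F : Filt P) (a p : P) (S : Set P), Small.{0} S → a ≠ 1 → (∀ u ∈ F.S, u ∣ p) →
    ∃ β0, ∀ β, β0 ≤ β → good β F a p ∧ ∀ x, Let β F a p * x ∈ S → (p * f0) ∣ Let β F a p * x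
  rel : ∀ β F a p, good β F a p → Let β F a p * a = p * f0
  mem : ∀ β F a p, good β F a p → ∀ u ∈ F.S, u ∣ Let β F a p
  T2 : ∀ (β β' : Ordinal.{0}) (F F' : Filt P) (a p p' s s' z : P), good β F a p → good β' F' a p' →
    s * p = s' * p' → s * Let β F a p * z = s' * Let β' F' a p' * z → ¬ a ∣ z →
    β = β' ∧ Let β F a p = Let β' F' a p' ∧ ∃ u ∈ F.S, s * u = s' * u

/-- normal form of a value -/
def Nor {d : Cond P} (x : Val (Cond P) d) : Prop :=
  (∀ (w : Cond P) (f g : w ⟶ d), Eq' (x.res f) (x.res g)) ∨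
  ∃ F : Filt P, ∀ (w : Cond P) (f g : w ⟶ d), Eq' (x.res f) (x.res g) ↔ ∃ u ∈ F.S, f.1 * u = g.1 * u

/-- normal form of a pair (value, point) with the filter `F` -/
def NorP {d : Cond P} (y : Val (Cond P) d) (p : P) (F : Filt P) : Prop :=
  ∀ (w : Cond P) (f g : w ⟶ d), (f.1 * p = g.1 * p ∧ Eq' (y.res f) (y.res g)) ↔
    ∃ u ∈ F.S, f.1 * u = g.1 * u

/-- existence of normal forms -/
structure NormHyp (P : Type 1) [Monoid P] [IsGood P] : Prop where
  one : ∀ (q : Cond P) (x : Val (Cond P) q), ∃ (q2 : Cond P) (i : q2 ⟶ q), i.1 = 1 ∧ Nor (x.res i)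
  two : ∀ (q : Cond P) (y : Val (Cond P) q) (p : P), ∃ (q2 : Cond P) (i : q2 ⟶ q) (F : Filt P),
    i.1 = 1 ∧ NorP (y.res i) p F ∧ ∀ u ∈ F.S, u ∣ p

/-- injective codes of finitely many conditions and elements -/
def CodeHyp (P : Type 1) [Monoid P] : Prop :=
  ∃ st : (Cond P × P × Cond P × P × P) × Ordinal.{0} → Ordinal.{0}, Function.Injective st ∧
    ∀ k, k.2 ≤ st k


/-! ### locality -/

/-- monotone and dense predicates descend along arrows with full restriction -/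
theorem local' (hA : Amal P) {e d : Cond P} (l : e ⟶ d) (hl : pul l.1 e.q ⊆ d.q)
    (Φ : ∀ (w : Cond P), (w ⟶ d) → Prop)
    (mono : ∀ (w w' : Cond P) (h : w ⟶ d) (g : w' ⟶ w), Φ w h → Φ w' (g ≫ h))
    (dense : ∀ (w : Cond P) (h : w ⟶ d), (∀ (w1 : Cond P) (g : w1 ⟶ w),
      ∃ (w2 : Cond P) (m : w2 ⟶ w1), Φ w2 (m ≫ g ≫ h)) → Φ w h)
    (H : Φ e l) : Φ d (𝟙 d) := by
  refine dense d (𝟙 d) fun w1 g => ?_
  obtain ⟨e2, h, h', h1⟩ := hA e d w1 l g hl
  refine ⟨e2, h', ?_⟩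
  rw [Category.comp_id, ← h1]
  exact mono _ _ l h H

/-- push-out of labels along `l` -/
theorem isCond_push {l : P} {e D R : Set (P × Lab)} (he : IsCond e) (hD : D = pul l e)
    (hDR : IsCond (D ∪ R)) : IsCond (e ∪ psh l (D ∪ R)) := by
  refine he.union (hDR.psh l) fun s b h1 h2 => ?_
  obtain ⟨t, ht, rfl⟩ := mem_psh.1 h2
  have h3 : (t, b) ∈ D ∪ R := Or.inl (by rw [hD]; exact h1)
  exact hDR.con t b h3 ht

theorem pul_push {l : P} {e D R : Set (P × Lab)} (hD : D = pul l e) :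
    pul l (e ∪ psh l (D ∪ R)) ⊆ D ∪ R := by
  rintro ⟨t, b⟩ h
  rw [mem_pul] at h
  rcases h with h | h
  · left
    rw [hD]
    exact h
  · rwa [mul_mem_psh] at h

/-! ### the main construction -/

section main

variable {c0 : Cond P} {X Y : Val (Cond P) c0} (f : FRel c0) {f0 : P}

/-- maximal disjoint family of normal points -/
theorem exists_normal_family (hN : NormHyp P) (X : Val (Cond P) c0) :
    ∃ A : Set (Pt X), (∀ a ∈ A, Nor a.val) ∧ (∀ a ∈ A, ∀ b ∈ A, a.Meet b → a = b) ∧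
      ∀ t : Pt X, ∃ a ∈ A, t.Meet a := by
  obtain ⟨B, hB1, hB2⟩ := exists_max (E := {t : Pt X // Nor t.val}) (fun a b => a.1.Meet b.1)
    (fun a => Pt.Meet.refl _) (fun a b h => h.symm)
  refine ⟨Subtype.val '' B, ?_, ?_, ?_⟩
  · rintro _ ⟨a, _, rfl⟩
    exact a.2
  · rintro _ ⟨a, ha, rfl⟩ _ ⟨b, hb, rfl⟩ h
    rw [hB1 a ha b hb h]
  · intro t
    obtain ⟨q2, i, hi, hn⟩ := hN.one t.st t.val
    have hn' : Nor (t.rs i).val := by rw [Pt.val_rs]; exact hn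
    obtain ⟨a, ha, e, k, k', h1, h2⟩ := hB2 ⟨t.rs i, hn'⟩
    have h1' : (k : e ⟶ q2) ≫ i ≫ t.ar = k' ≫ a.1.ar := h1
    have h2' : Eq' ((t.rs i).val.res (k : e ⟶ q2)) (a.1.val.res k') := h2
    refine ⟨a.1, ⟨a, ha, rfl⟩, e, (k : e ⟶ q2) ≫ i, k', ?_, ?_⟩
    · rw [Category.assoc]
      exact h1'
    · rw [Pt.val_rs, Val.res_res] at h2'
      exact h2'

/-- every member of `X` meets the family -/
theorem cover {A : Set (Pt X)} (hA : ∀ t : Pt X, ∃ a ∈ A, t.Meet a) {d : Cond P} (h : d ⟶ c0)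
    (x : Val (Cond P) d) (hx : Mem' x (X.res h)) : ∃ a ∈ A, ∃ (e : Cond P) (l1 : e ⟶ d)
      (l2 : e ⟶ a.st), l1 ≫ h = l2 ≫ a.ar ∧ Eq' (x.res l1) (a.val.res l2) := by
  obtain ⟨t, k, h1, h2⟩ := Pt.exists_pt h x hx
  obtain ⟨a, ha, e, k1, k2, h3, h4⟩ := hA t
  refine ⟨a, ha, e, k1 ≫ k, k2, ?_, ?_⟩
  · rw [Category.assoc, h1, h3]
  · have h5 := (h2.res k1)
    rw [Val.res_res] at h5
    exact h5.trans h4

/-- support of a point of `X` is its base -/
def TypeA (a : Pt X) : Prop := ∀ (w : Cond P) (k k' : w ⟶ a.st), k ≫ a.ar = k' ≫ a.ar →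
  Eq' (a.val.res k) (a.val.res k')

theorem typeB {a : Pt X} (ha : Nor a.val) (hb : ¬ TypeA a) : a.ar.1 ≠ 1 ∧ ∃ F : Filt P,
    a.ar.1 ∉ F.S ∧ ∀ (w : Cond P) (f g : w ⟶ a.st), Eq' (a.val.res f) (a.val.res g) →
      ∃ u ∈ F.S, f.1 * u = g.1 * u := by
  constructor
  · intro h1
    apply hb
    intro w k k' h
    have h2 : k.1 * a.ar.1 = k'.1 * a.ar.1 := congrArg Subtype.val h
    rw [h1, mul_one, mul_one] at h2
    have h3 : k = k' := Subtype.ext h2
    rw [h3]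
    exact Eq'.refl _
  · rcases ha with ha | ⟨F, hF⟩
    · exact absurd (fun w k k' _ => ha w k k') hb
    · refine ⟨F, fun h1 => hb fun w k k' h => ?_, fun w f g => (hF w f g).1⟩
      exact (hF w k k').2 ⟨_, h1, congrArg Subtype.val h⟩

/-- codes -/
abbrev Code (P : Type 1) [Monoid P] : Type 1 := (Cond P × P × Cond P × P × P) × Ordinal.{0}

/-- the stage `f0 · c0` -/
def q1 (c0 : Cond P) (f0 : P) : Cond P := ⟨psh f0 c0.q, c0.h.psh f0⟩

/-- the arrow `f0 · c0 ⟶ c0` -/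
def hf (c0 : Cond P) (f0 : P) : q1 c0 f0 ⟶ c0 := ⟨f0, subset_rfl⟩

/-- entries: see note 2194 -/
structure Ent (L : LetHyp P f0) (st : Code P → Ordinal.{0}) (f : FRel c0) (A : Set (Pt X))
    (Y : Val (Cond P) c0) : Type 1 where
  pt : Pt (Y.res (hf c0 f0))
  xi : Pt X
  hxi : xi ∈ A
  eta : pt.st ⟶ xi.st
  heta : eta ≫ xi.ar = pt.ar ≫ hf c0 f0
  prop : (TypeA xi ∧ f.r (pt.ar ≫ hf c0 f0) (xi.val.res eta) pt.val) ∨
    (¬ TypeA xi ∧ ∃ (F : Filt P) (D e : Cond P) (l l2 : P) (β0 : Ordinal.{0}),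
      NorP pt.val pt.ar.1 F ∧
      eta.1 = L.Let (st ((D, pt.ar.1, e, l, l2), β0)) F xi.ar.1 pt.ar.1 ∧
      L.good (st ((D, pt.ar.1, e, l, l2), β0)) F xi.ar.1 pt.ar.1 ∧
      pt.st.q = D.q ∪ psh eta.1 xi.st.q ∧
      IsCond (e.q ∪ psh l pt.st.q) ∧
      psh l2 xi.st.q ⊆ e.q ∧
      l2 * xi.ar.1 = l * (pt.ar.1 * f0) ∧
      ∀ (w : Cond P) (l' : w ⟶ pt.st) (l2' : w ⟶ xi.st), l'.1 = l → l2'.1 = l2 → e.q ⊆ w.q →
        f.r (l' ≫ pt.ar ≫ hf c0 f0) (xi.val.res l2') (pt.val.res l'))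


namespace Ent

variable {X Y : Val (Cond P) c0} {f : FRel c0} {L : LetHyp P f0} {st : Code P → Ordinal.{0}}
  {A : Set (Pt X)}

/-- two entries meet if their points meet -/
def Meet (a b : Ent L st f A Y) : Prop := a.pt.Meet b.pt

/-- value in `X` of the entry -/
def xv (a : Ent L st f A Y) : Val (Cond P) a.pt.st := a.xi.val.res a.eta

theorem xv_mem (a : Ent L st f A Y) : Mem' a.xv (X.res (a.pt.ar ≫ hf c0 f0)) := by
  have h := a.xi.mem.res a.eta
  rw [Val.res_res, a.heta] at h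
  exact h

/-- (J) `=>` inside one entry -/
theorem J_self (a : Ent L st f A Y) {w : Cond P} (k k' : w ⟶ a.pt.st)
    (hk : k ≫ a.pt.ar = k' ≫ a.pt.ar) (h : Eq' (a.pt.val.res k) (a.pt.val.res k')) :
    Eq' (a.xv.res k) (a.xv.res k') := by
  unfold xv
  rw [Val.res_res, Val.res_res]
  rcases a.prop with ⟨hA, -⟩ | ⟨-, F, D, e, l, l2, β0, hN, heta, hgood, -⟩
  · apply hA
    rw [Category.assoc, Category.assoc, a.heta, ← Category.assoc, hk, Category.assoc]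
  · have h1 : k.1 * a.pt.ar.1 = k'.1 * a.pt.ar.1 := congrArg Subtype.val hk
    obtain ⟨u, hu, hu'⟩ := (hN w k k').1 ⟨h1, h⟩
    obtain ⟨t, ht⟩ := L.mem _ _ _ _ hgood u hu
    have h2 : k ≫ a.eta = k' ≫ a.eta := by
      apply Subtype.ext
      rw [comp_val, comp_val, heta, ht, ← mul_assoc, ← mul_assoc, hu']
    rw [h2]
    exact Eq'.refl _

/-- (J) `<=` : equal values of `X` -/
theorem J_inj (hst : Function.Injective st) (hA1 : ∀ a ∈ A, Nor a.val)
    (hA2 : ∀ a ∈ A, ∀ b ∈ A, a.Meet b → a = b)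
    (hfn : ∀ {d : Cond P} (h : d ⟶ c0) (x y y' : Val (Cond P) d), Mem' x (X.res h) → f.r h x y →
      f.r h x y' → Eq' y y')
    (a b : Ent L st f A Y) (hab : a.Meet b → a = b) {w : Cond P} (k : w ⟶ a.pt.st)
    (k' : w ⟶ b.pt.st) (hk : k ≫ a.pt.ar = k' ≫ b.pt.ar) (h : Eq' (a.xv.res k) (b.xv.res k')) :
    Eq' (a.pt.val.res k) (b.pt.val.res k') := by
  unfold xv at h
  rw [Val.res_res, Val.res_res] at h
  have h0 : (k ≫ a.eta) ≫ a.xi.ar = (k' ≫ b.eta) ≫ b.xi.ar := by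
    rw [Category.assoc, Category.assoc, a.heta, b.heta, ← Category.assoc, hk, Category.assoc]
  have hpt : a.pt.Meet b.pt → a.pt = b.pt := fun h => by rw [hab h]
  clear hab
  have hxi : a.xi = b.xi := hA2 _ a.hxi _ b.hxi ⟨w, k ≫ a.eta, k' ≫ b.eta, h0, h⟩
  obtain ⟨pt, xi, hx, eta, heta, prop⟩ := a
  obtain ⟨pt', xi', hx', eta', heta', prop'⟩ := b
  dsimp only at hxi hpt k k' hk h h0 ⊢
  subst hxi
  rcases prop with ⟨hA, hr⟩ | ⟨hB, F, D, e, l, l2, β0, hN, he, hgood, hq, hc, hl2, hbase, hrr⟩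
  · rcases prop' with ⟨hA', hr'⟩ | ⟨hB', -⟩
    · have h1 := f.mono _ k _ _ hr
      have h2 := f.mono _ k' _ _ hr'
      rw [Val.res_res] at h1 h2
      rw [← Category.assoc, ← hk, Category.assoc] at h2
      refine hfn _ _ _ _ ?_ h1 (f.congr _ _ _ _ _ h.symm (Eq'.refl _) h2)
      have h3 := xi.mem.res (k ≫ eta)
      rw [Val.res_res, Category.assoc, heta] at h3
      exact h3
    · exact absurd hA hB'
  · rcases prop' with ⟨hA', hr'⟩ | ⟨-, F', D', e', l', l2', β0', hN', he', hgood', hq', hc', hl2', -, hrr'⟩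
    · exact absurd hA' hB
    · obtain ⟨-, Fx, haF, hFx⟩ := typeB (hA1 _ hx) hB
      obtain ⟨z, hz, hz'⟩ := hFx w _ _ h
      have haz : ¬ xi.ar.1 ∣ z := fun hd => haF (Fx.up _ _ hd hz)
      have hkk : k.1 * pt.ar.1 = k'.1 * pt'.ar.1 := congrArg Subtype.val hk
      rw [comp_val, comp_val, he, he'] at hz'
      obtain ⟨hβ, hLL, u, hu, huu⟩ := L.T2 _ _ _ _ _ _ _ _ _ _ hgood hgood' hkk hz' haz
      have hcode := hst hβ
      simp only [Prod.mk.injEq] at hcode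
      obtain ⟨⟨hD, hp, hee, hll, hll2⟩, -⟩ := hcode
      subst hD hee hll hll2
      -- the two entries meet
      have hq2 : pt'.st.q = pt.st.q := by rw [hq, hq', he, he', hLL]
      let w2 : Cond P := ⟨e.q ∪ psh l pt.st.q, hc⟩
      let m : w2 ⟶ pt.st := ⟨l, Set.subset_union_right⟩
      let m' : w2 ⟶ pt'.st := ⟨l, by rw [hq2]; exact Set.subset_union_right⟩
      let n : w2 ⟶ xi.st := ⟨l2, hl2.trans Set.subset_union_left⟩
      have hmm : m ≫ pt.ar = m' ≫ pt'.ar := by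
        apply Subtype.ext
        show l * pt.ar.1 = l * pt'.ar.1
        rw [hp]
      have hr1 := hrr w2 m n rfl rfl Set.subset_union_left
      have hr2 := hrr' w2 m' n rfl rfl Set.subset_union_left
      have hmm2 : m' ≫ pt'.ar ≫ hf c0 f0 = m ≫ pt.ar ≫ hf c0 f0 := by
        rw [← Category.assoc, ← hmm, Category.assoc]
      rw [hmm2] at hr2
      have hn : n ≫ xi.ar = m ≫ pt.ar ≫ hf c0 f0 := Subtype.ext hbase
      have hmem := xi.mem.res n
      rw [Val.res_res, hn] at hmem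
      obtain rfl := hpt ⟨w2, m, m', hmm, hfn _ _ _ _ hmem hr1 hr2⟩
      exact ((hN w k k').2 ⟨u, hu, huu⟩).2

end Ent

theorem NorP.mono {d d' : Cond P} {y : Val (Cond P) d} {p : P} {F : Filt P} (h : NorP y p F)
    (i : d' ⟶ d) (hi : i.1 = 1) : NorP (y.res i) p F := by
  intro w f g
  have h1 := h w (f ≫ i) (g ≫ i)
  rw [comp_val, comp_val, hi, mul_one, mul_one] at h1
  rw [Val.res_res, Val.res_res]
  exact h1

/-- **entries are dense** -/
theorem dense_ent (f : FRel c0) {X Y : Val (Cond P) c0} (L : LetHyp P f0)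
    {st : Code P → Ordinal.{0}} (hst : ∀ k, k.2 ≤ st k) (hG : Gen' P) (hA : Amal P)
    (hN : NormHyp P) (hf0 : f0 ≠ 1) {A : Set (Pt X)} (hA1 : ∀ a ∈ A, Nor a.val)
    (hA3 : ∀ t : Pt X, ∃ a ∈ A, t.Meet a)
    (honto : ∀ {d : Cond P} (h : d ⟶ c0) (y : Val (Cond P) d), Mem' y (Y.res h) →
      ∃ (d2 : Cond P) (m : d2 ⟶ d) (x : Val (Cond P) d2), Mem' x (X.res (m ≫ h)) ∧
        f.r (m ≫ h) x (y.res m))
    (t : Pt (Y.res (hf c0 f0))) : ∃ (a : Ent L st f A Y) (d' : Cond P) (k : d' ⟶ t.st),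
      a.pt = t.rs k := by
  have hy : Mem' t.val (Y.res (t.ar ≫ hf c0 f0)) := by
    have := t.mem
    rwa [Val.res_res] at this
  obtain ⟨d2, m, x, hx, hr⟩ := honto _ _ hy
  obtain ⟨xi, hxi, e1, l1, l2, h1, h2⟩ := cover hA3 _ x hx
  have hr1 := f.mono _ l1 _ _ hr
  rw [Val.res_res] at hr1
  have hr2 := f.congr _ _ _ _ _ h2 (Eq'.refl _) hr1
  clear hr hr1
  obtain ⟨l, hl⟩ : ∃ l : e1 ⟶ t.st, l = l1 ≫ m := ⟨_, rfl⟩
  rw [← hl] at hr2
  have hbase : l ≫ t.ar ≫ hf c0 f0 = l2 ≫ xi.ar := by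
    rw [← h1, hl, Category.assoc]
  have hr3 : f.r (l ≫ t.ar ≫ hf c0 f0) (xi.val.res l2) (t.val.res l) := by
    have h3 : l1 ≫ m ≫ t.ar ≫ hf c0 f0 = l ≫ t.ar ≫ hf c0 f0 := by rw [hl, Category.assoc]
    rw [← h3]
    exact hr2
  clear hr2 h1 h2
  -- full restriction along `l`
  let D1 : Cond P := ⟨pul l.1 e1.q, e1.h.pul l.1⟩
  let i1 : D1 ⟶ t.st := ⟨1, by rw [psh_one]; exact psh_subset_iff_pul.1 l.2⟩
  obtain ⟨D, i2, F, hi2, hNP, hFp⟩ := hN.two D1 (t.val.res i1) t.ar.1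
  have hD1 : pul l.1 e1.q ⊆ D.q := by
    have := i2.2
    rwa [hi2, psh_one] at this
  have he : IsCond (e1.q ∪ psh l.1 D.q) := by
    refine e1.h.union (D.h.psh l.1) fun s b h1 h2 => ?_
    obtain ⟨r, hr, rfl⟩ := mem_psh.1 h2
    exact D.h.con r b (hD1 h1) hr
  let e : Cond P := ⟨e1.q ∪ psh l.1 D.q, he⟩
  have hDe : D.q = pul l.1 e.q := by
    apply Set.Subset.antisymm
    · exact psh_subset_iff_pul.1 Set.subset_union_right
    · rintro ⟨r, b⟩ h
      rw [mem_pul] at h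
      rcases h with h | h
      · exact hD1 h
      · rwa [mul_mem_psh] at h
  have hl2e : psh l2.1 xi.st.q ⊆ e.q := l2.2.trans Set.subset_union_left
  have hbase1 : l2.1 * xi.ar.1 = l.1 * (t.ar.1 * f0) := (congrArg Subtype.val hbase).symm
  -- the surjection above `e`
  have hfr : ∀ (w : Cond P) (l' : w ⟶ D) (l2' : w ⟶ xi.st), l'.1 = l.1 → l2'.1 = l2.1 →
      e.q ⊆ w.q → f.r (l' ≫ (i2 ≫ i1) ≫ t.ar ≫ hf c0 f0) (xi.val.res l2')
        ((t.val.res (i2 ≫ i1)).res l') := by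
    intro w l' l2' hl' hl2' hw
    let j : w ⟶ e1 := ⟨1, by rw [psh_one]; exact Set.subset_union_left.trans hw⟩
    have h1 := f.mono _ j _ _ hr3
    rw [Val.res_res, Val.res_res] at h1
    have h2 : j ≫ l2 = l2' := Subtype.ext (by rw [comp_val, hl2']; exact one_mul _)
    have h3 : j ≫ l = l' ≫ i2 ≫ i1 := Subtype.ext (by
      rw [comp_val, comp_val, comp_val, hl', hi2]
      show 1 * l.1 = l.1 * (1 * 1)
      simp)
    rw [h2, h3] at h1
    rw [Val.res_res]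
    have h4 : l' ≫ (i2 ≫ i1) ≫ t.ar ≫ hf c0 f0 = j ≫ l ≫ t.ar ≫ hf c0 f0 := by
      rw [← Category.assoc, ← h3, Category.assoc]
    rw [h4]
    exact h1
  -- compatibility of generic copies
  have hcomp : ∀ η : P, η * xi.ar.1 = t.ar.1 * f0 →
      (∀ x, η * x ∈ Prod.fst '' D.q → (t.ar.1 * f0) ∣ η * x) →
      IsCond (D.q ∪ psh η xi.st.q) := by
    intro η hη hgen
    refine D.h.union (xi.st.h.psh η) fun s b h1 h2 => ?_
    obtain ⟨r, hr, rfl⟩ := mem_psh.1 h2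
    obtain ⟨v, hv⟩ := hgen r ⟨_, h1, rfl⟩
    have h3 : r = xi.ar.1 * v := by
      apply IsGood.lc η
      rw [hv, ← hη, mul_assoc]
    have h4 : (l2.1 * r, Lab.neg b) ∈ e.q := hl2e (mem_psh.2 ⟨r, hr, rfl⟩)
    have h5 : l2.1 * r = l.1 * (η * r) := by
      rw [hv, h3, ← mul_assoc, hbase1, mul_assoc]
    rw [h5] at h4
    have h6 : (l.1 * (η * r), b) ∈ e.q := by
      have : (η * r, b) ∈ pul l.1 e.q := hDe ▸ h1
      exact this
    exact e.h.con _ _ h6 h4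
  have hsm : Small.{0} (Prod.fst '' D.q) := by
    have := D.h.small
    infer_instance
  have hb1 : t.ar.1 * f0 ≠ 1 := by
    intro h
    have h1 := IsGood.unit _ _ h
    rw [h1, one_mul] at h
    exact hf0 h
  by_cases hT : TypeA xi
  · -- type A
    obtain ⟨η, hη, hgen⟩ := hG xi.ar.1 (t.ar.1 * f0) _ hsm hb1
    have hc := hcomp η hη hgen
    let d'' : Cond P := ⟨D.q ∪ psh η xi.st.q, hc⟩
    let i3 : d'' ⟶ D := ⟨1, by rw [psh_one]; exact Set.subset_union_left⟩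
    let et : d'' ⟶ xi.st := ⟨η, Set.subset_union_right⟩
    let e'' : Cond P := ⟨e.q ∪ psh l.1 d''.q, isCond_push e.h hDe hc⟩
    let l'' : e'' ⟶ d'' := ⟨l.1, Set.subset_union_right⟩
    have hpar : (t.rs (i3 ≫ i2 ≫ i1)).ar.1 = t.ar.1 := by
      show (1 * (i2.1 * 1)) * t.ar.1 = t.ar.1
      rw [hi2]; simp
    have heta : et ≫ xi.ar = (t.rs (i3 ≫ i2 ≫ i1)).ar ≫ hf c0 f0 := by
      apply Subtype.ext
      show η * xi.ar.1 = (t.rs (i3 ≫ i2 ≫ i1)).ar.1 * f0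
      rw [hpar, hη]
    have hloc : f.r (𝟙 d'' ≫ (i3 ≫ i2 ≫ i1) ≫ t.ar ≫ hf c0 f0) (xi.val.res (𝟙 d'' ≫ et))
        ((t.val.res (i3 ≫ i2 ≫ i1)).res (𝟙 d'')) := by
      refine local' hA l'' (pul_push hDe) (fun w g =>
        f.r (g ≫ (i3 ≫ i2 ≫ i1) ≫ t.ar ≫ hf c0 f0) (xi.val.res (g ≫ et))
          ((t.val.res (i3 ≫ i2 ≫ i1)).res g)) ?_ ?_ ?_
      · intro w w' h g H
        have := f.mono _ g _ _ H
        simp only [Val.res_res, Category.assoc] at this ⊢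
        exact this
      · intro w h H
        refine f.dense _ _ _ fun w1 g => ?_
        obtain ⟨w2, m', H'⟩ := H w1 g
        refine ⟨w2, m', ?_⟩
        simp only [Val.res_res, Category.assoc] at H' ⊢
        exact H'
      · have h1 := hfr e'' (l'' ≫ i3) ⟨l2.1, hl2e.trans Set.subset_union_left⟩
          (by show l.1 * 1 = l.1; rw [mul_one]) rfl Set.subset_union_left
        have h2 := hT e'' ⟨l2.1, hl2e.trans Set.subset_union_left⟩ (l'' ≫ et) (by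
          apply Subtype.ext
          show l2.1 * xi.ar.1 = (l.1 * η) * xi.ar.1
          rw [mul_assoc, hη, hbase1])
        have h3 := f.congr _ _ _ _ _ h2 (Eq'.refl _) h1
        simp only [Val.res_res, Category.assoc] at h3 ⊢
        exact h3
    refine ⟨⟨t.rs (i3 ≫ i2 ≫ i1), xi, hxi, et, heta, Or.inl ⟨hT, ?_⟩⟩, d'', i3 ≫ i2 ≫ i1, rfl⟩
    rw [Pt.val_rs]
    simp only [Category.id_comp, Val.res_id] at hloc
    have hassoc : (t.rs (i3 ≫ i2 ≫ i1)).ar ≫ hf c0 f0 = (i3 ≫ i2 ≫ i1) ≫ t.ar ≫ hf c0 f0 :=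
      Category.assoc _ _ _
    rw [hassoc]
    exact hloc
  · -- type B
    obtain ⟨ha1, -⟩ := typeB (hA1 _ hxi) hT
    obtain ⟨β0, hβ0⟩ := L.ev F xi.ar.1 t.ar.1 _ hsm ha1 hFp
    obtain ⟨hgood, hgen⟩ := hβ0 (st ((D, t.ar.1, e, l.1, l2.1), β0)) (hst _)
    obtain ⟨η, hηdef⟩ : ∃ η, η = L.Let (st ((D, t.ar.1, e, l.1, l2.1), β0)) F xi.ar.1 t.ar.1 :=
      ⟨_, rfl⟩
    rw [← hηdef] at hgen
    have hη : η * xi.ar.1 = t.ar.1 * f0 := by rw [hηdef]; exact L.rel _ _ _ _ hgood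
    have hc := hcomp η hη hgen
    let d'' : Cond P := ⟨D.q ∪ psh η xi.st.q, hc⟩
    let i3 : d'' ⟶ D := ⟨1, by rw [psh_one]; exact Set.subset_union_left⟩
    let et : d'' ⟶ xi.st := ⟨η, Set.subset_union_right⟩
    have hpar : (t.rs (i3 ≫ i2 ≫ i1)).ar.1 = t.ar.1 := by
      show (1 * (i2.1 * 1)) * t.ar.1 = t.ar.1
      rw [hi2]; simp
    have heta : et ≫ xi.ar = (t.rs (i3 ≫ i2 ≫ i1)).ar ≫ hf c0 f0 := by
      apply Subtype.ext
      show η * xi.ar.1 = (t.rs (i3 ≫ i2 ≫ i1)).ar.1 * f0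
      rw [hpar, hη]
    refine ⟨⟨t.rs (i3 ≫ i2 ≫ i1), xi, hxi, et, heta, Or.inr ⟨hT, F, D, e, l.1, l2.1, β0,
      ?_, ?_, ?_, rfl, isCond_push e.h hDe hc, hl2e, ?_, ?_⟩⟩, d'', i3 ≫ i2 ≫ i1, rfl⟩
    · rw [hpar, Pt.val_rs]
      have h1 := hNP.mono i3 rfl
      simp only [Val.res_res] at h1
      exact h1
    · rw [hpar]; exact hηdef
    · rw [hpar]; exact hgood
    · rw [hpar]; exact hbase1
    · intro w l' l2' hl' hl2' hw
      rw [Pt.val_rs]
      have h1 := hfr w (l' ≫ i3) l2' (by rw [comp_val, hl']; show l.1 * 1 = l.1; rw [mul_one]) hl2' hw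
      simp only [Val.res_res, Category.assoc] at h1 ⊢
      exact h1

end main

end Crest.Agent.R296.PPcx564
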