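import Crest.Agent.R296.Norm_153
import Crest.Agent.R296.PPc_564
import Crest.Agent.R296.Loc_929
import Crest.Agent.R296.Code_365

/-!
Row 296 (S0448), helper365.  **The hypotheses of `PPc_564` from `Kit P A`** (all except the letters).
-/

set_option autoImplicit false

open CategoryTheory

namespace Crest.Agent.R296.Hypx365

open Crest.Agent.R296.IfAx378 Crest.Agent.R296.CondCx153 Crest.Agent.R296.CatFx365
open Crest.Agent.R296.LctStx153 Crest.Agent.R296.PPcx564

variable {P : Type 1} [Monoid P] {A : Ordinal.{0} → Submonoid P}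

theorem genL (K : Kit P A) : Locx929.GenS P := fun a b S h1 h2 h3 h4 => K.gen a b S h2 h3 h1 h4

theorem letL (K : Kit P A) : Locx929.LetS P := K.letr

theorem gen' (K : Kit P A) : Gen' P := by
  intro a b S hS hb
  have := K.good
  by_cases ha : a = 1
  · exact ⟨b, by rw [ha, mul_one], fun x _ => ⟨x, rfl⟩⟩
  obtain ⟨k, hk, hd⟩ := K.letr {b} inferInstance (by simpa using fun h => hb h.symm)
  have h1 : Small.{0} ((S ∪ {k}) \ {1} : Set P) := by
    have : Small.{0} (S ∪ {k} : Set P) := inferInstance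
    exact small_subset Set.sdiff_subset
  obtain ⟨y, hy, hg⟩ := K.gen a b ((S ∪ {k}) \ {1}) ha hb h1 (by simp)
  have hy1 : y ≠ 1 := by
    rintro rfl
    obtain ⟨r, hr⟩ := hg k ⟨Or.inr rfl, by simpa using hk⟩ k (by rw [one_mul])
    rw [one_mul] at hr
    exact hd b rfl 1 r (by rw [mul_one]; exact hr)
  refine ⟨y, hy, fun x hx => hg (y * x) ⟨Or.inl hx, ?_⟩ x dvd_rfl⟩
  intro h
  exact hy1 (IsGood.unit _ _ h)

theorem amal [IsGood P] (K : Kit P A) : Amal P := by
  intro e d e1 l j hl
  obtain ⟨e2, m, m', h⟩ := Locx929.am (genL K) (letL K) l (fun s b h => hl h) j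
  exact ⟨e2, m', m, h.symm⟩

theorem normHyp [IsGood P] (K : Kit P A) : NormHyp P where
  one q x := by
    obtain ⟨q2, h, H⟩ := Normx153.norm1 K x
    refine ⟨q2, incl h, rfl, ?_⟩
    rcases H with H | ⟨F, H⟩
    · exact Or.inl H
    · exact Or.inr ⟨F, H⟩
  two q y p := by
    obtain ⟨q2, h, F, H1, H2⟩ := Normx153.norm2 K p y
    exact ⟨q2, incl h, F, rfl, H1, H2⟩

theorem codeHyp (K : Kit P A) : CodeHyp P := Codex365.exists_code K

end Crest.Agent.R296.Hypx365
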