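import Crest.Agent.R296.IfA_378

/-!
# Row 296, leaf A-S1, second part: instances of `LAct`

* `free`   : all letters free
* `tri`    : the triangle on `Fin 3` (`κ 0 = k`, `κ 1 = h1`, `κ 2 = h2`); one condition pair covers the
             triangle and the degenerate triangle (`tri_cond`, `triD_cond`)
* `chain`  : letters `e_m`, `m` in a linear order, `e_n f_{mn} = e_m`
* `map`    : transport along an injection `J → J'` (the other letters free)
* `bc`     : base change along a conservative embedding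
* `glueS`  : disjoint union of a family, letters `Σ i, J i`
-/

set_option autoImplicit false

universe u v w v' u'

namespace Crest.Agent.R296.LActsx531

open IfAx378

variable {P : Type u} [Monoid P]

/-- all letters free and pairwise disjoint -/
def free (P : Type u) [Monoid P] (J : Type v) : LAct P J where
  r j x j' x' := j = j' ∧ x = x'
  refl _ _ := ⟨rfl, rfl⟩
  symm _ _ _ _ h := ⟨h.1.symm, h.2.symm⟩
  trans _ _ _ _ _ _ h h' := ⟨h.1.trans h'.1, h.2.trans h'.2⟩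
  act _ _ _ _ _ h := ⟨h.1, by rw [h.2]⟩
  free _ _ _ h := h.2
  lcm j x j' x' h := by
    obtain ⟨h1, _⟩ := h
    exact ⟨1, 1, ⟨h1, rfl⟩, fun z z' hz => ⟨z, (one_mul _).symm, by rw [one_mul, hz.2]⟩⟩

/-- transport along an injection; letters outside the image are free -/
def map {J : Type v} {J' : Type v'} (e : J → J') (he : Function.Injective e) (A : LAct P J) :
    LAct P J' where
  r j x j' x' := (∃ i i', e i = j ∧ e i' = j' ∧ A.r i x i' x') ∨ (j = j' ∧ x = x')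
  refl _ _ := Or.inr ⟨rfl, rfl⟩
  symm _ _ _ _ h := by
    rcases h with ⟨i, i', h1, h2, h3⟩ | ⟨h1, h2⟩
    · exact Or.inl ⟨i', i, h2, h1, A.symm _ _ _ _ h3⟩
    · exact Or.inr ⟨h1.symm, h2.symm⟩
  trans _ _ _ _ _ _ h h' := by
    rcases h with ⟨i, i', h1, h2, h3⟩ | ⟨h1, h2⟩
    · rcases h' with ⟨k, k', g1, g2, g3⟩ | ⟨g1, g2⟩
      · have : i' = k := he (h2.trans g1.symm)
        subst this
        exact Or.inl ⟨i, k', h1, g2, A.trans _ _ _ _ _ _ h3 g3⟩
      · subst g1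
        subst g2
        exact Or.inl ⟨i, i', h1, h2, h3⟩
    · subst h1
      subst h2
      exact h'
  act _ _ _ _ p h := by
    rcases h with ⟨i, i', h1, h2, h3⟩ | ⟨h1, h2⟩
    · exact Or.inl ⟨i, i', h1, h2, A.act _ _ _ _ p h3⟩
    · exact Or.inr ⟨h1, by rw [h2]⟩
  free _ _ _ h := by
    rcases h with ⟨i, i', h1, h2, h3⟩ | ⟨_, h2⟩
    · have : i = i' := he (h1.trans h2.symm)
      subst this
      exact A.free _ _ _ h3
    · exact h2
  lcm j x j' x' h := by
    by_cases hj : j = j'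
    · subst hj
      refine ⟨1, 1, Or.inr ⟨rfl, rfl⟩, fun z z' hz => ⟨z, (one_mul _).symm, ?_⟩⟩
      rw [one_mul]
      rcases hz with ⟨i, i', h1, h2, h3⟩ | ⟨_, h2⟩
      · have : i = i' := he (h1.trans h2.symm)
        subst this
        exact (A.free _ _ _ h3).symm
      · exact h2.symm
    · rcases h with ⟨i, i', h1, h2, h3⟩ | ⟨h1, _⟩
      · obtain ⟨y, y', g1, g2⟩ := A.lcm _ _ _ _ h3
        refine ⟨y, y', Or.inl ⟨i, i', h1, h2, g1⟩, fun z z' hz => ?_⟩
        rcases hz with ⟨k, k', f1, f2, f3⟩ | ⟨f1, _⟩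
        · have e1 : i = k := he (h1.trans f1.symm)
          have e2 : i' = k' := he (h2.trans f2.symm)
          subst e1
          subst e2
          exact g2 _ _ f3
        · exact absurd f1 hj
      · exact absurd h1 hj

theorem map_r {J : Type v} {J' : Type v'} (e : J → J') (he : Function.Injective e) (A : LAct P J)
    (j : J) (x : P) (j' : J) (x' : P) :
    (map e he A).r (e j) x (e j') x' ↔ A.r j x j' x' := by
  constructor
  · rintro (⟨i, i', h1, h2, h3⟩ | ⟨h1, h2⟩)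
    · rw [← he h1, ← he h2]
      exact h3
    · rw [he h1, h2]
      exact A.refl _ _
  · intro h
    exact Or.inl ⟨j, j', rfl, rfl, h⟩

/-- disjoint union of a family of LCM acts -/
def glueS {I : Type w} {J : I → Type v} (A : ∀ i, LAct P (J i)) : LAct P (Σ i, J i) where
  r s x s' x' := ∃ h : s.1 = s'.1, (A s'.1).r (h ▸ s.2) x s'.2 x'
  refl s x := ⟨rfl, (A s.1).refl _ _⟩
  symm := by
    rintro ⟨i, j⟩ x ⟨i', j'⟩ x' ⟨h, h'⟩
    dsimp only at h h' ⊢
    subst h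
    exact ⟨rfl, (A i).symm _ _ _ _ h'⟩
  trans := by
    rintro ⟨i, j⟩ x ⟨i', j'⟩ x' ⟨i'', j''⟩ x'' ⟨h, h'⟩ ⟨g, g'⟩
    dsimp only at h h' g g' ⊢
    subst h
    subst g
    exact ⟨rfl, (A i).trans _ _ _ _ _ _ h' g'⟩
  act := by
    rintro ⟨i, j⟩ x ⟨i', j'⟩ x' p ⟨h, h'⟩
    dsimp only at h h' ⊢
    subst h
    exact ⟨rfl, (A i).act _ _ _ _ p h'⟩
  free := by
    rintro ⟨i, j⟩ x x' ⟨h, h'⟩
    exact (A i).free _ _ _ h'
  lcm := by
    rintro ⟨i, j⟩ x ⟨i', j'⟩ x' ⟨h, h'⟩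
    dsimp only at h h' ⊢
    subst h
    obtain ⟨y, y', g1, g2⟩ := (A i).lcm _ _ _ _ h'
    exact ⟨y, y', ⟨rfl, g1⟩, fun z z' hz => g2 _ _ hz.2⟩

theorem glueS_r {I : Type w} {J : I → Type v} (A : ∀ i, LAct P (J i)) (i : I) (j : J i) (x : P)
    (j' : J i) (x' : P) : (glueS A).r ⟨i, j⟩ x ⟨i, j'⟩ x' ↔ (A i).r j x j' x' :=
  ⟨fun h => h.2, fun h => ⟨rfl, h⟩⟩

/-- base change along a conservative embedding -/
def bc {P' : Type u'} [Monoid P'] {ι : P →* P'} (hι : Cons ι) [IsGood P'] {J : Type v}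
    (A : LAct P J) : LAct P' J where
  r j x j' x' := (∃ y y' t, A.r j y j' y' ∧ x = ι y * t ∧ x' = ι y' * t) ∨ (j = j' ∧ x = x')
  refl _ _ := Or.inr ⟨rfl, rfl⟩
  symm _ _ _ _ h := by
    rcases h with ⟨y, y', t, h1, h2, h3⟩ | ⟨h1, h2⟩
    · exact Or.inl ⟨y', y, t, A.symm _ _ _ _ h1, h3, h2⟩
    · exact Or.inr ⟨h1.symm, h2.symm⟩
  trans _ _ _ _ _ _ h h' := by
    rcases h with ⟨y, y', t, h1, h2, h3⟩ | ⟨h1, h2⟩
    · rcases h' with ⟨z, z', s, g1, g2, g3⟩ | ⟨g1, g2⟩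
      · obtain ⟨a, b, q, e1, e2, e3⟩ := hι.amal y' z t s (h3.symm.trans g2)
        refine Or.inl ⟨y * a, z' * b, q, ?_, ?_, ?_⟩
        · have f1 := A.act _ _ _ _ a h1
          have f2 := A.act _ _ _ _ b g1
          rw [← e1] at f2
          exact A.trans _ _ _ _ _ _ f1 f2
        · rw [h2, e2, map_mul, mul_assoc]
        · rw [g3, e3, map_mul, mul_assoc]
      · subst g1
        subst g2
        exact Or.inl ⟨y, y', t, h1, h2, h3⟩
    · subst h1
      subst h2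
      exact h'
  act _ _ _ _ p h := by
    rcases h with ⟨y, y', t, h1, h2, h3⟩ | ⟨h1, h2⟩
    · exact Or.inl ⟨y, y', t * p, h1, by rw [h2, mul_assoc], by rw [h3, mul_assoc]⟩
    · exact Or.inr ⟨h1, by rw [h2]⟩
  free _ _ _ h := by
    rcases h with ⟨y, y', t, h1, h2, h3⟩ | ⟨_, h2⟩
    · rw [h2, h3, A.free _ _ _ h1]
    · exact h2
  lcm j x j' x' h := by
    by_cases hj : j = j'
    · subst hj
      refine ⟨1, 1, Or.inr ⟨rfl, rfl⟩, fun z z' hz => ⟨z, (one_mul _).symm, ?_⟩⟩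
      rw [one_mul]
      rcases hz with ⟨y, y', t, h1, h2, h3⟩ | ⟨_, h2⟩
      · rw [h2, h3, A.free _ _ _ h1]
      · exact h2.symm
    · rcases h with ⟨y, y', t, h1, h2, h3⟩ | ⟨h1, _⟩
      · obtain ⟨y0, y0', g1, g2⟩ := A.lcm _ _ _ _ h1
        refine ⟨ι y0, ι y0', Or.inl ⟨y0, y0', 1, g1, (mul_one _).symm, (mul_one _).symm⟩, ?_⟩
        intro z z' hz
        rcases hz with ⟨w, w', s, f1, f2, f3⟩ | ⟨f1, _⟩
        · obtain ⟨q, q1, q2⟩ := g2 _ _ f1
          exact ⟨ι q * s, by rw [f2, q1, map_mul, mul_assoc], by rw [f3, q2, map_mul, mul_assoc]⟩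
        · exact absurd f1 hj
      · exact absurd h1 hj

/-- base change does not change the relations over `P` -/
theorem bc_r {P' : Type u'} [Monoid P'] {ι : P →* P'} (hι : Cons ι) [IsGood P'] {J : Type v}
    (A : LAct P J) (j : J) (x : P) (j' : J) (x' : P) :
    (bc hι A).r j (ι x) j' (ι x') ↔ A.r j x j' x' := by
  constructor
  · rintro (⟨y, y', t, h1, h2, h3⟩ | ⟨h1, h2⟩)
    · -- `t` comes from `P`
      have h2' : ι y * t = ι x * 1 := by rw [mul_one]; exact h2.symm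
      obtain ⟨a, b, q, e1, e2, e3⟩ := hι.amal y x t 1 h2'
      have hb : ι b = 1 := IsGood.unit _ _ e3.symm
      have hq : q = 1 := by
        rw [hb, one_mul] at e3
        exact e3.symm
      have hta : t = ι a := by rw [e2, hq, mul_one]
      subst hta
      rw [← map_mul] at h2 h3
      rw [hι.inj h2, hι.inj h3]
      exact A.act _ _ _ _ _ h1
    · subst h1
      rw [hι.inj h2]
      exact A.refl _ _
  · intro h
    exact Or.inl ⟨x, x', 1, h, (mul_one _).symm, (mul_one _).symm⟩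

/-! ### triangles -/

/-- conditions for a triangle `h1 c = k g`, `h2 c = k g'`, `h1 c' = h2 c'` -/
structure TriC (c c' g g' : P) : Prop where
  C1 : ∀ r s : P, c * r = c' * s → g * r = g' * r
  C2 : ∀ r s : P, g * r = g' * s → r = s ∧ ∃ t, c * r = c' * t

theorem tri_cond {c c' x x' g g' : P} (h : IsLcm c c' x x') (h' : IsLcm g g' x x) :
    TriC c c' g g' where
  C1 := by
    intro r s e
    obtain ⟨t, e1, _⟩ := h.2 r s e
    rw [e1, ← mul_assoc, ← mul_assoc, h'.1]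
  C2 := by
    intro r s e
    obtain ⟨t, e1, e2⟩ := h'.2 r s e
    refine ⟨e1.trans e2.symm, x' * t, ?_⟩
    rw [e1, ← mul_assoc, ← mul_assoc, h.1]

theorem triD_cond {c c' g g' : P} (h : Disj c c') (h' : Disj g g') : TriC c c' g g' where
  C1 := fun r s e => absurd e (h r s)
  C2 := fun r s e => absurd e (h' r s)

/-- the relation of the triangle: `0 = k`, `1 = h1`, `2 = h2` -/
def triR (c c' g g' : P) : Fin 3 → P → Fin 3 → P → Prop
  | 0, a, 0, b => a = b
  | 1, a, 1, b => a = b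
  | 2, a, 2, b => a = b
  | 0, a, 1, b => ∃ r, a = g * r ∧ b = c * r
  | 1, a, 0, b => ∃ r, b = g * r ∧ a = c * r
  | 0, a, 2, b => ∃ r, a = g' * r ∧ b = c * r
  | 2, a, 0, b => ∃ r, b = g' * r ∧ a = c * r
  | 1, a, 2, b => ∃ r, a = c' * r ∧ b = c' * r
  | 2, a, 1, b => ∃ r, b = c' * r ∧ a = c' * r

theorem triR_trans (hP : IsGood P) {c c' g g' : P} (D : TriC c c' g g') :
    ∀ (i : Fin 3) (a : P) (j : Fin 3) (b : P) (k : Fin 3) (d : P),
      triR c c' g g' i a j b → triR c c' g g' j b k d → triR c c' g g' i a k d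
  | 0, _, 0, _, _, _, h, h' => by
    have h : _ = _ := h
    subst h
    exact h'
  | 1, _, 1, _, _, _, h, h' => by
    have h : _ = _ := h
    subst h
    exact h'
  | 2, _, 2, _, _, _, h, h' => by
    have h : _ = _ := h
    subst h
    exact h'
  | 0, _, 1, _, 1, _, h, h' => by
    have h' : _ = _ := h'
    subst h'
    exact h
  | 0, _, 2, _, 2, _, h, h' => by
    have h' : _ = _ := h'
    subst h'
    exact h
  | 1, _, 0, _, 0, _, h, h' => by
    have h' : _ = _ := h'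
    subst h'
    exact h
  | 1, _, 2, _, 2, _, h, h' => by
    have h' : _ = _ := h'
    subst h'
    exact h
  | 2, _, 0, _, 0, _, h, h' => by
    have h' : _ = _ := h'
    subst h'
    exact h
  | 2, _, 1, _, 1, _, h, h' => by
    have h' : _ = _ := h'
    subst h'
    exact h
  | 0, _, 1, _, 0, _, ⟨r, e1, e2⟩, ⟨s, f1, f2⟩ => by
    have := hP.lc _ _ _ (e2.symm.trans f2)
    subst this
    exact e1.trans f1.symm
  | 0, _, 2, _, 0, _, ⟨r, e1, e2⟩, ⟨s, f1, f2⟩ => by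
    have := hP.lc _ _ _ (e2.symm.trans f2)
    subst this
    exact e1.trans f1.symm
  | 1, _, 0, _, 1, _, ⟨r, e1, e2⟩, ⟨s, f1, f2⟩ => by
    have := hP.lc _ _ _ (e1.symm.trans f1)
    subst this
    exact e2.trans f2.symm
  | 2, _, 0, _, 2, _, ⟨r, e1, e2⟩, ⟨s, f1, f2⟩ => by
    have := hP.lc _ _ _ (e1.symm.trans f1)
    subst this
    exact e2.trans f2.symm
  | 1, _, 2, _, 1, _, ⟨r, e1, e2⟩, ⟨s, f1, f2⟩ => by
    have := hP.lc _ _ _ (e2.symm.trans f2)
    subst this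
    exact e1.trans f1.symm
  | 2, _, 1, _, 2, _, ⟨r, e1, e2⟩, ⟨s, f1, f2⟩ => by
    have := hP.lc _ _ _ (e1.symm.trans f1)
    subst this
    exact e2.trans f2.symm
  | 0, _, 1, _, 2, _, ⟨r, e1, e2⟩, ⟨s, f1, f2⟩ =>
    ⟨r, e1.trans (D.C1 r s (e2.symm.trans f1)), f2.trans (f1.symm.trans e2)⟩
  | 0, _, 2, _, 1, _, ⟨r, e1, e2⟩, ⟨s, f1, f2⟩ =>
    ⟨r, e1.trans (D.C1 r s (e2.symm.trans f2)).symm, f1.trans (f2.symm.trans e2)⟩
  | 1, _, 0, _, 2, _, ⟨r, e1, e2⟩, ⟨s, f1, f2⟩ => by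
    obtain ⟨h3, t, h4⟩ := D.C2 r s (e1.symm.trans f1)
    subst h3
    exact ⟨t, e2.trans h4, f2.trans h4⟩
  | 2, _, 0, _, 1, _, ⟨r, e1, e2⟩, ⟨s, f1, f2⟩ => by
    obtain ⟨h3, t, h4⟩ := D.C2 s r (f1.symm.trans e1)
    subst h3
    exact ⟨t, f2.trans h4, e2.trans h4⟩
  | 1, _, 2, _, 0, _, ⟨r, e1, e2⟩, ⟨s, f1, f2⟩ =>
    ⟨s, f1.trans (D.C1 s r (f2.symm.trans e2)).symm, e1.trans (e2.symm.trans f2)⟩
  | 2, _, 1, _, 0, _, ⟨r, e1, e2⟩, ⟨s, f1, f2⟩ =>
    ⟨s, f1.trans (D.C1 s r (f2.symm.trans e1)), e2.trans (e1.symm.trans f2)⟩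

/-- the triangle act on `Fin 3`: `0 = k`, `1 = h1`, `2 = h2` -/
def tri (hP : IsGood P) {c c' g g' : P} (D : TriC c c' g g') : LAct P (Fin 3) where
  r := triR c c' g g'
  refl := by
    intro i a
    fin_cases i <;> exact Eq.refl a
  symm := by
    intro i a j b h
    fin_cases i <;> fin_cases j <;> first
      | exact Eq.symm h
      | exact h
  trans := triR_trans hP D
  act := by
    intro i a j b p h
    fin_cases i <;> fin_cases j <;>
      first
      | exact congrArg (· * p) (show a = b from h)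
      | (obtain ⟨r, e1, e2⟩ := h
         exact ⟨r * p, by rw [e1, mul_assoc], by rw [e2, mul_assoc]⟩)
  free := by
    intro i a b h
    fin_cases i <;> exact h
  lcm := by
    intro i a j b h
    fin_cases i <;> fin_cases j <;>
      first
      | exact ⟨1, 1, Eq.refl (1 : P), fun a' b' (h' : a' = b') =>
          ⟨a', (one_mul _).symm, by rw [one_mul, h']⟩⟩
      | exact ⟨g, c, ⟨1, (mul_one _).symm, (mul_one _).symm⟩, fun a' b' h' => h'⟩
      | exact ⟨g', c, ⟨1, (mul_one _).symm, (mul_one _).symm⟩, fun a' b' h' => h'⟩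
      | exact ⟨c', c', ⟨1, (mul_one _).symm, (mul_one _).symm⟩, fun a' b' h' => h'⟩
      | exact ⟨c, g, ⟨1, (mul_one _).symm, (mul_one _).symm⟩,
          fun a' b' ⟨r, h1, h2⟩ => ⟨r, h2, h1⟩⟩
      | exact ⟨c, g', ⟨1, (mul_one _).symm, (mul_one _).symm⟩,
          fun a' b' ⟨r, h1, h2⟩ => ⟨r, h2, h1⟩⟩
      | exact ⟨c', c', ⟨1, (mul_one _).symm, (mul_one _).symm⟩,
          fun a' b' ⟨r, h1, h2⟩ => ⟨r, h2, h1⟩⟩

/-- `h1 c = k g` -/
theorem tri_10 (hP : IsGood P) {c c' g g' : P} (D : TriC c c' g g') : (tri hP D).r 1 c 0 g :=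
  ⟨1, (mul_one _).symm, (mul_one _).symm⟩

/-- `h2 c = k g'` -/
theorem tri_20 (hP : IsGood P) {c c' g g' : P} (D : TriC c c' g g') : (tri hP D).r 2 c 0 g' :=
  ⟨1, (mul_one _).symm, (mul_one _).symm⟩

/-- `h1 c' = h2 c'` -/
theorem tri_12 (hP : IsGood P) {c c' g g' : P} (D : TriC c c' g g') : (tri hP D).r 1 c' 2 c' :=
  ⟨1, (mul_one _).symm, (mul_one _).symm⟩

/-! ### chains -/

/-- letters `e_m`, `m : J`, with `e_n f_{mn} = e_m` for `m ≤ n` -/
def chain (hP : IsGood P) {J : Type v} [LinearOrder J] (f : J → J → P) (h1 : ∀ m, f m m = 1)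
    (h2 : ∀ m n q, m ≤ n → n ≤ q → f n q * f m n = f m q) : LAct P J where
  r m x n x' := (m ≤ n ∧ x' = f m n * x) ∨ (n ≤ m ∧ x = f n m * x')
  refl m x := Or.inl ⟨le_rfl, by rw [h1, one_mul]⟩
  symm m x n x' h := h.symm
  trans m x n x' q x'' h h' := by
    rcases h with ⟨a1, a2⟩ | ⟨a1, a2⟩
    · rcases h' with ⟨b1, b2⟩ | ⟨b1, b2⟩
      · left
        exact ⟨a1.trans b1, by rw [b2, a2, ← mul_assoc, h2 _ _ _ a1 b1]⟩
      · rcases le_total m q with hmq | hmq
        · left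
          refine ⟨hmq, ?_⟩
          have e : f q n * x'' = f q n * (f m q * x) := by
            rw [← b2, a2, ← mul_assoc, h2 _ _ _ hmq b1]
          exact hP.lc _ _ _ e
        · right
          refine ⟨hmq, ?_⟩
          have e : f m n * x = f m n * (f q m * x'') := by
            rw [← a2, b2, ← mul_assoc, h2 _ _ _ hmq a1]
          exact hP.lc _ _ _ e
    · rcases h' with ⟨b1, b2⟩ | ⟨b1, b2⟩
      · rcases le_total m q with hmq | hmq
        · left
          exact ⟨hmq, by rw [b2, a2, ← mul_assoc, h2 _ _ _ a1 hmq]⟩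
        · right
          exact ⟨hmq, by rw [b2, a2, ← mul_assoc, h2 _ _ _ b1 hmq]⟩
      · right
        exact ⟨b1.trans a1, by rw [a2, b2, ← mul_assoc, h2 _ _ _ b1 a1]⟩
  act m x n x' p h := by
    rcases h with ⟨a1, a2⟩ | ⟨a1, a2⟩
    · exact Or.inl ⟨a1, by rw [a2, mul_assoc]⟩
    · exact Or.inr ⟨a1, by rw [a2, mul_assoc]⟩
  free m x x' h := by
    rcases h with ⟨_, a2⟩ | ⟨_, a2⟩
    · rw [a2, h1, one_mul]
    · rw [a2, h1, one_mul]
  lcm m x n x' h := by
    rcases le_total m n with hmn | hmn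
    · refine ⟨1, f m n, Or.inl ⟨hmn, (mul_one _).symm⟩, fun z z' hz => ⟨z, (one_mul _).symm, ?_⟩⟩
      rcases hz with ⟨_, a2⟩ | ⟨a1, a2⟩
      · exact a2
      · have e : m = n := le_antisymm hmn a1
        subst e
        rw [a2, h1, one_mul, one_mul]
    · refine ⟨f n m, 1, Or.inr ⟨hmn, (mul_one _).symm⟩, fun z z' hz => ⟨z', ?_, (one_mul _).symm⟩⟩
      rcases hz with ⟨a1, a2⟩ | ⟨_, a2⟩
      · have e : m = n := le_antisymm a1 hmn
        subst e
        rw [a2, h1, one_mul, one_mul]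
      · exact a2

theorem chain_r (hP : IsGood P) {J : Type v} [LinearOrder J] (f : J → J → P)
    (h1 : ∀ m, f m m = 1) (h2 : ∀ m n q, m ≤ n → n ≤ q → f n q * f m n = f m q) {m n : J}
    (h : m ≤ n) : (chain hP f h1 h2).r n (f m n) m 1 :=
  Or.inr ⟨h, (mul_one _).symm⟩

end Crest.Agent.R296.LActsx531
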