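import Crest.Agent.R296.CatOps_365

/-!
Row 296 (S0448), helper478.  **Least-choice functions in `V^(C)`** (any small category `C`).

A family of generators over `c0`: `D κ ⟶ c0`, values `u κ`, `v κ` at `D κ`.  `gv G` is the name of the set
of all pairs `(r* u κ, r* v κ)` for which `κ` is the least key hitting `r* u κ` (in every extension).

* `gv_fun`   : functional, if for ONE `κ` equality of bases and first entries implies equality of values;
* `gv_inj`   : injective, if for all `κ, κ'` equality of bases and values implies equality of first entries;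
* `gv_total` : total on the values which are densely hit.
-/

set_option autoImplicit false

namespace Crest.Agent.R296.LCx478

open CategoryTheory
open Crest.Agent.R296.CatFx365 Crest.Agent.R296.CatOpsx365

universe u

variable {C : Type u} [Category.{u} C]

/-! ### ordered pairs -/

lemma pv_res {d d' : C} (x y : Val C d) (h : d' ⟶ d) :
    Eq' ((pv x y).res h) (pv (x.res h) (y.res h)) := by
  refine ext' fun d1 l z => ?_
  rw [Val.res_res, mem_pv, mem_pv]
  simp only [Val.res_res, Category.assoc]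

lemma mem_pv_left {d : C} (x y : Val C d) : Mem' x (pv x y) := by
  have := (mem_pv x y (𝟙 d) x).2 fun d1 l => ⟨d1, 𝟙 d1, Or.inl (by simpa using Eq'.refl _)⟩
  simpa using this

lemma mem_pv_right {d : C} (x y : Val C d) : Mem' y (pv x y) := by
  have := (mem_pv x y (𝟙 d) y).2 fun d1 l => ⟨d1, 𝟙 d1, Or.inr (by simpa using Eq'.refl _)⟩
  simpa using this

lemma mem_pv' {d : C} {x y z : Val C d} (H : Mem' z (pv x y)) (d1 : C) (l : d1 ⟶ d) :
    ∃ (d2 : C) (m : d2 ⟶ d1), Eq' (z.res (m ≫ l)) (x.res (m ≫ l)) ∨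
      Eq' (z.res (m ≫ l)) (y.res (m ≫ l)) := by
  have := (mem_pv x y (𝟙 d) z).1 (by simpa using H) d1 l
  simpa using this

lemma pv_congr {d : C} {x x' y y' : Val C d} (hx : Eq' x x') (hy : Eq' y y') :
    Eq' (pv x y) (pv x' y') := by
  refine ext' fun d1 l z => ?_
  rw [mem_pv, mem_pv]
  refine forall_congr' fun d2 => forall_congr' fun m => exists_congr fun d3 => exists_congr fun m' => ?_
  constructor
  · rintro (h | h)
    · exact Or.inl (h.trans (hx.res _))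
    · exact Or.inr (h.trans (hy.res _))
  · rintro (h | h)
    · exact Or.inl (h.trans (hx.res _).symm)
    · exact Or.inr (h.trans (hy.res _).symm)

/-- Kuratowski pair -/
def opv {d : C} (x y : Val C d) : Val C d := pv (pv x x) (pv x y)

lemma opv_res {d d' : C} (x y : Val C d) (h : d' ⟶ d) :
    Eq' ((opv x y).res h) (opv (x.res h) (y.res h)) :=
  (pv_res _ _ h).trans (pv_congr (pv_res _ _ h) (pv_res _ _ h))

lemma opv_congr {d : C} {x x' y y' : Val C d} (hx : Eq' x x') (hy : Eq' y y') :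
    Eq' (opv x y) (opv x' y') := pv_congr (pv_congr hx hx) (pv_congr hx hy)

lemma sing_inj {d : C} {x y : Val C d} (H : Mem' y (pv x x)) : Eq' y x :=
  Eq'.of_dense fun d1 l => by
    obtain ⟨d2, m, h | h⟩ := mem_pv' H d1 l
    · exact ⟨d2, m, h⟩
    · exact ⟨d2, m, h⟩

lemma opv_inj_left {d : C} {x x' y y' : Val C d} (H : Eq' (opv x y) (opv x' y')) : Eq' x x' := by
  refine Eq'.of_dense fun d1 l => ?_
  have h1 : Mem' (pv x x) (opv x' y') := Mem'.congr_right H (mem_pv_left _ _)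
  obtain ⟨d2, m, h | h⟩ := mem_pv' h1 d1 l
  · refine ⟨d2, m, ?_⟩
    have h2 : Mem' (x'.res (m ≫ l)) (pv (x.res (m ≫ l)) (x.res (m ≫ l))) := by
      refine Mem'.congr_right ((h.symm).trans (pv_res _ _ _)) ?_
      exact (mem_pv_left x' x').res _
    exact (sing_inj h2).symm
  · refine ⟨d2, m, ?_⟩
    have h2 : Mem' (x'.res (m ≫ l)) (pv (x.res (m ≫ l)) (x.res (m ≫ l))) := by
      refine Mem'.congr_right ((h.symm).trans (pv_res _ _ _)) ?_
      exact (mem_pv_left x' y').res _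
    exact (sing_inj h2).symm

lemma opv_aux {d : C} {x y x' y' : Val C d} (hx : Eq' x x')
    (h : Eq' (pv x y) (pv x' x') ∨ Eq' (pv x y) (pv x' y'))
    (h' : Eq' (pv x' y') (pv x x) ∨ Eq' (pv x' y') (pv x y)) :
    ∃ (d' : C) (m : d' ⟶ d), Eq' (y.res m) (y'.res m) := by
  rcases h with h | h
  · have k1 : Eq' y x' := sing_inj (Mem'.congr_right h (mem_pv_right _ _))
    rcases h' with h' | h'
    · have k2 : Eq' y' x := sing_inj (Mem'.congr_right h' (mem_pv_right _ _))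
      exact ⟨d, 𝟙 d, ((k1.trans hx.symm).trans k2.symm).res _⟩
    · obtain ⟨d2, m, k | k⟩ := mem_pv' (Mem'.congr_right h' (mem_pv_right _ _)) d (𝟙 d)
      · exact ⟨d2, m ≫ 𝟙 d, ((k1.trans hx.symm).res _).trans k.symm⟩
      · exact ⟨d2, m ≫ 𝟙 d, k.symm⟩
  · obtain ⟨d2, m, k | k⟩ := mem_pv' (Mem'.congr_right h.symm (mem_pv_right _ _)) d (𝟙 d)
    · obtain ⟨d3, m', k' | k'⟩ := mem_pv' (Mem'.congr_right h (mem_pv_right _ _)) d2 (m ≫ 𝟙 d)
      · refine ⟨d3, m' ≫ m ≫ 𝟙 d, k'.trans ?_⟩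
        have k2 := k.res m'
        rw [Val.res_res, Val.res_res] at k2
        exact (k2.trans (hx.res _)).symm
      · exact ⟨d3, m' ≫ m ≫ 𝟙 d, k'⟩
    · exact ⟨d2, m ≫ 𝟙 d, k.symm⟩

/-- **second entries of equal ordered pairs are equal** -/
lemma opv_inj_right {d : C} {x x' y y' : Val C d} (H : Eq' (opv x y) (opv x' y')) : Eq' y y' := by
  have hx : Eq' x x' := opv_inj_left H
  refine Eq'.of_dense fun d1 l => ?_
  have e1 : Mem' (pv x y) (opv x' y') := Mem'.congr_right H (mem_pv_right _ _)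
  have e2 : Mem' (pv x' y') (opv x y) := Mem'.congr_right H.symm (mem_pv_right _ _)
  obtain ⟨d2, m, h⟩ := mem_pv' e1 d1 l
  obtain ⟨d3, m', h'⟩ := mem_pv' e2 d2 (m ≫ l)
  have key : ∃ (d' : C) (k : d' ⟶ d3), Eq' ((y.res (m' ≫ m ≫ l)).res k)
      ((y'.res (m' ≫ m ≫ l)).res k) := by
    refine opv_aux (hx.res (m' ≫ m ≫ l)) ?_ ?_
    · rcases h with h | h
      · left
        have := h.res m'
        rw [Val.res_res, Val.res_res] at this
        exact ((pv_res _ _ _).symm.trans this).trans (pv_res _ _ _)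
      · right
        have := h.res m'
        rw [Val.res_res, Val.res_res] at this
        exact ((pv_res _ _ _).symm.trans this).trans (pv_res _ _ _)
    · rcases h' with h' | h'
      · left
        exact ((pv_res _ _ _).symm.trans h').trans (pv_res _ _ _)
      · right
        exact ((pv_res _ _ _).symm.trans h').trans (pv_res _ _ _)
  obtain ⟨d4, k, h4⟩ := key
  refine ⟨d4, k ≫ m' ≫ m, ?_⟩
  simpa using h4

/-! ### generators -/

/-- a small family of generators over `c0` -/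
structure Gens (c0 : C) where
  K : Type u
  D : K → C
  e : ∀ κ, D κ ⟶ c0
  u : ∀ κ, Val C (D κ)
  v : ∀ κ, Val C (D κ)

variable {c0 : C} (G : Gens c0)

/-- an arbitrary well-order of the keys -/
noncomputable instance : LinearOrder G.K :=
  @linearOrderOfSTO G.K WellOrderingRel _ (Classical.decRel _)

instance : WellFoundedLT G.K :=
  ⟨show WellFounded (WellOrderingRel (α := G.K)) from (WellOrderingRel.isWellOrder).wf⟩

/-- `κ` is the least key hitting `r* u κ`, in every extension -/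
def Least (κ : G.K) {d : C} (r : d ⟶ G.D κ) : Prop :=
  ∀ (d' : C) (m : d' ⟶ d) (κ' : G.K) (r' : d' ⟶ G.D κ'), κ' < κ →
    r' ≫ G.e κ' = (m ≫ r) ≫ G.e κ → ¬ Eq' ((G.u κ).res (m ≫ r)) ((G.u κ').res r')

lemma Least.res {κ : G.K} {d : C} {r : d ⟶ G.D κ} (H : Least G κ r) {d' : C} (m : d' ⟶ d) :
    Least G κ (m ≫ r) := by
  intro d'' m' κ' r' h1 h2 h3
  refine H d'' (m' ≫ m) κ' r' h1 (by simpa using h2) (by simpa using h3)

/-- the graph of the least-choice function -/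
def gv : Val C c0 :=
  mkv (Σ (κ : G.K) (d : C), {r : d ⟶ G.D κ // Least G κ r}) (fun t => t.2.1)
    (fun t => t.2.2.1 ≫ G.e t.1) (fun t => opv ((G.u t.1).res t.2.2.1) ((G.v t.1).res t.2.2.1))

/-- `(y, v)` is densely given by a least key -/
lemma mem_gv {d : C} (h : d ⟶ c0) (y v : Val C d) : Mem' (opv y v) ((gv G).res h) ↔
    ∀ (d1 : C) (l : d1 ⟶ d), ∃ (d2 : C) (m : d2 ⟶ d1) (κ : G.K) (r : d2 ⟶ G.D κ),
      Least G κ r ∧ r ≫ G.e κ = (m ≫ l) ≫ h ∧ Eq' (y.res (m ≫ l)) ((G.u κ).res r) ∧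
        Eq' (v.res (m ≫ l)) ((G.v κ).res r) := by
  rw [gv, mem_mkv]
  constructor
  · intro H d1 l
    obtain ⟨d2, m, ⟨κ, d', r, hr⟩, k, h1, h2⟩ := H d1 l
    have h3 := ((opv_res y v (m ≫ l)).symm.trans h2).trans (opv_res _ _ k)
    refine ⟨d2, m, κ, k ≫ r, Least.res G hr k, ?_, ?_, ?_⟩
    · rw [h1]; simp
    · simpa using opv_inj_left h3
    · simpa using opv_inj_right h3
  · intro H d1 l
    obtain ⟨d2, m, κ, r, hr, h1, h2, h3⟩ := H d1 l
    refine ⟨d2, m, ⟨κ, d2, r, hr⟩, 𝟙 d2, ?_, ?_⟩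
    · rw [Category.id_comp, h1]
    · rw [Val.res_id]
      exact (opv_res _ _ _).trans (opv_congr h2 h3)

/-- the graph is functional if each single key is -/
lemma gv_fun (H2 : ∀ (κ : G.K) (d : C) (r r' : d ⟶ G.D κ), r ≫ G.e κ = r' ≫ G.e κ →
      Eq' ((G.u κ).res r) ((G.u κ).res r') → Eq' ((G.v κ).res r) ((G.v κ).res r'))
    {d : C} (h : d ⟶ c0) (y v v' : Val C d) (H : Mem' (opv y v) ((gv G).res h))
    (H' : Mem' (opv y v') ((gv G).res h)) : Eq' v v' := by
  rw [mem_gv] at H H'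
  refine Eq'.of_dense fun d1 l => ?_
  obtain ⟨d2, m, κ, r, h1, h2, h3, h4⟩ := H d1 l
  obtain ⟨d3, m', κ', r', h1', h2', h3', h4'⟩ := H' d2 (m ≫ l)
  have k3 := h3.res m'
  have k4 := h4.res m'
  rw [Val.res_res, Val.res_res] at k3 k4
  have h1m := Least.res G h1 m'
  have h2m : (m' ≫ r) ≫ G.e κ = (m' ≫ m ≫ l) ≫ h := by
    rw [Category.assoc, h2]; simp
  rcases lt_trichotomy κ κ' with hlt | heq | hgt
  · refine absurd ?_ (h1' d3 (𝟙 d3) κ (m' ≫ r) hlt (by rw [Category.id_comp, h2m, h2']))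
    rw [Category.id_comp]
    exact h3'.symm.trans k3
  · subst heq
    refine ⟨d3, m' ≫ m, ?_⟩
    have k5 := H2 κ d3 (m' ≫ r) r' (by rw [h2m, h2']) (k3.symm.trans h3')
    have k6 := (k4.trans k5).trans h4'.symm
    simpa using k6
  · refine absurd ?_ (h1m d3 (𝟙 d3) κ' r' hgt (by rw [Category.id_comp, h2m, h2']))
    rw [Category.id_comp]
    exact k3.symm.trans h3'

/-- the graph is injective -/
lemma gv_inj (H3 : ∀ (κ κ' : G.K) (d : C) (r : d ⟶ G.D κ) (r' : d ⟶ G.D κ'),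
      r ≫ G.e κ = r' ≫ G.e κ' → Eq' ((G.v κ).res r) ((G.v κ').res r') →
      Eq' ((G.u κ).res r) ((G.u κ').res r'))
    {d : C} (h : d ⟶ c0) (y y' v : Val C d) (H : Mem' (opv y v) ((gv G).res h))
    (H' : Mem' (opv y' v) ((gv G).res h)) : Eq' y y' := by
  rw [mem_gv] at H H'
  refine Eq'.of_dense fun d1 l => ?_
  obtain ⟨d2, m, κ, r, h1, h2, h3, h4⟩ := H d1 l
  obtain ⟨d3, m', κ', r', h1', h2', h3', h4'⟩ := H' d2 (m ≫ l)
  have k3 := h3.res m'
  have k4 := h4.res m'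
  rw [Val.res_res, Val.res_res] at k3 k4
  have h2m : (m' ≫ r) ≫ G.e κ = (m' ≫ m ≫ l) ≫ h := by
    rw [Category.assoc, h2]; simp
  refine ⟨d3, m' ≫ m, ?_⟩
  have k5 := H3 κ κ' d3 (m' ≫ r) r' (by rw [h2m, h2']) (k4.symm.trans h4')
  have k6 := (k3.trans k5).trans h3'.symm
  simpa using k6

/-- a key hitting `y` at the base `h` -/
def Hit {d : C} (h : d ⟶ c0) (y : Val C d) (κ : G.K) (r : d ⟶ G.D κ) : Prop :=
  r ≫ G.e κ = h ∧ Eq' y ((G.u κ).res r)

/-- if some extension is hit, then some extension is hit by a least key -/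
lemma exists_least {d : C} (h : d ⟶ c0) (y : Val C d)
    (H : ∃ (d' : C) (m : d' ⟶ d) (κ : G.K) (r : d' ⟶ G.D κ), Hit G (m ≫ h) (y.res m) κ r) :
    ∃ (d' : C) (m : d' ⟶ d) (κ : G.K) (r : d' ⟶ G.D κ), Hit G (m ≫ h) (y.res m) κ r ∧
      Least G κ r := by
  let S : Set G.K := {κ | ∃ (d' : C) (m : d' ⟶ d) (r : d' ⟶ G.D κ), Hit G (m ≫ h) (y.res m) κ r}
  have hS : S.Nonempty := by
    obtain ⟨d', m, κ, r, h'⟩ := H
    exact ⟨κ, d', m, r, h'⟩
  obtain ⟨d', m, r, h1, h2⟩ := (wellFounded_lt.min_mem S hS : _ ∈ S)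
  refine ⟨d', m, wellFounded_lt.min S hS, r, ⟨h1, h2⟩, ?_⟩
  intro d'' m' κ' r' hlt h3 h4
  refine wellFounded_lt.not_lt_min S ?_ hlt
  refine ⟨d'', m' ≫ m, r', ?_, ?_⟩
  · rw [h3, Category.assoc, h1, Category.assoc]
  · have := (h2.res m').trans (by rw [Val.res_res]; exact h4)
    simpa using this

/-- the graph is total on the values which are densely hit -/
lemma gv_total {d : C} (h : d ⟶ c0) (y : Val C d)
    (H : ∀ (d1 : C) (l : d1 ⟶ d), ∃ (d' : C) (m : d' ⟶ d1) (κ : G.K) (r : d' ⟶ G.D κ),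
      Hit G ((m ≫ l) ≫ h) (y.res (m ≫ l)) κ r) (d1 : C) (l : d1 ⟶ d) :
    ∃ (d2 : C) (m : d2 ⟶ d1) (κ : G.K) (r : d2 ⟶ G.D κ), Hit G ((m ≫ l) ≫ h) (y.res (m ≫ l)) κ r ∧
      Least G κ r ∧ Mem' (opv (y.res (m ≫ l)) ((G.v κ).res r)) ((gv G).res ((m ≫ l) ≫ h)) := by
  obtain ⟨d2, m, κ, r, h1, h2⟩ := exists_least G (l ≫ h) (y.res l) (by
    obtain ⟨d', m, κ, r, h'⟩ := H d1 l
    exact ⟨d', m, κ, r, by simpa [Hit] using h'⟩)
  refine ⟨d2, m, κ, r, by simpa [Hit] using h1, h2, ?_⟩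
  rw [mem_gv]
  intro d3 n
  refine ⟨d3, 𝟙 d3, κ, n ≫ r, Least.res G h2 n, ?_, ?_, ?_⟩
  · rw [Category.assoc, h1.1]; simp
  · have := h1.2.res n
    simpa using this
  · simpa using Eq'.refl _

end Crest.Agent.R296.LCx478
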