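import Crest.Agent.R296.Lct_153

/-!
# Row 296 (S0448), block C (helper153): PROOF of the labelled classification theorem, part 2

filter of supports, stability, rigid labels, `lct : Kit P A → LCT P`.
-/

set_option autoImplicit false
set_option linter.unusedSectionVars false
set_option linter.unusedVariables false

open CategoryTheory

namespace Crest.Agent.R296.Lctx153

open Crest.Agent.R296.IfAx378 Crest.Agent.R296.CondCx153 Crest.Agent.R296.CatFx365
  Crest.Agent.R296.LctStx153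

variable {P : Type 1} [Monoid P] [IsGood P] {A : Ordinal.{0} → Submonoid P}

/-! ### every filter is generated by some `A α` -/

theorem gen_some (K : Kit P A) (F : Filt P) : ∃ α, GenByA P A F α := by
  classical
  choose st hst using K.exh
  -- witness
  have hw : ∀ w : P, ∃ s, (∃ u ∈ F.S, ¬ u ∣ w) → s ∈ F.S ∧ ¬ s ∣ w := fun w => by
    by_cases h : ∃ u ∈ F.S, ¬ u ∣ w
    · obtain ⟨u, h1, h2⟩ := h
      exact ⟨u, fun _ => ⟨h1, h2⟩⟩
    · exact ⟨1, fun h' => absurd h' h⟩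
  choose wi hwi using hw
  have hg : ∀ α : Ordinal.{0}, ∃ β, α < β ∧ ∀ w ∈ A α, st (wi w) ≤ β := fun α => by
    have := K.small α
    obtain ⟨γ, hγ⟩ := Ordinal.bddAbove_of_small (s := (fun w => st (wi w)) '' (A α : Set P))
    exact ⟨max (Order.succ α) γ, lt_max_of_lt_left (Order.lt_succ α),
      fun w hw => le_max_of_le_right (hγ ⟨w, hw, rfl⟩)⟩
  choose g hg1 hg2 using hg
  let a : ℕ → Ordinal.{0} := fun n => g^[n] 0
  have ha : ∀ n, a n < a (n + 1) := fun n => by
    simp only [a, Function.iterate_succ_apply']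
    exact hg1 _
  have hbd : BddAbove (Set.range a) := Ordinal.bddAbove_of_small
  let α := ⨆ n, a n
  have hle : ∀ n, a n < α := fun n => lt_of_lt_of_le (ha n) (le_ciSup hbd (n + 1))
  have hlim : Order.IsSuccLimit α := by
    refine ⟨?_, ?_⟩
    · rw [isMin_iff_eq_bot]
      exact (lt_of_le_of_lt bot_le (hle 0)).ne'
    · intro b hb
      have hb1 : b < α := hb.lt
      obtain ⟨n, hn⟩ := exists_lt_of_lt_ciSup hb1
      exact hb.2 hn (hle n)
  refine ⟨α, K.cap F α fun w hw hin s hs => ?_⟩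
  by_contra hcon
  obtain ⟨γ, hγ, hwγ⟩ := K.lim α hlim w hw
  obtain ⟨n, hn⟩ := exists_lt_of_lt_ciSup hγ
  have h1 := hwi w ⟨s, hs, hcon⟩
  have h2 : st (wi w) ≤ a (n + 1) := by
    simp only [a, Function.iterate_succ_apply']
    exact hg2 _ w (K.mono hn.le hwγ)
  exact h1.2 (hin _ (K.mono ((h2.trans_lt (hle _)).le) (hst _)) h1.1)

section loc
variable {q1 : Cond P} (E : LocRel q1)

/-- supports are closed under intersection -/
theorem good_dir (K : Kit P A) (hnt : ∀ q, IsCond q → q1.q ⊆ q → ¬ Tot E q) {q : Set (P × Lab)}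
    (hq : IsCond q) (hq1 : q1.q ⊆ q) {u1 u2 : P} (h1 : Good E q u1) (h2 : Good E q u2) :
    ∃ m, Good E q m ∧ u1 ∣ m ∧ u2 ∣ m := by
  by_cases e1 : u1 = 1
  · exact ⟨u2, h2, by rw [e1]; exact one_dvd _, dvd_rfl⟩
  by_cases e2 : u2 = 1
  · exact ⟨u1, h1, dvd_rfl, by rw [e2]; exact one_dvd _⟩
  obtain ⟨k, hk, _⟩ := K.letr ∅ inferInstance (by simp)
  have hw0 := hq.psh k
  obtain ⟨g1, hg1, hg11, hS1, hc1⟩ := partner K hw0 hq e1 (b := k * u1) (left_ne_one hk) {k}
    inferInstance (fun y l hy => by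
      rw [mul_assoc, mul_mem_psh]
      exact hq.con _ _ hy)
  have hS1' := hS1 k rfl hk
  obtain ⟨g2, hg2, hg21, hS2, hc2⟩ := partner K hc1 hq e2 (b := g1 * u2) (left_ne_one hg11) {k, g1}
    inferInstance (fun y l hy hy' => by
      refine hc1.con _ _ (Or.inr ?_) hy'
      rw [mul_assoc, mul_mem_psh]
      exact hy)
  have hS2' := hS2 k (Or.inl rfl) hk
  let w2 : Cond P := ⟨_, hc2⟩
  have sk : psh k q ⊆ w2.q := fun x hx => Or.inl (Or.inl hx)
  have sg1 : psh g1 q ⊆ w2.q := fun x hx => Or.inl (Or.inr hx)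
  have sg2 : psh g2 q ⊆ w2.q := fun x hx => Or.inr hx
  let ak : w2 ⟶ q1 := ar w2 k q hq1 sk
  let a1 : w2 ⟶ q1 := ar w2 g1 q hq1 sg1
  let a2 : w2 ⟶ q1 := ar w2 g2 q hq1 sg2
  have E1 : E.E w2 ak a1 := h1 w2 ak a1 sk sg1 hg1.symm
  have E2 : E.E w2 a1 a2 := h2 w2 a1 a2 sg1 sg2 hg2.symm
  have E3 := E.trans _ _ _ _ E1 E2
  -- chain of factorizations
  have key : ∀ s t, k * s = g2 * t → ∃ r, s = u1 * r ∧ t = u1 * r ∧ ∃ r', t = u2 * r' := by
    intro s t hst
    obtain ⟨r, hr⟩ := hS2' t ⟨s, hst.symm⟩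
    have ht : t = u2 * r := by
      apply lc (a := g2)
      rw [hr, ← hg2, mul_assoc]
    have h5 : k * s = g1 * (u2 * r) := by rw [hst, hr, mul_assoc]
    obtain ⟨r', hr'⟩ := hS1' (u2 * r) ⟨s, h5.symm⟩
    have h6 : u2 * r = u1 * r' := by
      apply lc (a := g1)
      rw [hr', ← hg1, mul_assoc]
    refine ⟨r', ?_, by rw [ht, h6], r, ht⟩
    apply lc (a := k)
    rw [h5, hr', mul_assoc]
  have hpul : pul k w2.q ⊆ q := by
    rintro ⟨s, l⟩ hs
    rcases hs with (hs | hs) | hs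
    · exact mul_mem_psh.1 hs
    · obtain ⟨t, ht, hst⟩ := mem_psh.1 hs
      have hst' : k * s = g1 * t := hst
      obtain ⟨r, hr⟩ := hS1' t ⟨s, hst'.symm⟩
      have h6 : t = u1 * r := by
        apply lc (a := g1)
        rw [hr, ← hg1, mul_assoc]
      have h7 : s = t := by
        rw [h6]
        apply lc (a := k)
        rw [hst', hr, mul_assoc]
      rw [h7]
      exact ht
    · obtain ⟨t, ht, hst⟩ := mem_psh.1 hs
      obtain ⟨r, h6, h7, _⟩ := key s t hst
      rw [h6, ← h7]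
      exact ht
  rcases lcm_or_disj k g2 with hd | ⟨u, v, hl⟩
  · exact absurd (tot_of_disj E K E3 hd) (hnt _ (w2.h.pul _) (arrow_sub ak))
  · obtain ⟨r, h6, h7, r', h8⟩ := key u v hl.1
    refine ⟨u, (claim1 E K E3 hl).mono E hpul, ⟨r, h6⟩, r', ?_⟩
    rw [h6, ← h7]
    exact h8

/-- the filter of supports -/
def FQ (K : Kit P A) (hnt : ∀ q, IsCond q → q1.q ⊆ q → ¬ Tot E q) (q : Set (P × Lab))
    (hq : IsCond q) (hq1 : q1.q ⊆ q) : Filt P where
  S := {u | Good E q u}
  one := good_one E q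
  up x s h hs := Good.up E h hs
  dir s t hs ht := by
    obtain ⟨m, h1, h2, h3⟩ := good_dir E K hnt hq hq1 hs ht
    exact ⟨m, h1, h2, h3⟩

/-! ### stability -/

/-- transfinite iteration -/
noncomputable def chain (step : Set (P × Lab) → Set (P × Lab)) (i : Ordinal.{0}) :
    Set (P × Lab) := step (⋃ j : Set.Iio i, chain step j.1)
termination_by i
decreasing_by exact j.2

theorem chain_eq (step : Set (P × Lab) → Set (P × Lab)) (i : Ordinal.{0}) :
    chain step i = step (⋃ j : Set.Iio i, chain step j.1) := by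
  rw [chain]

theorem exists_stable (K : Kit P A) (hnt : ∀ q, IsCond q → q1.q ⊆ q → ¬ Tot E q) :
    ∃ q, IsCond q ∧ q1.q ⊆ q ∧ ∀ q', IsCond q' → q ⊆ q' → ∀ u, Good E q' u → Good E q u := by
  classical
  by_contra hcon
  push Not at hcon
  -- strictly increasing
  have hstep : ∀ q, ∃ q', (IsCond q ∧ q1.q ⊆ q) →
      (IsCond q' ∧ q ⊆ q' ∧ ∃ u, Good E q' u ∧ ¬ Good E q u) := fun q => by
    by_cases h : IsCond q ∧ q1.q ⊆ q
    · obtain ⟨q', h1, h2, u, h3, h4⟩ := hcon q h.1 h.2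
      exact ⟨q', fun _ => ⟨h1, h2, u, h3, h4⟩⟩
    · exact ⟨∅, fun h' => absurd h' h⟩
  choose st hst using hstep
  let step : Set (P × Lab) → Set (P × Lab) := fun q => st (q1.q ∪ q)
  let c : Ordinal.{0} → Set (P × Lab) := chain step
  let U : Ordinal.{0} → Set (P × Lab) := fun i => q1.q ∪ ⋃ j : Set.Iio i, c j.1
  have hc : ∀ i, c i = st (U i) := fun i => by
    show chain step i = _
    rw [chain_eq]
  have main : ∀ i, IsCond (U i) ∧ (IsCond (c i) ∧ U i ⊆ c i ∧ ∃ u, Good E (c i) u ∧ ¬ Good E (U i) u) := by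
    intro i
    induction i using WellFoundedLT.induction with
    | _ i ih =>
      have hU : IsCond (U i) := by
        have hdir : ∀ a b : Set.Iio i, ∃ k : Set.Iio i, c a.1 ⊆ c k.1 ∧ c b.1 ⊆ c k.1 := by
          have aux : ∀ a b : Set.Iio i, a.1 ≤ b.1 → c a.1 ⊆ c b.1 := by
            intro a b hab
            rcases hab.eq_or_lt with h | h
            · rw [h]
            · refine Set.Subset.trans ?_ (ih b.1 b.2).2.2.1
              intro x hx
              exact Or.inr (Set.mem_iUnion.2 ⟨⟨a.1, h⟩, hx⟩)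
          intro a b
          rcases le_total a.1 b.1 with h | h
          · exact ⟨b, aux a b h, subset_rfl⟩
          · exact ⟨a, subset_rfl, aux b a h⟩
        have hV : IsCond (⋃ j : Set.Iio i, c j.1) := isCond_iUnion (fun j => (ih j.1 j.2).2.1) hdir
        refine q1.h.union hV fun s l h1 h2 => ?_
        obtain ⟨j, hj⟩ := Set.mem_iUnion.1 h2
        exact (ih j.1 j.2).2.1.con _ _ ((ih j.1 j.2).2.2.1 (Or.inl h1)) hj
      refine ⟨hU, ?_⟩
      rw [hc]
      exact hst _ ⟨hU, Set.subset_union_left⟩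
  have hmono : ∀ i j, i ≤ j → c i ⊆ c j := by
    intro i j hij
    rcases hij.eq_or_lt with h | h
    · rw [h]
    · refine Set.Subset.trans ?_ (main j).2.2.1
      intro x hx
      exact Or.inr (Set.mem_iUnion.2 ⟨⟨i, h⟩, hx⟩)
  have hq1c : ∀ i, q1.q ⊆ c i := fun i => Set.subset_union_left.trans (main i).2.2.1
  -- the union filter
  let F : Filt P :=
    { S := {u | ∃ i, Good E (c i) u}
      one := ⟨0, good_one E _⟩
      up := fun x s h ⟨i, hi⟩ => ⟨i, Good.up E h hi⟩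
      dir := by
        rintro s t ⟨i, hi⟩ ⟨j, hj⟩
        obtain ⟨m, h1, h2, h3⟩ := good_dir E K hnt (main (max i j)).2.1 (hq1c _)
          (hi.mono E (hmono _ _ (le_max_left i j))) (hj.mono E (hmono _ _ (le_max_right i j)))
        exact ⟨m, ⟨_, h1⟩, h2, h3⟩ }
  obtain ⟨α, hα⟩ := gen_some K F
  have hsm := K.small α
  have hpick : ∀ m : P, ∃ i, m ∈ F.S → Good E (c i) m := fun m => by
    by_cases h : m ∈ F.S
    · obtain ⟨i, hi⟩ := h
      exact ⟨i, fun _ => hi⟩
    · exact ⟨0, fun h' => absurd h' h⟩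
  choose ix hix using hpick
  obtain ⟨γ, hγ⟩ := Ordinal.bddAbove_of_small (s := ix '' (A α : Set P))
  obtain ⟨u, h1, h2⟩ := (main (Order.succ γ)).2.2.2
  apply h2
  obtain ⟨m, hm1, hm2, hm3⟩ := hα u ⟨_, h1⟩
  have h3 : Good E (c γ) m := (hix m hm2).mono E (hmono _ _ (hγ ⟨m, hm1, rfl⟩))
  refine (Good.up E hm3 h3).mono E ?_
  intro x hx
  exact Or.inr (Set.mem_iUnion.2 ⟨⟨γ, Order.lt_succ γ⟩, hx⟩)

end loc

end Crest.Agent.R296.Lctx153
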