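import Crest.Agent.R296.Lct2_153

/-!
# Row 296 (S0448), block C (helper153): PROOF of the labelled classification theorem, part 3

rigid labels, `lct : Kit P A → LCT P`.
-/

set_option autoImplicit false
set_option linter.unusedSectionVars false
set_option linter.unusedVariables false

open CategoryTheory

namespace Crest.Agent.R296.Lctx153

open Crest.Agent.R296.IfAx378 Crest.Agent.R296.CondCx153 Crest.Agent.R296.CatFx365
  Crest.Agent.R296.LctStx153

universe u

variable {P : Type 1} [Monoid P] [IsGood P] {A : Ordinal.{0} → Submonoid P}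

/-- a small type injects into the ordinals above `μ` -/
theorem small_inj (ι : Type*) [Small.{0} ι] (μ : Ordinal.{0}) :
    ∃ f : ι → Ordinal.{0}, Function.Injective f ∧ ∀ i, μ ≤ f i := by
  refine ⟨fun i => μ + Ordinal.typein (WellOrderingRel (α := Shrink.{0} ι)) (equivShrink ι i), ?_,
    fun i => le_self_add⟩
  intro i j hij
  have h1 := (add_right_injective μ).eq_iff.1 hij
  have h2 := (Ordinal.typein_injective _).eq_iff.1 h1
  exact (equivShrink ι).injective h2

/-- **rigid labels**: a condition above `q` whose labels separate all pairs of points of a small set -/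
theorem rigid {q : Set (P × Lab)} (hq : IsCond q) (X : Set P) (hX : Small.{0} X) :
    ∃ q', IsCond q' ∧ q ⊆ q' ∧ ∀ x ∈ X, ∀ y ∈ X, x ≠ y →
      ∃ l : Lab, (x, l) ∈ q' ∧ (y, Lab.neg l) ∈ q' := by
  have hs := hq.small
  obtain ⟨μ, hμ⟩ := Ordinal.bddAbove_of_small (s := (fun z : P × Lab => z.2.1) '' q)
  let I := {a : X × X // a.1 ≠ a.2}
  obtain ⟨f, hf, hfμ⟩ := small_inj I (Order.succ μ)
  let N : Set (P × Lab) := Set.range (fun a : I => ((a.1.1 : P), ((f a, false) : Lab))) ∪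
    Set.range (fun a : I => ((a.1.2 : P), ((f a, true) : Lab)))
  have hN : IsCond N := by
    refine ⟨small_union _ _, fun s l h1 h2 => ?_⟩
    rcases h1 with ⟨a, ha⟩ | ⟨a, ha⟩ <;> rcases h2 with ⟨b, hb⟩ | ⟨b, hb⟩ <;>
      simp only [Prod.mk.injEq] at ha hb
    · rw [← ha.2] at hb
      simp [Lab.neg] at hb
    · have h3 := hb.2
      rw [← ha.2] at h3
      simp only [Lab.neg, Bool.not_false, Prod.mk.injEq, and_true] at h3
      have h4 := hf h3
      subst h4
      exact b.2 (Subtype.ext (ha.1.trans hb.1.symm))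
    · have h3 := hb.2
      rw [← ha.2] at h3
      simp only [Lab.neg, Bool.not_true, Prod.mk.injEq, and_true] at h3
      have h4 := hf h3
      subst h4
      exact b.2 (Subtype.ext (hb.1.trans ha.1.symm))
    · rw [← ha.2] at hb
      simp [Lab.neg] at hb
  refine ⟨q ∪ N, hq.union hN fun s l h1 h2 => ?_, Set.subset_union_left, fun x hx y hy hxy => ?_⟩
  · have h3 : l.1 ≤ μ := hμ ⟨_, h1, rfl⟩
    rcases h2 with ⟨a, ha⟩ | ⟨a, ha⟩ <;> simp only [Prod.mk.injEq] at ha
    · have h4 : f a = l.1 := by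
        have := congrArg Prod.fst ha.2
        simpa [Lab.neg] using this
      have h5 := hfμ a
      rw [h4] at h5
      exact absurd (Order.succ_le_iff.1 h5) (not_lt.2 h3)
    · have h4 : f a = l.1 := by
        have := congrArg Prod.fst ha.2
        simpa [Lab.neg] using this
      have h5 := hfμ a
      rw [h4] at h5
      exact absurd (Order.succ_le_iff.1 h5) (not_lt.2 h3)
  · let a : I := ⟨(⟨x, hx⟩, ⟨y, hy⟩), fun h => hxy (congrArg Subtype.val h)⟩
    refine ⟨(f a, false), Or.inr (Or.inl ⟨a, rfl⟩), Or.inr (Or.inr ⟨a, rfl⟩)⟩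

section loc
variable {q1 : Cond P} (E : LocRel q1)

/-- `θ = g⁻¹ f` maps supports to supports -/
theorem germ_pres (K : Kit P A) {q : Set (P × Lab)} (hq : IsCond q) (hq1 : q1.q ⊆ q)
    (hst : ∀ q', IsCond q' → q ⊆ q' → ∀ u, Good E q' u → Good E q u)
    {w : Cond P} {f g : w ⟶ q1} (hf : psh f.1 q ⊆ w.q) (hg : psh g.1 q ⊆ w.q) (hf1 : f.1 ≠ 1)
    (hg1 : g.1 ≠ 1) (hE : E.E w f g) {u v : P} (hl : IsLcm f.1 g.1 u v) (hv : Good E q v) {t : P}
    (ht : Good E q (u * t)) : Good E q (v * t) := by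
  by_cases hut : u * t = 1
  · have h1 : t = 1 := by
      have h2 : u = 1 := IsGood.unit _ _ hut
      rw [h2, one_mul] at hut
      exact hut
    rw [h1, mul_one]
    exact hv
  obtain ⟨z, hz, hz1, hS, hc⟩ := partner K w.h hq hut (b := f.1 * (u * t)) (left_ne_one hf1)
    {g.1} inferInstance (fun y l hy => by
      have h1 := psh_subset.1 hf _ _ hy
      rw [← mul_assoc] at h1
      exact w.h.con _ _ h1)
  have hS' := hS g.1 rfl hg1
  let w1 : Cond P := ⟨_, hc⟩
  have sz : psh z q ⊆ w1.q := fun x hx => Or.inr hx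
  let a : w1 ⟶ w := ⟨1, by rw [psh_one]; exact fun x hx => Or.inl hx⟩
  let b : w1 ⟶ q1 := ar w1 z q hq1 sz
  have hww : w.q ⊆ w1.q := fun x hx => Or.inl hx
  have ef : (a ≫ f).1 = f.1 := by simp [a]
  have eg : (a ≫ g).1 = g.1 := by simp [a]
  have E1 : E.E w1 (a ≫ f) b := ht w1 _ _ (by rw [ef]; exact hf.trans hww) sz
    (by rw [ef]; exact hz.symm)
  have E2 : E.E w1 (a ≫ g) b :=
    E.trans _ _ _ _ (E.symm _ _ _ (E.res a f g hE)) E1
  have L : IsLcm (a ≫ g).1 b.1 (v * t) (u * t) := by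
    rw [eg]
    show IsLcm g.1 z (v * t) (u * t)
    refine ⟨by rw [hz, ← mul_assoc, ← mul_assoc, hl.1], fun x y hxy => ?_⟩
    obtain ⟨r, hr⟩ := hS' y ⟨x, hxy.symm⟩
    refine ⟨r, ?_, ?_⟩
    · apply lc (a := g.1)
      rw [hxy, hr, ← mul_assoc, hl.1]
      simp only [mul_assoc]
    · apply lc (a := z)
      rw [hr, ← hz, mul_assoc]
  have h3 := claim1 E K E2 L
  refine hst _ (w1.h.pul _) ?_ _ h3
  rw [eg]
  exact psh_subset_iff_pul.1 (hg.trans hww)

theorem Good.of_lcm_stable (K : Kit P A) {q : Set (P × Lab)}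
    (hst : ∀ q', IsCond q' → q ⊆ q' → ∀ u, Good E q' u → Good E q u)
    {w : Cond P} {f g : w ⟶ q1} (hf : psh f.1 q ⊆ w.q) (hE : E.E w f g) {u v : P}
    (hl : IsLcm f.1 g.1 u v) : Good E q u :=
  hst _ (w.h.pul _) (psh_subset_iff_pul.1 hf) _ (claim1 E K hE hl)

end loc

/-- **THEOREM (labelled classification, rigid form)** -/
theorem lct (K : Kit P A) : LCT P := by
  classical
  intro q1 E
  by_cases hnt : ∀ q, IsCond q → q1.q ⊆ q → ¬ Tot E q
  · obtain ⟨q, hq, hq1, hst⟩ := exists_stable E K hnt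
    let F := FQ E K hnt q hq hq1
    obtain ⟨α, hα⟩ := gen_some K F
    obtain ⟨q2, hq2, hqq2, hrig⟩ := rigid hq (A α : Set P) (K.small α)
    have h12 : q1.q ⊆ q2 := hq1.trans hqq2
    refine ⟨⟨q2, hq2⟩, h12, RForm.filt F ?_⟩
    intro w f g
    have hf : psh f.1 q2 ⊆ w.q := f.2
    have hg : psh g.1 q2 ⊆ w.q := g.2
    constructor
    · intro hE
      -- move away from one
      obtain ⟨k, hk, _⟩ := K.letr ∅ inferInstance (by simp)
      let w' : Cond P := ⟨psh k w.q, w.h.psh k⟩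
      let a : w' ⟶ w := ⟨k, subset_rfl⟩
      let i1 : (⟨q2, hq2⟩ : Cond P) ⟶ q1 := incl (q1 := q1) (q2 := ⟨q2, hq2⟩) h12
      have hE' : E.E w' (a ≫ (f ≫ i1)) (a ≫ (g ≫ i1)) := E.res a _ _ hE
      have ef : (a ≫ (f ≫ i1)).1 = k * f.1 := by simp [a, i1]
      have eg : (a ≫ (g ≫ i1)).1 = k * g.1 := by simp [a, i1]
      have hf1 : psh (k * f.1) q2 ⊆ w'.q := psh_comp hf (subset_rfl : psh k w.q ⊆ psh k w.q)
      have hg1 : psh (k * g.1) q2 ⊆ w'.q := psh_comp hg (subset_rfl : psh k w.q ⊆ psh k w.q)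
      have hf3 : psh (a ≫ (f ≫ i1)).1 q ⊆ w'.q := by
        rw [ef]; exact (psh_mono _ hqq2).trans hf1
      have hg3 : psh (a ≫ (g ≫ i1)).1 q ⊆ w'.q := by
        rw [eg]; exact (psh_mono _ hqq2).trans hg1
      rcases lcm_or_disj (a ≫ (f ≫ i1)).1 (a ≫ (g ≫ i1)).1 with hd | ⟨u, v, hl⟩
      · exact absurd (tot_of_disj E K hE' hd) (hnt _ (w'.h.pul _) (arrow_sub _))
      · have hu : Good E q u := Good.of_lcm_stable E K hst hf3 hE' hl
        have hv : Good E q v := Good.of_lcm_stable E K hst hg3 (E.symm _ _ _ hE') (isLcm_symm hl)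
        have n1 : (a ≫ (f ≫ i1)).1 ≠ 1 := by rw [ef]; exact left_ne_one hk
        have n2 : (a ≫ (g ≫ i1)).1 ≠ 1 := by rw [eg]; exact left_ne_one hk
        have hp : ∀ t, u * t ∈ F.S ↔ v * t ∈ F.S := fun t =>
          ⟨fun h => germ_pres E K hq hq1 hst hf3 hg3 n1 n2 hE' hl hv h,
            fun h => germ_pres E K hq hq1 hst hg3 hf3 n2 n1 (E.symm _ _ _ hE') (isLcm_symm hl) hu h⟩
        obtain ⟨t, h1, h2, h3⟩ := K.germ F α hα u v hu hp
        refine ⟨u * t, h3, ?_⟩
        have hlt : k * f.1 * (u * t) = k * g.1 * (v * t) := by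
          have := hl.1
          rw [ef, eg] at this
          rw [← mul_assoc, this, mul_assoc]
        have huv : u * t = v * t := by
          by_contra hne
          obtain ⟨l, hl1, hl2⟩ := hrig _ h1 _ h2 hne
          have h4 := psh_subset.1 hf1 _ _ hl1
          have h5 := psh_subset.1 hg1 _ _ hl2
          rw [← hlt] at h5
          exact w'.h.con _ _ h4 h5
        rw [← huv, mul_assoc, mul_assoc] at hlt
        exact lc hlt
    · rintro ⟨t, ht, he⟩
      refine ht w _ _ ?_ ?_ (by simpa using he)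
      · simpa using (psh_mono _ hqq2).trans hf
      · simpa using (psh_mono _ hqq2).trans hg
  · push Not at hnt
    obtain ⟨q, hq, hq1, hT⟩ := hnt
    refine ⟨⟨q, hq⟩, hq1, RForm.total ?_⟩
    intro w f g
    exact hT w _ _ (by simpa using f.2) (by simpa using g.2)

end Crest.Agent.R296.Lctx153

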