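import Crest.Agent.R296.LctSt_153

/-!
# Row 296 (S0448), block C (helper153): PROOF of the labelled classification theorem (rigid form)

`lct : Kit P A → LCT P`.
-/

set_option autoImplicit false
set_option linter.unusedSectionVars false
set_option linter.unusedVariables false

open CategoryTheory

namespace Crest.Agent.R296.Lctx153

open Crest.Agent.R296.IfAx378 Crest.Agent.R296.CondCx153 Crest.Agent.R296.CatFx365
  Crest.Agent.R296.LctStx153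

variable {P : Type 1} [Monoid P] [IsGood P] {A : Ordinal.{0} → Submonoid P}

/-! ### generalities -/

theorem left_ne_one {a b : P} (h : a ≠ 1) : a * b ≠ 1 := fun h' => h (IsGood.unit _ _ h')

theorem right_ne_one {a b : P} (h : b ≠ 1) : a * b ≠ 1 := by
  intro h'
  have h1 : a = 1 := IsGood.unit _ _ h'
  rw [h1, one_mul] at h'
  exact h h'

theorem lc {a b c : P} (h : a * b = a * c) : b = c := IsGood.lc _ _ _ h

/-- the points of a condition -/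
def pts (w : Set (P × Lab)) : Set P := Prod.fst '' w

theorem small_pts {w : Set (P × Lab)} (h : IsCond w) : Small.{0} (pts w) := by
  have := h.small
  unfold pts
  infer_instance

theorem mem_pts {w : Set (P × Lab)} {p : P} {l : Lab} (h : (p, l) ∈ w) : p ∈ pts w :=
  ⟨(p, l), h, rfl⟩

theorem isLcm_symm {f g u v : P} (h : IsLcm f g u v) : IsLcm g f v u := by
  refine ⟨h.1.symm, fun x y hxy => ?_⟩
  obtain ⟨t, h1, h2⟩ := h.2 y x hxy.symm
  exact ⟨t, h2, h1⟩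

theorem isLcm_mul {f g u v : P} (h : IsLcm f g u v) (k : P) : IsLcm (k * f) (k * g) u v := by
  refine ⟨by rw [mul_assoc, mul_assoc, h.1], fun x y hxy => h.2 x y ?_⟩
  rw [mul_assoc, mul_assoc] at hxy
  exact lc hxy

theorem disj_mul {f g : P} (h : Disj f g) (k : P) : Disj (k * f) (k * g) := by
  intro x y hxy
  rw [mul_assoc, mul_assoc] at hxy
  exact h x y (lc hxy)

theorem isLcm_of_partner {F z u : P} (hz : z * u = F * u) (H : ∀ x, F ∣ z * x → F * u ∣ z * x) :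
    IsLcm F z u u := by
  refine ⟨hz.symm, fun x y hxy => ?_⟩
  obtain ⟨t, ht⟩ := H y ⟨x, hxy.symm⟩
  have h1 : y = u * t := by
    apply lc (a := z)
    rw [ht, ← hz, mul_assoc]
  refine ⟨t, ?_, h1⟩
  apply lc (a := F)
  rw [hxy, ht, mul_assoc]

theorem lcm_or_disj (f g : P) : Disj f g ∨ ∃ u v, IsLcm f g u v := by
  by_cases h : Disj f g
  · exact Or.inl h
  · right
    unfold Disj at h
    push Not at h
    obtain ⟨x, y, hxy⟩ := h
    obtain ⟨u, v, h1, h2⟩ := IsGood.lcm _ _ _ _ hxy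
    exact ⟨u, v, h1, h2⟩

/-- **generic partner** -/
theorem partner (K : Kit P A) {w q : Set (P × Lab)} (hw : IsCond w) (hq : IsCond q) {ρ b : P}
    (hρ : ρ ≠ 1) (hb : b ≠ 1) (S0 : Set P) (hS0 : Small.{0} S0)
    (hlab : ∀ y l, (ρ * y, l) ∈ q → (b * y, Lab.neg l) ∉ w) :
    ∃ z, z * ρ = b ∧ z ≠ 1 ∧ (∀ s ∈ S0, s ≠ 1 → ∀ x, s ∣ z * x → b ∣ z * x) ∧
      IsCond (w ∪ psh z q) := by
  obtain ⟨k, hk1, hk⟩ := K.letr {b} inferInstance (by simpa using hb.symm)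
  have hkb : Disj k b := hk b rfl
  have := small_pts hw
  obtain ⟨z, hz, hS⟩ := K.gen ρ b ((S0 ∪ pts w ∪ {k}) \ {1}) hρ hb
    (small_subset Set.sdiff_subset) (by simp)
  have hz1 : z ≠ 1 := by
    rintro rfl
    obtain ⟨t, ht⟩ := hS k ⟨Or.inr rfl, by simpa using hk1⟩ k (by rw [one_mul])
    rw [one_mul] at ht
    exact hkb 1 t (by rw [mul_one, ht])
  refine ⟨z, hz, hz1, fun s hs hs1 => hS s ⟨Or.inl (Or.inl hs), by simpa using hs1⟩, ?_⟩
  refine hw.union (hq.psh z) fun p l hp hp' => ?_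
  obtain ⟨s, hs, rfl⟩ := mem_psh.1 hp'
  have h1 : z * s ∈ (S0 ∪ pts w ∪ {k}) \ {1} :=
    ⟨Or.inl (Or.inr (mem_pts hp)), by simpa using left_ne_one hz1⟩
  obtain ⟨t, ht⟩ := hS _ h1 s dvd_rfl
  have h2 : s = ρ * t := by
    apply lc (a := z)
    rw [ht, ← hz, mul_assoc]
  rw [h2] at hs
  refine hlab t _ hs ?_
  rw [Lab.neg_neg, ← ht]
  exact hp

/-! ### local relations -/

section loc
variable {q1 : Cond P} (E : LocRel q1)

theorem E_congr {w : Cond P} {f f' g g' : w ⟶ q1} (hf : f.1 = f'.1) (hg : g.1 = g'.1)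
    (h : E.E w f g) : E.E w f' g' := by
  rwa [show f' = f from (hom_ext _ _ hf).symm, show g' = g from (hom_ext _ _ hg).symm]

/-- locality, restricted to arrows different from one -/
theorem loc2 (K : Kit P A) (w : Cond P) (f g : w ⟶ q1)
    (H : ∀ (w' : Cond P) (h : w' ⟶ w), h.1 ≠ 1 →
      ∃ (w'' : Cond P) (h' : w'' ⟶ w'), E.E w'' ((h' ≫ h) ≫ f) ((h' ≫ h) ≫ g)) : E.E w f g := by
  obtain ⟨k, hk, _⟩ := K.letr ∅ inferInstance (by simp)
  refine E.loc w f g fun w' h => ?_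
  let w2 : Cond P := ⟨psh k w'.q, w'.h.psh k⟩
  let a : w2 ⟶ w' := ⟨k, subset_rfl⟩
  obtain ⟨w3, h', h3⟩ := H w2 (a ≫ h) (left_ne_one hk)
  refine ⟨w3, h' ≫ a, ?_⟩
  exact E_congr E (by simp) (by simp) h3

/-- `u` supports the relation below the labels `q` -/
def Good (q : Set (P × Lab)) (u : P) : Prop := ∀ (w : Cond P) (f g : w ⟶ q1),
  psh f.1 q ⊆ w.q → psh g.1 q ⊆ w.q → f.1 * u = g.1 * u → E.E w f g

/-- the relation is total below the labels `q` -/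
def Tot (q : Set (P × Lab)) : Prop := ∀ (w : Cond P) (f g : w ⟶ q1),
  psh f.1 q ⊆ w.q → psh g.1 q ⊆ w.q → E.E w f g

theorem Good.mono {q q' : Set (P × Lab)} (h : q ⊆ q') {u : P} (H : Good E q u) : Good E q' u :=
  fun w f g hf hg he => H w f g ((psh_mono _ h).trans hf) ((psh_mono _ h).trans hg) he

theorem good_one (q : Set (P × Lab)) : Good E q 1 := by
  intro w f g _ _ he
  rw [mul_one, mul_one] at he
  rw [show f = g from hom_ext _ _ he]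
  exact E.refl w g

theorem Good.up {q : Set (P × Lab)} {x s : P} (h : x ∣ s) (H : Good E q s) : Good E q x := by
  obtain ⟨c, rfl⟩ := h
  intro w f g hf hg he
  exact H w f g hf hg (by rw [← mul_assoc, ← mul_assoc, he])

theorem arrow_sub {w : Cond P} (f : w ⟶ q1) : q1.q ⊆ pul f.1 w.q := psh_subset_iff_pul.1 f.2

/-- the arrow to `q1` with value `z` -/
def ar (w : Cond P) (z : P) (q : Set (P × Lab)) (hq : q1.q ⊆ q) (h : psh z q ⊆ w.q) : w ⟶ q1 :=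
  ⟨z, (psh_mono z hq).trans h⟩

theorem claim1_free (K : Kit P A) {w : Cond P} {f g : w ⟶ q1} (hE : E.E w f g) {u v : P}
    (hl : IsLcm f.1 g.1 u v) {w' : Cond P} {f' g' : w' ⟶ q1}
    (hf : psh f'.1 (pul f.1 w.q) ⊆ w'.q) (hg : psh g'.1 (pul f.1 w.q) ⊆ w'.q)
    (hl' : IsLcm f'.1 g'.1 u u) : E.E w' f' g' := by
  refine E.loc w' f' g' fun w2 h => ?_
  obtain ⟨k, h1, h2, e1, e2, e3, i1, i2, i3⟩ :=
    K.tri f.1 g.1 u v (h.1 * f'.1) (h.1 * g'.1) hl (isLcm_mul hl' h.1)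
  have hf2 : psh (h.1 * f'.1) (pul f.1 w.q) ⊆ w2.q := psh_comp hf h.2
  have hg2 : psh (h.1 * g'.1) (pul f.1 w.q) ⊆ w2.q := psh_comp hg h.2
  have c1 : IsCond (psh k w2.q ∪ psh h1 w.q) := by
    refine (w2.h.psh k).union (w.h.psh h1) fun p l hp hp' => ?_
    obtain ⟨s, hs, rfl⟩ := mem_psh.1 hp
    obtain ⟨t, ht, hst⟩ := mem_psh.1 hp'
    obtain ⟨r, rfl, rfl⟩ := i1 s t hst
    exact w2.h.con _ _ hs (psh_subset.1 hf2 _ _ ht)
  have c2 : IsCond (psh k w2.q ∪ psh h1 w.q ∪ psh h2 w.q) := by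
    refine c1.union (w.h.psh h2) fun p l hp hp' => ?_
    obtain ⟨t, ht, hst⟩ := mem_psh.1 hp'
    rcases hp with hp | hp
    · obtain ⟨s, hs, rfl⟩ := mem_psh.1 hp
      obtain ⟨r, rfl, rfl⟩ := i2 s t hst
      exact w2.h.con _ _ hs (psh_subset.1 hg2 _ _ ht)
    · obtain ⟨s, hs, rfl⟩ := mem_psh.1 hp
      obtain ⟨r, rfl, rfl⟩ := i3 s t hst
      exact w.h.con _ _ hs ht
  let w3 : Cond P := ⟨_, c2⟩
  let ak : w3 ⟶ w2 := ⟨k, fun x hx => Or.inl (Or.inl hx)⟩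
  let a1 : w3 ⟶ w := ⟨h1, fun x hx => Or.inl (Or.inr hx)⟩
  let a2 : w3 ⟶ w := ⟨h2, fun x hx => Or.inr hx⟩
  refine ⟨w3, ak, ?_⟩
  have E1 := E.res a1 f g hE
  have E2 := E.symm _ _ _ (E.res a2 f g hE)
  have E3 : E.E w3 (a1 ≫ f) (a2 ≫ f) :=
    E.trans _ _ _ _ E1 (E_congr E (by simp [a1, a2, e3]) rfl E2)
  refine E_congr E ?_ ?_ E3
  · simp [ak, a1, e1]
  · simp [ak, a2, e2]

theorem claim1 (K : Kit P A) {w : Cond P} {f g : w ⟶ q1} (hE : E.E w f g) {u v : P}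
    (hl : IsLcm f.1 g.1 u v) : Good E (pul f.1 w.q) u := by
  intro w' f' g' hf hg he
  by_cases hu : u = 1
  · subst hu
    exact good_one E _ w' f' g' hf hg he
  refine loc2 E K w' f' g' fun w2 h hh => ?_
  have hf2 : psh (h.1 * f'.1) (pul f.1 w.q) ⊆ w2.q := psh_comp hf h.2
  have hg2 : psh (h.1 * g'.1) (pul f.1 w.q) ⊆ w2.q := psh_comp hg h.2
  have hF1 : h.1 * f'.1 ≠ 1 := left_ne_one hh
  have hG1 : h.1 * g'.1 ≠ 1 := left_ne_one hh
  have he2 : h.1 * g'.1 * u = h.1 * f'.1 * u := by rw [mul_assoc, mul_assoc, he]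
  obtain ⟨z, hz, hz1, hS, hc⟩ := partner K w2.h (w.h.pul f.1) hu
    (b := h.1 * f'.1 * u) (left_ne_one hF1) {h.1 * f'.1, h.1 * g'.1} inferInstance
    (fun y l hy => by
      have h1 := psh_subset.1 hf2 _ _ hy
      rw [← mul_assoc] at h1
      exact w2.h.con _ _ h1)
  let w3 : Cond P := ⟨_, hc⟩
  let a : w3 ⟶ w2 := ⟨1, by rw [psh_one]; exact fun x hx => Or.inl hx⟩
  have hz3 : psh z (pul f.1 w.q) ⊆ w3.q := fun x hx => Or.inr hx
  let b : w3 ⟶ q1 := ar w3 z _ (arrow_sub f) hz3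
  refine ⟨w3, a, ?_⟩
  have ef : ((a ≫ h) ≫ f').1 = h.1 * f'.1 := by simp [a]
  have eg : ((a ≫ h) ≫ g').1 = h.1 * g'.1 := by simp [a]
  have L1 : IsLcm (h.1 * f'.1) z u u :=
    isLcm_of_partner hz (hS _ (Or.inl rfl) hF1)
  have L2 : IsLcm (h.1 * g'.1) z u u :=
    isLcm_of_partner (by rw [hz, he2]) (by rw [he2]; exact hS _ (Or.inr rfl) hG1)
  have hw23 : w2.q ⊆ w3.q := fun x hx => Or.inl hx
  have E1 : E.E w3 ((a ≫ h) ≫ f') b :=
    claim1_free E K hE hl (by rw [ef]; exact hf2.trans hw23) hz3 (by rw [ef]; exact L1)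
  have E2 : E.E w3 ((a ≫ h) ≫ g') b :=
    claim1_free E K hE hl (by rw [eg]; exact hg2.trans hw23) hz3 (by rw [eg]; exact L2)
  exact E.trans _ _ _ _ E1 (E.symm _ _ _ E2)

theorem tot_free (K : Kit P A) {w : Cond P} {f g : w ⟶ q1} (hE : E.E w f g)
    (hl : Disj f.1 g.1) {w' : Cond P} {f' g' : w' ⟶ q1}
    (hf : psh f'.1 (pul f.1 w.q) ⊆ w'.q) (hg : psh g'.1 (pul f.1 w.q) ⊆ w'.q)
    (hl' : Disj f'.1 g'.1) : E.E w' f' g' := by
  refine E.loc w' f' g' fun w2 h => ?_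
  obtain ⟨k, h1, h2, e1, e2, e3, i1, i2, i3⟩ :=
    K.triD f.1 g.1 (h.1 * f'.1) (h.1 * g'.1) hl (disj_mul hl' h.1)
  have hf2 : psh (h.1 * f'.1) (pul f.1 w.q) ⊆ w2.q := psh_comp hf h.2
  have hg2 : psh (h.1 * g'.1) (pul f.1 w.q) ⊆ w2.q := psh_comp hg h.2
  have c1 : IsCond (psh k w2.q ∪ psh h1 w.q) := by
    refine (w2.h.psh k).union (w.h.psh h1) fun p l hp hp' => ?_
    obtain ⟨s, hs, rfl⟩ := mem_psh.1 hp
    obtain ⟨t, ht, hst⟩ := mem_psh.1 hp'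
    obtain ⟨r, rfl, rfl⟩ := i1 s t hst
    exact w2.h.con _ _ hs (psh_subset.1 hf2 _ _ ht)
  have c2 : IsCond (psh k w2.q ∪ psh h1 w.q ∪ psh h2 w.q) := by
    refine c1.union (w.h.psh h2) fun p l hp hp' => ?_
    obtain ⟨t, ht, hst⟩ := mem_psh.1 hp'
    rcases hp with hp | hp
    · obtain ⟨s, hs, rfl⟩ := mem_psh.1 hp
      obtain ⟨r, rfl, rfl⟩ := i2 s t hst
      exact w2.h.con _ _ hs (psh_subset.1 hg2 _ _ ht)
    · obtain ⟨s, hs, rfl⟩ := mem_psh.1 hp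
      obtain ⟨r, rfl, rfl⟩ := i3 s t hst
      exact w.h.con _ _ hs ht
  let w3 : Cond P := ⟨_, c2⟩
  let ak : w3 ⟶ w2 := ⟨k, fun x hx => Or.inl (Or.inl hx)⟩
  let a1 : w3 ⟶ w := ⟨h1, fun x hx => Or.inl (Or.inr hx)⟩
  let a2 : w3 ⟶ w := ⟨h2, fun x hx => Or.inr hx⟩
  refine ⟨w3, ak, ?_⟩
  have E1 := E.res a1 f g hE
  have E2 := E.symm _ _ _ (E.res a2 f g hE)
  have E3 : E.E w3 (a1 ≫ f) (a2 ≫ f) :=
    E.trans _ _ _ _ E1 (E_congr E (by simp [a1, a2, e3]) rfl E2)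
  refine E_congr E ?_ ?_ E3
  · simp [ak, a1, e1]
  · simp [ak, a2, e2]

theorem tot_of_disj (K : Kit P A) {w : Cond P} {f g : w ⟶ q1} (hE : E.E w f g)
    (hl : Disj f.1 g.1) : Tot E (pul f.1 w.q) := by
  intro w' f' g' hf hg
  refine loc2 E K w' f' g' fun w2 h hh => ?_
  have hf2 : psh (h.1 * f'.1) (pul f.1 w.q) ⊆ w2.q := psh_comp hf h.2
  have hg2 : psh (h.1 * g'.1) (pul f.1 w.q) ⊆ w2.q := psh_comp hg h.2
  have hF1 : h.1 * f'.1 ≠ 1 := left_ne_one hh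
  have hG1 : h.1 * g'.1 ≠ 1 := left_ne_one hh
  have := small_pts w2.h
  obtain ⟨z, hz1, hz⟩ := K.letr (({h.1 * f'.1, h.1 * g'.1} ∪ pts w2.q) \ {1})
    (small_subset Set.sdiff_subset) (by simp)
  have hc : IsCond (w2.q ∪ psh z (pul f.1 w.q)) := by
    refine w2.h.union ((w.h.pul f.1).psh z) fun p l hp hp' => ?_
    obtain ⟨s, hs, rfl⟩ := mem_psh.1 hp'
    exact hz _ ⟨Or.inr (mem_pts hp), by simpa using left_ne_one hz1⟩ s 1 (by rw [mul_one])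
  let w3 : Cond P := ⟨_, hc⟩
  let a : w3 ⟶ w2 := ⟨1, by rw [psh_one]; exact fun x hx => Or.inl hx⟩
  have hz3 : psh z (pul f.1 w.q) ⊆ w3.q := fun x hx => Or.inr hx
  let b : w3 ⟶ q1 := ar w3 z _ (arrow_sub f) hz3
  refine ⟨w3, a, ?_⟩
  have ef : ((a ≫ h) ≫ f').1 = h.1 * f'.1 := by simp [a]
  have eg : ((a ≫ h) ≫ g').1 = h.1 * g'.1 := by simp [a]
  have L1 : Disj (h.1 * f'.1) z := fun x y hxy =>
    hz _ ⟨Or.inl (Or.inl rfl), by simpa using hF1⟩ y x hxy.symm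
  have L2 : Disj (h.1 * g'.1) z := fun x y hxy =>
    hz _ ⟨Or.inl (Or.inr rfl), by simpa using hG1⟩ y x hxy.symm
  have hw23 : w2.q ⊆ w3.q := fun x hx => Or.inl hx
  have E1 : E.E w3 ((a ≫ h) ≫ f') b :=
    tot_free E K hE hl (by rw [ef]; exact hf2.trans hw23) hz3 (by rw [ef]; exact L1)
  have E2 : E.E w3 ((a ≫ h) ≫ g') b :=
    tot_free E K hE hl (by rw [eg]; exact hg2.trans hw23) hz3 (by rw [eg]; exact L2)
  exact E.trans _ _ _ _ E1 (E.symm _ _ _ E2)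

end loc

end Crest.Agent.R296.Lctx153
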