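import Crest.Agent.R296.LctSt_153
import Crest.Agent.R296.Loc_929

/-!
# Row 296 (S0448), block C: PROOF of the labelled classification theorem, rigid form (helper670)

`theorem lct (K : Kit P A) : LCT P` (statement: `LctSt_153`).

* `RE R w f g`: the relation on raw elements; `full_E`: reflected by full arrows;
* `Good R q u` : `f u = g u` implies `E w f g` (arrows into `q`);
* `tri_core`, `good_of_lcm`, `total_of_disj` : the triangle;
* `filt` : the good elements form a filter; `small_gen` : every filter is generated by a small set (cap);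
* `exists_stable` (Zorn), `exists_sep` (separating labels), `lct`.
-/

set_option autoImplicit false
set_option linter.unusedSectionVars false
set_option linter.unusedVariables false

open CategoryTheory

namespace Crest.Agent.R296.Lctx670

open Crest.Agent.R296.IfAx378 Crest.Agent.R296.CondCx153 Crest.Agent.R296.CatFx365
open Crest.Agent.R296.LctStx153
open Crest.Agent.R296.Locx929 hiding GenS LetS

variable {P : Type 1} [Monoid P] [IsGood P] {A : Ordinal.{0} → Submonoid P}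

theorem toGen (h : LctStx153.GenS P) : Locx929.GenS P :=
  fun a b S h1 h2 h3 h4 => h a b S h2 h3 h1 h4

theorem toLet (h : LctStx153.LetS P) : Locx929.LetS P := h

/-! ### raw form -/

/-- `f` is an arrow from `w` to `q` -/
def Arr (f : P) (q w : Set (P × Lab)) : Prop := ∀ s l, (s, l) ∈ q → (f * s, l) ∈ w

lemma Arr.comp {f g : P} {q w w' : Set (P × Lab)} (h : Arr f w w') (h' : Arr g q w) :
    Arr (f * g) q w' := fun s l hs => by
  rw [mul_assoc]
  exact h _ _ (h' _ _ hs)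

lemma Arr.mono {f : P} {q q' w w' : Set (P × Lab)} (h : Arr f q w) (hq : q' ⊆ q) (hw : w ⊆ w') :
    Arr f q' w' := fun s l hs => hw (h s l (hq hs))

lemma arr_psh (f : P) (q : Set (P × Lab)) : Arr f q (psh f q) :=
  fun s l hs => mem_psh.2 ⟨s, hs, rfl⟩

lemma Arr.pul {f : P} {q w : Set (P × Lab)} (h : Arr f q w) : q ⊆ pul f w :=
  fun ⟨s, l⟩ hs => h s l hs

variable {q1 : Cond P}

/-- raw form of the local relation -/
def RE (R : LocRel q1) (w : Cond P) (f g : P) : Prop :=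
  ∃ (hf : Arr f q1.q w.q) (hg : Arr g q1.q w.q), R.E w (arr f hf) (arr g hg)

variable {R : LocRel q1}

lemma RE.of {w : Cond P} {f g : w ⟶ q1} (h : R.E w f g) : RE R w f.1 g.1 :=
  ⟨psh_subset.1 f.2, psh_subset.1 g.2, h⟩

lemma RE.to {w : Cond P} {f g : w ⟶ q1} (h : RE R w f.1 g.1) : R.E w f g := by
  obtain ⟨_, _, h⟩ := h
  exact h

lemma RE.rfl {w : Cond P} {f : P} (hf : Arr f q1.q w.q) : RE R w f f := ⟨hf, hf, R.refl _ _⟩

lemma RE.symm {w : Cond P} {f g : P} (h : RE R w f g) : RE R w g f := by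
  obtain ⟨h1, h2, h⟩ := h
  exact ⟨h2, h1, R.symm _ _ _ h⟩

lemma RE.trans {w : Cond P} {f g k : P} (h : RE R w f g) (h' : RE R w g k) : RE R w f k := by
  obtain ⟨h1, h2, h⟩ := h
  obtain ⟨_, h3, h'⟩ := h'
  exact ⟨h1, h3, R.trans _ _ _ _ h h'⟩

lemma RE.res {w w' : Cond P} {f g : P} (h : RE R w f g) {k : P} (hk : Arr k w.q w'.q) :
    RE R w' (k * f) (k * g) := by
  obtain ⟨h1, h2, h⟩ := h
  exact ⟨hk.comp h1, hk.comp h2, R.res (arr k hk) _ _ h⟩

lemma RE.full (K : Kit P A) {w w' : Cond P} {k f g : P} (hk : Arr k w.q w'.q)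
    (hF : ∀ s l, (k * s, l) ∈ w'.q → (s, l) ∈ w.q) (hf : Arr f q1.q w.q) (hg : Arr g q1.q w.q)
    (h : RE R w' (k * f) (k * g)) : RE R w f g := by
  obtain ⟨h1, h2, h⟩ := h
  refine ⟨hf, hg, R.loc w _ _ fun e j => ?_⟩
  obtain ⟨e', m, m', h3⟩ := am (toGen K.gen) (toLet K.letr) (arr k hk) hF j
  refine ⟨e', m, ?_⟩
  rw [h3, Category.assoc, Category.assoc]
  exact R.res m' _ _ h

/-! ### good elements -/

/-- `u` is good at `q` -/
def Good (R : LocRel q1) (q : Set (P × Lab)) (u : P) : Prop :=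
  ∀ (w : Cond P) (f g : P), Arr f q w.q → Arr g q w.q → f * u = g * u → RE R w f g

lemma Good.mono {q q' : Set (P × Lab)} {u : P} (h : Good R q u) (hq : q ⊆ q') : Good R q' u :=
  fun w f g hf hg hu => h w f g (hf.mono hq subset_rfl) (hg.mono hq subset_rfl) hu

lemma Good.dvd {q : Set (P × Lab)} {u u' : P} (h : Good R q u) (hu : u' ∣ u) : Good R q u' := by
  obtain ⟨c, rfl⟩ := hu
  intro w f g hf hg h1
  exact h w f g hf hg (by rw [← mul_assoc, h1, mul_assoc])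

lemma good_one {q : Set (P × Lab)} (hq : q1.q ⊆ q) : Good R q 1 := by
  intro w f g hf hg h1
  simp only [mul_one] at h1
  subst h1
  exact RE.rfl (hf.mono hq subset_rfl)

/-! ### the triangle -/

/-- output of (Tri) -/
def TriOut (c c' g g' : P) : Prop := ∃ k h1 h2, h1 * c = k * g ∧ h2 * c = k * g' ∧ h1 * c' = h2 * c' ∧
    (∀ s t, k * s = h1 * t → ∃ r, s = g * r ∧ t = c * r) ∧
    (∀ s t, k * s = h2 * t → ∃ r, s = g' * r ∧ t = c * r) ∧
    (∀ s t, h1 * s = h2 * t → ∃ r, s = c' * r ∧ t = c' * r)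

lemma compat_psh {f g : P} {q w : Cond P}
    (h : ∀ s t l, f * s = g * t → (s, l) ∈ q.q → (t, Lab.neg l) ∈ w.q → False) :
    Compat (psh f q.q) (psh g w.q) := by
  intro z l h1 h2
  obtain ⟨s, hs, rfl⟩ := mem_psh.1 h1
  obtain ⟨t, ht, h3⟩ := mem_psh.1 h2
  exact h s t l h3 hs ht

omit [Monoid P] [IsGood P] in
lemma Compat.union_left {a b c : Set (P × Lab)} (h : Compat a c) (h' : Compat b c) :
    Compat (a ∪ b) c := by
  intro s l h1
  rcases h1 with h1 | h1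
  · exact h s l h1
  · exact h' s l h1

theorem tri_core (K : Kit P A) {w w' : Cond P} {f g f' g' : P} (hE : RE R w f g)
    (hf' : Arr f' (pul f w.q) w'.q) (hg' : Arr g' (pul f w.q) w'.q) (T : TriOut f g f' g') :
    RE R w' f' g' := by
  obtain ⟨k, h1, h2, e1, e2, e3, i1, i2, i3⟩ := T
  have hf0 : Arr f q1.q w.q := hE.1
  have c1 : Compat (psh k w'.q) (psh h1 w.q) := by
    refine compat_psh fun s t l hst hs ht => ?_
    obtain ⟨r, rfl, rfl⟩ := i1 s t hst
    exact w'.h.con _ _ hs (hf' _ _ ht)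
  have c2 : Compat (psh k w'.q) (psh h2 w.q) := by
    refine compat_psh fun s t l hst hs ht => ?_
    obtain ⟨r, rfl, rfl⟩ := i2 s t hst
    exact w'.h.con _ _ hs (hg' _ _ ht)
  have c3 : Compat (psh h1 w.q) (psh h2 w.q) := by
    refine compat_psh fun s t l hst hs ht => ?_
    obtain ⟨r, rfl, rfl⟩ := i3 s t hst
    exact w.h.con _ _ hs ht
  let D1 : Cond P := un (push k w') (push h1 w) c1
  have c4 : Compat D1.q (push h2 w).q := Compat.union_left c2 c3
  let D : Cond P := un D1 (push h2 w) c4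
  have a0 : Arr k w'.q D.q := fun s l hs => Or.inl (Or.inl (mem_psh.2 ⟨s, hs, rfl⟩))
  have a1 : Arr h1 w.q D.q := fun s l hs => Or.inl (Or.inr (mem_psh.2 ⟨s, hs, rfl⟩))
  have a2 : Arr h2 w.q D.q := fun s l hs => Or.inr (mem_psh.2 ⟨s, hs, rfl⟩)
  have r1 := hE.res a1
  have r2 := hE.res a2
  rw [e1] at r1
  rw [e2] at r2
  rw [e3] at r1
  have r3 := r1.trans r2.symm
  refine RE.full K a0 ?_ (hf'.mono hf0.pul subset_rfl) (hg'.mono hf0.pul subset_rfl) r3
  intro s l hs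
  rcases hs with (hs | hs) | hs
  · exact mul_mem_psh.1 hs
  · obtain ⟨t, ht, h3⟩ := mem_psh.1 hs
    obtain ⟨r, rfl, rfl⟩ := i1 s t h3
    exact hf' _ _ ht
  · obtain ⟨t, ht, h3⟩ := mem_psh.1 hs
    obtain ⟨r, rfl, rfl⟩ := i2 s t h3
    exact hg' _ _ ht

theorem good_of_lcm (K : Kit P A) {w : Cond P} {f g u v : P} (hE : RE R w f g)
    (hL : IsLcm f g u v) : Good R (pul f w.q) u := by
  intro w' f' g' hf' hg' hu
  have hf0 : Arr f q1.q w.q := hE.1
  by_cases u1 : u = 1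
  · subst u1
    simp only [mul_one] at hu
    subst hu
    exact RE.rfl (hf'.mono hf0.pul subset_rfl)
  obtain ⟨l, hl⟩ := exists_ne_one (toLet K.letr)
  obtain ⟨z, hz, hS⟩ := K.gen u (l * (f' * u)) {l} u1 (mul_ne_one_left hl _) inferInstance
    (by simpa using hl.symm)
  have hS : ∀ x y, z * x = l * y → ∃ t, x = u * t ∧ y = f' * (u * t) := by
    intro x y hxy
    obtain ⟨t, ht⟩ := hS l (Set.mem_singleton l) x ⟨y, hxy⟩
    have hx : x = u * t := by
      apply IsGood.lc z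
      rw [ht, ← hz, mul_assoc]
    refine ⟨t, hx, ?_⟩
    apply IsGood.lc l
    rw [← hxy, ht]
    simp only [mul_assoc]
  have cc : Compat (push l w').q (push z (pull f w)).q := by
    refine compat_psh fun s t l' hst hs ht => ?_
    obtain ⟨r, rfl, rfl⟩ := hS t s hst.symm
    exact w'.h.con _ _ hs (hf' _ _ ht)
  let D : Cond P := un (push l w') (push z (pull f w)) cc
  have a0 : Arr l w'.q D.q := fun s l hs => Or.inl (mem_psh.2 ⟨s, hs, rfl⟩)
  have a1 : Arr z (pul f w.q) D.q := fun s l hs => Or.inr (mem_psh.2 ⟨s, hs, rfl⟩)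
  have T1 : TriOut f g (l * f') z := by
    refine K.tri f g u v _ _ hL ⟨by rw [hz, mul_assoc], fun x y hxy => ?_⟩
    rw [mul_assoc] at hxy
    obtain ⟨t, rfl, h2⟩ := hS _ _ hxy.symm
    exact ⟨t, IsGood.lc f' _ _ h2, rfl⟩
  have T2 : TriOut f g (l * g') z := by
    refine K.tri f g u v _ _ hL ⟨by rw [hz, hu, mul_assoc], fun x y hxy => ?_⟩
    rw [mul_assoc] at hxy
    obtain ⟨t, rfl, h2⟩ := hS _ _ hxy.symm
    refine ⟨t, IsGood.lc g' _ _ ?_, rfl⟩
    rw [h2, ← mul_assoc, hu, mul_assoc]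
  have r1 : RE R D (l * f') z := tri_core K hE (a0.comp hf') a1 T1
  have r2 : RE R D (l * g') z := tri_core K hE (a0.comp hg') a1 T2
  refine RE.full K a0 ?_ (hf'.mono hf0.pul subset_rfl) (hg'.mono hf0.pul subset_rfl)
    (r1.trans r2.symm)
  intro s l' hs
  rcases hs with hs | hs
  · exact mul_mem_psh.1 hs
  · obtain ⟨t, ht, h3⟩ := mem_psh.1 hs
    obtain ⟨r, rfl, rfl⟩ := hS t s h3.symm
    exact hf' _ _ ht

theorem total_of_disj (K : Kit P A) {w : Cond P} {f g : P} (hE : RE R w f g)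
    (hL : Disj f g) (w' : Cond P) (f' g' : P) (hf' : Arr f' (pul f w.q) w'.q)
    (hg' : Arr g' (pul f w.q) w'.q) : RE R w' f' g' := by
  have hf0 : Arr f q1.q w.q := hE.1
  obtain ⟨l, hl⟩ := exists_ne_one (toLet K.letr)
  obtain ⟨z, hz, hS⟩ := K.letr {l} inferInstance (by simpa using hl.symm)
  have hS : ∀ x y, z * x ≠ l * y := hS l (Set.mem_singleton l)
  have cc : Compat (push l w').q (push z (pull f w)).q :=
    compat_psh fun s t l' hst hs ht => hS t s hst.symm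
  let D : Cond P := un (push l w') (push z (pull f w)) cc
  have a0 : Arr l w'.q D.q := fun s l hs => Or.inl (mem_psh.2 ⟨s, hs, rfl⟩)
  have a1 : Arr z (pul f w.q) D.q := fun s l hs => Or.inr (mem_psh.2 ⟨s, hs, rfl⟩)
  have T1 : ∀ f', TriOut f g (l * f') z := fun f' =>
    K.triD f g _ _ hL fun x y hxy => hS y (f' * x) (by rw [← hxy, mul_assoc])
  have r1 : RE R D (l * f') z := tri_core K hE (a0.comp hf') a1 (T1 _)
  have r2 : RE R D (l * g') z := tri_core K hE (a0.comp hg') a1 (T1 _)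
  refine RE.full K a0 ?_ (hf'.mono hf0.pul subset_rfl) (hg'.mono hf0.pul subset_rfl)
    (r1.trans r2.symm)
  intro s l' hs
  rcases hs with hs | hs
  · exact mul_mem_psh.1 hs
  · obtain ⟨t, ht, h3⟩ := mem_psh.1 hs
    exact absurd h3.symm (hS t s)

/-! ### the filter of good elements -/

theorem good_dir (K : Kit P A) (hnd : ∀ (w : Cond P) (f g : P), RE R w f g → ¬ Disj f g)
    {q : Cond P} (hq : q1.q ⊆ q.q) {s t : P} (hs : Good R q.q s) (ht : Good R q.q t) :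
    ∃ m, Good R q.q m ∧ s ∣ m ∧ t ∣ m := by
  by_cases s1 : s = 1
  · exact ⟨t, ht, s1 ▸ one_dvd t, dvd_rfl⟩
  by_cases t1 : t = 1
  · exact ⟨s, hs, dvd_rfl, t1 ▸ one_dvd s⟩
  obtain ⟨l, hl⟩ := exists_ne_one (toLet K.letr)
  obtain ⟨g1, hg1, hS1⟩ := K.gen s (l * s) {l} s1 (mul_ne_one_left hl _) inferInstance
    (by simpa using hl.symm)
  have hS1 : ∀ x y, g1 * x = l * y → ∃ r, x = s * r ∧ y = s * r := by
    intro x y hxy
    obtain ⟨r, hr⟩ := hS1 l (Set.mem_singleton l) x ⟨y, hxy⟩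
    refine ⟨r, IsGood.lc g1 _ _ ?_, IsGood.lc l _ _ ?_⟩
    · rw [hr, ← hg1, mul_assoc]
    · rw [← hxy, hr, mul_assoc]
  have hg1' : g1 ≠ 1 := by
    rintro rfl
    obtain ⟨r, hr, -⟩ := hS1 l 1 (by simp)
    obtain ⟨r', -, hr'⟩ := hS1 l 1 (by simp)
    exact s1 (IsGood.unit _ _ hr'.symm)
  obtain ⟨g2, hg2, hS2⟩ := K.gen t (l * t) {l, g1} t1 (mul_ne_one_left hl _) inferInstance
    (by simp only [Set.mem_insert_iff, Set.mem_singleton_iff, not_or]
        exact ⟨hl.symm, hg1'.symm⟩)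
  have hS2' : ∀ s ∈ ({l, g1} : Set P), ∀ x y, g2 * x = s * y → ∃ r, x = t * r ∧ s * y = l * (t * r) := by
    intro s hs x y hxy
    obtain ⟨r, hr⟩ := hS2 s hs x ⟨y, hxy⟩
    refine ⟨r, IsGood.lc g2 _ _ ?_, ?_⟩
    · rw [hr, ← hg2, mul_assoc]
    · rw [← hxy, hr, mul_assoc]
  have hA : ∀ x y, g2 * x = l * y → x = y ∧ ∃ r, x = t * r := by
    intro x y hxy
    obtain ⟨r, rfl, h2⟩ := hS2' l (by simp) x y hxy
    exact ⟨(IsGood.lc l _ _ h2).symm, r, rfl⟩
  have hB : ∀ x y, g1 * x = l * y → x = y := by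
    intro x y hxy
    obtain ⟨r, rfl, rfl⟩ := hS1 x y hxy
    rfl
  have hC : ∀ x y, g2 * x = g1 * y → x = y ∧ (∃ r, x = t * r) ∧ ∃ r, x = s * r := by
    intro x y hxy
    obtain ⟨r, rfl, h2⟩ := hS2' g1 (by simp) x y hxy
    obtain ⟨r', rfl, h3⟩ := hS1 _ _ h2
    exact ⟨h3, ⟨r, rfl⟩, ⟨r', h3⟩⟩
  have c1 : Compat (push l q).q (push g1 q).q := by
    refine compat_psh fun a b l' hab ha hb => ?_
    have := hB _ _ hab.symm
    subst this
    exact q.h.con _ _ ha hb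
  have c2 : Compat (push l q).q (push g2 q).q := by
    refine compat_psh fun a b l' hab ha hb => ?_
    have := (hA _ _ hab.symm).1
    subst this
    exact q.h.con _ _ ha hb
  have c3 : Compat (push g1 q).q (push g2 q).q := by
    refine compat_psh fun a b l' hab ha hb => ?_
    have := (hC _ _ hab.symm).1
    subst this
    exact q.h.con _ _ ha hb
  let D1 : Cond P := un (push l q) (push g1 q) c1
  have c4 : Compat D1.q (push g2 q).q := Compat.union_left c2 c3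
  let D : Cond P := un D1 (push g2 q) c4
  have a0 : Arr l q.q D.q := fun s l hs => Or.inl (Or.inl (mem_psh.2 ⟨s, hs, rfl⟩))
  have a1 : Arr g1 q.q D.q := fun s l hs => Or.inl (Or.inr (mem_psh.2 ⟨s, hs, rfl⟩))
  have a2 : Arr g2 q.q D.q := fun s l hs => Or.inr (mem_psh.2 ⟨s, hs, rfl⟩)
  have r1 : RE R D l g1 := hs D l g1 a0 a1 hg1.symm
  have r2 : RE R D l g2 := ht D l g2 a0 a2 hg2.symm
  have r3 : RE R D g1 g2 := r1.symm.trans r2
  have hnd' := hnd D g1 g2 r3
  have hx : ∃ x y, s * x = t * y := by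
    by_contra hcon
    push Not at hcon
    refine hnd' fun x y hxy => ?_
    obtain ⟨h1, ⟨r, hr⟩, ⟨r', hr'⟩⟩ := hC y x hxy.symm
    exact hcon r' r (by rw [← hr, ← hr'])
  obtain ⟨x, y, hxy⟩ := hx
  obtain ⟨a, b, hab, hmin⟩ := IsGood.lcm s t x y hxy
  refine ⟨s * a, ?_, ⟨a, rfl⟩, ⟨b, hab⟩⟩
  have hL : IsLcm g1 g2 (s * a) (s * a) := by
    constructor
    · calc g1 * (s * a) = l * (s * a) := by rw [← mul_assoc, hg1, mul_assoc]
        _ = l * (t * b) := by rw [hab]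
        _ = g2 * (t * b) := by rw [← mul_assoc, ← hg2, mul_assoc]
        _ = g2 * (s * a) := by rw [hab]
    · intro x y hxy
      obtain ⟨rfl, ⟨r, hr⟩, ⟨r', hr'⟩⟩ := hC y x hxy.symm
      obtain ⟨c, rfl, rfl⟩ := hmin r' r (by rw [← hr, ← hr'])
      exact ⟨c, by rw [hr', mul_assoc], by rw [hr', mul_assoc]⟩
  refine (good_of_lcm K r3 hL).mono ?_
  rintro ⟨a, l'⟩ ha
  rcases ha with (ha | ha) | ha
  · obtain ⟨t, ht, h3⟩ := mem_psh.1 ha
    have := hB _ _ h3
    subst this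
    exact ht
  · exact mul_mem_psh.1 ha
  · obtain ⟨t, ht, h3⟩ := mem_psh.1 ha
    have := (hC _ _ h3.symm).1
    subst this
    exact ht

/-- the filter of good elements -/
def filt (K : Kit P A) (hnd : ∀ (w : Cond P) (f g : P), RE R w f g → ¬ Disj f g)
    (q : Cond P) (hq : q1.q ⊆ q.q) : Filt P where
  S := {u | Good R q.q u}
  one := good_one hq
  up x s h hs := Good.dvd hs h
  dir s t hs ht := by
    obtain ⟨m, h1, h2, h3⟩ := good_dir K hnd hq hs ht
    exact ⟨m, h1, h2, h3⟩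

/-! ### every filter is generated by a small set -/

omit [IsGood P] in
theorem small_gen (K : Kit P A) (F : Filt P) : ∃ α, GenByA P A F α := by
  classical
  have step : ∀ α : Ordinal.{0}, ∃ β : Ordinal.{0}, α < β ∧
      ∀ w ∈ A α, (∃ s ∈ F.S, ¬ s ∣ w) → ∃ s ∈ A β, s ∈ F.S ∧ ¬ s ∣ w := by
    intro α
    have hw : ∀ w : A α, ∃ β : Ordinal.{0}, (∃ s ∈ F.S, ¬ s ∣ w.1) → ∃ s ∈ A β, s ∈ F.S ∧ ¬ s ∣ w.1 := by
      intro w
      by_cases h : ∃ s ∈ F.S, ¬ s ∣ w.1
      · obtain ⟨s, hs, h1⟩ := h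
        obtain ⟨β, hβ⟩ := K.exh s
        exact ⟨β, fun _ => ⟨s, hβ, hs, h1⟩⟩
      · exact ⟨0, fun h' => absurd h' h⟩
    choose b hb using hw
    have := K.small α
    have hbd : BddAbove (Set.range b) := Ordinal.bddAbove_of_small
    obtain ⟨c, hc⟩ := hbd
    refine ⟨max (Order.succ α) c, (Order.lt_succ α).trans_le (le_max_left _ _), fun w hw h => ?_⟩
    obtain ⟨s, h1, h2, h3⟩ := hb ⟨w, hw⟩ h
    exact ⟨s, K.mono ((hc ⟨_, rfl⟩).trans (le_max_right _ _)) h1, h2, h3⟩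
  choose st hst hst' using step
  let a : ℕ → Ordinal.{0} := fun n => Nat.rec 0 (fun _ => st) n
  have ha : ∀ n, a (n + 1) = st (a n) := fun n => rfl
  have hlt : ∀ n, a n < a (n + 1) := fun n => by rw [ha]; exact hst _
  have hle : ∀ n, a n ≤ ⨆ n, a n := fun n => Ordinal.le_iSup a n
  have hltS : ∀ n, a n < ⨆ n, a n := fun n => (hlt n).trans_le (hle (n + 1))
  have hsl : Order.IsSuccLimit (⨆ n, a n) := by
    refine ⟨fun hm => ?_, ?_⟩
    · exact absurd (hltS 0) (not_lt.2 (hm (hltS 0).le))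
    · refine Order.isSuccPrelimit_of_succ_lt fun b hb => ?_
      rw [Ordinal.lt_iSup_iff] at hb
      obtain ⟨n, hn⟩ := hb
      exact (Order.succ_le_of_lt hn).trans_lt (hltS n)
  refine ⟨⨆ n, a n, K.cap F _ fun w hw h => ?_⟩
  by_contra hcon
  push Not at hcon
  obtain ⟨β, hβ, hwβ⟩ := K.lim _ hsl w hw
  rw [Ordinal.lt_iSup_iff] at hβ
  obtain ⟨n, hn⟩ := hβ
  obtain ⟨s, h1, h2, h3⟩ := hst' (a n) w (K.mono hn.le hwβ) hcon
  exact h3 (h s (K.mono (hle (n + 1)) h1) h2)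

/-! ### stable condition (Zorn) -/

theorem exists_stable (K : Kit P A) (hnd : ∀ (w : Cond P) (f g : P), RE R w f g → ¬ Disj f g) :
    ∃ q : Cond P, q1.q ⊆ q.q ∧ ∀ q' : Cond P, q.q ⊆ q'.q → ∀ u, Good R q'.q u → Good R q.q u := by
  classical
  let X := {q : Cond P // q1.q ⊆ q.q}
  let r : X → X → Prop := fun q q' => q.1.q ⊆ q'.1.q ∧ (q = q' ∨ ∃ u, Good R q'.1.q u ∧ ¬ Good R q.1.q u)
  have hrefl : ∀ a, r a a := fun a => ⟨subset_rfl, Or.inl rfl⟩
  have htrans : ∀ {a b c : X}, r a b → r b c → r a c := by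
    rintro a b c ⟨h1, h2⟩ ⟨h3, h4⟩
    rcases h2 with rfl | ⟨u, h5, h6⟩
    · exact ⟨h3, h4⟩
    · exact ⟨h1.trans h3, Or.inr ⟨u, h5.mono h3, h6⟩⟩
  have key : ∀ c : Set X, IsChain r c → ∃ ub, ∀ a ∈ c, r a ub := by
    intro c hc
    by_cases hmax : ∃ m ∈ c, ∀ a ∈ c, r a m
    · obtain ⟨m, -, hm⟩ := hmax
      exact ⟨m, hm⟩
    by_cases hne : c = ∅
    · exact ⟨⟨q1, subset_rfl⟩, fun a ha => by simp [hne] at ha⟩
    obtain ⟨x0, hx0⟩ := Set.nonempty_iff_ne_empty.2 hne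
    push Not at hmax
    have hsub : ∀ a ∈ c, ∀ b ∈ c, a.1.q ⊆ b.1.q ∨ b.1.q ⊆ a.1.q := by
      intro a ha b hb
      by_cases hab : a = b
      · subst hab
        exact Or.inl subset_rfl
      · rcases hc ha hb hab with h | h
        · exact Or.inl h.1
        · exact Or.inr h.1
    have hnext : ∀ m ∈ c, ∃ a ∈ c, ∃ u, Good R a.1.q u ∧ ¬ Good R m.1.q u := by
      intro m hm
      obtain ⟨a, ha, h1⟩ := hmax m hm
      have hne : a ≠ m := fun h => h1 (h ▸ hrefl a)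
      rcases hc ha hm hne with h | h
      · exact absurd h h1
      · rcases h.2 with h2 | ⟨u, h2, h3⟩
        · exact absurd h2.symm hne
        · exact ⟨a, ha, u, h2, h3⟩
    let U : Filt P :=
      { S := {u | ∃ q ∈ c, Good R q.1.q u}
        one := ⟨x0, hx0, good_one x0.2⟩
        up := fun x s h ⟨q, h1, h2⟩ => ⟨q, h1, h2.dvd h⟩
        dir := by
          rintro s t ⟨q, h1, h2⟩ ⟨q', h3, h4⟩
          rcases hsub q h1 q' h3 with h | h
          · obtain ⟨m, h5, h6, h7⟩ := good_dir K hnd q'.2 (h2.mono h) h4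
            exact ⟨m, ⟨q', h3, h5⟩, h6, h7⟩
          · obtain ⟨m, h5, h6, h7⟩ := good_dir K hnd q.2 h2 (h4.mono h)
            exact ⟨m, ⟨q, h1, h5⟩, h6, h7⟩ }
    obtain ⟨α, hα⟩ := small_gen K U
    have := K.small α
    let I := {s : A α // s.1 ∈ U.S}
    have hI : Small.{0} I := inferInstance
    have hsel : ∀ i : I, ∃ q ∈ c, Good R q.1.q i.1.1 := fun i => i.2
    choose qs hqs hqs' using hsel
    have hcond : IsCond (⋃ i : I, (qs i).1.q) := by
      refine isCond_iUnion (fun i => (qs i).1.h) fun i j => ?_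
      rcases hsub _ (hqs i) _ (hqs j) with h | h
      · exact ⟨j, h, subset_rfl⟩
      · exact ⟨i, subset_rfl, h⟩
    have h1I : (1 : P) ∈ U.S := U.one
    let i0 : I := ⟨⟨1, (A α).one_mem⟩, h1I⟩
    have hQ1 : q1.q ⊆ ⋃ i : I, (qs i).1.q :=
      (qs i0).2.trans (Set.subset_iUnion (fun i : I => (qs i).1.q) i0)
    refine ⟨⟨⟨_, hcond⟩, hQ1⟩, fun a ha => ?_⟩
    obtain ⟨a', ha', u, hu, hu'⟩ := hnext a ha
    obtain ⟨m, hm, hmU, hum⟩ := hα u ⟨a', ha', hu⟩
    let i : I := ⟨⟨m, hm⟩, hmU⟩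
    have h1 : Good R (qs i).1.q m := hqs' i
    have h2 : ¬ Good R a.1.q m := fun h => hu' (h.dvd hum)
    have h3 : a.1.q ⊆ (qs i).1.q := by
      rcases hsub a ha _ (hqs i) with h | h
      · exact h
      · exact absurd (h1.mono h) h2
    have h4 : (qs i).1.q ⊆ ⋃ i : I, (qs i).1.q := Set.subset_iUnion (fun i : I => (qs i).1.q) i
    exact ⟨h3.trans h4, Or.inr ⟨m, h1.mono h4, h2⟩⟩
  obtain ⟨m, hm⟩ := exists_maximal_of_chains_bounded key htrans
  refine ⟨m.1, m.2, fun q' hq' u hu => ?_⟩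
  by_contra hcon
  have h1 : r m ⟨q', m.2.trans hq'⟩ := ⟨hq', Or.inr ⟨u, hu, hcon⟩⟩
  exact hcon (hu.mono (hm _ h1).1)

/-! ### separation of a small set of points by labels -/

omit [Monoid P] [IsGood P] in
theorem exists_sep (q : Cond P) (B : Set P) [Small.{0} B] : ∃ q2 : Cond P, q.q ⊆ q2.q ∧
    ∀ s ∈ B, ∀ s' ∈ B, s ≠ s' → ∃ i : Ordinal.{0}, (s, (i, true)) ∈ q2.q ∧ (s', (i, false)) ∈ q2.q := by
  classical
  have := q.h.small
  obtain ⟨i0, hi0⟩ : BddAbove (Set.range (fun x : q.q => x.1.2.1)) := Ordinal.bddAbove_of_small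
  have hi0 : ∀ s l, (s, l) ∈ q.q → l.1 ≤ i0 := fun s l h => hi0 ⟨⟨(s, l), h⟩, rfl⟩
  obtain ⟨e, he⟩ : ∃ e : B → Ordinal.{0}, Function.Injective e := by
    refine ⟨fun b => Ordinal.typein (α := Shrink.{0} B) WellOrderingRel (equivShrink B b), ?_⟩
    exact (Ordinal.typein_injective _).comp (equivShrink B).injective
  let N : Set (P × Lab) :=
    Set.range (fun x : B × B => (x.1.1, (i0 + 1 + e x.2, decide (x.1 = x.2))))
  have hN : IsCond N := by
    refine ⟨inferInstance, ?_⟩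
    rintro s l ⟨⟨a, b⟩, h1⟩ ⟨⟨a', b'⟩, h2⟩
    simp only [Prod.mk.injEq] at h1 h2
    obtain ⟨rfl, rfl⟩ := h1
    obtain ⟨h2, h3⟩ := h2
    have h2 : a' = a := Subtype.ext h2
    subst h2
    simp only [Lab.neg, Prod.mk.injEq, add_right_inj] at h3
    have := he h3.1
    subst this
    simp at h3
  have hc : ∀ s l, (s, l) ∈ q.q → (s, Lab.neg l) ∉ N := by
    rintro s l h1 ⟨⟨a, b⟩, h2⟩
    simp only [Prod.mk.injEq, Lab.neg] at h2
    have h3 := hi0 s l h1
    rw [← h2.2.1] at h3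
    have h4 : i0 < i0 + 1 + e b := (Order.lt_succ i0).trans_le (by simp)
    exact absurd h3 (not_le.2 h4)
  refine ⟨⟨q.q ∪ N, q.h.union hN hc⟩, Set.subset_union_left, fun s hs s' hs' hne => ?_⟩
  refine ⟨i0 + 1 + e ⟨s, hs⟩, Or.inr ⟨(⟨s, hs⟩, ⟨s, hs⟩), by simp⟩, Or.inr ⟨(⟨s', hs'⟩, ⟨s, hs⟩), ?_⟩⟩
  simp [Subtype.mk.injEq, hne.symm]

/-! ### the classification -/

/-- stable: `u t ∈ F → v t ∈ F` -/
theorem germ_aux (K : Kit P A) {q : Cond P} (hq : q1.q ⊆ q.q)
    (hst : ∀ q' : Cond P, q.q ⊆ q'.q → ∀ u, Good R q'.q u → Good R q.q u)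
    {w : Cond P} {f g u v : P} (hf : Arr f q.q w.q) (hg : Arr g q.q w.q) (hE : RE R w f g)
    (huv : IsLcm f g u v) (t : P) (ht : Good R q.q (u * t)) : Good R q.q (v * t) := by
  by_cases h1 : u * t = 1
  · have hu : u = 1 := IsGood.unit _ _ h1
    rw [hu, one_mul] at h1
    subst h1
    rw [mul_one]
    have h2 : IsLcm g f v u := ⟨huv.1.symm, fun x y h => by
      obtain ⟨c, h3, h4⟩ := huv.2 y x h.symm
      exact ⟨c, h4, h3⟩⟩
    exact hst (pull g w) hg.pul _ (good_of_lcm K hE.symm h2)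
  obtain ⟨l, hl⟩ := exists_ne_one (toLet K.letr)
  obtain ⟨z, hz, hS⟩ := K.gen (u * t) (l * (f * (u * t))) {l} h1 (mul_ne_one_left hl _) inferInstance
    (by simpa using hl.symm)
  have hS : ∀ x y, z * x = l * y → ∃ r, x = u * t * r ∧ y = f * (u * t * r) := by
    intro x y hxy
    obtain ⟨r, hr⟩ := hS l (Set.mem_singleton l) x ⟨y, hxy⟩
    have hx : x = u * t * r := by
      apply IsGood.lc z
      rw [hr, ← hz]
      simp only [mul_assoc]
    refine ⟨r, hx, ?_⟩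
    apply IsGood.lc l
    rw [← hxy, hr]
    simp only [mul_assoc]
  have cc : Compat (push l w).q (push z q).q := by
    refine compat_psh fun s t l' hst hs ht => ?_
    obtain ⟨r, rfl, rfl⟩ := hS t s hst.symm
    exact w.h.con _ _ hs (hf _ _ ht)
  let D : Cond P := un (push l w) (push z q) cc
  have a0 : Arr l w.q D.q := fun s l hs => Or.inl (mem_psh.2 ⟨s, hs, rfl⟩)
  have a1 : Arr z q.q D.q := fun s l hs => Or.inr (mem_psh.2 ⟨s, hs, rfl⟩)
  have r1 : RE R D (l * f) z := ht D _ _ (a0.comp hf) a1 (by rw [hz, mul_assoc])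
  have r2 : RE R D (l * f) (l * g) := hE.res a0
  have r3 : RE R D (l * g) z := r2.symm.trans r1
  have hL : IsLcm (l * g) z (v * t) (u * t) := by
    constructor
    · rw [hz, mul_assoc, ← mul_assoc g v t, ← huv.1, mul_assoc]
    · intro x y hxy
      rw [mul_assoc] at hxy
      obtain ⟨r, rfl, h2⟩ := hS _ _ hxy.symm
      refine ⟨r, IsGood.lc g _ _ ?_, rfl⟩
      rw [h2, mul_assoc v t r, ← mul_assoc g v, ← huv.1]
      simp only [mul_assoc]
  exact hst (pull (l * g) D) (a0.comp hg).pul _ (good_of_lcm K r3 hL)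

/-- **labelled classification theorem, rigid form** -/
theorem lct (K : Kit P A) : LCT P := by
  intro q1 R
  have hval : ∀ {q2 : Cond P} (h : q1.q ⊆ q2.q) (w : Cond P) (f g : w ⟶ q2),
      R.E w (f ≫ incl h) (g ≫ incl h) ↔ RE R w f.1 g.1 := by
    intro q2 h w f g
    have h1 : (f ≫ incl h).1 = f.1 := by simp
    have h2 : (g ≫ incl h).1 = g.1 := by simp
    constructor
    · intro hh
      have := RE.of hh
      rwa [h1, h2] at this
    · intro hh
      apply RE.to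
      rwa [h1, h2]
  by_cases hnd : ∀ (w : Cond P) (f g : P), RE R w f g → ¬ Disj f g
  swap
  · push Not at hnd
    obtain ⟨w, f, g, hE, hd⟩ := hnd
    have hsub : q1.q ⊆ (pull f w).q := hE.1.pul
    refine ⟨pull f w, hsub, RForm.total fun w' f' g' => ?_⟩
    refine (hval hsub w' f' g').2 ?_
    exact total_of_disj K hE hd w' f'.1 g'.1 (psh_subset.1 f'.2) (psh_subset.1 g'.2)
  obtain ⟨q, hq, hst⟩ := exists_stable K hnd
  obtain ⟨α, hα⟩ := small_gen K (filt K hnd q hq)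
  have := K.small α
  have : Small.{0} (A α : Set P) := K.small α
  obtain ⟨q2, hq2, hsep⟩ := exists_sep q (A α : Set P)
  have hst2 : ∀ q' : Cond P, q2.q ⊆ q'.q → ∀ u, Good R q'.q u → Good R q2.q u :=
    fun q' h u hu => (hst q' (hq2.trans h) u hu).mono hq2
  refine ⟨q2, hq.trans hq2, RForm.filt (filt K hnd q hq) fun w f g => ?_⟩
  rw [hval]
  have hf := psh_subset.1 f.2
  have hg := psh_subset.1 g.2
  constructor
  · intro hE
    have hx : ∃ x y, f.1 * x = g.1 * y := by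
      have := hnd w _ _ hE
      unfold Disj at this
      push Not at this
      exact this
    obtain ⟨x, y, hxy⟩ := hx
    obtain ⟨u, v, huv⟩ := IsGood.lcm _ _ x y hxy
    have huv' : IsLcm g.1 f.1 v u := ⟨huv.1.symm, fun x y h => by
      obtain ⟨c, h3, h4⟩ := huv.2 y x h.symm
      exact ⟨c, h4, h3⟩⟩
    have hu : Good R q.q u :=
      hst (pull f.1 w) (hq2.trans (Arr.pul hf)) u (good_of_lcm K hE huv)
    obtain ⟨t, h1, h2, h3⟩ := K.germ (filt K hnd q hq) α hα u v hu fun t =>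
      ⟨germ_aux K hq hst (Arr.mono hf hq2 subset_rfl) (Arr.mono hg hq2 subset_rfl) hE huv t,
        germ_aux K hq hst (Arr.mono hg hq2 subset_rfl) (Arr.mono hf hq2 subset_rfl) hE.symm huv' t⟩
    have h4 : f.1 * (u * t) = g.1 * (v * t) := by
      rw [← mul_assoc, huv.1, mul_assoc]
    by_cases h5 : u * t = v * t
    · exact ⟨u * t, h3, by rw [h4, h5]⟩
    · obtain ⟨i, h6, h7⟩ := hsep _ h1 _ h2 h5
      exact absurd (h4 ▸ hg _ _ h7) (w.h.con _ _ (hf _ _ h6))
  · rintro ⟨t, ht, h1⟩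
    exact ht w _ _ (Arr.mono hf hq2 subset_rfl) (Arr.mono hg hq2 subset_rfl) h1

end Crest.Agent.R296.Lctx670
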