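import Crest.Agent.R296.CatFrc_365

/-!
Row 296, block B, logic layer (helper644): **the dictionary** between the formulas of `Def_SetTheory`
and plain statements about the values of `V^(C)` (forcing relation `Fc` of `CatFrc_365`).

* `Dn d P` : `P` holds densely below the stage `d`;
* `Sg, Up, Op, Pm, Sj, Ij, Tr, Od` : semantic form of `isSing, isUPair, isOPair, pairMem, surjGraph,
  injGraph, isTrans, isOrd`; lemmas `fc_isSing … fc_isOrd`, for every assignment;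
* each of them is monotone, regular (`dense`) and extensional (`congr`);
* `fs_ppAx`, `fs_acwoAx`, `fs_acAx`, `fs_not_acAx`.
-/

set_option autoImplicit false

open FirstOrder FirstOrder.Language Crest.LogicCS.SetTheory CategoryTheory

namespace Crest.Agent.R296.Logicx644

open Crest.Agent.R296.CatFx365 Crest.Agent.R296.CatFrcx365

universe u

variable {C : Type u} [Category.{u} C]

/-! ### densely -/

/-- `P` holds densely below `d` -/
def Dn (d : C) (P : ∀ d' : C, (d' ⟶ d) → Prop) : Prop :=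
  ∀ (d1 : C) (l : d1 ⟶ d), ∃ (d2 : C) (m : d2 ⟶ d1), P d2 (m ≫ l)

theorem Dn.imp {d : C} {P Q : ∀ d' : C, (d' ⟶ d) → Prop} (H : Dn d P)
    (hPQ : ∀ (d' : C) (h : d' ⟶ d), P d' h → Q d' h) : Dn d Q := by
  intro d1 l
  obtain ⟨d2, m, hm⟩ := H d1 l
  exact ⟨d2, m, hPQ d2 _ hm⟩

theorem Dn.of_all {d : C} {P : ∀ d' : C, (d' ⟶ d) → Prop} (H : ∀ (d' : C) (h : d' ⟶ d), P d' h) :
    Dn d P := fun d1 _ => ⟨d1, 𝟙 d1, H d1 _⟩

/-- densely dense = dense -/
theorem Dn.bind {d : C} {P Q : ∀ d' : C, (d' ⟶ d) → Prop} (H : Dn d P)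
    (hPQ : ∀ (d' : C) (h : d' ⟶ d), P d' h → Dn d' fun e k => Q e (k ≫ h)) : Dn d Q := by
  intro d1 l
  obtain ⟨d2, m, hm⟩ := H d1 l
  obtain ⟨d3, k, hk⟩ := hPQ d2 _ hm d2 (𝟙 d2)
  refine ⟨d3, k ≫ m, ?_⟩
  simpa using hk

theorem Dn.res {d : C} {P : ∀ d' : C, (d' ⟶ d) → Prop} (H : Dn d P) {d' : C} (h : d' ⟶ d) :
    Dn d' fun e k => P e (k ≫ h) := by
  intro d1 l
  obtain ⟨d2, m, hm⟩ := H d1 (l ≫ h)
  exact ⟨d2, m, by simpa using hm⟩

theorem Dn.dense {d : C} {P : ∀ d' : C, (d' ⟶ d) → Prop}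
    (H : ∀ (d1 : C) (l : d1 ⟶ d), ∃ (d2 : C) (m : d2 ⟶ d1), Dn d2 fun e k => P e (k ≫ m ≫ l)) :
    Dn d P := by
  intro d1 l
  obtain ⟨d2, m, hm⟩ := H d1 l
  obtain ⟨d3, k, hk⟩ := hm d2 (𝟙 d2)
  exact ⟨d3, k ≫ m, by simpa using hk⟩

/-- `Dn` of a conjunction, the first part being monotone -/
theorem Dn.and {d : C} {P Q : ∀ d' : C, (d' ⟶ d) → Prop} (H : Dn d P) (H' : Dn d Q)
    (hm : ∀ (d' e : C) (h : d' ⟶ d) (k : e ⟶ d'), P d' h → P e (k ≫ h)) :
    Dn d fun d' h => P d' h ∧ Q d' h := by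
  refine H.bind fun d1 l hP => ?_
  intro d2 m
  obtain ⟨d3, k, hk⟩ := H' d2 (m ≫ l)
  refine ⟨d3, k, ?_, by simpa using hk⟩
  have := hm d1 d3 l (k ≫ m) hP
  simpa using this

theorem Dn.exists {d : C} {P : ∀ d' : C, (d' ⟶ d) → Prop} (H : Dn d P) :
    ∃ (d' : C) (h : d' ⟶ d), P d' h := by
  obtain ⟨d2, m, hm⟩ := H d (𝟙 d)
  exact ⟨d2, _, hm⟩

/-! ### collapsed quantifiers -/

section quant

variable {n : ℕ} {d : C} {v : Fin n → Val C d}

theorem fc_all_imp {p q : setL.BoundedFormula Empty (n + 1)} : Fc (∀' (p ⟹ q)) v ↔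
    ∀ (d' : C) (h : d' ⟶ d) (x : Val C d'), Fc p (sn (vr h v) x) → Fc q (sn (vr h v) x) := by
  rw [fc_all]
  constructor
  · intro H d' h x hp
    have h1 := (fc_imp p q _).1 (H d' h x) d' (𝟙 d')
    simp only [vr_id] at h1
    exact h1 hp
  · intro H d' h x
    rw [fc_imp]
    intro d'' k hp
    rw [vr_sn, vr_vr] at hp ⊢
    exact H _ _ _ hp

theorem fc_all_iff {p q : setL.BoundedFormula Empty (n + 1)} : Fc (∀' (p ⇔ q)) v ↔
    ∀ (d' : C) (h : d' ⟶ d) (x : Val C d'), (Fc p (sn (vr h v) x) ↔ Fc q (sn (vr h v) x)) := by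
  rw [fc_all]
  constructor
  · intro H d' h x
    have h1 := (fc_iff p q _).1 (H d' h x) d' (𝟙 d')
    simpa only [vr_id] using h1
  · intro H d' h x
    rw [fc_iff]
    intro d'' k
    rw [vr_sn, vr_vr]
    exact H _ _ _

theorem fc_all₂ {p : setL.BoundedFormula Empty (n + 2)} : Fc (∀' ∀' p) v ↔
    ∀ (d' : C) (h : d' ⟶ d) (x y : Val C d'), Fc p (sn (sn (vr h v) x) y) := by
  rw [fc_all]
  constructor
  · intro H d' h x y
    have h1 := (fc_all p _).1 (H d' h x) d' (𝟙 d') y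
    simpa only [vr_id] using h1
  · intro H d' h x
    rw [fc_all]
    intro d'' k y
    rw [vr_sn, vr_vr]
    exact H _ _ _ _

theorem fc_all₂_imp {p q : setL.BoundedFormula Empty (n + 2)} : Fc (∀' ∀' (p ⟹ q)) v ↔
    ∀ (d' : C) (h : d' ⟶ d) (x y : Val C d'),
      Fc p (sn (sn (vr h v) x) y) → Fc q (sn (sn (vr h v) x) y) := by
  rw [fc_all]
  constructor
  · intro H d' h x y
    have h1 := (fc_all_imp (p := p) (q := q)).1 (H d' h x) d' (𝟙 d') y
    simpa only [vr_id] using h1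
  · intro H d' h x
    rw [fc_all_imp]
    intro d'' k y
    rw [vr_sn, vr_vr]
    exact H _ _ _ _

theorem fc_all₃_imp {p q : setL.BoundedFormula Empty (n + 3)} : Fc (∀' ∀' ∀' (p ⟹ q)) v ↔
    ∀ (d' : C) (h : d' ⟶ d) (x y z : Val C d'),
      Fc p (sn (sn (sn (vr h v) x) y) z) → Fc q (sn (sn (sn (vr h v) x) y) z) := by
  rw [fc_all]
  constructor
  · intro H d' h x y z
    have h1 := (fc_all₂_imp (p := p) (q := q)).1 (H d' h x) d' (𝟙 d') y z
    simpa only [vr_id] using h1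
  · intro H d' h x
    rw [fc_all₂_imp]
    intro d'' k y z
    rw [vr_sn, vr_vr]
    exact H _ _ _ _ _

theorem fc_ex_dn {p : setL.BoundedFormula Empty (n + 1)} : Fc (∃' p) v ↔
    Dn d fun d' h => ∃ x : Val C d', Fc p (sn (vr h v) x) := fc_ex p v

theorem fc_or_dn {p q : setL.BoundedFormula Empty n} : Fc (p ⊔ q) v ↔
    Dn d fun _ h => Fc p (vr h v) ∨ Fc q (vr h v) := fc_or p q v

end quant

/-! ### semantic predicates -/

section defs

variable {d : C}

/-- `w` is forced to be the singleton of `a` -/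
def Sg (w a : Val C d) : Prop :=
  ∀ (d' : C) (h : d' ⟶ d) (x : Val C d'), Mem' x (w.res h) ↔ Eq' x (a.res h)

/-- `w` is forced to be the unordered pair of `a` and `b` -/
def Up (w a b : Val C d) : Prop :=
  ∀ (d' : C) (h : d' ⟶ d) (x : Val C d'), Mem' x (w.res h) ↔
    Dn d' fun _ k => Eq' (x.res k) (a.res (k ≫ h)) ∨ Eq' (x.res k) (b.res (k ≫ h))

/-- `p` is forced to be the ordered pair of `a` and `b` -/
def Op (p a b : Val C d) : Prop :=
  ∀ (d' : C) (h : d' ⟶ d) (x : Val C d'), Mem' x (p.res h) ↔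
    Dn d' fun _ k => Sg (x.res k) (a.res (k ≫ h)) ∨ Up (x.res k) (a.res (k ≫ h)) (b.res (k ≫ h))

/-- the ordered pair of `a` and `b` is forced to be in `f` -/
def Pm (f a b : Val C d) : Prop :=
  Dn d fun d' h => ∃ p : Val C d', Mem' p (f.res h) ∧ Op p (a.res h) (b.res h)

/-- `f` is forced to be the graph of a map from `X` onto `Y` -/
def Sj (f X Y : Val C d) : Prop :=
  ((∀ (d' : C) (h : d' ⟶ d) (x : Val C d'), Mem' x (X.res h) →
    Dn d' fun d'' k => ∃ y : Val C d'', Mem' y (Y.res (k ≫ h)) ∧ Pm (f.res (k ≫ h)) (x.res k) y) ∧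
  (∀ (d' : C) (h : d' ⟶ d) (x y z : Val C d'), Mem' x (X.res h) → Pm (f.res h) x y →
    Pm (f.res h) x z → Eq' y z)) ∧
  ∀ (d' : C) (h : d' ⟶ d) (y : Val C d'), Mem' y (Y.res h) →
    Dn d' fun d'' k => ∃ x : Val C d'', Mem' x (X.res (k ≫ h)) ∧ Pm (f.res (k ≫ h)) x (y.res k)

/-- `g` is forced to be the graph of a one-to-one map from `Y` into `X` -/
def Ij (g Y X : Val C d) : Prop :=
  ((∀ (d' : C) (h : d' ⟶ d) (y : Val C d'), Mem' y (Y.res h) →
    Dn d' fun d'' k => ∃ x : Val C d'', Mem' x (X.res (k ≫ h)) ∧ Pm (g.res (k ≫ h)) (y.res k) x) ∧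
  (∀ (d' : C) (h : d' ⟶ d) (y x z : Val C d'), Mem' y (Y.res h) → Pm (g.res h) y x →
    Pm (g.res h) y z → Eq' x z)) ∧
  ∀ (d' : C) (h : d' ⟶ d) (y z x : Val C d'), Mem' y (Y.res h) → Mem' z (Y.res h) →
    Pm (g.res h) y x → Pm (g.res h) z x → Eq' y z

/-- `a` is forced to be transitive -/
def Tr (a : Val C d) : Prop :=
  ∀ (d' : C) (h : d' ⟶ d) (x y : Val C d'), Mem' y x → Mem' x (a.res h) → Mem' y (a.res h)

/-- `a` is forced to be an ordinal -/
def Od (a : Val C d) : Prop :=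
  Tr a ∧ ∀ (d' : C) (h : d' ⟶ d) (x : Val C d'), Mem' x (a.res h) → Tr x

/-- `F` is forced to be a set of non-empty pairwise disjoint sets -/
def Fam (F : Val C d) : Prop :=
  (∀ (d' : C) (h : d' ⟶ d) (x : Val C d'), Mem' x (F.res h) →
    Dn d' fun d'' k => ∃ y : Val C d'', Mem' y (x.res k)) ∧
  ∀ (d' : C) (h : d' ⟶ d) (x y z : Val C d'), Mem' x (F.res h) → Mem' y (F.res h) →
    Mem' z x → Mem' z y → Eq' x y

/-- `s` is forced to meet each element of `F` in exactly one element -/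
def Cs (F s : Val C d) : Prop :=
  ∀ (d' : C) (h : d' ⟶ d) (x : Val C d'), Mem' x (F.res h) →
    Dn d' fun d'' k => ∃ y : Val C d'', (Mem' y (x.res k) ∧ Mem' y (s.res (k ≫ h))) ∧
      ∀ (d3 : C) (l : d3 ⟶ d'') (z : Val C d3), Mem' z (x.res (l ≫ k)) →
        Mem' z (s.res (l ≫ k ≫ h)) → Eq' z (y.res l)

end defs

/-! ### the dictionary, for every assignment -/

section dict

variable {n : ℕ} {d : C} {v : Fin n → Val C d}

theorem fc_isSing {w a : Fin n} : Fc (isSing w a) v ↔ Sg (v w) (v a) := by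
  unfold isSing
  rw [fc_all_iff]
  simp only [fc_vmem, fc_veq, sn_last, sn_castSucc, vr_apply]
  rfl

theorem fc_isUPair {w a b : Fin n} : Fc (isUPair w a b) v ↔ Up (v w) (v a) (v b) := by
  unfold isUPair
  rw [fc_all_iff]
  simp only [fc_vmem, fc_veq, sn_last, sn_castSucc, vr_apply, fc_or_dn, Val.res_res]
  rfl

theorem fc_isOPair {p a b : Fin n} : Fc (isOPair p a b) v ↔ Op (v p) (v a) (v b) := by
  unfold isOPair
  rw [fc_all_iff]
  simp only [fc_vmem, fc_isSing, fc_isUPair, sn_last, sn_castSucc, vr_apply, fc_or_dn, Val.res_res]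
  rfl

theorem fc_pairMem {f a b : Fin n} : Fc (pairMem f a b) v ↔ Pm (v f) (v a) (v b) := by
  unfold pairMem
  rw [fc_ex_dn]
  simp only [fc_vmem, fc_isOPair, sn_last, sn_castSucc, vr_apply, fc_and]
  rfl

theorem fc_surjGraph {f X Y : Fin n} : Fc (surjGraph f X Y) v ↔ Sj (v f) (v X) (v Y) := by
  unfold surjGraph
  rw [fc_and, fc_and, fc_all_imp, fc_all₃_imp, fc_all_imp]
  simp only [fc_vmem, fc_veq, fc_pairMem, sn_last, sn_castSucc, vr_apply, fc_and, fc_ex_dn,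
    Val.res_res, and_imp]
  rfl

theorem fc_injGraph {g Y X : Fin n} : Fc (injGraph g Y X) v ↔ Ij (v g) (v Y) (v X) := by
  unfold injGraph
  rw [fc_and, fc_and, fc_all_imp, fc_all₃_imp, fc_all₃_imp]
  simp only [fc_vmem, fc_veq, fc_pairMem, sn_last, sn_castSucc, vr_apply, fc_and, fc_ex_dn,
    Val.res_res, and_imp]
  rfl

theorem fc_isTrans {a : Fin n} : Fc (isTrans a) v ↔ Tr (v a) := by
  unfold isTrans
  rw [fc_all₂_imp]
  simp only [fc_vmem, sn_last, sn_castSucc, vr_apply, fc_and, and_imp]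
  rfl

theorem fc_isOrd {a : Fin n} : Fc (isOrd a) v ↔ Od (v a) := by
  unfold isOrd
  rw [fc_and, fc_isTrans, fc_all_imp]
  simp only [fc_vmem, fc_isTrans, sn_last, sn_castSucc, vr_apply]
  rfl

end dict

/-! ### monotonicity, regularity, extensionality -/

section laws

variable {d : C}

theorem dense_of {n : ℕ} (φ : setL.BoundedFormula Empty n) (v : Fin n → Val C d)
    (H : Dn d fun _ h => Fc φ (vr h v)) : Fc φ v := Fc.dense φ v H

theorem Sg.res {w a : Val C d} (H : Sg w a) {d' : C} (h : d' ⟶ d) : Sg (w.res h) (a.res h) :=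
  fc_isSing.1 (Fc.mono (isSing 0 1) h ![w, a] (fc_isSing.2 H))

theorem Sg.congr {w a w' a' : Val C d} (hw : Eq' w w') (ha : Eq' a a') (H : Sg w a) : Sg w' a' :=
  fc_isSing.1 (Fc.congr (isSing 0 1) ![w, a] ![w', a']
    (fun i => by fin_cases i; exacts [hw, ha]) (fc_isSing.2 H))

theorem Sg.dense {w a : Val C d} (H : Dn d fun _ h => Sg (w.res h) (a.res h)) : Sg w a :=
  fc_isSing.1 (dense_of (isSing 0 1) ![w, a] (H.imp fun _ _ h1 => fc_isSing.2 h1))

theorem Up.res {w a b : Val C d} (H : Up w a b) {d' : C} (h : d' ⟶ d) :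
    Up (w.res h) (a.res h) (b.res h) :=
  fc_isUPair.1 (Fc.mono (isUPair 0 1 2) h ![w, a, b] (fc_isUPair.2 H))

theorem Up.congr {w a b w' a' b' : Val C d} (hw : Eq' w w') (ha : Eq' a a') (hb : Eq' b b')
    (H : Up w a b) : Up w' a' b' :=
  fc_isUPair.1 (Fc.congr (isUPair 0 1 2) ![w, a, b] ![w', a', b']
    (fun i => by fin_cases i; exacts [hw, ha, hb]) (fc_isUPair.2 H))

theorem Up.dense {w a b : Val C d} (H : Dn d fun _ h => Up (w.res h) (a.res h) (b.res h)) :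
    Up w a b :=
  fc_isUPair.1 (dense_of (isUPair 0 1 2) ![w, a, b] (H.imp fun _ _ h1 => fc_isUPair.2 h1))

theorem Op.res {p a b : Val C d} (H : Op p a b) {d' : C} (h : d' ⟶ d) :
    Op (p.res h) (a.res h) (b.res h) :=
  fc_isOPair.1 (Fc.mono (isOPair 0 1 2) h ![p, a, b] (fc_isOPair.2 H))

theorem Op.congr {p a b p' a' b' : Val C d} (hp : Eq' p p') (ha : Eq' a a') (hb : Eq' b b')
    (H : Op p a b) : Op p' a' b' :=
  fc_isOPair.1 (Fc.congr (isOPair 0 1 2) ![p, a, b] ![p', a', b']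
    (fun i => by fin_cases i; exacts [hp, ha, hb]) (fc_isOPair.2 H))

theorem Op.dense {p a b : Val C d} (H : Dn d fun _ h => Op (p.res h) (a.res h) (b.res h)) :
    Op p a b :=
  fc_isOPair.1 (dense_of (isOPair 0 1 2) ![p, a, b] (H.imp fun _ _ h1 => fc_isOPair.2 h1))

theorem Pm.res {f a b : Val C d} (H : Pm f a b) {d' : C} (h : d' ⟶ d) :
    Pm (f.res h) (a.res h) (b.res h) :=
  fc_pairMem.1 (Fc.mono (pairMem 0 1 2) h ![f, a, b] (fc_pairMem.2 H))

theorem Pm.congr {f a b f' a' b' : Val C d} (hf : Eq' f f') (ha : Eq' a a') (hb : Eq' b b')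
    (H : Pm f a b) : Pm f' a' b' :=
  fc_pairMem.1 (Fc.congr (pairMem 0 1 2) ![f, a, b] ![f', a', b']
    (fun i => by fin_cases i; exacts [hf, ha, hb]) (fc_pairMem.2 H))

theorem Pm.dense {f a b : Val C d} (H : Dn d fun _ h => Pm (f.res h) (a.res h) (b.res h)) :
    Pm f a b :=
  fc_pairMem.1 (dense_of (pairMem 0 1 2) ![f, a, b] (H.imp fun _ _ h1 => fc_pairMem.2 h1))

theorem Sj.res {f X Y : Val C d} (H : Sj f X Y) {d' : C} (h : d' ⟶ d) :
    Sj (f.res h) (X.res h) (Y.res h) :=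
  fc_surjGraph.1 (Fc.mono (surjGraph 0 1 2) h ![f, X, Y] (fc_surjGraph.2 H))

theorem Sj.congr {f a b f' a' b' : Val C d} (hf : Eq' f f') (ha : Eq' a a') (hb : Eq' b b')
    (H : Sj f a b) : Sj f' a' b' :=
  fc_surjGraph.1 (Fc.congr (surjGraph 0 1 2) ![f, a, b] ![f', a', b']
    (fun i => by fin_cases i; exacts [hf, ha, hb]) (fc_surjGraph.2 H))

theorem Sj.dense {f a b : Val C d} (H : Dn d fun _ h => Sj (f.res h) (a.res h) (b.res h)) :
    Sj f a b :=
  fc_surjGraph.1 (dense_of (surjGraph 0 1 2) ![f, a, b] (H.imp fun _ _ h1 => fc_surjGraph.2 h1))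

theorem Ij.res {g Y X : Val C d} (H : Ij g Y X) {d' : C} (h : d' ⟶ d) :
    Ij (g.res h) (Y.res h) (X.res h) :=
  fc_injGraph.1 (Fc.mono (injGraph 0 1 2) h ![g, Y, X] (fc_injGraph.2 H))

theorem Ij.congr {f a b f' a' b' : Val C d} (hf : Eq' f f') (ha : Eq' a a') (hb : Eq' b b')
    (H : Ij f a b) : Ij f' a' b' :=
  fc_injGraph.1 (Fc.congr (injGraph 0 1 2) ![f, a, b] ![f', a', b']
    (fun i => by fin_cases i; exacts [hf, ha, hb]) (fc_injGraph.2 H))

theorem Ij.dense {f a b : Val C d} (H : Dn d fun _ h => Ij (f.res h) (a.res h) (b.res h)) :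
    Ij f a b :=
  fc_injGraph.1 (dense_of (injGraph 0 1 2) ![f, a, b] (H.imp fun _ _ h1 => fc_injGraph.2 h1))

theorem Tr.res {a : Val C d} (H : Tr a) {d' : C} (h : d' ⟶ d) : Tr (a.res h) :=
  fc_isTrans.1 (Fc.mono (isTrans 0) h ![a] (fc_isTrans.2 H))

theorem Tr.congr {a a' : Val C d} (ha : Eq' a a') (H : Tr a) : Tr a' :=
  fc_isTrans.1 (Fc.congr (isTrans 0) ![a] ![a']
    (fun i => by fin_cases i; exacts [ha]) (fc_isTrans.2 H))

theorem Tr.dense {a : Val C d} (H : Dn d fun _ h => Tr (a.res h)) : Tr a :=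
  fc_isTrans.1 (dense_of (isTrans 0) ![a] (H.imp fun _ _ h1 => fc_isTrans.2 h1))

theorem Od.res {a : Val C d} (H : Od a) {d' : C} (h : d' ⟶ d) : Od (a.res h) :=
  fc_isOrd.1 (Fc.mono (isOrd 0) h ![a] (fc_isOrd.2 H))

theorem Od.congr {a a' : Val C d} (ha : Eq' a a') (H : Od a) : Od a' :=
  fc_isOrd.1 (Fc.congr (isOrd 0) ![a] ![a']
    (fun i => by fin_cases i; exacts [ha]) (fc_isOrd.2 H))

theorem Od.dense {a : Val C d} (H : Dn d fun _ h => Od (a.res h)) : Od a :=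
  fc_isOrd.1 (dense_of (isOrd 0) ![a] (H.imp fun _ _ h1 => fc_isOrd.2 h1))

/-- the elements of an ordinal are ordinals -/
theorem Od.mem {a x : Val C d} (H : Od a) (hx : Mem' x a) : Od x := by
  refine ⟨?_, fun d' h y hy => ?_⟩
  · have := H.2 d (𝟙 d) x (by simpa using hx)
    exact this
  · refine H.2 d' h y ?_
    have h1 := H.1 d' h (x.res h) y hy (hx.res h)
    exact h1

end laws

/-! ### the three principles -/

section principles

variable {d : C}

theorem sn1_0 {v : Fin 0 → Val C d} {x : Val C d} : sn v x 0 = x := rfl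
theorem sn2_0 {v : Fin 0 → Val C d} {x y : Val C d} : sn (sn v x) y 0 = x := rfl
theorem sn2_1 {v : Fin 0 → Val C d} {x y : Val C d} : sn (sn v x) y 1 = y := rfl
theorem sn3_0 {v : Fin 0 → Val C d} {x y z : Val C d} : sn (sn (sn v x) y) z 0 = x := rfl
theorem sn3_1 {v : Fin 0 → Val C d} {x y z : Val C d} : sn (sn (sn v x) y) z 1 = y := rfl
theorem sn3_2 {v : Fin 0 → Val C d} {x y z : Val C d} : sn (sn (sn v x) y) z 2 = z := rfl
theorem sn4_0 {v : Fin 0 → Val C d} {x y z a : Val C d} : sn (sn (sn (sn v x) y) z) a 0 = x := rfl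
theorem sn4_1 {v : Fin 0 → Val C d} {x y z a : Val C d} : sn (sn (sn (sn v x) y) z) a 1 = y := rfl
theorem sn4_2 {v : Fin 0 → Val C d} {x y z a : Val C d} : sn (sn (sn (sn v x) y) z) a 2 = z := rfl
theorem sn4_3 {v : Fin 0 → Val C d} {x y z a : Val C d} : sn (sn (sn (sn v x) y) z) a 3 = a := rfl
theorem sn5_0 {v : Fin 0 → Val C d} {x y z a b : Val C d} :
    sn (sn (sn (sn (sn v x) y) z) a) b 0 = x := rfl
theorem sn5_1 {v : Fin 0 → Val C d} {x y z a b : Val C d} :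
    sn (sn (sn (sn (sn v x) y) z) a) b 1 = y := rfl
theorem sn5_2 {v : Fin 0 → Val C d} {x y z a b : Val C d} :
    sn (sn (sn (sn (sn v x) y) z) a) b 2 = z := rfl
theorem sn5_3 {v : Fin 0 → Val C d} {x y z a b : Val C d} :
    sn (sn (sn (sn (sn v x) y) z) a) b 3 = a := rfl
theorem sn5_4 {v : Fin 0 → Val C d} {x y z a b : Val C d} :
    sn (sn (sn (sn (sn v x) y) z) a) b 4 = b := rfl
theorem sn6_2 {v : Fin 0 → Val C d} {x y z a b e : Val C d} :
    sn (sn (sn (sn (sn (sn v x) y) z) a) b) e 2 = z := rfl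
theorem sn6_3 {v : Fin 0 → Val C d} {x y z a b e : Val C d} :
    sn (sn (sn (sn (sn (sn v x) y) z) a) b) e 3 = a := rfl
theorem sn6_4 {v : Fin 0 → Val C d} {x y z a b e : Val C d} :
    sn (sn (sn (sn (sn (sn v x) y) z) a) b) e 4 = b := rfl
theorem sn6_5 {v : Fin 0 → Val C d} {x y z a b e : Val C d} :
    sn (sn (sn (sn (sn (sn v x) y) z) a) b) e 5 = e := rfl

/-- **PP** -/
theorem fs_ppAx : Fs d ppAx ↔ ∀ (d' : C) (_ : d' ⟶ d) (X Y f : Val C d'), Sj f X Y →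
    Dn d' fun d'' k => ∃ g : Val C d'', Ij g (Y.res k) (X.res k) := by
  unfold Fs ppAx
  rw [fc_all₂_imp]
  simp only [fc_ex_dn, fc_surjGraph, fc_injGraph, vr_sn, sn3_0, sn3_1, sn3_2]
  constructor
  · intro H d' h X Y f hf
    exact H d' h X Y fun d1 l => ⟨d1, 𝟙 d1, f.res l, by simpa using hf.res l⟩
  · intro H d' h X Y hf
    refine hf.bind fun d1 l => ?_
    rintro ⟨f, hf⟩
    refine (H d1 (l ≫ h) _ _ f hf).imp fun d2 m => ?_
    rintro ⟨g, hg⟩
    exact ⟨g, by simpa using hg⟩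

/-- **AC_WO** -/
theorem fs_acwoAx : Fs d acwoAx ↔ ∀ (d' : C) (_ : d' ⟶ d) (α f : Val C d'), Od α →
    (∀ (e : C) (k : e ⟶ d') (x : Val C e), Mem' x (α.res k) →
      Dn e fun e' l => ∃ y : Val C e', Pm (f.res (l ≫ k)) (x.res l) y) →
    Dn d' fun d'' k => ∃ g : Val C d'', ∀ (e : C) (l : e ⟶ d'') (x : Val C e),
      Mem' x (α.res (l ≫ k)) → Dn e fun e' m => ∃ y : Val C e',
        (Pm (g.res (m ≫ l)) (x.res m) y ∧ Pm (f.res (m ≫ l ≫ k)) (x.res m) y) ∧
        ∀ (e'' : C) (j : e'' ⟶ e') (z : Val C e''),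
          Pm (g.res (j ≫ m ≫ l)) (x.res (j ≫ m)) z → Eq' z (y.res j) := by
  unfold Fs acwoAx
  rw [fc_all₂_imp]
  simp only [fc_ex_dn, fc_and, fc_isOrd, fc_all_imp, fc_vmem, fc_veq, fc_pairMem, vr_sn, sn3_0,
    sn2_0, sn3_2, sn4_0, sn4_1, sn4_2, sn4_3, sn5_1, sn5_2, sn5_3, sn5_4, sn6_2, sn6_3,
    sn6_4, sn6_5, Val.res_res, and_imp]

/-- **AC** -/
theorem fs_acAx : Fs d acAx ↔ ∀ (d' : C) (_ : d' ⟶ d) (F : Val C d'), Fam F →
    Dn d' fun d'' k => ∃ s : Val C d'', Cs (F.res k) s := by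
  unfold Fs acAx
  rw [fc_all_imp]
  simp only [fc_ex_dn, fc_and, fc_all_imp, fc_all₂_imp, fc_vmem, fc_veq, vr_sn, sn2_0, sn2_1,
    sn3_0, sn3_1, sn3_2, sn4_1, sn4_2, sn4_3, sn5_2, sn5_3, sn5_4,
    sn5_1, Val.res_res, and_imp]
  refine forall_congr' fun d' => forall_congr' fun h => forall_congr' fun F => ?_
  have key : (∀ (e : C) (k : e ⟶ d') (x y : Val C e), Mem' x (F.res k) → Mem' y (F.res k) →
      (Dn e fun e' l => ∃ z : Val C e', Mem' z (x.res l) ∧ Mem' z (y.res l)) → Eq' x y) ↔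
      ∀ (e : C) (k : e ⟶ d') (x y z : Val C e), Mem' x (F.res k) → Mem' y (F.res k) →
        Mem' z x → Mem' z y → Eq' x y := by
    constructor
    · intro H e k x y z hx hy hzx hzy
      exact H e k x y hx hy (Dn.of_all fun e' l => ⟨z.res l, hzx.res l, hzy.res l⟩)
    · intro H e k x y hx hy hz
      refine Eq'.of_dense fun d1 l => ?_
      obtain ⟨d2, m, z, hz1, hz2⟩ := hz d1 l
      refine ⟨d2, m, H d2 ((m ≫ l) ≫ k) _ _ z ?_ ?_ hz1 hz2⟩
      · simpa using hx.res (m ≫ l)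
      · simpa using hy.res (m ≫ l)
  rw [key]
  simp only [Fam, Cs, Val.res_res, and_imp]

/-- **not AC**: at a dense set of stages there is a family without choice set at any further stage -/
theorem fs_not_acAx : Fs d (∼acAx) ↔ Dn d fun d' _ => ∃ F : Val C d', Fam F ∧
    ∀ (d'' : C) (k : d'' ⟶ d') (s : Val C d''), ¬ Cs (F.res k) s := by
  have h0 : Fs d (∼acAx) ↔ ∀ (d' : C) (_ : d' ⟶ d), ¬ Fs d' acAx := by
    unfold Fs
    rw [fc_not]
    exact forall_congr' fun d' => forall_congr' fun h => by rw [vr_e0]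
  rw [h0]
  constructor
  · intro H d' h
    have h1 := H d' h
    rw [fs_acAx] at h1
    push Not at h1
    obtain ⟨d1, h1, F, hF, hn⟩ := h1
    have h2 : ∃ (d2 : C) (l : d2 ⟶ d1), ∀ (d3 : C) (m : d3 ⟶ d2) (s : Val C d3),
        ¬ Cs (F.res (m ≫ l)) s := by
      by_contra hc
      apply hn
      intro d2 l
      by_contra hc2
      apply hc
      refine ⟨d2, l, fun d3 m s hs => hc2 ⟨d3, m, s, hs⟩⟩
    obtain ⟨d2, l, h3⟩ := h2
    refine ⟨d2, l ≫ h1, F.res l, ?_, fun d3 m s => by simpa using h3 d3 m s⟩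
    obtain ⟨hF1, hF2⟩ := hF
    refine ⟨fun e k x hx => ?_, fun e k x y z hx hy => ?_⟩
    · exact hF1 e (k ≫ l) x (by simpa using hx)
    · exact hF2 e (k ≫ l) x y z (by simpa using hx) (by simpa using hy)
  · intro H d' h hac
    rw [fs_acAx] at hac
    obtain ⟨d2, m, F, hF, hn⟩ := H d' h
    obtain ⟨d3, k, s, hs⟩ := (hac d2 m F hF).exists
    exact hn d3 k s hs

end principles

end Crest.Agent.R296.Logicx644
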