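import Crest.Agent.R296.LctSt_153
import Crest.Agent.R296.Beta_365
import Crest.Agent.R296.Lct2_153

/-!
# Row 296 (S0448), helper763: injective odd codes of (condition, element, ordinal) above all bounds
-/

set_option autoImplicit false
set_option linter.unusedSectionVars false

namespace Crest.Agent.R296.Needx763

open CategoryTheory
open Crest.Agent.R296.IfAx378 Crest.Agent.R296.CondCx153 Crest.Agent.R296.LctStx153

variable {P : Type 1} [Monoid P] {A : Ordinal.{0} → Submonoid P}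

/-- all labels with points in `A γ` and bit numbers below `γ` -/
def box (A : Ordinal.{0} → Submonoid P) (γ : Ordinal.{0}) : Set (P × Lab) :=
  {x | x.1 ∈ A γ ∧ x.2.1 < γ}

theorem small_box (hs : ∀ β, Small.{0} (A β)) (γ : Ordinal.{0}) : Small.{0} (box A γ) := by
  have := hs γ
  have h2 : Function.Injective (fun x : box A γ =>
      ((⟨x.1.1, x.2.1⟩, ⟨x.1.2.1, x.2.2⟩, x.1.2.2) : A γ × Set.Iio γ × Bool)) := by
    rintro ⟨⟨a, b, c⟩, h⟩ ⟨⟨a', b', c'⟩, h'⟩ e
    have e1 : a = a' := congrArg (fun z => (z.1 : P)) e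
    have e2 : b = b' := congrArg (fun z => (z.2.1 : Ordinal.{0})) e
    have e3 : c = c' := congrArg (fun z => z.2.2) e
    subst e1 e2 e3
    rfl
  exact small_of_injective h2

theorem box_mono (hm : Monotone A) {γ δ : Ordinal.{0}} (h : γ ≤ δ) : box A γ ⊆ box A δ :=
  fun _ hx => ⟨hm h hx.1, hx.2.trans_le h⟩

/-- the bounds of a triple -/
def Bd (A : Ordinal.{0} → Submonoid P) (k : Cond P × P × Ordinal.{0}) (γ : Ordinal.{0}) : Prop :=
  k.1.q ⊆ box A γ ∧ k.2.1 ∈ A γ ∧ k.2.2 ≤ γ

theorem exists_bd (hm : Monotone A) (he : ∀ p : P, ∃ β, p ∈ A β) (k : Cond P × P × Ordinal.{0}) :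
    ∃ γ, Bd A k γ := by
  choose rk hrk using he
  have := k.1.h.small
  obtain ⟨μ, hμ⟩ := Ordinal.bddAbove_of_small (s := (fun z : P × Lab => max (rk z.1) (Order.succ z.2.1)) '' k.1.q)
  refine ⟨max μ (max (rk k.2.1) k.2.2), fun z hz => ?_, ?_, ?_⟩
  · have h1 : max (rk z.1) (Order.succ z.2.1) ≤ μ := hμ ⟨z, hz, rfl⟩
    exact ⟨hm ((le_max_left _ _).trans (h1.trans (le_max_left _ _))) (hrk z.1),
      (Order.succ_le_iff.1 ((le_max_right _ _).trans h1)).trans_le (le_max_left _ _)⟩
  · exact hm ((le_max_left _ _).trans (le_max_right _ _)) (hrk _)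
  · exact (le_max_right _ _).trans (le_max_right _ _)

/-- **codes** -/
theorem exists_code (hm : Monotone A) (hs : ∀ β, Small.{0} (A β)) (he : ∀ p : P, ∃ β, p ∈ A β) :
    ∃ β : Cond P × P × Ordinal.{0} → Ordinal.{0}, Function.Injective β ∧
      ∀ k, Bd A k (β k) ∧ β k % 2 = 1 := by
  classical
  choose need hneed using exists_bd hm he
  obtain ⟨β, hβ, h1⟩ := Betax365.exists_beta need (fun γ => by
    have := small_box hs γ
    have := hs γ
    have hb : ∀ k : {k | need k = γ}, Bd A k.1 γ := fun k => by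
      have := hneed k.1
      rwa [show need k.1 = γ from k.2] at this
    have h2 : Function.Injective (fun k : {k | need k = γ} =>
        (({x | x.1 ∈ k.1.1.q}, ⟨k.1.2.1, (hb k).2.1⟩, ⟨k.1.2.2, (hb k).2.2⟩) :
          Set (box A γ) × A γ × Set.Iic γ)) := by
      rintro ⟨⟨⟨q, hq⟩, b, c⟩, h⟩ ⟨⟨⟨q', hq'⟩, b', c'⟩, h'⟩ e
      have e1 : ({x : box A γ | x.1 ∈ q} : Set (box A γ)) = {x | x.1 ∈ q'} :=
        congrArg (fun z => z.1) e
      have e3 : b = b' := congrArg (fun z => (z.2.1 : P)) e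
      have e4 : c = c' := congrArg (fun z => (z.2.2 : Ordinal.{0})) e
      subst e3 e4
      have e2 : q = q' := by
        ext x
        constructor
        · intro hx
          have := Set.ext_iff.1 e1 ⟨x, (hb ⟨_, h⟩).1 hx⟩
          exact this.1 hx
        · intro hx
          have := Set.ext_iff.1 e1 ⟨x, (hb ⟨_, h'⟩).1 hx⟩
          exact this.2 hx
      subst e2
      rfl
    exact small_of_injective h2)
  refine ⟨β, hβ, fun k => ⟨?_, (h1 k).2⟩⟩
  have h3 := hneed k
  have h4 := (h1 k).1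
  exact ⟨h3.1.trans (box_mono hm h4), hm h4 h3.2.1, h3.2.2.trans h4⟩

end Crest.Agent.R296.Needx763
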