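import Crest.Agent.R296.Lct3_153

/-!
# Row 296 (S0448), block C (helper153): normal forms of values (from `lct`)

* `norm1` : a value `x` over `q1` becomes total or rigid over some `q2 ⊇ q1`;
* `norm2` : a pair (point `p`, value `x`) becomes rigid over some `q2 ⊇ q1`, the filter contains only
  divisors of `p`;
* `RForm.mono` : stability under extension of the labels / under arrows `q3 ⟶ q2` with value one.
-/

set_option autoImplicit false
set_option linter.unusedSectionVars false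
set_option linter.unusedVariables false

open CategoryTheory

namespace Crest.Agent.R296.Normx153

open Crest.Agent.R296.IfAx378 Crest.Agent.R296.CondCx153 Crest.Agent.R296.CatFx365
  Crest.Agent.R296.LctStx153 Crest.Agent.R296.Lctx153

variable {P : Type 1} [Monoid P] [IsGood P] {A : Ordinal.{0} → Submonoid P}

@[simp] theorem incl_comp {q1 q2 q3 : Cond P} (h : q1.q ⊆ q2.q) (h' : q2.q ⊆ q3.q) :
    incl h' ≫ incl h = incl (h.trans h') := by
  apply hom_ext
  simp

/-- rigid form of a value: `w ⊩ f x = g x` iff `f = g` on a member of `F` -/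
def Rigid1 {q : Cond P} (x : Val (Cond P) q) (F : Filt P) : Prop :=
  ∀ (w : Cond P) (f g : w ⟶ q), Eq' (x.res f) (x.res g) ↔ ∃ t ∈ F.S, f.1 * t = g.1 * t

/-- constant value -/
def Const1 {q : Cond P} (x : Val (Cond P) q) : Prop :=
  ∀ (w : Cond P) (f g : w ⟶ q), Eq' (x.res f) (x.res g)

/-- rigid form of a pair (point, value) -/
def Rigid2 {q : Cond P} (p : P) (x : Val (Cond P) q) (F : Filt P) : Prop :=
  ∀ (w : Cond P) (f g : w ⟶ q), (f.1 * p = g.1 * p ∧ Eq' (x.res f) (x.res g)) ↔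
    ∃ t ∈ F.S, f.1 * t = g.1 * t

theorem Rigid1.mono {q q' : Cond P} (h : q.q ⊆ q'.q) {x : Val (Cond P) q} {F : Filt P}
    (H : Rigid1 x F) : Rigid1 (x.res (incl h)) F := by
  intro w f g
  have := H w (f ≫ incl h) (g ≫ incl h)
  simpa using this

theorem Const1.mono {q q' : Cond P} (h : q.q ⊆ q'.q) {x : Val (Cond P) q}
    (H : Const1 x) : Const1 (x.res (incl h)) := by
  intro w f g
  have := H w (f ≫ incl h) (g ≫ incl h)
  simpa using this

theorem Rigid2.mono {q q' : Cond P} (h : q.q ⊆ q'.q) {p : P} {x : Val (Cond P) q} {F : Filt P}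
    (H : Rigid2 p x F) : Rigid2 p (x.res (incl h)) F := by
  intro w f g
  have := H w (f ≫ incl h) (g ≫ incl h)
  simpa using this

theorem norm1 (K : Kit P A) {q1 : Cond P} (x : Val (Cond P) q1) :
    ∃ (q2 : Cond P) (h : q1.q ⊆ q2.q),
      Const1 (x.res (incl h)) ∨ ∃ F : Filt P, Rigid1 (x.res (incl h)) F := by
  obtain ⟨q2, h, H⟩ := lct K q1 (valRel x)
  refine ⟨q2, h, ?_⟩
  cases H with
  | total H =>
    left
    intro w f g
    have := H w f g
    simpa [valRel] using this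
  | filt F H =>
    right
    refine ⟨F, fun w f g => ?_⟩
    have := H w f g
    simpa [valRel] using this

/-- two different arrows into `q` which are free over `s` (`s ≠ 1`) -/
theorem free_pair (K : Kit P A) (q : Cond P) {s : P} (hs : s ≠ 1) :
    ∃ (w : Cond P) (f g : w ⟶ q), f.1 * s = g.1 * s ∧ IsLcm f.1 g.1 s s := by
  obtain ⟨k, hk, _⟩ := K.letr ∅ inferInstance (by simp)
  obtain ⟨z, hz, hz1, hS, hc⟩ := partner K (q.h.psh k) q.h hs (b := k * s) (left_ne_one hk) {k}
    inferInstance (fun y l hy => by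
      rw [mul_assoc, mul_mem_psh]
      exact q.h.con _ _ hy)
  refine ⟨⟨_, hc⟩, ⟨k, fun x hx => Or.inl hx⟩, ⟨z, fun x hx => Or.inr hx⟩, hz.symm, ?_⟩
  exact isLcm_of_partner hz (hS k rfl hk)

/-- two disjoint arrows into `q` -/
theorem disj_pair (K : Kit P A) (q : Cond P) :
    ∃ (w : Cond P) (f g : w ⟶ q), Disj f.1 g.1 := by
  obtain ⟨k, hk, _⟩ := K.letr ∅ inferInstance (by simp)
  have := small_pts (q.h.psh k)
  obtain ⟨z, hz1, hz⟩ := K.letr (({k} ∪ pts (psh k q.q)) \ {1})
    (small_subset Set.sdiff_subset) (by simp)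
  have hc : IsCond (psh k q.q ∪ psh z q.q) := by
    refine (q.h.psh k).union (q.h.psh z) fun p l hp hp' => ?_
    obtain ⟨s, hs, rfl⟩ := mem_psh.1 hp'
    exact hz _ ⟨Or.inr (mem_pts hp), by simpa using left_ne_one hz1⟩ s 1 (by rw [mul_one])
  refine ⟨⟨_, hc⟩, ⟨k, fun x hx => Or.inl hx⟩, ⟨z, fun x hx => Or.inr hx⟩, ?_⟩
  intro x y hxy
  exact hz k ⟨Or.inl rfl, by simpa using hk⟩ y x hxy.symm

theorem norm2 (K : Kit P A) {q1 : Cond P} (p : P) (x : Val (Cond P) q1) :
    ∃ (q2 : Cond P) (h : q1.q ⊆ q2.q) (F : Filt P),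
      Rigid2 p (x.res (incl h)) F ∧ ∀ s ∈ F.S, s ∣ p := by
  obtain ⟨q2, h, H⟩ := lct K q1 (ptRel p x)
  refine ⟨q2, h, ?_⟩
  cases H with
  | total H =>
    exfalso
    obtain ⟨w, f, g, hd⟩ := disj_pair K q2
    have h1 := (H w f g).1
    simp only [comp_val, incl_val, mul_one] at h1
    exact hd p p h1
  | filt F H =>
    have HR : Rigid2 p (x.res (incl h)) F := fun w f g => by
      have := H w f g
      simpa [ptRel] using this
    refine ⟨F, HR, fun s hs => ?_⟩
    by_cases hs1 : s = 1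
    · rw [hs1]; exact one_dvd _
    obtain ⟨w, f, g, he, hl⟩ := free_pair K q2 hs1
    have h1 := ((HR w f g).2 ⟨s, hs, he⟩).1
    obtain ⟨t, ht, _⟩ := hl.2 _ _ h1
    exact ⟨t, ht⟩

/-- in a rigid value: `u` supports it iff `u ∈ F` -/
theorem Rigid1.mem_iff (K : Kit P A) {q : Cond P} {x : Val (Cond P) q} {F : Filt P}
    (H : Rigid1 x F) (u : P) :
    u ∈ F.S ↔ ∀ (w : Cond P) (f g : w ⟶ q), f.1 * u = g.1 * u → Eq' (x.res f) (x.res g) := by
  constructor
  · intro hu w f g he
    exact (H w f g).2 ⟨u, hu, he⟩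
  · intro hu
    by_cases hu1 : u = 1
    · rw [hu1]; exact F.one
    obtain ⟨w, f, g, he, hl⟩ := free_pair K q hu1
    obtain ⟨t, ht, he2⟩ := (H w f g).1 (hu w f g he)
    obtain ⟨r, hr, _⟩ := hl.2 _ _ he2
    exact F.up u t ⟨r, hr⟩ ht

end Crest.Agent.R296.Normx153
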