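import Crest.Agent.R296.Loc_929
import Crest.Agent.R296.CatOrd_622
import Crest.Agent.R296.CatZF_365

/-!
Row 296 (S0448), helper929.  **Block C, leaf C6: every label condition forces the negation of choice.**

* `famv` : the value given by a family of members; `mem_famv`;
* `gen s c` : the generic point `x_s` at the condition `c` (`x_s|h = x_{hs}`), `gen_inj`;
* `zr r c` : the set `Z_r = {x_s : s f0 = r}`, `Zv c` : the set `{Z_r : r ≠ 1}`;
* `not_ac : Fs c (∼acAx)`.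
-/

set_option autoImplicit false
set_option linter.unusedSimpArgs false

namespace Crest.Agent.R296.NotACx929

open CategoryTheory FirstOrder FirstOrder.Language Crest.LogicCS.SetTheory
open Crest.Agent.R296.CatFx365 Crest.Agent.R296.CatFrcx365 Crest.Agent.R296.IfAx378
open Crest.Agent.R296.CondCx153 Crest.Agent.R296.Locx929 Crest.Agent.R296.CatOrdx622
open Crest.Agent.R296.CatZFx365

/-! ### values given by a family of members -/

section fam
universe u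
variable {C : Type u} [Category.{u} C]

/-- the value whose members over `f : b ⟶ c` are `v b f j`, `A b f j` -/
def famv {c : C} (J : Type u) (A : ∀ (b : C), (b ⟶ c) → J → Prop)
    (v : ∀ (b : C), (b ⟶ c) → J → Val C b) : Val C c :=
  mkv (Σ (b : C) (f : b ⟶ c), {j : J // A b f j}) (fun t => t.1) (fun t => t.2.1)
    (fun t => v t.1 t.2.1 t.2.2.1)

lemma mem_famv {c : C} {J : Type u} {A : ∀ (b : C), (b ⟶ c) → J → Prop}
    {v : ∀ (b : C), (b ⟶ c) → J → Val C b}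
    (mono : ∀ (b b' : C) (f : b ⟶ c) (k : b' ⟶ b) (j : J), A b f j →
      ∃ j', A b' (k ≫ f) j' ∧ Eq' ((v b f j).res k) (v b' (k ≫ f) j'))
    {c' : C} (h : c' ⟶ c) (z : Val C c') : Mem' z ((famv J A v).res h) ↔
      ∀ (d1 : C) (l : d1 ⟶ c'), ∃ (d2 : C) (m : d2 ⟶ d1) (j : J), A d2 ((m ≫ l) ≫ h) j ∧
        Eq' (z.res (m ≫ l)) (v d2 ((m ≫ l) ≫ h) j) := by
  rw [famv, mem_mkv]
  refine forall_congr' fun d1 => forall_congr' fun l => exists_congr fun d2 => exists_congr fun m => ?_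
  constructor
  · rintro ⟨⟨b, f, j, hj⟩, k, h1, h2⟩
    obtain ⟨j', hj', h3⟩ := mono b d2 f k j hj
    change (m ≫ l) ≫ h = k ≫ f at h1
    refine ⟨j', by rw [h1]; exact hj', ?_⟩
    have h4 := h2.trans h3
    rwa [← h1] at h4
  · rintro ⟨j, hj, h2⟩
    refine ⟨⟨d2, (m ≫ l) ≫ h, j, hj⟩, 𝟙 d2, ?_, ?_⟩
    · exact (Category.id_comp _).symm
    · change Eq' (z.res (m ≫ l)) ((v d2 ((m ≫ l) ≫ h) j).res (𝟙 d2))
      rw [Val.res_id]
      exact h2

end fam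

variable {P : Type 1} [Monoid P] [IsGood P]

/-! ### generic points -/

/-- the generic point `x_s` at the condition `c` -/
noncomputable def gen (s : P) (c : Cond P) : Val (Cond P) c :=
  famv (ULift.{1} Ordinal.{0}) (fun b f i => (f.1 * s, (i.down, true)) ∈ b.q)
    (fun b _ i => ov (Ordinal.lift.{1, 0} i.down) b)

lemma mem_gen (s : P) {c c' : Cond P} (h : c' ⟶ c) (z : Val (Cond P) c') :
    Mem' z ((gen s c).res h) ↔
      ∀ (d1 : Cond P) (l : d1 ⟶ c'), ∃ (d2 : Cond P) (m : d2 ⟶ d1) (i : Ordinal.{0}),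
        ((m ≫ l).1 * (h.1 * s), (i, true)) ∈ d2.q ∧
          Eq' (z.res (m ≫ l)) (ov (Ordinal.lift.{1, 0} i) d2) := by
  rw [gen, mem_famv]
  · refine forall_congr' fun d1 => forall_congr' fun l => exists_congr fun d2 =>
      exists_congr fun m => ?_
    constructor
    · rintro ⟨⟨i⟩, h1, h2⟩
      refine ⟨i, ?_, h2⟩
      rw [← mul_assoc]
      exact h1
    · rintro ⟨i, h1, h2⟩
      refine ⟨⟨i⟩, ?_, h2⟩
      rw [← mul_assoc] at h1
      exact h1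
  · intro b b' f k j hj
    refine ⟨j, ?_, ov_res _ k⟩
    have := arr_mem k hj
    rw [← mul_assoc] at this
    exact this

lemma mem_gen' (s : P) {c : Cond P} (z : Val (Cond P) c) :
    Mem' z (gen s c) ↔
      ∀ (d1 : Cond P) (l : d1 ⟶ c), ∃ (d2 : Cond P) (m : d2 ⟶ d1) (i : Ordinal.{0}),
        ((m ≫ l).1 * s, (i, true)) ∈ d2.q ∧
          Eq' (z.res (m ≫ l)) (ov (Ordinal.lift.{1, 0} i) d2) := by
  have := mem_gen s (𝟙 c) z
  rw [Val.res_id] at this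
  rw [this]
  simp

lemma gen_res (s : P) {c c' : Cond P} (h : c' ⟶ c) :
    Eq' ((gen s c).res h) (gen (h.1 * s) c') := by
  refine ext' fun d1 l z => ?_
  rw [Val.res_res, mem_gen, mem_gen]
  simp only [comp_val, mul_assoc]

/-- the positive bits -/
lemma gen_true {s : P} {c : Cond P} {i : Ordinal.{0}} (h : (s, (i, true)) ∈ c.q) :
    Mem' (ov (Ordinal.lift.{1, 0} i) c) (gen s c) := by
  rw [mem_gen']
  intro d1 l
  refine ⟨d1, 𝟙 d1, i, ?_, ?_⟩
  · rw [Category.id_comp]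
    exact arr_mem l h
  · exact ov_res _ _

/-- the negative bits -/
lemma gen_false {s : P} {c : Cond P} {i : Ordinal.{0}} (h : (s, (i, false)) ∈ c.q) :
    ¬ Mem' (ov (Ordinal.lift.{1, 0} i) c) (gen s c) := by
  intro H
  rw [mem_gen'] at H
  obtain ⟨d2, m, j, h1, h2⟩ := H c (𝟙 c)
  have h3 : Eq' (ov (Ordinal.lift.{1, 0} i) d2) (ov (Ordinal.lift.{1, 0} j) d2) :=
    (ov_res _ _).symm.trans h2
  rw [ov_eq_iff, Ordinal.lift_inj] at h3
  subst h3
  have h4 := arr_mem (m ≫ 𝟙 c) h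
  exact d2.h.con _ _ h1 h4

lemma exists_fresh (c : Cond P) (s : P) : ∃ i : Ordinal.{0}, ∀ b, (s, (i, b)) ∉ c.q := by
  by_contra H
  push Not at H
  have hs := c.h.small
  have : Small.{0} Ordinal.{0} := by
    choose b hb using H
    refine small_of_injective (β := c.q) (f := fun i => ⟨(s, (i, b i)), hb i⟩) ?_
    intro i j hij
    simp only [Subtype.mk.injEq, Prod.mk.injEq] at hij
    exact hij.2.1
  exact not_small_ordinal.{0, 0} this

/-- two fresh coordinates for two points at the same time -/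
lemma exists_fresh2 (c : Cond P) (s t : P) : ∃ i : Ordinal.{0}, ∀ b, (s, (i, b)) ∉ c.q ∧ (t, (i, b)) ∉ c.q := by
  by_contra H
  push Not at H
  have hs := c.h.small
  have : Small.{0} Ordinal.{0} := by
    have h1 : ∀ i : Ordinal.{0}, ∃ x : P × Bool, (x.1, (i, x.2)) ∈ c.q := by
      intro i
      obtain ⟨b, hb⟩ := H i
      by_cases h : (s, (i, b)) ∈ c.q
      · exact ⟨(s, b), h⟩
      · exact ⟨(t, b), hb h⟩
    choose x hx using h1
    refine small_of_injective (β := c.q) (f := fun i => ⟨((x i).1, (i, (x i).2)), hx i⟩) ?_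
    intro i j hij
    simp only [Subtype.mk.injEq, Prod.mk.injEq] at hij
    exact hij.2.1
  exact not_small_ordinal.{0, 0} this

/-- adding a label -/
lemma exists_add (c : Cond P) (s : P) (l : Lab) (h : (s, Lab.neg l) ∉ c.q) :
    ∃ d : Cond P, c.q ⊆ d.q ∧ (s, l) ∈ d.q ∧ ∀ x, x ∈ d.q → x ∈ c.q ∨ x = (s, l) := by
  have hc : IsCond (P := P) {(s, l)} := by
    refine ⟨inferInstance, ?_⟩
    intro t l' h1 h2
    rw [Set.mem_singleton_iff] at h1 h2
    obtain ⟨rfl, rfl⟩ := Prod.mk.inj h1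
    have := (Prod.mk.inj h2).2
    exact Lab.neg_ne _ this
  refine ⟨⟨c.q ∪ {(s, l)}, c.h.union hc ?_⟩, Set.subset_union_left, Or.inr rfl, fun x hx => hx⟩
  intro t l' h1 h2
  rw [Set.mem_singleton_iff, Prod.mk.injEq] at h2
  obtain ⟨rfl, h3⟩ := h2
  apply h
  rw [← h3]
  simpa using h1

/-- different points are never forced equal -/
theorem gen_inj {s t : P} {c : Cond P} (H : Eq' (gen s c) (gen t c)) : s = t := by
  by_contra hst
  obtain ⟨i, hi⟩ := exists_fresh2 c s t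
  obtain ⟨d, h1, h2, h3⟩ := exists_add c s (i, true) (hi false).1
  have h4 : (t, Lab.neg (i, false)) ∉ d.q := by
    intro h
    rcases h3 _ h with h | h
    · exact (hi true).2 h
    · exact hst (Prod.mk.inj h).1.symm
  obtain ⟨e, h5, h6, -⟩ := exists_add d t (i, false) h4
  have k : e ⟶ c := inc (h1.trans h5)
  have hk : (inc (h1.trans h5) : e ⟶ c).1 = 1 := rfl
  have h7 := ((gen_res s (inc (h1.trans h5) : e ⟶ c)).symm.trans
    (H.res (inc (h1.trans h5) : e ⟶ c))).trans (gen_res t (inc (h1.trans h5) : e ⟶ c))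
  rw [hk, one_mul, one_mul] at h7
  exact gen_false h6 (Mem'.congr_right h7 (gen_true (h5 h2)))

/-! ### the sets `Z_r` and `Z` -/

variable (f0 : P)

/-- `Z_r = {x_s : s f0 = r}` -/
noncomputable def zr (r : P) (c : Cond P) : Val (Cond P) c :=
  famv P (fun _ f s => s * f0 = f.1 * r) (fun b _ s => gen s b)

lemma mem_zr (r : P) {c c' : Cond P} (h : c' ⟶ c) (z : Val (Cond P) c') :
    Mem' z ((zr f0 r c).res h) ↔
      ∀ (d1 : Cond P) (l : d1 ⟶ c'), ∃ (d2 : Cond P) (m : d2 ⟶ d1) (s : P),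
        s * f0 = (m ≫ l).1 * (h.1 * r) ∧ Eq' (z.res (m ≫ l)) (gen s d2) := by
  rw [zr, mem_famv]
  · simp only [comp_val, mul_assoc]
  · intro b b' f k s hs
    refine ⟨k.1 * s, ?_, gen_res s k⟩
    rw [mul_assoc, hs, comp_val, mul_assoc]

lemma mem_zr' (r : P) {c : Cond P} (z : Val (Cond P) c) :
    Mem' z (zr f0 r c) ↔
      ∀ (d1 : Cond P) (l : d1 ⟶ c), ∃ (d2 : Cond P) (m : d2 ⟶ d1) (s : P),
        s * f0 = (m ≫ l).1 * r ∧ Eq' (z.res (m ≫ l)) (gen s d2) := by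
  have := mem_zr f0 r (𝟙 c) z
  rw [Val.res_id] at this
  rw [this]
  simp

lemma zr_res (r : P) {c c' : Cond P} (h : c' ⟶ c) :
    Eq' ((zr f0 r c).res h) (zr f0 (h.1 * r) c') := by
  refine ext' fun d1 l z => ?_
  rw [Val.res_res, mem_zr, mem_zr]
  simp only [comp_val, mul_assoc]

lemma gen_mem_zr {s r : P} {c : Cond P} (h : s * f0 = r) : Mem' (gen s c) (zr f0 r c) := by
  rw [mem_zr']
  intro d1 l
  refine ⟨d1, 𝟙 d1, l.1 * s, ?_, ?_⟩
  · rw [mul_assoc, h, Category.id_comp]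
  · rw [Category.id_comp]
    exact gen_res s l

lemma of_gen_mem_zr {s r : P} {c : Cond P} (h : Mem' (gen s c) (zr f0 r c)) : s * f0 = r := by
  rw [mem_zr'] at h
  obtain ⟨d2, m, t, h1, h2⟩ := h c (𝟙 c)
  have h3 := gen_inj ((gen_res s _).symm.trans h2)
  rw [← h3, mul_assoc] at h1
  exact IsGood.lc _ _ _ h1

/-- `Z = {Z_r : r ≠ 1}` -/
noncomputable def Zv (c : Cond P) : Val (Cond P) c :=
  famv P (fun _ _ r => r ≠ 1) (fun b _ r => zr f0 r b)

lemma mem_Zv {c c' : Cond P} (h : c' ⟶ c) (z : Val (Cond P) c') :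
    Mem' z ((Zv f0 c).res h) ↔
      ∀ (d1 : Cond P) (l : d1 ⟶ c'), ∃ (d2 : Cond P) (m : d2 ⟶ d1) (r : P),
        r ≠ 1 ∧ Eq' (z.res (m ≫ l)) (zr f0 r d2) := by
  rw [Zv, mem_famv]
  intro b b' f k r hr
  exact ⟨k.1 * r, mul_ne_one_right hr _, zr_res f0 r k⟩

lemma zr_mem_Zv {r : P} (hr : r ≠ 1) {c c' : Cond P} (h : c' ⟶ c) :
    Mem' (zr f0 r c') ((Zv f0 c).res h) := by
  rw [mem_Zv]
  intro d1 l
  refine ⟨d1, 𝟙 d1, l.1 * r, mul_ne_one_right hr _, ?_⟩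
  rw [Category.id_comp]
  exact zr_res f0 r l

/-! ### choice fails -/

section lits
variable {C : Type 1} [Category.{1} C] {d : C} (a b c x y : Val C d)
lemma s5_0 : sn (sn (sn (sn (sn (e0 d) a) b) c) x) y 0 = a := rfl
lemma s5_1 : sn (sn (sn (sn (sn (e0 d) a) b) c) x) y 1 = b := rfl
lemma s5_2 : sn (sn (sn (sn (sn (e0 d) a) b) c) x) y 2 = c := rfl
lemma s5_3 : sn (sn (sn (sn (sn (e0 d) a) b) c) x) y 3 = x := rfl
lemma s5_4 : sn (sn (sn (sn (sn (e0 d) a) b) c) x) y 4 = y := rfl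
end lits

/-- **no choice**: `σ` cannot be a choice set of `Z` -/
theorem no_choice (hG : GenS P) (hl : LetS P) (hf0 : f0 ≠ 1) {c : Cond P} (σ : Val (Cond P) c)
    (H : ∀ (d : Cond P) (g : d ⟶ c) (x : Val (Cond P) d), Mem' x ((Zv f0 c).res g) →
      ∀ (d1 : Cond P) (l : d1 ⟶ d), ∃ (d2 : Cond P) (m : d2 ⟶ d1) (y : Val (Cond P) d2),
        Mem' y (σ.res ((m ≫ l) ≫ g)) ∧ Mem' y (x.res (m ≫ l)) ∧
          ∀ (d3 : Cond P) (k : d3 ⟶ d2) (z : Val (Cond P) d3),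
            Mem' z (σ.res (k ≫ (m ≫ l) ≫ g)) → Mem' z (x.res (k ≫ m ≫ l)) → Eq' z (y.res k)) :
    False := by
  -- the point `r`
  obtain ⟨r, hr⟩ := exists_ne_one hl
  obtain ⟨d2, m, y, hy1, hy2, hy3⟩ := H (push r c) (pushArr r c) (zr f0 r (push r c))
    (zr_mem_Zv f0 hr _) (push r c) (𝟙 _)
  rw [Category.comp_id] at hy1 hy2
  obtain ⟨d3, m', s, hs, hys⟩ := (mem_zr f0 r m y).1 hy2 d2 (𝟙 d2)
  rw [Category.comp_id] at hs hys
  set ρ : P := m'.1 * (m.1 * r) with hρ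
  have hρ1 : ρ ≠ 1 := mul_ne_one_right (mul_ne_one_right hr _) _
  obtain ⟨g, g', hgg, hfree⟩ := fa hG hl ρ ρ
  have hc : Compat (push g d3).q (push g' d3).q := by
    intro z l h3 h4
    obtain ⟨s1, h5, rfl⟩ := mem_psh.1 h3
    obtain ⟨s2, h6, h7⟩ := mem_psh.1 h4
    obtain ⟨u, rfl, rfl⟩ := hfree s1 s2 h7
    exact d3.h.con _ _ h5 h6
  let e : Cond P := un _ _ hc
  let G : e ⟶ d3 := arr g fun s l hs => Or.inl (mem_psh.2 ⟨s, hs, rfl⟩)
  let G' : e ⟶ d3 := arr g' fun s l hs => Or.inr (mem_psh.2 ⟨s, hs, rfl⟩)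
  have hG1 : G.1 = g := rfl
  have hG2 : G'.1 = g' := rfl
  have harr : (G ≫ m') ≫ m ≫ pushArr r c = (G' ≫ m') ≫ m ≫ pushArr r c := by
    ext
    simp only [comp_val, pushArr_val, hG1, hG2]
    have h1 : g * m'.1 * (m.1 * r) = g * ρ := by rw [hρ, mul_assoc]
    have h2 : g' * m'.1 * (m.1 * r) = g' * ρ := by rw [hρ, mul_assoc]
    rw [h1, h2, hgg]
  have hz1 : Mem' (y.res (G' ≫ m')) (σ.res ((G ≫ m') ≫ (m ≫ 𝟙 _) ≫ pushArr r c)) := by
    rw [Category.comp_id, harr]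
    have := hy1.res (G' ≫ m')
    rwa [Val.res_res] at this
  have hz2 : Mem' (y.res (G' ≫ m')) ((zr f0 r (push r c)).res ((G ≫ m') ≫ m ≫ 𝟙 _)) := by
    rw [Category.comp_id]
    have h1 := hy2.res (G' ≫ m')
    rw [Val.res_res] at h1
    refine Mem'.congr_right (zr_res f0 r _).symm (Mem'.congr_right ?_ (Mem'.congr_right
      (zr_res f0 r _) h1))
    have h2 : ((G' ≫ m') ≫ m).1 * r = ((G ≫ m') ≫ m).1 * r := by
      simp only [comp_val, hG1, hG2, mul_assoc]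
      rw [← hρ, hgg]
    rw [h2]
    exact Eq'.refl _
  have h5 := hy3 e (G ≫ m') (y.res (G' ≫ m')) hz1 hz2
  rw [← Val.res_res, ← Val.res_res] at h5
  have h6 : Eq' (gen (g' * s) e) (gen (g * s) e) :=
    (((gen_res s G').symm.trans (hys.res G').symm).trans h5).trans
      ((hys.res G).trans (gen_res s G))
  have h7 := gen_inj h6
  obtain ⟨t, ht, -⟩ := hfree s s h7.symm
  rw [ht, mul_assoc] at hs
  have h8 : t * f0 = 1 := IsGood.lc ρ _ _ (by rw [hs, mul_one])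
  exact mul_ne_one_right hf0 t h8

lemma mem_Zv_indep {c c' c2 : Cond P} (h : c' ⟶ c) (h2 : c' ⟶ c2) (z : Val (Cond P) c') :
    Mem' z ((Zv f0 c).res h) ↔ Mem' z ((Zv f0 c2).res h2) := by
  rw [mem_Zv, mem_Zv]

/-- members of `Z` are nonempty -/
lemma Z_nonempty (hG : GenS P) (hf0 : f0 ≠ 1) {c d : Cond P} (h : d ⟶ c) (x : Val (Cond P) d)
    (hx : Mem' x ((Zv f0 c).res h)) (d1 : Cond P) (l : d1 ⟶ d) :
    ∃ (d2 : Cond P) (m : d2 ⟶ d1) (y : Val (Cond P) d2), Mem' y (x.res (m ≫ l)) := by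
  rw [mem_Zv] at hx
  obtain ⟨d2, m, r, hr, h1⟩ := hx d1 l
  obtain ⟨s, hs, -⟩ := hG f0 r ∅ inferInstance hf0 hr (by simp)
  exact ⟨d2, m, gen s d2, Mem'.congr_right h1.symm (gen_mem_zr f0 hs)⟩

/-- members of `Z` are pairwise disjoint -/
lemma Z_disj {c d : Cond P} (h : d ⟶ c) (x x' : Val (Cond P) d)
    (hx : Mem' x ((Zv f0 c).res h)) (hx' : Mem' x' ((Zv f0 c).res h))
    (H : ∀ (d1 : Cond P) (l : d1 ⟶ d), ∃ (d2 : Cond P) (m : d2 ⟶ d1) (y : Val (Cond P) d2),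
      Mem' y (x.res (m ≫ l)) ∧ Mem' y (x'.res (m ≫ l))) : Eq' x x' := by
  refine Eq'.of_dense fun d1 l => ?_
  obtain ⟨d2, m, y, h1, h2⟩ := H d1 l
  obtain ⟨d3, m3, r, -, h3⟩ := (mem_Zv f0 h x).1 hx d2 (m ≫ l)
  obtain ⟨d4, m4, r', -, h4⟩ := (mem_Zv f0 h x').1 hx' d3 (m3 ≫ m ≫ l)
  have h5 := h1.res (m4 ≫ m3)
  have h6 := h2.res (m4 ≫ m3)
  rw [Val.res_res] at h5 h6
  have e1 : (m4 ≫ m3) ≫ m ≫ l = m4 ≫ m3 ≫ m ≫ l := by simp
  rw [e1] at h5 h6
  have h7 := h3.res m4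
  rw [Val.res_res] at h7
  -- `x = Z_{m4 r}`, `x' = Z_{r'}` at `d4`
  have h8 : Mem' (y.res (m4 ≫ m3)) (zr f0 (m4.1 * r) d4) :=
    Mem'.congr_right (zr_res f0 r m4) (Mem'.congr_right h7 h5)
  have h9 : Mem' (y.res (m4 ≫ m3)) (zr f0 r' d4) := Mem'.congr_right h4 h6
  obtain ⟨d5, m5, s, hs, hys⟩ := (mem_zr' f0 _ _).1 h8 d4 (𝟙 d4)
  obtain ⟨d6, m6, s', hs', hys'⟩ := (mem_zr' f0 _ _).1 h9 d5 (m5 ≫ 𝟙 d4)
  have h10 : Eq' (gen (m6.1 * s) d6) (gen s' d6) := by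
    have := hys.res m6
    rw [Val.res_res] at this
    exact ((gen_res s m6).symm.trans this.symm).trans hys'
  have h11 := gen_inj h10
  have h12 : m4.1 * r = r' := by
    have e2 : (m6 ≫ m5 ≫ 𝟙 d4).1 * (m4.1 * r) = (m6 ≫ m5 ≫ 𝟙 d4).1 * r' := by
      rw [← hs', ← h11, mul_assoc, hs, comp_val, mul_assoc]
    exact IsGood.lc _ _ _ e2
  refine ⟨d4, m4 ≫ m3 ≫ m, ?_⟩
  have e3 : (m4 ≫ m3 ≫ m) ≫ l = m4 ≫ m3 ≫ m ≫ l := by simp
  rw [e3]
  refine (h7.trans (zr_res f0 r m4)).trans ?_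
  rw [h12]
  exact h4.symm

/-- **leaf C6**: every label condition forces `¬ AC` -/
theorem not_ac (hG : GenS P) (hl : LetS P) (hf0 : f0 ≠ 1) (c : Cond P) :
    Fs c (∼acAx) := by
  unfold Fs acAx
  rw [fc_not]
  intro w hw H
  simp only [fc_all, fc_iff, fc_ex, fc_imp, fc_and, fc_vmem, fc_veq, vr_sn, vr_e0,
    Val.res_res, s5_0, s5_1, s5_2, s5_3, s5_4, s4_0, s4_1, s4_2, s4_3, s3_0, s3_1, s3_2,
    s2_0, s2_1, s1_0] at H
  have H1 := H w (𝟙 w) (Zv f0 w) w (𝟙 w)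
  obtain ⟨c', μ, σ, hσ⟩ := H1 ⟨fun d2 h1 x d3 h2 hx d1 g => by
      have := Z_nonempty f0 hG hf0 _ _ hx d1 g
      simpa using this, fun d2 h1 x d3 h2 x' d4 h3 ⟨⟨hx, hx'⟩, hd⟩ => by
      refine Z_disj f0 _ _ _ hx hx' fun d1 l => ?_
      obtain ⟨d5, m, y, h4, h5⟩ := hd d1 l
      exact ⟨d5, m, y, by simpa using h4, by simpa using h5⟩⟩ w (𝟙 w)
  refine no_choice f0 hG hl hf0 σ fun d g x hx d1 l => ?_
  obtain ⟨d2, m, y, ⟨h1, h2⟩, h3⟩ := hσ d g x d (𝟙 d)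
    (by
      rw [Val.res_id]
      exact (mem_Zv_indep f0 _ _ _).1 hx) d1 l
  refine ⟨d2, m, y, by simpa using h2, by simpa using h1, fun d3 k z hz hz' => ?_⟩
  have := h3 d3 k z d3 (𝟙 d3) ⟨by simpa using hz', by simpa using hz⟩
  simpa using this

end Crest.Agent.R296.NotACx929
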