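import Crest.Agent.R296.AKit_779
import Crest.Agent.R296.OutA_378

/-! # Row 296 (helper779): `StProp` of `OutA_378` (leaf A-PROP) -/

set_option autoImplicit false

namespace Crest.Agent.R296.StPropx779

open Crest.Agent.R296.IfAx378

theorem stProp : OutAx378.StProp := fun _ _ T =>
  ⟨AKitx779.kit_gen T, AKitx779.kit_let T, AKitx779.kit_tri T, AKitx779.kit_triD T⟩

end Crest.Agent.R296.StPropx779
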