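import Crest.Agent.R296.OutA_70
import Crest.Agent.R296.StProp_779
import Crest.Agent.R296.OutA_378
import Crest.Agent.R296.PPc_564
import Crest.Agent.R296.Lct2_153

/-!
Row 296 (S0448), helper70: the pieces `StKit`, `StTOut`, `StA` of `OutA_378` (block A closed), and
helper564's `LetHyp` from `OutA`.
-/

set_option autoImplicit false

namespace Crest.Agent.R296.OutCx70

open Crest.Agent.R296.IfAx378 (IsGood Filt Tower GenBy)
open Crest.Agent.R296.LctStx153 (GenByA Kit)

/-- A-KIT -/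
theorem stKit : OutAx378.StKit := fun _ _ T => (OutAx70.outA_of T).kit

section
variable {P : Type 1} [Monoid P] {T : Tower P}

/-- the same data -/
def conv (D : OutAx378.TDat T.A) : FiltCx70.TDat T :=
  ⟨D.β, D.odd, D.F, D.a, D.b, D.p, D.gen, D.ha, D.hb, D.hp, D.a_ne, D.mem, D.dvd, D.ndvd⟩

theorem conv_inj {D D' : OutAx378.TDat T.A} (h : conv D = conv D') : D = D' := by
  obtain ⟨β, F, a, b, p, odd, gen, ha, hb, hp, a_ne, mem, dvd, ndvd⟩ := D
  obtain ⟨β', F', a', b', p', odd', gen', ha', hb', hp', a_ne', mem', dvd', ndvd'⟩ := D'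
  simp only [conv] at h
  obtain ⟨rfl, rfl, rfl, rfl, rfl⟩ := h
  rfl

end

/-- A-TOUT -/
theorem stTOut : OutAx378.StTOut := by
  intro P _ T
  have H := FiltCx70.tlem T
  refine ⟨fun D => FiltCx70.etaF T (conv D), ?_⟩
  exact
    { succ := fun D => H.succ (conv D)
      new := fun D => H.new (conv D)
      rel := fun D => H.rel (conv D)
      t3 := fun D => H.t3 (conv D)
      t0 := fun D => H.t0 (conv D)
      t1 := fun D => H.t1 (conv D)
      t1' := fun D => H.t1' (conv D)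
      t2 := fun D D' s s' z z' h1 h2 h3 h4 => by
        obtain ⟨e1, e2, e3⟩ := H.t2 (conv D) (conv D') s s' z z' h1 h2 h3 h4
        exact ⟨conv_inj e1, e2, e3⟩ }

/-- **end product of block A** -/
theorem stA : OutAx378.StA := OutAx378.stA_of OutAx70.stTow stKit stTOut

/-! ### helper564's `LetHyp` -/

section let_
variable {P : Type 1} [Monoid P] (O : OutAx378.OutA P)

theorem exists_level (S : Set P) (hS : Small.{0} S) : ∃ β, ∀ s ∈ S, s ∈ O.A β := by
  choose g hg using O.kit.exh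
  obtain ⟨B, hB⟩ := Ordinal.bddAbove_of_small (s := Set.range (fun x : S => g x.1))
  exact ⟨B, fun s hs => O.kit.mono (hB ⟨⟨s, hs⟩, rfl⟩) (hg s)⟩

/-- the data of `LetHyp` are admissible at the stage `2 * β + 1` -/
structure Good (f0 : P) (β : Ordinal.{0}) (F : Filt P) (a p : P) : Prop where
  gen : GenByA P O.A F (2 * β + 1)
  ha : a ∈ O.A (2 * β + 1)
  hp : p ∈ O.A (2 * β + 1)
  hf : f0 ∈ O.A (2 * β + 1)
  a_ne : a ≠ 1
  mem : ∀ s ∈ F.S, s ∣ p

theorem odd_mod (β : Ordinal.{0}) : (2 * β + 1) % 2 = 1 := by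
  rw [Ordinal.mul_add_mod_self]
  exact Ordinal.mod_eq_of_lt (by norm_num)

theorem ndvd (hG : IsGood P) {f0 : P} (hf0 : f0 ≠ 1) (p : P) : ¬ p * f0 ∣ p := by
  rintro ⟨c, hc⟩
  apply hf0
  apply hG.unit f0 c
  apply hG.lc p
  rw [mul_one, ← mul_assoc]
  exact hc.symm

variable {f0 : P} (hf0 : f0 ≠ 1)

/-- the datum -/
def dat {β : Ordinal.{0}} {F : Filt P} {a p : P} (h : Good O f0 β F a p) : OutAx378.TDat O.A where
  β := 2 * β + 1
  F := F
  a := a
  b := p * f0
  p := p
  odd := odd_mod β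
  gen := h.gen
  ha := h.ha
  hb := (O.A _).mul_mem h.hp h.hf
  hp := h.hp
  a_ne := h.a_ne
  mem := h.mem
  dvd := ⟨f0, rfl⟩
  ndvd := ndvd O.kit.good hf0 p

open Classical in
/-- **the letters of `LetHyp`** -/
noncomputable def letHyp : PPcx564.LetHyp P f0 where
  Let β F a p := if h : Good O f0 β F a p then O.η (dat O hf0 h) else 1
  good β F a p := Good O f0 β F a p
  ev F a p S hS ha hF := by
    obtain ⟨β1, h1⟩ := exists_level O S hS
    have := O.kit.good
    obtain ⟨β2, h2⟩ := Lctx153.gen_some O.kit F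
    obtain ⟨β3, h3⟩ := O.kit.exh a
    obtain ⟨β4, h4⟩ := O.kit.exh p
    obtain ⟨β5, h5⟩ := O.kit.exh f0
    have hle : ∀ β : Ordinal.{0}, β ≤ 2 * β + 1 := by
      intro β
      have e1 : β ≤ 2 * β := Ordinal.le_mul_right β (by norm_num : (0 : Ordinal.{0}) < 2)
      have e2 : 2 * β ≤ 2 * β + 1 := (Order.le_succ (2 * β)).trans_eq (Order.succ_eq_add_one _)
      exact e1.trans e2
    refine ⟨max β1 (max β2 (max β3 (max β4 β5))), fun β hβ => ?_⟩
    have l1 : β1 ≤ 2 * β + 1 := ((le_max_left _ _).trans hβ).trans (hle β)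
    have hβ2 := (le_max_right _ _).trans hβ
    have l2 : β2 ≤ 2 * β + 1 := ((le_max_left _ _).trans hβ2).trans (hle β)
    have hβ3 := (le_max_right _ _).trans hβ2
    have l3 : β3 ≤ 2 * β + 1 := ((le_max_left _ _).trans hβ3).trans (hle β)
    have hβ4 := (le_max_right _ _).trans hβ3
    have l4 : β4 ≤ 2 * β + 1 := ((le_max_left _ _).trans hβ4).trans (hle β)
    have l5 : β5 ≤ 2 * β + 1 := ((le_max_right _ _).trans hβ4).trans (hle β)
    have hg : Good O f0 β F a p :=
      { gen := by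
          intro s hs
          obtain ⟨m, hm, hmF, hd⟩ := h2 s hs
          exact ⟨m, O.kit.mono l2 hm, hmF, hd⟩
        ha := O.kit.mono l3 h3
        hp := O.kit.mono l4 h4
        hf := O.kit.mono l5 h5
        a_ne := ha
        mem := hF }
    refine ⟨hg, fun x hx => ?_⟩
    rw [dif_pos hg] at hx ⊢
    have h6 : O.η (dat O hf0 hg) * x ∈ O.A (2 * β + 1) := O.kit.mono l1 (h1 _ hx)
    obtain ⟨c, hc⟩ := O.t.t0 (dat O hf0 hg) 1 x ((O.A _).one_mem) (by rw [one_mul]; exact h6)
    have hc' : x = a * c := hc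
    refine ⟨c, ?_⟩
    rw [hc', ← mul_assoc]
    exact congrArg (· * c) (O.t.rel (dat O hf0 hg))
  rel β F a p h := by
    rw [dif_pos h]
    exact O.t.rel (dat O hf0 h)
  mem β F a p h := by
    rw [dif_pos h]
    exact O.t.t3 (dat O hf0 h)
  T2 β β' F F' a p p' s s' z h h' h1 h2 h3 := by
    rw [dif_pos h, dif_pos h'] at h2
    rw [dif_pos h, dif_pos h']
    obtain ⟨e1, -, e3⟩ := O.t.t2 (dat O hf0 h) (dat O hf0 h') s s' z z h1 h2 h3 h3
    refine ⟨?_, by rw [e1], e3⟩
    have e4 : 2 * β + 1 = 2 * β' + 1 := congrArg OutAx378.TDat.β e1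
    have e5 : 2 * β = 2 * β' := by
      have := congrArg (fun o : Ordinal.{0} => o) e4
      exact (Order.succ_injective (by simpa [Order.succ_eq_add_one] using this))
    exact mul_left_cancel₀ (by norm_num) e5

end let_

end Crest.Agent.R296.OutCx70
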