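import Crest.Agent.R296.CatF_365

/-!
Row 296 (S0448), helper764.  **Block C, PP, abstract part** (note 2154 C.3, relation level).

`C` any small category, `c : C`, `a0 : c0 ⟶ c`.  `Surj c` : values `X`, `Y` at `c` and a relation `R`
which is (the graph of) a surjection of `X` onto `Y` at every stage over `c`.
`Tickets` : the local coding system of one block `(b, g, x, y)`.
`pp_core` : a SMALL family of pairs of values over `c0` which is the graph of an injection of `Y` into `X`.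
-/

set_option autoImplicit false

noncomputable section

namespace Crest.Agent.R296.PPAbsx764

open CategoryTheory
open Crest.Agent.R296.CatFx365

universe u

variable {C : Type u} [Category.{u} C]

lemma mem_rep {d0 d : C} (h : d ⟶ d0) (x : Val C d) (Y : Val C d0) (H : Mem' x (Y.res h))
    {d1 : C} (l : d1 ⟶ d) : ∃ (d2 : C) (m : d2 ⟶ d1) (j : Y.nm.I) (k : d2 ⟶ Y.nm.D j),
      (m ≫ l) ≫ h ≫ Y.ar = k ≫ Y.nm.e j ∧ Eq' (x.res (m ≫ l)) (Y.el j k) := H d1 l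

/-- a surjection `R` of `X` onto `Y` at the stages over `c` -/
structure Surj (c : C) where
  X : Val C c
  Y : Val C c
  R : ∀ {d : C}, (d ⟶ c) → Val C d → Val C d → Prop
  mono : ∀ {d d' : C} (h : d ⟶ c) (g : d' ⟶ d) (x y : Val C d), R h x y →
    R (g ≫ h) (x.res g) (y.res g)
  congr : ∀ {d : C} (h : d ⟶ c) (x x' y y' : Val C d), Eq' x x' → Eq' y y' → R h x y → R h x' y'
  fn : ∀ {d : C} (h : d ⟶ c) (x y y' : Val C d), R h x y → R h x y' → Eq' y y'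
  dom : ∀ {d : C} (h : d ⟶ c) (x y : Val C d), R h x y → Mem' x (X.res h)
  cod : ∀ {d : C} (h : d ⟶ c) (x y : Val C d), R h x y → Mem' y (Y.res h)
  onto : ∀ {d : C} (h : d ⟶ c) (y : Val C d), Mem' y (Y.res h) →
    ∃ (d' : C) (g : d' ⟶ d) (x : Val C d'), R (g ≫ h) x (y.res g)

/-- a local predicate on the values over the stages over `c` which lie in the block `(b, g, y)` -/
structure LPred (c : C) {b : C} (g : b ⟶ c) (y : Val C b) where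
  L : ∀ {e : C}, (e ⟶ c) → Val C e → Prop
  mono : ∀ {e e' : C} (h : e ⟶ c) (l : e' ⟶ e) (v : Val C e), L h v → L (l ≫ h) (v.res l)
  congr : ∀ {e : C} (h : e ⟶ c) (v v' : Val C e), Eq' v v' → L h v → L h v'
  blk : ∀ {e : C} (h : e ⟶ c) (v : Val C e), L h v → ∃ t : e ⟶ b, t ≫ g = h ∧ Eq' v (y.res t)
  /-- descent along `τ : D ⟶ B` if every arrow to `B` can be amalgamated with `τ` -/
  desc : ∀ {D B : C} (τ : D ⟶ B) (ι : B ⟶ b), (∀ (e : C) (k : e ⟶ B), ∃ (e' : C) (l : e' ⟶ e)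
    (k' : e' ⟶ D), l ≫ k = k' ≫ τ) → L (τ ≫ ι ≫ g) (y.res (τ ≫ ι)) → L (ι ≫ g) (y.res ι)

/-- the local coding system of the block `(b, g, x, y)` -/
structure Tickets {c c0 : C} (a0 : c0 ⟶ c) {b : C} (g : b ⟶ c) (x y : Val C b)
    (L : LPred c g y) where
  M : Type u
  D : M → C
  p : ∀ m, D m ⟶ c0
  t : ∀ m, D m ⟶ b
  B : M → C
  ι : ∀ m, B m ⟶ b
  /-- `Rel m s r` : `r` is the arrow `s η_m` -/
  Rel : ∀ (m : M) {e : C}, (e ⟶ D m) → (e ⟶ B m) → Prop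
  mono : ∀ (m : M) {e e' : C} (l : e' ⟶ e) (s : e ⟶ D m) (r : e ⟶ B m), Rel m s r →
    Rel m (l ≫ s) (l ≫ r)
  tg : ∀ m, t m ≫ g = p m ≫ a0
  base : ∀ (m : M) {e : C} (s : e ⟶ D m) (r : e ⟶ B m), Rel m s r → r ≫ ι m ≫ g = s ≫ p m ≫ a0
  fn : ∀ (m : M) {e : C} (s s' : e ⟶ D m) (r r' : e ⟶ B m), Rel m s r → Rel m s' r' →
    s ≫ p m = s' ≫ p m → Eq' (y.res (s ≫ t m)) (y.res (s' ≫ t m)) →
    Eq' (x.res (r ≫ ι m)) (x.res (r' ≫ ι m))
  inj : ∀ (m m' : M) {e : C} (s : e ⟶ D m) (r : e ⟶ B m) (s' : e ⟶ D m') (r' : e ⟶ B m'),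
    Rel m s r → Rel m' s' r' → s ≫ p m = s' ≫ p m' →
    Eq' (x.res (r ≫ ι m)) (x.res (r' ≫ ι m')) → Eq' (y.res (s ≫ t m)) (y.res (s' ≫ t m'))
  LB : ∀ m, L.L (ι m ≫ g) (y.res (ι m))
  ex : ∀ {e : C} (k : e ⟶ c0) (v : Val C e), L.L (k ≫ a0) v →
    ∃ (e' : C) (l : e' ⟶ e) (m : M) (s : e' ⟶ D m) (r : e' ⟶ B m), Rel m s r ∧
      s ≫ p m = l ≫ k ∧ Eq' (v.res l) (y.res (s ≫ t m))

/-! ## blocks -/

variable {c : C} (S : Surj c) (Nor : ∀ {b : C}, (b ⟶ c) → Val C b → Prop)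

/-- index type of the blocks -/
structure Jx where
  b : C
  g : b ⟶ c
  i : S.X.nm.I
  k : b ⟶ S.X.nm.D i
  i' : S.Y.nm.I
  k' : b ⟶ S.Y.nm.D i'
  hR : S.R g (S.X.el i k) (S.Y.el i' k')
  hN : Nor g (S.X.el i k)

namespace Jx
variable {S} {Nor}
/-- the element of `X` -/
def x (j : Jx S Nor) : Val C j.b := S.X.el j.i j.k
/-- the element of `Y` -/
def y (j : Jx S Nor) : Val C j.b := S.Y.el j.i' j.k'
lemma hxy (j : Jx S Nor) : S.R j.g j.x j.y := j.hR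
lemma hx (j : Jx S Nor) : Nor j.g j.x := j.hN
end Jx

variable {S} {Nor}

/-- `v` lies in the block `j` -/
def Blk (j : Jx S Nor) {e : C} (h : e ⟶ c) (v : Val C e) : Prop :=
  ∃ t : e ⟶ j.b, t ≫ j.g = h ∧ Eq' v (j.y.res t)

lemma Blk.mono {j : Jx S Nor} {e e' : C} {h : e ⟶ c} {v : Val C e} (H : Blk j h v) (l : e' ⟶ e) :
    Blk j (l ≫ h) (v.res l) := by
  obtain ⟨t, ht, hv⟩ := H
  refine ⟨l ≫ t, by rw [Category.assoc, ht], ?_⟩
  have := hv.res l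
  simpa using this

lemma Blk.congr {j : Jx S Nor} {e : C} {h : e ⟶ c} {v v' : Val C e} (H : Blk j h v)
    (E : Eq' v v') : Blk j h v' := by
  obtain ⟨t, ht, hv⟩ := H
  exact ⟨t, ht, E.symm.trans hv⟩

/-- the well-order of the index type -/
def jlt (j' j : Jx S Nor) : Prop := WellOrderingRel j' j

/-- `j` is the least block of `v` (forced) -/
def Lst (j : Jx S Nor) {e : C} (h : e ⟶ c) (v : Val C e) : Prop :=
  Blk j h v ∧ ∀ j' : Jx S Nor, WellOrderingRel j' j → ∀ (e' : C) (l : e' ⟶ e),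
    ¬ Blk j' (l ≫ h) (v.res l)

lemma Lst.mono {j : Jx S Nor} {e e' : C} {h : e ⟶ c} {v : Val C e} (H : Lst j h v) (l : e' ⟶ e) :
    Lst j (l ≫ h) (v.res l) := by
  refine ⟨H.1.mono l, fun j' hj' e'' l' hB => H.2 j' hj' e'' (l' ≫ l) ?_⟩
  simpa using hB

lemma Lst.congr {j : Jx S Nor} {e : C} {h : e ⟶ c} {v v' : Val C e} (H : Lst j h v)
    (E : Eq' v v') : Lst j h v' := by
  refine ⟨H.1.congr E, fun j' hj' e'' l' hB => H.2 j' hj' e'' l' (hB.congr (E.res l').symm)⟩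

lemma Lst.uniq {j j' : Jx S Nor} {e : C} {h : e ⟶ c} {v : Val C e} (H : Lst j h v)
    (H' : Lst j' h v) : j = j' := by
  rcases trichotomous_of WellOrderingRel j j' with h1 | h1 | h1
  · exact absurd (H.1.mono (𝟙 e)) (H'.2 j h1 e (𝟙 e))
  · exact h1
  · exact absurd (H'.1.mono (𝟙 e)) (H.2 j' h1 e (𝟙 e))

lemma exists_lst {j0 : Jx S Nor} {e : C} {h : e ⟶ c} {v : Val C e} (H : Blk j0 h v) :
    ∃ (e' : C) (l : e' ⟶ e) (j : Jx S Nor), Lst j (l ≫ h) (v.res l) := by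
  let Q : Jx S Nor → Prop := fun j => ∃ (e' : C) (l : e' ⟶ e), Blk j (l ≫ h) (v.res l)
  have hne : ∃ j, Q j := ⟨j0, e, 𝟙 e, H.mono (𝟙 e)⟩
  obtain ⟨j, ⟨e', l, hB⟩, hmin⟩ := (IsWellFounded.wf (r := (WellOrderingRel :
    Jx S Nor → Jx S Nor → Prop))).has_min {j | Q j} hne
  refine ⟨e', l, j, hB, fun j' hj' e'' l' hB' => hmin j' ⟨e'', l' ≫ l, ?_⟩ hj'⟩
  simpa using hB'

/-- the local predicate `Lst j` -/
def lstPred (j : Jx S Nor) : LPred c j.g j.y where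
  L h v := Lst j h v
  mono h l v H := H.mono l
  congr h v v' E H := H.congr E
  blk h v H := H.1
  desc τ ι hc H := by
    refine ⟨⟨ι, rfl, Eq'.refl _⟩, fun j' hj' e k hB => ?_⟩
    obtain ⟨e', l, k', hk⟩ := hc e k
    have h1 := hB.mono l
    refine H.2 j' hj' e' k' ?_
    have e1 : l ≫ k ≫ ι ≫ j.g = k' ≫ τ ≫ ι ≫ j.g := by
      rw [← Category.assoc, hk, Category.assoc]
    have e2 : ((j.y.res ι).res k).res l = (j.y.res (τ ≫ ι)).res k' := by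
      simp only [Val.res_res]
      rw [← Category.assoc, hk, Category.assoc]
    rw [e1, e2] at h1
    exact h1

/-- the two kinds of blocks -/
def KindA (j : Jx S Nor) : Prop :=
  ∀ (e : C) (t t' : e ⟶ j.b), t ≫ j.g = t' ≫ j.g → Eq' (j.x.res t) (j.x.res t')

section core

variable {c0 : C} (a0 : c0 ⟶ c)

variable (tk : ∀ j : Jx S Nor, ¬ KindA j → Tickets a0 j.g j.x j.y (lstPred j))

/-- `v` has the ticket `m` at the stage `e` -/
def HasT (j : Jx S Nor) (hB : ¬ KindA j) (m : (tk j hB).M) {e : C} (k : e ⟶ c0) (v : Val C e) :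
    Prop :=
  ∃ (s : e ⟶ (tk j hB).D m) (r : e ⟶ (tk j hB).B m), (tk j hB).Rel m s r ∧
    s ≫ (tk j hB).p m = k ∧ Eq' v (j.y.res (s ≫ (tk j hB).t m))

lemma HasT.mono {j : Jx S Nor} {hB : ¬ KindA j} {m : (tk j hB).M} {e e' : C} {k : e ⟶ c0}
    {v : Val C e} (H : HasT a0 tk j hB m k v) (l : e' ⟶ e) :
    HasT a0 tk j hB m (l ≫ k) (v.res l) := by
  obtain ⟨s, r, h1, h2, h3⟩ := H
  refine ⟨l ≫ s, l ≫ r, (tk j hB).mono m l s r h1, by rw [Category.assoc, h2], ?_⟩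
  have := h3.res l
  simpa using this

lemma HasT.congr {j : Jx S Nor} {hB : ¬ KindA j} {m : (tk j hB).M} {e : C} {k : e ⟶ c0}
    {v v' : Val C e} (H : HasT a0 tk j hB m k v) (E : Eq' v v') :
    HasT a0 tk j hB m k v' := by
  obtain ⟨s, r, h1, h2, h3⟩ := H
  exact ⟨s, r, h1, h2, E.symm.trans h3⟩

/-- `m` is the least ticket of `v` -/
def LstT (j : Jx S Nor) (hB : ¬ KindA j) (m : (tk j hB).M) {e : C} (k : e ⟶ c0) (v : Val C e) :
    Prop :=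
  ∀ m' : (tk j hB).M, WellOrderingRel m' m → ∀ (e' : C) (l : e' ⟶ e),
    ¬ HasT a0 tk j hB m' (l ≫ k) (v.res l)

/-- one element of the graph: `v ↦ x`, with the block `j` and (kind B) the ticket -/
structure Code {e : C} (k : e ⟶ c0) (v x : Val C e) : Prop where
  ex : (∃ (j : Jx S Nor) (_ : KindA j) (s : e ⟶ j.b), s ≫ j.g = k ≫ a0 ∧
      Lst j (k ≫ a0) v ∧ Eq' v (j.y.res s) ∧ Eq' x (j.x.res s)) ∨
    (∃ (j : Jx S Nor) (hB : ¬ KindA j) (m : (tk j hB).M) (s : e ⟶ (tk j hB).D m)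
      (r : e ⟶ (tk j hB).B m), (tk j hB).Rel m s r ∧ s ≫ (tk j hB).p m = k ∧
      Lst j (k ≫ a0) v ∧ Eq' v (j.y.res (s ≫ (tk j hB).t m)) ∧ LstT a0 tk j hB m k v ∧
      Eq' x (j.x.res (r ≫ (tk j hB).ι m)))


variable {a0 tk}

lemma LstT.mono {j : Jx S Nor} {hB : ¬ KindA j} {m : (tk j hB).M} {e e' : C} {k : e ⟶ c0}
    {v : Val C e} (H : LstT a0 tk j hB m k v) (l : e' ⟶ e) :
    LstT a0 tk j hB m (l ≫ k) (v.res l) := by
  intro m' hm' e'' l' h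
  refine H m' hm' e'' (l' ≫ l) ?_
  simpa using h

lemma LstT.congr {j : Jx S Nor} {hB : ¬ KindA j} {m : (tk j hB).M} {e : C} {k : e ⟶ c0}
    {v v' : Val C e} (H : LstT a0 tk j hB m k v) (E : Eq' v v') :
    LstT a0 tk j hB m k v' := by
  intro m' hm' e'' l' h
  exact H m' hm' e'' l' (h.congr a0 tk (E.res l').symm)

lemma LstT.uniq {j : Jx S Nor} {hB : ¬ KindA j} {m m' : (tk j hB).M} {e : C} {k : e ⟶ c0}
    {v : Val C e} (H : LstT a0 tk j hB m k v) (H' : LstT a0 tk j hB m' k v)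
    (G : HasT a0 tk j hB m k v) (G' : HasT a0 tk j hB m' k v) : m = m' := by
  rcases trichotomous_of WellOrderingRel m m' with h1 | h1 | h1
  · exact absurd (G.mono a0 tk (𝟙 e)) (H' m h1 e (𝟙 e))
  · exact h1
  · exact absurd (G'.mono a0 tk (𝟙 e)) (H m' h1 e (𝟙 e))

lemma exists_lstT {j : Jx S Nor} {hB : ¬ KindA j} {m0 : (tk j hB).M} {e : C} {k : e ⟶ c0}
    {v : Val C e} (G : HasT a0 tk j hB m0 k v) :
    ∃ (e' : C) (l : e' ⟶ e) (m : (tk j hB).M), HasT a0 tk j hB m (l ≫ k) (v.res l) ∧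
      LstT a0 tk j hB m (l ≫ k) (v.res l) := by
  let Q : (tk j hB).M → Prop := fun m => ∃ (e' : C) (l : e' ⟶ e), HasT a0 tk j hB m (l ≫ k) (v.res l)
  have hne : ∃ m, Q m := ⟨m0, e, 𝟙 e, G.mono a0 tk (𝟙 e)⟩
  obtain ⟨m, ⟨e', l, hH⟩, hmin⟩ := (IsWellFounded.wf (r := (WellOrderingRel :
    (tk j hB).M → (tk j hB).M → Prop))).has_min {m | Q m} hne
  refine ⟨e', l, m, hH, fun m' hm' e'' l' h' => hmin m' ⟨e'', l' ≫ l, ?_⟩ hm'⟩
  simpa using h'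

namespace Code

variable {e : C} {k : e ⟶ c0} {v x v' x' : Val C e}

lemma mono (H : Code a0 tk k v x) {e' : C} (l : e' ⟶ e) :
    Code a0 tk (l ≫ k) (v.res l) (x.res l) := by
  rcases H.ex with ⟨j, hA, s, hs, hL, hv, hx⟩ | ⟨j, hB, m, s, r, hr, hs, hL, hv, hm, hx⟩
  · refine ⟨Or.inl ⟨j, hA, l ≫ s, by rw [Category.assoc, hs, Category.assoc], ?_, ?_, ?_⟩⟩
    · simpa using hL.mono l
    · simpa using hv.res l
    · simpa using hx.res l
  · refine ⟨Or.inr ⟨j, hB, m, l ≫ s, l ≫ r, (tk j hB).mono m l s r hr,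
      by rw [Category.assoc, hs], ?_, ?_, hm.mono l, ?_⟩⟩
    · simpa using hL.mono l
    · simpa using hv.res l
    · simpa using hx.res l

lemma congr (H : Code a0 tk k v x) (E1 : Eq' v v') (E2 : Eq' x x') : Code a0 tk k v' x' := by
  rcases H.ex with ⟨j, hA, s, hs, hL, hv, hx⟩ | ⟨j, hB, m, s, r, hr, hs, hL, hv, hm, hx⟩
  · exact ⟨Or.inl ⟨j, hA, s, hs, hL.congr E1, E1.symm.trans hv, E2.symm.trans hx⟩⟩
  · exact ⟨Or.inr ⟨j, hB, m, s, r, hr, hs, hL.congr E1, E1.symm.trans hv, hm.congr E1,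
      E2.symm.trans hx⟩⟩

/-- the value of the surjection at the code -/
lemma img (H : Code a0 tk k v x) : ∃ (j : Jx S Nor) (w : Val C e), S.R (k ≫ a0) x w ∧
    Lst j (k ≫ a0) w ∧ Lst j (k ≫ a0) v ∧ (KindA j → Eq' v w) := by
  rcases H.ex with ⟨j, hA, s, hs, hL, hv, hx⟩ | ⟨j, hB, m, s, r, hr, hs, hL, hv, hm, hx⟩
  · refine ⟨j, j.y.res s, ?_, hL.congr hv, hL, fun _ => hv⟩
    have h1 := S.mono j.g s j.x j.y j.hxy
    rw [hs] at h1
    exact S.congr _ _ _ _ _ hx.symm (Eq'.refl _) h1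
  · refine ⟨j, j.y.res (r ≫ (tk j hB).ι m), ?_, ?_, hL, fun hA => absurd hA hB⟩
    · have h1 := S.mono j.g (r ≫ (tk j hB).ι m) j.x j.y j.hxy
      rw [Category.assoc, (tk j hB).base m s r hr, ← Category.assoc, hs] at h1
      exact S.congr _ _ _ _ _ hx.symm (Eq'.refl _) h1
    · have h1 : Lst j ((tk j hB).ι m ≫ j.g) (j.y.res ((tk j hB).ι m)) := (tk j hB).LB m
      have h2 := h1.mono r
      rw [(tk j hB).base m s r hr, ← Category.assoc, hs] at h2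
      simpa using h2

lemma mem_X (H : Code a0 tk k v x) : Mem' x (S.X.res (k ≫ a0)) := by
  obtain ⟨j, w, h1, -⟩ := H.img
  exact S.dom _ _ _ h1

lemma mem_Y (H : Code a0 tk k v x) : Mem' v (S.Y.res (k ≫ a0)) := by
  obtain ⟨j, w, -, -, h, -⟩ := H.img
  obtain ⟨t, ht, hv⟩ := h.1
  have h1 := S.mono j.g t j.x j.y j.hxy
  rw [ht] at h1
  exact Mem'.congr_left hv.symm (S.cod _ _ _ h1)

/-- **the codes are functional** -/
lemma fn (H : Code a0 tk k v x) (H' : Code a0 tk k v' x') (E : Eq' v v') : Eq' x x' := by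
  rcases H.ex with ⟨j, hA, s, hs, hL, hv, hx⟩ | ⟨j, hB, m, s, r, hr, hs, hL, hv, hm, hx⟩
  · rcases H'.ex with ⟨j', hA', s', hs', hL', hv', hx'⟩ |
      ⟨j', hB', m', s', r', hr', hs', hL', hv', hm', hx'⟩
    · obtain rfl := (hL.congr E).uniq hL'
      exact (hx.trans (hA e s s' (hs.trans hs'.symm))).trans hx'.symm
    · obtain rfl := (hL.congr E).uniq hL'
      exact absurd hA hB'
  · rcases H'.ex with ⟨j', hA', s', hs', hL', hv', hx'⟩ |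
      ⟨j', hB', m', s', r', hr', hs', hL', hv', hm', hx'⟩
    · obtain rfl := (hL.congr E).uniq hL'
      exact absurd hA' hB
    · obtain rfl := (hL.congr E).uniq hL'
      have hmm : m = m' := LstT.uniq (hm.congr E) hm' ⟨s, r, hr, hs, E.symm.trans hv⟩
        ⟨s', r', hr', hs', hv'⟩
      subst hmm
      have h1 := (tk j hB).fn m s s' r r' hr hr' (hs.trans hs'.symm)
        ((hv.symm.trans E).trans hv')
      exact (hx.trans h1).trans hx'.symm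

/-- **the codes are injective** -/
lemma inj (H : Code a0 tk k v x) (H' : Code a0 tk k v' x') (E : Eq' x x') : Eq' v v' := by
  obtain ⟨j, w, hR, hLw, hLv, hA⟩ := H.img
  obtain ⟨j', w', hR', hLw', hLv', hA'⟩ := H'.img
  have hww : Eq' w w' := S.fn _ _ _ _ hR (S.congr _ _ _ _ _ E.symm (Eq'.refl _) hR')
  obtain rfl := (hLw.congr hww).uniq hLw'
  by_cases hk : KindA j
  · exact ((hA hk).trans hww).trans (hA' hk).symm
  · rcases H.ex with ⟨j1, hA1, s, hs, hL, hv, hx⟩ | ⟨j1, hB, m, s, r, hr, hs, hL, hv, hm, hx⟩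
    · obtain rfl := hLv.uniq hL
      exact absurd hA1 hk
    obtain rfl := hLv.uniq hL
    rcases H'.ex with ⟨j2, hA2, s', hs', hL', hv', hx'⟩ |
      ⟨j2, hB', m', s', r', hr', hs', hL', hv', hm', hx'⟩
    · obtain rfl := hLv'.uniq hL'
      exact absurd hA2 hk
    obtain rfl := hLv'.uniq hL'
    have h1 := (tk j hB).inj m m' s r s' r' hr hr' (hs.trans hs'.symm)
      ((hx.symm.trans E).trans hx')
    exact (hv.trans h1).trans hv'.symm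

end Code

/-- **the codes are total** -/
lemma code_total (hd : ∀ {b : C} (g : b ⟶ c) (x : Val C b), ∃ (b' : C) (l : b' ⟶ b),
      Nor (l ≫ g) (x.res l))
    {e : C} (k : e ⟶ c0) (v : Val C e) (hv : Mem' v (S.Y.res (k ≫ a0))) :
    ∃ (e' : C) (l : e' ⟶ e) (x : Val C e'), Code a0 tk (l ≫ k) (v.res l) x := by
  obtain ⟨e1, l1, x1, h1⟩ := S.onto (k ≫ a0) v hv
  -- representation of `x1` by an element of the name
  obtain ⟨e2, l2, i, k2, hi, hxe⟩ := mem_rep _ _ _ (S.dom _ _ _ h1) (𝟙 e1)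
  rw [Category.comp_id] at hi hxe
  -- representation of `v` by an element of the name
  obtain ⟨e3, l3, i', k3, hi', hve⟩ := mem_rep _ _ _ hv (l2 ≫ l1)
  -- normality
  obtain ⟨e4, l4, hN⟩ := hd ((l3 ≫ l2) ≫ l1 ≫ k ≫ a0) (S.X.el i (l3 ≫ k2))
  rw [Val.res_el] at hN
  let l : e4 ⟶ e := l4 ≫ l3 ≫ l2 ≫ l1
  have hlk : (l ≫ k ≫ a0) = l4 ≫ (l3 ≫ l2) ≫ l1 ≫ k ≫ a0 := by simp [l]
  have hxx : Eq' (x1.res (l4 ≫ l3 ≫ l2)) (S.X.el i (l4 ≫ l3 ≫ k2)) := by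
    have := hxe.res (l4 ≫ l3)
    simpa using this
  have hvv : Eq' (v.res l) (S.Y.el i' (l4 ≫ k3)) := by
    have := hve.res l4
    simpa [l] using this
  have hR0 : S.R (l ≫ k ≫ a0) (x1.res (l4 ≫ l3 ≫ l2)) (v.res l) := by
    have := S.mono (l1 ≫ k ≫ a0) (l4 ≫ l3 ≫ l2) x1 (v.res l1) h1
    simpa [l] using this
  have hR : S.R (l ≫ k ≫ a0) (S.X.el i (l4 ≫ l3 ≫ k2)) (S.Y.el i' (l4 ≫ k3)) :=
    S.congr _ _ _ _ _ hxx hvv hR0
  rw [← hlk] at hN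
  let j0 : Jx S Nor := ⟨e4, l ≫ k ≫ a0, i, l4 ≫ l3 ≫ k2, i', l4 ≫ k3, hR, hN⟩
  have hB0 : Blk j0 (l ≫ k ≫ a0) (v.res l) := ⟨𝟙 e4, by simp [j0], by rw [Val.res_id]; exact hvv⟩
  obtain ⟨e5, l5, j, hj⟩ := exists_lst hB0
  have hj' : Lst j (((l5 ≫ l) ≫ k) ≫ a0) (v.res (l5 ≫ l)) := by simpa using hj
  by_cases hk : KindA j
  · obtain ⟨t, ht, htv⟩ := hj'.1
    exact ⟨e5, l5 ≫ l, j.x.res t, ⟨Or.inl ⟨j, hk, t, ht, hj', htv, Eq'.refl _⟩⟩⟩
  · obtain ⟨e6, l6, m, s, r, hr, hs, hvs⟩ := (tk j hk).ex ((l5 ≫ l) ≫ k) (v.res (l5 ≫ l)) hj'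
    have hT : HasT a0 tk j hk m ((l6 ≫ l5 ≫ l) ≫ k) (v.res (l6 ≫ l5 ≫ l)) :=
      ⟨s, r, hr, by rw [hs]; simp, by simpa using hvs⟩
    obtain ⟨e7, l7, m', ⟨s', r', hr', hs', hv'⟩, hm'⟩ := exists_lstT hT
    have hL7 := hj'.mono (l7 ≫ l6)
    refine ⟨e7, (l7 ≫ l6) ≫ l5 ≫ l, j.x.res (r' ≫ (tk j hk).ι m'), ⟨Or.inr ⟨j, hk, m', s', r', hr',
      ?_, ?_, ?_, ?_, Eq'.refl _⟩⟩⟩
    · rw [hs']; simp
    · simpa using hL7
    · simpa using hv'
    · simpa using hm'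

/-! ## the small family -/

variable (a0 tk) in
/-- index type of the graph of the injection -/
def Idx : Type u :=
  (Σ' (j : Jx S Nor) (e : C) (k : e ⟶ c0) (s : e ⟶ j.b), KindA j ∧ s ≫ j.g = k ≫ a0 ∧
    Lst j (k ≫ a0) (j.y.res s)) ⊕
  (Σ' (j : Jx S Nor) (hB : ¬ KindA j) (m : (tk j hB).M) (e : C) (k : e ⟶ c0)
    (s : e ⟶ (tk j hB).D m) (r : e ⟶ (tk j hB).B m), (tk j hB).Rel m s r ∧
      s ≫ (tk j hB).p m = k ∧ Lst j (k ≫ a0) (j.y.res (s ≫ (tk j hB).t m)) ∧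
      LstT a0 tk j hB m k (j.y.res (s ≫ (tk j hB).t m)))

variable (a0 tk) in
/-- stage -/
def Idx.E : Idx a0 tk → C
  | .inl a => a.2.1
  | .inr a => a.2.2.2.1

variable (a0 tk) in
/-- arrow -/
def Idx.K : ∀ i : Idx a0 tk, Idx.E a0 tk i ⟶ c0
  | .inl a => a.2.2.1
  | .inr a => a.2.2.2.2.1

variable (a0 tk) in
/-- first coordinate -/
def Idx.V : ∀ i : Idx a0 tk, Val C (Idx.E a0 tk i)
  | .inl a => a.1.y.res a.2.2.2.1
  | .inr a => a.1.y.res (a.2.2.2.2.2.1 ≫ (tk a.1 a.2.1).t a.2.2.1)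

variable (a0 tk) in
/-- second coordinate -/
def Idx.W : ∀ i : Idx a0 tk, Val C (Idx.E a0 tk i)
  | .inl a => a.1.x.res a.2.2.2.1
  | .inr a => a.1.x.res (a.2.2.2.2.2.2.1 ≫ (tk a.1 a.2.1).ι a.2.2.1)

lemma Idx.code : ∀ i : Idx a0 tk, Code a0 tk (Idx.K a0 tk i) (Idx.V a0 tk i) (Idx.W a0 tk i)
  | .inl ⟨_, _, _, s, hA, hs, hL⟩ => ⟨Or.inl ⟨_, hA, s, hs, hL, Eq'.refl _, Eq'.refl _⟩⟩
  | .inr ⟨_, hB, m, _, _, s, r, hr, hs, hL, hm⟩ =>
    ⟨Or.inr ⟨_, hB, m, s, r, hr, hs, hL, Eq'.refl _, hm, Eq'.refl _⟩⟩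

lemma Idx.of_code {e : C} {k : e ⟶ c0} {v x : Val C e} (H : Code a0 tk k v x) :
    ∃ (i : Idx a0 tk) (t : e ⟶ Idx.E a0 tk i), t ≫ Idx.K a0 tk i = k ∧
      Eq' v ((Idx.V a0 tk i).res t) ∧ Eq' x ((Idx.W a0 tk i).res t) := by
  rcases H.ex with ⟨j, hA, s, hs, hL, hv, hx⟩ | ⟨j, hB, m, s, r, hr, hs, hL, hv, hm, hx⟩
  · refine ⟨.inl ⟨j, e, k, s, hA, hs, hL.congr hv⟩, 𝟙 e, Category.id_comp _, ?_, ?_⟩
    · have h := hv
      rw [← Val.res_id (j.y.res s)] at h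
      exact h
    · have h := hx
      rw [← Val.res_id (j.x.res s)] at h
      exact h
  · refine ⟨.inr ⟨j, hB, m, e, k, s, r, hr, hs, hL.congr hv, hm.congr hv⟩, 𝟙 e,
      Category.id_comp _, ?_, ?_⟩
    · have h := hv
      rw [← Val.res_id (j.y.res (s ≫ (tk j hB).t m))] at h
      exact h
    · have h := hx
      rw [← Val.res_id (j.x.res (r ≫ (tk j hB).ι m))] at h
      exact h

/-- **PP, abstract form.**  A small family of pairs of values over `c0` which is the graph of an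
injection of `Y` into `X`. -/
theorem pp_core (hd : ∀ {b : C} (g : b ⟶ c) (x : Val C b), ∃ (b' : C) (l : b' ⟶ b),
      Nor (l ≫ g) (x.res l)) (tk : ∀ j : Jx S Nor, ¬ KindA j → Tickets a0 j.g j.x j.y (lstPred j)) :
    ∃ (I : Type u) (E : I → C) (K : ∀ i, E i ⟶ c0) (V W : ∀ i, Val C (E i)),
      (∀ i, Mem' (V i) (S.Y.res (K i ≫ a0)) ∧ Mem' (W i) (S.X.res (K i ≫ a0))) ∧
      (∀ (e : C) (i i' : I) (t : e ⟶ E i) (t' : e ⟶ E i'), t ≫ K i = t' ≫ K i' →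
        (Eq' ((V i).res t) ((V i').res t') ↔ Eq' ((W i).res t) ((W i').res t'))) ∧
      (∀ (e : C) (k : e ⟶ c0) (v : Val C e), Mem' v (S.Y.res (k ≫ a0)) →
        ∃ (e' : C) (l : e' ⟶ e) (i : I) (t : e' ⟶ E i), t ≫ K i = l ≫ k ∧
          Eq' (v.res l) ((V i).res t)) := by
  refine ⟨Idx a0 tk, Idx.E a0 tk, Idx.K a0 tk, Idx.V a0 tk, Idx.W a0 tk,
    fun i => ⟨(Idx.code i).mem_Y, (Idx.code i).mem_X⟩, fun e i i' t t' h => ?_, fun e k v hv => ?_⟩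
  · have h1 := (Idx.code i).mono t
    have h2 := (Idx.code i').mono t'
    rw [← h] at h2
    exact ⟨fun H => h1.fn h2 H, fun H => h1.inj h2 H⟩
  · obtain ⟨e', l, x, H⟩ := code_total (a0 := a0) (tk := tk) hd k v hv
    obtain ⟨i, t, h1, h2, -⟩ := Idx.of_code H
    exact ⟨e', l, i, t, h1, h2⟩

end core

end Crest.Agent.R296.PPAbsx764
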