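import Crest.Agent.R296.PPG_763
import Crest.Agent.R296.Need_763
import Crest.Agent.R296.OutA_378
import Crest.Agent.R296.Lct3_153
import Crest.Agent.R296.Loc_929

/-!
# Row 296 (S0448), helper763: the partition principle in `V^(C)`, from `OutA` (note 2240, C.1)
-/

set_option autoImplicit false
set_option linter.unusedSectionVars false
set_option linter.unusedVariables false

open CategoryTheory

namespace Crest.Agent.R296.PPCorex763

open Crest.Agent.R296.IfAx378 Crest.Agent.R296.CondCx153 Crest.Agent.R296.CatFx365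
  Crest.Agent.R296.LctStx153 Crest.Agent.R296.LCx478 Crest.Agent.R296.OutAx378
  Crest.Agent.R296.PPBrx365 Crest.Agent.R296.Needx763

variable {P : Type 1} [Monoid P] [IsGood P]

theorem genS_of {A : Ordinal.{0} → Submonoid P} (K : Kit P A) : Locx929.GenS P :=
  fun a b S hS ha hb h1 => K.gen a b S ha hb hS h1

theorem letS_of {A : Ordinal.{0} → Submonoid P} (K : Kit P A) : Locx929.LetS P :=
  fun S hS h1 => K.letr S hS h1

section blk
variable {q : Cond P}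

/-- the value is determined by the base -/
def TypeA {b : Cond P} (g : b ⟶ q) (x : Val (Cond P) b) : Prop :=
  ∀ (w : Cond P) (k k' : w ⟶ b), k ≫ g = k' ≫ g → Eq' (x.res k) (x.res k')

/-- equality of the value forces agreement outside `gP` -/
def TypeB {b : Cond P} (g : b ⟶ q) (x : Val (Cond P) b) : Prop :=
  ∀ (w : Cond P) (k k' : w ⟶ b), Eq' (x.res k) (x.res k') → ∃ z, k.1 * z = k'.1 * z ∧ ¬ g.1 ∣ z

variable (X Y : Val (Cond P) q)
  (R : ∀ d : Cond P, (d ⟶ q) → Val (Cond P) d → Val (Cond P) d → Prop)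

/-- blocks -/
structure Blk where
  b : Cond P
  g : b ⟶ q
  i : X.nm.I
  kx : b ⟶ X.nm.D i
  hx : g ≫ X.ar = kx ≫ X.nm.e i
  i' : Y.nm.I
  ky : b ⟶ Y.nm.D i'
  hy : g ≫ Y.ar = ky ≫ Y.nm.e i'
  hR : R b g (X.el i kx) (Y.el i' ky)
  typ : TypeA g (X.el i kx) ∨ TypeB g (X.el i kx)
  gne : g.1 ≠ 1

variable {X Y R}

namespace Blk
/-- first value -/
def x (j : Blk X Y R) : Val (Cond P) j.b := X.el j.i j.kx
/-- second value -/
def y (j : Blk X Y R) : Val (Cond P) j.b := Y.el j.i' j.ky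
end Blk

/-- `j` is the least block hitting `y_j` along `t`, in every extension -/
def MinB (j : Blk X Y R) {d : Cond P} (t : d ⟶ j.b) : Prop :=
  ∀ (e : Cond P) (m : e ⟶ d) (j' : Blk X Y R) (t' : e ⟶ j'.b), WellOrderingRel j' j →
    t' ≫ j'.g = (m ≫ t) ≫ j.g → ¬ Eq' (j.y.res (m ≫ t)) (j'.y.res t')

theorem MinB.res {j : Blk X Y R} {d e : Cond P} {t : d ⟶ j.b} (H : MinB j t) (m : e ⟶ d) :
    MinB j (m ≫ t) := by
  intro e' m' j' t' h1 h2 h3
  refine H e' (m' ≫ m) j' t' h1 (by simpa using h2) (by simpa using h3)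

theorem MinB.pull {A : Ordinal.{0} → Submonoid P} (K : Kit P A) {j : Blk X Y R} {d : Cond P}
    {t : d ⟶ j.b} (H : MinB j t) : MinB j (Locx929.pullInc t) := by
  intro e m j' t' h1 h2 h3
  obtain ⟨e', m1, m2, h4⟩ := Locx929.am (genS_of K) (letS_of K) (Locx929.pullArr t.1 d)
    (Locx929.full_pullArr t.1 d) m
  have h5 : m1 ≫ m ≫ Locx929.pullInc t = m2 ≫ t := by
    rw [← Category.assoc, h4, Category.assoc, Locx929.pull_fac]
  refine H e' m2 j' (m1 ≫ t') h1 ?_ ?_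
  · rw [Category.assoc, h2, ← h5]
    simp
  · have h6 := h3.res m1
    rw [Val.res_res, Val.res_res, h5] at h6
    exact h6

end blk

section main

variable {A : Ordinal.{0} → Submonoid P} (K : Kit P A) {η : TDat A → P} (T : TLem η)
  {f0 : P} (hf0 : f0 ≠ 1) {q : Cond P} {X Y : Val (Cond P) q}
  {R : ∀ d : Cond P, (d ⟶ q) → Val (Cond P) d → Val (Cond P) d → Prop}

/-- the stage `f0 · q` -/
abbrev q1 (q : Cond P) (f0 : P) : Cond P := Locx929.push f0 q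

/-- the arrow -/
abbrev g0 (q : Cond P) (f0 : P) : q1 q f0 ⟶ q := Locx929.pushArr f0 q

variable (X Y R η) in
/-- keys -/
structure Key (f0 : P) (st : Cond P × P × Ordinal.{0} → Ordinal.{0}) where
  j : Blk X Y R
  d0 : Cond P
  t : d0 ⟶ j.b
  p : d0 ⟶ q1 q f0
  hp : t ≫ j.g = p ≫ g0 q f0
  d : Cond P
  i : d ⟶ d0
  hi : i.1 = 1
  ρ : d ⟶ j.b
  hρ : ρ ≫ j.g = i ≫ p ≫ g0 q f0
  min : MinB j ρ
  dat : (TypeA j.g j.x ∧ ρ = i ≫ t) ∨ (TypeB j.g j.x ∧ ¬ TypeA j.g j.x ∧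
    ∃ (D : TDat A) (ξ : Ordinal.{0}), ρ.1 = η D ∧ D.p = p.1 ∧ D.a = j.g.1 ∧ D.β = st (d0, t.1, ξ) ∧
      (∀ (w : Cond P) (f g : w ⟶ d0), f.1 * p.1 = g.1 * p.1 →
        Eq' (j.y.res (f ≫ t)) (j.y.res (g ≫ t)) → ∃ u ∈ D.F.S, f.1 * u = g.1 * u) ∧
      (∀ (w : Cond P) (f g : w ⟶ d0), (∃ u ∈ D.F.S, f.1 * u = g.1 * u) →
        Eq' (j.y.res (f ≫ t)) (j.y.res (g ≫ t))))

/-- the generators -/
def gens (st : Cond P × P × Ordinal.{0} → Ordinal.{0}) : Gens (q1 q f0) where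
  K := Key η X Y R f0 st
  D κ := κ.d
  e κ := κ.i ≫ κ.p
  u κ := κ.j.y.res (κ.i ≫ κ.t)
  v κ := κ.j.x.res κ.ρ

variable {st : Cond P × P × Ordinal.{0} → Ordinal.{0}}

theorem h1 (κ : Key η X Y R f0 st) : Mem' (κ.j.x.res κ.ρ) ((X.res (g0 q f0)).res (κ.i ≫ κ.p)) := by
  have h := (mem_el X κ.j.g κ.j.i κ.j.kx κ.j.hx).res κ.ρ
  rw [Val.res_res, κ.hρ] at h
  rw [Val.res_res, Category.assoc]
  exact h

include T in
theorem h2 (κ : Key η X Y R f0 st) (d : Cond P) (r r' : d ⟶ κ.d)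
    (he : r ≫ κ.i ≫ κ.p = r' ≫ κ.i ≫ κ.p)
    (hu : Eq' ((κ.j.y.res (κ.i ≫ κ.t)).res r) ((κ.j.y.res (κ.i ≫ κ.t)).res r')) :
    Eq' ((κ.j.x.res κ.ρ).res r) ((κ.j.x.res κ.ρ).res r') := by
  rw [Val.res_res, Val.res_res] at hu ⊢
  rcases κ.dat with ⟨hA, hρ⟩ | ⟨hB, hA, D, ξ, hη, hDp, hDa, hβ, N1, N2⟩
  · refine hA d _ _ ?_
    rw [Category.assoc, Category.assoc, κ.hρ, ← Category.assoc κ.i, ← Category.assoc,
      ← Category.assoc r']
    rw [he]
  · have he' : (r.1 * κ.i.1) * κ.p.1 = (r'.1 * κ.i.1) * κ.p.1 := by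
      have := congrArg Subtype.val he
      simpa [mul_assoc] using this
    obtain ⟨u, hu1, hu2⟩ := N1 d (r ≫ κ.i) (r' ≫ κ.i) (by simpa using he') (by simpa using hu)
    obtain ⟨c, hc⟩ := T.t3 D u hu1
    have h3 : r ≫ κ.ρ = r' ≫ κ.ρ := by
      apply hom_ext
      simp only [comp_val, hη, hc, κ.hi, mul_one] at hu2 ⊢
      rw [← mul_assoc, hu2, mul_assoc]
    rw [h3]
    exact Eq'.refl _

include T in
theorem h3 (S : SurR X Y R) (hst : Function.Injective st) (κ κ' : Key η X Y R f0 st) (d : Cond P)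
    (r : d ⟶ κ.d) (r' : d ⟶ κ'.d) (he : r ≫ κ.i ≫ κ.p = r' ≫ κ'.i ≫ κ'.p)
    (hv : Eq' ((κ.j.x.res κ.ρ).res r) ((κ'.j.x.res κ'.ρ).res r')) :
    Eq' ((κ.j.y.res (κ.i ≫ κ.t)).res r) ((κ'.j.y.res (κ'.i ≫ κ'.t)).res r') := by
  simp only [Val.res_res] at hv ⊢
  -- same base
  have hb : (r ≫ κ.ρ) ≫ κ.j.g = (r' ≫ κ'.ρ) ≫ κ'.j.g := by
    rw [Category.assoc, Category.assoc, κ.hρ, κ'.hρ, ← Category.assoc κ.i, ← Category.assoc κ'.i,
      ← Category.assoc, ← Category.assoc r', he]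
  -- same image
  have hR1 := S.mono κ.j.g (r ≫ κ.ρ) _ _ κ.j.hR
  have hR2 := S.mono κ'.j.g (r' ≫ κ'.ρ) _ _ κ'.j.hR
  rw [← hb] at hR2
  have hX : Mem' ((X.el κ.j.i κ.j.kx).res (r ≫ κ.ρ)) (X.res ((r ≫ κ.ρ) ≫ κ.j.g)) := by
    have h := (mem_el X κ.j.g κ.j.i κ.j.kx κ.j.hx).res (r ≫ κ.ρ)
    rwa [Val.res_res] at h
  have hY : Eq' (κ.j.y.res (r ≫ κ.ρ)) (κ'.j.y.res (r' ≫ κ'.ρ)) :=
    S.fn _ _ _ _ hX hR1 (S.congr _ _ _ _ _ hv.symm (Eq'.refl _) hR2)
  obtain ⟨j, d0, t, p, hp, dd, i, hi, ρ, hρ, min, dat⟩ := κ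
  obtain ⟨j', d0', t', p', hp', dd', i', hi', ρ', hρ', min', dat'⟩ := κ'
  dsimp only at *
  -- same block
  have hj : j = j' := by
    rcases trichotomous_of WellOrderingRel j j' with h | h | h
    · exact absurd hY.symm (min' d r' j (r ≫ ρ) h hb)
    · exact h
    · exact absurd hY (min d r j' (r' ≫ ρ') h hb.symm)
  subst hj
  rcases dat with ⟨hA, hρt⟩ | ⟨hB, hA, D, ξ, hη, hDp, hDa, hβ, N1, N2⟩
  · rcases dat' with ⟨hA', hρt'⟩ | ⟨hB', hA', -⟩
    · rw [hρt, hρt'] at hY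
      exact hY
    · exact absurd hA hA'
  · rcases dat' with ⟨hA', hρt'⟩ | ⟨hB', hA', D', ξ', hη', hDp', hDa', hβ', N1', N2'⟩
    · exact absurd hA' hA
    · obtain ⟨z, hz, hgz⟩ := hB d _ _ hv
      have hbase : r.1 * D.p = r'.1 * D'.p := by
        have := congrArg Subtype.val he
        simp only [comp_val, hi, hi', one_mul] at this
        exact (congrArg (fun z => r.1 * z) hDp).trans
          (this.trans (congrArg (fun z => r'.1 * z) hDp').symm)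
      obtain ⟨hDD, -, u, hu, huu⟩ := T.t2 D D' r.1 r'.1 z z hbase
        (by simpa [hη, hη'] using hz) (by rwa [hDa]) (by rwa [hDa'])
      subst hDD
      have h5 : st (d0, t.1, ξ) = st (d0', t'.1, ξ') := hβ.symm.trans hβ'
      have h6 := hst h5
      simp only [Prod.mk.injEq] at h6
      obtain ⟨h6, h7, -⟩ := h6
      subst h6
      have h8 : t = t' := hom_ext _ _ h7
      subst h8
      have := N2 d (r ≫ i) (r' ≫ i') ⟨u, hu, by simpa [hi, hi'] using huu⟩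
      simpa using this

end main

end Crest.Agent.R296.PPCorex763
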