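import Crest.Agent.R296.PPTot_763

/-!
# Row 296 (S0448), helper763: the partition principle in `V^(C)` from `OutA`: `PPOut (Cond P)`
-/

set_option autoImplicit false
set_option linter.unusedSectionVars false
set_option linter.unusedVariables false

open CategoryTheory

namespace Crest.Agent.R296.PPFinx763

open Crest.Agent.R296.IfAx378 Crest.Agent.R296.CondCx153 Crest.Agent.R296.CatFx365
  Crest.Agent.R296.LctStx153 Crest.Agent.R296.LCx478 Crest.Agent.R296.OutAx378
  Crest.Agent.R296.PPBrx365 Crest.Agent.R296.Needx763 Crest.Agent.R296.PPCorex763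
  Crest.Agent.R296.PPTotx763

variable {P : Type 1} [Monoid P] [IsGood P] {A : Ordinal.{0} → Submonoid P}
  (K : Kit P A) (L : LCT P) {η : TDat A → P} (T : TLem η)
  {f0 : P} (hf0 : f0 ≠ 1) {q : Cond P} {X Y : Val (Cond P) q}
  {R : ∀ d : Cond P, (d ⟶ q) → Val (Cond P) d → Val (Cond P) d → Prop}
  {st : Cond P × P × Ordinal.{0} → Ordinal.{0}}

include K L T hf0 in
theorem h4 (S : SurR X Y R) (hst : ∀ k, Bd A k (st k) ∧ st k % 2 = 1) (e : Cond P)
    (h : e ⟶ q1 q f0) (y : Val (Cond P) e) (hy : Mem' y ((Y.res (g0 q f0)).res h)) :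
    ∃ (e' : Cond P) (m : e' ⟶ e) (κ : (gens (X := X) (Y := Y) (R := R) (η := η) (f0 := f0) st).K)
      (r : e' ⟶ (gens (X := X) (Y := Y) (R := R) (η := η) (f0 := f0) st).D κ),
      Hit (gens (X := X) (Y := Y) (R := R) (η := η) (f0 := f0) st) (m ≫ h) (y.res m) κ r := by
  rw [Val.res_res] at hy
  obtain ⟨e1, m1, j, t1, hb1, hy1, hmin1⟩ := exists_min K L hf0 S h y hy
  obtain ⟨d0, i0, F, hi0, hFp, hF⟩ := norm_pt K L (m1 ≫ h).1 (j.y.res t1)
  have hmin0 : MinB j (i0 ≫ t1) := hmin1.res i0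
  have hbase0 : (i0 ≫ t1) ≫ j.g = (i0 ≫ m1 ≫ h) ≫ g0 q f0 := by
    rw [Category.assoc, hb1]
    simp
  have hval0 : Eq' (y.res (i0 ≫ m1)) (j.y.res (i0 ≫ t1)) := by
    have := hy1.res i0
    rwa [Val.res_res, Val.res_res] at this
  by_cases hA : TypeA j.g j.x
  · let κ : Key η X Y R f0 st :=
      { j := j
        d0 := d0
        t := i0 ≫ t1
        p := i0 ≫ m1 ≫ h
        hp := hbase0
        d := d0
        i := 𝟙 d0
        hi := rfl
        ρ := i0 ≫ t1
        hρ := by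
          rw [hbase0]
          simp
        min := hmin0
        dat := Or.inl ⟨hA, by simp⟩ }
    refine ⟨d0, i0 ≫ m1, κ, 𝟙 d0, ?_, ?_⟩
    · change 𝟙 d0 ≫ 𝟙 d0 ≫ i0 ≫ m1 ≫ h = _
      simp
    · change Eq' _ ((j.y.res (𝟙 d0 ≫ i0 ≫ t1)).res (𝟙 d0))
      simpa using hval0
  · have hB : TypeB j.g j.x := by
      rcases j.typ with h1 | h1
      · exact absurd h1 hA
      · exact h1
    -- the stage
    obtain ⟨α, hα⟩ := Lctx153.gen_some K F
    obtain ⟨α1, hα1⟩ := K.exh j.g.1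
    obtain ⟨α2, hα2⟩ := K.exh (i0 ≫ m1 ≫ h).1
    obtain ⟨α3, hα3⟩ := K.exh f0
    let ξ : Ordinal.{0} := max (max α α1) (max α2 α3)
    let β := st (d0, (i0 ≫ t1).1, ξ)
    obtain ⟨⟨hbox, hβt, hξβ⟩, hodd⟩ := hst (d0, (i0 ≫ t1).1, ξ)
    have l0 : α ≤ β := ((le_max_left _ _).trans (le_max_left _ _)).trans hξβ
    have l1 : α1 ≤ β := ((le_max_right _ _).trans (le_max_left _ _)).trans hξβ
    have l2 : α2 ≤ β := ((le_max_left _ _).trans (le_max_right _ _)).trans hξβ
    have l3 : α3 ≤ β := ((le_max_right _ _).trans (le_max_right _ _)).trans hξβ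
    let p : P := (i0 ≫ m1 ≫ h).1
    have hp1 : p = (m1 ≫ h).1 := by simp [p, hi0]
    have hpβ : p ∈ A β := K.mono l2 hα2
    let D : TDat A :=
      { β := β
        F := F
        a := j.g.1
        b := p * f0
        p := p
        odd := hodd
        gen := fun s hs => by
          obtain ⟨m, hm, hm2⟩ := hα s hs
          exact ⟨m, K.mono l0 hm, hm2⟩
        ha := K.mono l1 hα1
        hb := (A β).mul_mem hpβ (K.mono l3 hα3)
        hp := hpβ
        a_ne := j.gne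
        mem := fun s hs => by rw [hp1]; exact hFp s hs
        dvd := ⟨f0, rfl⟩
        ndvd := by
          rintro ⟨c, hc⟩
          refine ne_one_left (b := c) hf0 (IsGood.lc p _ _ ?_)
          rw [mul_one, ← mul_assoc]
          exact hc.symm }
    have hrel : η D * j.g.1 = p * f0 := T.rel D
    have hbase1 : (i0 ≫ t1).1 * j.g.1 = p * f0 := by
      exact congrArg Subtype.val hbase0
    -- labels
    let N : Set (P × Lab) := psh (η D) (pul (i0 ≫ t1).1 d0.q)
    have hN : IsCond (d0.q ∪ N) := by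
      refine d0.h.union ((d0.h.pul _).psh _) fun s l h1 h2 => ?_
      obtain ⟨x, hx, hs⟩ := mem_psh.1 h2
      rw [mem_pul] at hx
      have h3 : (1 : P) * η D * x ∈ A β := by
        rw [one_mul, ← hs]
        exact (hbox h1).1
      obtain ⟨x', hx'⟩ := T.t0 D 1 x (A β).one_mem h3
      have h4 : s = (i0 ≫ t1).1 * x := by
        rw [hs, hx']
        change η D * (j.g.1 * x') = (i0 ≫ t1).1 * (j.g.1 * x')
        rw [← mul_assoc, ← mul_assoc, hrel, hbase1]
      rw [← h4] at hx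
      exact d0.h.con _ _ h1 hx
    let d : Cond P := ⟨d0.q ∪ N, hN⟩
    let i : d ⟶ d0 := ⟨1, by rw [psh_one]; exact Set.subset_union_left⟩
    let ρ' : d ⟶ Locx929.pull (i0 ≫ t1).1 d0 := ⟨η D, Set.subset_union_right⟩
    let ρ : d ⟶ j.b := ρ' ≫ Locx929.pullInc (i0 ≫ t1)
    have hρ1 : ρ.1 = η D := by
      change η D * 1 = η D
      exact mul_one _
    have hminρ : MinB j ρ := (hmin0.pull K).res ρ'
    have hρb : ρ ≫ j.g = i ≫ (i0 ≫ m1 ≫ h) ≫ g0 q f0 := by
      apply hom_ext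
      rw [comp_val, hρ1, hrel]
      change p * f0 = 1 * (p * f0)
      rw [one_mul]
    have N1 : ∀ (w : Cond P) (f g : w ⟶ d0), f.1 * (i0 ≫ m1 ≫ h).1 = g.1 * (i0 ≫ m1 ≫ h).1 →
        Eq' (j.y.res (f ≫ i0 ≫ t1)) (j.y.res (g ≫ i0 ≫ t1)) → ∃ u ∈ D.F.S, f.1 * u = g.1 * u := by
      intro w f g h1 h2
      refine (hF w f g).1 ⟨?_, ?_⟩
      · rw [← hp1]; exact h1
      · rw [Val.res_res, Val.res_res]
        simpa using h2
    have N2 : ∀ (w : Cond P) (f g : w ⟶ d0), (∃ u ∈ D.F.S, f.1 * u = g.1 * u) →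
        Eq' (j.y.res (f ≫ i0 ≫ t1)) (j.y.res (g ≫ i0 ≫ t1)) := by
      intro w f g h1
      have h2 := ((hF w f g).2 h1).2
      rw [Val.res_res, Val.res_res] at h2
      simpa using h2
    let κ : Key η X Y R f0 st :=
      { j := j
        d0 := d0
        t := i0 ≫ t1
        p := i0 ≫ m1 ≫ h
        hp := hbase0
        d := d
        i := i
        hi := rfl
        ρ := ρ
        hρ := hρb
        min := hminρ
        dat := Or.inr ⟨hB, hA, D, ξ, hρ1, rfl, rfl, rfl, N1, N2⟩ }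
    refine ⟨d, i ≫ i0 ≫ m1, κ, 𝟙 d, ?_, ?_⟩
    · change 𝟙 d ≫ i ≫ i0 ≫ m1 ≫ h = _
      simp
    · change Eq' _ ((j.y.res (i ≫ i0 ≫ t1)).res (𝟙 d))
      have := hval0.res i
      rw [Val.res_res, Val.res_res] at this
      simpa using this

include K L T in
/-- **the partition principle in `V^(C)`** -/
theorem ppOut : PPOut (Cond P) := by
  intro q X Y R S
  obtain ⟨f0, hf0, -⟩ := K.letr ∅ inferInstance (by simp)
  obtain ⟨st, hinj, hst⟩ := exists_code K.mono K.small K.exh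
  refine ⟨q1 q f0, g0 q f0, ⟨PPGx763.injFam (gens (X := X) (Y := Y) (R := R) (η := η) (f0 := f0) st)
    (fun κ => h1 κ) (fun κ d r r' he hu => h2 T κ d r r' he hu)
    (fun κ κ' d r r' he hv => h3 T S hinj κ κ' d r r' he hv)
    (fun d h y hy => h4 K L T hf0 S hst d h y hy)⟩⟩

/-- conclusion -/
theorem ppOut_of (O : OutA P) : PPOut (Cond P) :=
  ppOut O.kit (Lctx153.lct O.kit) O.t

end Crest.Agent.R296.PPFinx763
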