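import Crest.Agent.R296.LC_478
import Crest.Agent.R296.PPBr_365

/-!
# Row 296 (S0448), helper763: least-key families are injective families (478's `Gens`, 365's `InjFam`)
-/

set_option autoImplicit false

namespace Crest.Agent.R296.PPGx763

open CategoryTheory
open Crest.Agent.R296.CatFx365 Crest.Agent.R296.CatOpsx365 Crest.Agent.R296.LCx478

universe u

variable {C : Type u} [Category.{u} C] {c0 : C} {X Y : Val C c0}

/-- keys with (1) values in `X`, (2) one key is functional, (3) two keys are injective, (4) totality -/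
noncomputable def injFam (G : Gens c0)
    (hx : ∀ κ, Mem' (G.v κ) (X.res (G.e κ)))
    (H2 : ∀ (κ : G.K) (d : C) (r r' : d ⟶ G.D κ), r ≫ G.e κ = r' ≫ G.e κ →
      Eq' ((G.u κ).res r) ((G.u κ).res r') → Eq' ((G.v κ).res r) ((G.v κ).res r'))
    (H3 : ∀ (κ κ' : G.K) (d : C) (r : d ⟶ G.D κ) (r' : d ⟶ G.D κ'),
      r ≫ G.e κ = r' ≫ G.e κ' → Eq' ((G.v κ).res r) ((G.v κ').res r') →
      Eq' ((G.u κ).res r) ((G.u κ').res r'))
    (H4 : ∀ (d : C) (h : d ⟶ c0) (y : Val C d), Mem' y (Y.res h) →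
      ∃ (d' : C) (m : d' ⟶ d) (κ : G.K) (r : d' ⟶ G.D κ), Hit G (m ≫ h) (y.res m) κ r) :
    PPBrx365.InjFam X Y where
  A := Σ (κ : G.K) (d : C), {r : d ⟶ G.D κ // Least G κ r}
  D t := t.2.1
  e t := t.2.2.1 ≫ G.e t.1
  y t := (G.u t.1).res t.2.2.1
  x t := (G.v t.1).res t.2.2.1
  hx t := by
    have := (hx t.1).res t.2.2.1
    rwa [Val.res_res] at this
  tot := by
    intro d h z hz d1 l
    have hz' : Mem' (z.res l) (Y.res (l ≫ h)) := by
      have := hz.res l
      rwa [Val.res_res] at this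
    obtain ⟨d2, m, κ, r, h1, h2⟩ := exists_least G (l ≫ h) (z.res l) (H4 d1 (l ≫ h) (z.res l) hz')
    refine ⟨d2, m, ⟨κ, d2, r, h2⟩, 𝟙 d2, ?_, ?_⟩
    · have := h1.1
      simp only [Category.id_comp, Category.assoc]
      rw [this]
    · have := h1.2
      rw [Val.res_res] at this
      simpa using this
  J := by
    rintro ⟨κ, d, r, hr⟩ ⟨κ', d', r', hr'⟩ e k k' hk
    simp only [Val.res_res] at hk ⊢
    have hk' : (k ≫ r) ≫ G.e κ = (k' ≫ r') ≫ G.e κ' := by simpa using hk
    constructor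
    · intro H
      rcases lt_trichotomy κ κ' with hlt | heq | hgt
      · refine absurd H.symm (hr' e k' κ (k ≫ r) hlt ?_)
        exact hk'
      · subst heq
        exact H2 κ e (k ≫ r) (k' ≫ r') hk' H
      · refine absurd H (hr e k κ' (k' ≫ r') hgt ?_)
        exact hk'.symm
    · intro H
      exact H3 κ κ' e (k ≫ r) (k' ≫ r') hk' H

end Crest.Agent.R296.PPGx763
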