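import Crest.Agent.R296.PPAbs_764
import Crest.Agent.R296.PPBr_365
import Crest.Agent.R296.LctSt_153
import Crest.Agent.R296.Loc_929
import Crest.Agent.R296.IfA2_378

/-!
Row 296 (S0448), helper764.  **Block C, PP: the tickets of the label category, and `PPOut (Cond P)`.**

A ticket of the block `(b, g, x, y)` is an odd stage `β` together with a state `(D, p, t) = f β`
(`f : Ordinal → Cond P × P × P` with unbounded odd fibres) which is good for `β`; its letter is the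
T-letter `η` of the datum `(F_y, a = g, b = p f0, p)` at the stage `β`.
-/

set_option autoImplicit false

noncomputable section

namespace Crest.Agent.R296.PPTx764

open CategoryTheory
open Crest.Agent.R296.CatFx365 Crest.Agent.R296.PPBrx365 Crest.Agent.R296.CondCx153
open Crest.Agent.R296.IfAx378 Crest.Agent.R296.PPAbsx764
open Crest.Agent.R296.IfA2x378 (OutA TDat TLem GenBy Tower)
open Crest.Agent.R296.LctStx153 (LCT RForm LocRel valRel ptRel incl incl_val)
open Crest.Agent.R296.Locx929 (Compat inc inc_val arr arr_val arr_mem un left_le_un right_le_un supp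
  push pushArr pushArr_val pull pullArr pullArr_val pullInc pull_fac full_pullArr fa am)

variable {P : Type 1} [Monoid P] [IsGood P]

/-! ### normal values -/

/-- normal value over `g` -/
def Nor {c b : Cond P} (g : b ⟶ c) (x : Val (Cond P) b) : Prop :=
  g.1 ≠ 1 ∧ RForm b (fun _ f f' => Eq' (x.res f) (x.res f'))

lemma nor_dense (hL : LCT P) {f0 : P} (hf0 : f0 ≠ 1) {c b : Cond P} (g : b ⟶ c)
    (x : Val (Cond P) b) : ∃ (b' : Cond P) (l : b' ⟶ b), Nor (l ≫ g) (x.res l) := by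
  obtain ⟨b2, h, hR⟩ := hL (push f0 b) (valRel (x.res (pushArr f0 b)))
  refine ⟨b2, incl h ≫ pushArr f0 b, ?_, ?_⟩
  · intro h1
    simp only [comp_val, incl_val, one_mul, pushArr_val] at h1
    exact hf0 (IsGood.unit _ _ h1)
  · have e : (fun (w : Cond P) (f f' : w ⟶ b2) => Eq' ((x.res (incl h ≫ pushArr f0 b)).res f)
        ((x.res (incl h ≫ pushArr f0 b)).res f')) =
        fun w f g => (valRel (x.res (pushArr f0 b))).E w (f ≫ incl h) (g ≫ incl h) := by
      funext w f f'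
      simp only [valRel, Val.res_res, Category.assoc]
    rw [e]
    exact hR

section nf
variable (hG : Locx929.GenS P) (hl : Locx929.LetS P)
include hG hl

/-- the point of a normal form lies in all members of the filter -/
lemma dvd_of_nf {D : Cond P} {p : P} {E : ∀ w : Cond P, (w ⟶ D) → (w ⟶ D) → Prop} {G : Filt P}
    (h : ∀ w s s', (s.1 * p = s'.1 * p ∧ E w s s') ↔ ∃ u ∈ G.S, s.1 * u = s'.1 * u)
    {u : P} (hu : u ∈ G.S) : u ∣ p := by
  obtain ⟨h', k', h1, h2⟩ := fa hG hl u u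
  have hc : Compat (push h' D).q (push k' D).q := by
    intro z l h3 h4
    obtain ⟨s, h5, rfl⟩ := mem_psh.1 h3
    obtain ⟨t, h6, h7⟩ := mem_psh.1 h4
    obtain ⟨r, rfl, rfl⟩ := h2 s t h7
    exact D.h.con _ _ h5 h6
  have := (h (un _ _ hc) (arr h' fun s l hs => Or.inl (mem_psh.2 ⟨s, hs, rfl⟩))
    (arr k' fun s l hs => Or.inr (mem_psh.2 ⟨s, hs, rfl⟩))).2 ⟨u, hu, h1⟩
  obtain ⟨t, ht, -⟩ := h2 p p this.1
  exact ⟨t, ht⟩

omit hG in
/-- a point separates -/
lemma not_total (D : Cond P) (p : P) (E : ∀ w : Cond P, (w ⟶ D) → (w ⟶ D) → Prop)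
    (h : ∀ w s s', s.1 * p = s'.1 * p ∧ E w s s') : False := by
  obtain ⟨k, hk, -⟩ := hl ∅ inferInstance (by simp)
  obtain ⟨k', hk', hd⟩ := hl {k} inferInstance (by simpa using hk.symm)
  have hd' := hd k rfl
  have hc : Compat (push k' D).q (push k D).q := by
    intro z l h3 h4
    obtain ⟨s, h5, rfl⟩ := mem_psh.1 h3
    obtain ⟨t, h6, h7⟩ := mem_psh.1 h4
    exact hd' s t h7
  have := (h (un _ _ hc) (arr k' fun s l hs => Or.inl (mem_psh.2 ⟨s, hs, rfl⟩))
    (arr k fun s l hs => Or.inr (mem_psh.2 ⟨s, hs, rfl⟩))).1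
  exact hd' p p this

end nf

/-! ### tickets -/

variable (O : OutA P)

/-- the arrow `f0 : f0·c ⟶ c` -/
abbrev a0 (c : Cond P) : push O.T.f0 c ⟶ c := pushArr O.T.f0 c

variable {c b : Cond P} {g : b ⟶ c} {y : Val (Cond P) b} (L : LPred c g y)
  (f : Ordinal.{0} → Cond P × P × P)

/-- a ticket -/
structure Tk : Type 1 where
  β : Ordinal.{0}
  odd : β % 2 = 1
  D : Cond P
  p : D ⟶ push O.T.f0 c
  t : D ⟶ b
  hf : f β = (D, p.1, t.1)
  tg : t ≫ g = p ≫ a0 O c
  hL : L.L (p ≫ a0 O c) (y.res t)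
  G : Filt P
  hG : ∀ (w : Cond P) (s s' : w ⟶ D), (s.1 * p.1 = s'.1 * p.1 ∧
    Eq' (y.res (s ≫ t)) (y.res (s' ≫ t))) ↔ ∃ u ∈ G.S, s.1 * u = s'.1 * u
  gen : GenBy O.T G β
  ha : g.1 ∈ O.T.A β
  hp : p.1 ∈ O.T.A β
  hs : ∀ s ∈ supp D, s ∈ O.T.A β

omit [IsGood P] in
lemma genS' (O : OutA P) : Locx929.GenS P := fun a b S h ha hb h1 => by
  obtain ⟨y, -, h2, h3⟩ := O.genS a b S h ha hb h1
  exact ⟨y, h2, h3⟩

omit [IsGood P] in
lemma letS' (O : OutA P) : Locx929.LetS P := O.letS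

variable {O L f}

/-- the datum of a ticket -/
def Tk.dat (hg : g.1 ≠ 1) (m : Tk O L f) : TDat O.T where
  β := m.β
  odd := m.odd
  F := m.G
  a := g.1
  b := m.p.1 * O.T.f0
  p := m.p.1
  gen := m.gen
  ha := m.ha
  hb := mul_mem m.hp (O.T.mono (zero_le (a := m.β)) O.T.f0_mem)
  hp := m.hp
  a_ne := hg
  mem := fun _ hs => dvd_of_nf (genS' O) (letS' O) m.hG hs
  dvd := ⟨_, rfl⟩
  ndvd := by
    rintro ⟨z, hz⟩
    have h1 : m.p.1 * 1 = m.p.1 * (O.T.f0 * z) := by rw [mul_one, ← mul_assoc, ← hz]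
    exact O.T.f0_ne (IsGood.unit _ _ (IsGood.lc _ _ _ h1).symm)

/-- the letter of a ticket -/
def Tk.eta (hg : g.1 ≠ 1) (m : Tk O L f) : P := O.η (m.dat hg)

lemma Tk.eta_mul (hg : g.1 ≠ 1) (m : Tk O L f) : m.eta hg * g.1 = m.p.1 * O.T.f0 :=
  O.t.rel (m.dat hg)

/-- the condition of a ticket -/
def Tk.B (m : Tk O L f) : Cond P := pull m.t.1 m.D

/-- the arrow of a ticket -/
def Tk.ι (m : Tk O L f) : m.B ⟶ b := pullInc m.t

@[simp] lemma Tk.ι_val (m : Tk O L f) : m.ι.1 = 1 := rfl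

/-- the union of `D` and of `η B` is a condition -/
lemma Tk.compat (hg : g.1 ≠ 1) (m : Tk O L f) : Compat m.D.q (push (m.eta hg) m.B).q := by
  intro z l h1 h2
  obtain ⟨w, h3, rfl⟩ := mem_psh.1 h2
  have h4 : (1 : P) * O.η (m.dat hg) * w ∈ O.T.A m.β := by
    rw [one_mul]
    exact m.hs _ ⟨l, h1⟩
  obtain ⟨r, rfl⟩ := O.t.t0 (m.dat hg) 1 w (one_mem _) h4
  have h5 : (m.t.1 * (g.1 * r), Lab.neg l) ∈ m.D.q := h3
  have h6 : m.eta hg * (g.1 * r) = m.t.1 * (g.1 * r) := by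
    rw [← mul_assoc, m.eta_mul, ← mul_assoc]
    have := congrArg Subtype.val m.tg
    simp only [comp_val, pushArr_val] at this
    rw [this]
  refine m.D.h.con _ _ h1 ?_
  change (m.eta hg * (g.1 * r), Lab.neg l) ∈ m.D.q
  rw [h6]
  exact h5

/-- **the tickets of a block of kind B** -/
def tickets (hL : LCT P) (hg : g.1 ≠ 1) {x : Val (Cond P) b} {F : Filt P}
    (hF : ∀ (w : Cond P) (s s' : w ⟶ b), Eq' (x.res s) (x.res s') ↔ ∃ u ∈ F.S, s.1 * u = s'.1 * u)
    (hgF : g.1 ∉ F.S)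
    (hf : ∀ st γ, ∃ β, γ ≤ β ∧ β % 2 = 1 ∧ f β = st)
    (hgen : ∀ F : Filt P, ∃ γ, GenBy O.T F γ) : Tickets (a0 O c) g x y L where
  M := Tk O L f
  D := Tk.D
  p := Tk.p
  t := Tk.t
  B := Tk.B
  ι := Tk.ι
  Rel m _ s r := r.1 = s.1 * m.eta hg
  mono m _ _ l s r h := by
    rw [comp_val, comp_val, h, mul_assoc]
  tg := Tk.tg
  base m _ s r h := by
    ext
    simp only [comp_val, Tk.ι_val, one_mul, pushArr_val]
    rw [h, mul_assoc, m.eta_mul]
  fn m _ s s' r r' h h' hp hy := by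
    obtain ⟨u, hu, h1⟩ := (m.hG _ s s').1 ⟨congrArg Subtype.val hp, hy⟩
    obtain ⟨z, hz⟩ := O.t.t3 (m.dat hg) u hu
    have hz' : m.eta hg = u * z := hz
    have : r = r' := by
      ext
      rw [h, h', hz', ← mul_assoc, h1, mul_assoc]
    rw [this]
    exact Eq'.refl _
  inj m m' _ s r s' r' h h' hp hx := by
    obtain ⟨z, hz, h1⟩ := (hF _ _ _).1 hx
    simp only [comp_val, Tk.ι_val, mul_one] at h1
    rw [h, h'] at h1
    have hz' : ¬ g.1 ∣ z := fun hd => hgF (F.up _ _ hd hz)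
    obtain ⟨h2, -, u, hu, h3⟩ := O.t.t2 (m.dat hg) (m'.dat hg) s.1 s'.1 z z
      (congrArg Subtype.val hp) h1 hz' hz'
    have hβ : m.β = m'.β := congrArg TDat.β h2
    have hst := m.hf
    rw [hβ, m'.hf] at hst
    obtain ⟨β, odd, D, p, t, hf, tg, hL, G, hG, gen, ha, hp', hs⟩ := m
    obtain ⟨β', odd', D', p', t', hf', tg', hL', G', hG', gen', ha', hp'', hs'⟩ := m'
    simp only [Prod.mk.injEq] at hst
    obtain ⟨rfl, h4, h5⟩ := hst
    have h4' : p' = p := hom_ext _ _ h4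
    have h5' : t' = t := hom_ext _ _ h5
    subst h4' h5'
    exact ((hG _ s s').2 ⟨u, hu, h3⟩).2
  LB m := by
    refine L.desc (pullArr m.t.1 m.D) (Tk.ι m)
      (fun e k => ?_) ?_
    · obtain ⟨e', l, k', h⟩ := am (genS' O) (letS' O) (pullArr m.t.1 m.D) (full_pullArr _ _) k
      exact ⟨e', l, k', h⟩
    · have h1 : pullArr m.t.1 m.D ≫ m.ι = m.t := pull_fac m.t
      rw [← Category.assoc, h1, m.tg]
      exact m.hL
  ex := by
    intro e k v hv
    obtain ⟨t', ht', hvt⟩ := L.blk _ _ hv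
    obtain ⟨D, hD, hR⟩ := hL e (ptRel k.1 (y.res t'))
    have hnf : ∃ G : Filt P, ∀ (w : Cond P) (s s' : w ⟶ D), (s.1 * (incl hD ≫ k).1 =
        s'.1 * (incl hD ≫ k).1 ∧ Eq' (y.res (s ≫ incl hD ≫ t')) (y.res (s' ≫ incl hD ≫ t'))) ↔
        ∃ u ∈ G.S, s.1 * u = s'.1 * u := by
      rcases hR with h | ⟨G, h⟩
      · refine (not_total (letS' O) D k.1 (fun w s s' => True) fun w s s' => ⟨?_, trivial⟩).elim
        have := (h w s s').1
        simpa using this
      · refine ⟨G, fun w s s' => ?_⟩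
        rw [← h w s s']
        simp only [ptRel, comp_val, incl_val, one_mul, mul_one, Val.res_res, Category.assoc]
    obtain ⟨G, hnf⟩ := hnf
    obtain ⟨γ1, h1⟩ := hgen G
    obtain ⟨γ2, h2⟩ := O.T.exh g.1
    obtain ⟨γ3, h3⟩ := O.T.exh (incl hD ≫ k).1
    obtain ⟨γ4, h4⟩ := O.sm (supp D) inferInstance
    obtain ⟨β, hβ, hodd, hfβ⟩ := hf (D, (incl hD ≫ k).1, (incl hD ≫ t').1)
      (max (max γ1 γ2) (max γ3 γ4))
    have m1 : O.T.A γ1 ≤ O.T.A β :=
      O.T.mono (((le_max_left _ _).trans (le_max_left _ _)).trans hβ)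
    have m2 : O.T.A γ2 ≤ O.T.A β :=
      O.T.mono (((le_max_right _ _).trans (le_max_left _ _)).trans hβ)
    have m3 : O.T.A γ3 ≤ O.T.A β :=
      O.T.mono (((le_max_left _ _).trans (le_max_right _ _)).trans hβ)
    have m4 : O.T.A γ4 ≤ O.T.A β :=
      O.T.mono (((le_max_right _ _).trans (le_max_right _ _)).trans hβ)
    let m : Tk O L f :=
      { β := β
        odd := hodd
        D := D
        p := incl hD ≫ k
        t := incl hD ≫ t'
        hf := hfβ
        tg := by rw [Category.assoc, Category.assoc, ht']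
        hL := by
          have h5 := L.mono _ (incl hD) _ hv
          rw [← Category.assoc] at h5
          refine L.congr _ _ _ ?_ h5
          have := hvt.res (incl hD)
          simpa using this
        G := G
        hG := hnf
        gen := fun s hs => by
          obtain ⟨m, hm, h⟩ := h1 s hs
          exact ⟨m, m1 hm, h⟩
        ha := m2 h2
        hp := m3 h3
        hs := fun s hs => m4 (h4 s hs) }
    refine ⟨un _ _ (m.compat hg), inc (left_le_un _) ≫ incl hD, m, inc (left_le_un _),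
      arr (m.eta hg) fun s l hs => Or.inr (mem_psh.2 ⟨s, hs, rfl⟩), ?_, ?_, ?_⟩
    · simp
    · simp [m]
    · have := hvt.res (inc (left_le_un (m.compat hg)) ≫ incl hD)
      simpa [m] using this

/-! ### output -/

/-- tickets for every block of kind B -/
theorem tk_of (hL : LCT P) (hf : ∀ st γ, ∃ β, γ ≤ β ∧ β % 2 = 1 ∧ f β = st)
    (hgen : ∀ F : Filt P, ∃ γ, GenBy O.T F γ) (S : Surj c)
    (j : Jx S (fun {_} g x => Nor g x)) (hj : ¬ KindA j) :
    Nonempty (Tickets (a0 O c) j.g j.x j.y (lstPred j)) := by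
  obtain ⟨hg, hR⟩ := j.hx
  rcases hR with h | ⟨F, hF⟩
  · exact absurd (fun e t t' _ => h e t t') hj
  · refine ⟨tickets (f := f) hL hg hF (fun hgF => hj fun e t t' ht => ?_) hf hgen⟩
    exact (hF e t t').2 ⟨j.g.1, hgF, congrArg Subtype.val ht⟩

variable (O)

/-- the relation of a surjection at the stages over `q` -/
def surj {q : Cond P} {X Y : Val (Cond P) q}
    {R : ∀ d : Cond P, (d ⟶ q) → Val (Cond P) d → Val (Cond P) d → Prop} (H : SurR X Y R) :
    Surj q where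
  X := X
  Y := Y
  R {d} h x y := Mem' x (X.res h) ∧ Mem' y (Y.res h) ∧ R d h x y
  mono h g x y H1 := ⟨by simpa using H1.1.res g, by simpa using H1.2.1.res g, H.mono h g x y H1.2.2⟩
  congr h x x' y y' hx hy H1 :=
    ⟨Mem'.congr_left hx H1.1, Mem'.congr_left hy H1.2.1, H.congr h x x' y y' hx hy H1.2.2⟩
  fn h x y y' H1 H2 := H.fn h x y y' H1.1 H1.2.2 H2.2.2
  dom h x y H1 := H1.1
  cod h x y H1 := H1.2.1
  onto {d} h y hy := by
    obtain ⟨d2, m, x, h1, h2⟩ := H.onto h y hy d (𝟙 d)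
    rw [Category.comp_id] at h1 h2
    exact ⟨d2, m, x, h1, by simpa using hy.res m, h2⟩

/-- **C-PP, with the coding function and generation of filters as hypotheses** -/
theorem pp_out' (hL : LCT P) (hf : ∀ st γ, ∃ β, γ ≤ β ∧ β % 2 = 1 ∧ f β = st)
    (hgen : ∀ F : Filt P, ∃ γ, GenBy O.T F γ) : PPOut (Cond P) := by
  intro q X Y R H
  obtain ⟨I, E, K, V, W, h1, h2, h3⟩ := pp_core (S := surj H) (a0 := a0 O q)
    (Nor := fun {_} g x => Nor g x) (fun g x => nor_dense hL O.T.f0_ne g x)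
    (fun j hj => (tk_of (f := f) hL hf hgen (surj H) j hj).some)
  refine ⟨push O.T.f0 q, a0 O q, ⟨⟨I, E, K, V, W, fun a => ?_, ?_, ?_⟩⟩⟩
  · have := (h1 a).2
    rw [Val.res_res]
    exact this
  · intro d h z hz d1 l
    have hz' : Mem' (z.res l) (Y.res ((l ≫ h) ≫ a0 O q)) := by simpa using hz.res l
    obtain ⟨e', l', i, t, ht, hv⟩ := h3 d1 (l ≫ h) (z.res l) hz'
    refine ⟨e', l', i, t, ?_, ?_⟩
    · rw [ht, Category.assoc]
    · simpa using hv
  · intro a a' d k k' hk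
    exact h2 d a a' k k' hk

end Crest.Agent.R296.PPTx764
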