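import Crest.Agent.R296.PPCore_763

/-!
# Row 296 (S0448), helper763: the partition principle in `V^(C)`, totality and conclusion
-/

set_option autoImplicit false
set_option linter.unusedSectionVars false
set_option linter.unusedVariables false

open CategoryTheory

namespace Crest.Agent.R296.PPTotx763

open Crest.Agent.R296.IfAx378 Crest.Agent.R296.CondCx153 Crest.Agent.R296.CatFx365
  Crest.Agent.R296.LctStx153 Crest.Agent.R296.LCx478 Crest.Agent.R296.OutAx378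
  Crest.Agent.R296.PPBrx365 Crest.Agent.R296.Needx763 Crest.Agent.R296.PPCorex763

variable {P : Type 1} [Monoid P] [IsGood P] {A : Ordinal.{0} → Submonoid P}

theorem ne_one_left {a b : P} (h : a ≠ 1) : a * b ≠ 1 := fun h' => h (IsGood.unit _ _ h')

theorem ne_one_right {a b : P} (h : b ≠ 1) : a * b ≠ 1 := by
  intro h'
  have h1 := IsGood.unit _ _ h'
  rw [h1, one_mul] at h'
  exact h h'

/-- two arrows with disjoint images -/
theorem two_disj (K : Kit P A) (d : Cond P) : ∃ (w : Cond P) (f g : w ⟶ d), Disj f.1 g.1 := by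
  obtain ⟨k, hk, -⟩ := K.letr ∅ inferInstance (by simp)
  obtain ⟨k', hk', h⟩ := K.letr {k} inferInstance (by simpa using hk.symm)
  have hd : Disj k' k := h k rfl
  have hc : IsCond (psh k d.q ∪ psh k' d.q) := by
    refine (d.h.psh k).union (d.h.psh k') fun s l h1 h2 => ?_
    obtain ⟨x, hx, rfl⟩ := mem_psh.1 h1
    obtain ⟨y, hy, h3⟩ := mem_psh.1 h2
    exact hd y x h3.symm
  refine ⟨⟨_, hc⟩, ⟨k, Set.subset_union_left⟩, ⟨k', Set.subset_union_right⟩, ?_⟩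
  intro x y h1
  exact hd y x h1.symm

/-- two arrows over `u` whose images meet in `h u P` only -/
theorem two_over (K : Kit P A) (d : Cond P) (u : P) : ∃ (w : Cond P) (f g : w ⟶ d),
    f.1 * u = g.1 * u ∧ ∀ x y, f.1 * x = g.1 * y → ∃ t, x = u * t ∧ y = u * t := by
  obtain ⟨h, k, h1, h2⟩ := Locx929.fa (genS_of K) (letS_of K) u u
  have hc : IsCond (psh h d.q ∪ psh k d.q) := by
    refine (d.h.psh h).union (d.h.psh k) fun s l h3 h4 => ?_
    obtain ⟨x, hx, rfl⟩ := mem_psh.1 h3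
    obtain ⟨y, hy, h5⟩ := mem_psh.1 h4
    obtain ⟨t, rfl, rfl⟩ := h2 x y h5
    exact d.h.con _ _ hx hy
  exact ⟨⟨_, hc⟩, ⟨h, Set.subset_union_left⟩, ⟨k, Set.subset_union_right⟩, h1, h2⟩

/-- normal form of a value with a point -/
theorem norm_pt (K : Kit P A) (L : LCT P) {d : Cond P} (p : P) (y : Val (Cond P) d) :
    ∃ (d0 : Cond P) (i : d0 ⟶ d) (F : Filt P), i.1 = 1 ∧ (∀ u ∈ F.S, u ∣ p) ∧
      ∀ (w : Cond P) (f g : w ⟶ d0), (f.1 * p = g.1 * p ∧
        Eq' (y.res (f ≫ i)) (y.res (g ≫ i))) ↔ ∃ u ∈ F.S, f.1 * u = g.1 * u := by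
  obtain ⟨d0, h, hR⟩ := L d (ptRel p y)
  rcases hR with hR | ⟨F, hR⟩
  · exfalso
    obtain ⟨w, f, g, hd⟩ := two_disj K d0
    have := (hR w f g).1
    simp only [comp_val, incl_val, mul_one] at this
    exact hd _ _ this
  · refine ⟨d0, incl h, F, rfl, ?_, ?_⟩
    · intro u hu
      obtain ⟨w, f, g, h1, h2⟩ := two_over K d0 u
      have := ((hR w f g).2 ⟨u, hu, h1⟩).1
      simp only [comp_val, incl_val, mul_one] at this
      obtain ⟨t, ht, -⟩ := h2 _ _ this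
      exact ⟨t, ht⟩
    · intro w f g
      rw [← hR w f g]
      change _ ↔ _ ∧ _
      simp only [comp_val, incl_val, mul_one]

/-- type of a block after shrinking -/
theorem norm_val (L : LCT P) {q d : Cond P} (g : d ⟶ q) (x : Val (Cond P) d) :
    ∃ (d0 : Cond P) (i : d0 ⟶ d), i.1 = 1 ∧ (TypeA (i ≫ g) (x.res i) ∨ TypeB (i ≫ g) (x.res i)) := by
  obtain ⟨d0, h, hR⟩ := L d (valRel x)
  refine ⟨d0, incl h, rfl, ?_⟩
  rcases hR with hR | ⟨F, hR⟩
  · left
    intro w k k' _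
    rw [Val.res_res, Val.res_res]
    exact hR w k k'
  · by_cases hg : g.1 ∈ F.S
    · left
      intro w k k' he
      rw [Val.res_res, Val.res_res]
      refine (hR w k k').2 ⟨g.1, hg, ?_⟩
      have := congrArg Subtype.val he
      simpa using this
    · right
      intro w k k' he
      rw [Val.res_res, Val.res_res] at he
      obtain ⟨z, hz, h1⟩ := (hR w k k').1 he
      refine ⟨z, h1, fun hd => hg (F.up _ z ?_ hz)⟩
      simpa using hd

section main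

variable (K : Kit P A) (L : LCT P) {η : TDat A → P} (T : TLem η)
  {f0 : P} (hf0 : f0 ≠ 1) {q : Cond P} {X Y : Val (Cond P) q}
  {R : ∀ d : Cond P, (d ⟶ q) → Val (Cond P) d → Val (Cond P) d → Prop}

/-- elements of a restricted value -/
theorem rep {q d : Cond P} {X : Val (Cond P) q} (g : d ⟶ q) (x : Val (Cond P) d)
    (h : Mem' x (X.res g)) : ∃ (d' : Cond P) (m : d' ⟶ d) (i : X.nm.I) (k : d' ⟶ X.nm.D i),
      (m ≫ g) ≫ X.ar = k ≫ X.nm.e i ∧ Eq' (x.res m) (X.el i k) := by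
  obtain ⟨d2, m, j, k, h1, h2⟩ := h d (𝟙 d)
  refine ⟨d2, m, j, k, ?_, ?_⟩
  · simpa using h1
  · have h3 : Eq' (x.res (m ≫ 𝟙 d)) (X.el j k) := h2
    rwa [Category.comp_id] at h3

include K L hf0 in
/-- blocks are dense -/
theorem exists_blk (S : SurR X Y R) {e : Cond P} (h : e ⟶ q1 q f0) (y : Val (Cond P) e)
    (hy : Mem' y (Y.res (h ≫ g0 q f0))) :
    ∃ (e1 : Cond P) (m : e1 ⟶ e) (j : Blk X Y R) (t : e1 ⟶ j.b),
      t ≫ j.g = (m ≫ h) ≫ g0 q f0 ∧ Eq' (y.res m) (j.y.res t) := by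
  obtain ⟨e1, m1, x, hx, hR⟩ := S.onto _ y hy e (𝟙 e)
  rw [Category.comp_id] at hx hR
  obtain ⟨e2, m2, i, kx, hkx, hxe⟩ := rep _ x hx
  have hy2 : Mem' (y.res (m2 ≫ m1)) (Y.res ((m2 ≫ m1) ≫ h ≫ g0 q f0)) := by
    have := hy.res (m2 ≫ m1)
    rwa [Val.res_res] at this
  obtain ⟨e3, m3, i', ky, hky, hye⟩ := rep _ _ hy2
  rw [Val.res_res] at hye
  obtain ⟨b, n, hn, htyp⟩ := norm_val L ((m3 ≫ m2) ≫ m1 ≫ h ≫ g0 q f0) (X.el i (m3 ≫ kx))
  rw [Val.res_el] at htyp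
  have hR3 := S.mono _ ((n ≫ m3) ≫ m2) _ _ hR
  have hx3 : Eq' (x.res ((n ≫ m3) ≫ m2)) (X.el i (n ≫ m3 ≫ kx)) := by
    have := hxe.res (n ≫ m3)
    rw [Val.res_res, Val.res_el] at this
    simpa using this
  have hy3 : Eq' (y.res ((n ≫ m3) ≫ m2 ≫ m1)) (Y.el i' (n ≫ ky)) := by
    have := hye.res n
    rw [Val.res_res, Val.res_el] at this
    simpa using this
  have hR4 : R b (n ≫ (m3 ≫ m2) ≫ m1 ≫ h ≫ g0 q f0) (X.el i (n ≫ m3 ≫ kx)) (Y.el i' (n ≫ ky)) := by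
    have h5 := S.congr _ _ _ _ _ hx3 (by
      have : Eq' ((y.res m1).res ((n ≫ m3) ≫ m2)) (Y.el i' (n ≫ ky)) := by
        rw [Val.res_res]
        simpa using hy3
      exact this) hR3
    simpa using h5
  let j : Blk X Y R :=
    { b := b
      g := n ≫ (m3 ≫ m2) ≫ m1 ≫ h ≫ g0 q f0
      i := i
      kx := n ≫ m3 ≫ kx
      hx := by
        have : m3 ≫ (m2 ≫ m1 ≫ h ≫ g0 q f0) ≫ X.ar = m3 ≫ kx ≫ X.nm.e i := by
          rw [hkx]
        simp only [Category.assoc] at this ⊢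
        rw [this]
      i' := i'
      ky := n ≫ ky
      hy := by
        simp only [Category.assoc] at hky ⊢
        rw [hky]
      hR := hR4
      typ := htyp
      gne := by
        simp only [comp_val, Locx929.pushArr_val]
        exact ne_one_right (ne_one_right (ne_one_right (ne_one_right hf0))) }
  refine ⟨b, (n ≫ m3) ≫ m2 ≫ m1, j, 𝟙 b, ?_, ?_⟩
  · simp [j]
  · rw [Val.res_id]
    exact hy3

include K L hf0 in
/-- least block -/
theorem exists_min (S : SurR X Y R) {e : Cond P} (h : e ⟶ q1 q f0) (y : Val (Cond P) e)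
    (hy : Mem' y (Y.res (h ≫ g0 q f0))) :
    ∃ (e1 : Cond P) (m : e1 ⟶ e) (j : Blk X Y R) (t : e1 ⟶ j.b),
      t ≫ j.g = (m ≫ h) ≫ g0 q f0 ∧ Eq' (y.res m) (j.y.res t) ∧ MinB j t := by
  let S0 : Set (Blk X Y R) := {j | ∃ (e1 : Cond P) (m : e1 ⟶ e) (t : e1 ⟶ j.b),
      t ≫ j.g = (m ≫ h) ≫ g0 q f0 ∧ Eq' (y.res m) (j.y.res t)}
  have hne : S0.Nonempty := by
    obtain ⟨e1, m, j, t, h1, h2⟩ := exists_blk K L hf0 S h y hy
    exact ⟨j, e1, m, t, h1, h2⟩
  have wf : WellFounded (WellOrderingRel (α := Blk X Y R)) := WellOrderingRel.isWellOrder.wf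
  obtain ⟨e1, m, t, h1, h2⟩ := wf.min_mem S0 hne
  refine ⟨e1, m, wf.min S0 hne, t, h1, h2, ?_⟩
  intro e' m' j' t' hlt h3 h4
  refine wf.not_lt_min S0 ?_ hlt
  refine ⟨e', m' ≫ m, t', ?_, ?_⟩
  · rw [h3, Category.assoc, h1]
    simp
  · have := h2.res m'
    rw [Val.res_res, Val.res_res] at this
    exact this.trans h4

end main

end Crest.Agent.R296.PPTotx763
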