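import Crest.Agent.R296.IfA_378

/-!
Row 296, leaf A-RES, abstract part (helper478): restriction of filters and closed sets along a
conservative embedding `ι : P →* P'`, the closed set of `P'` generated by a closed set of `P`
(`IsMap`), and the one stage fact (iv).
-/

set_option autoImplicit false

namespace Crest.Agent.R296.ResAx478

open IfAx378

universe u v w

variable {P : Type u} {P' : Type v} [Monoid P] [Monoid P'] {ι : P →* P'}

theorem dvd_map {a b : P} (h : a ∣ b) : ι a ∣ ι b := by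
  obtain ⟨c, rfl⟩ := h
  exact ⟨ι c, map_mul ι a c⟩

/-- `fP' ∩ P = fP` -/
theorem cons_dvd [IsGood P'] (hι : Cons ι) {a b : P} (h : ι a ∣ ι b) : a ∣ b := by
  obtain ⟨c, hc⟩ := h
  obtain ⟨x, y, t, h1, _, h3⟩ := hι.amal a b c 1 (by rw [mul_one, ← hc])
  have hy : y = 1 := hι.inj (by rw [map_one]; exact IsGood.unit _ _ h3.symm)
  exact ⟨x, by rw [h1, hy, mul_one]⟩

theorem cons_dvd_iff [IsGood P'] (hι : Cons ι) {a b : P} : ι a ∣ ι b ↔ a ∣ b :=
  ⟨cons_dvd hι, dvd_map⟩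

theorem cons_lcm (hι : Cons ι) {a b : P} {x : P'} (h : ι a ∣ x) (h' : ι b ∣ x) :
    ∃ m, a ∣ m ∧ b ∣ m ∧ ι m ∣ x := by
  obtain ⟨c, hc⟩ := h
  obtain ⟨c', hc'⟩ := h'
  obtain ⟨p, q, t, h1, h2, _⟩ := hι.amal a b c c' (by rw [← hc, ← hc'])
  exact ⟨a * p, ⟨p, rfl⟩, ⟨q, h1⟩, ⟨t, by rw [hc, h2, map_mul, mul_assoc]⟩⟩

/-- restriction of a filter -/
def resF (hι : Cons ι) (F : Filt P') : Filt P where
  S := {s | ι s ∈ F.S}
  one := by
    show ι 1 ∈ F.S
    rw [map_one]; exact F.one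
  up x s h hs := F.up _ _ (dvd_map h) hs
  dir := by
    intro s t hs ht
    obtain ⟨m, hm, h1, h2⟩ := F.dir _ _ hs ht
    obtain ⟨n, k1, k2, k3⟩ := cons_lcm hι h1 h2
    exact ⟨n, F.up _ _ k3 hm, k1, k2⟩

/-- restriction of a closed set -/
def res (hι : Cons ι) (C : Closed P') : Closed P where
  toFilt := resF hι C.toFilt
  R s r := C.R (ι s) (ι r)
  dom _ _ h := C.dom _ _ h
  refl _ h := C.refl _ h
  symm _ _ h := C.symm _ _ h
  trans _ _ _ h h' := C.trans _ _ _ h h'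
  act := by
    intro s r t h h1
    have h1' : ι (r * t) ∈ C.S := h1
    rw [map_mul] at h1'
    show C.R (ι (s * t)) (ι (r * t))
    rw [map_mul, map_mul]
    exact C.act _ _ _ h h1'
  shrink := by
    intro s r t h
    have h' : C.R (ι (s * t)) (ι (r * t)) := h
    rw [map_mul, map_mul] at h'
    exact C.shrink _ _ _ h'

theorem mem_res_S (hι : Cons ι) (C : Closed P') (s : P) : s ∈ (res hι C).S ↔ ι s ∈ C.S := Iff.rfl

theorem res_R (hι : Cons ι) (C : Closed P') (s r : P) : (res hι C).R s r ↔ C.R (ι s) (ι r) :=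
  Iff.rfl

/-- the filter of `P'` generated by a filter of `P` -/
def mapF (ι : P →* P') (F : Filt P) : Filt P' where
  S := {x | ∃ s ∈ F.S, x ∣ ι s}
  one := ⟨1, F.one, one_dvd _⟩
  up := fun _ _ h ⟨s, hs, h'⟩ => ⟨s, hs, h.trans h'⟩
  dir := by
    rintro x y ⟨s, hs, h⟩ ⟨t, ht, h'⟩
    obtain ⟨m, hm, h1, h2⟩ := F.dir _ _ hs ht
    exact ⟨ι m, ⟨m, hm, dvd_rfl⟩, h.trans (dvd_map h1), h'.trans (dvd_map h2)⟩

/-- the closed set of `P'` generated by a closed set of `P` -/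
def map (ι : P →* P') [IsGood P'] (C : Closed P) : Closed P' where
  toFilt := mapF ι C.toFilt
  R := C.MapR ι
  dom := by
    rintro x y ⟨s, r, z, h3, h1, h2⟩
    exact ⟨s, C.dom _ _ h3, ⟨z, h1.symm⟩⟩
  refl := by
    rintro x ⟨s, hs, z, hz⟩
    exact ⟨s, s, z, C.refl _ hs, hz.symm, hz.symm⟩
  symm := by
    rintro x y ⟨s, r, z, h3, h1, h2⟩
    exact ⟨r, s, z, C.symm _ _ h3, h2, h1⟩
  trans := by
    rintro x y w ⟨s, r, z, h3, h1, h2⟩ ⟨s', r', z', h3', h1', h2'⟩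
    obtain ⟨m, hm, ⟨t, ht⟩, ⟨t', ht'⟩⟩ := C.dir _ _ (C.dom _ _ (C.symm _ _ h3)) (C.dom _ _ h3')
    have e : z * ι t = z' * ι t' := by
      apply IsGood.lc y
      rw [← mul_assoc, ← mul_assoc, h2, h1', ← map_mul, ← map_mul, ← ht, ← ht']
    refine ⟨s * t, r' * t', z * ι t, ?_, ?_, ?_⟩
    · have k1 := C.act _ _ t h3 (by rw [← ht]; exact hm)
      have k2 := C.act _ _ t' (C.symm _ _ h3') (by rw [← ht']; exact hm)
      rw [← ht] at k1
      rw [← ht'] at k2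
      exact C.trans _ _ _ k1 (C.symm _ _ k2)
    · rw [← mul_assoc, h1, map_mul]
    · rw [e, ← mul_assoc, h2', map_mul]
  act := by
    rintro x y t ⟨s, r, z, h3, h1, h2⟩ ⟨m, hm, q, hq⟩
    obtain ⟨n, hn, ⟨a, ha⟩, ⟨b, hb⟩⟩ := C.dir _ _ (C.dom _ _ (C.symm _ _ h3)) hm
    have e : z * ι a = t * (q * ι b) := by
      apply IsGood.lc y
      rw [← mul_assoc, ← mul_assoc, ← mul_assoc, ← hq, h2, ← map_mul, ← map_mul, ← ha, ← hb]
    refine ⟨s * a, r * a, q * ι b, ?_, ?_, ?_⟩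
    · exact C.act _ _ a h3 (by rw [← ha]; exact hn)
    · rw [mul_assoc, ← e, ← mul_assoc, h1, map_mul]
    · rw [mul_assoc, ← e, ← mul_assoc, h2, map_mul]
  shrink := by
    rintro x y t ⟨s, r, z, h3, h1, h2⟩
    exact ⟨s, r, t * z, h3, by rw [← mul_assoc, h1], by rw [← mul_assoc, h2]⟩

theorem isMap_map [IsGood P'] (C : Closed P) : C.IsMap ι (map ι C) := ⟨rfl, fun _ _ => Iff.rfl⟩

theorem filt_ext {F G : Filt P} (h : F.S = G.S) : F = G := by
  obtain ⟨S, _⟩ := F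
  obtain ⟨S', _⟩ := G
  obtain rfl : S = S' := h
  rfl

theorem closed_ext {C D : Closed P} (h1 : C.S = D.S)
    (h2 : ∀ s r, C.R s r ↔ D.R s r) : C = D :=
  Closed.ext h1 (funext fun s => funext fun r => propext (h2 s r))

theorem isMap_unique [IsGood P'] {C : Closed P} {C' : Closed P'} (h : C.IsMap ι C') :
    C' = map ι C := closed_ext h.S h.R

section

variable [IsGood P']

theorem map_S_iff (hι : Cons ι) (C : Closed P) (s : P) : ι s ∈ (map ι C).S ↔ s ∈ C.S :=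
  ⟨fun ⟨_, ht, h⟩ => C.up _ _ (cons_dvd hι h) ht, fun h => ⟨s, h, dvd_rfl⟩⟩

theorem map_R_iff (hι : Cons ι) (C : Closed P) (s r : P) :
    (map ι C).R (ι s) (ι r) ↔ C.R s r := by
  constructor
  · rintro ⟨s', r', z, h3, h1, h2⟩
    obtain ⟨a, rfl⟩ := cons_dvd hι ⟨z, h1.symm⟩
    rw [map_mul] at h1
    have hz : z = ι a := IsGood.lc _ _ _ h1
    rw [hz, ← map_mul] at h2
    obtain rfl := hι.inj h2
    exact C.shrink _ _ _ h3
  · intro h
    exact ⟨s, r, 1, h, mul_one _, mul_one _⟩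

/-- restricting the generated closed set gives the original one -/
theorem res_map (hι : Cons ι) (C : Closed P) : res hι (map ι C) = C :=
  closed_ext (Set.ext (map_S_iff hι C)) (map_R_iff hι C)

theorem map_inj (hι : Cons ι) {C D : Closed P} (h : map ι C = map ι D) : C = D := by
  rw [← res_map hι C, ← res_map hι D, h]

theorem isMap_S_iff (hι : Cons ι) {C : Closed P} {C' : Closed P'} (h : C.IsMap ι C') (s : P) :
    ι s ∈ C'.S ↔ s ∈ C.S := by rw [isMap_unique h]; exact map_S_iff hι C s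

theorem isMap_R_iff (hι : Cons ι) {C : Closed P} {C' : Closed P'} (h : C.IsMap ι C') (s r : P) :
    C'.R (ι s) (ι r) ↔ C.R s r := by rw [isMap_unique h]; exact map_R_iff hι C s r

omit [IsGood P'] in
/-- fact (iv), one stage: if the filter of `C` is generated by elements of `P` and a product of `P'`
which is in `P` has one of its factors in `P`, then `C` is generated by its restriction. -/
theorem isMap_res (hι : Cons ι) (C : Closed P')
    (hfac : ∀ (x y : P') (p : P), x * y = ι p → (∃ q, x = ι q) ∨ ∃ q, y = ι q)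
    (hgen : ∀ x ∈ C.S, ∃ s, ι s ∈ C.S ∧ x ∣ ι s) : (res hι C).IsMap ι C := by
  refine ⟨Set.ext fun x => ⟨fun hx => ?_, fun ⟨s, hs, h⟩ => C.up _ _ h hs⟩, fun x y => ⟨?_, ?_⟩⟩
  · obtain ⟨s, hs, h⟩ := hgen x hx
    exact ⟨s, hs, h⟩
  · intro h
    obtain ⟨r, hr, z, hz⟩ := hgen y (C.dom _ _ (C.symm _ _ h))
    have k : C.R (x * z) (y * z) := C.act _ _ z h (by rw [← hz]; exact hr)
    obtain ⟨s, hs, t, ht⟩ := hgen (x * z) (C.dom _ _ k)
    rcases hfac (x * z) t s ht.symm with ⟨p, hp⟩ | ⟨p, hp⟩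
    · refine ⟨p, r, z, ?_, hp, hz.symm⟩
      show C.R (ι p) (ι r)
      rw [← hp, hz]
      exact k
    · subst hp
      have e : x * (z * ι p) = ι s := by rw [← mul_assoc, ← ht]
      have e' : y * (z * ι p) = ι (r * p) := by rw [← mul_assoc, ← hz, map_mul]
      refine ⟨s, r * p, z * ι p, ?_, e, e'⟩
      show C.R (ι s) (ι (r * p))
      rw [← e, ← e', ← mul_assoc, ← mul_assoc]
      refine C.act _ _ _ k ?_
      exact C.dom _ _ (C.act _ _ (ι p) (C.symm _ _ k) (by rw [← ht]; exact hs))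
  · rintro ⟨s, r, z, h3, h1, h2⟩
    have h3' : C.R (ι s) (ι r) := h3
    rw [← h1, ← h2] at h3'
    exact C.shrink _ _ _ h3'

/-- `b ∈ C` passes to the generated closed set -/
theorem mem_map_iff (hι : Cons ι) (C : Closed P) (b : P) : (map ι C).Mem (ι b) ↔ C.Mem b := by
  constructor
  · rintro ⟨h1, h2⟩
    refine ⟨fun r hr => cons_dvd hι (h1 (ι r) ((map_S_iff hι C r).2 hr)), fun s r t hsr hb => ?_⟩
    apply hι.inj
    rw [map_mul]
    exact h2 (ι s) (ι r) (ι t) ((map_R_iff hι C s r).2 hsr) (by rw [hb, map_mul])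
  · rintro ⟨h1, h2⟩
    refine ⟨fun x ⟨r, hr, h⟩ => h.trans (dvd_map (h1 r hr)), ?_⟩
    rintro x y t ⟨s, r, z, e3, e1, e2⟩ hb
    obtain ⟨c, hc⟩ := h1 r (C.dom _ _ (C.symm _ _ e3))
    have k := h2 s r c e3 hc
    have : t = z * ι c := by
      apply IsGood.lc y
      rw [← hb, ← mul_assoc, e2, hc, map_mul]
    rw [this, ← mul_assoc, e1, ← map_mul, k]

/-- `z ∈ C` depends only on the restriction when the closed set is generated; general `z ∈ P'`:
enough to test on elements of `P` -/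
theorem mem_map_iff' (C : Closed P) (z : P') : (map ι C).Mem z ↔
    (∀ s ∈ C.S, ι s ∣ z) ∧ ∀ s r x, C.R s r → z = ι r * x → z = ι s * x := by
  constructor
  · rintro ⟨h1, h2⟩
    exact ⟨fun s hs => h1 _ ⟨s, hs, dvd_rfl⟩, fun s r x h hz =>
      h2 _ _ _ ⟨s, r, 1, h, mul_one _, mul_one _⟩ hz⟩
  · rintro ⟨h1, h2⟩
    refine ⟨fun x ⟨r, hr, h⟩ => h.trans (h1 r hr), ?_⟩
    rintro x y t ⟨s, r, q, e3, e1, e2⟩ hb
    obtain ⟨c, hc⟩ := h1 r (C.dom _ _ (C.symm _ _ e3))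
    have k := h2 s r c e3 hc
    have : t = q * c := by
      apply IsGood.lc y
      rw [← hb, ← mul_assoc, e2, hc]
    rw [this, ← mul_assoc, e1, ← k]

/-- `~_C` on `P` is the restriction of `~_{map C}` -/
theorem sim_map_iff (hι : Cons ι) (C : Closed P) (f g : P) :
    (map ι C).Sim (ι f) (ι g) ↔ C.Sim f g := by
  constructor
  · rintro ⟨x, y, h, s, r, z, h3, h1, h2⟩
    refine ⟨s, r, hι.inj ?_, h3⟩
    rw [map_mul, map_mul, ← h1, ← h2, ← mul_assoc, ← mul_assoc, h]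
  · rintro ⟨x, y, h1, h2⟩
    exact ⟨ι x, ι y, by rw [← map_mul, ← map_mul, h1], (map_R_iff hι C x y).2 h2⟩

end

/-! ### composition -/

section comp

variable {P'' : Type w} [Monoid P''] {κ : P' →* P''}

theorem map_map [IsGood P'] [IsGood P''] (C : Closed P) :
    map κ (map ι C) = map (κ.comp ι) C := by
  refine closed_ext (Set.ext fun x => ⟨?_, ?_⟩) (fun x y => ⟨?_, ?_⟩)
  · rintro ⟨x', ⟨s, hs, h⟩, h'⟩
    exact ⟨s, hs, h'.trans (dvd_map h)⟩
  · rintro ⟨s, hs, h⟩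
    exact ⟨ι s, ⟨s, hs, dvd_rfl⟩, h⟩
  · rintro ⟨s', r', z', ⟨s, r, z, h3, h1, h2⟩, h1', h2'⟩
    refine ⟨s, r, z' * κ z, h3, ?_, ?_⟩
    · rw [← mul_assoc, h1', ← map_mul, h1]; rfl
    · rw [← mul_assoc, h2', ← map_mul, h2]; rfl
  · rintro ⟨s, r, z, h3, h1, h2⟩
    exact ⟨ι s, ι r, z, ⟨s, r, 1, h3, mul_one _, mul_one _⟩, h1, h2⟩

end comp

end Crest.Agent.R296.ResAx478
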