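import Crest.Agent.R296.IfA_378

/-!
Row 296 (S0448), block A, leaf **A-RES** (helper70): transfer of filters and closed sets along
conservative embeddings, and in the tower.

* `consDvd`, `consR` : `ι f * x' = ι g → x' = ι x ∧ f * x = g`;
* `cmap C ι` / `isMap_cmap` : the closed set generated in a bigger monoid; `im_unique`, `im_comp`,
  `im_mem_iff`, `im_sim_iff`, `im_mem_iff'`;
* `RU ι` (right unitary: `w t ∈ P → t ∈ P`), `ru_s1`, `ru_s2`, `ru_s2all`;
* `ccomap`, `fcomap` : restriction of closed sets / filters; `isMap_ccomap` (fact (iv));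
* tower: `tGood`, `tCons`, `tRU`, `tGerm` (germs between two filters generated by `A α` have
  representatives in `A α`), `tMap`, `exists_gen`, `exists_map`.
-/

set_option autoImplicit false

universe u v w

namespace Crest.Agent.R296.Resx70

open Crest.Agent.R296.IfAx378

/-! ### good monoids -/

section good
variable {P : Type u} [Monoid P] [IsGood P]

theorem lcan {f g h : P} (e : f * g = f * h) : g = h := IsGood.lc f g h e

theorem unit_left {f g : P} (e : f * g = 1) : f = 1 := IsGood.unit f g e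

theorem unit_right {f g : P} (e : f * g = 1) : g = 1 := by
  have h := unit_left e
  rw [h, one_mul] at e
  exact e

theorem dvd_one {f : P} (h : f ∣ 1) : f = 1 := by
  obtain ⟨c, hc⟩ := h
  exact unit_left hc.symm

theorem dvd_antisymm' {f g : P} (h1 : f ∣ g) (h2 : g ∣ f) : f = g := by
  obtain ⟨c, rfl⟩ := h1
  obtain ⟨d, hd⟩ := h2
  have : f * 1 = f * (c * d) := by rw [mul_one, ← mul_assoc]; exact hd
  have h3 := lcan this
  rw [unit_left h3.symm, mul_one]

theorem mul_dvd_mul_left_iff' {f g h : P} : f * g ∣ f * h ↔ g ∣ h := by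
  constructor
  · rintro ⟨c, hc⟩
    rw [mul_assoc] at hc
    exact ⟨c, lcan hc⟩
  · rintro ⟨c, rfl⟩
    exact ⟨c, (mul_assoc _ _ _).symm⟩

end good

/-! ### conservative embeddings -/

section cons
variable {P : Type u} {P' : Type v} {P'' : Type w} [Monoid P] [Monoid P'] [Monoid P'']

theorem consR [IsGood P'] {ι : P →* P'} (hc : Cons ι) {f g : P} {x' : P'}
    (h : ι f * x' = ι g) : ∃ x, x' = ι x ∧ f * x = g := by
  obtain ⟨x, y, t, h1, h2, h3⟩ := hc.amal f g x' 1 (by rw [mul_one]; exact h)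
  have hy : ι y = 1 := unit_left h3.symm
  have ht : t = 1 := by
    rw [hy, one_mul] at h3; exact h3.symm
  have hy1 : y = 1 := hc.inj (by rw [hy, map_one])
  refine ⟨x, by rw [h2, ht, mul_one], by rw [h1, hy1, mul_one]⟩

theorem consDvd [IsGood P'] {ι : P →* P'} (hc : Cons ι) {f g : P} : ι f ∣ ι g ↔ f ∣ g := by
  constructor
  · rintro ⟨x', hx⟩
    obtain ⟨x, -, h2⟩ := consR hc hx.symm
    exact ⟨x, h2.symm⟩
  · rintro ⟨c, rfl⟩
    exact ⟨ι c, map_mul ι f c⟩

theorem consComp {ι : P →* P'} {ι' : P' →* P''} (h : Cons ι) (h' : Cons ι') : Cons (ι'.comp ι) where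
  inj := h'.inj.comp h.inj
  amal f g x' y' e := by
    obtain ⟨x, y, t, h1, h2, h3⟩ := h'.amal (ι f) (ι g) x' y' e
    obtain ⟨x0, y0, t0, h4, h5, h6⟩ := h.amal f g x y h1
    refine ⟨x0, y0, ι' t0 * t, h4, ?_, ?_⟩
    · rw [h2, h5, map_mul, mul_assoc]; rfl
    · rw [h3, h6, map_mul, mul_assoc]; rfl

end cons

/-! ### generated closed sets -/

section map
variable {P : Type u} {P' : Type v} {P'' : Type w} [Monoid P] [Monoid P'] [Monoid P'']

/-- the closed set of `P'` generated by `C` -/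
def cmap [IsGood P'] (C : Closed P) (ι : P →* P') : Closed P' where
  S := C.MapS ι
  one := ⟨1, C.one, by rw [map_one]⟩
  up x s h hs := by
    obtain ⟨a, ha, hd⟩ := hs
    exact ⟨a, ha, h.trans hd⟩
  dir s t hs ht := by
    obtain ⟨a, ha, hd⟩ := hs
    obtain ⟨b, hb, hd'⟩ := ht
    obtain ⟨m, hm, ⟨c, rfl⟩, hbm⟩ := C.dir a b ha hb
    refine ⟨ι (a * c), ⟨a * c, hm, dvd_rfl⟩, hd.trans ⟨ι c, map_mul ι a c⟩, hd'.trans ?_⟩
    obtain ⟨d, hd⟩ := hbm
    rw [hd]
    exact ⟨ι d, map_mul ι b d⟩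
  R := C.MapR ι
  dom s r h := by
    obtain ⟨a, b, t, h1, h2, h3⟩ := h
    exact ⟨a, C.dom a b h1, ⟨t, h2.symm⟩⟩
  refl s hs := by
    obtain ⟨a, ha, ⟨t, ht⟩⟩ := hs
    exact ⟨a, a, t, C.refl a ha, ht.symm, ht.symm⟩
  symm s r h := by
    obtain ⟨a, b, t, h1, h2, h3⟩ := h
    exact ⟨b, a, t, C.symm _ _ h1, h3, h2⟩
  trans s r q h h' := by
    obtain ⟨a, b, t, h1, h2, h3⟩ := h
    obtain ⟨b2, d, t2, h4, h5, h6⟩ := h'
    have hb : b ∈ C.S := C.dom _ _ (C.symm _ _ h1)
    have hb2 : b2 ∈ C.S := C.dom _ _ h4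
    obtain ⟨m, hm, ⟨x, hx⟩, ⟨y, hy⟩⟩ := C.dir b b2 hb hb2
    have e : t * ι x = t2 * ι y := by
      apply lcan (f := r)
      rw [← mul_assoc, ← mul_assoc, h3, h5, ← map_mul, ← map_mul, ← hx, ← hy]
    refine ⟨a * x, d * y, t * ι x, ?_, ?_, ?_⟩
    · have e1 : C.R (a * x) (b * x) := C.act _ _ _ h1 (by rw [← hx]; exact hm)
      have e2 : C.R (d * y) (b2 * y) := C.act _ _ _ (C.symm _ _ h4) (by rw [← hy]; exact hm)
      rw [← hx] at e1
      rw [← hy] at e2
      exact C.trans _ _ _ e1 (C.symm _ _ e2)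
    · rw [← mul_assoc, h2, map_mul]
    · rw [e, ← mul_assoc, h6, map_mul]
  act s r t' h ht := by
    obtain ⟨a, b, t, h1, h2, h3⟩ := h
    obtain ⟨w, hw, ⟨x, hx⟩⟩ := ht
    have hb : b ∈ C.S := C.dom _ _ (C.symm _ _ h1)
    obtain ⟨m, hm, ⟨c, hc⟩, ⟨d, hd⟩⟩ := C.dir b w hb hw
    have e : t * ι c = t' * (x * ι d) := by
      apply lcan (f := r)
      rw [← mul_assoc, h3, ← map_mul, ← hc, hd, map_mul, hx]
      simp only [mul_assoc]
    refine ⟨a * c, b * c, x * ι d, C.act _ _ _ h1 (by rw [← hc]; exact hm), ?_, ?_⟩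
    · rw [mul_assoc, ← e, ← mul_assoc, h2, map_mul]
    · rw [mul_assoc, ← e, ← mul_assoc, h3, map_mul]
  shrink s r t h := by
    obtain ⟨a, b, u, h1, h2, h3⟩ := h
    exact ⟨a, b, t * u, h1, by rw [← mul_assoc]; exact h2, by rw [← mul_assoc]; exact h3⟩

theorem isMap_cmap [IsGood P'] (C : Closed P) (ι : P →* P') : C.IsMap ι (cmap C ι) where
  S := rfl
  R _ _ := Iff.rfl

theorem exists_isMap [IsGood P'] (C : Closed P) (ι : P →* P') : ∃ C' : Closed P', C.IsMap ι C' :=
  ⟨_, isMap_cmap C ι⟩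

theorem im_unique {C : Closed P} {ι : P →* P'} {C1 C2 : Closed P'} (h1 : C.IsMap ι C1)
    (h2 : C.IsMap ι C2) : C1 = C2 := by
  apply Closed.ext (by rw [h1.S, h2.S])
  funext s r
  exact propext ((h1.R s r).trans (h2.R s r).symm)

theorem im_memS {C : Closed P} {ι : P →* P'} {C' : Closed P'} (h : C.IsMap ι C') {s : P}
    (hs : s ∈ C.S) : ι s ∈ C'.S := by
  rw [h.S]; exact ⟨s, hs, dvd_rfl⟩

theorem im_memS_iff [IsGood P'] {C : Closed P} {ι : P →* P'} (hc : Cons ι) {C' : Closed P'}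
    (h : C.IsMap ι C') {s : P} : ι s ∈ C'.S ↔ s ∈ C.S := by
  constructor
  · intro hs
    rw [h.S] at hs
    obtain ⟨a, ha, hd⟩ := hs
    exact C.up s a ((consDvd hc).1 hd) ha
  · exact im_memS h

theorem im_R_of {C : Closed P} {ι : P →* P'} {C' : Closed P'} (h : C.IsMap ι C') {s r : P}
    (hs : C.R s r) : C'.R (ι s) (ι r) := by
  rw [h.R]; exact ⟨s, r, 1, hs, mul_one _, mul_one _⟩

theorem im_R_iff [IsGood P'] {C : Closed P} {ι : P →* P'} (hc : Cons ι) {C' : Closed P'}
    (h : C.IsMap ι C') {s r : P} : C'.R (ι s) (ι r) ↔ C.R s r := by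
  constructor
  · intro hs
    rw [h.R] at hs
    obtain ⟨a, b, t, h1, h2, h3⟩ := hs
    obtain ⟨x, rfl, hx⟩ := consR hc h2
    rw [← map_mul] at h3
    have h3' := hc.inj h3
    apply C.shrink s r x
    rw [hx, h3']
    exact h1
  · exact im_R_of h

/-- `z' ∈ C'` in terms of the generators -/
theorem im_mem_iff' [IsGood P'] {C : Closed P} {ι : P →* P'} {C' : Closed P'}
    (h : C.IsMap ι C') {z : P'} :
    C'.Mem z ↔ (∀ s ∈ C.S, ι s ∣ z) ∧ ∀ s r x, C.R s r → z = ι r * x → z = ι s * x := by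
  constructor
  · intro hz
    exact ⟨fun s hs => hz.1 _ (im_memS h hs), fun s r x hR hx => hz.2 _ _ _ (im_R_of h hR) hx⟩
  · intro hz
    refine ⟨?_, ?_⟩
    · intro s hs
      rw [h.S] at hs
      obtain ⟨a, ha, hd⟩ := hs
      exact hd.trans (hz.1 a ha)
    · intro s r x hR hx
      rw [h.R] at hR
      obtain ⟨a, b, t, h1, h2, h3⟩ := hR
      have hb : b ∈ C.S := C.dom _ _ (C.symm _ _ h1)
      obtain ⟨y, hy⟩ := hz.1 b hb
      have e1 := hz.2 a b y h1 hy
      have e : x = t * y := by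
        apply lcan (f := r)
        rw [← hx, ← mul_assoc, h3]
        exact hy
      rw [e, ← mul_assoc, h2]
      exact e1

/-- `C' . Mem (ι z) ↔ C . Mem z` -/
theorem im_mem_iff [IsGood P'] {C : Closed P} {ι : P →* P'} (hc : Cons ι) {C' : Closed P'}
    (h : C.IsMap ι C') {z : P} : C'.Mem (ι z) ↔ C.Mem z := by
  rw [im_mem_iff' h]
  constructor
  · intro hz
    refine ⟨fun s hs => (consDvd hc).1 (hz.1 s hs), fun s r x hR hx => ?_⟩
    apply hc.inj
    rw [map_mul]
    exact hz.2 s r (ι x) hR (by rw [hx, map_mul])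
  · intro hz
    refine ⟨fun s hs => (consDvd hc).2 (hz.1 s hs), fun s r x hR hx => ?_⟩
    obtain ⟨y, rfl, hy⟩ := consR hc hx.symm
    rw [← map_mul, ← hz.2 s r y hR hy.symm]

theorem im_sim_iff [IsGood P'] {C : Closed P} {ι : P →* P'} (hc : Cons ι) {C' : Closed P'}
    (h : C.IsMap ι C') {f g : P} : C'.Sim (ι f) (ι g) ↔ C.Sim f g := by
  constructor
  · rintro ⟨x, y, h1, h2⟩
    rw [h.R] at h2
    obtain ⟨a, b, t, h3, h4, h5⟩ := h2
    refine ⟨a, b, hc.inj ?_, h3⟩
    rw [map_mul, map_mul, ← h4, ← h5, ← mul_assoc, ← mul_assoc, h1]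
  · rintro ⟨x, y, h1, h2⟩
    exact ⟨ι x, ι y, by rw [← map_mul, ← map_mul, h1], im_R_of h h2⟩

theorem im_comp {C : Closed P} {ι : P →* P'} {C' : Closed P'} {ι' : P' →* P''} {C'' : Closed P''}
    (h : C.IsMap ι C') (h' : C'.IsMap ι' C'') : C.IsMap (ι'.comp ι) C'' where
  S := by
    rw [h'.S]
    ext s
    constructor
    · rintro ⟨a, ha, hd⟩
      rw [h.S] at ha
      obtain ⟨b, hb, ⟨c, hc⟩⟩ := ha
      refine ⟨b, hb, hd.trans ⟨ι' c, ?_⟩⟩
      show ι' (ι b) = _
      rw [hc, map_mul]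
    · rintro ⟨a, ha, hd⟩
      exact ⟨ι a, im_memS h ha, hd⟩
  R s r := by
    rw [h'.R]
    constructor
    · rintro ⟨a, b, t, h1, h2, h3⟩
      rw [h.R] at h1
      obtain ⟨a0, b0, t0, h4, h5, h6⟩ := h1
      refine ⟨a0, b0, t * ι' t0, h4, ?_, ?_⟩
      · rw [← mul_assoc, h2, ← map_mul, h5]; rfl
      · rw [← mul_assoc, h3, ← map_mul, h6]; rfl
    · rintro ⟨a, b, t, h1, h2, h3⟩
      exact ⟨ι a, ι b, t, im_R_of h h1, h2, h3⟩

end map

/-! ### restriction -/

section comap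
variable {P : Type u} {P' : Type v} {P'' : Type w} [Monoid P] [Monoid P'] [Monoid P'']

/-- restriction of a filter -/
def fcomap (F : Filt P') (ι : P →* P') (hc : Cons ι) : Filt P where
  S := {s | ι s ∈ F.S}
  one := by show ι 1 ∈ F.S; rw [map_one]; exact F.one
  up x s h hs := by
    obtain ⟨c, rfl⟩ := h
    exact F.up _ _ ⟨ι c, map_mul ι x c⟩ hs
  dir s t hs ht := by
    obtain ⟨m, hm, ⟨x, hx⟩, ⟨y, hy⟩⟩ := F.dir _ _ hs ht
    obtain ⟨x0, y0, t0, h1, h2, h3⟩ := hc.amal s t x y (by rw [← hx, ← hy])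
    refine ⟨s * x0, ?_, ⟨x0, rfl⟩, ⟨y0, h1⟩⟩
    refine F.up _ m ⟨t0, ?_⟩ hm
    rw [map_mul, hx, h2, mul_assoc]

/-- restriction of a closed set -/
def ccomap (C : Closed P') (ι : P →* P') (hc : Cons ι) : Closed P where
  toFilt := fcomap C.toFilt ι hc
  R s r := C.R (ι s) (ι r)
  dom s r h := C.dom _ _ h
  refl s hs := C.refl _ hs
  symm s r h := C.symm _ _ h
  trans s r q h h' := C.trans _ _ _ h h'
  act s r t h ht := by
    show C.R (ι (s * t)) (ι (r * t))
    rw [map_mul, map_mul]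
    refine C.act _ _ _ h ?_
    have : ι (r * t) ∈ C.S := ht
    rwa [map_mul] at this
  shrink s r t h := by
    have h' : C.R (ι (s * t)) (ι (r * t)) := h
    rw [map_mul, map_mul] at h'
    exact C.shrink _ _ _ h'

theorem mem_fcomap {F : Filt P'} {ι : P →* P'} {hc : Cons ι} {s : P} :
    s ∈ (fcomap F ι hc).S ↔ ι s ∈ F.S := Iff.rfl

theorem mem_ccomap {C : Closed P'} {ι : P →* P'} {hc : Cons ι} {s : P} :
    s ∈ (ccomap C ι hc).S ↔ ι s ∈ C.S := Iff.rfl

theorem R_ccomap {C : Closed P'} {ι : P →* P'} {hc : Cons ι} {s r : P} :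
    (ccomap C ι hc).R s r ↔ C.R (ι s) (ι r) := Iff.rfl

/-- right unitary: right factors of old elements are old -/
def RU (ι : P →* P') : Prop := ∀ w t p, w * t = ι p → ∃ t0, t = ι t0

/-- fact (iv), one step: a germ between two filters generated from below -/
theorem germ_step {ι : P →* P'} (hru : RU ι) {F G : Set P'}
    (gF : ∀ s ∈ F, ∃ a, ι a ∈ F ∧ s ∣ ι a) (gG : ∀ s ∈ G, ∃ a, ι a ∈ G ∧ s ∣ ι a)
    {s r : P'} (hr : r ∈ F) (h : ∀ t, r * t ∈ F ↔ s * t ∈ G) :
    ∃ t a b, s * t = ι a ∧ r * t = ι b ∧ r * t ∈ F ∧ s * t ∈ G := by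
  obtain ⟨b, hb, ⟨t, ht⟩⟩ := gF r hr
  have h1 : s * t ∈ G := (h t).1 (by rw [← ht]; exact hb)
  obtain ⟨a, ha, ⟨x, hx⟩⟩ := gG _ h1
  obtain ⟨x0, rfl⟩ := hru _ _ _ hx.symm
  have h2 : s * (t * ι x0) ∈ G := by rw [← mul_assoc, ← hx]; exact ha
  refine ⟨t * ι x0, a, b * x0, ?_, ?_, (h _).2 h2, h2⟩
  · rw [← mul_assoc, hx]
  · rw [← mul_assoc, ← ht, map_mul]

/-- in a closed set, `R s r` gives a germ of the filter onto itself -/
theorem R_germ {C : Closed P'} {s r : P'} (h : C.R s r) (t : P') :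
    r * t ∈ C.S ↔ s * t ∈ C.S := by
  constructor
  · intro ht
    exact C.dom _ _ (C.act _ _ _ h ht)
  · intro ht
    exact C.dom _ _ (C.act _ _ _ (C.symm _ _ h) ht)

/-- fact (iv): a closed set whose filter is generated from below is generated from below -/
theorem isMap_ccomap {ι : P →* P'} (hc : Cons ι) (hru : RU ι) (C : Closed P')
    (gen : ∀ s ∈ C.S, ∃ a, ι a ∈ C.S ∧ s ∣ ι a) : (ccomap C ι hc).IsMap ι C where
  S := by
    ext s
    constructor
    · intro hs
      obtain ⟨a, ha, hd⟩ := gen s hs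
      exact ⟨a, ha, hd⟩
    · rintro ⟨a, ha, hd⟩
      exact C.up _ _ hd ha
  R s r := by
    constructor
    · intro h
      have hr : r ∈ C.S := C.dom _ _ (C.symm _ _ h)
      obtain ⟨t, a, b, h1, h2, h3, h4⟩ := germ_step hru gen gen hr (R_germ h)
      refine ⟨a, b, t, ?_, h1, h2⟩
      show C.R (ι a) (ι b)
      rw [← h1, ← h2]
      exact C.act _ _ _ h h3
    · rintro ⟨a, b, t, h1, h2, h3⟩
      apply C.shrink s r t
      rw [h2, h3]
      exact h1

end comap

/-! ### right unitarity of the two extensions -/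

section ru
variable {P : Type u} {P' : Type v} [Monoid P] [Monoid P']

theorem ru_s1 {I : Type w} {J : Type*} {A : I → LAct P J} {ι : P →* P'} {κ : I → J → P'}
    (E : S1Ext A ι κ) : RU ι := by
  have := E.good
  intro w t p h
  rcases E.nf w with ⟨w0, rfl⟩ | ⟨s, i, j, w', rfl⟩
  · obtain ⟨x, hx, -⟩ := consR E.cons h
    exact ⟨x, hx⟩
  · exfalso
    apply E.new s i j (w' * t) p
    rw [← h, ← mul_assoc]

/-- both factors, in the (S1) case -/
theorem s1_left {I : Type w} {J : Type*} {A : I → LAct P J} {ι : P →* P'} {κ : I → J → P'}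
    (E : S1Ext A ι κ) {w t : P'} {p : P} (h : w * t = ι p) : ∃ w0, w = ι w0 := by
  rcases E.nf w with ⟨w0, rfl⟩ | ⟨s, i, j, w', rfl⟩
  · exact ⟨w0, rfl⟩
  · exfalso
    apply E.new s i j (w' * t) p
    rw [← h, ← mul_assoc]

theorem ru_s2 {H : Type w} [MulAction P H] {D : S2Data P H} {ι : P →* P'} {y : H → P'}
    {len : P' → ℕ} (E : S2Ext D ι y len) : RU ι := by
  have := E.good
  have key : ∀ n : ℕ, ∀ w t p, len w = n → w * t = ι p → ∃ t0, t = ι t0 := by
    intro n
    induction n using Nat.strong_induction_on with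
    | _ n ih =>
      intro w t p hn h
      rcases E.nf w with ⟨w0, rfl⟩ | ⟨h0, x, rfl, hx⟩
      · obtain ⟨x, hx, -⟩ := consR E.cons h
        exact ⟨x, hx⟩
      · rw [E.len_y h0 x hx] at hn
        by_cases hd : ι (D.a h0) ∣ x * t
        · obtain ⟨z, hz⟩ := hd
          have h1 : ι (D.e h0) * z = ι p := by
            rw [← E.rel, mul_assoc, ← hz, ← h, mul_assoc]
          obtain ⟨z0, rfl, -⟩ := consR E.cons h1
          rw [← map_mul] at hz
          exact ih (len x) (by omega) x t _ rfl hz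
        · exact absurd (by rw [← h, mul_assoc]) (E.new h0 (x * t) p hd)
  intro w t p h
  exact key _ w t p rfl h

theorem ru_s2all {ι : P →* P'} {y : Ltr P → P'} {len : P' → ℕ} (E : S2All ι y len) : RU ι := by
  have := E.good
  have key : ∀ n : ℕ, ∀ w t p, len w = n → w * t = ι p → ∃ t0, t = ι t0 := by
    intro n
    induction n using Nat.strong_induction_on with
    | _ n ih =>
      intro w t p hn h
      rcases E.nf w with ⟨w0, rfl⟩ | ⟨l, x, rfl, hx⟩
      · obtain ⟨x, hx, -⟩ := consR E.cons h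
        exact ⟨x, hx⟩
      · rw [E.len_y l x hx] at hn
        by_cases hd : ι l.d.a ∣ x * t
        · obtain ⟨z, hz⟩ := hd
          obtain ⟨q, hq⟩ := l.d.b_mem.1 _ l.hr
          have h1 : ι (l.s * q) * z = ι p := by
            rw [← E.rel l q hq, mul_assoc, ← hz, ← h, mul_assoc]
          obtain ⟨z0, rfl, -⟩ := consR E.cons h1
          rw [← map_mul] at hz
          exact ih (len x) (by omega) x t _ rfl hz
        · exact absurd (by rw [← h, mul_assoc]) (E.new l (x * t) p hd)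
  intro w t p h
  exact key _ w t p rfl h

end ru

/-! ### submonoids of a good monoid -/

section sub
variable {P : Type u} [Monoid P] [IsGood P]

/-- in a conservative submonoid, right quotients are old -/
theorem sub_right {A : Submonoid P} (hc : Cons A.subtype) {f x : P} (hf : f ∈ A)
    (h : f * x ∈ A) : x ∈ A := by
  obtain ⟨x0, hx0, -⟩ := consR hc (f := ⟨f, hf⟩) (g := ⟨f * x, h⟩) (x' := x) rfl
  rw [hx0]
  exact x0.2

/-- conservative submonoids of good monoids are good -/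
theorem sub_good {A : Submonoid P} (hc : Cons A.subtype) : IsGood A where
  lc f g h e := by
    apply Subtype.ext
    apply lcan (f := (f : P))
    exact congrArg Subtype.val e
  unit f g e := by
    apply Subtype.ext
    exact unit_left (f := (f : P)) (g := g) (congrArg Subtype.val e)
  lcm f g x y e := by
    have e' : (f : P) * x = g * y := congrArg Subtype.val e
    obtain ⟨u, v, h1, h2⟩ := IsGood.lcm (f : P) g x y e'
    obtain ⟨x0, y0, t, h3, h4, h5⟩ := hc.amal f g u v h1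
    have h3' : (f : P) * x0 = g * y0 := congrArg Subtype.val h3
    obtain ⟨t', h6, h7⟩ := h2 x0 y0 h3'
    have hu : u ∈ A := by
      have h8 : u * (t' * t) = u * 1 := by
        rw [← mul_assoc, ← h6, mul_one]; exact h4.symm
      have h9 := lcan h8
      have h10 : t' = 1 := unit_left h9
      rw [h10, mul_one] at h6
      rw [← h6]; exact x0.2
    have hv : v ∈ A := by
      apply sub_right hc g.2
      rw [← h1]
      exact A.mul_mem f.2 hu
    refine ⟨⟨u, hu⟩, ⟨v, hv⟩, Subtype.ext h1, ?_⟩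
    intro x' y' e2
    obtain ⟨t2, h8, h9⟩ := h2 x' y' (congrArg Subtype.val e2)
    have ht : t2 ∈ A := sub_right hc hu (by rw [← h8]; exact x'.2)
    exact ⟨⟨t2, ht⟩, Subtype.ext h8, Subtype.ext h9⟩

/-- inclusions between conservative submonoids are conservative -/
theorem sub_cons {A B : Submonoid P} (hA : Cons A.subtype) (hAB : A ≤ B)
    (hB : Cons B.subtype) : Cons (Submonoid.inclusion hAB) where
  inj := Submonoid.inclusion_injective hAB
  amal f g x' y' e := by
    have e' : (f : P) * x' = g * y' := congrArg Subtype.val e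
    obtain ⟨x, y, t, h1, h2, h3⟩ := hA.amal f g x' y' e'
    have ht : t ∈ B := by
      apply sub_right hB (f := (x : P)) (hAB x.2)
      have : (x' : P) = x * t := h2
      rw [← this]; exact x'.2
    exact ⟨x, y, ⟨t, ht⟩, h1, Subtype.ext h2, Subtype.ext h3⟩

end sub

/-! ### the tower -/

section tower
variable {P : Type 1} [Monoid P] (T : Tower P)

theorem tGood (β : Ordinal.{0}) : IsGood (T.A β) :=
  have := T.good
  sub_good (T.cons β)

theorem tCons {α β : Ordinal.{0}} (h : α ≤ β) : Cons (Submonoid.inclusion (T.mono h)) :=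
  have := T.good
  sub_cons (T.cons α) (T.mono h) (T.cons β)

theorem mod_two (β : Ordinal.{0}) : β % 2 = 0 ∨ β % 2 = 1 := by
  have hlt : β % 2 < 2 := Ordinal.mod_lt β two_ne_zero
  rw [← one_add_one_eq_two] at hlt ⊢
  rw [Order.lt_add_one_iff] at hlt
  exact Order.le_one_iff.1 hlt

/-- every step of the tower is right unitary -/
theorem tRU (β : Ordinal.{0}) : RU (Submonoid.inclusion (T.mono (Order.le_succ β))) := by
  rcases mod_two β with h | h
  · exact ru_s1 (T.s1 β h)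
  · exact ru_s2all (T.s2 β h)

theorem tDvd {β : Ordinal.{0}} {x y : T.A β} : (x : P) ∣ y ↔ x ∣ y :=
  have := T.good
  consDvd (T.cons β)

theorem tRight {β : Ordinal.{0}} {f x : P} (hf : f ∈ T.A β) (h : f * x ∈ T.A β) : x ∈ T.A β :=
  have := T.good
  sub_right (T.cons β) hf h

/-- germs between two filters generated by `A α` have representatives in `A α` -/
theorem tGerm {F G : Set P} {α : Ordinal.{0}}
    (gF : ∀ s ∈ F, ∃ m ∈ T.A α, m ∈ F ∧ s ∣ m) (gG : ∀ s ∈ G, ∃ m ∈ T.A α, m ∈ G ∧ s ∣ m)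
    {s r : P} (hr : r ∈ F) (h : ∀ t, r * t ∈ F ↔ s * t ∈ G) :
    ∃ t, s * t ∈ T.A α ∧ r * t ∈ T.A α ∧ r * t ∈ F ∧ s * t ∈ G := by
  have := T.good
  let B : Set Ordinal.{0} :=
    {β | α ≤ β ∧ ∃ t, s * t ∈ T.A β ∧ r * t ∈ T.A β ∧ r * t ∈ F ∧ s * t ∈ G}
  have hB : B.Nonempty := by
    obtain ⟨β1, h1⟩ := T.exh s
    obtain ⟨β2, h2⟩ := T.exh r
    refine ⟨max α (max β1 β2), le_max_left _ _, 1, ?_, ?_, ?_, ?_⟩
    · rw [mul_one]
      exact T.mono ((le_max_left _ _).trans (le_max_right _ _)) h1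
    · rw [mul_one]
      exact T.mono ((le_max_right _ _).trans (le_max_right _ _)) h2
    · rwa [mul_one]
    · exact (h 1).1 (by rwa [mul_one])
  have hmin : ∀ γ ∈ B, sInf B ≤ γ := fun γ hγ => csInf_le' hγ
  obtain ⟨h0, t, h1, h2, h3, h4⟩ : sInf B ∈ B := csInf_mem hB
  rcases h0.eq_or_lt with he | hlt
  · rw [← he] at h1 h2
    exact ⟨t, h1, h2, h3, h4⟩
  exfalso
  rcases Ordinal.zero_or_succ_or_isSuccLimit (sInf B) with hz | ⟨δ, hδ⟩ | hl
  · rw [hz] at hlt
    exact absurd hlt not_lt_zero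
  · have hαδ : α ≤ δ := by
      rw [← hδ] at hlt
      exact Order.lt_succ_iff.1 hlt
    rw [← hδ] at h1 h2
    have hg := germ_step (ι := Submonoid.inclusion (T.mono (Order.le_succ δ))) (tRU T δ)
      (F := {x | (x : P) ∈ F}) (G := {x | (x : P) ∈ G})
      (by
        intro x hx
        obtain ⟨m, hm, hmF, hd⟩ := gF x hx
        have hm' : m ∈ T.A δ := T.mono hαδ hm
        refine ⟨⟨m, hm'⟩, hmF, ?_⟩
        exact (tDvd T (x := x) (y := ⟨m, T.mono (Order.le_succ δ) hm'⟩)).1 hd)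
      (by
        intro x hx
        obtain ⟨m, hm, hmF, hd⟩ := gG x hx
        have hm' : m ∈ T.A δ := T.mono hαδ hm
        refine ⟨⟨m, hm'⟩, hmF, ?_⟩
        exact (tDvd T (x := x) (y := ⟨m, T.mono (Order.le_succ δ) hm'⟩)).1 hd)
      (s := ⟨s * t, h1⟩) (r := ⟨r * t, h2⟩) h3
      (by
        intro t'
        show r * t * t' ∈ F ↔ s * t * t' ∈ G
        rw [mul_assoc, mul_assoc]
        exact h _)
    obtain ⟨t', a, b, e1, e2, e3, e4⟩ := hg
    have e1' : s * t * t' = a := congrArg Subtype.val e1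
    have e2' : r * t * t' = b := congrArg Subtype.val e2
    have hmem : δ ∈ B := by
      refine ⟨hαδ, t * t', ?_, ?_, ?_, ?_⟩
      · rw [← mul_assoc, e1']; exact a.2
      · rw [← mul_assoc, e2']; exact b.2
      · rw [← mul_assoc]; exact e3
      · rw [← mul_assoc]; exact e4
    have := hmin δ hmem
    rw [← hδ] at this
    exact absurd this (not_le.2 (Order.lt_succ δ))
  · obtain ⟨γ1, l1, h1'⟩ := T.lim _ hl _ h1
    obtain ⟨γ2, l2, h2'⟩ := T.lim _ hl _ h2
    have hmem : max α (max γ1 γ2) ∈ B :=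
      ⟨le_max_left _ _, t, T.mono ((le_max_left _ _).trans (le_max_right _ _)) h1',
        T.mono ((le_max_right _ _).trans (le_max_right _ _)) h2', h3, h4⟩
    exact absurd (hmin _ hmem) (not_le.2 (max_lt hlt (max_lt l1 l2)))

theorem genBy_mono {F : Filt P} {α β : Ordinal.{0}} (hab : α ≤ β) (h : GenBy T F α) :
    GenBy T F β := by
  intro s hs
  obtain ⟨m, hm, h1, h2⟩ := h s hs
  exact ⟨m, T.mono hab hm, h1, h2⟩

/-- restriction of a filter of `P` to `A α` -/
def fres (F : Filt P) (α : Ordinal.{0}) : Filt (T.A α) := fcomap F (T.A α).subtype (T.cons α)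

/-- restriction of a closed set of `P` to `A α` -/
def cres (C : Closed P) (α : Ordinal.{0}) : Closed (T.A α) :=
  ccomap C (T.A α).subtype (T.cons α)

theorem mem_fres {F : Filt P} {α : Ordinal.{0}} {s : T.A α} :
    s ∈ (fres T F α).S ↔ (s : P) ∈ F.S := Iff.rfl

theorem mem_cres {C : Closed P} {α : Ordinal.{0}} {s : T.A α} :
    s ∈ (cres T C α).S ↔ (s : P) ∈ C.S := Iff.rfl

theorem R_cres {C : Closed P} {α : Ordinal.{0}} {s r : T.A α} :
    (cres T C α).R s r ↔ C.R s r := Iff.rfl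

/-- a closed set of `P` whose filter is generated by `A α` is generated by its restriction -/
theorem tMap {C : Closed P} {α : Ordinal.{0}} (h : GenBy T C.toFilt α) :
    (cres T C α).IsMap (T.A α).subtype C where
  S := by
    ext s
    constructor
    · intro hs
      obtain ⟨m, hm, hmF, hd⟩ := h s hs
      exact ⟨⟨m, hm⟩, hmF, hd⟩
    · rintro ⟨a, ha, hd⟩
      exact C.up _ _ hd ha
  R s r := by
    constructor
    · intro hR
      have hr : r ∈ C.S := C.dom _ _ (C.symm _ _ hR)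
      obtain ⟨t, h1, h2, h3, h4⟩ := tGerm T h h hr (R_germ hR)
      exact ⟨⟨s * t, h1⟩, ⟨r * t, h2⟩, t, C.act _ _ _ hR h3, rfl, rfl⟩
    · rintro ⟨a, b, t, h1, h2, h3⟩
      apply C.shrink s r t
      rw [h2, h3]
      exact h1

/-- the same at a stage `β ≥ α` -/
theorem tMapLe {C : Closed P} {α β : Ordinal.{0}} (hab : α ≤ β) (h : GenBy T C.toFilt α) :
    (cres T C α).IsMap (Submonoid.inclusion (T.mono hab)) (cres T C β) where
  S := by
    ext s
    constructor
    · intro hs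
      obtain ⟨m, hm, hmF, hd⟩ := h s hs
      exact ⟨⟨m, hm⟩, hmF, (tDvd T (x := s) (y := ⟨m, T.mono hab hm⟩)).1 hd⟩
    · rintro ⟨a, ha, hd⟩
      exact (cres T C β).up _ _ hd ha
  R s r := by
    constructor
    · intro hR
      have hR' : C.R s r := hR
      have hr : (r : P) ∈ C.S := C.dom _ _ (C.symm _ _ hR)
      obtain ⟨t, h1, h2, h3, h4⟩ := tGerm T h h hr (R_germ hR')
      exact ⟨⟨s * t, h1⟩, ⟨r * t, h2⟩, ⟨t, tRight T s.2 (T.mono hab h1)⟩,
        C.act _ _ _ hR' h3, rfl, rfl⟩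
    · rintro ⟨a, b, t, h1, h2, h3⟩
      apply (cres T C β).shrink s r t
      rw [h2, h3]
      exact h1

/-- every closed set of a stage is the restriction of the closed set of `P` it generates -/
theorem cres_of_isMap {α : Ordinal.{0}} {C0 : Closed (T.A α)} {C : Closed P}
    (h : C0.IsMap (T.A α).subtype C) : cres T C α = C0 := by
  have := T.good
  have hS : (cres T C α).S = C0.S := by
    ext s
    exact im_memS_iff (T.cons α) h
  have hR : (cres T C α).R = C0.R := by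
    funext s r
    exact propext (im_R_iff (T.cons α) h)
  exact Closed.ext hS hR

theorem genBy_of_isMap {α : Ordinal.{0}} {C0 : Closed (T.A α)} {C : Closed P}
    (h : C0.IsMap (T.A α).subtype C) : GenBy T C.toFilt α := by
  intro s hs
  rw [h.S] at hs
  obtain ⟨a, ha, hd⟩ := hs
  exact ⟨a, a.2, im_memS h ha, hd⟩

/-! ### closing off -/

/-- functions on a stage are bounded -/
theorem tBound (β : Ordinal.{0}) (φ : P → Ordinal.{0}) :
    ∃ γ, ∀ w ∈ T.A β, φ w ≤ γ := by
  have := T.small β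
  obtain ⟨γ, hγ⟩ := Ordinal.bddAbove_of_small (s := Set.range fun w : T.A β => φ w)
  exact ⟨γ, fun w hw => hγ ⟨⟨w, hw⟩, rfl⟩⟩

theorem tBound2 (β : Ordinal.{0}) (φ : P → P → Ordinal.{0}) :
    ∃ γ, ∀ w ∈ T.A β, ∀ w' ∈ T.A β, φ w w' ≤ γ := by
  choose g hg using fun w : P => tBound T β (φ w)
  obtain ⟨γ, hγ⟩ := tBound T β g
  exact ⟨γ, fun w hw w' hw' => (hg w w' hw').trans (hγ w hw)⟩

end tower

/-- closure points of a function of ordinals -/
theorem exists_closure (g : Ordinal.{0} → Ordinal.{0}) (β0 : Ordinal.{0}) :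
    ∃ α, β0 < α ∧ Order.IsSuccLimit α ∧ ∀ β < α, g β < α := by
  have hb : ∀ β : Ordinal.{0}, ∃ γ, β < γ ∧ ∀ δ ≤ β, g δ < γ := by
    intro β
    obtain ⟨γ, hγ⟩ := Ordinal.bddAbove_of_small (s := Set.range fun δ : Set.Iic β => g δ)
    refine ⟨Order.succ (max β γ), Order.lt_succ_of_le (le_max_left _ _), fun δ hδ => ?_⟩
    exact Order.lt_succ_of_le ((hγ ⟨⟨δ, hδ⟩, rfl⟩).trans (le_max_right _ _))
  choose G hG1 hG2 using hb
  let a : ℕ → Ordinal.{0} := fun n => G^[n] β0
  have ha : ∀ n, a (n + 1) = G (a n) := fun n => Function.iterate_succ_apply' G n β0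
  have hbd : BddAbove (Set.range a) := Ordinal.bddAbove_of_small
  have hlt : ∀ n, a n < ⨆ n, a n := fun n =>
    (by rw [ha]; exact hG1 (a n) : a n < a (n + 1)).trans_le (le_ciSup hbd (n + 1))
  have hex : ∀ β < ⨆ n, a n, ∃ n, β < a n := fun β hβ => (lt_ciSup_iff hbd).1 hβ
  refine ⟨⨆ n, a n, hlt 0, ?_, ?_⟩
  · rw [Ordinal.isSuccLimit_iff]
    refine ⟨fun h0 => ?_, ?_⟩
    · have := hlt 0
      rw [h0] at this
      exact absurd this not_lt_zero
    · apply Order.isSuccPrelimit_of_succ_lt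
      intro β hβ
      obtain ⟨n, hn⟩ := hex β hβ
      exact (Order.succ_le_of_lt hn).trans_lt (hlt n)
  · intro β hβ
    obtain ⟨n, hn⟩ := hex β hβ
    exact ((hG2 (a n) β hn.le).trans_eq (ha n).symm).trans (hlt (n + 1))

section tower2
variable {P : Type 1} [Monoid P] (T : Tower P)

/-- closing off the tower under a function -/
theorem tClosing (φ : P → Ordinal.{0}) (β0 : Ordinal.{0}) :
    ∃ α, β0 < α ∧ Order.IsSuccLimit α ∧ ∀ w ∈ T.A α, φ w < α := by
  choose g hg using fun β => tBound T β φ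
  obtain ⟨α, h1, h2, h3⟩ := exists_closure g β0
  refine ⟨α, h1, h2, fun w hw => ?_⟩
  obtain ⟨γ, hγ, hw'⟩ := T.lim α h2 w hw
  exact (hg γ w hw').trans_lt (h3 γ hγ)

/-- closing off the tower under a function of two arguments -/
theorem tClosing2 (φ : P → P → Ordinal.{0}) (β0 : Ordinal.{0}) :
    ∃ α, β0 < α ∧ Order.IsSuccLimit α ∧ ∀ w ∈ T.A α, ∀ w' ∈ T.A α, φ w w' < α := by
  choose g hg using fun β => tBound2 T β φ
  obtain ⟨α, h1, h2, h3⟩ := exists_closure g β0
  refine ⟨α, h1, h2, fun w hw w' hw' => ?_⟩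
  obtain ⟨γ, hγ, hwγ⟩ := T.lim α h2 w hw
  obtain ⟨γ', hγ', hwγ'⟩ := T.lim α h2 w' hw'
  exact (hg (max γ γ') w (T.mono (le_max_left _ _) hwγ) w'
    (T.mono (le_max_right _ _) hwγ')).trans_lt (h3 _ (max_lt hγ hγ'))

/-- every filter is generated by its members in some `A α` -/
theorem exists_gen (hcap : StCap T) (F : Filt P) : ∃ α, GenBy T F α := by
  classical
  choose st hst using T.exh
  obtain ⟨α, -, -, h⟩ := tClosing T
    (fun w => if hw : ∃ s ∈ F.S, ¬ s ∣ w then st hw.choose else 0) 0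
  refine ⟨α, hcap F α ?_⟩
  intro w hw hall s hs
  by_contra hns
  have hex : ∃ s ∈ F.S, ¬ s ∣ w := ⟨s, hs, hns⟩
  have h1 := h w hw
  simp only [dif_pos hex] at h1
  exact hex.choose_spec.2 (hall _ (T.mono h1.le (hst _)) hex.choose_spec.1)

/-- every closed set is generated by its restriction to some `A α` -/
theorem exists_map (hcap : StCap T) (C : Closed P) :
    ∃ α, ∀ β, α ≤ β → (cres T C β).IsMap (T.A β).subtype C := by
  obtain ⟨α, h⟩ := exists_gen T hcap C.toFilt
  exact ⟨α, fun β hβ => tMap T (genBy_mono T hβ h)⟩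

end tower2

end Crest.Agent.R296.Resx70
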