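import Mathlib

/-!
# Row 296, block A-S1: the word extension `P<T>` of a good monoid by a right LCM act

`RAct P`    : right `P`-acts with cancellation and explicit right LCMs
`W A`       : words `(s0, t1, ..., tn)`
`W.good`    : `P<T>` is good
`W.inc`     : inclusion, conservativity
-/

set_option autoImplicit false

namespace Crest.Agent.R296.S1x531

universe u v w

/-- good monoid: left cancellative, `1` is the only unit, explicit right LCMs -/
structure GoodX (P : Type u) [Monoid P] : Prop where
  cancel : ∀ a b c : P, a * b = a * c → b = c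
  unit : ∀ a b : P, a * b = 1 → a = 1
  lcm : ∀ a b x y : P, a * x = b * y →
    ∃ p q : P, a * p = b * q ∧ ∀ x' y' : P, a * x' = b * y' → ∃ r, x' = p * r ∧ y' = q * r

/-- right act with cancellation and explicit right LCMs -/
structure RAct (P : Type u) [Monoid P] where
  T : Type v
  act : T → P → T
  act_one : ∀ t, act t 1 = t
  act_mul : ∀ t p q, act (act t p) q = act t (p * q)
  cancel : ∀ t p q, act t p = act t q → p = q
  lcm : ∀ t t' p p', act t p = act t' p' →
    ∃ a b : P, act t a = act t' b ∧ ∀ q q' : P, act t q = act t' q' → ∃ r, q = a * r ∧ q' = b * r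

variable {P : Type u} [Monoid P]

/-- words over the act `A` -/
inductive W (A : RAct.{u, v} P) : Type (max u v)
  | base (p : P) : W A
  | snoc (w : W A) (t : A.T) : W A

namespace W

variable {A : RAct.{u, v} P}

/-- right multiplication by an element of `P` -/
def rp : W A → P → W A
  | base s, p => base (s * p)
  | snoc w t, p => snoc w (A.act t p)

/-- product of words -/
def mulW : W A → W A → W A
  | x, base p => rp x p
  | x, snoc y t => snoc (mulW x y) t

theorem rp_one (x : W A) : rp x 1 = x := by
  cases x with
  | base s => simp [rp]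
  | snoc w t => simp [rp, A.act_one]

theorem rp_rp (x : W A) (p q : P) : rp (rp x p) q = rp x (p * q) := by
  cases x with
  | base s => simp [rp, mul_assoc]
  | snoc w t => simp [rp, A.act_mul]

theorem rp_mulW (x y : W A) (p : P) : rp (mulW x y) p = mulW x (rp y p) := by
  cases y with
  | base s => exact rp_rp x s p
  | snoc w t => rfl

instance : Mul (W A) := ⟨mulW⟩
instance : One (W A) := ⟨base 1⟩

theorem mul_base (x : W A) (p : P) : x * base p = rp x p := rfl
theorem mul_snoc (x y : W A) (t : A.T) : x * snoc y t = snoc (x * y) t := rfl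
theorem one_def : (1 : W A) = base 1 := rfl

theorem assoc (x y z : W A) : x * y * z = x * (y * z) := by
  induction z with
  | base p => exact rp_mulW x y p
  | snoc z t ih => rw [mul_snoc, mul_snoc, mul_snoc, ih]

theorem oneMul (x : W A) : 1 * x = x := by
  induction x with
  | base p => rw [one_def, mul_base]; simp [rp]
  | snoc z t ih => rw [mul_snoc, ih]

theorem mulOne (x : W A) : x * 1 = x := rp_one x

instance : Monoid (W A) where
  mul_assoc := assoc
  one_mul := oneMul
  mul_one := mulOne

/-- number of letters -/
def len : W A → ℕ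
  | base _ => 0
  | snoc w _ => len w + 1

/-- first entry -/
def head : W A → P
  | base p => p
  | snoc w _ => head w

theorem len_rp (x : W A) (p : P) : len (rp x p) = len x := by
  cases x <;> simp [rp, len]

theorem len_mul (x y : W A) : len (x * y) = len x + len y := by
  induction y with
  | base p => simp [mul_base, len_rp, len]
  | snoc z t ih => simp [mul_snoc, len, ih, Nat.add_assoc]

theorem head_base_mul (s : P) (y : W A) : head (base s * y) = s * head y := by
  induction y with
  | base p => simp [mul_base, rp, head]
  | snoc z t ih => simp [mul_snoc, head, ih]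

theorem base_mul_base (s p : P) : (base s : W A) * base p = base (s * p) := rfl

/-- inclusion of `P` -/
def inc (A : RAct.{u, v} P) : P →* W A where
  toFun := base
  map_one' := rfl
  map_mul' := fun _ _ => rfl

theorem inc_injective : Function.Injective (inc A) := fun _ _ h => by
  injection h

theorem cancelW (hP : GoodX P) (x y z : W A) (h : x * y = x * z) : y = z := by
  induction y generalizing z with
  | base p =>
    cases z with
    | base q =>
      rw [mul_base, mul_base] at h
      cases x with
      | base s =>
        simp only [rp, base.injEq] at h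
        rw [hP.cancel _ _ _ h]
      | snoc w t =>
        simp only [rp, snoc.injEq, true_and] at h
        rw [A.cancel _ _ _ h]
    | snoc z t =>
      exfalso
      have := congrArg len h
      simp [len_mul, len] at this
  | snoc y t ih =>
    cases z with
    | base q =>
      exfalso
      have := congrArg len h
      simp [len_mul, len] at this
    | snoc z t' =>
      rw [mul_snoc, mul_snoc] at h
      simp only [snoc.injEq] at h
      rw [ih z h.1, h.2]

theorem unitW (hP : GoodX P) (x y : W A) (h : x * y = 1) : x = 1 := by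
  cases y with
  | base p =>
    cases x with
    | base s =>
      rw [base_mul_base, one_def] at h
      simp only [base.injEq] at h
      rw [one_def, hP.unit _ _ h]
    | snoc w t =>
      rw [mul_base, one_def] at h
      simp [rp] at h
  | snoc y t =>
    rw [mul_snoc, one_def] at h
    simp at h

/-- divisibility of a word by a word, last letter analysis -/
theorem mul_eq_snoc {x y m : W A} {t : A.T} (h : x * y = snoc m t) :
    (∃ y', y = snoc y' t ∧ x * y' = m) ∨ (∃ t0 p, x = snoc m t0 ∧ y = base p ∧ A.act t0 p = t) := by
  cases y with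
  | base p =>
    right
    cases x with
    | base s => simp [mul_base, rp] at h
    | snoc w t0 =>
      simp only [mul_base, rp, snoc.injEq] at h
      exact ⟨t0, p, by rw [h.1], rfl, h.2⟩
  | snoc y t' =>
    left
    rw [mul_snoc] at h
    simp only [snoc.injEq] at h
    exact ⟨y, by rw [h.2], h.1⟩

theorem mul_eq_base {x y : W A} {q : P} (h : x * y = base q) :
    ∃ s p, x = base s ∧ y = base p ∧ s * p = q := by
  cases y with
  | base p =>
    cases x with
    | base s =>
      rw [base_mul_base] at h
      simp only [base.injEq] at h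
      exact ⟨s, p, rfl, rfl, h⟩
    | snoc w t => simp [mul_base, rp] at h
  | snoc y t => simp [mul_snoc] at h

/-- `l` is an explicit LCM of `x`, `y` -/
def IsL (x y p q : W A) : Prop :=
  x * p = y * q ∧ ∀ x' y' : W A, x * x' = y * y' → ∃ r, x' = p * r ∧ y' = q * r

theorem IsL.symm {x y p q : W A} (h : IsL x y p q) : IsL y x q p :=
  ⟨h.1.symm, fun x' y' e => by
    obtain ⟨r, h1, h2⟩ := h.2 y' x' e.symm
    exact ⟨r, h2, h1⟩⟩

/-- LCM of two base elements stays the LCM -/
theorem isL_base {a b p q : P} (h0 : a * p = b * q)
    (h : ∀ x' y' : P, a * x' = b * y' → ∃ r, x' = p * r ∧ y' = q * r) :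
    IsL (base a : W A) (base b) (base p) (base q) := by
  refine ⟨by rw [base_mul_base, base_mul_base, h0], ?_⟩
  intro x' y' e
  induction x' generalizing y' with
  | base x =>
    rw [base_mul_base] at e
    obtain ⟨s, y, hs, hy, e'⟩ := mul_eq_base e.symm
    subst hy
    simp only [base.injEq] at hs
    subst hs
    obtain ⟨r, h1, h2⟩ := h x y e'.symm
    exact ⟨base r, by rw [base_mul_base, h1], by rw [base_mul_base, h2]⟩
  | snoc x t ih =>
    rw [mul_snoc] at e
    rcases mul_eq_snoc e.symm with ⟨y1, hy, e1⟩ | ⟨t0, p1, hx, _, _⟩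
    · subst hy
      obtain ⟨r, h1, h2⟩ := ih y1 e1.symm
      exact ⟨snoc r t, by rw [mul_snoc, h1], by rw [mul_snoc, h2]⟩
    · simp at hx

/-- LCM of two words with the same beginning -/
theorem isL_snoc {m : W A} {t t' : A.T} {a b : P} (h0 : A.act t a = A.act t' b)
    (h : ∀ q q' : P, A.act t q = A.act t' q' → ∃ r, q = a * r ∧ q' = b * r) :
    IsL (snoc m t) (snoc m t') (base a) (base b) := by
  refine ⟨by simp [mul_base, rp, h0], ?_⟩
  intro x' y' e
  induction x' generalizing y' with
  | base x =>
    rw [mul_base] at e
    simp only [rp] at e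
    rcases mul_eq_snoc e.symm with ⟨y1, hy, e1⟩ | ⟨t0, p1, hx, hy, e1⟩
    · exfalso
      have := congrArg len e1
      simp only [len_mul, len] at this
      omega
    · simp only [snoc.injEq, true_and] at hx
      subst hx hy
      obtain ⟨r, h1, h2⟩ := h x p1 e1.symm
      exact ⟨base r, by rw [base_mul_base, h1], by rw [base_mul_base, h2]⟩
  | snoc x t1 ih =>
    rw [mul_snoc] at e
    rcases mul_eq_snoc e.symm with ⟨y1, hy, e1⟩ | ⟨t0, p1, hx, hy, e1⟩
    · subst hy
      obtain ⟨r, h1, h2⟩ := ih y1 e1.symm
      exact ⟨snoc r t1, by rw [mul_snoc, h1], by rw [mul_snoc, h2]⟩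
    · exfalso
      simp only [snoc.injEq] at hx
      have := congrArg len hx.1
      simp only [len_mul, len] at this
      omega

theorem isL_of_dvd (hP : GoodX P) {x y z : W A} (h : x * z = y) : IsL x y z 1 := by
  refine ⟨by rw [h, mul_one], ?_⟩
  intro x' y' e
  refine ⟨y', ?_, by rw [one_mul]⟩
  rw [← h, mul_assoc] at e
  exact cancelW hP _ _ _ e

theorem lcmW (hP : GoodX P) (x y x1 y1 : W A) (h : x * x1 = y * y1) :
    ∃ p q : W A, IsL x y p q := by
  induction x1 generalizing y1 with
  | base p =>
    -- x * base p = y * y1
    rw [mul_base] at h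
    cases x with
    | base a =>
      simp only [rp] at h
      obtain ⟨b, q, hb, hq, e⟩ := mul_eq_base h.symm
      subst hb
      obtain ⟨p', q', e1, e2⟩ := hP.lcm a b p q e.symm
      exact ⟨_, _, isL_base e1 e2⟩
    | snoc m t =>
      simp only [rp] at h
      rcases mul_eq_snoc h.symm with ⟨y2, hy, e1⟩ | ⟨t0, p1, hx, hy, e1⟩
      · -- y divides m, hence y divides snoc m t
        refine ⟨1, snoc y2 t, IsL.symm (isL_of_dvd hP ?_)⟩
        rw [mul_snoc, e1]
      · subst hx
        obtain ⟨a, b, e2, e3⟩ := A.lcm t t0 p p1 e1.symm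
        exact ⟨_, _, isL_snoc e2 e3⟩
  | snoc x1 t ih =>
    rw [mul_snoc] at h
    rcases mul_eq_snoc h.symm with ⟨y2, hy, e1⟩ | ⟨t0, p1, hx, hy, e1⟩
    · exact ih y2 e1.symm
    · -- y = snoc (x * x1) t0 : x divides y
      refine ⟨snoc x1 t0, 1, isL_of_dvd hP ?_⟩
      rw [mul_snoc, hx]

/-- `P<T>` is good -/
theorem good (hP : GoodX P) : GoodX (W A) where
  cancel := fun _ _ _ h => cancelW hP _ _ _ h
  unit := fun _ _ h => unitW hP _ _ h
  lcm := fun x y x1 y1 h => by
    obtain ⟨p, q, h1, h2⟩ := lcmW hP x y x1 y1 h
    exact ⟨p, q, h1, h2⟩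

/-- divisors of elements of `P` are in `P` (`w P' ∩ P = ∅` for `w ∉ P`), and cofactors too -/
theorem dvd_inc {x y : W A} {q : P} (h : x * y = inc A q) :
    ∃ s p, x = inc A s ∧ y = inc A p ∧ s * p = q := mul_eq_base h

/-- conservativity: right LCMs of elements of `P` are computed in `P` -/
theorem cons_inc (hP : GoodX P) {a b : P} {x y : W A} (h : inc A a * x = inc A b * y) :
    ∃ p q : P, a * p = b * q ∧ (∀ x' y' : P, a * x' = b * y' → ∃ r, x' = p * r ∧ y' = q * r) ∧
      ∃ r : W A, x = inc A p * r ∧ y = inc A q * r := by
  -- first find a common multiple in `P`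
  have key : ∃ x0 y0 : P, a * x0 = b * y0 := by
    induction x generalizing y with
    | base x =>
      obtain ⟨s, y0, hs, hy, e'⟩ := mul_eq_base (x := (base b : W A)) (y := y) (q := a * x) h.symm
      simp only [base.injEq] at hs
      subst hs
      exact ⟨x, y0, e'.symm⟩
    | snoc x t ih =>
      have h' : snoc (base a * x) t = base b * y := h
      rcases mul_eq_snoc h'.symm with ⟨y1, hy, e1⟩ | ⟨t0, p1, hx, _, _⟩
      · exact ih (y := y1) e1.symm
      · simp at hx
  obtain ⟨x0, y0, e0⟩ := key
  obtain ⟨p, q, e1, e2⟩ := hP.lcm a b x0 y0 e0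
  exact ⟨p, q, e1, e2, (isL_base (A := A) e1 e2).2 x y h⟩

/-- an element `s` of `P` divides the word `w` iff it divides its first entry -/
theorem inc_dvd_iff {s : P} {x : W A} : (∃ y, inc A s * y = x) ↔ ∃ p, s * p = head x := by
  constructor
  · rintro ⟨y, rfl⟩
    exact ⟨head y, (head_base_mul s y).symm⟩
  · rintro ⟨p, hp⟩
    induction x with
    | base q => exact ⟨base p, by rw [show inc A s = base s from rfl, base_mul_base, hp]; rfl⟩
    | snoc x t ih =>
      obtain ⟨y, hy⟩ := ih hp
      exact ⟨snoc y t, by rw [mul_snoc, hy]⟩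

/-- a new letter -/
def letter (A : RAct.{u, v} P) (t : A.T) : W A := snoc (base 1) t

theorem letter_mul_inc (t : A.T) (p : P) : letter A t * inc A p = letter A (A.act t p) := rfl

theorem letter_injective : Function.Injective (letter A) := fun _ _ h => by
  simp only [letter, snoc.injEq, true_and] at h
  exact h

/-- every word is in `P` or a product of a word, a letter (and nothing else) -/
theorem snoc_eq (x : W A) (t : A.T) : snoc x t = x * letter A t := by
  rw [letter, mul_snoc]
  congr 1
  exact (mul_one x).symm

/-- the intersection of `letter t P'` and `s P'` is empty for `s ≠ 1` in `P` -/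
theorem letter_disjoint (hP : GoodX P) {t : A.T} {s : P} (hs : s ≠ 1) (x y : W A) :
    letter A t * x ≠ inc A s * y := by
  intro h
  have h1 : head (letter A t * x) = 1 := by
    clear h
    induction x with
    | base p => rfl
    | snoc x t' ih => rw [mul_snoc]; exact ih
  have h2 := head_base_mul s y
  have h3 : inc A s * y = base s * y := rfl
  rw [← h3, ← h, h1] at h2
  exact hs (hP.unit _ _ h2.symm)

/-- common multiples of letters are exactly governed by the act -/
theorem letter_common {t t' : A.T} {x y : W A} (h : letter A t * x = letter A t' * y) :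
    ∃ p q : P, A.act t p = A.act t' q ∧ ∃ r : W A, x = inc A p * r ∧ y = inc A q * r := by
  induction x generalizing y with
  | base p =>
    have h' : snoc (base 1) (A.act t p) = letter A t' * y := h
    rcases mul_eq_snoc h'.symm with ⟨y1, hy, e1⟩ | ⟨t0, p1, hx, hy, e1⟩
    · exfalso
      have := congrArg len e1
      simp [len_mul, len, letter] at this
    · have : t' = t0 := letter_injective (A := A) hx
      subst this
      exact ⟨p, p1, e1.symm, 1, (mul_one _).symm, by rw [mul_one]; exact hy⟩
  | snoc x t1 ih =>
    have h' : snoc (letter A t * x) t1 = letter A t' * y := h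
    rcases mul_eq_snoc h'.symm with ⟨y1, hy, e1⟩ | ⟨t0, p1, hx, hy, e1⟩
    · obtain ⟨p, q, e2, r, e3, e4⟩ := ih e1.symm
      exact ⟨p, q, e2, snoc r t1, by rw [mul_snoc, ← e3], by rw [mul_snoc, ← e4, hy]⟩
    · exfalso
      have := congrArg len hx
      simp [len_mul, len, letter] at this

end W

end Crest.Agent.R296.S1x531
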