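import Crest.Agent.R296.Sat_566
import Crest.Agent.R296.FSys_879

/-!
# Row 296, block B (helper566): a forced theory is satisfiable, for 879's `FSys`

* `FSys.sat_of_forces` : if one object forces every sentence of `T`, then `T` is satisfiable
-/

set_option autoImplicit false

universe u v w

open CategoryTheory FirstOrder FirstOrder.Language Crest.LogicCS.SetTheory

namespace Crest.Agent.R296

variable {C : Type u} [Category.{w} C]

/-- the same system -/
def FSys.toSys (S : FSys.{w, u, v} C) : Satx566.Sys.{u, w, v} C where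
  Nm := S.Nm
  res h x := S.res h x
  E := S.E
  M := S.M
  E_refl := S.E_refl
  E_symm := S.E_symm
  E_trans := S.E_trans
  M_congr := S.M_congr
  E_mono := S.E_mono
  M_mono := S.M_mono
  E_reg := S.E_reg
  M_reg := S.M_reg
  res_id := S.res_id
  res_comp f g x := S.res_comp g f x

theorem FSys.tix_eq {k : ℕ} (t : setL.Term (Empty ⊕ Fin k)) : FSys.tix t = Satx566.tv t := by
  cases t with
  | var x =>
    rcases x with x | i
    · exact x.elim
    · rfl
  | func f _ => exact isEmptyElim f

theorem FSys.frc_toSys (S : FSys.{w, u, v} C) {n : ℕ} (φ : setL.BoundedFormula Empty n) :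
    ∀ (c : C) (a : Fin n → S.Nm c), S.Frc φ c a ↔ S.toSys.F φ c a := by
  induction φ with
  | falsum => exact fun _ _ => Iff.rfl
  | equal t₁ t₂ =>
    intro c a
    show S.E c (a (FSys.tix t₁)) (a (FSys.tix t₂)) ↔ S.E c (a (Satx566.tv t₁)) (a (Satx566.tv t₂))
    rw [FSys.tix_eq, FSys.tix_eq]
  | rel R ts =>
    intro c a
    cases R with
    | mem =>
      show S.M c (a (FSys.tix (ts 0))) (a (FSys.tix (ts 1))) ↔
        S.M c (a (Satx566.tv (ts 0))) (a (Satx566.tv (ts 1)))
      rw [FSys.tix_eq, FSys.tix_eq]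
  | imp φ ψ h1 h2 =>
    intro c a
    exact forall_congr' fun d => forall_congr' fun f => imp_congr (h1 _ _) (h2 _ _)
  | all φ h1 =>
    intro c a
    exact forall_congr' fun d => forall_congr' fun f => forall_congr' fun x => h1 _ _

/-- **a forced theory is satisfiable** -/
theorem FSys.sat_of_forces (S : FSys.{w, u, v} C) {T : setL.Theory} (c : C)
    (h : ∀ φ ∈ T, S.Frc φ c (fun i => i.elim0)) : T.IsSatisfiable :=
  Satx566.Sys.sat (S := S.toSys) c ⟨S.nm0 c⟩ fun φ hφ => (S.frc_toSys φ c _).1 (h φ hφ)

end Crest.Agent.R296
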