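import Crest.Prelude.Def_SetTheory

/-!
# Row 296, block B (helper566): forcing over a category, truth lemmas, satisfiability

`Sys C` = names over the objects of a category `C` (an arrow `d ⟶ c` means that `d` extends `c`), with
forced equality `E` and forced membership `M`, regular and compatible with restriction, restriction being
functorial up to forced equality.

* `Sys.F` the forcing relation for formulas of set theory
* `F_congr`, `F_mono`, `F_reg`, `F_not`, `F_ex`, `F_and`, `F_or`, `F_iff`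
* `Sys.sat` : a theory forced by one object is satisfiable
-/

set_option autoImplicit false

universe u v w

open CategoryTheory FirstOrder FirstOrder.Language Crest.LogicCS.SetTheory Filter

namespace Crest.Agent.R296.Satx566

/-- names with forced equality and membership -/
structure Sys (C : Type u) [Category.{v} C] where
  /-- names -/
  Nm : C → Type w
  /-- restriction -/
  res : ∀ {c d : C}, (d ⟶ c) → Nm c → Nm d
  /-- forced equality -/
  E : ∀ c : C, Nm c → Nm c → Prop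
  /-- forced membership -/
  M : ∀ c : C, Nm c → Nm c → Prop
  E_refl : ∀ {c : C} (x : Nm c), E c x x
  E_symm : ∀ {c : C} {x y : Nm c}, E c x y → E c y x
  E_trans : ∀ {c : C} {x y z : Nm c}, E c x y → E c y z → E c x z
  M_congr : ∀ {c : C} {x x' y y' : Nm c}, E c x x' → E c y y' → M c x y → M c x' y'
  E_mono : ∀ {c d : C} (f : d ⟶ c) {x y : Nm c}, E c x y → E d (res f x) (res f y)
  M_mono : ∀ {c d : C} (f : d ⟶ c) {x y : Nm c}, M c x y → M d (res f x) (res f y)
  E_reg : ∀ {c : C} {x y : Nm c}, (∀ (d : C) (f : d ⟶ c), ∃ (e : C) (g : e ⟶ d),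
    E e (res (g ≫ f) x) (res (g ≫ f) y)) → E c x y
  M_reg : ∀ {c : C} {x y : Nm c}, (∀ (d : C) (f : d ⟶ c), ∃ (e : C) (g : e ⟶ d),
    M e (res (g ≫ f) x) (res (g ≫ f) y)) → M c x y
  res_id : ∀ {c : C} (x : Nm c), E c (res (𝟙 c) x) x
  res_comp : ∀ {c d e : C} (f : d ⟶ c) (g : e ⟶ d) (x : Nm c), E e (res g (res f x)) (res (g ≫ f) x)

instance instIsEmptyFun (n : ℕ) : IsEmpty (setL.Functions n) := inferInstanceAs (IsEmpty Empty)

/-- the variable of a term -/
def tv {k : ℕ} : setL.Term (Empty ⊕ Fin k) → Fin k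
  | Term.var (Sum.inl x) => x.elim
  | Term.var (Sum.inr i) => i
  | Term.func f _ => isEmptyElim f

namespace Sys

variable {C : Type u} [Category.{v} C] (S : Sys.{u, v, w} C)

/-- forced atomic formula -/
def relF (c : C) : ∀ {l : ℕ}, setL.Relations l → (Fin l → S.Nm c) → Prop
  | _, SetRel.mem, v => S.M c (v 0) (v 1)

/-- **the forcing relation** -/
def F : ∀ {k : ℕ}, setL.BoundedFormula Empty k → ∀ c : C, (Fin k → S.Nm c) → Prop
  | _, .falsum, _, _ => False
  | _, .equal t₁ t₂, c, a => S.E c (a (tv t₁)) (a (tv t₂))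
  | _, .rel R ts, c, a => S.relF c R fun i => a (tv (ts i))
  | _, .imp φ ψ, c, a => ∀ (d : C) (f : d ⟶ c), F φ d (fun i => S.res f (a i)) →
      F ψ d (fun i => S.res f (a i))
  | _, .all φ, c, a => ∀ (d : C) (f : d ⟶ c) (x : S.Nm d),
      F φ d (Fin.snoc (fun i => S.res f (a i)) x)

variable {S}

theorem relF_congr {c : C} {l : ℕ} (R : setL.Relations l) {v v' : Fin l → S.Nm c}
    (h : ∀ i, S.E c (v i) (v' i)) (hr : S.relF c R v) : S.relF c R v' := by
  cases R with
  | mem => exact S.M_congr (h 0) (h 1) hr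

theorem relF_mono {c d : C} (f : d ⟶ c) {l : ℕ} (R : setL.Relations l) {v : Fin l → S.Nm c}
    (hr : S.relF c R v) : S.relF d R fun i => S.res f (v i) := by
  cases R with
  | mem => exact S.M_mono f hr

theorem relF_reg {c : C} {l : ℕ} (R : setL.Relations l) {v : Fin l → S.Nm c}
    (h : ∀ (d : C) (f : d ⟶ c), ∃ (e : C) (g : e ⟶ d), S.relF e R fun i => S.res (g ≫ f) (v i)) :
    S.relF c R v := by
  cases R with
  | mem => exact S.M_reg h

/-- forced equality is a congruence -/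
theorem F_congr {k : ℕ} (φ : setL.BoundedFormula Empty k) : ∀ {c : C} {a a' : Fin k → S.Nm c},
    (∀ i, S.E c (a i) (a' i)) → S.F φ c a → S.F φ c a' := by
  induction φ with
  | falsum => exact fun _ h => h
  | equal t₁ t₂ => exact fun h h' => S.E_trans (S.E_symm (h _)) (S.E_trans h' (h _))
  | rel R ts => exact fun h h' => relF_congr R (fun i => h _) h'
  | imp φ ψ h1 h2 =>
    intro c a a' h h' d f hf
    exact h2 (fun i => S.E_mono f (h i)) (h' d f (h1 (fun i => S.E_symm (S.E_mono f (h i))) hf))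
  | all φ h1 =>
    intro c a a' h h' d f x
    refine h1 (fun i => ?_) (h' d f x)
    refine Fin.lastCases ?_ (fun i => ?_) i
    · simpa using S.E_refl x
    · simpa using S.E_mono f (h i)

theorem snoc_res {k : ℕ} {c d : C} (f : d ⟶ c) (a : Fin k → S.Nm c) (x : S.Nm c) :
    (fun i => S.res f ((Fin.snoc a x : Fin (k + 1) → S.Nm c) i)) =
      (Fin.snoc (fun i => S.res f (a i)) (S.res f x) : Fin (k + 1) → S.Nm d) := by
  funext i
  refine Fin.lastCases ?_ (fun i => ?_) i
  · simp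
  · simp

theorem F_mono {k : ℕ} (φ : setL.BoundedFormula Empty k) {c d : C} (f : d ⟶ c)
    {a : Fin k → S.Nm c} (h : S.F φ c a) : S.F φ d fun i => S.res f (a i) := by
  cases φ with
  | falsum => exact h
  | equal t₁ t₂ => exact S.E_mono f h
  | rel R ts => exact relF_mono f R h
  | imp φ ψ =>
    intro e g hg
    exact F_congr ψ (fun i => S.E_symm (S.res_comp f g _))
      (h e (g ≫ f) (F_congr φ (fun i => S.res_comp f g _) hg))
  | all φ =>
    intro e g x
    refine F_congr φ (fun i => ?_) (h e (g ≫ f) x)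
    refine Fin.lastCases ?_ (fun i => ?_) i
    · simpa using S.E_refl x
    · simpa using S.E_symm (S.res_comp f g _)

/-- at the same object -/
theorem F_imp_id {k : ℕ} {φ ψ : setL.BoundedFormula Empty k} {c : C} {a : Fin k → S.Nm c}
    (h : S.F (φ.imp ψ) c a) (h' : S.F φ c a) : S.F ψ c a :=
  F_congr ψ (fun _ => S.res_id _) (h c (𝟙 c) (F_congr φ (fun _ => S.E_symm (S.res_id _)) h'))

theorem F_all_id {k : ℕ} {φ : setL.BoundedFormula Empty (k + 1)} {c : C} {a : Fin k → S.Nm c}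
    (h : S.F φ.all c a) (x : S.Nm c) : S.F φ c (Fin.snoc a x) := by
  refine F_congr φ (fun i => ?_) (h c (𝟙 c) x)
  refine Fin.lastCases ?_ (fun i => ?_) i
  · simpa using S.E_refl x
  · simpa using S.res_id _

/-- forcing is local for the dense topology -/
theorem F_reg {k : ℕ} (φ : setL.BoundedFormula Empty k) : ∀ {c : C} {a : Fin k → S.Nm c},
    (∀ (d : C) (f : d ⟶ c), ∃ (e : C) (g : e ⟶ d), S.F φ e fun i => S.res (g ≫ f) (a i)) →
      S.F φ c a := by
  induction φ with
  | falsum =>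
    intro c a h
    obtain ⟨e, g, h⟩ := h c (𝟙 c)
    exact h
  | equal t₁ t₂ => exact fun h => S.E_reg h
  | rel R ts => exact fun h => relF_reg R h
  | imp φ ψ h1 h2 =>
    intro c a h d f hf
    refine h2 fun e g => ?_
    obtain ⟨e', g', h'⟩ := h e (g ≫ f)
    refine ⟨e', g', ?_⟩
    have h3 := F_imp_id h' (F_congr φ (fun i => ?_) (F_mono φ (g' ≫ g) hf))
    · refine F_congr ψ (fun i => ?_) h3
      have := S.res_comp f (g' ≫ g) (a i)
      rw [Category.assoc] at this
      exact S.E_symm this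
    · have := S.res_comp f (g' ≫ g) (a i)
      rwa [Category.assoc] at this
  | all φ h1 =>
    intro c a h d f x
    refine h1 fun e g => ?_
    obtain ⟨e', g', h'⟩ := h e (g ≫ f)
    refine ⟨e', g', ?_⟩
    have h3 := F_all_id h' (S.res (g' ≫ g) x)
    refine F_congr φ (fun i => ?_) h3
    refine Fin.lastCases ?_ (fun i => ?_) i
    · simpa using S.E_refl _
    · have := S.res_comp f (g' ≫ g) (a i)
      rw [Category.assoc] at this
      simpa using S.E_symm this

/-! ### connectives -/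

theorem F_bot {k : ℕ} {c : C} {a : Fin k → S.Nm c} : ¬ S.F (⊥ : setL.BoundedFormula Empty k) c a :=
  fun h => h

theorem F_top {k : ℕ} {c : C} {a : Fin k → S.Nm c} : S.F (⊤ : setL.BoundedFormula Empty k) c a :=
  fun _ _ h => h

theorem F_imp {k : ℕ} {φ ψ : setL.BoundedFormula Empty k} {c : C} {a : Fin k → S.Nm c} :
    S.F (φ.imp ψ) c a ↔ ∀ (d : C) (f : d ⟶ c), S.F φ d (fun i => S.res f (a i)) →
      S.F ψ d (fun i => S.res f (a i)) := Iff.rfl

theorem F_all {k : ℕ} {φ : setL.BoundedFormula Empty (k + 1)} {c : C} {a : Fin k → S.Nm c} :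
    S.F φ.all c a ↔ ∀ (d : C) (f : d ⟶ c) (x : S.Nm d),
      S.F φ d (Fin.snoc (fun i => S.res f (a i)) x) := Iff.rfl

theorem F_not {k : ℕ} {φ : setL.BoundedFormula Empty k} {c : C} {a : Fin k → S.Nm c} :
    S.F (∼φ) c a ↔ ∀ (d : C) (f : d ⟶ c), ¬ S.F φ d (fun i => S.res f (a i)) := Iff.rfl

/-- nothing and its negation -/
theorem F_not_self {k : ℕ} {φ : setL.BoundedFormula Empty k} {c : C} {a : Fin k → S.Nm c}
    (h : S.F φ c a) : ¬ S.F (∼φ) c a := fun h' => F_imp_id h' h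

/-- if a formula is not forced, an extension forces its negation -/
theorem exists_F_not {k : ℕ} {φ : setL.BoundedFormula Empty k} {c : C} {a : Fin k → S.Nm c}
    (h : ¬ S.F φ c a) : ∃ (d : C) (f : d ⟶ c), S.F (∼φ) d (fun i => S.res f (a i)) := by
  by_contra h'
  push Not at h'
  apply h
  refine F_reg φ fun d f => ?_
  have h1 := h' d f
  rw [F_not] at h1
  push Not at h1
  obtain ⟨e, g, h2⟩ := h1
  exact ⟨e, g, F_congr φ (fun i => S.res_comp f g _) h2⟩

theorem F_not_not {k : ℕ} {φ : setL.BoundedFormula Empty k} {c : C} {a : Fin k → S.Nm c} :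
    S.F (∼(∼φ)) c a ↔ S.F φ c a := by
  constructor
  · intro h
    by_contra h'
    obtain ⟨d, f, h1⟩ := exists_F_not h'
    exact h d f h1
  · intro h d f h1
    exact F_not_self (F_mono φ f h) h1

/-- decision -/
theorem F_decide {k : ℕ} (φ : setL.BoundedFormula Empty k) (c : C) (a : Fin k → S.Nm c) :
    ∃ (d : C) (f : d ⟶ c), S.F φ d (fun i => S.res f (a i)) ∨
      S.F (∼φ) d (fun i => S.res f (a i)) := by
  by_cases h : S.F φ c a
  · exact ⟨c, 𝟙 c, Or.inl (F_mono φ _ h)⟩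
  · obtain ⟨d, f, h1⟩ := exists_F_not h
    exact ⟨d, f, Or.inr h1⟩

theorem F_and {k : ℕ} {φ ψ : setL.BoundedFormula Empty k} {c : C} {a : Fin k → S.Nm c} :
    S.F (φ ⊓ ψ) c a ↔ S.F φ c a ∧ S.F ψ c a := by
  constructor
  · intro h
    constructor
    · by_contra h'
      obtain ⟨d, f, h1⟩ := exists_F_not h'
      refine h d f fun e g h2 => ?_
      exact absurd (h1 e g h2) (fun h => h)
    · by_contra h'
      obtain ⟨d, f, h1⟩ := exists_F_not h'
      refine h d f fun e g _ => ?_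
      exact F_mono (∼ψ) g h1
  · rintro ⟨h1, h2⟩ d f h3
    exact F_not_self (F_mono ψ f h2) (F_imp_id h3 (F_mono φ f h1))

theorem F_or {k : ℕ} {φ ψ : setL.BoundedFormula Empty k} {c : C} {a : Fin k → S.Nm c} :
    S.F (φ ⊔ ψ) c a ↔ ∀ (d : C) (f : d ⟶ c), ∃ (e : C) (g : e ⟶ d),
      S.F φ e (fun i => S.res (g ≫ f) (a i)) ∨ S.F ψ e (fun i => S.res (g ≫ f) (a i)) := by
  constructor
  · intro h d f
    by_cases h1 : S.F φ d (fun i => S.res f (a i))
    · exact ⟨d, 𝟙 d, Or.inl (by simpa using h1)⟩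
    · obtain ⟨e, g, h2⟩ := exists_F_not h1
      have h3 : S.F (∼φ) e (fun i => S.res (g ≫ f) (a i)) :=
        F_congr (∼φ) (fun i => S.res_comp f g _) h2
      exact ⟨e, g, Or.inr (h e (g ≫ f) h3)⟩
  · intro h d f h1
    refine F_reg ψ fun e g => ?_
    obtain ⟨e', g', h2 | h2⟩ := h e (g ≫ f)
    · refine absurd ?_ (h1 e' (g' ≫ g))
      refine F_congr φ (fun i => ?_) h2
      have := S.res_comp f (g' ≫ g) (a i)
      rw [Category.assoc] at this
      exact S.E_symm this
    · refine ⟨e', g', F_congr ψ (fun i => ?_) h2⟩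
      have := S.res_comp f (g' ≫ g) (a i)
      rw [Category.assoc] at this
      exact S.E_symm this

theorem F_ex {k : ℕ} {φ : setL.BoundedFormula Empty (k + 1)} {c : C} {a : Fin k → S.Nm c} :
    S.F (∃' φ) c a ↔ ∀ (d : C) (f : d ⟶ c), ∃ (e : C) (g : e ⟶ d) (x : S.Nm e),
      S.F φ e (Fin.snoc (fun i => S.res (g ≫ f) (a i)) x) := by
  constructor
  · intro h d f
    have h1 : ¬ S.F (∀' (∼φ)) d (fun i => S.res f (a i)) := h d f
    rw [F_all] at h1
    push Not at h1
    obtain ⟨e, g, x, h2⟩ := h1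
    obtain ⟨e', g', h3⟩ := exists_F_not h2
    rw [F_not_not] at h3
    refine ⟨e', g' ≫ g, S.res g' x, F_congr φ (fun i => ?_) h3⟩
    refine Fin.lastCases ?_ (fun i => ?_) i
    · simpa using S.E_refl _
    · have h4 := S.res_comp g g' (S.res f (a i))
      have h5 := S.res_comp f (g' ≫ g) (a i)
      simpa using S.E_trans h4 h5
  · intro h d f h1
    obtain ⟨e, g, x, h2⟩ := h d f
    have h3 := F_all_id (F_mono (∀' (∼φ)) g h1) x
    refine F_not_self (F_congr φ (fun i => ?_) h2) h3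
    refine Fin.lastCases ?_ (fun i => ?_) i
    · simpa using S.E_refl _
    · simpa using S.E_symm (S.res_comp f g _)

/-- an existential formula forced by a witness -/
theorem F_ex_of {k : ℕ} {φ : setL.BoundedFormula Empty (k + 1)} {c : C} {a : Fin k → S.Nm c}
    (x : S.Nm c) (h : S.F φ c (Fin.snoc a x)) : S.F (∃' φ) c a := by
  rw [F_ex]
  intro d f
  refine ⟨d, 𝟙 d, S.res f x, ?_⟩
  have h1 := F_mono φ f h
  rw [snoc_res] at h1
  simpa using h1

theorem F_iff {k : ℕ} {φ ψ : setL.BoundedFormula Empty k} {c : C} {a : Fin k → S.Nm c} :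
    S.F (φ ⇔ ψ) c a ↔ ∀ (d : C) (f : d ⟶ c), S.F φ d (fun i => S.res f (a i)) ↔
      S.F ψ d (fun i => S.res f (a i)) := by
  show S.F (φ.imp ψ ⊓ ψ.imp φ) c a ↔ _
  rw [F_and, F_imp, F_imp]
  exact ⟨fun h d f => ⟨h.1 d f, h.2 d f⟩, fun h => ⟨fun d f => (h d f).1, fun d f => (h d f).2⟩⟩

/-- atomic formulas -/
theorem F_vmem {k : ℕ} {i j : Fin k} {c : C} {a : Fin k → S.Nm c} :
    S.F (vmem i j) c a ↔ S.M c (a i) (a j) := Iff.rfl

theorem F_veq {k : ℕ} {i j : Fin k} {c : C} {a : Fin k → S.Nm c} :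
    S.F (veq i j) c a ↔ S.E c (a i) (a j) := Iff.rfl

/-! ### the tower -/

/-- requirements: a formula and names for its variables -/
abbrev Rq : Type := Σ k : ℕ, setL.BoundedFormula Empty k × (Fin k → ℕ)

instance countable_formulas : Countable (Σ k : ℕ, setL.BoundedFormula Empty k) := by
  have h := BoundedFormula.card_le (L := setL) (α := Empty)
  rw [← Cardinal.mk_le_aleph0_iff]
  refine h.trans (max_le le_rfl ?_)
  have h1 : ∀ l, Countable (setL.Relations l) := fun l => by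
    have : Subsingleton (setL.Relations l) := ⟨fun a b => by cases a; cases b; rfl⟩
    infer_instance
  have h2 : Countable setL.Symbols := by
    have : ∀ l, Countable (setL.Functions l) := fun l => inferInstance
    exact (inferInstance : Countable ((Σ l, setL.Functions l) ⊕ (Σ l, setL.Relations l)))
  have h3 : setL.card ≤ Cardinal.aleph0 := Cardinal.mk_le_aleph0_iff.2 h2
  simpa using h3

instance countable_Rq : Countable Rq := by
  have : ∀ k, Countable (setL.BoundedFormula Empty k) := fun k =>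
    (sigma_mk_injective (i := k) (β := fun k => setL.BoundedFormula Empty k)).countable
  infer_instance

instance : Nonempty Rq := ⟨⟨0, ⊥, Fin.elim0⟩⟩

variable (S)

/-- a world and names -/
structure St where
  /-- world -/
  c : C
  /-- names -/
  x : ℕ → S.Nm c

variable {S}

/-- one step of the tower: requirement `r` at index `n` -/
def Good (r : Rq) (n : ℕ) (s t : St S) : Prop :=
  (∃ f : t.c ⟶ s.c, ∀ i, i ≠ n → t.x i = S.res f (s.x i)) ∧
  ((∀ i, r.2.2 i < n) → S.F r.2.1 t.c (fun i => t.x (r.2.2 i)) ∨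
    S.F (∼r.2.1) t.c (fun i => t.x (r.2.2 i))) ∧
  ((∀ i, r.2.2 i < n) → ∀ ψ : setL.BoundedFormula Empty (r.1 + 1), r.2.1 = ψ.all →
    S.F (∼r.2.1) t.c (fun i => t.x (r.2.2 i)) →
      S.F (∼ψ) t.c (Fin.snoc (fun i => t.x (r.2.2 i)) (t.x n)))

theorem exists_good (r : Rq) (n : ℕ) (s : St S) : ∃ t, Good r n s t := by
  obtain ⟨k, φ, v⟩ := r
  by_cases hv : ∀ i, v i < n
  swap
  · exact ⟨⟨s.c, fun i => S.res (𝟙 _) (s.x i)⟩, ⟨𝟙 _, fun _ _ => rfl⟩, fun h => absurd h hv,
      fun h => absurd h hv⟩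
  obtain ⟨d, f, h⟩ := F_decide φ s.c (fun i => s.x (v i))
  by_cases hex : ∃ ψ : setL.BoundedFormula Empty (k + 1), φ = ψ.all
  swap
  · refine ⟨⟨d, fun i => S.res f (s.x i)⟩, ⟨f, fun _ _ => rfl⟩, fun _ => h, fun _ ψ hψ =>
      absurd ⟨ψ, hψ⟩ hex⟩
  obtain ⟨ψ, rfl⟩ := hex
  rcases h with h | h
  · refine ⟨⟨d, fun i => S.res f (s.x i)⟩, ⟨f, fun _ _ => rfl⟩, fun _ => Or.inl h,
      fun _ ψ' _ h' => absurd h' (F_not_self h)⟩
  · have h1 : ¬ S.F ψ.all d (fun i => S.res f (s.x (v i))) := fun h' => F_not_self h' h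
    rw [F_all] at h1
    push Not at h1
    obtain ⟨e, g, y, h2⟩ := h1
    obtain ⟨e', g', h3⟩ := exists_F_not h2
    have key : ∀ i, S.E e' (S.res g' (S.res g (S.res f (s.x i)))) (S.res ((g' ≫ g) ≫ f) (s.x i)) :=
      fun i => S.E_trans (S.res_comp g g' _) (S.res_comp f (g' ≫ g) _)
    have hne : ∀ i, v i ≠ n := fun i => (hv i).ne
    refine ⟨⟨e', Function.update (fun i => S.res ((g' ≫ g) ≫ f) (s.x i)) n (S.res g' y)⟩,
      ⟨(g' ≫ g) ≫ f, fun i hi => by simp [Function.update_of_ne hi]⟩, fun _ => Or.inr ?_,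
      fun _ ψ' hψ' _ => ?_⟩
    · refine F_congr (∼ψ.all) (fun i => ?_) (F_mono (∼ψ.all) (g' ≫ g) h)
      simpa [Function.update_of_ne (hne i)] using S.res_comp f (g' ≫ g) _
    · have e1 : ψ = ψ' := by
        have h5 : BoundedFormula.all ψ = BoundedFormula.all ψ' := hψ'
        injection h5
      subst e1
      refine F_congr (∼ψ) (fun i => ?_) h3
      refine Fin.lastCases ?_ (fun i => ?_) i
      · simpa using S.E_refl _
      · simpa [Function.update_of_ne (hne i)] using key (v i)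

/-- enumeration of the requirements -/
noncomputable def enum : ℕ → Rq := Classical.choose (exists_surjective_nat Rq)

theorem enum_surj : Function.Surjective enum := Classical.choose_spec (exists_surjective_nat Rq)

section tower

variable (s0 : St S)

/-- the tower -/
noncomputable def tw : ℕ → St S
  | 0 => s0
  | n + 1 => Classical.choose (exists_good (enum n.unpair.1) n (tw n))

theorem tw_good (n : ℕ) : Good (enum n.unpair.1) n (tw s0 n) (tw s0 (n + 1)) :=
  Classical.choose_spec (exists_good (enum n.unpair.1) n (tw s0 n))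

theorem tw_mono {n m : ℕ} (h : n ≤ m) : ∃ f : (tw s0 m).c ⟶ (tw s0 n).c,
    ∀ i < n, S.E _ ((tw s0 m).x i) (S.res f ((tw s0 n).x i)) := by
  induction m, h using Nat.le_induction with
  | base => exact ⟨𝟙 _, fun i _ => S.E_symm (S.res_id _)⟩
  | succ m hnm ih =>
    obtain ⟨f, hf⟩ := ih
    obtain ⟨g, hg⟩ := (tw_good s0 m).1
    refine ⟨g ≫ f, fun i hi => ?_⟩
    rw [hg i (by omega)]
    exact S.E_trans (S.E_mono g (hf i hi)) (S.res_comp f g _)

theorem F_up {k n m : ℕ} {φ : setL.BoundedFormula Empty k} {v : Fin k → ℕ} (hnm : n ≤ m)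
    (hv : ∀ i, v i < n) (h : S.F φ (tw s0 n).c (fun i => (tw s0 n).x (v i))) :
    S.F φ (tw s0 m).c (fun i => (tw s0 m).x (v i)) := by
  obtain ⟨f, hf⟩ := tw_mono s0 hnm
  exact F_congr φ (fun i => S.E_symm (hf _ (hv i))) (F_mono φ f h)

/-- forced by some stage of the tower -/
def T {k : ℕ} (φ : setL.BoundedFormula Empty k) (v : Fin k → ℕ) : Prop :=
  ∃ n, (∀ i, v i < n) ∧ S.F φ (tw s0 n).c (fun i => (tw s0 n).x (v i))

theorem T_not {k : ℕ} {φ : setL.BoundedFormula Empty k} {v : Fin k → ℕ} (h : T s0 φ v)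
    (h' : T s0 (∼φ) v) : False := by
  obtain ⟨n, hn, h⟩ := h
  obtain ⟨m, hm, h'⟩ := h'
  exact F_not_self (F_up s0 (le_max_left n m) hn h) (F_up s0 (le_max_right n m) hm h')

theorem exists_bound {k : ℕ} (v : Fin k → ℕ) : ∃ B, ∀ i, v i < B :=
  ⟨Finset.univ.sup v + 1, fun i => Nat.lt_succ_of_le (Finset.le_sup (Finset.mem_univ i))⟩

/-- a stage which treats a requirement -/
theorem exists_stage {k : ℕ} (φ : setL.BoundedFormula Empty k) (v : Fin k → ℕ) :
    ∃ n, (∀ i, v i < n) ∧ Good ⟨k, φ, v⟩ n (tw s0 n) (tw s0 (n + 1)) := by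
  obtain ⟨B, hB⟩ := exists_bound v
  obtain ⟨a, ha⟩ := enum_surj ⟨k, φ, v⟩
  refine ⟨Nat.pair a B, fun i => (hB i).trans_le (Nat.right_le_pair a B), ?_⟩
  have h := tw_good s0 (Nat.pair a B)
  rwa [Nat.unpair_pair, ha] at h

theorem T_decide {k : ℕ} (φ : setL.BoundedFormula Empty k) (v : Fin k → ℕ) :
    T s0 φ v ∨ T s0 (∼φ) v := by
  obtain ⟨n, hn, h⟩ := exists_stage s0 φ v
  rcases h.2.1 hn with h | h
  · exact Or.inl ⟨n + 1, fun i => (hn i).trans n.lt_succ_self, h⟩
  · exact Or.inr ⟨n + 1, fun i => (hn i).trans n.lt_succ_self, h⟩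

theorem snoc_comp {k : ℕ} {Y : Type*} (g : ℕ → Y) (v : Fin k → ℕ) (j : ℕ) :
    (fun i => g ((Fin.snoc v j : Fin (k + 1) → ℕ) i)) =
      (Fin.snoc (fun i => g (v i)) (g j) : Fin (k + 1) → Y) := by
  funext i
  refine Fin.lastCases ?_ (fun i => ?_) i <;> simp

theorem T_wit {k : ℕ} {ψ : setL.BoundedFormula Empty (k + 1)} {v : Fin k → ℕ}
    (h : T s0 (∼ψ.all) v) : ∃ j, T s0 (∼ψ) (Fin.snoc v j) := by
  obtain ⟨n, hn, hg⟩ := exists_stage s0 ψ.all v
  have hn' : ∀ i, v i < n + 1 := fun i => (hn i).trans n.lt_succ_self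
  rcases hg.2.1 hn with h1 | h1
  · exact (T_not s0 ⟨n + 1, hn', h1⟩ h).elim
  · refine ⟨n, n + 1, fun i => ?_, ?_⟩
    · refine Fin.lastCases ?_ (fun i => ?_) i
      · simp
      · simpa using hn' i
    · have h2 := hg.2.2 hn ψ rfl h1
      rwa [snoc_comp]

theorem T_imp {k : ℕ} {φ ψ : setL.BoundedFormula Empty k} {v : Fin k → ℕ} :
    T s0 (φ.imp ψ) v ↔ (T s0 φ v → T s0 ψ v) := by
  constructor
  · rintro ⟨n, hn, h⟩ ⟨m, hm, h'⟩
    exact ⟨max n m, fun i => (hn i).trans_le (le_max_left n m),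
      F_imp_id (F_up s0 (le_max_left n m) hn h) (F_up s0 (le_max_right n m) hm h')⟩
  · intro h
    rcases T_decide s0 φ v with h1 | ⟨n, hn, h1⟩
    · obtain ⟨n, hn, h2⟩ := h h1
      exact ⟨n, hn, fun d f _ => F_mono ψ f h2⟩
    · exact ⟨n, hn, fun d f h2 => absurd h2 (h1 d f)⟩

theorem T_all {k : ℕ} {ψ : setL.BoundedFormula Empty (k + 1)} {v : Fin k → ℕ} :
    T s0 ψ.all v ↔ ∀ j, T s0 ψ (Fin.snoc v j) := by
  constructor
  · rintro ⟨n, hn, h⟩ j
    refine ⟨max n (j + 1), fun i => ?_, ?_⟩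
    · refine Fin.lastCases ?_ (fun i => ?_) i
      · simp
      · simpa using Or.inl (hn i)
    · rw [snoc_comp]
      exact F_all_id (F_up s0 (le_max_left n (j + 1)) hn h) _
  · intro h
    rcases T_decide s0 ψ.all v with h1 | h1
    · exact h1
    · obtain ⟨j, hj⟩ := T_wit s0 h1
      exact (T_not s0 (h j) hj).elim

/-- equality of indices -/
def eqv (i j : ℕ) : Prop :=
  ∃ n, i < n ∧ j < n ∧ S.E (tw s0 n).c ((tw s0 n).x i) ((tw s0 n).x j)

/-- membership of indices -/
def memv (i j : ℕ) : Prop :=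
  ∃ n, i < n ∧ j < n ∧ S.M (tw s0 n).c ((tw s0 n).x i) ((tw s0 n).x j)

theorem E_up {n m i j : ℕ} (hnm : n ≤ m) (hi : i < n) (hj : j < n)
    (h : S.E (tw s0 n).c ((tw s0 n).x i) ((tw s0 n).x j)) :
    S.E (tw s0 m).c ((tw s0 m).x i) ((tw s0 m).x j) := by
  obtain ⟨f, hf⟩ := tw_mono s0 hnm
  exact S.E_trans (hf i hi) (S.E_trans (S.E_mono f h) (S.E_symm (hf j hj)))

theorem M_up {n m i j : ℕ} (hnm : n ≤ m) (hi : i < n) (hj : j < n)
    (h : S.M (tw s0 n).c ((tw s0 n).x i) ((tw s0 n).x j)) :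
    S.M (tw s0 m).c ((tw s0 m).x i) ((tw s0 m).x j) := by
  obtain ⟨f, hf⟩ := tw_mono s0 hnm
  exact S.M_congr (S.E_symm (hf i hi)) (S.E_symm (hf j hj)) (S.M_mono f h)

/-- the equivalence relation -/
def stoid : Setoid ℕ where
  r := eqv s0
  iseqv :=
    { refl := fun i => ⟨i + 1, i.lt_succ_self, i.lt_succ_self, S.E_refl _⟩
      symm := fun ⟨n, hi, hj, h⟩ => ⟨n, hj, hi, S.E_symm h⟩
      trans := fun ⟨n, hi, hj, h⟩ ⟨m, hj', hk, h'⟩ => ⟨max n m, hi.trans_le (le_max_left n m),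
        hk.trans_le (le_max_right n m), S.E_trans (E_up s0 (le_max_left n m) hi hj h)
          (E_up s0 (le_max_right n m) hj' hk h')⟩ }

/-- **the model** -/
def Md : Type := Quotient (stoid s0)

/-- element of the model -/
def cl (i : ℕ) : Md s0 := Quotient.mk (stoid s0) i

theorem cl_eq {i j : ℕ} : cl s0 i = cl s0 j ↔ eqv s0 i j := Quotient.eq (r := stoid s0)

theorem cl_surj (a : Md s0) : ∃ i, cl s0 i = a := Quotient.exists_rep a

theorem memv_congr {i j i' j' : ℕ} (hi : eqv s0 i i') (hj : eqv s0 j j') (h : memv s0 i j) :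
    memv s0 i' j' := by
  obtain ⟨n, h1, h2, h3⟩ := hi
  obtain ⟨m, h4, h5, h6⟩ := hj
  obtain ⟨l, h7, h8, h9⟩ := h
  refine ⟨max n (max m l), by omega, by omega, S.M_congr (E_up s0 (le_max_left _ _) h1 h2 h3)
    (E_up s0 ?_ h4 h5 h6) (M_up s0 ?_ h7 h8 h9)⟩ <;> omega

/-- membership of the model -/
def memQ (a b : Md s0) : Prop := ∃ i j, cl s0 i = a ∧ cl s0 j = b ∧ memv s0 i j

theorem memQ_cl {i j : ℕ} : memQ s0 (cl s0 i) (cl s0 j) ↔ memv s0 i j := by
  constructor
  · rintro ⟨i', j', h1, h2, h3⟩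
    exact memv_congr s0 ((cl_eq s0).1 h1) ((cl_eq s0).1 h2) h3
  · exact fun h => ⟨i, j, rfl, rfl, h⟩

/-- interpretation of the relation symbols -/
def relQ : ∀ {l : ℕ}, setL.Relations l → (Fin l → Md s0) → Prop
  | _, SetRel.mem, v => memQ s0 (v 0) (v 1)

instance : setL.Structure (Md s0) where
  funMap f := isEmptyElim f
  RelMap R v := relQ s0 R v

instance : Nonempty (Md s0) := ⟨cl s0 0⟩

theorem realize_tv {k : ℕ} (t : setL.Term (Empty ⊕ Fin k)) (e : Empty → Md s0) (v : Fin k → Md s0) :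
    t.realize (Sum.elim e v) = v (tv t) := by
  cases t with
  | var x =>
    rcases x with x | i
    · exact x.elim
    · rfl
  | func f _ => exact isEmptyElim f

/-- **the truth lemma** -/
theorem truth {k : ℕ} (φ : setL.BoundedFormula Empty k) : ∀ (e : Empty → Md s0) (v : Fin k → ℕ),
    φ.Realize e (fun i => cl s0 (v i)) ↔ T s0 φ v := by
  induction φ with
  | falsum =>
    intro e v
    exact ⟨fun h => h.elim, fun ⟨_, _, h⟩ => h⟩
  | equal t₁ t₂ =>
    intro e v
    show t₁.realize (Sum.elim e fun i => cl s0 (v i)) = t₂.realize (Sum.elim e fun i => cl s0 (v i)) ↔ _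
    rw [realize_tv, realize_tv, cl_eq]
    constructor
    · rintro ⟨n, h1, h2, h3⟩
      obtain ⟨B, hB⟩ := exists_bound v
      exact ⟨max n B, fun i => (hB i).trans_le (le_max_right n B),
        E_up s0 (le_max_left n B) h1 h2 h3⟩
    · rintro ⟨n, hn, h⟩
      exact ⟨n, hn _, hn _, h⟩
  | rel R ts =>
    intro e v
    show relQ s0 R (fun i => (ts i).realize (Sum.elim e fun i => cl s0 (v i))) ↔ _
    cases R with
    | mem =>
      show memQ s0 ((ts 0).realize (Sum.elim e fun i => cl s0 (v i)))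
        ((ts 1).realize (Sum.elim e fun i => cl s0 (v i))) ↔ _
      rw [realize_tv, realize_tv, memQ_cl]
      constructor
      · rintro ⟨n, h1, h2, h3⟩
        obtain ⟨B, hB⟩ := exists_bound v
        exact ⟨max n B, fun i => (hB i).trans_le (le_max_right n B),
          M_up s0 (le_max_left n B) h1 h2 h3⟩
      · rintro ⟨n, hn, h⟩
        exact ⟨n, hn _, hn _, h⟩
  | imp φ ψ h1 h2 =>
    intro e v
    rw [BoundedFormula.realize_imp, h1, h2, T_imp]
  | all φ h1 =>
    intro e v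
    rw [BoundedFormula.realize_all, T_all]
    constructor
    · intro h j
      rw [← h1 e, snoc_comp]
      exact h _
    · intro h a
      obtain ⟨j, rfl⟩ := cl_surj s0 a
      rw [← snoc_comp, h1]
      exact h j

end tower

/-- **a forced theory is satisfiable** -/
theorem sat {T : setL.Theory} (c : C) (hc : Nonempty (S.Nm c))
    (h : ∀ φ ∈ T, S.F φ c (fun i => i.elim0)) : T.IsSatisfiable := by
  obtain ⟨x0⟩ := hc
  let s0 : St S := ⟨c, fun _ => x0⟩
  have : (Md s0) ⊨ T := by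
    refine ⟨fun φ hφ => ?_⟩
    show BoundedFormula.Realize φ _ _
    have h1 := (truth s0 φ default (fun i => i.elim0)).2 ⟨0, fun i => i.elim0, ?_⟩
    · convert h1 using 1
    · exact F_congr φ (fun i => i.elim0) (h φ hφ)
  exact Theory.Model.isSatisfiable (Md s0)

end Sys

end Crest.Agent.R296.Satx566
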