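import Crest.Agent.R296.IfA_378

/-! Row 296 (S0448), block A, leaf A-T: STATEMENTS of the T-lemma (A.7 of note 2054) for the tower
of `IfA_378`.  The letter of a datum `d` over `A β` (`β` odd) is `T.y β (Ltr.base d)`; `p` is any
point of `C = d.C` with `¬ b ∣ p` (for the T-data `b = p * f0`).  Proofs: `T_774.lean`. -/

set_option autoImplicit false

namespace Crest.Agent.R296.TSx774

open Crest.Agent.R296.IfAx378

section
variable {P : Type 1} [Monoid P] {A : Submonoid P}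

/-- `C ⊆ v D` for `C` closed over the submonoid `A` and `v : P`. -/
def DownP (C : Closed A) (v : P) : Prop := ∃ s ∈ C.S, v ∣ (s : P)

/-- `z ∈ C` for `C` closed over the submonoid `A` and `z : P`. -/
def MemP (C : Closed A) (z : P) : Prop :=
  (∀ s ∈ C.S, (s : P) ∣ z) ∧ ∀ (s r : A) (x : P), C.R s r → z = (r : P) * x → z = (s : P) * x

/-- `f ~_C g` for `C` closed over the submonoid `A` and `f g : P`. -/
def SimP (C : Closed A) (f g : P) : Prop := ∃ x y : A, f * (x : P) = g * (y : P) ∧ C.R x y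

end

section
variable {P : Type 1} [Monoid P] (T : Tower P)

/-- the letter of the datum `d` over `A β` -/
noncomputable def eta (β : Ordinal.{0}) (d : Datum (T.A β)) : P := (T.y β (Ltr.base d) : P)

/-- (T3): `η a = b`, `η ∈ C`, `η P ∩ P_β ⊆ b P`. -/
def StT3 : Prop := ∀ (β : Ordinal.{0}), β % 2 = 1 → ∀ d : Datum (T.A β),
  eta T β d * (d.a : P) = (d.b : P) ∧ MemP d.C (eta T β d) ∧ eta T β d ∈ T.A (Order.succ β) ∧
  ∀ e : P, eta T β d * e ∈ T.A β → (d.b : P) ∣ eta T β d * e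

/-- (T1): if `p, η x ∈ u P` and `x ∉ a P` then `C ⊆ u D`. -/
def StT1 : Prop := ∀ (β : Ordinal.{0}), β % 2 = 1 → ∀ (d : Datum (T.A β)) (p : T.A β),
  ¬ (d.b : P) ∣ (p : P) →
  ∀ u x : P, u ∣ (p : P) → u ∣ eta T β d * x → ¬ (d.a : P) ∣ x → DownP d.C u

/-- (T1'): for `u ∈ P_β` no hypothesis on `p` is needed. -/
def StT1' : Prop := ∀ (β : Ordinal.{0}), β % 2 = 1 → ∀ (d : Datum (T.A β)) (u : T.A β) (x : P),
  (u : P) ∣ eta T β d * x → ¬ (d.a : P) ∣ x → DownP d.C (u : P)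

/-- (T2): `s p = s' p'`, `s η z = s' η' z'`, `z ∉ a P`, `z' ∉ a' P` imply `η = η'` (same stage, same
datum), `z = z'` and `s ~_C s'`. -/
def StT2 : Prop := ∀ (β β' : Ordinal.{0}), β % 2 = 1 → β' % 2 = 1 →
  ∀ (d : Datum (T.A β)) (d' : Datum (T.A β')) (p : T.A β) (p' : T.A β'),
  d.C.Mem p → ¬ (d.b : P) ∣ (p : P) → d'.C.Mem p' → ¬ (d'.b : P) ∣ (p' : P) →
  ∀ s s' z z' : P, s * p = s' * p' → s * eta T β d * z = s' * eta T β' d' * z' →
  ¬ (d.a : P) ∣ z → ¬ (d'.a : P) ∣ z' →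
  (⟨β, d⟩ : Σ β, Datum (T.A β)) = ⟨β', d'⟩ ∧ z = z' ∧ SimP d.C s s'

end

end Crest.Agent.R296.TSx774
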