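import Mathlib

/-! Row 296 (S0448), block A, leaf A-T: the T-lemma (A.7 of note 2054), abstractly.

Everything happens inside one ambient monoid `P`; stages are submonoids. A stage step is described
by its *facts* (`Step1`: new words over an act, `Step2`: new letters `y i` with `y i * a i = b i`,
`y i` in the closed set `R i`). -/

set_option autoImplicit false

namespace Crest.Agent.R296.Tx774

universe u v

variable {P : Type u} [Monoid P]

/-- Good monoid (left cancellative, 1 is the only unit, right LCM). -/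
structure GoodM (P : Type u) [Monoid P] : Prop where
  canc : ∀ f g h : P, f * g = f * h → g = h
  unit : ∀ f g : P, f * g = 1 → f = 1 ∧ g = 1
  lcm : ∀ f g x : P, f ∣ x → g ∣ x → ∃ h, f ∣ h ∧ g ∣ h ∧ ∀ z, f ∣ z → g ∣ z → h ∣ z

/-- closed set `(S, R)` over the submonoid `A`; `S = {s | R s s}`. -/
structure IsCl (A : Submonoid P) (R : P → P → Prop) : Prop where
  mem : ∀ s r, R s r → s ∈ A ∧ r ∈ A
  one : R 1 1
  symm : ∀ s r, R s r → R r s
  trans : ∀ s r q, R s r → R r q → R s q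
  up : ∀ s t, s ∈ A → R (s * t) (s * t) → R s s
  dir : ∀ s r, R s s → R r r → ∃ m, R m m ∧ s ∣ m ∧ r ∣ m
  restr : ∀ s r t, R s r → R (r * t) (r * t) → R (s * t) (r * t)
  ext : ∀ s r t, s ∈ A → r ∈ A → R (s * t) (r * t) → R s r

theorem IsCl.refl_left {A : Submonoid P} {R : P → P → Prop} (h : IsCl A R) {s r : P} (hs : R s r) :
    R s s := h.trans _ _ _ hs (h.symm _ _ hs)
theorem IsCl.refl_right {A : Submonoid P} {R : P → P → Prop} (h : IsCl A R) {s r : P} (hs : R s r) :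
    R r r := h.trans _ _ _ (h.symm _ _ hs) hs

/-- `C ⊆ v D` in `P`: some member of the filter is below `v`. -/
def FP (R : P → P → Prop) (v : P) : Prop := ∃ k, R k k ∧ v ∣ k

/-- `z ∈ C`. -/
def InCl (R : P → P → Prop) (z : P) : Prop := ∀ s r, R s r → ∃ t, z = s * t ∧ z = r * t

/-- `f ~_C g`. -/
def RelC (R : P → P → Prop) (f g : P) : Prop := ∃ x y, R x y ∧ f * x = g * y

theorem FP.mono {R : P → P → Prop} {v w : P} (h : FP R w) (hvw : v ∣ w) : FP R v := by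
  obtain ⟨k, hk, hw⟩ := h
  exact ⟨k, hk, hvw.trans hw⟩

theorem InCl.dvd {R : P → P → Prop} {z k : P} (h : InCl R z) (hk : R k k) : k ∣ z := by
  obtain ⟨t, ht, _⟩ := h k k hk
  exact ⟨t, ht⟩

theorem InCl.dvd_FP {R : P → P → Prop} {z v : P} (h : InCl R z) (hv : FP R v) : v ∣ z := by
  obtain ⟨k, hk, hvk⟩ := hv
  exact hvk.trans (h.dvd hk)

/-- stage submonoids: left unitary and closed under LCM. -/
structure Stage (A : Submonoid P) : Prop where
  lu : ∀ x t, x ∈ A → x * t ∈ A → t ∈ A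
  lcm : ∀ f g c : P, f ∈ A → g ∈ A → f ∣ c → g ∣ c →
    ∃ h ∈ A, f ∣ h ∧ g ∣ h ∧ ∀ z, f ∣ z → g ∣ z → h ∣ z

/-- facts of an (S1) step: `d = (s0, t1, ..., tn)`, `hd d = s0`. -/
structure Step1 (A B : Submonoid P) where
  hd : P → P
  le : A ≤ B
  hdA : ∀ d ∈ B, d ∉ A → hd d ∈ A ∧ hd d ∣ d
  hdmul : ∀ s ∈ A, ∀ d ∈ B, d ∉ A → hd (s * d) = s * hd d
  abs : ∀ d ∈ B, d ∉ A → ∀ x ∈ B, d * x ∉ A ∧ hd (d * x) = hd d

/-- facts of an (S2) step: all letters `y i`, `i : I`, at once. -/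
structure Step2 (A B : Submonoid P) (I : Type v) where
  R : I → P → P → Prop
  a : I → P
  b : I → P
  y : I → P
  len : P → ℕ
  le : A ≤ B
  cl : ∀ i, IsCl A (R i)
  aA : ∀ i, a i ∈ A
  bA : ∀ i, b i ∈ A
  yB : ∀ i, y i ∈ B
  a1 : ∀ i, a i ≠ 1
  bin : ∀ i, InCl (R i) (b i)
  bnot : ∀ i, ¬ R i (b i) (b i)
  ya : ∀ i, y i * a i = b i
  yin : ∀ i, InCl (R i) (y i)
  nf : ∀ d ∈ B, d ∉ A → ∃ i m r t w, m ∈ A ∧ R i r r ∧ y i = r * t ∧ w ∈ B ∧ ¬ a i ∣ w ∧
    d = m * t * w ∧ len w < len d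
  new : ∀ i m r t w, m ∈ A → R i r r → y i = r * t → w ∈ B → ¬ a i ∣ w → m * t * w ∉ A
  uq : ∀ i m r t w i' m' r' t' w', m ∈ A → m' ∈ A → R i r r → R i' r' r' → y i = r * t →
    y i' = r' * t' → w ∈ B → w' ∈ B → ¬ a i ∣ w → ¬ a i' ∣ w' → m * t * w = m' * t' * w' →
    i = i' ∧ w = w' ∧ ∃ x x', m * x = m' * x' ∧ R i (r * x) (r' * x')

/-- one stage version of T1 at the stage `D`. -/
def T1At (D : Submonoid P) (R : P → P → Prop) (η p a : P) : Prop :=
  ∀ u ∈ D, ∀ x ∈ D, u ∣ p → u ∣ η * x → ¬ a ∣ x → FP R u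

/-- one stage version of T1' at the stage `D` (`u` in the old stage `A`). -/
def T1oAt (A D : Submonoid P) (R : P → P → Prop) (η a : P) : Prop :=
  ∀ u ∈ A, ∀ x ∈ D, u ∣ η * x → ¬ a ∣ x → FP R u

/-- one stage version of the last part of T2. -/
def T2At (D : Submonoid P) (ζ η' a a' : P) (Concl : Prop) : Prop :=
  ∀ z ∈ D, ∀ z' ∈ D, ¬ a ∣ z → ¬ a' ∣ z' → ζ * z = η' * z' → z = z' ∧ Concl

/-- descent: new times anything is old implies that anything is old. -/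
def Desc (A B : Submonoid P) : Prop := ∀ s ∈ B, s ∉ A → ∀ t ∈ B, s * t ∈ A → t ∈ A

namespace Step1

variable {A B : Submonoid P} (S : Step1 A B) (G : GoodM P) (hA : Stage A) (hB : Stage B)

include S in
theorem desc : Desc A B := fun s hs hsA t ht h => absurd h (S.abs s hs hsA t ht).1

include S G hA in
theorem dvd_hd {s d : P} (hs : s ∈ A) (hd : d ∈ B) (hdA : d ∉ A) (hB : Stage B) (h : s ∣ d) :
    s ∣ S.hd d := by
  obtain ⟨f, rfl⟩ := h
  have hfB : f ∈ B := hB.lu s f (S.le hs) hd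
  have hfA : f ∉ A := fun h' => hdA (A.mul_mem hs h')
  rw [S.hdmul s hs f hfB hfA]
  exact Dvd.intro _ rfl

include S G hA hB in
theorem T1o_step {A₀ : Submonoid P} (hA₀ : A₀ ≤ A) {R : P → P → Prop} {η a : P} (hη : η ∈ A)
    (h : T1oAt A₀ A R η a) : T1oAt A₀ B R η a := by
  intro u hu x hx hux hax
  by_cases hxA : x ∈ A
  · exact h u hu x hxA hux hax
  have hηx : η * x ∈ B := B.mul_mem (S.le hη) hx
  have hηxA : η * x ∉ A := fun h' => hxA (hA.lu η x hη h')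
  have h1 := S.dvd_hd G hA (hA₀ hu) hηx hηxA hB hux
  rw [S.hdmul η hη x hx hxA] at h1
  obtain ⟨hhA, hhd⟩ := S.hdA x hx hxA
  exact h u hu _ hhA h1 (fun h' => hax (h'.trans hhd))

include S G hA hB in
theorem T1_step {R : P → P → Prop} {η p a : P} (hη : η ∈ A) (hp : p ∈ A)
    (h : T1At A R η p a) : T1At B R η p a := by
  intro u hu x hx hup hux hax
  by_cases huA : u ∈ A
  · by_cases hxA : x ∈ A
    · exact h u huA x hxA hup hux hax
    have hηx : η * x ∈ B := B.mul_mem (S.le hη) hx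
    have hηxA : η * x ∉ A := fun h' => hxA (hA.lu η x hη h')
    have h1 := S.dvd_hd G hA huA hηx hηxA hB hux
    rw [S.hdmul η hη x hx hxA] at h1
    obtain ⟨hhA, hhd⟩ := S.hdA x hx hxA
    exact h u huA _ hhA hup h1 (fun h' => hax (h'.trans hhd))
  · exfalso
    obtain ⟨e, rfl⟩ := hup
    exact (S.abs u hu huA e (hB.lu u e hu (S.le hp))).1 hp

include S G hA hB in
theorem T2_step {ζ η' a a' : P} {Concl : Prop} (hζ : ζ ∈ A) (hη' : η' ∈ A)
    (h : T2At A ζ η' a a' Concl) : T2At B ζ η' a a' Concl := by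
  intro z hz z' hz' haz haz' he
  by_cases hzA : z ∈ A
  · have : z' ∈ A := by
      by_contra hz'A
      exact hz'A (hA.lu η' z' hη' (he ▸ A.mul_mem hζ hzA))
    exact h z hzA z' this haz haz' he
  have hz'A : z' ∉ A := fun h' => hzA (hA.lu ζ z hζ (he ▸ A.mul_mem hη' h'))
  obtain ⟨hh, τ, hτ⟩ := S.hdA z hz hzA
  obtain ⟨hh', τ', hτ'⟩ := S.hdA z' hz' hz'A
  have e1 : ζ * S.hd z = η' * S.hd z' := by
    rw [← S.hdmul ζ hζ z hz hzA, ← S.hdmul η' hη' z' hz' hz'A, he]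
  obtain ⟨e2, hc⟩ := h _ hh _ hh' (fun h' => haz (h'.trans ⟨τ, hτ⟩))
    (fun h' => haz' (h'.trans ⟨τ', hτ'⟩)) e1
  refine ⟨?_, hc⟩
  have : ζ * S.hd z * τ = ζ * S.hd z * τ' := by
    rw [mul_assoc, ← hτ, he, e1, mul_assoc, ← hτ']
  have := G.canc _ _ _ this
  rw [hτ, hτ', e2, this]

end Step1

namespace Step2

variable {A B : Submonoid P} {I : Type v} (S : Step2 A B I) (G : GoodM P) (hA : Stage A)
  (hB : Stage B)

include S G hA hB in
theorem b_part {i : I} {r t : P} (hr : S.R i r r) (ht : S.y i = r * t) :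
    t ∈ B ∧ ∃ β ∈ A, S.b i = r * β ∧ t * S.a i = β := by
  have hrA : r ∈ A := ((S.cl i).mem _ _ hr).1
  refine ⟨hB.lu r t (S.le hrA) (ht ▸ S.yB i), ?_⟩
  obtain ⟨β, hβ, _⟩ := S.bin i r r hr
  refine ⟨β, hA.lu r β hrA (hβ ▸ S.bA i), hβ, ?_⟩
  apply G.canc r
  rw [← mul_assoc, ← ht, S.ya, hβ]

include S G hA hB in
/-- fact (ii) -/
theorem fact_ii {i : I} {m r t w e : P} (hm : m ∈ A) (hr : S.R i r r) (ht : S.y i = r * t)
    (hw : w ∈ B) (haw : ¬ S.a i ∣ w) (h : m * t * w * e ∈ A) :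
    ∃ g, w * e = S.a i * g ∧ m * t * w * e = m * (t * S.a i) * g := by
  obtain ⟨htB, -⟩ := S.b_part G hA hB hr ht
  have hmtw : m * t * w ∈ B := B.mul_mem (B.mul_mem (S.le hm) htB) hw
  have heB : e ∈ B := hB.lu _ e hmtw (S.le h)
  by_cases hd : S.a i ∣ w * e
  · obtain ⟨g, hg⟩ := hd
    refine ⟨g, hg, ?_⟩
    calc m * t * w * e = m * t * (w * e) := by simp only [mul_assoc]
      _ = m * (t * S.a i) * g := by rw [hg]; simp only [mul_assoc]
  · exact absurd (by simpa only [mul_assoc] using h)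
      (S.new i m r t (w * e) hm hr ht (B.mul_mem hw heB) hd)

include S G hA hB in
/-- fact (i) -/
theorem fact_i {i : I} {m r t w s : P} (hm : m ∈ A) (hr : S.R i r r) (ht : S.y i = r * t)
    (hw : w ∈ B) (haw : ¬ S.a i ∣ w) (hs : s ∈ A) (h : s ∣ m * t * w) :
    ∃ x x1, m * x = s * x1 ∧ S.R i (r * x) (r * x) := by
  obtain ⟨htB, -⟩ := S.b_part G hA hB hr ht
  have hmtw : m * t * w ∈ B := B.mul_mem (B.mul_mem (S.le hm) htB) hw
  have hnA : m * t * w ∉ A := S.new i m r t w hm hr ht hw haw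
  obtain ⟨f, hf⟩ := h
  have hfB : f ∈ B := hB.lu s f (S.le hs) (hf ▸ hmtw)
  have hfA : f ∉ A := fun h' => hnA (hf ▸ A.mul_mem hs h')
  obtain ⟨i', m', r', t', w', hm', hr', ht', hw', haw', hfe, -⟩ := S.nf f hfB hfA
  obtain ⟨rfl, -, x, x', hx, hR⟩ := S.uq i m r t w i' (s * m') r' t' w' hm (A.mul_mem hs hm') hr hr'
    ht ht' hw hw' haw haw' (by rw [hf, hfe]; simp only [mul_assoc])
  exact ⟨x, m' * x', by rw [hx, mul_assoc], (S.cl i).refl_left hR⟩

include S G hA hB in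
theorem fact_i' {i : I} {m r t w s : P} (hm : m ∈ A) (hr : S.R i r r) (ht : S.y i = r * t)
    (hw : w ∈ B) (haw : ¬ S.a i ∣ w) (hs : s ∈ A) (h : s ∣ m * t * w) : s ∣ m * t := by
  obtain ⟨x, x1, hx, hR⟩ := S.fact_i G hA hB hm hr ht hw haw hs h
  obtain ⟨s0, hs0, -⟩ := S.yin i _ _ hR
  have : t = x * s0 := by
    apply G.canc r
    rw [← ht, hs0, mul_assoc]
  refine ⟨x1 * s0, ?_⟩
  rw [this, ← mul_assoc, hx, mul_assoc]

include S G hA hB in
/-- (c): for `s ∈ A` and `w ∈ B` not below `s`, the LCM of `s` and `w` lies in `A`. -/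
theorem lcmA : ∀ n : ℕ, ∀ w ∈ B, S.len w ≤ n → ∀ s ∈ A, ¬ s ∣ w → ∀ c, s ∣ c → w ∣ c →
    ∃ h ∈ A, s ∣ h ∧ w ∣ h ∧ ∀ z, s ∣ z → w ∣ z → h ∣ z := by
  intro n
  induction n with
  | zero =>
    intro w hw hn s hs hsw c hsc hwc
    by_cases hwA : w ∈ A
    · exact hA.lcm s w c hs hwA hsc hwc
    · obtain ⟨i, m, r, t, w', -, -, -, -, -, -, hlen⟩ := S.nf w hw hwA
      omega
  | succ n ih =>
    intro w hw hn s hs hsw c hsc hwc
    by_cases hwA : w ∈ A
    · exact hA.lcm s w c hs hwA hsc hwc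
    obtain ⟨i, m, r, t, w', hm, hr, ht, hw', haw', hwe, hlen⟩ := S.nf w hw hwA
    obtain ⟨htB, β, hβA, hbβ, hβ⟩ := S.b_part G hA hB hr ht
    obtain ⟨c0, hc0B, hsc0, hwc0, hmin⟩ := hB.lcm s w c (S.le hs) hw hsc hwc
    obtain ⟨e, he⟩ := hwc0
    have heB : e ∈ B := hB.lu w e hw (he ▸ hc0B)
    by_cases hd : S.a i ∣ w' * e
    · obtain ⟨h1, hh1A, hah1, hwh1, hmin1⟩ := ih w' hw' (by omega) (S.a i) (S.aA i) haw' (w' * e) hd
        (Dvd.intro _ rfl)
      obtain ⟨z1, hz1⟩ := hah1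
      have hz1A : z1 ∈ A := hA.lu (S.a i) z1 (S.aA i) (hz1 ▸ hh1A)
      obtain ⟨e1, he1⟩ := hwh1
      obtain ⟨f, hf⟩ := hmin1 (w' * e) hd (Dvd.intro _ rfl)
      have hqA : m * β * z1 ∈ A := A.mul_mem (A.mul_mem hm hβA) hz1A
      have hwq : w ∣ m * β * z1 := by
        refine ⟨e1, ?_⟩
        calc m * β * z1 = m * t * (S.a i * z1) := by rw [← hβ]; simp only [mul_assoc]
          _ = w * e1 := by rw [← hz1, he1, hwe]; simp only [mul_assoc]
      have hqc : m * β * z1 ∣ c0 := by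
        refine ⟨f, ?_⟩
        calc c0 = m * t * (w' * e) := by rw [he, hwe]; simp only [mul_assoc]
          _ = m * β * z1 * f := by rw [hf, hz1, ← hβ]; simp only [mul_assoc]
      obtain ⟨h, hhA, hsh, hqh, hmin2⟩ := hA.lcm s (m * β * z1) c0 hs hqA hsc0 hqc
      exact ⟨h, hhA, hsh, hwq.trans hqh, fun z hz hz' => hmin2 z hz (hqc.trans (hmin z hz hz'))⟩
    · exfalso
      apply hsw
      have h1 : s ∣ m * t * (w' * e) := by
        have : c0 = m * t * (w' * e) := by rw [he, hwe]; simp only [mul_assoc]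
        rw [← this]; exact hsc0
      have h2 := S.fact_i' G hA hB hm hr ht (B.mul_mem hw' heB) hd hs h1
      rw [hwe]
      exact h2.mul_right w'

include S G hA hB in
/-- core of the step: `u = m t w` new, `u ∣ p`, `u ∣ q`, both `p` and `q` of the reducible kind:
there is `u1 ∈ A` with `u ∣ u1`, `u1 ∣ p`, `u1 ∣ q`. -/
theorem shorten {i : I} {m r t w e e' : P} (hm : m ∈ A) (hr : S.R i r r) (ht : S.y i = r * t)
    (hw : w ∈ B) (haw : ¬ S.a i ∣ w) (h1 : S.a i ∣ w * e) (h2 : S.a i ∣ w * e') :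
    ∃ u1 ∈ A, m * t * w ∣ u1 ∧ u1 ∣ m * t * w * e ∧ u1 ∣ m * t * w * e' := by
  obtain ⟨htB, β, hβA, hbβ, hβ⟩ := S.b_part G hA hB hr ht
  obtain ⟨h, hhA, hah, hwh, hmin⟩ := S.lcmA G hA hB _ w hw le_rfl (S.a i) (S.aA i) haw (w * e) h1
    (Dvd.intro _ rfl)
  obtain ⟨z1, hz1⟩ := hah
  have hz1A : z1 ∈ A := hA.lu (S.a i) z1 (S.aA i) (hz1 ▸ hhA)
  have key : ∀ e, h ∣ w * e → m * β * z1 ∣ m * t * w * e := by
    rintro e ⟨f, hf⟩
    refine ⟨f, ?_⟩
    calc m * t * w * e = m * t * (w * e) := by simp only [mul_assoc]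
      _ = m * β * z1 * f := by rw [hf, hz1, ← hβ]; simp only [mul_assoc]
  refine ⟨m * β * z1, A.mul_mem (A.mul_mem hm hβA) hz1A, ?_, key e (hmin _ h1 (Dvd.intro _ rfl)),
    key e' (hmin _ h2 (Dvd.intro _ rfl))⟩
  obtain ⟨e1, he1⟩ := hwh
  refine ⟨e1, ?_⟩
  calc m * β * z1 = m * t * (S.a i * z1) := by rw [← hβ]; simp only [mul_assoc]
    _ = m * t * w * e1 := by rw [← hz1, he1]; simp only [mul_assoc]

include S G hA hB in
/-- `u = m t w` new, `u * e ∈ A`: the reducible case. -/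
theorem red {i : I} {m r t w e : P} (hm : m ∈ A) (hr : S.R i r r) (ht : S.y i = r * t)
    (hw : w ∈ B) (haw : ¬ S.a i ∣ w) (h : m * t * w * e ∈ A) : S.a i ∣ w * e := by
  obtain ⟨g, hg, -⟩ := S.fact_ii G hA hB hm hr ht hw haw h
  exact ⟨g, hg⟩

include S G hA hB in
/-- T1 at the stage where the letter is born. -/
theorem T1_base (i : I) {p : P} (hp : p ∈ A) (hbp : ¬ S.b i ∣ p) :
    T1At B (S.R i) (S.y i) p (S.a i) := by
  have hone : S.R i 1 1 := (S.cl i).one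
  have caseA : ∀ u ∈ A, ∀ x ∈ B, u ∣ S.y i * x → ¬ S.a i ∣ x → FP (S.R i) u := by
    intro u huA x hxB hux hax
    obtain ⟨X, X1, hX, hR⟩ := S.fact_i G hA hB (i := i) (m := 1) (r := 1) (t := S.y i) (w := x)
      A.one_mem hone (by rw [one_mul]) hxB hax huA (by rwa [one_mul])
    rw [one_mul] at hX hR
    exact ⟨X, hR, X1, hX⟩
  intro u huB x hxB hup hux hax
  by_cases huA : u ∈ A
  · exact caseA u huA x hxB hux hax
  obtain ⟨i', m, r, t, w, hm, hr, ht, hw, haw, rfl, -⟩ := S.nf u huB huA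
  obtain ⟨e', he'⟩ := hup
  obtain ⟨e, he⟩ := hux
  have h2 : S.a i' ∣ w * e' := S.red G hA hB hm hr ht hw haw (he' ▸ hp)
  by_cases h1 : S.a i' ∣ w * e
  · obtain ⟨u1, hu1A, huu1, hu1e, hu1e'⟩ := S.shorten G hA hB hm hr ht hw haw h1 h2
    exact (caseA u1 hu1A x hxB (he ▸ hu1e) hax).mono huu1
  · exfalso
    have heB : e ∈ B := hB.lu _ e huB (he ▸ B.mul_mem (S.yB i) hxB)
    obtain ⟨rfl, -, X, X', hX, hR⟩ := S.uq i' m r t (w * e) i 1 1 (S.y i) x hm A.one_mem hr hone ht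
      (by rw [one_mul]) (B.mul_mem hw heB) hxB h1 hax
      (by rw [one_mul, he]; simp only [mul_assoc])
    rw [one_mul] at hX hR
    obtain ⟨z, hz1, hz2⟩ := S.bin i' _ _ hR
    obtain ⟨htB, β, hβA, hbβ, hβ⟩ := S.b_part G hA hB hr ht
    have hβX : β = X * z := G.canc r _ _ (by rw [← hbβ, hz1, mul_assoc])
    have hmb : m * β = S.b i' := by rw [hβX, ← mul_assoc, hX, ← hz2]
    obtain ⟨g', hg'⟩ := h2
    apply hbp
    refine ⟨g', ?_⟩
    calc p = m * t * (w * e') := by rw [he']; simp only [mul_assoc]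
      _ = S.b i' * g' := by rw [hg', ← hmb, ← hβ]; simp only [mul_assoc]

include S G hA hB in
/-- T1 passes a later (S2) step. -/
theorem T1_step {R : P → P → Prop} {η p a : P} (hη : η ∈ A) (hp : p ∈ A) (hηp : ¬ η ∣ p)
    (h : T1At A R η p a) : T1At B R η p a := by
  have caseA : ∀ u ∈ A, ∀ x ∈ B, u ∣ p → u ∣ η * x → ¬ a ∣ x → FP R u := by
    intro u huA x hxB hup hux hax
    by_cases hxA : x ∈ A
    · exact h u huA x hxA hup hux hax
    obtain ⟨i, m, r, t, w, hm, hr, ht, hw, haw, rfl, -⟩ := S.nf x hxB hxA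
    obtain ⟨X, X1, hX, hR⟩ := S.fact_i G hA hB (m := η * m) (A.mul_mem hη hm) hr ht hw haw huA
      (by simpa only [mul_assoc] using hux)
    obtain ⟨z, hz1, -⟩ := S.yin i _ _ hR
    have htz : t = X * z := G.canc r _ _ (by rw [← ht, hz1, mul_assoc])
    have hXA : X ∈ A := by
      have hrA := ((S.cl i).mem _ _ hr).1
      exact hA.lu r X hrA ((S.cl i).mem _ _ hR).1
    refine h u huA (m * X) (A.mul_mem hm hXA) hup ⟨X1, by rw [← mul_assoc, hX]⟩ ?_
    rintro ⟨g, hg⟩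
    apply hax
    refine ⟨g * z * w, ?_⟩
    rw [htz, ← mul_assoc m, hg]
    simp only [mul_assoc]
  intro u huB x hxB hup hux hax
  by_cases huA : u ∈ A
  · exact caseA u huA x hxB hup hux hax
  obtain ⟨i, m, r, t, w, hm, hr, ht, hw, haw, rfl, -⟩ := S.nf u huB huA
  obtain ⟨e', he'⟩ := hup
  obtain ⟨e, he⟩ := hux
  have h2 : S.a i ∣ w * e' := S.red G hA hB hm hr ht hw haw (he' ▸ hp)
  by_cases h1 : S.a i ∣ w * e
  · obtain ⟨u1, hu1A, huu1, hu1e, hu1e'⟩ := S.shorten G hA hB hm hr ht hw haw h1 h2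
    exact (caseA u1 hu1A x hxB (he' ▸ hu1e') (he ▸ hu1e) hax).mono huu1
  · exfalso
    have heB : e ∈ B := hB.lu _ e huB (he ▸ B.mul_mem (S.le hη) hxB)
    have hnew : m * t * (w * e) ∉ A := S.new i m r t (w * e) hm hr ht (B.mul_mem hw heB) h1
    have hηx : η * x = m * t * (w * e) := by rw [he]; simp only [mul_assoc]
    have hxA : x ∉ A := fun hx => hnew (hηx ▸ A.mul_mem hη hx)
    obtain ⟨i', m', r', t', w', hm', hr', ht', hw', haw', rfl, -⟩ := S.nf x hxB hxA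
    obtain ⟨rfl, -, X, X', hX, hR⟩ := S.uq i m r t (w * e) i' (η * m') r' t' w' hm
      (A.mul_mem hη hm') hr hr' ht ht' (B.mul_mem hw heB) hw' h1 haw'
      (by rw [← hηx]; simp only [mul_assoc])
    obtain ⟨z, hz1, hz2⟩ := S.bin i _ _ hR
    obtain ⟨htB, β, hβA, hbβ, hβ⟩ := S.b_part G hA hB hr ht
    have hβX : β = X * z := G.canc r _ _ (by rw [← hbβ, hz1, mul_assoc])
    obtain ⟨g', hg'⟩ := h2
    apply hηp
    refine ⟨m' * X' * z * g', ?_⟩
    calc p = m * t * (w * e') := by rw [he']; simp only [mul_assoc]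
      _ = m * X * z * g' := by rw [hg', ← mul_assoc, mul_assoc m t, hβ, hβX]; simp only [mul_assoc]
      _ = η * (m' * X' * z * g') := by rw [hX]; simp only [mul_assoc]

include S G hA hB in
/-- T1' at the stage where the letter is born. -/
theorem T1o_base (i : I) : T1oAt A B (S.R i) (S.y i) (S.a i) := by
  intro u huA x hxB hux hax
  obtain ⟨X, X1, hX, hR⟩ := S.fact_i G hA hB (i := i) (m := 1) (r := 1) (t := S.y i) (w := x)
    A.one_mem (S.cl i).one (by rw [one_mul]) hxB hax huA (by rwa [one_mul])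
  rw [one_mul] at hX hR
  exact ⟨X, hR, X1, hX⟩

include S G hA hB in
theorem T1o_step {A₀ : Submonoid P} (hA₀ : A₀ ≤ A) {R : P → P → Prop} {η a : P} (hη : η ∈ A)
    (h : T1oAt A₀ A R η a) : T1oAt A₀ B R η a := by
  intro u hu x hxB hux hax
  by_cases hxA : x ∈ A
  · exact h u hu x hxA hux hax
  obtain ⟨i, m, r, t, w, hm, hr, ht, hw, haw, rfl, -⟩ := S.nf x hxB hxA
  obtain ⟨X, X1, hX, hR⟩ := S.fact_i G hA hB (m := η * m) (A.mul_mem hη hm) hr ht hw haw (hA₀ hu)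
    (by simpa only [mul_assoc] using hux)
  obtain ⟨z, hz1, -⟩ := S.yin i _ _ hR
  have htz : t = X * z := G.canc r _ _ (by rw [← ht, hz1, mul_assoc])
  have hXA : X ∈ A := by
    have hrA := ((S.cl i).mem _ _ hr).1
    exact hA.lu r X hrA ((S.cl i).mem _ _ hR).1
  refine h u hu (m * X) (A.mul_mem hm hXA) ⟨X1, by rw [← mul_assoc, hX]⟩ ?_
  rintro ⟨g, hg⟩
  apply hax
  refine ⟨g * z * w, ?_⟩
  rw [htz, ← mul_assoc m, hg]
  simp only [mul_assoc]

include S G hA hB in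
/-- (iv) -/
theorem desc : Desc A B := by
  have key : ∀ n : ℕ, ∀ s ∈ B, S.len s ≤ n → s ∉ A → ∀ t ∈ B, s * t ∈ A → t ∈ A := by
    intro n
    induction n with
    | zero =>
      intro s hs hn hsA
      obtain ⟨i, m, r, t, w', -, -, -, -, -, -, hlen⟩ := S.nf s hs hsA
      omega
    | succ n ih =>
      intro s hs hn hsA t' ht' h
      obtain ⟨i, m, r, t, w, hm, hr, ht, hw, haw, rfl, hlen⟩ := S.nf s hs hsA
      obtain ⟨g, hg, hg2⟩ := S.fact_ii G hA hB hm hr ht hw haw h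
      obtain ⟨htB, β, hβA, hbβ, hβ⟩ := S.b_part G hA hB hr ht
      have hgA : g ∈ A := by
        apply hA.lu (m * β) g (A.mul_mem hm hβA)
        rw [← hβ, ← hg2]; exact h
      have hwt : w * t' ∈ A := by rw [hg]; exact A.mul_mem (S.aA i) hgA
      by_cases hwA : w ∈ A
      · exact hA.lu w t' hwA hwt
      · exact ih w hw (by omega) hwA t' ht' hwt
  exact fun s hs hsA t ht h => key _ s hs le_rfl hsA t ht h

include S G hA hB in
theorem T2_base (i i' : I) {m r t : P} (hm : m ∈ A) (hr : S.R i r r) (ht : S.y i = r * t) :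
    T2At B (m * t) (S.y i') (S.a i) (S.a i')
      (i = i' ∧ ∃ x x', m * x = x' ∧ S.R i (r * x) x') := by
  intro z hz z' hz' haz haz' he
  obtain ⟨h1, h2, X, X', h3, h4⟩ := S.uq i m r t z i' 1 1 (S.y i') z' hm A.one_mem hr
    (S.cl i').one ht (by rw [one_mul]) hz hz' haz haz' (by rw [one_mul]; exact he)
  rw [one_mul] at h3 h4
  exact ⟨h2, h1, X, X', h3, h4⟩

include S G hA hB in
theorem T2_step {ζ η' a a' : P} {Concl : Prop} (hζ : ζ ∈ A) (hη' : η' ∈ A)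
    (h : T2At A ζ η' a a' Concl) : T2At B ζ η' a a' Concl := by
  intro z hz z' hz' haz haz' he
  by_cases hzA : z ∈ A
  · have : z' ∈ A := by
      by_contra hz'A
      exact hz'A (hA.lu η' z' hη' (he ▸ A.mul_mem hζ hzA))
    exact h z hzA z' this haz haz' he
  have hz'A : z' ∉ A := fun h' => hzA (hA.lu ζ z hζ (he ▸ A.mul_mem hη' h'))
  obtain ⟨i, m, r, t, w, hm, hr, ht, hw, haw, rfl, -⟩ := S.nf z hz hzA
  obtain ⟨i', m', r', t', w', hm', hr', ht', hw', haw', rfl, -⟩ := S.nf z' hz' hz'A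
  obtain ⟨rfl, rfl, X, X', hX, hR⟩ := S.uq i (ζ * m) r t w i' (η' * m') r' t' w'
    (A.mul_mem hζ hm) (A.mul_mem hη' hm') hr hr' ht ht' hw hw' haw haw'
    (by simpa only [mul_assoc] using he)
  obtain ⟨q, hq1, hq2⟩ := S.yin i _ _ hR
  have htq : t = X * q := G.canc r _ _ (by rw [← ht, hq1, mul_assoc])
  have htq' : t' = X' * q := G.canc r' _ _ (by rw [← ht', hq2, mul_assoc])
  have hXA : X ∈ A := hA.lu r X ((S.cl i).mem _ _ hr).1 ((S.cl i).mem _ _ hR).1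
  have hXA' : X' ∈ A := hA.lu r' X' ((S.cl i).mem _ _ hr').1 ((S.cl i).mem _ _ hR).2
  obtain ⟨e1, hc⟩ := h (m * X) (A.mul_mem hm hXA) (m' * X') (A.mul_mem hm' hXA')
    (by
      rintro ⟨g, hg⟩
      exact haz ⟨g * q * w, by rw [htq, ← mul_assoc m, hg]; simp only [mul_assoc]⟩)
    (by
      rintro ⟨g, hg⟩
      exact haz' ⟨g * q * w, by rw [htq', ← mul_assoc m', hg]; simp only [mul_assoc]⟩)
    (by rw [← mul_assoc, hX, mul_assoc])
  refine ⟨?_, hc⟩
  rw [htq, htq', ← mul_assoc m, ← mul_assoc m', e1]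

end Step2

end Crest.Agent.R296.Tx774
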