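import Crest.Agent.R296.IfA_378
import Crest.Agent.R296.TSt_774
import Crest.Agent.R296.T_774

/-! Row 296 (S0448), block A, leaf A-T: the T-lemma for the tower of `IfA_378`
(proofs of the statements of `TSt_774`). -/

set_option autoImplicit false

namespace Crest.Agent.R296.TBrx774

open Crest.Agent.R296.IfAx378 Crest.Agent.R296.TSx774 Crest.Agent.R296.Tx774

universe u

/-! ## good monoids, stages -/

theorem goodM {P : Type u} [Monoid P] (h : IsGood P) : GoodM P where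
  canc := h.lc
  unit f g hfg := by
    have hf := h.unit f g hfg
    subst hf
    exact ⟨rfl, by simpa using hfg⟩
  lcm f g x := by
    rintro ⟨x1, rfl⟩ ⟨x2, h2⟩
    obtain ⟨u, v, huv, hmin⟩ := h.lcm f g x1 x2 h2
    refine ⟨f * u, Dvd.intro _ rfl, huv ▸ Dvd.intro _ rfl, ?_⟩
    rintro z ⟨z1, rfl⟩ ⟨z2, hz⟩
    obtain ⟨t, rfl, -⟩ := hmin _ _ hz
    exact ⟨t, by rw [mul_assoc]⟩

theorem stage {P : Type u} [Monoid P] (G : IsGood P) (A : Submonoid P) (hc : Cons A.subtype) :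
    Stage A where
  lu x t hx hxt := by
    obtain ⟨a, b, s, hab, h1, h2⟩ := hc.amal ⟨x * t, hxt⟩ ⟨x, hx⟩ 1 t (by simp)
    obtain ⟨-, hs⟩ := (goodM G).unit _ _ h1.symm
    subst hs
    rw [mul_one] at h2
    rw [h2]
    exact b.2
  lcm f g c hf hg := by
    rintro ⟨x1, rfl⟩ ⟨x2, h2⟩
    obtain ⟨u, v, huv, hmin⟩ := G.lcm f g x1 x2 h2
    obtain ⟨a, b, s, hab, h3, h4⟩ := hc.amal ⟨f, hf⟩ ⟨g, hg⟩ u v huv
    have hab' : f * (a : P) = g * (b : P) := congrArg Subtype.val hab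
    obtain ⟨t, ht1, -⟩ := hmin _ _ hab'
    have hts : t * s = 1 := by
      apply G.lc u
      rw [← mul_assoc, ← ht1, mul_one]
      exact h3.symm
    obtain ⟨-, hs⟩ := (goodM G).unit _ _ hts
    subst hs
    rw [mul_one] at h3
    have huA : u ∈ A := by rw [h3]; exact a.2
    refine ⟨f * u, A.mul_mem hf huA, Dvd.intro _ rfl, huv ▸ Dvd.intro _ rfl, ?_⟩
    rintro z ⟨z1, rfl⟩ ⟨z2, hz⟩
    obtain ⟨t, rfl, -⟩ := hmin _ _ hz
    exact ⟨t, by rw [mul_assoc]⟩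

/-- divisibility in a stage -/
theorem dvd_sub {P : Type u} [Monoid P] {A : Submonoid P} (h : Stage A) (f g : A) :
    f ∣ g ↔ (f : P) ∣ (g : P) := by
  constructor
  · rintro ⟨c, rfl⟩; exact ⟨c, rfl⟩
  · rintro ⟨c, hc⟩
    have : c ∈ A := h.lu _ _ f.2 (hc ▸ g.2)
    exact ⟨⟨c, this⟩, Subtype.ext hc⟩

section one
variable {P : Type 1} [Monoid P]

/-! ## (S1) steps -/

section s1
variable {A B : Submonoid P} {le : A ≤ B} {I J : Type*} {F : I → LAct A J} {κ : I → J → B}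

/-- head -/
theorem hd_ex (S : S1Ext F (Submonoid.inclusion le) κ) {d : P} (hB : d ∈ B) (hA : d ∉ A) :
    ∃ (s : A) (i : I) (j : J) (w : B), d = (s : P) * κ i j * w := by
  rcases S.nf ⟨d, hB⟩ with ⟨p, hp⟩ | ⟨s, i, j, w, h⟩
  · exact absurd (by rw [show d = (p : P) from congrArg Subtype.val hp]; exact p.2) hA
  · exact ⟨s, i, j, w, congrArg Subtype.val h⟩

open Classical in
/-- head -/
noncomputable def hdf (S : S1Ext F (Submonoid.inclusion le) κ) (d : P) : P :=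
  if h : d ∈ B ∧ d ∉ A then ((hd_ex S h.1 h.2).choose : P) else 1

theorem hdf_eq (G : IsGood P) (hSA : Stage A) (S : S1Ext F (Submonoid.inclusion le) κ)
    (s : A) (i : I) (j : J) (w : B) (hA : (s : P) * κ i j * w ∉ A) :
    hdf S ((s : P) * κ i j * w) = s := by
  have hB : (s : P) * κ i j * w ∈ B := B.mul_mem (B.mul_mem (le s.2) (κ i j).2) w.2
  have e : hdf S ((s : P) * κ i j * w) = ((hd_ex S hB hA).choose : P) := by
    unfold hdf; rw [dif_pos ⟨hB, hA⟩]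
  rw [e]
  obtain ⟨i', j', w', h⟩ := (hd_ex S hB hA).choose_spec
  set s' := (hd_ex S hB hA).choose
  have h' : Submonoid.inclusion le s * κ i j * w = Submonoid.inclusion le s' * κ i' j' * w' :=
    Subtype.ext h
  have h1 : s ∣ s' := (S.dvd s' i' j' w' s).1 (h' ▸ (S.dvd s i j w s).2 dvd_rfl)
  have h2 : s' ∣ s := (S.dvd s i j w s').1 (h' ▸ (S.dvd s' i' j' w' s').2 dvd_rfl)
  obtain ⟨x, hx⟩ := h1
  obtain ⟨y, hy⟩ := h2
  have hxy : (x : P) * y = 1 := by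
    apply G.lc s
    rw [mul_one, ← mul_assoc]
    have : (s : P) = s' * y := congrArg Subtype.val hy
    have h3 : (s' : P) = s * x := congrArg Subtype.val hx
    rw [← h3, ← this]
  obtain ⟨hx1, -⟩ := (goodM G).unit _ _ hxy
  have h3 : (s' : P) = s * x := congrArg Subtype.val hx
  rw [h3, hx1, mul_one]

theorem s1_new (S : S1Ext F (Submonoid.inclusion le) κ)
    (s : A) (i : I) (j : J) (w : B) : (s : P) * κ i j * w ∉ A := fun h =>
  S.new s i j w ⟨_, h⟩ (Subtype.ext rfl)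

/-- the facts of an (S1) step -/
noncomputable def step1 (G : IsGood P) (hSA : Stage A) (S : S1Ext F (Submonoid.inclusion le) κ) :
    Step1 A B where
  hd := hdf S
  le := le
  hdA d hB hA := by
    obtain ⟨s, i, j, w, rfl⟩ := hd_ex S hB hA
    rw [hdf_eq G hSA S s i j w hA]
    exact ⟨s.2, ⟨κ i j * w, by rw [mul_assoc]⟩⟩
  hdmul s hs d hB hA := by
    obtain ⟨s0, i, j, w, rfl⟩ := hd_ex S hB hA
    rw [hdf_eq G hSA S s0 i j w hA]
    have e : s * ((s0 : P) * κ i j * w) = ((⟨s, hs⟩ * s0 : A) : P) * κ i j * w := by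
      simp only [mul_assoc, Submonoid.coe_mul]
    rw [e, hdf_eq G hSA S _ i j w (s1_new S _ _ _ _)]
    rfl
  abs d hB hA x hx := by
    obtain ⟨s0, i, j, w, rfl⟩ := hd_ex S hB hA
    have e : (s0 : P) * κ i j * w * x = (s0 : P) * κ i j * (w * ⟨x, hx⟩ : B) := by
      simp only [mul_assoc, Submonoid.coe_mul]
    rw [e, hdf_eq G hSA S _ i j _ (s1_new S _ _ _ _), hdf_eq G hSA S _ i j _ hA]
    exact ⟨s1_new S _ _ _ _, rfl⟩

end s1

/-! ## (S2) steps -/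

section s2
variable {A B : Submonoid P} {le : A ≤ B}

/-- the relation of a datum, in the big monoid -/
def RD (d : Datum A) (s r : P) : Prop := ∃ s' r' : A, (s' : P) = s ∧ (r' : P) = r ∧ d.C.R s' r'

theorem RD_coe (d : Datum A) (s r : A) : RD d s r ↔ d.C.R s r := by
  constructor
  · rintro ⟨s', r', h1, h2, h⟩
    obtain rfl := Subtype.ext h1
    obtain rfl := Subtype.ext h2
    exact h
  · intro h; exact ⟨s, r, rfl, rfl, h⟩

theorem RD_cl (hSA : Stage A) (d : Datum A) : IsCl A (RD d) where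
  mem := by rintro _ _ ⟨s, r, rfl, rfl, -⟩; exact ⟨s.2, r.2⟩
  one := ⟨1, 1, rfl, rfl, d.C.refl 1 d.C.one⟩
  symm := by rintro _ _ ⟨s, r, rfl, rfl, h⟩; exact ⟨r, s, rfl, rfl, d.C.symm _ _ h⟩
  trans := by
    rintro _ _ q ⟨s, r, rfl, rfl, h⟩ ⟨r', q', h1, rfl, h'⟩
    obtain rfl := Subtype.ext h1
    exact ⟨s, q', rfl, rfl, d.C.trans _ _ _ h h'⟩
  up := by
    rintro s t hs ⟨x, y, hx, hy, h⟩
    have hx' : (⟨s, hs⟩ : A) ∣ x := (dvd_sub hSA _ _).2 ⟨t, hx⟩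
    exact ⟨⟨s, hs⟩, ⟨s, hs⟩, rfl, rfl, d.C.refl _ (d.C.up _ _ hx' (d.C.dom _ _ h))⟩
  dir := by
    rintro _ _ ⟨s, s', rfl, h1, h⟩ ⟨r, r', rfl, h2, h'⟩
    obtain ⟨m, hm, hsm, hrm⟩ := d.C.dir s r (d.C.dom _ _ h) (d.C.dom _ _ h')
    exact ⟨m, ⟨m, m, rfl, rfl, d.C.refl m hm⟩, (dvd_sub hSA _ _).1 hsm, (dvd_sub hSA _ _).1 hrm⟩
  restr := by
    rintro _ _ t ⟨s, r, rfl, rfl, h⟩ ⟨x, y, hx, hy, h'⟩
    have ht : t ∈ A := hSA.lu r t r.2 (hx ▸ x.2)
    obtain rfl : x = r * ⟨t, ht⟩ := Subtype.ext hx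
    exact ⟨s * ⟨t, ht⟩, r * ⟨t, ht⟩, rfl, rfl, d.C.act _ _ _ h (d.C.dom _ _ h')⟩
  ext := by
    rintro s r t hs hr ⟨x, y, hx, hy, h⟩
    have ht : t ∈ A := hSA.lu s t hs (hx ▸ x.2)
    obtain rfl : x = ⟨s, hs⟩ * ⟨t, ht⟩ := Subtype.ext hx
    obtain rfl : y = ⟨r, hr⟩ * ⟨t, ht⟩ := Subtype.ext hy
    exact ⟨⟨s, hs⟩, ⟨r, hr⟩, rfl, rfl, d.C.shrink _ _ _ h⟩

variable {y : Ltr A → B} {len : B → ℕ}

theorem y_decomp (S : S2All (Submonoid.inclusion le) y len) (d : Datum A) (s r : A)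
    (hr : r ∈ d.C.S) : (y ⟨d, s, r, hr⟩ : P) = s * y ⟨d, 1, r, hr⟩ := by
  have h := S.act s ⟨d, 1, r, hr⟩
  have e : Ltr.smul s ⟨d, 1, r, hr⟩ = ⟨d, s, r, hr⟩ := by
    simp [Ltr.smul]
  rw [e] at h
  exact (congrArg Subtype.val h).symm

theorem y_base (S : S2All (Submonoid.inclusion le) y len) (d : Datum A) (s r : A)
    (h : d.C.R s r) (hr : r ∈ d.C.S) : (y (Ltr.base d) : P) = s * y ⟨d, 1, r, hr⟩ := by
  rw [← y_decomp S d s r hr]
  have : (⟨d, s, r, hr⟩ : Ltr A).Eqv (Ltr.base d) := by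
    refine ⟨rfl, 1, s, ?_, ?_⟩
    · show s * 1 = 1 * s
      rw [mul_one, one_mul]
    · show d.C.R (r * 1) (1 * s)
      rw [mul_one, one_mul]
      exact d.C.symm _ _ h
  exact congrArg Subtype.val ((S.eqv _ _).1 this).symm

theorem y_t (G : IsGood P) (S : S2All (Submonoid.inclusion le) y len) (d : Datum A) {r : A} {t : P}
    (hr : r ∈ d.C.S) (h : (y (Ltr.base d) : P) = r * t) : t = y ⟨d, 1, r, hr⟩ := by
  apply G.lc r
  rw [← h, y_base S d r r (d.C.refl r hr) hr]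

open Classical in
/-- the facts of an (S2) step -/
noncomputable def step2 (G : IsGood P) (hSA : Stage A) (hSB : Stage B)
    (S : S2All (Submonoid.inclusion le) y len) : Step2 A B (Datum A) where
  R := RD
  a d := d.a
  b d := d.b
  y d := y (Ltr.base d)
  len p := if h : p ∈ B then len ⟨p, h⟩ else 0
  le := le
  cl := RD_cl hSA
  aA d := d.a.2
  bA d := d.b.2
  yB d := (y (Ltr.base d)).2
  a1 d h := d.a_ne (Subtype.ext h)
  bin d := by
    rintro _ _ ⟨s, r, rfl, rfl, h⟩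
    obtain ⟨x, hx⟩ := d.b_mem.1 r (d.C.dom _ _ (d.C.symm _ _ h))
    exact ⟨x, congrArg Subtype.val (d.b_mem.2 s r x h hx), congrArg Subtype.val hx⟩
  bnot d h := by
    obtain ⟨p, hp, -, hbp⟩ := d.ex_p
    exact hbp (hp.1 _ (d.C.dom _ _ ((RD_coe d d.b d.b).1 h)))
  ya d := by
    have h := S.rel (Ltr.base d) d.b (by simp [Ltr.base])
    have h' := congrArg Subtype.val h
    simpa [Ltr.base] using h'
  yin d := by
    rintro _ _ ⟨s, r, rfl, rfl, h⟩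
    have hr : r ∈ d.C.S := d.C.dom _ _ (d.C.symm _ _ h)
    exact ⟨y ⟨d, 1, r, hr⟩, y_base S d s r h hr, y_base S d r r (d.C.refl r hr) hr⟩
  nf p hB hA := by
    rcases S.nf ⟨p, hB⟩ with ⟨q, hq⟩ | ⟨⟨d, s, r, hr⟩, x, h, hx⟩
    · exact absurd (by rw [show p = (q : P) from congrArg Subtype.val hq]; exact q.2) hA
    · have e : p = (s : P) * y ⟨d, 1, r, hr⟩ * x := by
        rw [← y_decomp S d s r hr]
        exact congrArg Subtype.val h
      refine ⟨d, s, r, y ⟨d, 1, r, hr⟩, x, s.2, (RD_coe d r r).2 (d.C.refl r hr),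
        y_base S d r r (d.C.refl r hr) hr, x.2, ?_, e, ?_⟩
      · intro h'
        exact hx ((dvd_sub hSB _ _).2 h')
      · rw [dif_pos x.2, dif_pos hB, h]
        have := S.len_y ⟨d, s, r, hr⟩ x hx
        rw [this]
        exact Nat.lt_succ_self _
  new d m r t w hm hr ht hw haw := by
    obtain ⟨r', r'', rfl, h1, h2⟩ := hr
    have hrS : r' ∈ d.C.S := d.C.dom _ _ h2
    have ht' := y_t G S d hrS ht
    intro hmem
    refine S.new ⟨d, ⟨m, hm⟩, r', hrS⟩ ⟨w, hw⟩ ⟨_, hmem⟩ ?_ (Subtype.ext ?_)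
    · intro h'
      exact haw ((dvd_sub hSB _ _).1 h')
    · show (y ⟨d, ⟨m, hm⟩, r', hrS⟩ : P) * w = m * t * w
      rw [y_decomp S d, ht']
  uq d m r t w d' m' r' t' w' hm hm' hr hr' ht ht' hw hw' haw haw' he := by
    obtain ⟨r1, r2, rfl, h1, h2⟩ := hr
    obtain ⟨r1', r2', rfl, h1', h2'⟩ := hr'
    have hrS : r1 ∈ d.C.S := d.C.dom _ _ h2
    have hrS' : r1' ∈ d'.C.S := d'.C.dom _ _ h2'
    have ht1 := y_t G S d hrS ht
    have ht1' := y_t G S d' hrS' ht'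
    obtain ⟨⟨hd, t1, t2, h3, h4⟩, h5⟩ := S.uniq ⟨d, ⟨m, hm⟩, r1, hrS⟩ ⟨w, hw⟩
      ⟨d', ⟨m', hm'⟩, r1', hrS'⟩ ⟨w', hw'⟩
      (fun h' => haw ((dvd_sub hSB _ _).1 h')) (fun h' => haw' ((dvd_sub hSB _ _).1 h'))
      (by
        apply Subtype.ext
        show (y ⟨d, ⟨m, hm⟩, r1, hrS⟩ : P) * w = (y ⟨d', ⟨m', hm'⟩, r1', hrS'⟩ : P) * w'
        rw [y_decomp S d, y_decomp S d', ← ht1, ← ht1']
        exact he)
    exact ⟨hd, congrArg Subtype.val h5, t1, t2, congrArg Subtype.val h3,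
      ⟨r1 * t1, r1' * t2, rfl, rfl, h4⟩⟩

end s2

theorem FP_iff {A : Submonoid P} (d : Datum A) (u : P) : FP (RD d) u ↔ DownP d.C u := by
  constructor
  · rintro ⟨_, ⟨s, r, rfl, -, h⟩, hu⟩
    exact ⟨s, d.C.dom _ _ h, hu⟩
  · rintro ⟨s, hs, hu⟩
    exact ⟨s, (RD_coe d s s).2 (d.C.refl s hs), hu⟩

theorem MemP_of_InCl {A : Submonoid P} (G : IsGood P) (d : Datum A) {z : P} (h : InCl (RD d) z) :
    MemP d.C z := by
  refine ⟨fun s hs => ?_, fun s r x hR hx => ?_⟩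
  · obtain ⟨t, ht, -⟩ := h s s ((RD_coe d s s).2 (d.C.refl s hs))
    exact ⟨t, ht⟩
  · obtain ⟨t, ht, ht'⟩ := h s r ((RD_coe d s r).2 hR)
    have : x = t := G.lc r _ _ (by rw [← hx, ← ht'])
    rw [this]; exact ht

end one

end Crest.Agent.R296.TBrx774
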