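import Crest.Agent.R296.IfA2_378
import Crest.Agent.R296.TBr_774

/-! Row 296 (S0448), block A, leaf A-T for the interface v2 (`IfA2_378`): stage facts. -/

set_option autoImplicit false

namespace Crest.Agent.R296.TB2x774

open Crest.Agent.R296.IfA2x378 Crest.Agent.R296.Tx774
open Crest.Agent.R296.IfAx378 (IsGood IsLcm Disj Cons Filt LAct S1Ext)
open Crest.Agent.R296.TBrx774 (goodM stage dvd_sub step1)

variable {P : Type 1} [Monoid P]

section s2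
variable {A B : Submonoid P} {le : A ≤ B}

/-- the relation of a datum, in the big monoid: trivial germs at `F` -/
def RD (d : Datum A) (s r : P) : Prop :=
  ∃ s' r' t : A, (s' : P) = s ∧ (r' : P) = r ∧ s' * t = r' * t ∧ r' * t ∈ d.F.S

theorem RD_coe (d : Datum A) (s r : A) : RD d s r ↔ ∃ t : A, s * t = r * t ∧ r * t ∈ d.F.S := by
  constructor
  · rintro ⟨s', r', t, h1, h2, h⟩
    obtain rfl := Subtype.ext h1
    obtain rfl := Subtype.ext h2
    exact ⟨t, h⟩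
  · rintro ⟨t, h⟩; exact ⟨s, r, t, rfl, rfl, h⟩

theorem RD_self (d : Datum A) (s : A) : RD d s s ↔ s ∈ d.F.S := by
  rw [RD_coe]
  constructor
  · rintro ⟨t, -, h⟩
    exact d.F.up _ _ (Dvd.intro _ rfl) h
  · intro h
    exact ⟨1, rfl, by rwa [mul_one]⟩

theorem RD_cl (G : IsGood P) (hSA : Stage A) (d : Datum A) : IsCl A (RD d) where
  mem := by rintro _ _ ⟨s, r, t, rfl, rfl, -⟩; exact ⟨s.2, r.2⟩
  one := (RD_self d 1).2 d.F.one
  symm := by
    rintro _ _ ⟨s, r, t, rfl, rfl, h, h'⟩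
    exact ⟨r, s, t, rfl, rfl, h.symm, h ▸ h'⟩
  trans := by
    rintro _ _ q ⟨s, r, t, rfl, rfl, h1, h2⟩ ⟨r', q', t', e, rfl, h3, h4⟩
    obtain rfl := Subtype.ext e
    obtain ⟨m, hm, ⟨x, hx⟩, ⟨y, hy⟩⟩ := d.F.dir (r' * t) (r' * t') h2 (h3 ▸ h4)
    have e2 : t * x = t' * y := by
      apply Subtype.ext
      apply G.lc (r' : P)
      have := congrArg Subtype.val (hx.symm.trans hy)
      simpa [mul_assoc] using this
    refine ⟨s, q', t * x, rfl, rfl, ?_, ?_⟩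
    · rw [← mul_assoc, h1, mul_assoc, e2, ← mul_assoc, h3, mul_assoc]
    · rw [e2, ← mul_assoc, ← h3, ← hy]; exact hm
  up := by
    rintro s t hs ⟨x, y, τ, hx, hy, -, h⟩
    have hy' : (⟨s, hs⟩ : A) ∣ y := (dvd_sub hSA _ _).2 ⟨t, hy⟩
    exact (RD_self d ⟨s, hs⟩).2 (d.F.up _ _ (hy'.trans (Dvd.intro _ rfl)) h)
  dir := by
    rintro _ _ ⟨s, s', t, rfl, h1, h2, h3⟩ ⟨r, r', t', rfl, h1', h2', h3'⟩
    obtain rfl := Subtype.ext h1
    obtain rfl := Subtype.ext h1'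
    obtain ⟨m, hm, hsm, hrm⟩ := d.F.dir s' r' (d.F.up _ _ (Dvd.intro _ rfl) h3)
      (d.F.up _ _ (Dvd.intro _ rfl) h3')
    exact ⟨m, (RD_self d m).2 hm, (dvd_sub hSA _ _).1 hsm, (dvd_sub hSA _ _).1 hrm⟩
  restr := by
    rintro _ _ t ⟨s, r, τ, rfl, rfl, h1, h2⟩ ⟨x, y, τ', hx, hy, -, h4⟩
    have ht : t ∈ A := hSA.lu r t r.2 (hx ▸ x.2)
    have hyF : r * ⟨t, ht⟩ ∈ d.F.S := by
      have : y = r * ⟨t, ht⟩ := Subtype.ext hy
      rw [← this]
      exact d.F.up _ _ (Dvd.intro _ rfl) h4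
    obtain ⟨m, hm, ⟨a, ha⟩, ⟨b, hb⟩⟩ := d.F.dir (r * τ) (r * ⟨t, ht⟩) h2 hyF
    have e2 : τ * a = ⟨t, ht⟩ * b := by
      apply Subtype.ext
      apply G.lc (r : P)
      have := congrArg Subtype.val (ha.symm.trans hb)
      simpa [mul_assoc] using this
    refine ⟨s * ⟨t, ht⟩, r * ⟨t, ht⟩, b, rfl, rfl, ?_, ?_⟩
    · rw [mul_assoc, ← e2, ← mul_assoc, h1, mul_assoc, e2, mul_assoc]
    · rw [← hb]; exact hm
  ext := by
    rintro s r t hs hr ⟨x, y, τ, hx, hy, h1, h2⟩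
    have ht : t ∈ A := hSA.lu s t hs (hx ▸ x.2)
    obtain rfl : x = ⟨s, hs⟩ * ⟨t, ht⟩ := Subtype.ext hx
    obtain rfl : y = ⟨r, hr⟩ * ⟨t, ht⟩ := Subtype.ext hy
    exact ⟨⟨s, hs⟩, ⟨r, hr⟩, ⟨t, ht⟩ * τ, rfl, rfl, by rw [← mul_assoc, h1, mul_assoc],
      by rw [← mul_assoc]; exact h2⟩

variable {y : Ltr A → B} {len : B → ℕ}

theorem y_decomp (S : S2All (Submonoid.inclusion le) y len) (d : Datum A) (s r : A)
    (hr : r ∈ d.F.S) : (y ⟨d, s, r, hr⟩ : P) = s * y ⟨d, 1, r, hr⟩ := by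
  have h := S.act s ⟨d, 1, r, hr⟩
  have e : Ltr.smul s ⟨d, 1, r, hr⟩ = ⟨d, s, r, hr⟩ := by
    simp [Ltr.smul]
  rw [e] at h
  exact (congrArg Subtype.val h).symm

theorem y_base (S : S2All (Submonoid.inclusion le) y len) (d : Datum A) (s r t : A)
    (h : s * t = r * t) (h' : r * t ∈ d.F.S) (hr : r ∈ d.F.S) :
    (y (Ltr.base d) : P) = s * y ⟨d, 1, r, hr⟩ := by
  rw [← y_decomp S d s r hr]
  have : (⟨d, s, r, hr⟩ : Ltr A).Eqv (Ltr.base d) := by
    refine ⟨rfl, t, s * t, ?_, ?_, h'⟩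
    · show s * t = 1 * (s * t)
      rw [one_mul]
    · show r * t = 1 * (s * t)
      rw [one_mul, h]
  exact congrArg Subtype.val ((S.eqv _ _).1 this).symm

theorem y_t (G : IsGood P) (S : S2All (Submonoid.inclusion le) y len) (d : Datum A) {r : A} {t : P}
    (hr : r ∈ d.F.S) (h : (y (Ltr.base d) : P) = r * t) : t = y ⟨d, 1, r, hr⟩ := by
  apply G.lc r
  rw [← h, y_base S d r r 1 rfl (by rwa [mul_one]) hr]

open Classical in
/-- the facts of an (S2) step -/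
noncomputable def step2 (G : IsGood P) (hSA : Stage A) (hSB : Stage B)
    (S : S2All (Submonoid.inclusion le) y len) : Step2 A B (Datum A) where
  R := RD
  a d := d.a
  b d := d.b
  y d := y (Ltr.base d)
  len p := if h : p ∈ B then len ⟨p, h⟩ else 0
  le := le
  cl := RD_cl G hSA
  aA d := d.a.2
  bA d := d.b.2
  yB d := (y (Ltr.base d)).2
  a1 d h := d.a_ne (Subtype.ext h)
  bin d := by
    rintro _ _ ⟨s, r, t, rfl, rfl, h, h'⟩
    obtain ⟨x, hx⟩ := d.b_mem _ h'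
    refine ⟨t * x, ?_, ?_⟩
    · have := congrArg Subtype.val hx
      rw [← h] at this
      simpa [mul_assoc] using this
    · have := congrArg Subtype.val hx
      simpa [mul_assoc] using this
  bnot d h := by
    obtain ⟨p, hp, -, hbp⟩ := d.ex_p
    exact hbp (hp _ ((RD_self d d.b).1 h))
  ya d := by
    have h := S.rel (Ltr.base d) d.b (by simp [Ltr.base])
    have h' := congrArg Subtype.val h
    simpa [Ltr.base] using h'
  yin d := by
    rintro _ _ ⟨s, r, t, rfl, rfl, h, h'⟩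
    have hr : r ∈ d.F.S := d.F.up _ _ (Dvd.intro _ rfl) h'
    exact ⟨y ⟨d, 1, r, hr⟩, y_base S d s r t h h' hr, y_base S d r r t rfl h' hr⟩
  nf p hB hA := by
    rcases S.nf ⟨p, hB⟩ with ⟨q, hq⟩ | ⟨⟨d, s, r, hr⟩, x, h, hx⟩
    · exact absurd (by rw [show p = (q : P) from congrArg Subtype.val hq]; exact q.2) hA
    · have e : p = (s : P) * y ⟨d, 1, r, hr⟩ * x := by
        rw [← y_decomp S d s r hr]
        exact congrArg Subtype.val h
      refine ⟨d, s, r, y ⟨d, 1, r, hr⟩, x, s.2, (RD_self d r).2 hr,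
        y_base S d r r 1 rfl (by rwa [mul_one]) hr, x.2, ?_, e, ?_⟩
      · intro h'
        exact hx ((dvd_sub hSB _ _).2 h')
      · rw [dif_pos x.2, dif_pos hB, h]
        have := S.len_y ⟨d, s, r, hr⟩ x hx
        rw [this]
        exact Nat.lt_succ_self _
  new d m r t w hm hr ht hw haw := by
    obtain ⟨r', r'', τ, rfl, h1, h2, h3⟩ := hr
    obtain rfl := Subtype.ext h1
    have hrS : r'' ∈ d.F.S := d.F.up _ _ (Dvd.intro _ rfl) h3
    have ht' := y_t G S d hrS ht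
    intro hmem
    refine S.new ⟨d, ⟨m, hm⟩, r'', hrS⟩ ⟨w, hw⟩ ⟨_, hmem⟩ ?_ (Subtype.ext ?_)
    · intro h'
      exact haw ((dvd_sub hSB _ _).1 h')
    · show (y ⟨d, ⟨m, hm⟩, r'', hrS⟩ : P) * w = m * t * w
      rw [y_decomp S d, ht']
  uq d m r t w d' m' r' t' w' hm hm' hr hr' ht ht' hw hw' haw haw' he := by
    obtain ⟨r1, r2, τ, rfl, h1, -, h3⟩ := hr
    obtain rfl := Subtype.ext h1
    obtain ⟨r1', r2', τ', rfl, h1', -, h3'⟩ := hr'
    obtain rfl := Subtype.ext h1'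
    have hrS : r2 ∈ d.F.S := d.F.up _ _ (Dvd.intro _ rfl) h3
    have hrS' : r2' ∈ d'.F.S := d'.F.up _ _ (Dvd.intro _ rfl) h3'
    have ht1 := y_t G S d hrS ht
    have ht1' := y_t G S d' hrS' ht'
    obtain ⟨⟨hd, t1, t2, h4, h5, h6⟩, h7⟩ := S.uniq ⟨d, ⟨m, hm⟩, r2, hrS⟩ ⟨w, hw⟩
      ⟨d', ⟨m', hm'⟩, r2', hrS'⟩ ⟨w', hw'⟩
      (fun h' => haw ((dvd_sub hSB _ _).1 h')) (fun h' => haw' ((dvd_sub hSB _ _).1 h'))
      (by
        apply Subtype.ext
        show (y ⟨d, ⟨m, hm⟩, r2, hrS⟩ : P) * w = (y ⟨d', ⟨m', hm'⟩, r2', hrS'⟩ : P) * w'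
        rw [y_decomp S d, y_decomp S d', ← ht1, ← ht1']
        exact he)
    refine ⟨hd, congrArg Subtype.val h7, t1, t2, congrArg Subtype.val h4,
      ⟨r2 * t1, r2' * t2, 1, rfl, rfl, by rw [show r2 * t1 = r2' * t2 from h5], ?_⟩⟩
    rw [mul_one, ← show r2 * t1 = r2' * t2 from h5]
    exact h6

end s2

end Crest.Agent.R296.TB2x774
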