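import Crest.Agent.R296.TB2_774
import Crest.Agent.R296.TFin_774

/-! Row 296 (S0448), block A, leaf A-T for the interface v2 (`IfA2_378`): the T-lemma `stT : StT T`. -/

set_option autoImplicit false

namespace Crest.Agent.R296.TF2x774

open Crest.Agent.R296.IfA2x378 Crest.Agent.R296.Tx774 Crest.Agent.R296.TB2x774
open Crest.Agent.R296.IfAx378 (IsGood IsLcm Disj Cons Filt LAct S1Ext)
open Crest.Agent.R296.TBrx774 (goodM stage dvd_sub step1)
open Crest.Agent.R296.TFinx774 (par ordInd)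

variable {P : Type 1} [Monoid P] (T : Tower P)

theorem tstage (β : Ordinal.{0}) : Stage (T.A β) := stage T.good _ (T.cons β)

noncomputable def tstep1 (β : Ordinal.{0}) (h : β % 2 = 0) :
    Step1 (T.A β) (T.A (Order.succ β)) :=
  step1 T.good (tstage T β) (T.s1 β h)

noncomputable def tstep2 (β : Ordinal.{0}) (h : β % 2 = 1) :
    Step2 (T.A β) (T.A (Order.succ β)) (Datum (T.A β)) :=
  step2 T.good (tstage T β) (tstage T _) (T.s2 β h)

/-- induction along the tower for statements about two elements -/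
theorem tind (α : Ordinal.{0}) (Q : P → P → Prop)
    (h0 : ∀ u ∈ T.A α, ∀ x ∈ T.A α, Q u x)
    (hs : ∀ δ, α ≤ δ → (∀ u ∈ T.A δ, ∀ x ∈ T.A δ, Q u x) →
      ∀ u ∈ T.A (Order.succ δ), ∀ x ∈ T.A (Order.succ δ), Q u x) (u x : P) : Q u x := by
  have key : ∀ γ, α ≤ γ → ∀ u ∈ T.A γ, ∀ x ∈ T.A γ, Q u x := by
    refine ordInd h0 hs ?_
    intro γ h hγ ih u hu x hx
    obtain ⟨δ1, h1, hu1⟩ := T.lim γ hγ u hu
    obtain ⟨δ2, h2, hx2⟩ := T.lim γ hγ x hx
    exact ih (max α (max δ1 δ2)) (max_lt h (max_lt h1 h2)) (le_max_left _ _) u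
      (T.mono ((le_max_left _ _).trans (le_max_right _ _)) hu1) x
      (T.mono ((le_max_right _ _).trans (le_max_right _ _)) hx2)
  obtain ⟨β1, h1⟩ := T.exh u
  obtain ⟨β2, h2⟩ := T.exh x
  exact key (max α (max β1 β2)) (le_max_left _ _) u
    (T.mono ((le_max_left _ _).trans (le_max_right _ _)) h1) x
    (T.mono ((le_max_right _ _).trans (le_max_right _ _)) h2)

/-- the letter of a datum at stage `β` -/
noncomputable def eta (β : Ordinal.{0}) (d : Datum (T.A β)) : P := (T.y β (Ltr.base d) : P)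

theorem eta_mem (β : Ordinal.{0}) (d : Datum (T.A β)) : eta T β d ∈ T.A (Order.succ β) :=
  (T.y β (Ltr.base d)).2

theorem eta_in (β : Ordinal.{0}) (hβ : β % 2 = 1) (d : Datum (T.A β)) :
    InCl (RD d) (eta T β d) := (tstep2 T β hβ).yin d

theorem eta_a (β : Ordinal.{0}) (hβ : β % 2 = 1) (d : Datum (T.A β)) :
    eta T β d * d.a = d.b := (tstep2 T β hβ).ya d

theorem T0_all (β : Ordinal.{0}) (hβ : β % 2 = 1) (d : Datum (T.A β)) (s z : P)
    (hs : s ∈ T.A β) (h : s * eta T β d * z ∈ T.A β) : (d.a : P) ∣ z := by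
  have G := goodM T.good
  let S := tstep2 T β hβ
  have ha1 : ¬ (S.a d) ∣ (1 : P) := by
    rintro ⟨c, hc⟩
    exact S.a1 d (G.unit _ _ hc.symm).1
  obtain ⟨g, hg, -⟩ := S.fact_ii G (tstage T β) (tstage T _) (i := d) (m := s) (r := 1)
    (t := S.y d) (w := 1) (e := z) hs (S.cl d).one (by rw [one_mul]) (T.A _).one_mem ha1
    (by rw [mul_one]; exact h)
  rw [one_mul] at hg
  exact ⟨g, hg⟩

theorem eta_new (β : Ordinal.{0}) (hβ : β % 2 = 1) (d : Datum (T.A β)) : eta T β d ∉ T.A β := by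
  intro h
  have h1 : ((d.a : T.A β) : P) ∣ 1 :=
    T0_all T β hβ d 1 1 (T.A β).one_mem (by rw [one_mul, mul_one]; exact h)
  obtain ⟨c, hc⟩ := h1
  exact (tstep2 T β hβ).a1 d ((goodM T.good).unit _ _ hc.symm).1

theorem not_eta_dvd (β : Ordinal.{0}) (hβ : β % 2 = 1) (d : Datum (T.A β)) (p : T.A β)
    (hp : ¬ (d.b : P) ∣ (p : P)) : ¬ eta T β d ∣ (p : P) := by
  rintro ⟨e, he⟩
  apply hp
  obtain ⟨g, hg⟩ := T0_all T β hβ d 1 e (T.A β).one_mem (by rw [one_mul, ← he]; exact p.2)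
  rw [he, hg, ← mul_assoc, eta_a T β hβ d]
  exact Dvd.intro _ rfl

theorem T1_all (β : Ordinal.{0}) (hβ : β % 2 = 1) (d : Datum (T.A β)) (p : T.A β)
    (hp : ¬ (d.b : P) ∣ (p : P)) (u x : P) :
    u ∣ (p : P) → u ∣ eta T β d * x → ¬ (d.a : P) ∣ x → FP (RD d) u := by
  have G := goodM T.good
  refine tind T (Order.succ β)
    (fun u x => u ∣ (p : P) → u ∣ eta T β d * x → ¬ (d.a : P) ∣ x → FP (RD d) u) ?_ ?_ u x
  · exact (tstep2 T β hβ).T1_base G (tstage T β) (tstage T _) d p.2 hp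
  · intro δ hδ ih
    have hη : eta T β d ∈ T.A δ := T.mono hδ (eta_mem T β d)
    have hpδ : (p : P) ∈ T.A δ := T.mono ((Order.le_succ β).trans hδ) p.2
    rcases par δ with h | h
    · exact (tstep1 T δ h).T1_step G (tstage T δ) (tstage T _) hη hpδ ih
    · exact (tstep2 T δ h).T1_step G (tstage T δ) (tstage T _) hη hpδ
        (not_eta_dvd T β hβ d p hp) ih

theorem T1o_all (β : Ordinal.{0}) (hβ : β % 2 = 1) (d : Datum (T.A β)) (x : P) :
    ∀ u ∈ T.A β, u ∣ eta T β d * x → ¬ (d.a : P) ∣ x → FP (RD d) u := by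
  have G := goodM T.good
  refine tind T (Order.succ β)
    (fun _ x => ∀ u ∈ T.A β, u ∣ eta T β d * x → ¬ (d.a : P) ∣ x → FP (RD d) u) ?_ ?_ 1 x
  · intro _ _ x hx u hu
    exact (tstep2 T β hβ).T1o_base G (tstage T β) (tstage T _) d u hu x hx
  · intro δ hδ ih _ _ x hx u hu
    have hη : eta T β d ∈ T.A δ := T.mono hδ (eta_mem T β d)
    have ih' : T1oAt (T.A β) (T.A δ) (RD d) (eta T β d) (d.a : P) :=
      fun u hu x hx => ih 1 (T.A δ).one_mem x hx u hu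
    have hle : T.A β ≤ T.A δ := T.mono ((Order.le_succ β).trans hδ)
    rcases par δ with h | h
    · exact (tstep1 T δ h).T1o_step G (tstage T δ) (tstage T _) hle hη ih' u hu x hx
    · exact (tstep2 T δ h).T1o_step G (tstage T δ) (tstage T _) hle hη ih' u hu x hx

theorem tdesc (δ : Ordinal.{0}) {s t : P} (hs : s ∈ T.A (Order.succ δ)) (ht : s * t ∈ T.A δ) :
    t ∈ T.A δ := by
  have G := goodM T.good
  by_cases hsA : s ∈ T.A δ
  · exact (tstage T δ).lu s t hsA ht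
  have htB : t ∈ T.A (Order.succ δ) :=
    (tstage T _).lu s t hs (T.mono (Order.le_succ δ) ht)
  rcases par δ with h | h
  · exact (tstep1 T δ h).desc s hs hsA t htB ht
  · exact (tstep2 T δ h).desc G (tstage T δ) (tstage T _) s hs hsA t htB ht

/-- common representatives: pushing `(u, u')` down to the stage `β'`.
`D`, `D'` = filters of `P` generated by elements of `A β`, `A β'`. -/
theorem rep {β β' : Ordinal.{0}} (hle : β ≤ β') (D D' : P → Prop)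
    (hD : ∀ v, D v → ∃ k ∈ T.A β, D k ∧ v ∣ k) (hD' : ∀ v, D' v → ∃ k ∈ T.A β', D' k ∧ v ∣ k)
    {u u' : P} (hE : ∀ t, D (u * t) ↔ D' (u' * t)) (hu : D u) :
    ∃ c, u * c ∈ T.A β' ∧ u' * c ∈ T.A β' ∧ D (u * c) := by
  have key : ∀ γ, β' ≤ γ → (∃ c, u * c ∈ T.A γ ∧ u' * c ∈ T.A γ ∧ D (u * c)) →
      ∃ c, u * c ∈ T.A β' ∧ u' * c ∈ T.A β' ∧ D (u * c) := by
    refine ordInd id ?_ ?_
    · rintro δ hδ ih ⟨c, h1, h2, h3⟩
      obtain ⟨k', hk', hDk', e, he⟩ := hD' _ ((hE c).1 h3)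
      have heA : e ∈ T.A δ := tdesc T δ h2 (he ▸ T.mono hδ hk')
      have h4 : D' (u' * (c * e)) := by rwa [← mul_assoc, ← he]
      obtain ⟨k, hk, hDk, e', he'⟩ := hD _ ((hE (c * e)).2 h4)
      have h5 : u * (c * e) ∈ T.A (Order.succ δ) := by
        rw [← mul_assoc]
        exact (T.A _).mul_mem h1 (T.mono (Order.le_succ δ) heA)
      have heA' : e' ∈ T.A δ := tdesc T δ h5 (he' ▸ T.mono (hle.trans hδ) hk)
      refine ih ⟨c * e * e', ?_, ?_, ?_⟩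
      · rw [← mul_assoc, ← he']
        exact T.mono (hle.trans hδ) hk
      · rw [← mul_assoc, ← mul_assoc, ← he]
        exact (T.A δ).mul_mem (T.mono hδ hk') heA'
      · rw [← mul_assoc, ← he']; exact hDk
    · rintro γ h hγ ih ⟨c, h1, h2, h3⟩
      obtain ⟨δ1, hd1, h4⟩ := T.lim γ hγ _ h1
      obtain ⟨δ2, hd2, h5⟩ := T.lim γ hγ _ h2
      exact ih (max β' (max δ1 δ2)) (max_lt h (max_lt hd1 hd2)) (le_max_left _ _)
        ⟨c, T.mono ((le_max_left _ _).trans (le_max_right _ _)) h4,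
          T.mono ((le_max_right _ _).trans (le_max_right _ _)) h5, h3⟩
  obtain ⟨γ1, h1⟩ := T.exh u
  obtain ⟨γ2, h2⟩ := T.exh u'
  refine key (max β' (max γ1 γ2)) (le_max_left _ _) ⟨1, ?_, ?_, ?_⟩
  · rw [mul_one]
    exact T.mono ((le_max_left _ _).trans (le_max_right _ _)) h1
  · rw [mul_one]
    exact T.mono ((le_max_right _ _).trans (le_max_right _ _)) h2
  · rwa [mul_one]

theorem FP_gen {A : Submonoid P} {R : P → P → Prop} (hR : IsCl A R) (v : P) (h : FP R v) :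
    ∃ k ∈ A, FP R k ∧ v ∣ k := by
  obtain ⟨k, hk, hvk⟩ := h
  exact ⟨k, (hR.mem _ _ hk).1, ⟨k, hk, dvd_rfl⟩, hvk⟩

/-- half of (B) -/
theorem half {β β' : Ordinal.{0}} (hβ' : β' % 2 = 1)
    (d : Datum (T.A β)) (d' : Datum (T.A β')) (p : T.A β) (p' : T.A β')
    (hp : ∀ k, RD d k k → k ∣ (p : P)) (hη : InCl (RD d) (eta T β d))
    (hbp' : ¬ (d'.b : P) ∣ (p' : P))
    {u u' p0 q0 z z' : P} (h1 : (p : P) = u * p0) (h2 : (p' : P) = u' * p0)
    (h3 : eta T β d * z = u * q0) (h4 : eta T β' d' * z' = u' * q0) (hz' : ¬ (d'.a : P) ∣ z')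
    (t : P) (ht : FP (RD d) (u * t)) : FP (RD d') (u' * t) := by
  obtain ⟨k, hk, hk'⟩ := id ht
  obtain ⟨p1, hp1⟩ := hk'.trans (hp k hk)
  have e1 : p0 = t * p1 := T.good.lc u _ _ (by rw [← h1, hp1, mul_assoc])
  obtain ⟨q1, hq1⟩ := hη.dvd_FP ht
  have e2 : q0 = t * (q1 * z) := T.good.lc u _ _ (by
    rw [← h3]
    conv_lhs => rw [hq1]
    simp only [mul_assoc])
  refine T1_all T β' hβ' d' p' hbp' (u' * t) z' ⟨p1, ?_⟩ ⟨q1 * z, ?_⟩ hz'
  · rw [h2, e1, mul_assoc]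
  · rw [h4, e2]; simp only [mul_assoc]

/-- different stages are impossible -/
theorem T2_lt {β β' : Ordinal.{0}} (hlt : β < β') (hβ : β % 2 = 1) (hβ' : β' % 2 = 1)
    (d : Datum (T.A β)) (d' : Datum (T.A β')) (p : T.A β) (p' : T.A β')
    (hp : ∀ k, RD d k k → k ∣ (p : P)) (hbp : ¬ (d.b : P) ∣ (p : P))
    (hp' : ∀ k, RD d' k k → k ∣ (p' : P)) (hbp' : ¬ (d'.b : P) ∣ (p' : P))
    {u u' p0 q0 z z' : P} (h1 : (p : P) = u * p0) (h2 : (p' : P) = u' * p0)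
    (h3 : eta T β d * z = u * q0) (h4 : eta T β' d' * z' = u' * q0) (hz : ¬ (d.a : P) ∣ z)
    (hz' : ¬ (d'.a : P) ∣ z') : False := by
  have hη := eta_in T β hβ d
  have hη' := eta_in T β' hβ' d'
  have hE : ∀ t, FP (RD d) (u * t) ↔ FP (RD d') (u' * t) := fun t =>
    ⟨half T hβ' d d' p p' hp hη hbp' h1 h2 h3 h4 hz' t,
      half T hβ d' d p' p hp' hη' hbp h2 h1 h4 h3 hz t⟩
  have hu : FP (RD d) u := T1_all T β hβ d p hbp u z ⟨p0, h1⟩ ⟨q0, h3⟩ hz
  obtain ⟨c, hc1, hc2, hc3⟩ := rep T hlt.le (FP (RD d)) (FP (RD d'))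
    (fun v hv => FP_gen (RD_cl T.good (tstage T β) d) v hv)
    (fun v hv => FP_gen (RD_cl T.good (tstage T β') d') v hv) hE hu
  obtain ⟨e0, he0⟩ := hη.dvd_FP hc3
  have hηA : eta T β d ∈ T.A β' := T.mono (Order.succ_le_of_lt hlt) (eta_mem T β d)
  have he0A : e0 ∈ T.A β' := (tstage T β').lu _ _ hc1 (he0 ▸ hηA)
  have e1 : q0 = c * (e0 * z) := T.good.lc u _ _ (by
    rw [← h3]
    conv_lhs => rw [he0]
    simp only [mul_assoc])
  have h5 : FP (RD d') (u' * c * e0) := by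
    refine T1o_all T β' hβ' d' z' (u' * c * e0) ((T.A β').mul_mem hc2 he0A) ⟨z, ?_⟩ hz'
    rw [h4, e1]; simp only [mul_assoc]
  have h6 : FP (RD d) (eta T β d) := by
    rw [he0, mul_assoc]
    rw [mul_assoc] at h5
    exact (hE (c * e0)).2 h5
  obtain ⟨k, hk, hk'⟩ := h6
  exact not_eta_dvd T β hβ d p hbp (hk'.trans (hp k hk))

/-- the same stage -/
theorem T2_eq {β : Ordinal.{0}} (hβ : β % 2 = 1)
    (d : Datum (T.A β)) (d' : Datum (T.A β)) (p : T.A β) (p' : T.A β)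
    (hp : ∀ k, RD d k k → k ∣ (p : P)) (hbp : ¬ (d.b : P) ∣ (p : P))
    (hp' : ∀ k, RD d' k k → k ∣ (p' : P)) (hbp' : ¬ (d'.b : P) ∣ (p' : P))
    {u u' p0 q0 z z' : P} (h1 : (p : P) = u * p0) (h2 : (p' : P) = u' * p0)
    (h3 : eta T β d * z = u * q0) (h4 : eta T β d' * z' = u' * q0) (hz : ¬ (d.a : P) ∣ z)
    (hz' : ¬ (d'.a : P) ∣ z') : d = d' ∧ z = z' ∧
      ∃ x : P, u * x = u' * x ∧ FP (RD d) (u * x) ∧ u * x ∈ T.A β := by
  have G := goodM T.good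
  have hη := eta_in T β hβ d
  have hη' := eta_in T β hβ d'
  have hE : ∀ t, FP (RD d) (u * t) ↔ FP (RD d') (u' * t) := fun t =>
    ⟨half T hβ d d' p p' hp hη hbp' h1 h2 h3 h4 hz' t,
      half T hβ d' d p' p hp' hη' hbp h2 h1 h4 h3 hz t⟩
  have hu : FP (RD d) u := T1_all T β hβ d p hbp u z ⟨p0, h1⟩ ⟨q0, h3⟩ hz
  obtain ⟨c, hc1, hc2, hc3⟩ := rep T le_rfl (FP (RD d)) (FP (RD d'))
    (fun v hv => FP_gen (RD_cl T.good (tstage T β) d) v hv)
    (fun v hv => FP_gen (RD_cl T.good (tstage T β) d') v hv) hE hu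
  obtain ⟨t, ht⟩ := hη.dvd_FP hc3
  have e1 : q0 = c * (t * z) := T.good.lc u _ _ (by
    rw [← h3]
    conv_lhs => rw [ht]
    simp only [mul_assoc])
  have htB : t ∈ T.A (Order.succ β) :=
    (tstage T _).lu _ _ (T.mono (Order.le_succ β) hc1) (ht ▸ eta_mem T β d)
  have hr : RD d (u * c) (u * c) := by
    obtain ⟨_, ⟨k, k', τ, rfl, hkk, -, hk⟩, hck⟩ := hc3
    have hkF : k ∈ d.F.S := by
      obtain rfl := Subtype.ext hkk
      exact d.F.up _ _ (Dvd.intro _ rfl) hk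
    have : (⟨u * c, hc1⟩ : T.A β) ∣ k := (dvd_sub (tstage T β) _ _).2 hck
    exact (RD_self d ⟨u * c, hc1⟩).2 (d.F.up _ _ this hkF)
  have hζ : u' * c * t ∈ T.A (Order.succ β) :=
    (T.A _).mul_mem (T.mono (Order.le_succ β) hc2) htB
  obtain ⟨hzz, hdd, x, x', hx, hR⟩ := tind T (Order.succ β)
    (fun z z' => ¬ (d.a : P) ∣ z → ¬ (d'.a : P) ∣ z' → u' * c * t * z = eta T β d' * z' → z = z' ∧
      (d = d' ∧ ∃ x x', u' * c * x = x' ∧ RD d (u * c * x) x'))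
    ((tstep2 T β hβ).T2_base G (tstage T β) (tstage T _) d d' hc2 hr ht)
    (by
      intro δ hδ ih
      have hζ' : u' * c * t ∈ T.A δ := T.mono hδ hζ
      have hη'' : eta T β d' ∈ T.A δ := T.mono hδ (eta_mem T β d')
      rcases par δ with h | h
      · exact (tstep1 T δ h).T2_step G (tstage T δ) (tstage T _) hζ' hη'' ih
      · exact (tstep2 T δ h).T2_step G (tstage T δ) (tstage T _) hζ' hη'' ih) z z' hz hz'
    (by rw [h4, e1]; simp only [mul_assoc])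
  refine ⟨hdd, hzz, ?_⟩
  obtain ⟨s, r, τ, hs, hr', hsr, hF⟩ := hR
  have e2 : u * (c * x * τ) = s * τ := by rw [hs]; simp only [mul_assoc]
  have e3 : u' * (c * x * τ) = r * τ := by rw [hr', ← hx]; simp only [mul_assoc]
  have e4 : (s : P) * τ = r * τ := congrArg Subtype.val hsr
  refine ⟨c * x * τ, by rw [e2, e3, e4], ?_, ?_⟩
  · rw [e2, e4]
    exact ⟨_, (RD_self d (r * τ)).2 hF, dvd_rfl⟩
  · rw [e2]; exact (s * τ).2

theorem T2_same {β β' : Ordinal.{0}} (h : β = β') (hβ : β % 2 = 1)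
    (d : Datum (T.A β)) (d' : Datum (T.A β')) (p : T.A β) (p' : T.A β')
    (hp : ∀ k, RD d k k → k ∣ (p : P)) (hbp : ¬ (d.b : P) ∣ (p : P))
    (hp' : ∀ k, RD d' k k → k ∣ (p' : P)) (hbp' : ¬ (d'.b : P) ∣ (p' : P))
    {u u' p0 q0 z z' : P} (h1 : (p : P) = u * p0) (h2 : (p' : P) = u' * p0)
    (h3 : eta T β d * z = u * q0) (h4 : eta T β' d' * z' = u' * q0) (hz : ¬ (d.a : P) ∣ z)
    (hz' : ¬ (d'.a : P) ∣ z') : (⟨β, d⟩ : Σ β, Datum (T.A β)) = ⟨β', d'⟩ ∧ z = z' ∧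
      ∃ x : P, u * x = u' * x ∧ FP (RD d) (u * x) := by
  subst h
  obtain ⟨rfl, e, x, hx, hF, -⟩ := T2_eq T hβ d d' p p' hp hbp hp' hbp' h1 h2 h3 h4 hz hz'
  exact ⟨rfl, e, x, hx, hF⟩

/-! ## the literal form -/

/-- restriction of a filter to a stage -/
def resF {A : Submonoid P} (h : Stage A) (F : Filt P) : Filt A where
  S := {s | (s : P) ∈ F.S}
  one := F.one
  up x s hxs hs := F.up _ _ ((dvd_sub h _ _).1 hxs) hs
  dir s t hs ht := by
    obtain ⟨m, hm, h1, h2⟩ := F.dir _ _ hs ht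
    obtain ⟨c, hc, h3, h4, h5⟩ := h.lcm s t m s.2 t.2 h1 h2
    exact ⟨⟨c, hc⟩, F.up _ _ (h5 m h1 h2) hm, (dvd_sub h _ _).2 h3, (dvd_sub h _ _).2 h4⟩

/-- the datum at the stage -/
def dat (D : TDat T) : Datum (T.A D.β) where
  F := resF (tstage T D.β) D.F
  a := ⟨D.a, D.ha⟩
  b := ⟨D.b, D.hb⟩
  a_ne h := D.a_ne (congrArg Subtype.val h)
  b_mem _ hs := (dvd_sub (tstage T D.β) _ _).2 ((D.mem _ hs).trans D.dvd)
  ex_p := ⟨⟨D.p, D.hp⟩, fun _ hs => (dvd_sub (tstage T D.β) _ _).2 (D.mem _ hs),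
    (dvd_sub (tstage T D.β) _ _).2 D.dvd, fun h => D.ndvd ((dvd_sub (tstage T D.β) _ _).1 h)⟩

theorem FP_dat (D : TDat T) (u : P) : FP (RD (dat T D)) u ↔ u ∈ D.F.S := by
  constructor
  · rintro ⟨_, ⟨k, k', τ, rfl, h1, -, h2⟩, hu⟩
    obtain rfl := Subtype.ext h1
    exact D.F.up _ _ hu ((dat T D).F.up _ _ (Dvd.intro _ rfl) h2)
  · intro h
    obtain ⟨m, hm, hmF, hum⟩ := D.gen u h
    exact ⟨m, (RD_self (dat T D) ⟨m, hm⟩).2 hmF, hum⟩

theorem filt_ext {F F' : Filt P} (h : F.S = F'.S) : F = F' := by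
  cases F; cases F'; cases h; rfl

theorem dat_inj (D D' : TDat T) (hβ : D.β = D'.β)
    (h : (⟨D.β, dat T D⟩ : Σ β, Datum (T.A β)) = ⟨D'.β, dat T D'⟩) (hp : D.p = D'.p) : D = D' := by
  obtain ⟨β, odd, F, a, b, p, gen, ha, hb, hp1, a_ne, mem, dvd, ndvd⟩ := D
  obtain ⟨β', odd', F', a', b', p', gen', ha', hb', hp1', a_ne', mem', dvd', ndvd'⟩ := D'
  obtain rfl : β = β' := hβ
  obtain rfl : p = p' := hp
  have h' := eq_of_heq (Sigma.mk.inj h).2
  have e1 : a = a' := congrArg (fun d : Datum (T.A β) => (d.a : P)) h'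
  have e2 : b = b' := congrArg (fun d : Datum (T.A β) => (d.b : P)) h'
  have e3 : {s : T.A β | (s : P) ∈ F.S} = {s : T.A β | (s : P) ∈ F'.S} :=
    congrArg (fun d : Datum (T.A β) => d.F.S) h'
  subst e1
  subst e2
  have e4 : F = F' := by
    apply filt_ext
    ext s
    constructor
    · intro hs
      obtain ⟨m, hm, hmF, hsm⟩ := gen s hs
      have : (⟨m, hm⟩ : T.A β) ∈ {s : T.A β | (s : P) ∈ F'.S} := by rw [← e3]; exact hmF
      exact F'.up _ _ hsm this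
    · intro hs
      obtain ⟨m, hm, hmF, hsm⟩ := gen' s hs
      have : (⟨m, hm⟩ : T.A β) ∈ {s : T.A β | (s : P) ∈ F.S} := by rw [e3]; exact hmF
      exact F.up _ _ hsm this
  subst e4
  rfl

/-- **A-T**, interface v2 -/
theorem stT : StT T := by
  refine ⟨fun D => eta T D.β (dat T D), ?_⟩
  have hRp : ∀ (D : TDat T) (k : P), RD (dat T D) k k → k ∣ D.p := by
    intro D k hk
    exact D.mem k ((FP_dat T D k).1 ⟨k, hk, dvd_rfl⟩)
  refine { succ := fun D => eta_mem T _ _, new := fun D => eta_new T _ D.odd _,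
           rel := fun D => eta_a T _ D.odd _, t3 := ?_, t0 := ?_, t1 := ?_, t1' := ?_, t2 := ?_ }
  · intro D u hu
    exact (eta_in T D.β D.odd (dat T D)).dvd_FP ((FP_dat T D u).2 hu)
  · intro D s z hs h
    exact T0_all T D.β D.odd (dat T D) s z hs h
  · intro D u z h1 h2 h3
    exact (FP_dat T D u).1 (T1_all T D.β D.odd (dat T D) ⟨D.p, D.hp⟩ D.ndvd u z h1 h2 h3)
  · intro D u z h1 h2 h3
    exact (FP_dat T D u).1 (T1o_all T D.β D.odd (dat T D) z u h1 h2 h3)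
  · intro D D' s s' z z' h1 h2 hz hz'
    obtain ⟨u, v, huv, hmin⟩ := T.good.lcm s s' D.p D'.p h1
    obtain ⟨p0, hp0, hp0'⟩ := hmin _ _ h1
    obtain ⟨q0, hq0, hq0'⟩ := hmin (eta T D.β (dat T D) * z) (eta T D'.β (dat T D') * z')
      (by rw [← mul_assoc, ← mul_assoc]; exact h2)
    rcases lt_trichotomy D.β D'.β with h | h | h
    · exact (T2_lt T h D.odd D'.odd (dat T D) (dat T D') ⟨D.p, D.hp⟩ ⟨D'.p, D'.hp⟩ (hRp D) D.ndvd
        (hRp D') D'.ndvd hp0 hp0' hq0 hq0' hz hz').elim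
    · obtain ⟨e1, e2, x, e3, hF⟩ := T2_same T h D.odd (dat T D) (dat T D') ⟨D.p, D.hp⟩ ⟨D'.p, D'.hp⟩
        (hRp D) D.ndvd (hRp D') D'.ndvd hp0 hp0' hq0 hq0' hz hz'
      have hF' : u * x ∈ D.F.S := (FP_dat T D _).1 hF
      have hs : s * (u * x) = s' * (u * x) := by
        conv_rhs => rw [e3]
        rw [← mul_assoc, ← mul_assoc, huv]
      have hpp : D.p = D'.p := by
        obtain ⟨y1, hy1⟩ := D.mem _ hF'
        have h5 : s' * D.p = s * D.p := by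
          calc s' * D.p = s' * (u * x) * y1 := by rw [hy1]; simp only [mul_assoc]
            _ = s * (u * x) * y1 := by rw [hs]
            _ = s * D.p := by rw [hy1]; simp only [mul_assoc]
        exact T.good.lc s' _ _ (h5.trans h1)
      exact ⟨dat_inj T D D' h e1 hpp, e2, u * x, hF', hs⟩
    · exact (T2_lt T h D'.odd D.odd (dat T D') (dat T D) ⟨D'.p, D'.hp⟩ ⟨D.p, D.hp⟩ (hRp D') D'.ndvd
        (hRp D) D.ndvd hp0' hp0 hq0' hq0 hz' hz).elim

end Crest.Agent.R296.TF2x774
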