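import Crest.Agent.R296.OutA_378
import Crest.Agent.R296.FiltC_70

/-! Row 296 (S0448), block A, leaf A-TOUT: `stTOut : OutAx378.StTOut` (from `FiltC_70`, `TFin_774`). -/

set_option autoImplicit false

namespace Crest.Agent.R296.TOutx774

open Crest.Agent.R296.IfAx378 (IsGood IsLcm Disj Cons Filt Tower)
open Crest.Agent.R296.OutAx378
open Crest.Agent.R296.FiltCx70 (etaF tlem)

variable {P : Type 1} [Monoid P] (T : Tower P)

/-- conversion of data -/
def cv (D : TDat T.A) : FiltCx70.TDat T where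
  β := D.β
  odd := D.odd
  F := D.F
  a := D.a
  b := D.b
  p := D.p
  gen := D.gen
  ha := D.ha
  hb := D.hb
  hp := D.hp
  a_ne := D.a_ne
  mem := D.mem
  dvd := D.dvd
  ndvd := D.ndvd

theorem cv_inj {D D' : TDat T.A} (h : cv T D = cv T D') : D = D' := by
  cases D; cases D'
  have h' := (FiltCx70.TDat.ext_iff).1 h
  obtain ⟨h1, h2, h3, h4, h5⟩ := h'
  simp only [cv] at h1 h2 h3 h4 h5
  subst h1; subst h2; subst h3; subst h4; subst h5
  rfl

theorem tlem' : TLem (A := T.A) (fun D => etaF T (cv T D)) where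
  succ D := (tlem T).succ (cv T D)
  new D := (tlem T).new (cv T D)
  rel D := (tlem T).rel (cv T D)
  t3 D := (tlem T).t3 (cv T D)
  t0 D := (tlem T).t0 (cv T D)
  t1 D := (tlem T).t1 (cv T D)
  t1' D := (tlem T).t1' (cv T D)
  t2 D D' s s' z z' h1 h2 h3 h4 := by
    obtain ⟨h5, h6, h7⟩ := (tlem T).t2 (cv T D) (cv T D') s s' z z' h1 h2 h3 h4
    exact ⟨cv_inj T h5, h6, h7⟩

theorem stTOut : StTOut := fun _ _ T => ⟨_, tlem' T⟩

end Crest.Agent.R296.TOutx774
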