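import Crest.Agent.R296.TowT_281

/-!
# Row 296, block A, leaf A-TOW, part 2: monoids on subsets of one carrier (helper281)
-/

set_option autoImplicit false

universe u v w

namespace Crest.Agent.R296.TowGx281

open IfAx378 TowTx281

/-- the carrier -/
abbrev Om : Type 1 := Ordinal.{0}

/-- a monoid on a subset of the carrier -/
structure GM where
  X : Set Om
  op : Om → Om → Om
  o : Om
  o_mem : o ∈ X
  op_mem : ∀ x ∈ X, ∀ y ∈ X, op x y ∈ X
  assoc : ∀ x ∈ X, ∀ y ∈ X, ∀ z ∈ X, op (op x y) z = op x (op y z)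
  o_op : ∀ x ∈ X, op o x = x
  op_o : ∀ x ∈ X, op x o = x

instance (G : GM) : Monoid G.X where
  mul x y := ⟨G.op x.1 y.1, G.op_mem _ x.2 _ y.2⟩
  one := ⟨G.o, G.o_mem⟩
  mul_assoc x y z := Subtype.ext (G.assoc _ x.2 _ y.2 _ z.2)
  one_mul x := Subtype.ext (G.o_op _ x.2)
  mul_one x := Subtype.ext (G.op_o _ x.2)

theorem coe_mul (G : GM) (x y : G.X) : ((x * y : G.X) : Om) = G.op x y := rfl
theorem coe_one (G : GM) : ((1 : G.X) : Om) = G.o := rfl

/-- extension -/
structure Sub (G G' : GM) : Prop where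
  sub : G.X ⊆ G'.X
  o : G'.o = G.o
  op : ∀ x ∈ G.X, ∀ y ∈ G.X, G'.op x y = G.op x y

/-- the inclusion -/
def Sub.incl {G G' : GM} (h : Sub G G') : G.X →* G'.X where
  toFun x := ⟨x.1, h.sub x.2⟩
  map_one' := Subtype.ext (by rw [coe_one, coe_one]; exact h.o.symm)
  map_mul' x y := Subtype.ext (by simp only [coe_mul]; exact (h.op _ x.2 _ y.2).symm)

@[simp] theorem coe_incl {G G' : GM} (h : Sub G G') (x : G.X) : ((h.incl x : G'.X) : Om) = x := rfl

theorem Sub.refl (G : GM) : Sub G G := ⟨subset_rfl, rfl, fun _ _ _ _ => rfl⟩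

theorem Sub.trans {G G' G'' : GM} (h : Sub G G') (h' : Sub G' G'') : Sub G G'' where
  sub := h.sub.trans h'.sub
  o := h'.o.trans h.o
  op x hx y hy := (h'.op x (h.sub hx) y (h.sub hy)).trans (h.op x hx y hy)

/-- conservative extension -/
def Le (G G' : GM) : Prop := ∃ h : Sub G G', Cons h.incl

theorem Le.refl (G : GM) : Le G G := by
  refine ⟨Sub.refl G, ⟨fun x y h => h, fun f g x' y' h => ⟨x', y', 1, h, ?_, ?_⟩⟩⟩
  · simp; rfl
  · simp; rfl

theorem Le.trans {G G' G'' : GM} (h : Le G G') (h' : Le G' G'') : Le G G'' := by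
  obtain ⟨s, c⟩ := h
  obtain ⟨s', c'⟩ := h'
  exact ⟨s.trans s', cons_comp s.incl s'.incl c c'⟩

/-- the monoid `P'` copied to the carrier along an injection -/
noncomputable def rangeGM {P' : Type} [Monoid P'] (j : P' → Om) (hj : Function.Injective j) : GM where
  X := Set.range j
  op := fun x y => j (Function.invFun j x * Function.invFun j y)
  o := j 1
  o_mem := ⟨1, rfl⟩
  op_mem := by rintro _ ⟨p, rfl⟩ _ ⟨q, rfl⟩; exact ⟨_, rfl⟩
  assoc := by
    rintro _ ⟨p, rfl⟩ _ ⟨q, rfl⟩ _ ⟨r, rfl⟩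
    simp only [Function.leftInverse_invFun hj _, mul_assoc]
  o_op := by rintro _ ⟨p, rfl⟩; simp only [Function.leftInverse_invFun hj _, one_mul]
  op_o := by rintro _ ⟨p, rfl⟩; simp only [Function.leftInverse_invFun hj _, mul_one]

/-- see `rangeGM` -/
noncomputable def rangeEq {P' : Type} [Monoid P'] (j : P' → Om) (hj : Function.Injective j) :
    (rangeGM j hj).X ≃* P' where
  toFun := fun x => Function.invFun j x.1
  invFun := fun p => ⟨j p, p, rfl⟩
  left_inv := by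
    rintro ⟨_, p, rfl⟩
    exact Subtype.ext (by simp only [Function.leftInverse_invFun hj _])
  right_inv := fun p => Function.leftInverse_invFun hj p
  map_mul' := by
    rintro x y
    exact Function.leftInverse_invFun hj _

/-- every injective homomorphism from a small `G` into a small monoid can be realised by an
extension inside the carrier -/
theorem embed (G : GM) [Small.{0} G.X] (P' : Type) [Monoid P'] (φ : G.X →* P')
    (hφ : Function.Injective φ) :
    ∃ (G' : GM) (h : Sub G G') (e : G'.X ≃* P'), Small.{0} G'.X ∧ ∀ x, e (h.incl x) = φ x := by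
  classical
  -- a bound of `X`
  obtain ⟨b, hb⟩ : ∃ b : Om, ∀ x ∈ G.X, x < b := by
    obtain ⟨b, hb⟩ := Ordinal.bddAbove_of_small (s := G.X)
    exact ⟨Order.succ b, fun x hx => Order.lt_succ_of_le (hb hx)⟩
  let j : P' → Om := fun p => if h : ∃ x : G.X, φ x = p then (h.choose : G.X).1 else
    b + Ordinal.typein (WellOrderingRel (α := P')) p
  have j1 : ∀ x : G.X, j (φ x) = x.1 := by
    intro x
    have h : ∃ z : G.X, φ z = φ x := ⟨x, rfl⟩
    have : j (φ x) = (h.choose : G.X).1 := by simp only [j]; rw [dif_pos h]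
    rw [this, hφ h.choose_spec]
  have j2 : ∀ p, (¬ ∃ x : G.X, φ x = p) → j p = b + Ordinal.typein (WellOrderingRel (α := P')) p := by
    intro p hp
    simp only [j]; rw [dif_neg hp]
  have hj : Function.Injective j := by
    intro p q hpq
    by_cases hp : ∃ x : G.X, φ x = p <;> by_cases hq : ∃ x : G.X, φ x = q
    · obtain ⟨x, rfl⟩ := hp
      obtain ⟨y, rfl⟩ := hq
      rw [j1, j1] at hpq
      rw [Subtype.ext hpq]
    · obtain ⟨x, rfl⟩ := hp
      rw [j1, j2 q hq] at hpq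
      have := hb _ x.2
      rw [hpq] at this
      exact absurd this (not_lt.2 le_self_add)
    · obtain ⟨x, rfl⟩ := hq
      rw [j1, j2 p hp] at hpq
      have := hb _ x.2
      rw [← hpq] at this
      exact absurd this (not_lt.2 le_self_add)
    · rw [j2 p hp, j2 q hq] at hpq
      exact Ordinal.typein_injective (WellOrderingRel (α := P')) (by simpa using hpq)
  have hk : ∀ p, Function.invFun j (j p) = p := fun p => Function.leftInverse_invFun hj p
  have hS : Sub G (rangeGM j hj) :=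
    { sub := fun x hx => ⟨φ ⟨x, hx⟩, j1 ⟨x, hx⟩⟩
      o := by
        change j 1 = G.o
        have := j1 (1 : G.X)
        rw [map_one] at this
        exact this
      op := by
        intro x hx y hy
        change j (Function.invFun j x * Function.invFun j y) = _
        have h1 : Function.invFun j x = φ ⟨x, hx⟩ := by rw [← hk (φ ⟨x, hx⟩), j1]
        have h2 : Function.invFun j y = φ ⟨y, hy⟩ := by rw [← hk (φ ⟨y, hy⟩), j1]
        rw [h1, h2, ← map_mul, j1]
        rfl }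
  refine ⟨rangeGM j hj, hS, rangeEq j hj, small_range j, fun x => ?_⟩
  change Function.invFun j x.1 = φ x
  rw [← j1 x, hk]

/-! ## the steps -/

/-- `G ≤ G'` is an (S1) step with `J` -/
def IsS1 (J : Type) (G G' : GM) : Prop := ∃ h : Sub G G', S1Id J h.incl

/-- `G ≤ G'` is an (S2) step -/
def IsS2 (G G' : GM) : Prop := ∃ h : Sub G G', S2Id h.incl

theorem exS1 (H1 : StS1) (J : Type) (G : GM) (hs : Small.{0} G.X) (hG : IsGood G.X) :
    ∃ G', Le G G' ∧ Small.{0} G'.X ∧ IsGood G'.X ∧ IsS1 J G G' := by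
  let e : G.X ≃* Shrink.{0} G.X := Shrink.mulEquiv.symm
  obtain ⟨P', _, ι, κ, h⟩ := H1 (Shrink.{0} G.X) (isGood_tr e.symm hG) (LAct (Shrink.{0} G.X) J) J
    (fun i => i)
  obtain ⟨G', hS, e', hs', he'⟩ := embed G P' (ι.comp e.toMonoidHom) (h.cons.inj.comp e.injective)
  have hc : ∀ p, e' (hS.incl p) = ι (e p) := he'
  exact ⟨G', ⟨hS, cons_tr _ ι e e' hc h.cons⟩, hs', isGood_tr e' h.good, hS,
    s1_tr J hS.incl ι e e' hc ⟨κ, h⟩⟩

theorem exS2 (H2 : StH) (G : GM) (hs : Small.{0} G.X) (hG : IsGood G.X) :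
    ∃ G', Le G G' ∧ Small.{0} G'.X ∧ IsGood G'.X ∧ IsS2 G G' := by
  let e : G.X ≃* Shrink.{0} G.X := Shrink.mulEquiv.symm
  obtain ⟨P', _, ι, y, len, h⟩ := H2 (Shrink.{0} G.X) (isGood_tr e.symm hG)
  obtain ⟨G', hS, e', hs', he'⟩ := embed G P' (ι.comp e.toMonoidHom) (h.cons.inj.comp e.injective)
  have hc : ∀ p, e' (hS.incl p) = ι (e p) := he'
  exact ⟨G', ⟨hS, cons_tr _ ι e e' hc h.cons⟩, hs', isGood_tr e' h.good, hS,
    s2_tr hS.incl ι e e' hc ⟨y, len, h⟩⟩

/-! ## unions -/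

section union

variable {I : Type w} (F : I → GM)

/-- directed family -/
def Dir : Prop := ∀ i j, ∃ k, Le (F i) (F k) ∧ Le (F j) (F k)

open Classical in
/-- the product in the union -/
noncomputable def uop (x y : Om) : Om :=
  if h : ∃ i, x ∈ (F i).X ∧ y ∈ (F i).X then (F h.choose).op x y else x

variable {F}

theorem uop_eq (hF : Dir F) {i : I} {x y : Om} (hx : x ∈ (F i).X) (hy : y ∈ (F i).X) :
    uop F x y = (F i).op x y := by
  have h : ∃ i, x ∈ (F i).X ∧ y ∈ (F i).X := ⟨i, hx, hy⟩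
  unfold uop
  rw [dif_pos h]
  obtain ⟨k, ⟨s1, _⟩, ⟨s2, _⟩⟩ := hF h.choose i
  rw [← s1.op _ h.choose_spec.1 _ h.choose_spec.2, s2.op _ hx _ hy]

theorem o_eq (hF : Dir F) (i j : I) : (F i).o = (F j).o := by
  obtain ⟨k, ⟨s1, _⟩, ⟨s2, _⟩⟩ := hF i j
  rw [← s1.o, s2.o]

theorem dir2 (hF : Dir F) {x y : Om} (hx : x ∈ ⋃ i, (F i).X) (hy : y ∈ ⋃ i, (F i).X) (i0 : I) :
    ∃ k, Le (F i0) (F k) ∧ x ∈ (F k).X ∧ y ∈ (F k).X := by
  obtain ⟨i, hi⟩ := Set.mem_iUnion.1 hx
  obtain ⟨j, hj⟩ := Set.mem_iUnion.1 hy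
  obtain ⟨k, h1, h2⟩ := hF i j
  obtain ⟨l, h3, h4⟩ := hF i0 k
  exact ⟨l, h3, h4.choose.sub (h1.choose.sub hi), h4.choose.sub (h2.choose.sub hj)⟩

/-- the union of a directed family -/
noncomputable def union (hF : Dir F) (i0 : I) : GM where
  X := ⋃ i, (F i).X
  op := uop F
  o := (F i0).o
  o_mem := Set.mem_iUnion.2 ⟨i0, (F i0).o_mem⟩
  op_mem x hx y hy := by
    obtain ⟨k, -, h1, h2⟩ := dir2 hF hx hy i0
    rw [uop_eq hF h1 h2]
    exact Set.mem_iUnion.2 ⟨k, (F k).op_mem _ h1 _ h2⟩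
  assoc x hx y hy z hz := by
    obtain ⟨k, -, h1, h2⟩ := dir2 hF hx hy i0
    obtain ⟨l, h3, h4, -⟩ := dir2 hF hz hz k
    have h5 := h3.choose.sub h1
    have h6 := h3.choose.sub h2
    rw [uop_eq hF h5 h6, uop_eq hF h6 h4, uop_eq hF ((F l).op_mem _ h5 _ h6) h4,
      uop_eq hF h5 ((F l).op_mem _ h6 _ h4), (F l).assoc _ h5 _ h6 _ h4]
  o_op x hx := by
    obtain ⟨k, h3, h1, -⟩ := dir2 hF hx hx i0
    have h4 := h3.choose.sub (F i0).o_mem
    rw [uop_eq hF h4 h1, o_eq hF i0 k, (F k).o_op _ h1]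
  op_o x hx := by
    obtain ⟨k, h3, h1, -⟩ := dir2 hF hx hx i0
    have h4 := h3.choose.sub (F i0).o_mem
    rw [uop_eq hF h1 h4, o_eq hF i0 k, (F k).op_o _ h1]

theorem sub_union (hF : Dir F) (i0 i : I) : Sub (F i) (union hF i0) where
  sub _ hx := Set.mem_iUnion.2 ⟨i, hx⟩
  o := o_eq hF i0 i
  op _ hx _ hy := uop_eq hF hx hy

theorem le_union (hF : Dir F) (i0 i : I) : Le (F i) (union hF i0) := by
  refine ⟨sub_union hF i0 i, ⟨fun x y h => ?_, ?_⟩⟩
  · exact Subtype.ext (congrArg (fun z : (union hF i0).X => z.1) h)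
  · rintro f g ⟨x', hx'⟩ ⟨y', hy'⟩ hh
    obtain ⟨k, h1, h2, h3⟩ := dir2 hF hx' hy' i
    obtain ⟨s1, c1⟩ := h1
    obtain ⟨x, y, t, h4, h5, h6⟩ := c1.amal f g ⟨x', h2⟩ ⟨y', h3⟩ (by
      apply Subtype.ext
      have := congrArg (fun z : (union hF i0).X => z.1) hh
      simp only [coe_mul, coe_incl] at this ⊢
      change uop F _ _ = uop F _ _ at this
      rwa [uop_eq hF (s1.sub f.2) h2, uop_eq hF (s1.sub g.2) h3] at this)
    refine ⟨x, y, (sub_union hF i0 k).incl t, h4, ?_, ?_⟩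
    · apply Subtype.ext
      have h5 := congrArg (fun z : (F k).X => z.1) h5
      simp only [coe_mul, coe_incl] at h5 ⊢
      change x' = uop F _ _
      rw [uop_eq hF (s1.sub x.2) t.2, ← h5]
    · apply Subtype.ext
      have h6 := congrArg (fun z : (F k).X => z.1) h6
      simp only [coe_mul, coe_incl] at h6 ⊢
      change y' = uop F _ _
      rw [uop_eq hF (s1.sub y.2) t.2, ← h6]

theorem good_union (hF : Dir F) (i0 : I) (hg : ∀ i, IsGood (F i).X) :
    IsGood (union hF i0).X := by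
  -- every element comes from below
  have key : ∀ (x y : (union hF i0).X) (i : I), ∃ k, Le (F i) (F k) ∧
      ∃ (x0 y0 : (F k).X), (sub_union hF i0 k).incl x0 = x ∧ (sub_union hF i0 k).incl y0 = y := by
    intro x y i
    obtain ⟨k, h1, h2, h3⟩ := dir2 hF x.2 y.2 i
    exact ⟨k, h1, ⟨x.1, h2⟩, ⟨y.1, h3⟩, rfl, rfl⟩
  have inj : ∀ k, Function.Injective (sub_union hF i0 k).incl := by
    intro k x y h
    exact Subtype.ext (congrArg (fun z : (union hF i0).X => z.1) h)
  have comp : ∀ i k (h : Sub (F i) (F k)) (x : (F i).X),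
      (sub_union hF i0 k).incl (h.incl x) = (sub_union hF i0 i).incl x := by
    intro i k h x; rfl
  refine ⟨fun f g h hh => ?_, fun f g hh => ?_, fun f g x y hh => ?_⟩
  · obtain ⟨i, -, f0, g0, rfl, rfl⟩ := key f g i0
    obtain ⟨k, h1, h0, -, rfl, -⟩ := key h h i
    obtain ⟨s, -⟩ := h1
    have hh' : (sub_union hF i0 k).incl (s.incl f0 * s.incl g0) =
        (sub_union hF i0 k).incl (s.incl f0 * h0) := by
      rw [map_mul _ (s.incl f0) (s.incl g0), map_mul _ (s.incl f0) h0, comp, comp]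
      exact hh
    rw [← comp i k s g0, (hg k).lc _ _ _ (inj k hh')]
  · obtain ⟨i, -, f0, g0, rfl, rfl⟩ := key f g i0
    rw [← map_mul, ← map_one (sub_union hF i0 i).incl] at hh
    rw [(hg i).unit _ _ (inj i hh), map_one]
  · obtain ⟨i, -, f0, g0, rfl, rfl⟩ := key f g i0
    obtain ⟨si, ci⟩ := le_union hF i0 i
    obtain ⟨x0, y0, t, h1, h2, h3⟩ := ci.amal _ _ _ _ hh
    obtain ⟨u, v, h4, h5⟩ := (hg i).lcm _ _ _ _ h1
    refine ⟨(sub_union hF i0 i).incl u, (sub_union hF i0 i).incl v, ?_, fun x' y' hh' => ?_⟩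
    · rw [← map_mul, ← map_mul, h4]
    · obtain ⟨x1, y1, t1, h1', h2', h3'⟩ := ci.amal _ _ _ _ hh'
      obtain ⟨r, h6, h7⟩ := h5 _ _ h1'
      refine ⟨(sub_union hF i0 i).incl r * t1, ?_, ?_⟩
      · rw [h2', h6, map_mul, mul_assoc]
      · rw [h3', h7, map_mul, mul_assoc]

theorem small_union [Small.{0} I] (hF : Dir F) (i0 : I) (hs : ∀ i, Small.{0} (F i).X) :
    Small.{0} (union hF i0).X := by
  have := hs
  change Small.{0} (⋃ i, (F i).X : Set Om)
  infer_instance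

end union

end Crest.Agent.R296.TowGx281
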