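import Crest.Agent.R296.IfA_378

/-!
# Row 296, block A, leaf A-TOW, part 1: transport of the interface structures along isomorphisms
(helper281)
-/

set_option autoImplicit false

universe u v w u' v'

namespace Crest.Agent.R296.TowTx281

open IfAx378

section good
variable {P : Type u} {Q : Type v} [Monoid P] [Monoid Q]

theorem isGood_tr (e : P ≃* Q) (h : IsGood Q) : IsGood P where
  lc f g k hfg := e.injective (h.lc (e f) _ _ (by simpa using congrArg e hfg))
  unit f g hfg := e.injective (by simpa using h.unit (e f) (e g) (by simpa using congrArg e hfg))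
  lcm f g x y hxy := by
    obtain ⟨u, v, huv, H⟩ := h.lcm (e f) (e g) (e x) (e y) (by simpa using congrArg e hxy)
    refine ⟨e.symm u, e.symm v, e.injective (by simpa using huv), fun x' y' h' => ?_⟩
    obtain ⟨t, h1, h2⟩ := H (e x') (e y') (by simpa using congrArg e h')
    exact ⟨e.symm t, e.injective (by simpa using h1), e.injective (by simpa using h2)⟩

theorem dvd_tr (e : P ≃* Q) {x y : P} : e x ∣ e y ↔ x ∣ y := map_dvd_iff e

end good

section cons
variable {P : Type u} {P' : Type v} {Q : Type u'} {Q' : Type v'}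
  [Monoid P] [Monoid P'] [Monoid Q] [Monoid Q']

theorem cons_tr (ι : P →* P') (ι' : Q →* Q') (e : P ≃* Q) (e' : P' ≃* Q')
    (hc : ∀ p, e' (ι p) = ι' (e p)) (h : Cons ι') : Cons ι where
  inj x y hxy := e.injective (h.inj (by rw [← hc, ← hc, hxy]))
  amal f g x' y' hh := by
    obtain ⟨x, y, t, h1, h2, h3⟩ := h.amal (e f) (e g) (e' x') (e' y')
      (by rw [← hc, ← hc, ← map_mul, ← map_mul, hh])
    refine ⟨e.symm x, e.symm y, e'.symm t, e.injective (by simpa using h1), ?_, ?_⟩
    · apply e'.injective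
      rw [map_mul, hc, h2]
      simp
    · apply e'.injective
      rw [map_mul, hc, h3]
      simp

theorem cons_comp {P : Type u} {P' : Type v} {P'' : Type w} [Monoid P] [Monoid P'] [Monoid P'']
    (ι : P →* P') (ι' : P' →* P'') (h : Cons ι) (h' : Cons ι') : Cons (ι'.comp ι) where
  inj := h'.inj.comp h.inj
  amal f g x'' y'' hh := by
    obtain ⟨x', y', t, h1, h2, h3⟩ := h'.amal (ι f) (ι g) x'' y'' hh
    obtain ⟨x, y, s, h4, h5, h6⟩ := h.amal f g x' y' h1
    refine ⟨x, y, ι' s * t, h4, ?_, ?_⟩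
    · rw [h2, h5, map_mul, mul_assoc]; rfl
    · rw [h3, h6, map_mul, mul_assoc]; rfl

end cons

/-! ## (S1) -/

section s1

/-- transport of an act -/
def lmap {P : Type u} {Q : Type v} [Monoid P] [Monoid Q] {J : Type w} (e : P ≃* Q)
    (a : LAct P J) : LAct Q J where
  r j x j' x' := a.r j (e.symm x) j' (e.symm x')
  refl j x := a.refl _ _
  symm j x j' x' h := a.symm _ _ _ _ h
  trans j x j' x' j'' x'' h h' := a.trans _ _ _ _ _ _ h h'
  act j x j' x' p h := by
    simpa using a.act _ _ _ _ (e.symm p) h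
  free j x x' h := e.symm.injective (a.free _ _ _ h)
  lcm j x j' x' h := by
    obtain ⟨y, y', h1, h2⟩ := a.lcm _ _ _ _ h
    refine ⟨e y, e y', by simpa using h1, fun z z' hz => ?_⟩
    obtain ⟨t, h3, h4⟩ := h2 _ _ hz
    refine ⟨e t, ?_, ?_⟩
    · apply e.symm.injective; simpa using h3
    · apply e.symm.injective; simpa using h4

theorem lmap_r {P : Type u} {Q : Type v} [Monoid P] [Monoid Q] {J : Type w} (e : P ≃* Q)
    (a : LAct P J) (j : J) (x : P) (j' : J) (x' : P) :
    (lmap e a).r j (e x) j' (e x') ↔ a.r j x j' x' := by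
  simp [lmap]

theorem lmap_inj {P : Type u} {Q : Type v} [Monoid P] [Monoid Q] {J : Type w} (e : P ≃* Q) :
    Function.Injective (lmap (J := J) e) := by
  intro a b h
  ext j x j' x'
  rw [← lmap_r e, h, lmap_r]

/-- (S1) step with all acts on `J` letters -/
def S1Id {P : Type u} {P' : Type v} [Monoid P] [Monoid P'] (J : Type w) (ι : P →* P') : Prop :=
  ∃ κ : LAct P J → J → P', S1Ext (fun i : LAct P J => i) ι κ

variable {P : Type u} {P' : Type v} {Q : Type u'} {Q' : Type v'}
  [Monoid P] [Monoid P'] [Monoid Q] [Monoid Q']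

theorem s1_tr (J : Type w) (ι : P →* P') (ι' : Q →* Q') (e : P ≃* Q) (e' : P' ≃* Q')
    (hc : ∀ p, e' (ι p) = ι' (e p)) (h : S1Id J ι') : S1Id J ι := by
  obtain ⟨κ, h⟩ := h
  refine ⟨fun i j => e'.symm (κ (lmap e i) j), ⟨isGood_tr e' h.good, cons_tr ι ι' e e' hc h.cons,
    ?_, ?_, ?_, ?_, ?_⟩⟩
  · intro i j x j' x'
    rw [← lmap_r e, h.rel, ← hc, ← hc, ← e'.injective.eq_iff (a := e'.symm _ * ι x)]
    simp
  · intro i j i' j' w w' hw
    obtain ⟨h1, x, x', t, h2, h3, h4⟩ := h.lcm (lmap e i) j (lmap e i') j' (e' w) (e' w')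
      (by simpa using congrArg e' hw)
    refine ⟨lmap_inj e h1, e.symm x, e.symm x', e'.symm t, ?_, ?_, ?_⟩
    · exact h2
    · apply e'.injective
      rw [map_mul, hc, h3]; simp
    · apply e'.injective
      rw [map_mul, hc, h4]; simp
  · intro w
    rcases h.nf (e' w) with ⟨p, hp⟩ | ⟨s, i, j, w', hw⟩
    · left
      refine ⟨e.symm p, e'.injective ?_⟩
      rw [hp, hc]; simp
    · right
      refine ⟨e.symm s, lmap e.symm i, j, e'.symm w', e'.injective ?_⟩
      have : lmap e (lmap e.symm i) = i := by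
        ext a b c d; simp [lmap]
      rw [hw, map_mul, map_mul, hc]
      simp [this]
  · intro s i j w' p hp
    apply h.new (e s) (lmap e i) j (e' w') (e p)
    rw [← hc, ← hc, ← hp]
    simp
  · intro s i j w' p
    rw [← dvd_tr e, ← h.dvd (e s) (lmap e i) j (e' w') (e p), ← dvd_tr e', ← hc, ← hc]
    simp

end s1

/-! ## (S2) -/

section s2

/-- transport of a closed set -/
def cmap {P : Type u} {Q : Type v} [Monoid P] [Monoid Q] (e : P ≃* Q) (C : Closed P) :
    Closed Q where
  S := {q | e.symm q ∈ C.S}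
  one := by simpa using C.one
  up x s h hs := C.up (e.symm x) (e.symm s) ((dvd_tr e.symm).2 h) hs
  dir s t hs ht := by
    obtain ⟨m, hm, h1, h2⟩ := C.dir _ _ hs ht
    refine ⟨e m, by simpa using hm, ?_, ?_⟩
    · rw [← dvd_tr e.symm]; simpa using h1
    · rw [← dvd_tr e.symm]; simpa using h2
  R s r := C.R (e.symm s) (e.symm r)
  dom s r h := C.dom _ _ h
  refl s h := C.refl _ h
  symm s r h := C.symm _ _ h
  trans s r q h h' := C.trans _ _ _ h h'
  act s r t h ht := by
    have := C.act _ _ (e.symm t) h (by simpa using ht)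
    simpa using this
  shrink s r t h := C.shrink _ _ (e.symm t) (by simpa using h)

variable {P : Type u} {P' : Type v} {Q : Type u'} {Q' : Type v'}
  [Monoid P] [Monoid P'] [Monoid Q] [Monoid Q']

theorem cmap_S (e : P ≃* Q) (C : Closed P) (p : P) : e p ∈ (cmap e C).S ↔ p ∈ C.S := by
  simp [cmap]

theorem cmap_R (e : P ≃* Q) (C : Closed P) (p q : P) : (cmap e C).R (e p) (e q) ↔ C.R p q := by
  simp [cmap]

theorem cmap_mem (e : P ≃* Q) (C : Closed P) (z : P) : (cmap e C).Mem (e z) ↔ C.Mem z := by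
  constructor
  · rintro ⟨h1, h2⟩
    refine ⟨fun s hs => (dvd_tr e).1 (h1 _ ((cmap_S e C s).2 hs)), fun s r x hR hz => ?_⟩
    exact e.injective (by simpa using h2 (e s) (e r) (e x) ((cmap_R e C s r).2 hR) (by simp [hz]))
  · rintro ⟨h1, h2⟩
    refine ⟨fun s hs => ?_, fun s r x hR hz => ?_⟩
    · have := (dvd_tr e).2 (h1 _ hs)
      simpa using this
    · have := h2 (e.symm s) (e.symm r) (e.symm x) hR
        (e.injective (by simpa using hz))
      simpa using congrArg e this

/-- transport of a datum -/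
def dmap (e : P ≃* Q) (d : Datum P) : Datum Q where
  C := cmap e d.C
  a := e d.a
  b := e d.b
  a_ne := by simpa using d.a_ne
  b_mem := (cmap_mem e _ _).2 d.b_mem
  ex_p := by
    obtain ⟨p, h1, h2, h3⟩ := d.ex_p
    exact ⟨e p, (cmap_mem e _ _).2 h1, (dvd_tr e).2 h2, fun h => h3 ((dvd_tr e).1 h)⟩

theorem cmap_symm (e : P ≃* Q) (C : Closed P) : cmap e.symm (cmap e C) = C := by
  have h1 : (cmap e.symm (cmap e C)).S = C.S := by
    ext x; simp [cmap]
  have h2 : (cmap e.symm (cmap e C)).R = C.R := by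
    funext x y; simp [cmap]
  cases C
  rename_i F R _ _ _ _ _ _
  cases F
  simp [cmap] at h1 h2 ⊢

theorem dmap_symm (e : P ≃* Q) (d : Datum P) : dmap e.symm (dmap e d) = d := by
  ext1
  · exact cmap_symm e d.C
  · simp [dmap]
  · simp [dmap]

/-- transport of a letter -/
def ymap (e : P ≃* Q) (l : Ltr P) : Ltr Q where
  d := dmap e l.d
  s := e l.s
  r := e l.r
  hr := (cmap_S e _ _).2 l.hr

theorem ymap_symm (e : P ≃* Q) (l : Ltr P) : ymap e.symm (ymap e l) = l := by
  obtain ⟨d, s, r, hr⟩ := l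
  have := dmap_symm e d
  simp only [ymap]
  simp only [MulEquiv.symm_apply_apply]
  congr

theorem ymap_symm' (e : P ≃* Q) (l : Ltr Q) : ymap e (ymap e.symm l) = l := by
  simpa using ymap_symm e.symm l

theorem ymap_eqv (e : P ≃* Q) (l l' : Ltr P) : (ymap e l).Eqv (ymap e l') ↔ l.Eqv l' := by
  have key : ∀ {P : Type u} {Q : Type u'} [Monoid P] [Monoid Q] (e : P ≃* Q) (l l' : Ltr P),
      l.Eqv l' → (ymap e l).Eqv (ymap e l') := by
    intro P Q _ _ e l l' h
    obtain ⟨h1, t, t', h2, h3⟩ := h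
    refine ⟨by simp [ymap, h1], e t, e t', ?_, ?_⟩
    · simp [ymap, ← map_mul, h2]
    · simp only [ymap, dmap, ← map_mul]
      exact (cmap_R e _ _ _).2 h3
  have key' : ∀ {P : Type u'} {Q : Type u} [Monoid P] [Monoid Q] (e : P ≃* Q) (l l' : Ltr P),
      l.Eqv l' → (ymap e l).Eqv (ymap e l') := by
    intro P Q _ _ e l l' h
    obtain ⟨h1, t, t', h2, h3⟩ := h
    refine ⟨by simp [ymap, h1], e t, e t', ?_, ?_⟩
    · simp [ymap, ← map_mul, h2]
    · simp only [ymap, dmap, ← map_mul]
      exact (cmap_R e _ _ _).2 h3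
  refine ⟨fun h => ?_, key e l l'⟩
  simpa [ymap_symm] using key' e.symm _ _ h

/-- (S2) step with all data -/
def S2Id {P : Type u} {P' : Type v} [Monoid P] [Monoid P'] (ι : P →* P') : Prop :=
  ∃ (y : Ltr P → P') (len : P' → ℕ), S2All ι y len

theorem s2_tr (ι : P →* P') (ι' : Q →* Q') (e : P ≃* Q) (e' : P' ≃* Q')
    (hc : ∀ p, e' (ι p) = ι' (e p)) (h : S2Id ι') : S2Id ι := by
  obtain ⟨y, len, h⟩ := h
  have hn : ∀ (l : Ltr P) (x : P'), ¬ ι l.d.a ∣ x ↔ ¬ ι' (ymap e l).d.a ∣ e' x := by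
    intro l x
    rw [← dvd_tr e', hc]; rfl
  refine ⟨fun l => e'.symm (y (ymap e l)), fun w => len (e' w), ⟨isGood_tr e' h.good,
    cons_tr ι ι' e e' hc h.cons, ?_, ?_, ?_, ?_, ?_, ?_, ?_, ?_, ?_⟩⟩
  · intro l l'
    rw [← ymap_eqv e, h.eqv]
    simp
  · intro p l
    apply e'.injective
    rw [map_mul, hc]
    simp only [MulEquiv.apply_symm_apply]
    rw [h.act]
    congr 1
    simp [ymap, Ltr.smul]
  · intro l x hx
    apply e'.injective
    rw [map_mul, hc, hc]
    simp only [MulEquiv.apply_symm_apply]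
    have := h.rel (ymap e l) (e x) (by simp [ymap, dmap, hx])
    simpa [ymap, dmap] using this
  · intro p
    simp [hc, h.len_ι]
  · intro p w
    simp [hc, h.len_mul]
  · intro l x hx
    have := h.len_y (ymap e l) (e' x) ((hn l x).1 hx)
    simpa using this
  · intro w
    rcases h.nf (e' w) with ⟨p, hp⟩ | ⟨l, x, h1, h2⟩
    · left
      refine ⟨e.symm p, e'.injective ?_⟩
      rw [hp, hc]; simp
    · right
      refine ⟨ymap e.symm l, e'.symm x, e'.injective ?_, ?_⟩
      · rw [h1]; simp [ymap_symm']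
      · rw [hn, ymap_symm']
        simpa using h2
  · intro l x p hx hp
    apply h.new (ymap e l) (e' x) (e p) ((hn l x).1 hx)
    rw [← hc, ← hp]; simp
  · intro l x l' x' hx hx' hh
    obtain ⟨h1, h2⟩ := h.uniq (ymap e l) (e' x) (ymap e l') (e' x') ((hn l x).1 hx)
      ((hn l' x').1 hx') (by simpa using congrArg e' hh)
    exact ⟨(ymap_eqv e _ _).1 h1, e'.injective h2⟩

end s2

end Crest.Agent.R296.TowTx281
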