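import Crest.Agent.R296.TowG_281

/-!
# Row 296, block A, leaf A-TOW, part 3: the tower (helper281)

`tower : StS1 → StH → StTow`
-/

set_option autoImplicit false

namespace Crest.Agent.R296.Towx281

open IfAx378 TowTx281 TowGx281

/-! ## bottom: the free monoid on one letter -/

theorem good_nat : IsGood (Multiplicative ℕ) where
  lc f g h hh := mul_left_cancel hh
  unit f g hh := by
    have : f.toAdd + g.toAdd = 0 := congrArg Multiplicative.toAdd hh
    exact congrArg Multiplicative.ofAdd (Nat.eq_zero_of_add_eq_zero_right this)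
  lcm f g x y _ := by
    refine ⟨Multiplicative.ofAdd (g.toAdd - f.toAdd), Multiplicative.ofAdd (f.toAdd - g.toAdd), ?_,
      fun x' y' hh => ⟨Multiplicative.ofAdd
        (x'.toAdd - (g.toAdd - f.toAdd)), ?_, ?_⟩⟩
    · apply Multiplicative.toAdd.injective
      simp only [toAdd_mul, toAdd_ofAdd]
      omega
    · apply Multiplicative.toAdd.injective
      have : f.toAdd + x'.toAdd = g.toAdd + y'.toAdd := congrArg Multiplicative.toAdd hh
      simp only [toAdd_mul, toAdd_ofAdd]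
      omega
    · apply Multiplicative.toAdd.injective
      have : f.toAdd + x'.toAdd = g.toAdd + y'.toAdd := congrArg Multiplicative.toAdd hh
      simp only [toAdd_mul, toAdd_ofAdd]
      omega

theorem base_inj : Function.Injective
    (fun n : Multiplicative ℕ => (((Multiplicative.toAdd n : ℕ)) : Om)) := by
  intro a b h
  have h' : ((Multiplicative.toAdd a : ℕ) : Om) = ((Multiplicative.toAdd b : ℕ) : Om) := h
  exact Multiplicative.toAdd.injective (by exact_mod_cast h')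

/-- the bottom monoid -/
noncomputable def base : GM := rangeGM _ base_inj

theorem base_good : IsGood base.X := isGood_tr (rangeEq _ base_inj) good_nat

theorem base_small : Small.{0} base.X := small_range _

theorem base_ne : ∃ f : base.X, f ≠ 1 := by
  unfold base
  refine ⟨(rangeEq _ base_inj).symm (Multiplicative.ofAdd 1), fun h => ?_⟩
  have := congrArg (rangeEq _ base_inj) h
  rw [MulEquiv.apply_symm_apply, map_one (rangeEq _ base_inj)] at this
  simp at this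

/-! ## the recursion -/

section rec

variable (H1 : StS1) (H2 : StH)

open Classical in
/-- one step -/
noncomputable def step (β : Ordinal.{0}) (G : GM) : GM :=
  if h : Small.{0} G.X ∧ IsGood G.X then
    (if β % 2 = 0 then (exS1 H1 β.ToType G h.1 h.2).choose else (exS2 H2 G h.1 h.2).choose)
  else G

theorem step_spec (β : Ordinal.{0}) (G : GM) (h1 : Small.{0} G.X) (h2 : IsGood G.X) :
    Le G (step H1 H2 β G) ∧ Small.{0} (step H1 H2 β G).X ∧ IsGood (step H1 H2 β G).X ∧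
    (β % 2 = 0 → IsS1 β.ToType G (step H1 H2 β G)) ∧ (β % 2 = 1 → IsS2 G (step H1 H2 β G)) := by
  by_cases hβ : β % 2 = 0
  · have e : step H1 H2 β G = (exS1 H1 β.ToType G h1 h2).choose := by
      unfold step
      rw [dif_pos ⟨h1, h2⟩, if_pos hβ]
    rw [e]
    obtain ⟨h3, h4, h5, h6⟩ := (exS1 H1 β.ToType G h1 h2).choose_spec
    refine ⟨h3, h4, h5, fun _ => h6, fun h => ?_⟩
    rw [hβ] at h
    exact absurd h zero_ne_one
  · have e : step H1 H2 β G = (exS2 H2 G h1 h2).choose := by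
      unfold step
      rw [dif_pos ⟨h1, h2⟩, if_neg hβ]
    rw [e]
    obtain ⟨h3, h4, h5, h6⟩ := (exS2 H2 G h1 h2).choose_spec
    exact ⟨h3, h4, h5, fun h => absurd h hβ, fun _ => h6⟩

open Classical in
/-- the chain -/
noncomputable def F (β : Ordinal.{0}) : GM :=
  Ordinal.limitRecOn β base (fun β G => step H1 H2 β G)
    (fun β hβ f => if h : Dir (fun γ : Set.Iio β => f γ.1 γ.2) then union h ⟨0, hβ.pos⟩ else base)

theorem F_zero : F H1 H2 0 = base := Ordinal.limitRecOn_zero _ _ _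

theorem F_succ (β : Ordinal.{0}) : F H1 H2 (β + 1) = step H1 H2 β (F H1 H2 β) :=
  Ordinal.limitRecOn_add_one _ _ _ _

open Classical in
theorem F_lim (β : Ordinal.{0}) (hβ : Order.IsSuccLimit β)
    (h : Dir (fun γ : Set.Iio β => F H1 H2 γ.1)) : F H1 H2 β = union h ⟨0, hβ.pos⟩ := by
  have h' := Ordinal.limitRecOn_limit (motive := fun _ => GM) β base
    (fun β G => step H1 H2 β G)
    (fun β hβ f => if h : Dir (fun γ : Set.Iio β => f γ.1 γ.2) then union h ⟨0, hβ.pos⟩ else base) hβ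
  refine Eq.trans h' ?_
  exact dif_pos h

theorem F_inv (β : Ordinal.{0}) :
    Small.{0} (F H1 H2 β).X ∧ IsGood (F H1 H2 β).X ∧ ∀ γ ≤ β, Le (F H1 H2 γ) (F H1 H2 β) := by
  induction β using Ordinal.limitRecOn with
  | zero =>
    rw [F_zero]
    refine ⟨base_small, base_good, fun γ hγ => ?_⟩
    have : γ = 0 := le_antisymm hγ zero_le
    rw [this, F_zero]
    exact Le.refl _
  | add_one β ih =>
    obtain ⟨h1, h2, h3⟩ := ih
    obtain ⟨h4, h5, h6, -, -⟩ := step_spec H1 H2 β _ h1 h2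
    rw [← F_succ] at h4 h5 h6
    refine ⟨h5, h6, fun γ hγ => ?_⟩
    rcases hγ.lt_or_eq with h | rfl
    · exact (h3 γ (Order.lt_add_one_iff.1 h)).trans h4
    · exact Le.refl _
  | limit β hβ ih =>
    have hd : Dir (fun γ : Set.Iio β => F H1 H2 γ.1) := by
      rintro ⟨γ, hγ⟩ ⟨δ, hδ⟩
      rcases le_total γ δ with h | h
      · exact ⟨⟨δ, hδ⟩, (ih δ hδ).2.2 γ h, Le.refl _⟩
      · exact ⟨⟨γ, hγ⟩, Le.refl _, (ih γ hγ).2.2 δ h⟩
    rw [F_lim H1 H2 β hβ hd]
    refine ⟨small_union hd _ (fun γ => (ih γ.1 γ.2).1), good_union hd _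
      (fun γ => (ih γ.1 γ.2).2.1), fun γ hγ => ?_⟩
    rcases hγ.lt_or_eq with h | rfl
    · exact le_union hd ⟨0, hβ.pos⟩ ⟨γ, h⟩
    · rw [F_lim H1 H2 γ hβ hd]
      exact Le.refl _

theorem F_dir : Dir (F H1 H2) := by
  intro γ δ
  rcases le_total γ δ with h | h
  · exact ⟨δ, (F_inv H1 H2 δ).2.2 γ h, Le.refl _⟩
  · exact ⟨γ, Le.refl _, (F_inv H1 H2 γ).2.2 δ h⟩

/-- the whole monoid -/
noncomputable def FU : GM := union (F_dir H1 H2) 0

/-- `P_β` -/
noncomputable def A (β : Ordinal.{0}) : Submonoid (FU H1 H2).X where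
  carrier := {p | p.1 ∈ (F H1 H2 β).X}
  one_mem' := by
    change (union (F_dir H1 H2) 0).o ∈ (F H1 H2 β).X
    rw [(sub_union (F_dir H1 H2) 0 β).o]
    exact (F H1 H2 β).o_mem
  mul_mem' := by
    intro x y hx hy
    change (union (F_dir H1 H2) 0).op x.1 y.1 ∈ (F H1 H2 β).X
    rw [(sub_union (F_dir H1 H2) 0 β).op _ hx _ hy]
    exact (F H1 H2 β).op_mem _ hx _ hy

/-- `A β` is `F β` -/
noncomputable def eA (β : Ordinal.{0}) : A H1 H2 β ≃* (F H1 H2 β).X where
  toFun x := ⟨x.1.1, x.2⟩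
  invFun x := ⟨⟨x.1, (sub_union (F_dir H1 H2) 0 β).sub x.2⟩, x.2⟩
  left_inv _ := rfl
  right_inv _ := rfl
  map_mul' x y := Subtype.ext ((sub_union (F_dir H1 H2) 0 β).op _ x.2 _ y.2)

theorem A_mono : Monotone (A H1 H2) := by
  intro γ β h x hx
  exact ((F_inv H1 H2 β).2.2 γ h).choose.sub hx

theorem A_s1 (β : Ordinal.{0}) (hβ : β % 2 = 0) :
    S1Id β.ToType (Submonoid.inclusion (A_mono H1 H2 (Order.le_succ β))) := by
  obtain ⟨h1, h2, h3⟩ := F_inv H1 H2 β
  obtain ⟨-, -, -, h, -⟩ := step_spec H1 H2 β _ h1 h2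
  obtain ⟨hs, h⟩ := h hβ
  have e : F H1 H2 (Order.succ β) = step H1 H2 β (F H1 H2 β) := F_succ H1 H2 β
  revert hs h
  rw [← e]
  intro hs h
  exact s1_tr _ _ hs.incl (eA H1 H2 β) (eA H1 H2 (Order.succ β)) (fun p => rfl) h

theorem A_s2 (β : Ordinal.{0}) (hβ : β % 2 = 1) :
    S2Id (Submonoid.inclusion (A_mono H1 H2 (Order.le_succ β))) := by
  obtain ⟨h1, h2, h3⟩ := F_inv H1 H2 β
  obtain ⟨-, -, -, -, h⟩ := step_spec H1 H2 β _ h1 h2
  obtain ⟨hs, h⟩ := h hβ
  have e : F H1 H2 (Order.succ β) = step H1 H2 β (F H1 H2 β) := F_succ H1 H2 β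
  revert hs h
  rw [← e]
  intro hs h
  exact s2_tr _ hs.incl (eA H1 H2 β) (eA H1 H2 (Order.succ β)) (fun p => rfl) h

theorem A_f0 : ∃ f : (FU H1 H2).X, f ∈ A H1 H2 0 ∧ f ≠ 1 := by
  obtain ⟨f, hf⟩ : ∃ f : (F H1 H2 0).X, f ≠ 1 := by
    rw [F_zero]; exact base_ne
  refine ⟨((eA H1 H2 0).symm f).1, ((eA H1 H2 0).symm f).2, fun h => hf ?_⟩
  have h' : (eA H1 H2 0).symm f = 1 := Subtype.ext h
  have := congrArg (eA H1 H2 0) h'
  rwa [MulEquiv.apply_symm_apply, map_one (eA H1 H2 0)] at this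

theorem A_cons (β : Ordinal.{0}) : Cons (A H1 H2 β).subtype := by
  obtain ⟨s, c⟩ := le_union (F_dir H1 H2) 0 β
  exact cons_tr _ s.incl (eA H1 H2 β) (MulEquiv.refl _) (fun p => rfl) c

theorem A_lim (β : Ordinal.{0}) (hβ : Order.IsSuccLimit β) (p : (FU H1 H2).X)
    (hp : p ∈ A H1 H2 β) : ∃ γ < β, p ∈ A H1 H2 γ := by
  have hd : Dir (fun γ : Set.Iio β => F H1 H2 γ.1) := by
    rintro ⟨γ, hγ⟩ ⟨δ, hδ⟩
    rcases le_total γ δ with h | h
    · exact ⟨⟨δ, hδ⟩, (F_inv H1 H2 δ).2.2 γ h, Le.refl _⟩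
    · exact ⟨⟨γ, hγ⟩, Le.refl _, (F_inv H1 H2 γ).2.2 δ h⟩
  have h : p.1 ∈ (F H1 H2 β).X := hp
  rw [F_lim H1 H2 β hβ hd] at h
  obtain ⟨⟨γ, hγ⟩, h⟩ := Set.mem_iUnion.1 h
  exact ⟨γ, hγ, h⟩

/-- LEAF A-TOW, data form -/
theorem tower : Nonempty (Tower (FU H1 H2).X) := by
  classical
  obtain ⟨f0, hf0, hf0'⟩ := A_f0 H1 H2
  have h1 : ∀ β : Ordinal.{0}, ∃ κ : LAct (A H1 H2 β) β.ToType → β.ToType →
      A H1 H2 (Order.succ β), β % 2 = 0 → S1Ext (fun i => i)
        (Submonoid.inclusion (A_mono H1 H2 (Order.le_succ β))) κ := by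
    intro β
    by_cases hβ : β % 2 = 0
    · obtain ⟨κ, h⟩ := A_s1 H1 H2 β hβ
      exact ⟨κ, fun _ => h⟩
    · exact ⟨fun _ _ => 1, fun h => absurd h hβ⟩
  have h2 : ∀ β : Ordinal.{0}, ∃ (y : Ltr (A H1 H2 β) → A H1 H2 (Order.succ β))
      (len : A H1 H2 (Order.succ β) → ℕ), β % 2 = 1 → S2All
        (Submonoid.inclusion (A_mono H1 H2 (Order.le_succ β))) y len := by
    intro β
    by_cases hβ : β % 2 = 1
    · obtain ⟨y, len, h⟩ := A_s2 H1 H2 β hβ
      exact ⟨y, len, fun _ => h⟩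
    · exact ⟨fun _ => 1, fun _ => 0, fun h => absurd h hβ⟩
  choose κ hκ using h1
  choose y len hy using h2
  exact ⟨
    { good := good_union (F_dir H1 H2) 0 (fun β => (F_inv H1 H2 β).2.1)
      A := A H1 H2
      mono := A_mono H1 H2
      small := fun β => by
        have := (F_inv H1 H2 β).1
        exact small_map (eA H1 H2 β).toEquiv
      cons := A_cons H1 H2
      exh := fun p => by
        have h : p.1 ∈ ⋃ β, (F H1 H2 β).X := p.2
        obtain ⟨β, hβ⟩ := Set.mem_iUnion.1 h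
        exact ⟨β, hβ⟩
      lim := A_lim H1 H2
      f0 := f0
      f0_mem := hf0
      f0_ne := hf0'
      κ := κ
      s1 := hκ
      y := y
      len := len
      s2 := hy }⟩

end rec

/-- LEAF A-TOW -/
theorem stTow (H1 : StS1) (H2 : StH) : StTow := ⟨_, inferInstance, tower H1 H2⟩

end Crest.Agent.R296.Towx281
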