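import Crest.Agent.R296.OutA_378
import Crest.Agent.R296.End_365
import Crest.Agent.R296.NotAC_929
import Crest.Agent.R296.ACWO_622
import Crest.Agent.R296.AKit_779
import Crest.Agent.R296.KitT_70
import Crest.Agent.R296.Tow_281
import Crest.Agent.R296.StS1_531
import Crest.Agent.R296.StH_478
import Crest.Agent.R296.AS2_537
import Crest.Agent.R296.ACap_565

/-!
# Row 296 (S0448): wiring check (helper378): everything except the partition principle

The final file is helper365's; this is an independent check of the interfaces.
-/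

set_option autoImplicit false

open CategoryTheory FirstOrder FirstOrder.Language Crest.LogicCS.SetTheory

namespace Crest.Agent.R296.Wirex378

open Crest.Agent.R296

theorem tower_exists : IfAx378.StTow := Towx281.stTow StS1x531.stS1 (StHx478.stH_of_stS2 IfAx378.stS2)

theorem kit {P : Type 1} [Monoid P] (T : IfAx378.Tower P) : LctStx153.Kit P T.A :=
  KitTx70.kit T (ACapx565.cap T) (AKitx779.kit_gen T) (AKitx779.kit_let T) (AKitx779.kit_tri T)
    (AKitx779.kit_triD T)

theorem stKit : OutAx378.StKit := fun _ _ T => kit T

theorem s0448_of_pp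
    (hPP : ∀ (P : Type 1) [Monoid P] [IfAx378.IsGood P] (_ : IfAx378.Tower P),
      PPBrx365.PPOut (CondCx153.Cond P)) :
    Theory.IsSatisfiable (ZF ∪ {ppAx, acwoAx, ∼acAx}) := by
  obtain ⟨P, hM, ⟨T⟩⟩ := tower_exists
  have := T.good
  have K := kit T
  have hG : Locx929.GenS P := fun a b S h1 h2 h3 h4 => K.gen a b S (by assumption) (by assumption) (by assumption) (by assumption)
  have hL : Locx929.LetS P := fun S h1 h2 => K.letr S h1 h2
  exact Endx365.sat_of_out (hPP P T) (CondCx153.Cond.bot P)
    (ACWOx622.acwo_cond hG T.f0 T.f0_ne _) (NotACx929.not_ac T.f0 hG hL T.f0_ne _)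

end Crest.Agent.R296.Wirex378
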